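import Vale.Agent.Lib.P200.BTransfer

/-!
The growth table over every field, by extension of the base field.
-/

namespace Vale.Agent.Lib.P200
open MvPolynomial Module

variable {K : Type*} [Field K]

theorem growth_coord_low [Infinite K] {f0 : Poly K} (hf0 : f0.IsHomogeneous 3) (hne : f0 ≠ 0)
    {d : ℕ} (hd : 1 ≤ d) {X Y : Submodule K (Poly K)} (h1 : F0 f0 d ≤ X) (h2 : X ≤ HS K d)
    (h3 : HS K 1 * X ≤ Y) (h4 : F0 f0 (d + 1) ≤ Y) (h5 : Y ≤ HS K (d + 1)) :
    finrank K (F0 f0 (d + 1)) + Ed d (finrank K X - finrank K (F0 f0 d)) ≤ finrank K Y := by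
  obtain ⟨σ, hσ, hN⟩ := exists_coord hf0 hne
  have := growth_norm_low (X := mapC σ X) (Y := mapC σ Y) hN hd
    (by rw [hσ.mapC_F0]; exact mapC_le h1)
    (by rw [← hσ.mapC_HS d]; exact mapC_le h2)
    (by rw [← hσ.mapC_HS 1, ← hσ.mapC_mul]; exact mapC_le h3)
    (by rw [hσ.mapC_F0]; exact mapC_le h4)
    (by rw [← hσ.mapC_HS (d + 1)]; exact mapC_le h5)
  rwa [hσ.mapC_F0, hσ.mapC_F0, finrank_mapC, finrank_mapC, finrank_mapC, finrank_mapC] at this

theorem growth_coord_top [Infinite K] {f : Fin 3 → Poly K} {b d : ℕ} (hf0 : (f 0).IsHomogeneous 3)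
    (hne : f 0 ≠ 0) (hb : 3 ≤ b) (hf1 : (f 1).IsHomogeneous b) (hf2 : (f 2).IsHomogeneous b)
    (hm : MPrim (Fid f)) (hdim : finrank K (Fb f b) = finrank K (F0 (f 0) b) + 2) (hdb : d + 1 = b)
    {X Y : Submodule K (Poly K)} (h1 : F0 (f 0) d ≤ X) (h2 : X ≤ HS K d) (h3 : HS K 1 * X ≤ Y)
    (h4 : Fb f b ≤ Y) (h5 : Y ≤ HS K b) :
    finrank K (Fb f b) + Eb b (finrank K X - finrank K (F0 (f 0) d)) ≤ finrank K Y := by
  obtain ⟨σ, hσ, hN⟩ := exists_coord hf0 hne
  have := growth_norm_top (f := fun i => σ (f i)) (X := mapC σ X) (Y := mapC σ Y) hN hb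
    (hσ.fwd b _ hf1) (hσ.fwd b _ hf2) (hσ.mprim_comp hm)
    (by rw [hσ.mapC_Fb, hσ.mapC_F0, finrank_mapC, finrank_mapC]; exact hdim) hdb
    (by rw [hσ.mapC_F0]; exact mapC_le h1)
    (by rw [← hσ.mapC_HS d]; exact mapC_le h2)
    (by rw [← hσ.mapC_HS 1, ← hσ.mapC_mul]; exact mapC_le h3)
    (by rw [hσ.mapC_Fb]; exact mapC_le h4)
    (by rw [← hσ.mapC_HS b]; exact mapC_le h5)
  rwa [hσ.mapC_Fb, hσ.mapC_F0, finrank_mapC, finrank_mapC, finrank_mapC, finrank_mapC] at this

/-! ### Extension of scalars -/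

section base

variable (L : Type*) [Field L] [Algebra K L]

/-- The extension of scalars of a polynomial. -/
noncomputable abbrev iotaP (L : Type*) [Field L] [Algebra K L] : Poly K →+* Poly L :=
  MvPolynomial.map (algebraMap K L)

/-- The extension of scalars of a subspace. -/
noncomputable def extS (W : Submodule K (Poly K)) : Submodule L (Poly L) :=
  Submodule.span L (iotaP L '' (W : Set (Poly K)))

variable {L}

theorem mem_extS {W : Submodule K (Poly K)} {x : Poly K} (hx : x ∈ W) : iotaP L x ∈ extS L W :=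
  Submodule.subset_span ⟨x, hx, rfl⟩

theorem extS_le {W : Submodule K (Poly K)} {U : Submodule L (Poly L)}
    (h : ∀ x ∈ W, iotaP L x ∈ U) : extS L W ≤ U := by
  rw [extS, Submodule.span_le]
  rintro _ ⟨x, hx, rfl⟩
  exact h x hx

theorem extS_mono {W W' : Submodule K (Poly K)} (h : W ≤ W') : extS L W ≤ extS L W' :=
  extS_le fun _ hx => mem_extS (h hx)

theorem iotaP_smul (c : K) (p : Poly K) : iotaP L (c • p) = algebraMap K L c • iotaP L p := by
  rw [MvPolynomial.smul_eq_C_mul, MvPolynomial.smul_eq_C_mul, map_mul, map_C]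

theorem extS_mul_le (W W' : Submodule K (Poly K)) : extS L W * extS L W' ≤ extS L (W * W') := by
  rw [extS, extS, Submodule.span_mul_span, Submodule.span_le]
  rintro _ ⟨_, ⟨a, ha, rfl⟩, _, ⟨b, hb, rfl⟩, rfl⟩
  show iotaP L a * iotaP L b ∈ _
  rw [← map_mul]
  exact mem_extS (Submodule.mul_mem_mul ha hb)

theorem extS_HS (e : ℕ) : extS L (HS K e) = HS L e := by
  apply le_antisymm
  · exact extS_le fun x hx => IsHomogeneous.map hx _
  · intro y hy
    rw [← support_sum_monomial_coeff y]
    refine Submodule.sum_mem _ fun m hm => ?_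
    have hdeg : Finsupp.weight 1 m = e := hy (mem_support_iff.1 hm)
    have e1 : monomial m (coeff m y) = coeff m y • iotaP L (monomial m (1 : K)) := by
      rw [map_monomial, map_one, smul_monomial, smul_eq_mul, mul_one]
    rw [e1]
    refine Submodule.smul_mem _ _ (mem_extS ?_)
    exact isHomogeneous_monomial _ (by rw [Finsupp.degree_eq_weight_one]; exact hdeg)

/-- Extension of scalars preserves linear independence of polynomials. -/
theorem linearIndependent_iota {n : ℕ} {v : Fin n → Poly K} (hv : LinearIndependent K v) :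
    LinearIndependent L (fun i => iotaP L (v i)) := by
  rw [Fintype.linearIndependent_iff]
  intro g hg i
  rw [← Module.forall_dual_apply_eq_zero_iff K (g i)]
  intro ψ
  have hc : ∀ m, ∑ j, g j * algebraMap K L (coeff m (v j)) = 0 := by
    intro m
    have := congrArg (coeff m) hg
    simpa [coeff_sum, coeff_map] using this
  have hs : ∑ j, ψ (g j) • v j = 0 := by
    ext m
    have h1 := congrArg ψ (hc m)
    rw [map_sum, map_zero] at h1
    rw [coeff_sum, coeff_zero, ← h1]
    refine Finset.sum_congr rfl fun j _ => ?_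
    rw [coeff_smul, smul_eq_mul, mul_comm, ← smul_eq_mul, ← map_smul, Algebra.smul_def, mul_comm]
  exact (Fintype.linearIndependent_iff.1 hv) _ hs i

theorem finrank_extS (W : Submodule K (Poly K)) [Module.Finite K W] :
    finrank L (extS L W) = finrank K W := by
  classical
  let b := Module.finBasis K W
  let v : Fin (finrank K W) → Poly K := fun i => (b i : Poly K)
  have hv : LinearIndependent K v := b.linearIndependent.map' W.subtype (Submodule.ker_subtype W)
  have hL := linearIndependent_iota (L := L) hv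
  have hspan : extS L W = Submodule.span L (Set.range fun i => iotaP L (v i)) := by
    apply le_antisymm
    · refine extS_le fun x hx => ?_
      have e := b.sum_repr ⟨x, hx⟩
      have e2 := congrArg Subtype.val e
      simp only [Submodule.coe_sum, Submodule.coe_smul] at e2
      rw [← e2, map_sum]
      refine Submodule.sum_mem _ fun i _ => ?_
      rw [iotaP_smul]
      exact Submodule.smul_mem _ _ (Submodule.subset_span ⟨i, rfl⟩)
    · rw [Submodule.span_le]
      rintro _ ⟨i, rfl⟩
      exact mem_extS (b i).2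
  rw [hspan, finrank_span_eq_card hL, Fintype.card_fin]

theorem extS_F0 (f0 : Poly K) (hf0 : f0.IsHomogeneous 3) (d : ℕ) :
    F0 (iotaP L f0) d = extS L (F0 f0 d) := by
  apply le_antisymm
  · intro x hx
    obtain ⟨h1, h2⟩ := mem_F0.1 hx
    obtain ⟨c, rfl⟩ := mem_Fo.1 h1
    have hfL : (iotaP L f0).IsHomogeneous 3 := IsHomogeneous.map hf0 _
    rw [← homogeneousComponent_eq_self h2, comp_mul_hzc hfL]
    by_cases h3 : 3 ≤ d
    · have hz := (hz_hzc c d 3).1 h3
      have hmem : hzc c d 3 ∈ extS L (HS K (d - 3)) := by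
        rw [extS_HS]
        exact hz
      have hq : iotaP L f0 ∈ extS L (Submodule.span K {f0}) :=
        mem_extS (Submodule.mem_span_singleton_self _)
      have h5 := extS_mul_le _ _ (Submodule.mul_mem_mul hmem hq)
      refine extS_mono ?_ h5
      rw [Submodule.mul_le]
      intro u hu w hw
      obtain ⟨r, rfl⟩ := Submodule.mem_span_singleton.1 hw
      refine mem_F0.2 ⟨mem_Fo.2 ⟨u * C r, by rw [MvPolynomial.smul_eq_C_mul]; ring⟩, ?_⟩
      have h6 : (u * (r • f0)).IsHomogeneous (d - 3 + 3) :=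
        (show u.IsHomogeneous (d - 3) from hu).mul (Submodule.smul_mem (HS K 3) r hf0)
      rwa [Nat.sub_add_cancel h3] at h6
    · rw [(hz_hzc c d 3).2 (by omega), zero_mul]
      exact Submodule.zero_mem _
  · refine extS_le fun x hx => ?_
    obtain ⟨h1, h2⟩ := mem_F0.1 hx
    obtain ⟨c, rfl⟩ := mem_Fo.1 h1
    refine mem_F0.2 ⟨mem_Fo.2 ⟨iotaP L c, map_mul _ _ _⟩, IsHomogeneous.map h2 _⟩

theorem extS_Fb {f : Fin 3 → Poly K} (hf0 : (f 0).IsHomogeneous 3) (b : ℕ) :
    Fb (fun i => iotaP L (f i)) b = extS L (Fb f b) := by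
  apply le_antisymm
  · refine sup_le ?_ ?_
    · rw [extS_F0 (L := L) (f 0) hf0]
      exact extS_mono le_sup_left
    · rw [Submodule.span_le]
      rintro _ (rfl | rfl)
      · exact mem_extS (Submodule.mem_sup_right (Submodule.subset_span (by simp)))
      · exact mem_extS (Submodule.mem_sup_right (Submodule.subset_span (by simp)))
  · refine extS_le fun x hx => ?_
    obtain ⟨w, hw, α, β, rfl⟩ := mem_Fb hx
    rw [map_add, map_add, map_mul, map_mul, map_C, map_C]
    refine Submodule.add_mem _ (Submodule.add_mem _ ?_ ?_) ?_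
    · refine Submodule.mem_sup_left ?_
      rw [extS_F0 (L := L) (f 0) hf0]
      exact mem_extS hw
    · rw [← MvPolynomial.smul_eq_C_mul]
      exact Submodule.smul_mem _ _ (Submodule.mem_sup_right (Submodule.subset_span (by simp)))
    · rw [← MvPolynomial.smul_eq_C_mul]
      exact Submodule.smul_mem _ _ (Submodule.mem_sup_right (Submodule.subset_span (by simp)))

theorem mprim_iota {f : Fin 3 → Poly K} (hm : MPrim (Fid f)) :
    MPrim (Fid fun i => iotaP L (f i)) := by
  obtain ⟨N, hN⟩ := hm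
  refine ⟨N, ?_⟩
  rw [← extS_HS (K := K)]
  refine extS_le fun x hx => ?_
  have h1 : x ∈ Fid f := hN hx
  have h2 : ∀ y ∈ Fid f, iotaP L y ∈ Fid fun i => iotaP L (f i) := by
    intro y hy
    unfold Fid at hy
    refine Submodule.span_induction (p := fun y _ => iotaP L y ∈ Fid fun i => iotaP L (f i))
      ?_ ?_ ?_ ?_ hy
    · rintro _ ⟨i, rfl⟩
      exact Ideal.subset_span ⟨i, rfl⟩
    · simp
    · intro a b _ _ ha hb
      rw [map_add]
      exact Ideal.add_mem _ ha hb
    · intro c a _ ha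
      rw [smul_eq_mul, map_mul]
      exact Ideal.mul_mem_left _ _ ha
  exact h2 _ h1

theorem iota_ne_zero {p : Poly K} (hp : p ≠ 0) : iotaP (K := K) L p ≠ 0 := by
  intro h
  apply hp
  exact MvPolynomial.map_injective _ (algebraMap K L).injective (by rw [h, map_zero])

end base

/-- The growth table below the degree of the other generators, over every field. -/
theorem growth_any_low {f0 : Poly K} (hf0 : f0.IsHomogeneous 3) (hne : f0 ≠ 0)
    {d : ℕ} (hd : 1 ≤ d) {X Y : Submodule K (Poly K)} (h1 : F0 f0 d ≤ X) (h2 : X ≤ HS K d)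
    (h3 : HS K 1 * X ≤ Y) (h4 : F0 f0 (d + 1) ≤ Y) (h5 : Y ≤ HS K (d + 1)) :
    finrank K (F0 f0 (d + 1)) + Ed d (finrank K X - finrank K (F0 f0 d)) ≤ finrank K Y := by
  let L := AlgebraicClosure K
  have hfinX := finite_of_le_HS h2
  have hfinY := finite_of_le_HS h5
  have hfinF := finite_of_le_HS (F0_le_HS f0 d)
  have hfinF' := finite_of_le_HS (F0_le_HS f0 (d + 1))
  have := growth_coord_low (K := L) (f0 := iotaP (K := K) L f0) (X := extS L X) (Y := extS L Y)
    (IsHomogeneous.map hf0 _) (iota_ne_zero hne) hd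
    (by rw [extS_F0 f0 hf0]; exact extS_mono h1)
    (by rw [← extS_HS (K := K)]; exact extS_mono h2)
    (by rw [← extS_HS (K := K)]; exact le_trans (extS_mul_le _ _) (extS_mono h3))
    (by rw [extS_F0 f0 hf0]; exact extS_mono h4)
    (by rw [← extS_HS (K := K)]; exact extS_mono h5)
  rwa [extS_F0 f0 hf0, extS_F0 f0 hf0, finrank_extS, finrank_extS, finrank_extS, finrank_extS] at this

/-- The growth table into the degree of the other generators, over every field. -/
theorem growth_any_top {f : Fin 3 → Poly K} {b d : ℕ} (hf0 : (f 0).IsHomogeneous 3)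
    (hne : f 0 ≠ 0) (hb : 3 ≤ b) (hf1 : (f 1).IsHomogeneous b) (hf2 : (f 2).IsHomogeneous b)
    (hm : MPrim (Fid f)) (hdim : finrank K (Fb f b) = finrank K (F0 (f 0) b) + 2) (hdb : d + 1 = b)
    {X Y : Submodule K (Poly K)} (h1 : F0 (f 0) d ≤ X) (h2 : X ≤ HS K d) (h3 : HS K 1 * X ≤ Y)
    (h4 : Fb f b ≤ Y) (h5 : Y ≤ HS K b) :
    finrank K (Fb f b) + Eb b (finrank K X - finrank K (F0 (f 0) d)) ≤ finrank K Y := by
  let L := AlgebraicClosure K
  have hfinX := finite_of_le_HS h2
  have hfinY := finite_of_le_HS h5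
  have hfinF := finite_of_le_HS (F0_le_HS (f 0) d)
  have hfinF' := finite_of_le_HS (F0_le_HS (f 0) b)
  have hfinB := finite_of_le_HS (Fb_le_HS hf1 hf2)
  have := growth_coord_top (K := L) (f := fun i => iotaP (K := K) L (f i)) (X := extS L X) (Y := extS L Y)
    (IsHomogeneous.map hf0 _) (iota_ne_zero hne) hb
    (IsHomogeneous.map hf1 _) (IsHomogeneous.map hf2 _) (mprim_iota hm)
    (by rw [extS_Fb hf0, extS_F0 (f 0) hf0, finrank_extS, finrank_extS]; exact hdim) hdb
    (by rw [extS_F0 (f 0) hf0]; exact extS_mono h1)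
    (by rw [← extS_HS (K := K)]; exact extS_mono h2)
    (by rw [← extS_HS (K := K)]; exact le_trans (extS_mul_le _ _) (extS_mono h3))
    (by rw [extS_Fb hf0]; exact extS_mono h4)
    (by rw [← extS_HS (K := K)]; exact extS_mono h5)
  rwa [extS_Fb hf0, extS_F0 (f 0) hf0, finrank_extS, finrank_extS, finrank_extS, finrank_extS] at this

end Vale.Agent.Lib.P200
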