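import Vale.Agent.Lib.P200.BSlope

/-!
The case analysis for subspaces of reduced forms with small growth modulo a cubic.
-/

namespace Vale.Agent.Lib.P200
open MvPolynomial Module

variable {K : Type*} [Field K]

theorem Pp_mul_le_Nt {V : Submodule K (Poly K)} {d : ℕ} (hV : V ≤ Nt K d) :
    Pp K * V ≤ Nt K (d + 1) := by
  intro x hx
  refine mem_Nt.2 ⟨Pp_mul_le_HS (le_trans hV (Nt_le_HS d)) hx, ?_⟩
  obtain ⟨a, ha, b, hb, rfl⟩ := mem_Pp_mul.1 hx
  have h1 := (mem_Nt.1 (hV ha)).2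
  have h2 := (mem_Nt.1 (hV hb)).2
  have h3 := degreeOf_mul_le 0 (X 1 : Poly K) a
  have h4 := degreeOf_mul_le 0 (X 2 : Poly K) b
  rw [degreeOf_X, if_neg (by decide)] at h3 h4
  have h5 := degreeOf_add_le 0 ((X 1 : Poly K) * a) (X 2 * b)
  omega

/-- The multiples by the pencil, plus the cubic. -/
noncomputable def Bd (f0 : Poly K) (V : Submodule K (Poly K)) (d : ℕ) : Submodule K (Poly K) :=
  Pp K * V ⊔ F0 f0 (d + 1)

/-- The vectors of `V` whose product with `x₀` lies in `Bd`. -/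
noncomputable def Vz (f0 : Poly K) (V : Submodule K (Poly K)) (d : ℕ) : Submodule K (Poly K) :=
  V ⊓ (Bd f0 V d).comap (LinearMap.mulLeft K (X 0 : Poly K))

/-- The multiples of `V` by all linear forms, plus the cubic. -/
noncomputable def Tt (f0 : Poly K) (V : Submodule K (Poly K)) (d : ℕ) : Submodule K (Poly K) :=
  Bd f0 V d ⊔ V.map (LinearMap.mulLeft K (X 0 : Poly K))

theorem mem_Vz {f0 : Poly K} {V : Submodule K (Poly K)} {d : ℕ} {v : Poly K} :
    v ∈ Vz f0 V d ↔ v ∈ V ∧ X 0 * v ∈ Bd f0 V d := Iff.rfl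

theorem Vz_le (f0 : Poly K) (V : Submodule K (Poly K)) (d : ℕ) : Vz f0 V d ≤ V := inf_le_left

theorem Bd_le_HS {f0 : Poly K} {V : Submodule K (Poly K)} {d : ℕ} (hV : V ≤ HS K d) :
    Bd f0 V d ≤ HS K (d + 1) :=
  sup_le (Pp_mul_le_HS hV) (F0_le_HS _ _)

theorem mulLeft_X0_le {V : Submodule K (Poly K)} {d : ℕ} (hV : V ≤ HS K d) :
    V.map (LinearMap.mulLeft K (X 0 : Poly K)) ≤ HS K (d + 1) := by
  rintro _ ⟨v, hv, rfl⟩
  have := (isHomogeneous_X K (0 : Fin 3)).mul (hV hv)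
  rwa [add_comm] at this

theorem Tt_le_HS {f0 : Poly K} {V : Submodule K (Poly K)} {d : ℕ} (hV : V ≤ HS K d) :
    Tt f0 V d ≤ HS K (d + 1) :=
  sup_le (Bd_le_HS hV) (mulLeft_X0_le hV)

theorem finrank_Bd {f0 : Poly K} (hf : NormCubic f0) {V : Submodule K (Poly K)} {d : ℕ}
    (hV : V ≤ Nt K d) :
    finrank K (Bd f0 V d) = finrank K (Pp K * V : Submodule K (Poly K)) + finrank K (F0 f0 (d + 1)) := by
  have hH := le_trans hV (Nt_le_HS d)
  have hfin1 := finite_of_le_HS (Pp_mul_le_HS hH)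
  have hfin2 := finite_of_le_HS (F0_le_HS f0 (d + 1))
  have e := Submodule.finrank_sup_add_finrank_inf_eq (Pp K * V) (F0 f0 (d + 1))
  have hb : Pp K * V ⊓ F0 f0 (d + 1) = ⊥ := by
    rw [eq_bot_iff, ← hf.Nt_inf_F0 (d + 1)]
    exact inf_le_inf_right _ (Pp_mul_le_Nt hV)
  rw [hb, finrank_bot, add_zero] at e
  exact e

theorem finrank_Tt {f0 : Poly K} {V : Submodule K (Poly K)} {d : ℕ} (hV : V ≤ HS K d) :
    finrank K (Tt f0 V d) + finrank K (Vz f0 V d) = finrank K (Bd f0 V d) + finrank K V := by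
  have hfinB := finite_of_le_HS (Bd_le_HS (f0 := f0) hV)
  have hfinM := finite_of_le_HS (mulLeft_X0_le hV)
  have hfinV := finite_of_le_HS hV
  have hinj := mulLeft_inj (K := K) (a := (X 0 : Poly K)) (X_ne_zero 0)
  have e1 : finrank K (V.map (LinearMap.mulLeft K (X 0 : Poly K))) = finrank K V :=
    (Submodule.equivMapOfInjective _ hinj _).finrank_eq.symm
  have e2 : finrank K ((Vz f0 V d).map (LinearMap.mulLeft K (X 0 : Poly K))) =
      finrank K (Vz f0 V d) :=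
    (Submodule.equivMapOfInjective _ hinj _).finrank_eq.symm
  have e3 : Bd f0 V d ⊓ V.map (LinearMap.mulLeft K (X 0 : Poly K)) =
      (Vz f0 V d).map (LinearMap.mulLeft K (X 0 : Poly K)) := by
    apply le_antisymm
    · rintro _ ⟨h1, ⟨v, hv, rfl⟩⟩
      exact ⟨v, mem_Vz.2 ⟨hv, h1⟩, rfl⟩
    · rintro _ ⟨v, hv, rfl⟩
      exact ⟨(mem_Vz.1 hv).2, ⟨v, (mem_Vz.1 hv).1, rfl⟩⟩
  have e4 := Submodule.finrank_sup_add_finrank_inf_eq (Bd f0 V d)
    (V.map (LinearMap.mulLeft K (X 0 : Poly K)))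
  rw [e3, e1, e2] at e4
  exact e4

/-- The numerical consequence of a bound for the growth. -/
theorem growth_numeric {f0 : Poly K} (hf : NormCubic f0) {V : Submodule K (Poly K)} {d g : ℕ}
    (hV : V ≤ Nt K d)
    (hg : finrank K (Tt f0 V d) ≤ finrank K (F0 f0 (d + 1)) + finrank K V + g) :
    finrank K (Pp K * V : Submodule K (Poly K)) ≤ finrank K (Vz f0 V d) + g := by
  have h1 := finrank_Tt (f0 := f0) (le_trans hV (Nt_le_HS d))
  have h2 := finrank_Bd hf hV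
  generalize finrank K (Tt f0 V d) = A at *
  generalize finrank K (Vz f0 V d) = B at *
  generalize finrank K (Bd f0 V d) = C at *
  generalize finrank K (Pp K * V : Submodule K (Poly K)) = D at *
  generalize finrank K (F0 f0 (d + 1)) = E at *
  generalize finrank K ↥V = F at *
  omega

theorem Bd_le_BB (f0 : Poly K) (V : Submodule K (Poly K)) (d : ℕ) : Bd f0 V d ≤ BB f0 V 1 := by
  refine sup_le ?_ ?_
  · refine le_trans ?_ (le_sup_left : NN V 1 ≤ BB f0 V 1)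
    rw [NN_succ, NN_zero]
  · intro x hx
    exact mem_BB_of_Fo (mem_F0.1 hx).1

theorem mem_str {g x : Poly K} {k : ℕ} : x ∈ str g k ↔ ∃ s ∈ (Pp K) ^ k, x = g * s := by
  unfold str
  rw [Submodule.mem_span_singleton_mul]
  exact exists_congr fun s => and_congr_right fun _ => eq_comm

theorem mul_mem_str {g s : Poly K} {k : ℕ} (hs : s ∈ (Pp K) ^ k) : g * s ∈ str g k :=
  mem_str.2 ⟨s, hs, rfl⟩

theorem exists_of_mem_str_sup {f0 g x : Poly K} {l j : ℕ} (h : x ∈ str g l ⊔ F0 f0 j) :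
    ∃ s' ∈ (Pp K) ^ l, ∃ c, x = g * s' + c * f0 := by
  obtain ⟨a, ha, w, hw, rfl⟩ := Submodule.mem_sup.1 h
  obtain ⟨s', hs', rfl⟩ := mem_str.1 ha
  obtain ⟨c, rfl⟩ := mem_Fo.1 (mem_F0.1 hw).1
  exact ⟨s', hs', c, rfl⟩

theorem degreeOf_X_mul_sub_le {s s' : Poly K} {k l : ℕ} (hs : s ∈ (Pp K) ^ k)
    (hs' : s' ∈ (Pp K) ^ l) : degreeOf 0 (X 0 * s - s') ≤ 1 := by
  have h1 := degreeOf_sub_le 0 (X 0 * s) s'
  have h2 := degreeOf_mul_le 0 (X 0 : Poly K) s
  rw [degreeOf_Pp_pow hs, degreeOf_X, if_pos rfl] at h2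
  rw [degreeOf_Pp_pow hs'] at h1
  omega

/-- The first closure lemma: a relation among `x₀ g s`, `g s'` modulo the cubic forces a common
factor of `g` and the cubic, and the degree of `g` to be at least two. -/
theorem C1 {f0 : Poly K} (hf : NormCubic f0) {g s s' : Poly K} {e k l : ℕ} (hg : g ∈ HS K e)
    (hg0 : g ≠ 0) (hs : s ∈ (Pp K) ^ k) (hs0 : s ≠ 0) (hs' : s' ∈ (Pp K) ^ l)
    (hrel : g * (X 0 * s - s') ∈ Fo f0) : 2 ≤ e ∧ ¬ IsRelPrime f0 g := by
  have hw := hf.not_mem_of_linear hs hs' hs0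
  have hw0 : X 0 * s - s' ≠ 0 := fun h0 => hw (by rw [h0]; exact Ideal.zero_mem _)
  constructor
  · by_contra hlt
    have h1 : degreeOf 0 g ≤ e :=
      (degreeOf_le_totalDegree _ _).trans (IsHomogeneous.totalDegree_le hg)
    have h2 : degreeOf 0 (g * (X 0 * s - s')) ≤ 2 := by
      have := degreeOf_mul_le 0 g (X 0 * s - s')
      have := degreeOf_X_mul_sub_le hs hs'
      omega
    have h3 := hf.eq_zero_of_low hrel h2
    exact (mul_ne_zero hg0 hw0) h3
  · intro hrp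
    obtain ⟨c, hc⟩ := mem_Fo.1 hrel
    have hd : f0 ∣ (X 0 * s - s') * g := ⟨c, by rw [mul_comm (X 0 * s - s'), hc]; ring⟩
    obtain ⟨r, hr⟩ := hrp.dvd_of_dvd_mul_right hd
    exact hw (mem_Fo.2 ⟨r, by rw [hr]; ring⟩)

/-- A factor of a form which is not a unit has positive degree. -/
theorem exists_factor {f0 g : Poly K} (hf : NormCubic f0) (h : ¬ IsRelPrime f0 g) :
    ∃ D m, 1 ≤ m ∧ D.IsHomogeneous m ∧ D ∣ f0 ∧ D ∣ g := by
  unfold IsRelPrime at h
  push Not at h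
  obtain ⟨D, hD1, hD2, hD3⟩ := h
  obtain ⟨E, hE⟩ := hD1
  obtain ⟨m, hm, hDm⟩ := factor_degree hE.symm hf.hom hf.ne0 hD3
  exact ⟨D, m, hm, hDm, ⟨E, hE⟩, hD2⟩

theorem NormCubic.not_isUnit {f0 : Poly K} (hf : NormCubic f0) : ¬ IsUnit f0 := by
  intro hu
  obtain ⟨r, hr⟩ := hu.exists_right_inv
  have hr0 : r ≠ 0 := by
    intro h0
    have h10 : (1 : Poly K) = 0 := by rw [← hr, h0, mul_zero]
    exact one_ne_zero h10
  have h1 := degreeOf_mul_eq (n := 0) hf.ne0 hr0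
  rw [hr] at h1
  have h2 : degreeOf 0 (1 : Poly K) = 0 := by
    have := degreeOf_C (R := K) (1 : K) (0 : Fin 3)
    rwa [C_1] at this
  have := hf.degreeOf_ge
  omega

/-- Ideals contained in an ideal generated by two forms are not primary. -/
theorem not_mprim_of_le {J : Ideal (Poly K)} {p q : Poly K} {dp dq : ℕ} (hp : p.IsHomogeneous dp)
    (hq : q.IsHomogeneous dq) (hdp : 1 ≤ dp) (hdq : 1 ≤ dq) (hle : J ≤ Ideal.span {p, q})
    (hm : MPrim J) : False :=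
  no_two_gen hp hq hdp hdq (hm.mono hle)

theorem left_mem_span_pair (p q : Poly K) : p ∈ Ideal.span {p, q} :=
  Ideal.subset_span (by simp)

theorem right_mem_span_pair (p q : Poly K) : q ∈ Ideal.span {p, q} :=
  Ideal.subset_span (by simp)

/-- Ideals whose generators have a common factor are not primary. -/
theorem not_mprim_of_dvd {f0 D : Poly K} {m : ℕ} {V : Submodule K (Poly K)}
    (hD : D.IsHomogeneous m) (hm : 1 ≤ m) (h0 : D ∣ f0) (hV : ∀ v ∈ V, D ∣ v)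
    (hp : MPrim (Idl f0 V)) : False := by
  refine not_mprim_of_le hD hD hm hm ?_ hp
  refine Idl_le (fun v hv => ?_) ?_
  · obtain ⟨c, rfl⟩ := hV v hv
    exact Ideal.mul_mem_right _ _ (left_mem_span_pair _ _)
  · obtain ⟨c, rfl⟩ := h0
    exact Ideal.mul_mem_right _ _ (left_mem_span_pair _ _)

/-- Case A of the analysis. -/
theorem caseA [Infinite K] {f0 : Poly K} (hf : NormCubic f0) {V : Submodule K (Poly K)} {d n : ℕ}
    (hVN : V ≤ Nt K d) {a : Poly K} (ha : a ∈ (Pp K) ^ n) (ha0 : a ≠ 0)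
    (hA : ∀ v ∈ V, a * (X 0 * v) ∈ BB f0 V (n + 1))
    (hρ : finrank K (Pp K * V : Submodule K (Poly K)) ≤ finrank K V + 2) :
    ∃ D m, 1 ≤ m ∧ D.IsHomogeneous m ∧ D ∣ f0 ∧ ∀ v ∈ V, D ∣ v := by
  obtain ⟨q, hq, hq0, hqV⟩ := common_factor hf.ne0 hf.not_isUnit
    (V := V) fun v hv hv0 => not_relPrime_of_slope hf hVN ha ha0 hA hρ hv hv0
  obtain ⟨E, hE⟩ := hq0
  obtain ⟨m, hm, hDm⟩ := factor_degree hE.symm hf.hom hf.ne0 hq.not_isUnit
  exact ⟨q, m, hm, hDm, ⟨E, hE⟩, hqV⟩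

theorem Vz_eq_of_le {f0 : Poly K} {V : Submodule K (Poly K)} {d : ℕ} (hV : V ≤ HS K d)
    (h : finrank K V ≤ finrank K (Vz f0 V d)) : Vz f0 V d = V := by
  have hfin := finite_of_le_HS hV
  exact Submodule.eq_of_le_of_finrank_le (Vz_le _ _ _) h

/-- The first closure lemma in terms of strings. -/
theorem C1_str {f0 : Poly K} (hf : NormCubic f0) {V : Submodule K (Poly K)} {d k : ℕ} {g s : Poly K}
    (hV : V = str g k) (hg : g ∈ HS K (d - k)) (hg0 : g ≠ 0) (hs : s ∈ (Pp K) ^ k) (hs0 : s ≠ 0)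
    (hmem : X 0 * (g * s) ∈ Bd f0 V d) :
    2 ≤ d - k ∧ ∃ D m, 1 ≤ m ∧ D.IsHomogeneous m ∧ D ∣ f0 ∧ D ∣ g := by
  have hB : Bd f0 V d = str g (k + 1) ⊔ F0 f0 (d + 1) := by
    rw [Bd, hV, Pp_mul_str]
  rw [hB] at hmem
  obtain ⟨s', hs', c, hc⟩ := exists_of_mem_str_sup hmem
  have hrel : g * (X 0 * s - s') ∈ Fo f0 := mem_Fo.2 ⟨c, by linear_combination hc⟩
  obtain ⟨h1, h2⟩ := C1 hf hg hg0 hs hs0 hs' hrel
  exact ⟨h1, exists_factor hf h2⟩

/-- Dimension of a subspace of reduced forms with a common factor with the cubic. -/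
theorem finrank_le_of_factor {f0 : Poly K} (hf : NormCubic f0) {V : Submodule K (Poly K)} {d m : ℕ}
    {D : Poly K} (hVN : V ≤ Nt K d) (hV0 : V ≠ ⊥) (hD : D.IsHomogeneous m) (hm : 1 ≤ m)
    (h0 : D ∣ f0) (hVD : ∀ v ∈ V, D ∣ v) : finrank K V + 1 ≤ 2 * d := by
  have hD0 : D ≠ 0 := fun h => hf.ne0 (by rw [h] at h0; exact zero_dvd_iff.1 h0)
  have hVH := le_trans hVN (Nt_le_HS d)
  obtain ⟨v, hv, hv0⟩ := Submodule.exists_mem_ne_zero_of_ne_bot hV0
  -- the degree of the factor is at most `d`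
  have hmd : m ≤ d := by
    by_contra hlt
    obtain ⟨c, rfl⟩ := hVD v hv
    have h1 := comp_mul_low (f := D) (k := m) (m := d) hD c (by omega)
    rw [mul_comm, homogeneousComponent_eq_self (hVH hv)] at h1
    exact hv0 h1
  obtain ⟨t, rfl⟩ : ∃ t, d = t + m := ⟨d - m, by omega⟩
  set W : Submodule K (Poly K) := Submodule.span K {D} * HS K t with hW
  have hdivH : ∀ x ∈ HS K (t + m), D ∣ x → x ∈ W := by
    intro x hx ⟨c, hc⟩
    have e := homog_cofactor hD hx hc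
    rw [hW, Submodule.mem_span_singleton_mul]
    exact ⟨homogeneousComponent t c, homogeneousComponent_isHomogeneous _ _, e.symm⟩
  have hle : V ⊔ F0 f0 (t + m) ≤ W := by
    refine sup_le (fun x hx => hdivH x (hVH hx) (hVD x hx)) (fun x hx => ?_)
    refine hdivH x (F0_le_HS _ _ hx) ?_
    obtain ⟨c, rfl⟩ := mem_Fo.1 (mem_F0.1 hx).1
    exact Dvd.dvd.mul_left h0 c
  have hfinV := finite_of_le_HS hVH
  have hfinF := finite_of_le_HS (F0_le_HS f0 (t + m))
  have hfinHt := finite_of_le_HS (le_refl (HS K t))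
  have h1 : finrank K W ≤ T t := by
    rw [← finrank_HS (K := K) t]
    exact finrank_span_singleton_mul_le D (le_refl _)
  have hfinW : Module.Finite K W := by
    rw [hW, span_singleton_mul_eq_map]
    exact Module.Finite.map _ _
  have h2 := Submodule.finrank_mono hle
  have e := Submodule.finrank_sup_add_finrank_inf_eq V (F0 f0 (t + m))
  have hb : V ⊓ F0 f0 (t + m) = ⊥ := by
    rw [eq_bot_iff, ← hf.Nt_inf_F0 (t + m)]
    exact inf_le_inf_right _ hVN
  rw [hb, finrank_bot, add_zero] at e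
  have h3 := hf.finrank_F0 (t + m)
  have hT : T t ≤ T (t + m - 1) := T_mono (by omega)
  -- the numerical identity
  have key : T (t + m - 1) ≤ (if 3 ≤ t + m then T (t + m - 3) else 0) + (2 * (t + m) - 1) := by
    by_cases h3d : 3 ≤ t + m
    · rw [if_pos h3d]
      obtain ⟨D', hD'⟩ : ∃ D', t + m = D' + 3 := ⟨t + m - 3, by omega⟩
      rw [hD', show D' + 3 - 1 = D' + 2 by omega, show D' + 3 - 3 = D' by omega]
      have e1 := T_succ D'
      have e2 := T_succ (D' + 1)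
      rw [show D' + 1 + 1 = D' + 2 by ring] at e2
      omega
    · rw [if_neg h3d]
      have : t + m = 1 ∨ t + m = 2 := by omega
      rcases this with h | h <;> rw [h] <;> decide
  rw [h3] at e
  have hv1 : 0 < finrank K V := Module.finrank_pos_iff.2 (Submodule.nontrivial_iff_ne_bot.2 hV0)
  generalize (if 3 ≤ t + m then T (t + m - 3) else 0) = A at *
  generalize finrank K ↥(V ⊔ F0 f0 (t + m)) = B at *
  generalize finrank K ↥V = C at *
  generalize finrank K ↥W = E at *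
  omega

/-- `P2`: growth one forces a common factor and a small dimension. -/
theorem P2 {f0 : Poly K} (hf : NormCubic f0) {V : Submodule K (Poly K)} {d : ℕ}
    (hVN : V ≤ Nt K d) (hV0 : V ≠ ⊥)
    (hg : finrank K (Tt f0 V d) ≤ finrank K (F0 f0 (d + 1)) + finrank K V + 1) :
    finrank K V + 1 ≤ d ∧ ∃ D m, 1 ≤ m ∧ D.IsHomogeneous m ∧ D ∣ f0 ∧ ∀ v ∈ V, D ∣ v := by
  have hVH := le_trans hVN (Nt_le_HS d)
  have h1 := growth_numeric hf hVN hg
  have h2 := growth_pos d hVH hV0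
  have hfinV := finite_of_le_HS hVH
  have h3 := Submodule.finrank_mono (Vz_le f0 V d)
  have h4 : finrank K (Pp K * V : Submodule K (Poly K)) = finrank K V + 1 := by omega
  have h5 : Vz f0 V d = V := Vz_eq_of_le hVH (by omega)
  obtain ⟨g, k, hk, hgd, hg0, hs, hr⟩ := string1 d hVH h4
  have hy : (X 1 : Poly K) ^ k ∈ (Pp K) ^ k :=
    Submodule.pow_mem_pow _ (Submodule.subset_span (by simp)) _
  have hmem : X 0 * (g * X 1 ^ k) ∈ Bd f0 V d := by
    have : g * X 1 ^ k ∈ Vz f0 V d := by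
      rw [h5, hs]
      exact mul_mem_str hy
    exact (mem_Vz.1 this).2
  obtain ⟨h6, D, m, hm, hDm, hD0, hDg⟩ := C1_str hf hs hgd hg0 hy (pow_ne_zero _ (X_ne_zero 1)) hmem
  refine ⟨by omega, D, m, hm, hDm, hD0, fun v hv => ?_⟩
  rw [hs] at hv
  obtain ⟨s, _, rfl⟩ := mem_str.1 hv
  exact Dvd.dvd.mul_right hDg s

/-- `P3`: growth at most two and dimension at least two force a common factor. -/
theorem P3 [Infinite K] {f0 : Poly K} (hf : NormCubic f0) {V : Submodule K (Poly K)} {d : ℕ}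
    (hVN : V ≤ Nt K d) (hu : 2 ≤ finrank K V)
    (hg : finrank K (Tt f0 V d) ≤ finrank K (F0 f0 (d + 1)) + finrank K V + 2) :
    finrank K V + 1 ≤ 2 * d ∧ ∃ D m, 1 ≤ m ∧ D.IsHomogeneous m ∧ D ∣ f0 ∧ ∀ v ∈ V, D ∣ v := by
  have hVH := le_trans hVN (Nt_le_HS d)
  have hV0 : V ≠ ⊥ := by
    rintro rfl
    rw [finrank_bot] at hu
    omega
  suffices h : ∃ D m, 1 ≤ m ∧ D.IsHomogeneous m ∧ D ∣ f0 ∧ ∀ v ∈ V, D ∣ v by
    obtain ⟨D, m, hm, hDm, hD0, hDV⟩ := h
    exact ⟨finrank_le_of_factor hf hVN hV0 hDm hm hD0 hDV, D, m, hm, hDm, hD0, hDV⟩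
  have h1 := growth_numeric hf hVN hg
  have h2 := growth_pos d hVH hV0
  have hfinV := finite_of_le_HS hVH
  have h3 := Submodule.finrank_mono (Vz_le f0 V d)
  by_cases h4 : finrank K (Pp K * V : Submodule K (Poly K)) = finrank K V + 1
  · obtain ⟨g, k, hk, hgd, hg0, hs, hr⟩ := string1 d hVH h4
    have hVz0 : Vz f0 V d ≠ ⊥ := by
      intro hb
      rw [hb, finrank_bot] at h1
      omega
    obtain ⟨v, hv, hv0⟩ := Submodule.exists_mem_ne_zero_of_ne_bot hVz0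
    have hvV := (mem_Vz.1 hv).1
    rw [hs] at hvV
    obtain ⟨s, hs1, rfl⟩ := mem_str.1 hvV
    obtain ⟨_, D, m, hm, hDm, hD0, hDg⟩ := C1_str hf hs hgd hg0 hs1 (right_ne_zero_of_mul hv0)
      (mem_Vz.1 hv).2
    refine ⟨D, m, hm, hDm, hD0, fun w hw => ?_⟩
    rw [hs] at hw
    obtain ⟨t, _, rfl⟩ := mem_str.1 hw
    exact Dvd.dvd.mul_right hDg t
  · have h5 : Vz f0 V d = V := Vz_eq_of_le hVH (by omega)
    refine caseA (n := 0) (a := 1) hf hVN (by rw [pow_zero]; exact Submodule.one_le.1 le_rfl)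
      one_ne_zero (fun v hv => ?_) (by omega)
    rw [one_mul]
    have : v ∈ Vz f0 V d := by rwa [h5]
    exact Bd_le_BB _ _ _ (mem_Vz.1 this).2

end Vale.Agent.Lib.P200
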