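import Vale.Agent.Lib.P200.BCases

/-!
The last case of the analysis: subspaces of growth three.
-/

namespace Vale.Agent.Lib.P200
open MvPolynomial Module

variable {K : Type*} [Field K]

/-- A hyperplane meets every subspace of dimension at least two. -/
theorem hyper_meet {W U V : Submodule K (Poly K)} [Module.Finite K V] (hW : W ≤ V) (hU : U ≤ V)
    (h1 : finrank K V ≤ finrank K U + 1) (h2 : 2 ≤ finrank K W) : ∃ v ∈ U, v ∈ W ∧ v ≠ 0 := by
  have hfinU : Module.Finite K U := Submodule.finiteDimensional_of_le hU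
  have hfinW : Module.Finite K W := Submodule.finiteDimensional_of_le hW
  have e := Submodule.finrank_sup_add_finrank_inf_eq U W
  have h3 : finrank K (U ⊔ W : Submodule K (Poly K)) ≤ finrank K V :=
    Submodule.finrank_mono (sup_le hU hW)
  have h4 : U ⊓ W ≠ ⊥ := by
    intro hb
    rw [hb, finrank_bot] at e
    generalize finrank K (U ⊔ W : Submodule K (Poly K)) = A at *
    generalize finrank K U = B at *
    generalize finrank K W = C at *
    omega
  obtain ⟨v, hv, hv0⟩ := Submodule.exists_mem_ne_zero_of_ne_bot h4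
  exact ⟨v, hv.1, hv.2, hv0⟩

theorem str_zero_form (k : ℕ) : str (0 : Poly K) k = ⊥ := by
  rw [eq_bot_iff]
  intro x hx
  obtain ⟨s, _, rfl⟩ := mem_str.1 hx
  simp

theorem finrank_str_le (g : Poly K) (k : ℕ) : finrank K (str g k) ≤ k + 1 := by
  by_cases hg : g = 0
  · rw [hg, str_zero_form, finrank_bot]
    omega
  · rw [finrank_str hg]

theorem str_ne_zero_of_sup {g h : Poly K} {k l : ℕ} {V : Submodule K (Poly K)} {d : ℕ}
    (hVH : V ≤ HS K d) (hV : V = str g k ⊔ str h l) (hr : finrank K V = k + l + 2) : g ≠ 0 := by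
  rintro rfl
  rw [hV, str_zero_form, bot_sup_eq] at hr
  have := finrank_str_le h l
  omega

theorem mem_sup_str {g h v : Poly K} {k l : ℕ} (hv : v ∈ str g k ⊔ str h l) :
    ∃ s ∈ (Pp K) ^ k, ∃ t ∈ (Pp K) ^ l, v = g * s + h * t := by
  obtain ⟨a, ha, b, hb, rfl⟩ := Submodule.mem_sup.1 hv
  obtain ⟨s, hs, rfl⟩ := mem_str.1 ha
  obtain ⟨t, ht, rfl⟩ := mem_str.1 hb
  exact ⟨s, hs, t, ht, rfl⟩

theorem mem_sup_span {g h v : Poly K} {k : ℕ} (hv : v ∈ str g k ⊔ Submodule.span K {h}) :
    ∃ s ∈ (Pp K) ^ k, ∃ c : K, v = g * s + C c * h := by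
  obtain ⟨a, ha, b, hb, rfl⟩ := Submodule.mem_sup.1 hv
  obtain ⟨s, hs, rfl⟩ := mem_str.1 ha
  obtain ⟨c, rfl⟩ := Submodule.mem_span_singleton.1 hb
  exact ⟨s, hs, c, by rw [MvPolynomial.smul_eq_C_mul]⟩

/-- Both strings of positive length. -/
theorem case_both [Infinite K] {f0 : Poly K} (hf : NormCubic f0) {V : Submodule K (Poly K)} {d : ℕ}
    {g h : Poly K} {k l : ℕ} (hVN : V ≤ Nt K d) (hV : V = str g k ⊔ str h l)
    (hρ : finrank K (Pp K * V : Submodule K (Poly K)) ≤ finrank K V + 2)
    (hv0 : finrank K V ≤ finrank K (Vz f0 V d) + 1) (hk : 1 ≤ k) (hl : 1 ≤ l) (hg0 : g ≠ 0)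
    (hh0 : h ≠ 0) (hm : MPrim (Idl f0 V)) : False := by
  have hVH := le_trans hVN (Nt_le_HS d)
  have hfinV := finite_of_le_HS hVH
  have hW1 : str g k ≤ V := by rw [hV]; exact le_sup_left
  have hW2 : str h l ≤ V := by rw [hV]; exact le_sup_right
  obtain ⟨v1, hv1, hv1', hv10⟩ := hyper_meet hW1 (Vz_le f0 V d) hv0
    (by rw [finrank_str hg0]; omega)
  obtain ⟨v2, hv2, hv2', hv20⟩ := hyper_meet hW2 (Vz_le f0 V d) hv0
    (by rw [finrank_str hh0]; omega)
  obtain ⟨s1, hs1, rfl⟩ := mem_str.1 hv1'
  obtain ⟨s2, hs2, rfl⟩ := mem_str.1 hv2'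
  have hs10 := right_ne_zero_of_mul hv10
  have hs20 := right_ne_zero_of_mul hv20
  have ha : s1 * s2 ∈ (Pp K) ^ (k + l) := by
    rw [pow_add]
    exact Submodule.mul_mem_mul hs1 hs2
  obtain ⟨D, m, hm1, hDm, hD0, hDV⟩ := caseA hf hVN ha (mul_ne_zero hs10 hs20) (fun v hv => by
    rw [hV] at hv
    obtain ⟨s, hs, t, ht, rfl⟩ := mem_sup_str hv
    have e : s1 * s2 * (X 0 * (g * s + h * t)) =
        (s2 * s) * (X 0 * (g * s1)) + (s1 * t) * (X 0 * (h * s2)) := by ring
    rw [e]
    refine Submodule.add_mem _ ?_ ?_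
    · have h1 : s2 * s ∈ (Pp K) ^ (l + k) := by
        rw [pow_add]
        exact Submodule.mul_mem_mul hs2 hs
      have := mul_mem_BB h1 (Bd_le_BB f0 V d (mem_Vz.1 hv1).2)
      rwa [show l + k + 1 = k + l + 1 by omega] at this
    · have h1 : s1 * t ∈ (Pp K) ^ (k + l) := by
        rw [pow_add]
        exact Submodule.mul_mem_mul hs1 ht
      exact mul_mem_BB h1 (Bd_le_BB f0 V d (mem_Vz.1 hv2).2)) hρ
  exact not_mprim_of_dvd hDm hm1 hD0 hDV hm

/-- Elements of the space `Bd` for a string and one more vector. -/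
theorem mem_Bd_pair {f0 g h x : Poly K} {V : Submodule K (Poly K)} {d k : ℕ}
    (hV : V = str g k ⊔ Submodule.span K {h}) (hx : x ∈ Bd f0 V d) :
    ∃ s' ∈ (Pp K) ^ (k + 1), ∃ p ∈ Pp K, ∃ c, x = g * s' + p * h + c * f0 := by
  rw [Bd, hV, Submodule.mul_sup, Pp_mul_str] at hx
  obtain ⟨a, ha, w, hw, rfl⟩ := Submodule.mem_sup.1 hx
  obtain ⟨a1, ha1, a2, ha2, rfl⟩ := Submodule.mem_sup.1 ha
  obtain ⟨s', hs', rfl⟩ := mem_str.1 ha1
  obtain ⟨p, hp, rfl⟩ := Submodule.mem_mul_span_singleton.1 ha2
  obtain ⟨c, rfl⟩ := mem_Fo.1 (mem_F0.1 hw).1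
  exact ⟨s', hs', p, hp, c, rfl⟩

theorem X1_mem_Pp : (X 1 : Poly K) ∈ Pp K := Submodule.subset_span (by simp)

theorem X2_mem_Pp : (X 2 : Poly K) ∈ Pp K := Submodule.subset_span (by simp)

theorem one_mem_Pp_pow : (1 : Poly K) ∈ (Pp K) ^ 0 := by
  rw [pow_zero]
  exact Submodule.one_le.1 le_rfl

theorem mem_Pp_pow_one {p : Poly K} (hp : p ∈ Pp K) : p ∈ (Pp K) ^ 1 := by rwa [pow_one]

/-- The case of a string together with a vector, when the vectors with good multiple form the
string. -/
theorem caseB [Infinite K] {f0 : Poly K} (hf : NormCubic f0) {V : Submodule K (Poly K)} {d k : ℕ}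
    {g h : Poly K} (hVN : V ≤ Nt K d) (hd : 2 ≤ d) (hV : V = str g k ⊔ Submodule.span K {h})
    (hVz : Vz f0 V d = str g k) (hu : finrank K V = k + 2) (hkd : d ≤ k + 2) (hk : k ≤ d)
    (hg : g ∈ HS K (d - k)) (hg0 : g ≠ 0) (hh : h ∈ HS K d)
    (hρ : finrank K (Pp K * V : Submodule K (Poly K)) = finrank K V + 2)
    (hm : MPrim (Idl f0 V)) : False := by
  have hVH := le_trans hVN (Nt_le_HS d)
  have hfinV := finite_of_le_HS hVH
  have hstr : ∀ s ∈ (Pp K) ^ k, X 0 * (g * s) ∈ Bd f0 V d := by
    intro s hs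
    have : g * s ∈ Vz f0 V d := by
      rw [hVz]
      exact mul_mem_str hs
    exact (mem_Vz.1 this).2
  -- every vector of `V` is a combination
  have hVmem : ∀ {J : Ideal (Poly K)}, g ∈ J → h ∈ J → ∀ v ∈ V, v ∈ J := by
    intro J hgJ hhJ v hv
    rw [hV] at hv
    obtain ⟨s, _, c, rfl⟩ := mem_sup_span hv
    exact Ideal.add_mem _ (Ideal.mul_mem_right _ _ hgJ) (Ideal.mul_mem_left _ _ hhJ)
  -- the kernel
  have hK0 : ∀ s ∈ (Pp K) ^ k, (∃ s' ∈ (Pp K) ^ (k + 1), ∃ c, X 0 * (g * s) = g * s' + c * f0) →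
      s = 0 := by
    rintro s hs ⟨s', hs', c, hc⟩
    by_contra hs0
    have hrel : g * (X 0 * s - s') ∈ Fo f0 := mem_Fo.2 ⟨c, by linear_combination hc⟩
    obtain ⟨_, h2⟩ := C1 hf hg hg0 hs hs0 hs' hrel
    obtain ⟨D, m, hm1, hDm, hD0, hDg⟩ := exists_factor hf h2
    refine not_mprim_of_le hDm hh hm1 (by omega) ?_ hm
    refine Idl_le (hVmem ?_ (right_mem_span_pair _ _)) ?_
    · obtain ⟨c, rfl⟩ := hDg
      exact Ideal.mul_mem_right _ _ (left_mem_span_pair _ _)
    · obtain ⟨c, rfl⟩ := hD0
      exact Ideal.mul_mem_right _ _ (left_mem_span_pair _ _)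
  -- the dimension count
  have hk1 : k ≤ 1 := by
    set L : Poly K →ₗ[K] Poly K := LinearMap.mulLeft K (X 0 * g) with hL
    have hLinj : Function.Injective L := mulLeft_inj (mul_ne_zero (X_ne_zero 0) hg0)
    set M : Submodule K (Poly K) := ((Pp K) ^ k).map L with hM
    set W : Submodule K (Poly K) := str g (k + 1) ⊔ F0 f0 (d + 1) with hW
    have hfinP := finite_of_le_HS (Pp_pow_le_HS (K := K) k)
    have hMdim : finrank K M = k + 1 := by
      rw [hM, ← finrank_Pp_pow (K := K) k]
      exact (Submodule.equivMapOfInjective _ hLinj _).finrank_eq.symm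
    have hMB : M ≤ Bd f0 V d := by
      rintro _ ⟨s, hs, rfl⟩
      have := hstr s hs
      rwa [show X 0 * (g * s) = L s by simp [hL]] at this
    have hstrle : str g (k + 1) ≤ Pp K * V := by
      rw [← Pp_mul_str]
      refine mul_le_mul' le_rfl ?_
      rw [hV]
      exact le_sup_left
    have hWB : W ≤ Bd f0 V d := sup_le (le_trans hstrle le_sup_left) le_sup_right
    have hMW : M ⊓ W = ⊥ := by
      rw [eq_bot_iff]
      rintro x ⟨⟨s, hs, rfl⟩, hx⟩
      obtain ⟨s', hs', c, hc⟩ := exists_of_mem_str_sup hx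
      have : s = 0 := hK0 s hs ⟨s', hs', c, by rw [← hc]; simp [hL]⟩
      rw [this, map_zero]
      exact Submodule.zero_mem _
    have hfinB := finite_of_le_HS (Bd_le_HS (f0 := f0) hVH)
    have hfinM : Module.Finite K M := Module.Finite.map _ _
    have hfinW : Module.Finite K W := Submodule.finiteDimensional_of_le hWB
    have h1 := Submodule.finrank_sup_add_finrank_inf_eq M W
    rw [hMW, finrank_bot, add_zero] at h1
    have h2 : finrank K (M ⊔ W : Submodule K (Poly K)) ≤ finrank K (Bd f0 V d) :=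
      Submodule.finrank_mono (sup_le hMB hWB)
    have h3 := finrank_Bd hf hVN
    have h4 : finrank K W = k + 2 + finrank K (F0 f0 (d + 1)) := by
      have hfin1 := finite_of_le_HS (str_le_HS (k := k + 1) hg)
      have hfin2 := finite_of_le_HS (F0_le_HS f0 (d + 1))
      have e := Submodule.finrank_sup_add_finrank_inf_eq (str g (k + 1)) (F0 f0 (d + 1))
      have hb : str g (k + 1) ⊓ F0 f0 (d + 1) = ⊥ := by
        rw [eq_bot_iff, ← hf.Nt_inf_F0 (d + 1)]
        exact inf_le_inf_right _ (le_trans hstrle (Pp_mul_le_Nt hVN))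
      rw [hb, finrank_bot, add_zero, finrank_str hg0] at e
      rw [hW, e]
    generalize finrank K (M ⊔ W : Submodule K (Poly K)) = A1 at *
    generalize finrank K ↥M = A2 at *
    generalize finrank K ↥W = A3 at *
    generalize finrank K (Bd f0 V d) = A4 at *
    generalize finrank K (Pp K * V : Submodule K (Poly K)) = A5 at *
    generalize finrank K (F0 f0 (d + 1)) = A6 at *
    generalize finrank K ↥V = A7 at *
    omega
  -- a relation for the multiples of `g`
  have hrelation : ∀ s ∈ (Pp K) ^ k, ∃ s' ∈ (Pp K) ^ (k + 1), ∃ p ∈ Pp K, ∃ c,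
      X 0 * (g * s) = g * s' + p * h + c * f0 := fun s hs => mem_Bd_pair hV (hstr s hs)
  rcases (by omega : k = 0 ∨ k = 1) with rfl | rfl
  · -- two quadrics
    have hd2 : d = 2 := by omega
    subst hd2
    obtain ⟨s', hs', p, hp, c, hc⟩ := hrelation 1 one_mem_Pp_pow
    rw [mul_one] at hc
    have hs'H : s' ∈ HS K 1 := Pp_pow_le_HS 1 hs'
    have hpH : p ∈ HS K 1 := Pp_le_HS hp
    have hgH : g.IsHomogeneous 2 := hg
    have hp0 : p ≠ 0 := by
      rintro rfl
      have := hK0 1 one_mem_Pp_pow ⟨s', hs', c, by rw [mul_one, hc]; ring⟩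
      exact one_ne_zero this
    -- the coefficient of the cubic
    have hcf : (c * f0).IsHomogeneous 3 := by
      have e : c * f0 = X 0 * g - g * s' - p * h := by rw [hc]; ring
      rw [e]
      refine IsHomogeneous.sub (IsHomogeneous.sub ?_ ?_) ?_
      · exact (isHomogeneous_X K (0 : Fin 3)).mul hgH
      · exact hgH.mul hs'H
      · exact hpH.mul hh
    by_cases hc0 : c * f0 = 0
    · -- no cubic term
      have e1 : (X 0 - s') * g = p * h := by
        have : X 0 * g = g * s' + p * h := by rw [hc, hc0]; ring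
        linear_combination this
      have hpp := linear_prime hpH hp0
      have hdv : p ∣ (X 0 - s') * g := ⟨h, e1⟩
      rcases hpp.2.2 _ _ hdv with h1 | h1
      · exfalso
        have hXH : (X 0 - s' : Poly K).IsHomogeneous 1 := (isHomogeneous_X K 0).sub hs'H
        obtain ⟨c', hc'⟩ := linear_dvd_linear hpH hXH h1
        have h2 : (X 0 : Poly K) ∈ (Pp K) ^ 1 := by
          have e : (X 0 : Poly K) = s' + C c' * p := by rw [← hc']; ring
          rw [e]
          refine Submodule.add_mem _ hs' ?_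
          rw [← MvPolynomial.smul_eq_C_mul]
          exact Submodule.smul_mem _ _ (mem_Pp_pow_one hp)
        have h3 := degreeOf_Pp_pow h2
        rw [degreeOf_X, if_pos rfl] at h3
        exact one_ne_zero h3
      · obtain ⟨g1, hg1⟩ := h1
        have e2 := homog_cofactor (n := 1) hpH hgH hg1
        set g2 := homogeneousComponent 1 g1 with hg2
        have hg2H : g2.IsHomogeneous 1 := homogeneousComponent_isHomogeneous _ _
        have e3 : h = (X 0 - s') * g2 := by
          have : p * h = p * ((X 0 - s') * g2) := by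
            rw [← e1, e2]
            ring
          exact mul_left_cancel₀ hp0 this
        refine not_mprim_of_le hg2H hf.hom le_rfl (by omega) ?_ hm
        refine Idl_le (hVmem ?_ ?_) (right_mem_span_pair _ _)
        · rw [e2]
          exact Ideal.mul_mem_left _ _ (left_mem_span_pair _ _)
        · rw [e3]
          exact Ideal.mul_mem_left _ _ (left_mem_span_pair _ _)
    · -- the cubic lies in the ideal of the two quadrics
      have h1 := homog_cofactor (n := 0) hf.hom (show (f0 * c).IsHomogeneous (0 + 3) by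
        rw [mul_comm]
        exact hcf) rfl
      rw [const_of_homog_zero (homogeneousComponent_isHomogeneous 0 c)] at h1
      set c0 := coeff 0 (homogeneousComponent 0 c) with hc0'
      have h2 : c0 ≠ 0 := by
        intro h0
        apply hc0
        rw [mul_comm, h1, h0, C_0, mul_zero]
      have h3 : f0 ∈ Ideal.span {g, h} := by
        have e : f0 = C c0⁻¹ * (X 0 * g - g * s' - p * h) := by
          have e1 : X 0 * g - g * s' - p * h = C c0 * f0 := by
            rw [hc, mul_comm c f0, h1]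
            ring
          rw [e1, ← mul_assoc, ← C_mul, inv_mul_cancel₀ h2, C_1, one_mul]
        rw [e]
        refine Ideal.mul_mem_left _ _ (Ideal.sub_mem _ (Ideal.sub_mem _ ?_ ?_) ?_)
        · exact Ideal.mul_mem_left _ _ (left_mem_span_pair _ _)
        · exact Ideal.mul_mem_right _ _ (left_mem_span_pair _ _)
        · exact Ideal.mul_mem_left _ _ (right_mem_span_pair _ _)
      refine not_mprim_of_le hgH hh (by omega) (by omega) ?_ hm
      exact Idl_le (hVmem (left_mem_span_pair _ _) (right_mem_span_pair _ _)) h3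
  · -- a string of length two and one vector
    have hy1 := mem_Pp_pow_one (X1_mem_Pp (K := K))
    have hy2 := mem_Pp_pow_one (X2_mem_Pp (K := K))
    obtain ⟨s1, hs1, p1, hp1, c1, hc1⟩ := hrelation _ hy1
    obtain ⟨s2, hs2, p2, hp2, c2, hc2⟩ := hrelation _ hy2
    set q : Poly K := X 2 * p1 - X 1 * p2 with hq
    set w0 : Poly K := X 2 * s1 - X 1 * s2 with hw0
    have hqP : q ∈ (Pp K) ^ 2 := by
      rw [pow_two]
      exact Submodule.sub_mem _ (Submodule.mul_mem_mul X2_mem_Pp hp1)
        (Submodule.mul_mem_mul X1_mem_Pp hp2)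
    have hw0P : w0 ∈ (Pp K) ^ 3 := by
      rw [pow_succ' _ 2]
      exact Submodule.sub_mem _ (Submodule.mul_mem_mul X2_mem_Pp hs1)
        (Submodule.mul_mem_mul X1_mem_Pp hs2)
    have hrel : g * w0 + q * h + (X 2 * c1 - X 1 * c2) * f0 = 0 := by
      rw [hw0, hq]
      linear_combination (-(X 2 : Poly K)) * hc1 + (X 1 : Poly K) * hc2
    by_cases hq0 : q = 0
    · -- the proportional case
      have hp1H : p1.IsHomogeneous 1 := Pp_le_HS hp1
      obtain ⟨r, hr⟩ := X1_dvd_of (show (X 2 : Poly K) * p1 = X 1 * p2 by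
        rw [hq] at hq0
        linear_combination hq0)
      have e1 := homog_cofactor (n := 0) (isHomogeneous_X K (1 : Fin 3)) hp1H hr
      rw [const_of_homog_zero (homogeneousComponent_isHomogeneous 0 r)] at e1
      set α := coeff 0 (homogeneousComponent 0 r) with hα
      have hα0 : α ≠ 0 := by
        intro h0
        rw [h0, C_0, mul_zero] at e1
        have := hK0 _ hy1 ⟨s1, hs1, c1, by rw [hc1, e1]; ring⟩
        exact X_ne_zero 1 this
      have hgw : g * w0 ∈ Fo f0 := mem_Fo.2 ⟨-(X 2 * c1 - X 1 * c2), by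
        rw [hq0] at hrel
        linear_combination hrel⟩
      have hgnot : g ∉ Fo f0 := by
        intro hgF
        have hmem : g * X 1 ∈ V := by
          rw [hV]
          exact Submodule.mem_sup_left (mul_mem_str hy1)
        have h0 := hf.eq_zero_of_low (Ideal.mul_mem_right _ _ hgF) (mem_Nt.1 (hVN hmem)).2
        exact mul_ne_zero hg0 (X_ne_zero 1) h0
      have hw00 : w0 = 0 := by
        by_contra hne
        exact hgnot (hf.torsion_free hw0P hne hg (by rwa [mul_comm] at hgw))
      obtain ⟨e', he'⟩ := X1_dvd_of (show (X 2 : Poly K) * s1 = X 1 * s2 by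
        rw [hw0] at hw00
        linear_combination hw00)
      have hs1H : (X 1 * e' : Poly K).IsHomogeneous 2 := by
        rw [← he']
        exact Pp_pow_le_HS 2 hs1
      have he'H : e'.IsHomogeneous 1 := homog_of_X_mul hs1H
      have hgH : g.IsHomogeneous (d - 1) := hg
      have hd1 : d - 1 + 1 = d := by omega
      set m : Poly K := X 0 * g - g * e' - C α * h with hmdef
      have hmH : m ∈ HS K d := by
        refine IsHomogeneous.sub (IsHomogeneous.sub ?_ ?_) ?_
        · have := (isHomogeneous_X K (0 : Fin 3)).mul hgH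
          rwa [show 1 + (d - 1) = d by omega] at this
        · have := hgH.mul he'H
          rwa [hd1] at this
        · have := (isHomogeneous_C (Fin 3) α).mul hh
          rwa [zero_add] at this
      have hym : X 1 * m ∈ Fo f0 := mem_Fo.2 ⟨c1, by
        rw [hmdef]
        rw [he', e1] at hc1
        linear_combination hc1⟩
      have hmF := hf.torsion_free hy1 (X_ne_zero 1) hmH hym
      obtain ⟨c3, hc3⟩ := mem_Fo.1 hmF
      have hhmem : h ∈ Ideal.span {g, f0} := by
        have e : h = C α⁻¹ * (X 0 * g - g * e' - c3 * f0) := by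
          have e1 : X 0 * g - g * e' - c3 * f0 = C α * h := by
            rw [← hc3, hmdef]
            ring
          rw [e1, ← mul_assoc, ← C_mul, inv_mul_cancel₀ hα0, C_1, one_mul]
        rw [e]
        refine Ideal.mul_mem_left _ _ (Ideal.sub_mem _ (Ideal.sub_mem _ ?_ ?_) ?_)
        · exact Ideal.mul_mem_left _ _ (left_mem_span_pair _ _)
        · exact Ideal.mul_mem_right _ _ (left_mem_span_pair _ _)
        · exact Ideal.mul_mem_left _ _ (right_mem_span_pair _ _)
      refine not_mprim_of_le hgH hf.hom (by omega) (by omega) ?_ hm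
      exact Idl_le (hVmem (left_mem_span_pair _ _) hhmem) (right_mem_span_pair _ _)
    · -- the nonproportional case
      have ha : X 1 * q ∈ (Pp K) ^ 3 := by
        rw [pow_succ' _ 2]
        exact Submodule.mul_mem_mul X1_mem_Pp hqP
      obtain ⟨D, m, hm1, hDm, hD0, hDV⟩ := caseA hf hVN ha (mul_ne_zero (X_ne_zero 1) hq0)
        (fun v hv => by
          rw [hV] at hv
          obtain ⟨s, hs, c, rfl⟩ := mem_sup_span hv
          have e : X 1 * q * (X 0 * (g * s + C c * h)) =
              (X 1 * q) * (X 0 * (g * s)) + C c * ((-w0) * (X 0 * (g * X 1))) +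
                (C c * (-(X 0 * X 1 * (X 2 * c1 - X 1 * c2)))) * f0 := by
            linear_combination (C c * X 0 * X 1) * hrel
          rw [e]
          refine Submodule.add_mem _ (Submodule.add_mem _ ?_ ?_) ?_
          · exact mul_mem_BB ha (Bd_le_BB f0 V d (hstr s hs))
          · rw [← MvPolynomial.smul_eq_C_mul]
            refine Submodule.smul_mem _ _ ?_
            exact mul_mem_BB (Submodule.neg_mem _ hw0P) (Bd_le_BB f0 V d (hstr _ hy1))
          · exact mem_BB_of_Fo (mem_Fo.2 ⟨_, rfl⟩))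
        (by omega)
      exact not_mprim_of_dvd hDm hm1 hD0 hDV hm

/-- The case of a string together with one vector. -/
theorem case_l0 [Infinite K] {f0 : Poly K} (hf : NormCubic f0) {V : Submodule K (Poly K)} {d k : ℕ}
    {g h : Poly K} (hVN : V ≤ Nt K d) (hd : 2 ≤ d) (hV : V = str g k ⊔ Submodule.span K {h})
    (hu : finrank K V = k + 2) (hkd : d ≤ k + 2) (hk : k ≤ d)
    (hg : g ∈ HS K (d - k)) (hg0 : g ≠ 0) (hh : h ∈ HS K d)
    (hρ : finrank K (Pp K * V : Submodule K (Poly K)) = finrank K V + 2)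
    (hv0 : finrank K V ≤ finrank K (Vz f0 V d) + 1) (hv1 : finrank K (Vz f0 V d) + 1 ≤ finrank K V)
    (hm : MPrim (Idl f0 V)) : False := by
  have hVH := le_trans hVN (Nt_le_HS d)
  have hfinV := finite_of_le_HS hVH
  have hW1 : str g k ≤ V := by rw [hV]; exact le_sup_left
  rcases Nat.eq_zero_or_pos k with rfl | hk1
  · -- two vectors
    have hd2 : d = 2 := by omega
    subst hd2
    have h1 : finrank K (Vz f0 V 2) = 1 := by omega
    obtain ⟨g1, hg10, hg1, hs⟩ := exists_span_of_finrank_one h1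
    have hlt : Vz f0 V 2 < V := by
      refine lt_of_le_of_ne (Vz_le _ _ _) ?_
      intro he
      rw [he] at h1
      omega
    obtain ⟨h1', hh1, hh1n⟩ := SetLike.exists_of_lt hlt
    have hle : Vz f0 V 2 ⊔ Submodule.span K {h1'} ≤ V :=
      sup_le (Vz_le _ _ _) ((Submodule.span_singleton_le_iff_mem _ _).2 hh1)
    have hlt2 : Vz f0 V 2 < Vz f0 V 2 ⊔ Submodule.span K {h1'} := by
      refine lt_of_le_of_ne le_sup_left ?_
      intro he
      apply hh1n
      rw [he]
      exact Submodule.mem_sup_right (Submodule.mem_span_singleton_self _)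
    have hfin3 : Module.Finite K (Vz f0 V 2 ⊔ Submodule.span K {h1'} : Submodule K (Poly K)) :=
      Submodule.finiteDimensional_of_le hle
    have h2 := Submodule.finrank_lt_finrank_of_lt hlt2
    have hEq : V = Vz f0 V 2 ⊔ Submodule.span K {h1'} := by
      refine (Submodule.eq_of_le_of_finrank_le hle ?_).symm
      generalize finrank K (Vz f0 V 2 ⊔ Submodule.span K {h1'} : Submodule K (Poly K)) = A at *
      generalize finrank K (Vz f0 V 2) = B at *
      generalize finrank K ↥V = E at *
      omega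
    refine caseB hf hVN (le_refl 2) (g := g1) (h := h1') (k := 0) ?_ ?_ hu (by omega) (by omega)
      (hVH (Vz_le _ _ _ hg1)) hg10 (hVH hh1) hρ hm
    · rw [str_zero, ← hs]
      exact hEq
    · rw [str_zero, ← hs]
  · obtain ⟨v1, hv11, hv1', hv10⟩ := hyper_meet hW1 (Vz_le f0 V d) hv0
      (by rw [finrank_str hg0]; omega)
    obtain ⟨s1, hs1, rfl⟩ := mem_str.1 hv1'
    have hs10 := right_ne_zero_of_mul hv10
    by_cases hle : Vz f0 V d ≤ str g k
    · have hfinS := finite_of_le_HS (str_le_HS (k := k) hg)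
      have hEq : Vz f0 V d = str g k := by
        refine Submodule.eq_of_le_of_finrank_le hle ?_
        rw [finrank_str hg0]
        omega
      exact caseB hf hVN hd hV hEq hu hkd hk hg hg0 hh hρ hm
    · obtain ⟨v, hv, hvn⟩ := SetLike.not_le_iff_exists.1 hle
      have hvV := (mem_Vz.1 hv).1
      rw [hV] at hvV
      obtain ⟨s2, hs2, c, hc⟩ := mem_sup_span hvV
      have hc0 : c ≠ 0 := by
        rintro rfl
        apply hvn
        rw [hc, C_0, zero_mul, add_zero]
        exact mul_mem_str hs2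
      obtain ⟨D, m, hm1, hDm, hD0, hDV⟩ := caseA hf hVN hs1 hs10 (fun w hw => by
        rw [hV] at hw
        obtain ⟨s, hs, c', rfl⟩ := mem_sup_span hw
        have hci : C (c' * c⁻¹) * C c = (C c' : Poly K) := by
          rw [← C_mul, mul_assoc, inv_mul_cancel₀ hc0, mul_one]
        have e : s1 * (X 0 * (g * s + C c' * h)) =
            s * (X 0 * (g * s1)) + C (c' * c⁻¹) * (s1 * (X 0 * v) - s2 * (X 0 * (g * s1))) := by
          rw [hc]
          linear_combination (-(s1 * X 0 * h)) * hci
        rw [e]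
        refine Submodule.add_mem _ ?_ ?_
        · exact mul_mem_BB hs (Bd_le_BB f0 V d (mem_Vz.1 hv11).2)
        · rw [← MvPolynomial.smul_eq_C_mul]
          refine Submodule.smul_mem _ _ (Submodule.sub_mem _ ?_ ?_)
          · exact mul_mem_BB hs1 (Bd_le_BB f0 V d (mem_Vz.1 hv).2)
          · exact mul_mem_BB hs2 (Bd_le_BB f0 V d (mem_Vz.1 hv11).2)) (by omega)
      exact not_mprim_of_dvd hDm hm1 hD0 hDV hm

/-- `P4`: growth at most three, not everything, dimension at least the degree: the ideal is not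
primary. -/
theorem P4 [Infinite K] {f0 : Poly K} (hf : NormCubic f0) {V : Submodule K (Poly K)} {d : ℕ}
    (hVN : V ≤ Nt K d) (hd : 2 ≤ d) (hne : V ≠ Nt K d) (hu : d ≤ finrank K V)
    (hg : finrank K (Tt f0 V d) ≤ finrank K (F0 f0 (d + 1)) + finrank K V + 3)
    (hm : MPrim (Idl f0 V)) : False := by
  have hVH := le_trans hVN (Nt_le_HS d)
  have hfinV := finite_of_le_HS hVH
  have hV0 : V ≠ ⊥ := by
    rintro rfl
    rw [finrank_bot] at hu
    omega
  have h1 := growth_numeric hf hVN hg
  have h2 := growth_pos d hVH hV0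
  have h3 := Submodule.finrank_mono (Vz_le f0 V d)
  by_cases r0 : finrank K V ≤ finrank K (Vz f0 V d)
  · have hEq := Vz_eq_of_le (f0 := f0) hVH r0
    exact not_mprim_of_closed hf (by omega) hVN hne
      (fun v hv => Bd_le_BB _ _ d (mem_Vz.1 (by rw [hEq]; exact hv)).2) (by omega) hm
  · by_cases h4 : finrank K (Pp K * V : Submodule K (Poly K)) = finrank K V + 1
    · obtain ⟨g, k, hk, hgd, hg0, hs, hr⟩ := string1 d hVH h4
      have hk' : k = d ∨ k + 1 = d := by omega
      rcases hk' with rfl | hk'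
      · have hVz0 : Vz f0 V k ≠ ⊥ := by
          intro hb
          rw [hb, finrank_bot] at h1
          omega
        obtain ⟨v, hv, hv0⟩ := Submodule.exists_mem_ne_zero_of_ne_bot hVz0
        have hvV := (mem_Vz.1 hv).1
        rw [hs] at hvV
        obtain ⟨s, hs1, rfl⟩ := mem_str.1 hvV
        obtain ⟨h5, _⟩ := C1_str hf hs hgd hg0 hs1 (right_ne_zero_of_mul hv0) (mem_Vz.1 hv).2
        omega
      · refine not_mprim_of_le (p := g) (q := f0) hgd hf.hom (by omega) (by omega) ?_ hm
        refine Idl_le (fun v hv => ?_) (right_mem_span_pair _ _)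
        rw [hs] at hv
        obtain ⟨s, _, rfl⟩ := mem_str.1 hv
        exact Ideal.mul_mem_right _ _ (left_mem_span_pair _ _)
    · have h5 : finrank K (Pp K * V : Submodule K (Poly K)) = finrank K V + 2 := by omega
      obtain ⟨g, h, k, l, hk, hl, hgd, hhd, hs, hr⟩ := string2 d hVH h5
      have hg0 : g ≠ 0 := str_ne_zero_of_sup hVH hs hr
      have hh0 : h ≠ 0 := str_ne_zero_of_sup hVH (k := l) (l := k) (by rw [hs, sup_comm]) (by omega)
      rcases Nat.eq_zero_or_pos l with rfl | hl1
      · rw [str_zero] at hs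
        exact case_l0 hf hVN hd hs (by omega) (by omega) hk hgd hg0 (by simpa using hhd) h5
          (by omega) (by omega) hm
      · rcases Nat.eq_zero_or_pos k with rfl | hk1
        · rw [str_zero, sup_comm] at hs
          exact case_l0 hf hVN hd hs (by omega) (by omega) hl hhd hh0 (by simpa using hgd) h5
            (by omega) (by omega) hm
        · exact case_both hf hVN hs (by omega) (by omega) hk1 hl1 hg0 hh0 hm

end Vale.Agent.Lib.P200
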