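import Mathlib

/-!
Definitions for the statement: the space `J` attached to an ideal `I` of `K[x₀,x₁,x₂]` containing
a regular sequence of degrees `a 0, a 1, a 2`, following the problem statement for `n = c = 3`.
-/

namespace Vale.Agent.Lib.P200
open MvPolynomial Module

variable {K : Type*} [Field K]

/-- The ideal `P = (x₀^(a 0), x₁^(a 1), x₂^(a 2))` of `K[x₀, x₁, x₂]`. -/
noncomputable def powerIdealT (K : Type*) [Field K] (a : Fin 3 → ℕ) :
    Ideal (MvPolynomial (Fin 3) K) :=
  Ideal.span (Set.range fun i : Fin 3 => (X i : MvPolynomial (Fin 3) K) ^ a i)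

/-- The degree `d` part `I_d` of an ideal `I`, as a `K`-subspace. -/
noncomputable def pieceT (I : Ideal (MvPolynomial (Fin 3) K)) (d : ℕ) :
    Submodule K (MvPolynomial (Fin 3) K) :=
  I.restrictScalars K ⊓ homogeneousSubmodule (Fin 3) K d

/-- The number `q_d = dim I_d - dim P_d`. -/
noncomputable def excessT (a : Fin 3 → ℕ) (I : Ideal (MvPolynomial (Fin 3) K)) (d : ℕ) : ℕ :=
  finrank K (pieceT I d) - finrank K (pieceT (powerIdealT K a) d)

/-- The monomial with exponent vector `m` lies outside `P`. -/
def OutsideT (a : Fin 3 → ℕ) (m : Fin 3 →₀ ℕ) : Prop := ∀ i, m i < a i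

/-- The number of monomials outside `P`, of the same degree as `m`, that are lexicographically
greater than `m`, with `x₀ > x₁ > x₂`. -/
noncomputable def lexRankT (a : Fin 3 → ℕ) (m : Fin 3 →₀ ℕ) : ℕ :=
  Set.ncard {n : Fin 3 →₀ ℕ | n.degree = m.degree ∧ OutsideT a n ∧ toLex m < toLex n}

/-- The space `J_d`: the span of `P_d` and of the `q_d` lexicographically greatest monomials of
degree `d` outside `P` (those with fewer than `q_d` greater monomials outside `P`). -/
noncomputable def lexPieceT (a : Fin 3 → ℕ) (I : Ideal (MvPolynomial (Fin 3) K)) (d : ℕ) :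
    Submodule K (MvPolynomial (Fin 3) K) :=
  pieceT (powerIdealT K a) d ⊔
    Submodule.span K ((fun m => monomial m (1 : K)) ''
      {m : Fin 3 →₀ ℕ | m.degree = d ∧ OutsideT a m ∧ lexRankT a m < excessT a I d})

/-- The graded subspace `J = ⨁ J_d`. -/
noncomputable def lexSpaceT (a : Fin 3 → ℕ) (I : Ideal (MvPolynomial (Fin 3) K)) :
    Submodule K (MvPolynomial (Fin 3) K) :=
  ⨆ d, lexPieceT a I d

end Vale.Agent.Lib.P200
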