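import Vale.Agent.Lib.P200.BForms
import Vale.Agent.Lib.P200.BDefs

/-!
Dimension recursion for graded pieces of ideals generated by regular sequences.
-/

namespace Vale.Agent.Lib.P200
open MvPolynomial Module

variable {K : Type*} [Field K]

theorem pieceT_le_HS (I : Ideal (Poly K)) (d : ℕ) : pieceT I d ≤ HS K d := inf_le_right

theorem mem_pieceT {I : Ideal (Poly K)} {d : ℕ} {a : Poly K} :
    a ∈ pieceT I d ↔ a ∈ I ∧ a.IsHomogeneous d := by
  simp [pieceT, mem_homogeneousSubmodule]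

theorem FF_eq_pieceT (f : Fin 3 → Poly K) (d : ℕ) : FF f d = pieceT (Fid f) d := rfl

/-- An ideal closed under taking homogeneous components. -/
def HomClosed (J : Ideal (Poly K)) : Prop := ∀ p ∈ J, ∀ n, homogeneousComponent n p ∈ J

theorem homClosed_bot : HomClosed (⊥ : Ideal (Poly K)) := by
  intro p hp n
  rw [Ideal.mem_bot] at hp
  rw [hp, map_zero]
  exact Ideal.zero_mem _

theorem homClosed_sup {J : Ideal (Poly K)} (hJ : HomClosed J) {g : Poly K} {e : ℕ}
    (hg : g.IsHomogeneous e) : HomClosed (J ⊔ Ideal.span {g}) := by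
  intro p hp n
  obtain ⟨j, hj, w, hw, rfl⟩ := Submodule.mem_sup.1 hp
  obtain ⟨c, rfl⟩ := Ideal.mem_span_singleton'.1 hw
  rw [map_add, comp_mul_hzc hg]
  exact Ideal.add_mem _ (Ideal.mem_sup_left (hJ j hj n))
    (Ideal.mem_sup_right (Ideal.mul_mem_left _ _ (Ideal.mem_span_singleton_self g)))

theorem finrank_piece_low {J : Ideal (Poly K)} {g : Poly K} {e d : ℕ} (hJ : HomClosed J)
    (hg : g.IsHomogeneous e) (hd : d < e) : pieceT (J ⊔ Ideal.span {g}) d = pieceT J d := by
  apply le_antisymm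
  · intro a ha
    obtain ⟨h1, h2⟩ := mem_pieceT.1 ha
    refine mem_pieceT.2 ⟨?_, h2⟩
    obtain ⟨j, hj, w, hw, rfl⟩ := Submodule.mem_sup.1 h1
    obtain ⟨c, rfl⟩ := Ideal.mem_span_singleton'.1 hw
    have := homogeneousComponent_eq_self h2
    rw [map_add, comp_mul_hzc hg, hzc, if_neg (by omega), zero_mul, add_zero] at this
    rw [← this]
    exact hJ j hj d
  · intro a ha
    obtain ⟨h1, h2⟩ := mem_pieceT.1 ha
    exact mem_pieceT.2 ⟨Ideal.mem_sup_left h1, h2⟩

/-- Adding a regular generator. -/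
theorem finrank_piece_add {J : Ideal (Poly K)} {g : Poly K} {e : ℕ} (hJ : HomClosed J)
    (hg : g.IsHomogeneous e) (hne : g ≠ 0) (hreg : ∀ p, p * g ∈ J → p ∈ J) (D : ℕ) :
    finrank K (pieceT (J ⊔ Ideal.span {g}) (D + e)) + finrank K (pieceT J D) =
      finrank K (pieceT J (D + e)) + T D := by
  set M1 : Submodule K (Poly K) := (HS K D).map (LinearMap.mulRight K g) with hM1
  have hinj : Function.Injective (LinearMap.mulRight K g : Poly K →ₗ[K] Poly K) :=
    fun x y exy => mul_right_cancel₀ hne (by simpa using exy)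
  have hfinA : Module.Finite K (pieceT J (D + e)) := finite_of_le_HS (pieceT_le_HS _ _)
  have hfinB : Module.Finite K M1 := by
    rw [hM1]
    exact Module.Finite.map _ _
  have hL : pieceT (J ⊔ Ideal.span {g}) (D + e) = pieceT J (D + e) ⊔ M1 := by
    apply le_antisymm
    · intro a ha
      obtain ⟨h1, h2⟩ := mem_pieceT.1 ha
      obtain ⟨j, hj, w, hw, rfl⟩ := Submodule.mem_sup.1 h1
      obtain ⟨c, rfl⟩ := Ideal.mem_span_singleton'.1 hw
      have e1 := homogeneousComponent_eq_self h2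
      rw [map_add, comp_mul_add hg] at e1
      rw [← e1]
      refine Submodule.add_mem_sup (mem_pieceT.2 ⟨hJ j hj _, homogeneousComponent_isHomogeneous _ _⟩) ?_
      exact ⟨homogeneousComponent D c, homogeneousComponent_isHomogeneous _ _, rfl⟩
    · refine sup_le ?_ ?_
      · intro a ha
        obtain ⟨h1, h2⟩ := mem_pieceT.1 ha
        exact mem_pieceT.2 ⟨Ideal.mem_sup_left h1, h2⟩
      · rintro _ ⟨c, hc, rfl⟩
        refine mem_pieceT.2 ⟨Ideal.mem_sup_right (Ideal.mul_mem_left _ _ (Ideal.mem_span_singleton_self g)), ?_⟩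
        exact (show c.IsHomogeneous D from hc).mul hg
  have hI : pieceT J (D + e) ⊓ M1 = (pieceT J D).map (LinearMap.mulRight K g) := by
    apply le_antisymm
    · rintro _ ⟨h1, ⟨c, hc, rfl⟩⟩
      obtain ⟨h2, _⟩ := mem_pieceT.1 h1
      exact ⟨c, mem_pieceT.2 ⟨hreg c h2, hc⟩, rfl⟩
    · rintro _ ⟨c, hc, rfl⟩
      obtain ⟨h2, h3⟩ := mem_pieceT.1 hc
      exact ⟨mem_pieceT.2 ⟨Ideal.mul_mem_right _ _ h2, h3.mul hg⟩, ⟨c, h3, rfl⟩⟩
  have e1 : finrank K (pieceT J (D + e) ⊔ M1 : Submodule K (Poly K)) +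
      finrank K (pieceT J (D + e) ⊓ M1 : Submodule K (Poly K)) =
      finrank K (pieceT J (D + e)) + finrank K M1 :=
    Submodule.finrank_sup_add_finrank_inf_eq (pieceT J (D + e)) M1
  rw [← hL, hI] at e1
  have e2 : finrank K ((pieceT J D).map (LinearMap.mulRight K g)) = finrank K (pieceT J D) :=
    (Submodule.equivMapOfInjective _ hinj _).finrank_eq.symm
  have e3 : finrank K M1 = T D := by
    rw [hM1, ← (Submodule.equivMapOfInjective _ hinj _).finrank_eq, finrank_HS]
  rw [e2, e3] at e1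
  exact e1

/-- The ideal generated by the first form. -/
noncomputable def J1 (f : Fin 3 → Poly K) : Ideal (Poly K) := ⊥ ⊔ Ideal.span {f 0}

/-- The ideal generated by the first two forms. -/
noncomputable def J2 (f : Fin 3 → Poly K) : Ideal (Poly K) := J1 f ⊔ Ideal.span {f 1}

theorem Fid_eq (f : Fin 3 → Poly K) : Fid f = J2 f ⊔ Ideal.span {f 2} := by
  apply le_antisymm
  · unfold Fid
    rw [Ideal.span_le]
    rintro _ ⟨i, rfl⟩
    fin_cases i
    · exact Ideal.mem_sup_left (Ideal.mem_sup_left (Ideal.mem_sup_right (Ideal.mem_span_singleton_self _)))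
    · exact Ideal.mem_sup_left (Ideal.mem_sup_right (Ideal.mem_span_singleton_self _))
    · exact Ideal.mem_sup_right (Ideal.mem_span_singleton_self _)
  · have hs : ∀ i, Ideal.span {f i} ≤ Fid f := fun i => by
      rw [Ideal.span_le, Set.singleton_subset_iff]
      exact Ideal.subset_span ⟨i, rfl⟩
    refine sup_le (sup_le (sup_le bot_le (hs 0)) (hs 1)) (hs 2)

theorem mem_J1 {f : Fin 3 → Poly K} {p : Poly K} : p ∈ J1 f ↔ ∃ c, p = c * f 0 := by
  rw [J1, bot_sup_eq, Ideal.mem_span_singleton']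
  exact exists_congr fun c => eq_comm

theorem mem_J2 {f : Fin 3 → Poly K} {p : Poly K} :
    p ∈ J2 f ↔ ∃ c d, p = c * f 0 + d * f 1 := by
  unfold J2
  rw [Submodule.mem_sup]
  constructor
  · rintro ⟨u, hu, w, hw, rfl⟩
    obtain ⟨c, rfl⟩ := mem_J1.1 hu
    obtain ⟨d, rfl⟩ := Ideal.mem_span_singleton'.1 hw
    exact ⟨c, d, rfl⟩
  · rintro ⟨c, d, rfl⟩
    exact ⟨_, mem_J1.2 ⟨c, rfl⟩, _, Ideal.mul_mem_left _ _ (Ideal.mem_span_singleton_self _), rfl⟩

/-- Dimension of the multiples of the first form. -/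
def phi1 (a : Fin 3 → ℕ) (d : ℕ) : ℕ := if a 0 ≤ d then T (d - a 0) else 0

/-- Dimension of the degree `d` piece of the ideal of the first two forms. -/
def phi2 (a : Fin 3 → ℕ) (d : ℕ) : ℕ :=
  phi1 a d + if a 1 ≤ d then T (d - a 1) - phi1 a (d - a 1) else 0

/-- Dimension of the degree `d` piece of the ideal of the three forms. -/
def phi3 (a : Fin 3 → ℕ) (d : ℕ) : ℕ :=
  phi2 a d + if a 2 ≤ d then T (d - a 2) - phi2 a (d - a 2) else 0

namespace FormSeq

variable {a : Fin 3 → ℕ} {f : Fin 3 → Poly K} (h : FormSeq a f)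
include h

theorem homClosed_J1 : HomClosed (J1 f) := homClosed_sup homClosed_bot (h.hom 0)

theorem homClosed_J2 : HomClosed (J2 f) := homClosed_sup h.homClosed_J1 (h.hom 1)

theorem ne1 : f 1 ≠ 0 := by
  intro h1
  obtain ⟨r, hr⟩ := h.reg.h1 1 0 (by rw [h1]; ring)
  have hc := congrArg (homogeneousComponent 0) hr
  rw [comp_mul_low (h.hom 0) r (by have := h.pos 0; omega)] at hc
  simp at hc

theorem ne2 : f 2 ≠ 0 := by
  intro h2
  obtain ⟨α, β, hab⟩ := h.reg.h2 1 0 0 (by rw [h2]; ring)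
  have hc := congrArg (homogeneousComponent 0) hab
  rw [map_add, comp_mul_low (h.hom 0) α (by have := h.pos 0; omega),
    comp_mul_low (h.hom 1) β (by have := h.pos 1; omega)] at hc
  simp at hc

theorem finrank_J1 (d : ℕ) : finrank K (pieceT (J1 f) d) = phi1 a d := by
  unfold phi1
  have hb : ∀ e, finrank K (pieceT (⊥ : Ideal (Poly K)) e) = 0 := by
    intro e
    have : pieceT (⊥ : Ideal (Poly K)) e = ⊥ := by
      rw [eq_bot_iff]
      intro x hx
      exact (Submodule.mem_bot K).2 ((Ideal.mem_bot).1 (mem_pieceT.1 hx).1)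
    rw [this, finrank_bot]
  by_cases hd : a 0 ≤ d
  · rw [if_pos hd]
    obtain ⟨D, rfl⟩ : ∃ D, d = D + a 0 := ⟨d - a 0, by omega⟩
    have := finrank_piece_add homClosed_bot (h.hom 0) h.ne0
      (fun p hp => by
        rw [Ideal.mem_bot] at hp ⊢
        exact (mul_eq_zero.1 hp).resolve_right h.ne0) D
    rw [hb, hb] at this
    rw [Nat.add_sub_cancel]
    unfold J1
    omega
  · rw [if_neg hd]
    unfold J1
    rw [finrank_piece_low homClosed_bot (h.hom 0) (by omega), hb]

theorem phi1_le (d : ℕ) : phi1 a d ≤ T d := by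
  rw [← h.finrank_J1 d, ← finrank_HS (K := K)]
  exact Submodule.finrank_mono (pieceT_le_HS _ _)

theorem finrank_J2 (d : ℕ) : finrank K (pieceT (J2 f) d) = phi2 a d := by
  unfold phi2
  by_cases hd : a 1 ≤ d
  · rw [if_pos hd]
    obtain ⟨D, rfl⟩ : ∃ D, d = D + a 1 := ⟨d - a 1, by omega⟩
    have := finrank_piece_add h.homClosed_J1 (h.hom 1) h.ne1
      (fun p hp => by
        obtain ⟨c, hc⟩ := mem_J1.1 hp
        obtain ⟨r, hr⟩ := h.reg.h1 p c hc
        exact mem_J1.2 ⟨r, hr⟩) D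
    rw [h.finrank_J1, h.finrank_J1] at this
    rw [Nat.add_sub_cancel]
    have hle := h.phi1_le D
    unfold J2
    omega
  · rw [if_neg hd]
    unfold J2
    rw [finrank_piece_low h.homClosed_J1 (h.hom 1) (by omega), h.finrank_J1]
    simp

theorem phi2_le (d : ℕ) : phi2 a d ≤ T d := by
  rw [← h.finrank_J2 d, ← finrank_HS (K := K)]
  exact Submodule.finrank_mono (pieceT_le_HS _ _)

/-- The dimension recursion for the ideal of the three forms. -/
theorem finrank_FF (d : ℕ) : finrank K (FF f d) = phi3 a d := by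
  rw [FF_eq_pieceT]
  unfold phi3
  rw [Fid_eq]
  by_cases hd : a 2 ≤ d
  · rw [if_pos hd]
    obtain ⟨D, rfl⟩ : ∃ D, d = D + a 2 := ⟨d - a 2, by omega⟩
    have := finrank_piece_add h.homClosed_J2 (h.hom 2) h.ne2
      (fun p hp => by
        obtain ⟨c, e, hc⟩ := mem_J2.1 hp
        obtain ⟨r, s, hr⟩ := h.reg.h2 p c e hc
        exact mem_J2.2 ⟨r, s, hr⟩) D
    rw [h.finrank_J2, h.finrank_J2] at this
    rw [Nat.add_sub_cancel]
    have hle := h.phi2_le D
    generalize finrank K ↥(pieceT (J2 f ⊔ Ideal.span {f 2}) (D + a 2)) = A at this ⊢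
    omega
  · rw [if_neg hd]
    rw [finrank_piece_low h.homClosed_J2 (h.hom 2) (by omega), h.finrank_J2]
    simp

theorem FF_of_lt {d : ℕ} (hd : d < a 2) : FF f d = pieceT (J2 f) d := by
  rw [FF_eq_pieceT, Fid_eq]
  exact finrank_piece_low h.homClosed_J2 (h.hom 2) hd

theorem J2_of_lt {d : ℕ} (hd : d < a 1) : pieceT (J2 f) d = pieceT (J1 f) d :=
  finrank_piece_low h.homClosed_J1 (h.hom 1) hd

end FormSeq

end Vale.Agent.Lib.P200
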