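import Vale.Agent.Lib.P200.BMono

/-!
Gorenstein duality for a complete intersection of three ternary forms, in elementary form.
-/

namespace Vale.Agent.Lib.P200
open MvPolynomial Module

variable {K : Type*} [Field K]

namespace FormSeq

variable {a : Fin 3 → ℕ} {f : Fin 3 → Poly K} (h : FormSeq a f)
include h

theorem FF_mono_mul {d e : ℕ} {x y : Poly K} (ha : x ∈ FF f d) (hb : y.IsHomogeneous e) :
    x * y ∈ FF f (d + e) := by
  obtain ⟨h1, h2⟩ := mem_FF.1 ha
  exact mem_FF.2 ⟨Ideal.mul_mem_right _ _ h1, h2.mul hb⟩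

/-- The trace functional on the socle degree. -/
theorem exists_trace {s : ℕ} (hs : a 0 + a 1 + a 2 = s + 3) : ∃ φ : Module.Dual K (Poly K),
    (∀ x ∈ HS K s, φ x = 0 ↔ x ∈ FF f s) ∧ ∃ t ∈ HS K s, φ t ≠ 0 := by
  have h7 := h.finrank_FF_add_cnt s
  rw [cntT_top hs h.pos] at h7
  have h6 : finrank K (HS K s) = T s := finrank_HS s
  have hfinF := finite_of_le_HS (FF_le_HS f s)
  have hlt : FF f s < HS K s := by
    refine lt_of_le_of_ne (FF_le_HS f s) ?_
    intro he
    rw [he, h6] at h7
    omega
  obtain ⟨t, ht, ht'⟩ := SetLike.exists_of_lt hlt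
  obtain ⟨φ, hφt, hφF⟩ := Submodule.exists_dual_map_eq_bot_of_notMem ht' inferInstance
  have hφ0 : ∀ y ∈ FF f s, φ y = 0 := by
    intro y hy
    have : φ y ∈ Submodule.map φ (FF f s) := ⟨y, hy, rfl⟩
    rw [hφF] at this
    simpa using this
  refine ⟨φ, ?_, t, ht, hφt⟩
  have hsup : FF f s ⊔ Submodule.span K {t} = HS K s := by
    have hle : FF f s ⊔ Submodule.span K {t} ≤ HS K s :=
      sup_le (FF_le_HS f s) ((Submodule.span_singleton_le_iff_mem _ _).2 ht)
    have hlt2 : FF f s < FF f s ⊔ Submodule.span K {t} := by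
      refine lt_of_le_of_ne le_sup_left ?_
      intro he
      apply ht'
      rw [he]
      exact Submodule.mem_sup_right (Submodule.mem_span_singleton_self _)
    have hfinS : Module.Finite K (FF f s ⊔ Submodule.span K {t} : Submodule K (Poly K)) :=
      finite_of_le_HS hle
    have := Submodule.finrank_lt_finrank_of_lt hlt2
    refine Submodule.eq_of_le_of_finrank_le hle ?_
    rw [h6]
    generalize finrank K (FF f s) = A at *
    generalize finrank K ↥(FF f s ⊔ Submodule.span K {t}) = B at *
    omega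
  intro x hx
  constructor
  · intro h0
    rw [← hsup, Submodule.mem_sup] at hx
    obtain ⟨u, hu, v, hv, rfl⟩ := hx
    obtain ⟨c, rfl⟩ := Submodule.mem_span_singleton.1 hv
    rw [map_add, map_smul, hφ0 u hu, zero_add, smul_eq_mul] at h0
    have hc : c = 0 := (mul_eq_zero.1 h0).resolve_right hφt
    rw [hc, zero_smul, add_zero]
    exact hu
  · exact hφ0 x

/-- Radical of the pairing. -/
theorem radical {s : ℕ} (hs : a 0 + a 1 + a 2 = s + 3) {φ : Module.Dual K (Poly K)}
    (hφ : ∀ x ∈ HS K s, φ x = 0 ↔ x ∈ FF f s) (k : ℕ) :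
    ∀ d, d + k = s → ∀ x ∈ HS K d, (∀ y ∈ HS K k, φ (x * y) = 0) → x ∈ FF f d := by
  induction k with
  | zero =>
    intro d hd x hx hb
    have hd6 : d = s := by omega
    subst hd6
    have h1 : (1 : Poly K) ∈ HS K 0 := by
      rw [HS_zero]
      exact Submodule.one_le.1 le_rfl
    have := hb 1 h1
    rw [mul_one] at this
    exact (hφ x hx).1 this
  | succ k ih =>
    intro d hd x hx hb
    have hXh : ∀ i, (X i : Poly K) ∈ HS K 1 := fun i => isHomogeneous_X K i
    have hXa : ∀ i, (X i : Poly K) * x ∈ Fid f := by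
      intro i
      have h1 : (X i : Poly K) * x ∈ HS K (d + 1) := by
        have := (hXh i).mul hx
        rwa [add_comm] at this
      refine (mem_FF.1 (ih (d + 1) (by omega) _ h1 ?_)).1
      intro y hy
      have h2 : (X i * y : Poly K) ∈ HS K (k + 1) := by
        have := (hXh i).mul hy
        rwa [add_comm] at this
      have := hb _ h2
      rwa [show x * (X i * y) = X i * x * y by ring] at this
    exact mem_FF.2 ⟨h.socle hx (by omega) hXa, hx⟩

end FormSeq

/-- Perpendicular subspace inside the forms of degree `e`. -/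
noncomputable def perpT (φ : Module.Dual K (Poly K)) (V : Submodule K (Poly K)) (e : ℕ) :
    Submodule K (Poly K) where
  carrier := {b | b ∈ HS K e ∧ ∀ x ∈ V, φ (x * b) = 0}
  add_mem' := by
    rintro x y ⟨hx, hx'⟩ ⟨hy, hy'⟩
    refine ⟨Submodule.add_mem _ hx hy, fun a ha => ?_⟩
    rw [mul_add, map_add, hx' a ha, hy' a ha, add_zero]
  zero_mem' := ⟨Submodule.zero_mem _, fun a _ => by simp⟩
  smul_mem' := by
    rintro c x ⟨hx, hx'⟩
    refine ⟨Submodule.smul_mem _ _ hx, fun a ha => ?_⟩
    rw [mul_smul_comm, map_smul, hx' a ha, smul_zero]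

theorem mem_perpT {φ : Module.Dual K (Poly K)} {V : Submodule K (Poly K)} {e : ℕ} {b : Poly K} :
    b ∈ perpT φ V e ↔ b ∈ HS K e ∧ ∀ a ∈ V, φ (a * b) = 0 := Iff.rfl

theorem perpT_le (φ : Module.Dual K (Poly K)) (V : Submodule K (Poly K)) (e : ℕ) :
    perpT φ V e ≤ HS K e := fun _ hb => hb.1

/-- The pairing as a linear map. -/
noncomputable def pairingT (φ : Module.Dual K (Poly K)) (V : Submodule K (Poly K)) (e : ℕ) :
    V →ₗ[K] Module.Dual K (HS K e) where
  toFun a := (φ ∘ₗ LinearMap.mulLeft K (a : Poly K)) ∘ₗ (HS K e).subtype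
  map_add' x y := by
    ext b
    simp [add_mul]
  map_smul' c x := by
    ext b
    simp

namespace FormSeq

variable {a : Fin 3 → ℕ} {f : Fin 3 → Poly K} (h : FormSeq a f)
include h

theorem finrank_perpT {s : ℕ} (hs : a 0 + a 1 + a 2 = s + 3) {φ : Module.Dual K (Poly K)}
    (hφ : ∀ x ∈ HS K s, φ x = 0 ↔ x ∈ FF f s) {d e : ℕ} (hde : d + e = s)
    {V : Submodule K (Poly K)} (hV : V ≤ HS K d) (hFV : FF f d ≤ V) :
    finrank K (perpT φ V e) + finrank K V = T e + finrank K (FF f d) := by
  have hfinV := finite_of_le_HS hV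
  have hfinF := finite_of_le_HS (FF_le_HS f d)
  set C := pairingT φ V e with hC
  -- kernel of the pairing
  have hker : finrank K (LinearMap.ker C) = finrank K (FF f d) := by
    have hmap : (LinearMap.ker C).map V.subtype = FF f d := by
      ext x
      simp only [Submodule.mem_map, LinearMap.mem_ker, Submodule.subtype_apply]
      constructor
      · rintro ⟨y, hy, rfl⟩
        refine h.radical hs hφ e d hde _ (hV y.2) ?_
        intro b hb
        have := congrArg (fun g : Module.Dual K (HS K e) => g ⟨b, hb⟩) hy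
        simpa [hC, pairingT] using this
      · intro ha
        refine ⟨⟨x, hFV ha⟩, ?_, rfl⟩
        ext ⟨b, hb⟩
        simp only [hC, pairingT, LinearMap.coe_mk, AddHom.coe_mk, LinearMap.comp_apply,
          Submodule.subtype_apply, LinearMap.mulLeft_apply, LinearMap.zero_apply]
        have hm := h.FF_mono_mul ha hb
        rw [hde] at hm
        exact (hφ _ (FF_le_HS f s hm)).2 hm
    rw [← hmap]
    exact (Submodule.finrank_map_subtype_eq V _).symm
  have hrank := LinearMap.finrank_range_add_finrank_ker C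
  have hco := Subspace.finrank_add_finrank_dualCoannihilator_eq (LinearMap.range C)
  have hperp : finrank K (perpT φ V e) = finrank K (LinearMap.range C).dualCoannihilator := by
    have hmap : ((LinearMap.range C).dualCoannihilator).map (HS K e).subtype = perpT φ V e := by
      ext b
      simp only [Submodule.mem_map, Submodule.subtype_apply]
      constructor
      · rintro ⟨x, hx, rfl⟩
        refine ⟨x.2, fun a ha => ?_⟩
        rw [Submodule.mem_dualCoannihilator] at hx
        have := hx (C ⟨a, ha⟩) ⟨_, rfl⟩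
        simpa [hC, pairingT] using this
      · rintro ⟨hb, hb'⟩
        refine ⟨⟨b, hb⟩, ?_, rfl⟩
        rw [Submodule.mem_dualCoannihilator]
        rintro _ ⟨a, rfl⟩
        simpa [hC, pairingT] using hb' a a.2
    rw [← hmap]
    exact Submodule.finrank_map_subtype_eq _ _
  rw [finrank_HS] at hco
  rw [hker] at hrank
  rw [hperp]
  generalize finrank K (LinearMap.range C) = A at *
  generalize finrank K ↥((LinearMap.range C).dualCoannihilator) = B at *
  generalize finrank K ↥(FF f d) = D at *
  generalize finrank K ↥V = E at *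
  omega

/-- Elements of the ideal in complementary degree are perpendicular to everything. -/
theorem FF_le_perpT {s : ℕ} {φ : Module.Dual K (Poly K)}
    (hφ : ∀ x ∈ HS K s, φ x = 0 ↔ x ∈ FF f s) {d e : ℕ} (hde : d + e = s)
    {V : Submodule K (Poly K)} (hV : V ≤ HS K d) : FF f e ≤ perpT φ V e := by
  intro b hb
  refine ⟨FF_le_HS f e hb, fun x hx => ?_⟩
  have hm := h.FF_mono_mul hb (hV hx)
  rw [add_comm, hde] at hm
  rw [mul_comm]
  exact (hφ _ (FF_le_HS f s hm)).2 hm

/-- Growth of the perpendicular space. -/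
theorem growth_perpT {s : ℕ} {φ : Module.Dual K (Poly K)}
    (hφ : ∀ x ∈ HS K s, φ x = 0 ↔ x ∈ FF f s) {d e : ℕ} (hde : d + (e + 1) = s)
    {V : Submodule K (Poly K)} (hV : V ≤ HS K d) :
    HS K 1 * perpT φ (HS K 1 * V ⊔ FF f (d + 1)) e ⊔ FF f (e + 1) ≤ perpT φ V (e + 1) := by
  refine sup_le ?_ (h.FF_le_perpT hφ hde hV)
  rw [Submodule.mul_le]
  intro x hx y hy
  refine ⟨?_, fun w hw => ?_⟩
  · have := (show x.IsHomogeneous 1 from hx).mul hy.1
    rwa [add_comm] at this
  · have := hy.2 (x * w) (Submodule.mem_sup_left (Submodule.mul_mem_mul hx hw))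
    rwa [show w * (x * y) = x * w * y by ring]

end FormSeq

end Vale.Agent.Lib.P200
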