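import Vale.Agent.Lib.P200.BStep

/-!
The monomial set of `J`, its closure, and the main theorem for degrees `3, b, b`.
-/

namespace Vale.Agent.Lib.P200
open MvPolynomial Module RingTheory.Sequence

variable {K : Type*} [Field K] {b : ℕ}

/-- The set of exponent vectors of the monomials spanning `J`. -/
noncomputable def MSetT (a : Fin 3 → ℕ) (I : Ideal (Poly K)) : Set (Fin 3 →₀ ℕ) :=
  {m | ¬ OutsideT a m ∨ lexRankT a m < excessT a I m.degree}

theorem lexPieceT_eq (a : Fin 3 → ℕ) (I : Ideal (Poly K)) (d : ℕ) :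
    lexPieceT a I d = restrictSupport K {m | m ∈ MSetT a I ∧ m.degree = d} := by
  unfold lexPieceT
  rw [pieceT_power, restrictSupport_eq_span, restrictSupport_eq_span, ← Submodule.span_union,
    ← Set.image_union]
  congr 2
  ext m
  simp only [Set.mem_union, Set.mem_ofPred_eq, MSetT]
  constructor
  · rintro (⟨h1, h2⟩ | ⟨h1, _, h3⟩)
    · exact ⟨Or.inl h2, h1⟩
    · subst h1
      exact ⟨Or.inr h3, rfl⟩
  · rintro ⟨h1 | h1, h2⟩
    · exact Or.inl ⟨h2, h1⟩
    · by_cases ho : OutsideT a m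
      · subst h2
        exact Or.inr ⟨rfl, ho, h1⟩
      · exact Or.inl ⟨h2, ho⟩

theorem lexSpaceT_eq (a : Fin 3 → ℕ) (I : Ideal (Poly K)) :
    lexSpaceT a I = restrictSupport K (MSetT a I) := by
  apply le_antisymm
  · refine iSup_le fun d => ?_
    rw [lexPieceT_eq]
    exact restrictSupport_mono K fun m hm => hm.1
  · rw [restrictSupport_eq_span, Submodule.span_le]
    rintro _ ⟨m, hm, rfl⟩
    refine le_iSup (fun d => lexPieceT a I d) m.degree ?_
    rw [lexPieceT_eq]
    change monomial m (1 : K) ∈ _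
    rw [monomial_mem_restrictSupport]
    exact Or.inl ⟨hm, rfl⟩

section step

variable {f : Fin 3 → Poly K} {I : Ideal (Poly K)}

theorem FF_le_pieceT (hI : ∀ i, f i ∈ I) (d : ℕ) : FF f d ≤ pieceT I d := by
  intro a ha
  obtain ⟨h1, h2⟩ := mem_FF.1 ha
  refine mem_pieceT.2 ⟨?_, h2⟩
  have : Fid f ≤ I := by
    unfold Fid
    rw [Ideal.span_le]
    rintro _ ⟨i, rfl⟩
    exact hI i
  exact this h1

theorem mul_pieceT_le (I : Ideal (Poly K)) (d : ℕ) : HS K 1 * pieceT I d ≤ pieceT I (d + 1) := by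
  rw [Submodule.mul_le]
  intro x hx a ha
  obtain ⟨h1, h2⟩ := mem_pieceT.1 ha
  refine mem_pieceT.2 ⟨I.mul_mem_left x h1, ?_⟩
  have := (show x.IsHomogeneous 1 from hx).mul h2
  rwa [add_comm] at this

theorem MSetT_step (h : FormSeq (ab b) f) (hb : 3 ≤ b) (hI : ∀ i, f i ∈ I) {m : Fin 3 →₀ ℕ}
    (hm : m ∈ MSetT (ab b) I) (l : Fin 3) : m + Finsupp.single l 1 ∈ MSetT (ab b) I := by
  by_cases ho : OutsideT (ab b) (m + Finsupp.single l 1)
  swap
  · exact Or.inl ho
  right
  have hom : OutsideT (ab b) m := by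
    intro j
    have := ho j
    simp only [Finsupp.add_apply] at this
    omega
  have hr : lexRankT (ab b) m < excessT (ab b) I m.degree := by
    rcases hm with hm | hm
    · exact absurd hom hm
    · exact hm
  rw [degree_add_single]
  unfold excessT at hr ⊢
  rw [← h.finrank_FF_eq] at hr ⊢
  by_cases hd : m.degree + 1 ≤ b
  · exact lexStep_low h hb hd (FF_le_pieceT hI _) (pieceT_le_HS _ _) (mul_pieceT_le I _)
      (FF_le_pieceT hI _) (pieceT_le_HS _ _) rfl hom hr ho
  · exact lexStep_high h hb (by omega) (FF_le_pieceT hI _) (pieceT_le_HS _ _) (mul_pieceT_le I _)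
      (FF_le_pieceT hI _) (pieceT_le_HS _ _) rfl hom hr ho

theorem MSetT_upper (h : FormSeq (ab b) f) (hb : 3 ≤ b) (hI : ∀ i, f i ∈ I) :
    IsUpperSet (MSetT (ab b) I) := by
  have key : ∀ k : Fin 3 →₀ ℕ, ∀ a ∈ MSetT (ab b) I, a + k ∈ MSetT (ab b) I := by
    intro k
    induction k using Finsupp.induction_linear with
    | zero =>
      intro a ha
      simpa using ha
    | add k1 k2 h1 h2 =>
      intro a ha
      rw [← add_assoc]
      exact h2 _ (h1 _ ha)
    | single i n =>
      induction n with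
      | zero =>
        intro a ha
        simpa using ha
      | succ n ih =>
        intro a ha
        have := MSetT_step h hb hI (ih a ha) i
        rwa [add_assoc, ← Finsupp.single_add] at this
  intro a b hab ha
  have := key (b - a) a ha
  rwa [add_tsub_cancel_of_le hab] at this

end step

/-- The space `J` is an ideal. -/
theorem lexSpaceT_ideal {f : Fin 3 → Poly K} (h : FormSeq (ab b) f) (hb : 3 ≤ b) {I : Ideal (Poly K)}
    (hI : ∀ i, f i ∈ I) : ∃ J : Ideal (Poly K), J.restrictScalars K = lexSpaceT (ab b) I :=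
  ⟨restrictSupportIdeal K (MSetT (ab b) I) (MSetT_upper h hb hI), by
    rw [restrictScalars_restrictSupportIdeal, lexSpaceT_eq]⟩

/-- `dim J_d = dim I_d`. -/
theorem finrank_lexPieceT {f : Fin 3 → Poly K} (h : FormSeq (ab b) f) {I : Ideal (Poly K)}
    (hI : ∀ i, f i ∈ I) (d : ℕ) :
    finrank K (lexPieceT (ab b) I d) = finrank K (pieceT I d) := by
  have hp : finrank K (pieceT (powerIdealT K (ab b)) d) ≤ finrank K (pieceT I d) := by
    rw [← h.finrank_FF_eq d]
    exact finrank_le_of_le_HS (FF_le_pieceT hI d) (pieceT_le_HS I d)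
  have hq : excessT (ab b) I d ≤ cntT (ab b) d := by
    have h1 := finrank_piece_P (K := K) (ab b) d
    have h2 : finrank K (pieceT I d) ≤ T d := by
      rw [← finrank_HS (K := K)]
      exact Submodule.finrank_mono (pieceT_le_HS I d)
    unfold excessT
    omega
  have hseg := ncard_segment (b := b) hq
  have hdisj : Disjoint {m : Fin 3 →₀ ℕ | m.degree = d ∧ ¬ OutsideT (ab b) m}
      {m : Fin 3 →₀ ℕ | m.degree = d ∧ OutsideT (ab b) m ∧ lexRankT (ab b) m < excessT (ab b) I d} := by
    rw [Set.disjoint_left]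
    rintro m ⟨_, h1⟩ ⟨_, h2, _⟩
    exact h1 h2
  have hunion := Set.ncard_union_eq hdisj ((finite_degree_set d).subset fun m hm => hm.1)
    ((finite_degree_set d).subset fun m hm => hm.1)
  have hset : {m | m ∈ MSetT (ab b) I ∧ m.degree = d} =
      {m : Fin 3 →₀ ℕ | m.degree = d ∧ ¬ OutsideT (ab b) m} ∪
      {m : Fin 3 →₀ ℕ | m.degree = d ∧ OutsideT (ab b) m ∧ lexRankT (ab b) m < excessT (ab b) I d} := by
    ext m
    simp only [Set.mem_union, Set.mem_ofPred_eq, MSetT]
    constructor
    · rintro ⟨h1 | h1, h2⟩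
      · exact Or.inl ⟨h2, h1⟩
      · by_cases ho : OutsideT (ab b) m
        · subst h2
          exact Or.inr ⟨rfl, ho, h1⟩
        · exact Or.inl ⟨h2, ho⟩
    · rintro (⟨h1, h2⟩ | ⟨h1, _, h3⟩)
      · exact ⟨Or.inl h2, h1⟩
      · subst h1
        exact ⟨Or.inr h3, rfl⟩
  rw [lexPieceT_eq, finrank_restrictSupport, hset, hunion, hseg]
  have h3 : finrank K (pieceT (powerIdealT K (ab b)) d) =
      ({m : Fin 3 →₀ ℕ | m.degree = d ∧ ¬ OutsideT (ab b) m}).ncard := by
    rw [pieceT_power, finrank_restrictSupport]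
  rw [← h3]
  unfold excessT
  omega

theorem regTriple_of_weaklyRegular' {R : Type*} [CommRing R] [IsDomain R] {x y z : R}
    (h : IsWeaklyRegular R [x, y, z]) : RegTriple x y z := by
  have h0 := h.regular_mod_prev 0 (by simp)
  have h1 := h.regular_mod_prev 1 (by simp)
  have h2 := h.regular_mod_prev 2 (by simp)
  have key : ∀ (I : Ideal R) (u p : R), IsSMulRegular (R ⧸ (I • ⊤ : Submodule R R)) u →
      p * u ∈ I → p ∈ I := by
    intro I u p hreg hm
    have hI : (I • ⊤ : Submodule R R) = I := by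
      rw [smul_eq_mul, Ideal.mul_top]
    have e1 : u • (Submodule.Quotient.mk p : R ⧸ (I • ⊤ : Submodule R R)) = u • 0 := by
      rw [smul_zero, ← Submodule.Quotient.mk_smul, Submodule.Quotient.mk_eq_zero, hI, smul_eq_mul,
        mul_comm]
      exact hm
    have e2 := hreg e1
    rw [Submodule.Quotient.mk_eq_zero, hI] at e2
    exact e2
  refine ⟨?_, ?_, ?_⟩
  · intro ha
    subst ha
    have := key (Ideal.ofList []) 0 1 h0 (by simp)
    simp at this
  · intro p q e
    have := key (Ideal.ofList [x]) y p h1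
      (by rw [Ideal.ofList_singleton, e]; exact Ideal.mul_mem_left _ _ (Ideal.mem_span_singleton_self x))
    rw [Ideal.ofList_singleton] at this
    obtain ⟨r, hr⟩ := Ideal.mem_span_singleton.1 this
    exact ⟨r, by rw [hr]; ring⟩
  · intro p α β e
    have hof : Ideal.ofList [x, y] = Ideal.span {x, y} := by
      simp [Ideal.ofList_cons, Ideal.ofList_singleton, Ideal.span_insert]
    have := key (Ideal.ofList [x, y]) z p h2
      (by rw [hof, e]; exact Ideal.mem_span_pair.2 ⟨α, β, rfl⟩)
    rw [hof] at this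
    obtain ⟨r, s, hrs⟩ := Ideal.mem_span_pair.1 this
    exact ⟨r, s, hrs.symm⟩

end Vale.Agent.Lib.P200
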