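import Vale.Agent.Lib.P200.Prod

/-!
Three ternary forms of arbitrary degrees forming a regular sequence: homogeneous representations,
Koszul relations, the socle lemma and the dimension recursion.
-/

namespace Vale.Agent.Lib.P200
open MvPolynomial Module

variable {K : Type*} [Field K]

/-- Three forms of degrees `a 0, a 1, a 2` forming a regular sequence (equational form). -/
structure FormSeq (a : Fin 3 → ℕ) (f : Fin 3 → Poly K) : Prop where
  pos : ∀ i, 1 ≤ a i
  hom : ∀ i, (f i).IsHomogeneous (a i)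
  reg : RegTriple (f 0) (f 1) (f 2)

/-- `Hz p m k`: the polynomial `p` is homogeneous of degree `m - k`, and zero when `m < k`. -/
def Hz (p : Poly K) (m k : ℕ) : Prop := (k ≤ m → p.IsHomogeneous (m - k)) ∧ (m < k → p = 0)

theorem Hz.of_le {p : Poly K} {m k : ℕ} (h : Hz p m k) (hk : k ≤ m) : p.IsHomogeneous (m - k) :=
  h.1 hk

theorem Hz.zero (m k : ℕ) : Hz (0 : Poly K) m k :=
  ⟨fun _ => isHomogeneous_zero _ _ _, fun _ => rfl⟩

/-- Component of `p` of degree `m - k`, zero when `m < k`. -/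
noncomputable def hzc (p : Poly K) (m k : ℕ) : Poly K :=
  if k ≤ m then homogeneousComponent (m - k) p else 0

theorem hz_hzc (p : Poly K) (m k : ℕ) : Hz (hzc p m k) m k := by
  refine ⟨fun hk => ?_, fun hk => ?_⟩
  · rw [hzc, if_pos hk]
    exact homogeneousComponent_isHomogeneous _ _
  · rw [hzc, if_neg (by omega)]

theorem hzc_shift (q : Poly K) {m1 k1 m2 k2 : ℕ} (h1 : k1 ≤ m1 ↔ k2 ≤ m2)
    (h2 : m1 - k1 = m2 - k2) : hzc q m1 k1 = hzc q m2 k2 := by
  unfold hzc
  by_cases hc : k1 ≤ m1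
  · rw [if_pos hc, if_pos (h1.1 hc), h2]
  · rw [if_neg hc, if_neg (fun hh => hc (h1.2 hh))]

theorem hzc_eq_of_hz {p : Poly K} {m k : ℕ} (h : Hz p m k) : hzc p m k = p := by
  unfold hzc
  by_cases hk : k ≤ m
  · rw [if_pos hk, homogeneousComponent_eq_self (h.1 hk)]
  · rw [if_neg hk, h.2 (by omega)]

theorem comp_mul_hzc {f : Poly K} {e : ℕ} (hf : f.IsHomogeneous e) (p : Poly K) (t : ℕ) :
    homogeneousComponent t (p * f) = hzc p t e * f := by
  rw [comp_mul_general hf, hzc]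
  split_ifs <;> simp

theorem Hz.sub {p q : Poly K} {m k : ℕ} (hp : Hz p m k) (hq : Hz q m k) : Hz (p - q) m k :=
  ⟨fun hk => (hp.1 hk).sub (hq.1 hk), fun hk => by rw [hp.2 hk, hq.2 hk, sub_zero]⟩

theorem Hz.add {p q : Poly K} {m k : ℕ} (hp : Hz p m k) (hq : Hz q m k) : Hz (p + q) m k :=
  ⟨fun hk => (hp.1 hk).add (hq.1 hk), fun hk => by rw [hp.2 hk, hq.2 hk, add_zero]⟩

/-- Multiplying by a form of degree `e` shifts `Hz`. -/
theorem Hz.mul_form {p g : Poly K} {m k e : ℕ} (hp : Hz p m k) (hg : g.IsHomogeneous e) :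
    Hz (g * p) (m + e) k := by
  refine ⟨fun hk => ?_, fun hk => ?_⟩
  · by_cases hk' : k ≤ m
    · have := hg.mul (hp.1 hk')
      rwa [show e + (m - k) = m + e - k by omega] at this
    · rw [hp.2 (by omega), mul_zero]
      exact isHomogeneous_zero _ _ _
  · rw [hp.2 (by omega), mul_zero]

/-- A form of degree `m - k` multiplied by a form `f` of degree `k` is homogeneous of degree `m`. -/
theorem Hz.mul_top {p f : Poly K} {m k : ℕ} (hp : Hz p m k) (hf : f.IsHomogeneous k) :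
    (p * f).IsHomogeneous m := by
  by_cases hk : k ≤ m
  · have := (hp.1 hk).mul hf
    rwa [Nat.sub_add_cancel hk] at this
  · rw [hp.2 (by omega), zero_mul]
    exact isHomogeneous_zero _ _ _

namespace FormSeq

variable {a : Fin 3 → ℕ} {f : Fin 3 → Poly K} (h : FormSeq a f)
include h

/-- Homogeneous representation of a homogeneous element of the ideal. -/
theorem rep {b : Poly K} {m : ℕ} (hb : b.IsHomogeneous m) (hm : b ∈ Fid f) :
    ∃ p : Fin 3 → Poly K, (∀ i, Hz (p i) m (a i)) ∧ p 0 * f 0 + p 1 * f 1 + p 2 * f 2 = b := by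
  obtain ⟨p, hp⟩ := mem_Fid.1 hm
  refine ⟨fun i => hzc (p i) m (a i), fun i => hz_hzc _ _ _, ?_⟩
  have := congrArg (homogeneousComponent m) hp
  rw [homogeneousComponent_eq_self hb, map_add, map_add, comp_mul_hzc (h.hom 0),
    comp_mul_hzc (h.hom 1), comp_mul_hzc (h.hom 2)] at this
  exact this

theorem ne0 : f 0 ≠ 0 := h.reg.ne

/-- Koszul syzygies with homogeneous coefficients. -/
theorem koszul_hom {a0 a1 a2 : Poly K} {m : ℕ} (h0 : Hz a0 m (a 0)) (h1 : Hz a1 m (a 1))
    (h2 : Hz a2 m (a 2)) (e : a0 * f 0 + a1 * f 1 + a2 * f 2 = 0) :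
    ∃ q : Fin 3 → Poly K, (∀ l, Hz (q l) (m + a l) (a 0 + a 1 + a 2)) ∧
      a0 = q 1 * f 2 - q 2 * f 1 ∧ a1 = q 2 * f 0 - q 0 * f 2 ∧ a2 = q 0 * f 1 - q 1 * f 0 := by
  obtain ⟨q0, q1, q2, e0, e1, e2⟩ := h.reg.k1 e
  set σ := a 0 + a 1 + a 2 with hσ
  refine ⟨![hzc q0 (m + a 0) σ, hzc q1 (m + a 1) σ, hzc q2 (m + a 2) σ], ?_, ?_, ?_, ?_⟩
  · intro l
    fin_cases l
    · exact hz_hzc _ _ _
    · exact hz_hzc _ _ _
    · exact hz_hzc _ _ _
  · -- first relation
    simp only [Matrix.cons_val]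
    by_cases hk : a 0 ≤ m
    · have := congrArg (homogeneousComponent (m - a 0)) e0
      rw [homogeneousComponent_eq_self (h0.1 hk), map_sub, comp_mul_hzc (h.hom 2),
        comp_mul_hzc (h.hom 1)] at this
      rw [this]
      have e1' : hzc q1 (m - a 0) (a 2) = hzc q1 (m + a 1) σ :=
        hzc_shift _ (by omega) (by omega)
      have e2' : hzc q2 (m - a 0) (a 1) = hzc q2 (m + a 2) σ :=
        hzc_shift _ (by omega) (by omega)
      rw [e1', e2']
    · rw [h0.2 (by omega)]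
      unfold hzc
      rw [if_neg (by omega), if_neg (by omega)]
      simp
  · simp only [Matrix.cons_val]
    by_cases hk : a 1 ≤ m
    · have := congrArg (homogeneousComponent (m - a 1)) e1
      rw [homogeneousComponent_eq_self (h1.1 hk), map_sub, comp_mul_hzc (h.hom 0),
        comp_mul_hzc (h.hom 2)] at this
      rw [this]
      have e1' : hzc q2 (m - a 1) (a 0) = hzc q2 (m + a 2) σ :=
        hzc_shift _ (by omega) (by omega)
      have e2' : hzc q0 (m - a 1) (a 2) = hzc q0 (m + a 0) σ :=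
        hzc_shift _ (by omega) (by omega)
      rw [e1', e2']
    · rw [h1.2 (by omega)]
      unfold hzc
      rw [if_neg (by omega), if_neg (by omega)]
      simp
  · simp only [Matrix.cons_val]
    by_cases hk : a 2 ≤ m
    · have := congrArg (homogeneousComponent (m - a 2)) e2
      rw [homogeneousComponent_eq_self (h2.1 hk), map_sub, comp_mul_hzc (h.hom 1),
        comp_mul_hzc (h.hom 0)] at this
      rw [this]
      have e1' : hzc q0 (m - a 2) (a 1) = hzc q0 (m + a 0) σ :=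
        hzc_shift _ (by omega) (by omega)
      have e2' : hzc q1 (m - a 2) (a 0) = hzc q1 (m + a 1) σ :=
        hzc_shift _ (by omega) (by omega)
      rw [e1', e2']
    · rw [h2.2 (by omega)]
      unfold hzc
      rw [if_neg (by omega), if_neg (by omega)]
      simp

/-- Socle lemma: a form of degree below `a 0 + a 1 + a 2 - 3` all of whose variable multiples lie
in the ideal lies in the ideal. -/
theorem socle {b : Poly K} {d : ℕ} (hb : b.IsHomogeneous d) (hd : d + 3 < a 0 + a 1 + a 2)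
    (hx : ∀ i, (X i : Poly K) * b ∈ Fid f) : b ∈ Fid f := by
  have key : ∀ i, ∃ p : Fin 3 → Poly K, (∀ k, Hz (p k) (d + 1) (a k)) ∧
      p 0 * f 0 + p 1 * f 1 + p 2 * f 2 = X i * b := by
    intro i
    have hXb : ((X i : Poly K) * b).IsHomogeneous (d + 1) := by
      have := (isHomogeneous_X K i).mul hb
      rwa [add_comm] at this
    exact h.rep hXb (hx i)
  obtain ⟨p0, hp0, e0⟩ := key 0
  obtain ⟨p1, hp1, e1⟩ := key 1
  obtain ⟨p2, hp2, e2⟩ := key 2
  have X0h : (X 0 : Poly K).IsHomogeneous 1 := isHomogeneous_X K 0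
  have X1h : (X 1 : Poly K).IsHomogeneous 1 := isHomogeneous_X K 1
  have X2h : (X 2 : Poly K).IsHomogeneous 1 := isHomogeneous_X K 2
  have diffh : ∀ (u v r s : Poly K) (k : ℕ), u.IsHomogeneous 1 → v.IsHomogeneous 1 →
      Hz r (d + 1) k → Hz s (d + 1) k → Hz (u * r - v * s) (d + 2) k :=
    fun u v r s k hu hv hr hs => (hr.mul_form hu).sub (hs.mul_form hv)
  obtain ⟨q01, hq01, a0, a1, a2⟩ := h.koszul_hom (m := d + 2)
    (diffh _ _ _ _ _ X1h X0h (hp0 0) (hp1 0)) (diffh _ _ _ _ _ X1h X0h (hp0 1) (hp1 1))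
    (diffh _ _ _ _ _ X1h X0h (hp0 2) (hp1 2))
    (by linear_combination (X 1 : Poly K) * e0 - (X 0 : Poly K) * e1)
  obtain ⟨q02, hq02, b0, b1, b2⟩ := h.koszul_hom (m := d + 2)
    (diffh _ _ _ _ _ X2h X0h (hp0 0) (hp2 0)) (diffh _ _ _ _ _ X2h X0h (hp0 1) (hp2 1))
    (diffh _ _ _ _ _ X2h X0h (hp0 2) (hp2 2))
    (by linear_combination (X 2 : Poly K) * e0 - (X 0 : Poly K) * e2)
  obtain ⟨q12, hq12, c0, c1, c2⟩ := h.koszul_hom (m := d + 2)
    (diffh _ _ _ _ _ X2h X1h (hp1 0) (hp2 0)) (diffh _ _ _ _ _ X2h X1h (hp1 1) (hp2 1))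
    (diffh _ _ _ _ _ X2h X1h (hp1 2) (hp2 2))
    (by linear_combination (X 2 : Poly K) * e1 - (X 1 : Poly K) * e2)
  -- the alternating sum vanishes
  set E : Fin 3 → Poly K := fun k => X 2 * q01 k - X 1 * q02 k + X 0 * q12 k with hE
  have hEh : ∀ k, Hz (E k) (d + 2 + a k + 1) (a 0 + a 1 + a 2) := fun k =>
    (((hq01 k).mul_form X2h).sub ((hq02 k).mul_form X1h)).add ((hq12 k).mul_form X0h)
  obtain ⟨r, r0, r1, r2⟩ := h.reg.k2 (q0 := E 0) (q1 := E 1) (q2 := E 2)
    (by simp only [hE]; linear_combination (-1 : Poly K) * X 2 * a2 + X 1 * b2 - X 0 * c2)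
    (by simp only [hE]; linear_combination (-1 : Poly K) * X 2 * a1 + X 1 * b1 - X 0 * c1)
  have hr0 : r = 0 := by
    by_contra hne
    have hne2 : r * f 0 ≠ 0 := mul_ne_zero hne h.ne0
    by_cases hc : a 0 + a 1 + a 2 ≤ d + 2 + a 0 + 1
    · have hh := (hEh 0).1 hc
      rw [r0] at hh
      have t1 := hh.totalDegree hne2
      rw [totalDegree_mul_of_isDomain hne h.ne0, (h.hom 0).totalDegree h.ne0] at t1
      omega
    · have := (hEh 0).2 (by omega)
      rw [r0] at this
      exact hne2 this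
  have hE0 : ∀ k, E k = 0 := by
    intro k
    fin_cases k
    · simpa [hr0] using r0
    · simpa [hr0] using r1
    · simpa [hr0] using r2
  obtain ⟨τ, hτ⟩ := socle_core (x0 := (X 0 : Poly K)) (x1 := X 1) (x2 := X 2)
    (f0 := f 0) (f1 := f 1) (f2 := f 2) (a := b) regTriple_X p0 p1 p2
    q01 q02 q12
    (by linear_combination -e0)
    a0 a1 a2 b0 b1 b2 hE0
  rw [hτ]
  exact mem_Fid_of _ _ _

end FormSeq

end Vale.Agent.Lib.P200
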