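import Vale.Agent.Lib.P200.BNormal

/-!
Ideals generated by two forms are not primary to the maximal ideal; factors of forms are forms.
-/

namespace Vale.Agent.Lib.P200
open MvPolynomial Module

variable {K : Type*} [Field K]

theorem T_succ (n : ℕ) : T (n + 1) = T n + (n + 2) := by
  unfold T
  have h1 : (n + 1 + 2).choose (n + 1) = (n + 2).choose n + (n + 2).choose (n + 1) := by
    rw [show n + 1 + 2 = (n + 2) + 1 by ring, Nat.choose_succ_succ]
  have h2 : (n + 2).choose (n + 1) = n + 2 := Nat.choose_succ_self_right (n + 1)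
  rw [h1, h2]

theorem two_T (n : ℕ) : 2 * T n = (n + 1) * (n + 2) := by
  induction n with
  | zero => decide
  | succ n ih =>
    rw [T_succ]
    nlinarith

theorem T_pos (n : ℕ) : 0 < T n := Nat.choose_pos (by omega)

theorem T_lt {m n : ℕ} (h : m < n) : T m < T n := by
  induction n with
  | zero => omega
  | succ n ih =>
    rw [T_succ]
    by_cases hm : m = n
    · subst hm; omega
    · have := ih (by omega); omega

theorem T_mono {m n : ℕ} (h : m ≤ n) : T m ≤ T n := by
  rcases Nat.eq_or_lt_of_le h with rfl | h'
  · exact le_rfl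
  · exact (T_lt h').le

/-- The identity behind the length of a complete intersection of two forms. -/
theorem T_identity (N p q : ℕ) : T (N + p + q) + T N = T (N + p) + T (N + q) + p * q := by
  have h1 := two_T (N + p + q)
  have h2 := two_T N
  have h3 := two_T (N + p)
  have h4 := two_T (N + q)
  nlinarith

/-- Dimension of the forms in the reduced space. -/
theorem finrank_Nt_eq {d : ℕ} (hd : 1 ≤ d) : finrank K (Nt K d) = 3 * d := by
  have e := finrank_Nt (K := K) d
  by_cases h3 : 3 ≤ d
  · rw [if_pos h3] at e
    obtain ⟨D, rfl⟩ : ∃ D, d = D + 3 := ⟨d - 3, by omega⟩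
    rw [Nat.add_sub_cancel] at e
    have h1 := T_succ D
    have h2 := T_succ (D + 1)
    have h3 := T_succ (D + 2)
    rw [show D + 1 + 1 = D + 2 by ring] at h2
    rw [show D + 2 + 1 = D + 3 by ring] at h3
    omega
  · rw [if_neg h3, add_zero] at e
    rw [e]
    interval_cases d <;> decide

/-! ### Primary ideals -/

/-- The ideal contains all forms of some degree. -/
def MPrim (J : Ideal (Poly K)) : Prop := ∃ N, HS K N ≤ J.restrictScalars K

theorem MPrim.mono {J J' : Ideal (Poly K)} (h : MPrim J) (hle : J ≤ J') : MPrim J' := by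
  obtain ⟨N, hN⟩ := h
  exact ⟨N, fun x hx => hle (hN hx)⟩

theorem MPrim.up {J : Ideal (Poly K)} (h : MPrim J) : ∃ N, ∀ e, HS K (N + e) ≤ J.restrictScalars K := by
  obtain ⟨N, hN⟩ := h
  refine ⟨N, fun e => ?_⟩
  rw [← HS_mul, Submodule.mul_le]
  intro x hx y hy
  have : x * y ∈ J := by
    have h1 : x ∈ J := hN hx
    exact Ideal.mul_mem_right _ _ h1
  exact this

/-- The ideal generated by the forms of a regular sequence is primary to the maximal ideal. -/
theorem FormSeq.mprim {a : Fin 3 → ℕ} {f : Fin 3 → Poly K} (h : FormSeq a f) : MPrim (Fid f) := by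
  refine ⟨a 0 + a 1 + a 2, fun x hx => ?_⟩
  have := h.HS_le_FF (d := a 0 + a 1 + a 2) (by omega) hx
  exact (mem_FF.1 this).1

/-- Dimension bound for the sum of multiples of two forms. -/
theorem finrank_two_gen_le {p q : Poly K} {dp dq : ℕ} (hp : p.IsHomogeneous dp) (hq : q.IsHomogeneous dq)
    (hp0 : p ≠ 0) (N : ℕ) :
    finrank K (pieceT (Ideal.span {p, q}) (N + dp + dq)) + T N ≤ T (N + dq) + T (N + dp) := by
  -- the combination map
  set j := N + dp + dq with hj
  let φ : (HS K (N + dq) × HS K (N + dp)) →ₗ[K] Poly K :=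
    (LinearMap.mulRight K p) ∘ₗ (HS K (N + dq)).subtype ∘ₗ LinearMap.fst K _ _ +
      (LinearMap.mulRight K q) ∘ₗ (HS K (N + dp)).subtype ∘ₗ LinearMap.snd K _ _
  have hφ : ∀ u, φ u = (u.1 : Poly K) * p + (u.2 : Poly K) * q := fun u => by simp [φ]
  have hsub : pieceT (Ideal.span {p, q}) j ≤ LinearMap.range φ := by
    intro x hx
    obtain ⟨h1, h2⟩ := mem_pieceT.1 hx
    obtain ⟨A, B, hAB⟩ := Ideal.mem_span_pair.1 h1
    refine ⟨(⟨homogeneousComponent (N + dq) A, homogeneousComponent_isHomogeneous _ _⟩,
      ⟨homogeneousComponent (N + dp) B, homogeneousComponent_isHomogeneous _ _⟩), ?_⟩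
    rw [hφ]
    have e := homogeneousComponent_eq_self h2
    rw [← hAB, map_add, show j = N + dq + dp by omega, comp_mul_add hp,
      show N + dq + dp = N + dp + dq by omega, comp_mul_add hq] at e
    rw [← hAB]
    exact e
  have hfin : Module.Finite K (LinearMap.range φ) := inferInstance
  have h1 := Submodule.finrank_mono hsub
  -- Koszul kernel
  let ι : HS K N →ₗ[K] (HS K (N + dq) × HS K (N + dp)) :=
    { toFun := fun c => (⟨(c : Poly K) * q, c.2.mul hq⟩, ⟨-((c : Poly K) * p), (c.2.mul hp).neg⟩)
      map_add' := by
        intro x y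
        apply Prod.ext <;> apply Subtype.ext <;> simp <;> ring
      map_smul' := by
        intro r x
        apply Prod.ext <;> apply Subtype.ext <;> simp }
  have hι : Function.Injective ι := by
    intro x y hxy
    have := congrArg (fun u => (u.2 : Poly K)) hxy
    simp only [ι, LinearMap.coe_mk, AddHom.coe_mk, neg_inj] at this
    exact Subtype.ext (mul_right_cancel₀ hp0 this)
  have hle : LinearMap.range ι ≤ LinearMap.ker φ := by
    rintro _ ⟨c, rfl⟩
    rw [LinearMap.mem_ker, hφ]
    simp [ι]
    ring
  have h2 : finrank K (LinearMap.range ι) = T N := by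
    rw [LinearMap.finrank_range_of_inj hι, finrank_HS]
  have h3 : finrank K (LinearMap.range ι) ≤ finrank K (LinearMap.ker φ) :=
    Submodule.finrank_mono hle
  have h4 := LinearMap.finrank_range_add_finrank_ker φ
  rw [Module.finrank_prod, finrank_HS, finrank_HS] at h4
  generalize finrank K ↥(pieceT (Ideal.span {p, q}) j) = A at *
  generalize finrank K (LinearMap.range φ) = B at *
  generalize finrank K (LinearMap.ker φ) = C at *
  generalize finrank K (LinearMap.range ι) = D at *
  omega

/-- An ideal generated by two forms of positive degree is not primary to the maximal ideal. -/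
theorem no_two_gen {p q : Poly K} {dp dq : ℕ} (hp : p.IsHomogeneous dp) (hq : q.IsHomogeneous dq)
    (hdp : 1 ≤ dp) (hdq : 1 ≤ dq) (hm : MPrim (Ideal.span {p, q})) : False := by
  obtain ⟨N, hN⟩ := hm.up
  have hH := hN (dp + dq)
  rw [← add_assoc] at hH
  have hpiece : HS K (N + dp + dq) ≤ pieceT (Ideal.span {p, q}) (N + dp + dq) :=
    fun x hx => mem_pieceT.2 ⟨hH hx, hx⟩
  have hfin := finite_of_le_HS (pieceT_le_HS (Ideal.span {p, q}) (N + dp + dq))
  have hle := Submodule.finrank_mono hpiece
  rw [finrank_HS] at hle
  by_cases hp0 : p = 0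
  · -- the ideal is principal
    subst hp0
    by_cases hq0 : q = 0
    · subst hq0
      have hx : (X 0 : Poly K) ^ (N + dp + dq) ∈ HS K (N + dp + dq) := by
        have := (isHomogeneous_X K (0 : Fin 3)).pow (N + dp + dq)
        rwa [one_mul] at this
      have h0 := (mem_pieceT.1 (hpiece hx)).1
      have : Ideal.span {(0 : Poly K), 0} = ⊥ := by simp
      rw [this, Ideal.mem_bot] at h0
      exact pow_ne_zero _ (X_ne_zero 0) h0
    · have h1 := finrank_two_gen_le hq (isHomogeneous_zero _ _ dp) hq0 N
      have he : Ideal.span {q, (0 : Poly K)} = Ideal.span {(0 : Poly K), q} := by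
        rw [Set.pair_comm]
      rw [he, show N + dq + dp = N + dp + dq by omega] at h1
      have h2 := T_identity N dp dq
      have h3 : 1 ≤ dp * dq := Nat.mul_pos hdp hdq
      generalize finrank K ↥(pieceT (Ideal.span {(0 : Poly K), q}) (N + dp + dq)) = A at *
      omega
  · have h1 := finrank_two_gen_le hp hq hp0 N
    have h2 := T_identity N dp dq
    have h3 : 1 ≤ dp * dq := Nat.mul_pos hdp hdq
    generalize finrank K ↥(pieceT (Ideal.span {p, q}) (N + dp + dq)) = A at *
    omega

/-! ### Factors of forms are forms -/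

theorem comp_mul_sum (D E : Poly K) (n : ℕ) :
    homogeneousComponent n (D * E) =
      ∑ j ∈ Finset.range (E.totalDegree + 1), hzc D n j * homogeneousComponent j E := by
  conv_lhs => rw [← sum_homogeneousComponent E, Finset.mul_sum, map_sum]
  exact Finset.sum_congr rfl fun j _ =>
    comp_mul_hzc (homogeneousComponent_isHomogeneous j E) D n

/-- The largest and smallest degrees of nonzero components. -/
theorem exists_top_bot {P : Poly K} (hP : P ≠ 0) :
    ∃ t b, b ≤ t ∧ homogeneousComponent t P ≠ 0 ∧ homogeneousComponent b P ≠ 0 ∧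
      (∀ i, t < i → homogeneousComponent i P = 0) ∧ (∀ i, i < b → homogeneousComponent i P = 0) := by
  classical
  set S := (Finset.range (P.totalDegree + 1)).filter fun i => homogeneousComponent i P ≠ 0 with hS
  have hne : S.Nonempty := by
    by_contra hemp
    rw [Finset.not_nonempty_iff_eq_empty, Finset.filter_eq_empty_iff] at hemp
    apply hP
    rw [← sum_homogeneousComponent P]
    apply Finset.sum_eq_zero
    intro i hi
    exact not_not.1 (hemp hi)
  have hmem : ∀ i, homogeneousComponent i P ≠ 0 → i ∈ S := by
    intro i hi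
    refine Finset.mem_filter.2 ⟨Finset.mem_range.2 ?_, hi⟩
    by_contra hlt
    exact hi (homogeneousComponent_eq_zero _ _ (by omega))
  refine ⟨S.max' hne, S.min' hne, Finset.min'_le _ _ (Finset.max'_mem _ _),
    (Finset.mem_filter.1 (Finset.max'_mem S hne)).2, (Finset.mem_filter.1 (Finset.min'_mem S hne)).2,
    ?_, ?_⟩
  · intro i hi
    by_contra hc
    have := Finset.le_max' S i (hmem i hc)
    omega
  · intro i hi
    by_contra hc
    have := Finset.min'_le S i (hmem i hc)
    omega

/-- A factor of a nonzero form is a form. -/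
theorem homog_of_mul {D E F : Poly K} {n : ℕ} (e : D * E = F) (hF : F.IsHomogeneous n)
    (hF0 : F ≠ 0) : ∃ m, D.IsHomogeneous m := by
  have hD : D ≠ 0 := left_ne_zero_of_mul (by rw [e]; exact hF0)
  have hE : E ≠ 0 := right_ne_zero_of_mul (by rw [e]; exact hF0)
  obtain ⟨t, b, hbt, ht, hb, ht2, hb2⟩ := exists_top_bot hD
  obtain ⟨t', b', hbt', ht', hb', ht2', hb2'⟩ := exists_top_bot hE
  have hcomp : ∀ j, homogeneousComponent j F ≠ 0 → j = n := by
    intro j hj
    by_contra hne
    apply hj
    rw [homogeneousComponent_of_mem hF, if_neg hne]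
  -- top
  have e1 : homogeneousComponent (t + t') F = homogeneousComponent t D * homogeneousComponent t' E := by
    rw [← e, comp_mul_sum]
    by_cases hin : t' ∈ Finset.range (E.totalDegree + 1)
    · rw [Finset.sum_eq_single t']
      · rw [hzc, if_pos (by omega), Nat.add_sub_cancel]
      · intro j _ hj
        by_cases hlt : j < t'
        · rw [hzc]
          split_ifs with hc
          · rw [ht2 _ (by omega), zero_mul]
          · rw [zero_mul]
        · rw [ht2' j (by omega), mul_zero]
      · intro hn
        exact absurd hin hn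
    · exfalso
      apply ht'
      exact homogeneousComponent_eq_zero _ _ (by
        rw [Finset.mem_range] at hin
        omega)
  have e2 : homogeneousComponent (b + b') F = homogeneousComponent b D * homogeneousComponent b' E := by
    rw [← e, comp_mul_sum]
    by_cases hin : b' ∈ Finset.range (E.totalDegree + 1)
    · rw [Finset.sum_eq_single b']
      · rw [hzc, if_pos (by omega), Nat.add_sub_cancel]
      · intro j _ hj
        by_cases hlt : j < b'
        · rw [hb2' j hlt, mul_zero]
        · rw [hzc]
          split_ifs with hc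
          · rw [hb2 _ (by omega), zero_mul]
          · rw [zero_mul]
      · intro hn
        exact absurd hin hn
    · exfalso
      apply hb'
      exact homogeneousComponent_eq_zero _ _ (by
        rw [Finset.mem_range] at hin
        omega)
  have h1 := hcomp (t + t') (by rw [e1]; exact mul_ne_zero ht ht')
  have h2 := hcomp (b + b') (by rw [e2]; exact mul_ne_zero hb hb')
  have hbt2 : b = t := by omega
  subst hbt2
  refine ⟨b, ?_⟩
  have hDeq : D = homogeneousComponent b D := by
    conv_lhs => rw [← sum_homogeneousComponent D]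
    have hin : b ∈ Finset.range (D.totalDegree + 1) := by
      rw [Finset.mem_range]
      by_contra hlt
      exact ht (homogeneousComponent_eq_zero _ _ (by omega))
    rw [Finset.sum_eq_single b]
    · intro j _ hj
      by_cases hlt : j < b
      · exact hb2 j hlt
      · exact ht2 j (by omega)
    · intro hn
      exact absurd hin hn
  rw [hDeq]
  exact homogeneousComponent_isHomogeneous _ _

/-- A homogeneous nonunit factor of positive degree. -/
theorem factor_degree {D E F : Poly K} {n : ℕ} (e : D * E = F) (hF : F.IsHomogeneous n)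
    (hF0 : F ≠ 0) (hD : ¬ IsUnit D) : ∃ m, 1 ≤ m ∧ D.IsHomogeneous m := by
  obtain ⟨m, hm⟩ := homog_of_mul e hF hF0
  refine ⟨m, ?_, hm⟩
  by_contra hm0
  have hm0' : m = 0 := by omega
  subst hm0'
  apply hD
  have hD0 : D ≠ 0 := left_ne_zero_of_mul (by rw [e]; exact hF0)
  rw [const_of_homog_zero hm] at hD0 ⊢
  have : coeff 0 D ≠ 0 := fun h => hD0 (by rw [h, C_0])
  exact (isUnit_iff_ne_zero.2 this).map C

end Vale.Agent.Lib.P200
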