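import Vale.Agent.Lib.P200.BCases2

/-!
Growth of subspaces of forms modulo a normalised cubic: the table of minimal growth.
-/

namespace Vale.Agent.Lib.P200
open MvPolynomial Module

variable {K : Type*} [Field K]

/-- The minimal growth below the degree of the other generators. -/
def Ed (d u : ℕ) : ℕ :=
  if u = 0 then 0 else if u + 1 ≤ d then u + 1 else if u + 1 ≤ 2 * d then u + 2 else u + 3

/-- The minimal growth into the degree of the other generators. -/
def Eb (b u : ℕ) : ℕ :=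
  if u = 0 then 0 else if u + 2 ≤ b then u + 1 else if u + 4 ≤ 3 * b then u + 2 else 3 * b - 2

/-- The reduced part of a subspace containing the cubic multiples. -/
noncomputable def Rd (X : Submodule K (Poly K)) (d : ℕ) : Submodule K (Poly K) := X ⊓ Nt K d

theorem Rd_le_Nt (X : Submodule K (Poly K)) (d : ℕ) : Rd X d ≤ Nt K d := inf_le_right

theorem Rd_le (X : Submodule K (Poly K)) (d : ℕ) : Rd X d ≤ X := inf_le_left

theorem Rd_sup {f0 : Poly K} (hf : NormCubic f0) {X : Submodule K (Poly K)} {d : ℕ}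
    (h1 : F0 f0 d ≤ X) (h2 : X ≤ HS K d) : Rd X d ⊔ F0 f0 d = X := by
  apply le_antisymm (sup_le (Rd_le _ _) h1)
  intro x hx
  have hxH := h2 hx
  rw [← hf.Nt_sup_F0 d, Submodule.mem_sup] at hxH
  obtain ⟨u, hu, w, hw, rfl⟩ := hxH
  refine Submodule.add_mem_sup ⟨?_, hu⟩ hw
  have : u = (u + w) - w := by ring
  rw [this]
  exact X.sub_mem hx (h1 hw)

theorem finrank_Rd {f0 : Poly K} (hf : NormCubic f0) {X : Submodule K (Poly K)} {d : ℕ}
    (h1 : F0 f0 d ≤ X) (h2 : X ≤ HS K d) :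
    finrank K (Rd X d) + finrank K (F0 f0 d) = finrank K X := by
  have hfinR := finite_of_le_HS (le_trans (Rd_le X d) h2)
  have hfinF := finite_of_le_HS (F0_le_HS f0 d)
  have e := Submodule.finrank_sup_add_finrank_inf_eq (Rd X d) (F0 f0 d)
  have hb : Rd X d ⊓ F0 f0 d = ⊥ := by
    rw [eq_bot_iff, ← hf.Nt_inf_F0 d]
    exact inf_le_inf_right _ (Rd_le_Nt X d)
  rw [hb, finrank_bot, add_zero, Rd_sup hf h1 h2] at e
  exact e.symm

theorem Pp_le_HS1 : Pp K ≤ HS K 1 := Pp_le_HS

theorem Tt_le_of {f0 : Poly K} {X Y V : Submodule K (Poly K)} {d : ℕ} (hV : V ≤ X)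
    (h1 : HS K 1 * X ≤ Y) (h2 : F0 f0 (d + 1) ≤ Y) : Tt f0 V d ≤ Y := by
  refine sup_le (sup_le ?_ h2) ?_
  · exact le_trans (mul_le_mul' Pp_le_HS hV) h1
  · rintro _ ⟨v, hv, rfl⟩
    exact h1 (Submodule.mul_mem_mul (isHomogeneous_X K (0 : Fin 3)) (hV hv))

/-- Growth at least one. -/
theorem Tt_ge_one {f0 : Poly K} (hf : NormCubic f0) {V : Submodule K (Poly K)} {d : ℕ}
    (hVN : V ≤ Nt K d) (hV0 : V ≠ ⊥) :
    finrank K (F0 f0 (d + 1)) + finrank K V + 1 ≤ finrank K (Tt f0 V d) := by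
  by_contra hlt
  have hVH := le_trans hVN (Nt_le_HS d)
  have hfinV := finite_of_le_HS hVH
  have h1 := growth_numeric (g := 0) hf hVN (by omega)
  have h2 := growth_pos d hVH hV0
  have h3 := Submodule.finrank_mono (Vz_le f0 V d)
  omega

/-- The table below the degree of the other generators. -/
theorem Tt_ge_Ed [Infinite K] {f0 : Poly K} (hf : NormCubic f0) {V : Submodule K (Poly K)} {d : ℕ}
    (hd : 1 ≤ d) (hVN : V ≤ Nt K d) :
    finrank K (F0 f0 (d + 1)) + Ed d (finrank K V) ≤ finrank K (Tt f0 V d) := by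
  unfold Ed
  have hVH := le_trans hVN (Nt_le_HS d)
  have hfinT := finite_of_le_HS (Tt_le_HS (f0 := f0) hVH)
  have hF : F0 f0 (d + 1) ≤ Tt f0 V d := le_trans le_sup_right le_sup_left
  split_ifs with h0 h1 h2
  · exact Submodule.finrank_mono hF
  · have hV0 : V ≠ ⊥ := by
      rintro rfl
      simp at h0
    have := Tt_ge_one hf hVN hV0
    omega
  · have hV0 : V ≠ ⊥ := by
      rintro rfl
      simp at h0
    by_contra hlt
    have := (P2 hf hVN hV0 (by omega)).1
    omega
  · by_contra hlt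
    have := (P3 hf hVN (by omega) (by omega)).1
    omega

/-- The ideal generated by `V` and the cubic contains the growth space. -/
theorem Tt_le_Idl {f0 : Poly K} {V : Submodule K (Poly K)} {d : ℕ} :
    Tt f0 V d ≤ (Idl f0 V).restrictScalars K := by
  refine sup_le (sup_le ?_ ?_) ?_
  · intro x hx
    obtain ⟨a, ha, b, hb, rfl⟩ := mem_Pp_mul.1 hx
    exact Ideal.add_mem _ (Ideal.mul_mem_left _ _ (subset_Idl ha))
      (Ideal.mul_mem_left _ _ (subset_Idl hb))
  · intro x hx
    obtain ⟨c, rfl⟩ := mem_Fo.1 (mem_F0.1 hx).1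
    exact Ideal.mul_mem_left _ _ f0_mem_Idl
  · rintro _ ⟨v, hv, rfl⟩
    exact Ideal.mul_mem_left _ _ (subset_Idl hv)

/-- The space of forms of the degree of the other generators. -/
noncomputable def Fb (f : Fin 3 → Poly K) (b : ℕ) : Submodule K (Poly K) :=
  F0 (f 0) b ⊔ Submodule.span K {f 1, f 2}

theorem Fb_le_HS {f : Fin 3 → Poly K} {b : ℕ} (h1 : (f 1).IsHomogeneous b)
    (h2 : (f 2).IsHomogeneous b) : Fb f b ≤ HS K b := by
  refine sup_le (F0_le_HS _ _) ?_
  rw [Submodule.span_le]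
  rintro _ (rfl | rfl)
  · exact h1
  · exact h2

theorem mem_Fb {f : Fin 3 → Poly K} {b : ℕ} {x : Poly K} (hx : x ∈ Fb f b) :
    ∃ w ∈ F0 (f 0) b, ∃ α β : K, x = w + C α * f 1 + C β * f 2 := by
  obtain ⟨w, hw, y, hy, rfl⟩ := Submodule.mem_sup.1 hx
  obtain ⟨α, β, rfl⟩ := Submodule.mem_span_pair.1 hy
  exact ⟨w, hw, α, β, by simp only [MvPolynomial.smul_eq_C_mul]; ring⟩

theorem Fid_le_of {f : Fin 3 → Poly K} {J : Ideal (Poly K)} (h0 : f 0 ∈ J) (h1 : f 1 ∈ J)
    (h2 : f 2 ∈ J) : Fid f ≤ J := by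
  unfold Fid
  rw [Ideal.span_le]
  rintro _ ⟨i, rfl⟩
  fin_cases i
  · exact h0
  · exact h1
  · exact h2

/-- A form of the top space which is not a cubic multiple cannot have a common factor with the
cubic. -/
theorem no_factor_top {f : Fin 3 → Poly K} {b m : ℕ} {x D : Poly K} (hb : 1 ≤ b)
    (h1 : (f 1).IsHomogeneous b) (h2 : (f 2).IsHomogeneous b) (hm : MPrim (Fid f))
    (hx : x ∈ Fb f b) (hxn : x ∉ F0 (f 0) b) (hD : D.IsHomogeneous m) (hm1 : 1 ≤ m)
    (hD0 : D ∣ f 0) (hDx : D ∣ x) : False := by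
  obtain ⟨w, hw, α, β, rfl⟩ := mem_Fb hx
  have hDw : D ∣ w := by
    obtain ⟨c, rfl⟩ := mem_Fo.1 (mem_F0.1 hw).1
    exact Dvd.dvd.mul_left hD0 c
  have hD3 : D ∣ C α * f 1 + C β * f 2 := by
    have : C α * f 1 + C β * f 2 = (w + C α * f 1 + C β * f 2) - w := by ring
    rw [this]
    exact dvd_sub hDx hDw
  have hmem0 : ∀ q, f 0 ∈ Ideal.span {D, q} := fun q => by
    obtain ⟨c, hc⟩ := hD0
    rw [hc]
    exact Ideal.mul_mem_right _ _ (left_mem_span_pair _ _)
  have hmem3 : ∀ q, C α * f 1 + C β * f 2 ∈ Ideal.span {D, q} := fun q => by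
    obtain ⟨c, hc⟩ := hD3
    rw [hc]
    exact Ideal.mul_mem_right _ _ (left_mem_span_pair _ _)
  by_cases hα : α = 0
  · have hβ : β ≠ 0 := by
      rintro rfl
      apply hxn
      rw [hα]
      simpa using hw
    refine not_mprim_of_le hD h1 hm1 hb (Fid_le_of (hmem0 _) (right_mem_span_pair _ _) ?_) hm
    have e : f 2 = C β⁻¹ * (C α * f 1 + C β * f 2) := by
      rw [hα, C_0, zero_mul, zero_add, ← mul_assoc, ← C_mul, inv_mul_cancel₀ hβ, C_1, one_mul]
    rw [e]
    exact Ideal.mul_mem_left _ _ (hmem3 _)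
  · refine not_mprim_of_le hD h2 hm1 hb (Fid_le_of (hmem0 _) ?_ (right_mem_span_pair _ _)) hm
    have e : f 1 = C α⁻¹ * ((C α * f 1 + C β * f 2) - C β * f 2) := by
      rw [add_sub_cancel_right, ← mul_assoc, ← C_mul, inv_mul_cancel₀ hα, C_1, one_mul]
    rw [e]
    refine Ideal.mul_mem_left _ _ (Ideal.sub_mem _ (hmem3 _) ?_)
    exact Ideal.mul_mem_left _ _ (right_mem_span_pair _ _)

theorem dvd_of_mem_Tt {f0 D x : Poly K} {V : Submodule K (Poly K)} {d : ℕ} (hD0 : D ∣ f0)
    (hDV : ∀ v ∈ V, D ∣ v) (hx : x ∈ Tt f0 V d) : D ∣ x := by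
  have h1 : Idl f0 V ≤ Ideal.span {D} := by
    refine Idl_le (fun v hv => Ideal.mem_span_singleton.2 (hDV v hv)) (Ideal.mem_span_singleton.2 hD0)
  exact Ideal.mem_span_singleton.1 (h1 (Tt_le_Idl hx))

/-- The table into the degree of the other generators. -/
theorem Tt_sup_ge_Eb [Infinite K] {f : Fin 3 → Poly K} {b : ℕ} (hf : NormCubic (f 0))
    (hb : 3 ≤ b) (h1 : (f 1).IsHomogeneous b) (h2 : (f 2).IsHomogeneous b) (hm : MPrim (Fid f))
    (hdim : finrank K (Fb f b) = finrank K (F0 (f 0) b) + 2)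
    {V : Submodule K (Poly K)} {d : ℕ} (hdb : d + 1 = b) (hVN : V ≤ Nt K d) :
    finrank K (Fb f b) + Eb b (finrank K V) ≤
      finrank K (Tt (f 0) V d ⊔ Fb f b : Submodule K (Poly K)) := by
  subst hdb
  have hVH := le_trans hVN (Nt_le_HS d)
  have hfinV := finite_of_le_HS hVH
  have hfinT := finite_of_le_HS (Tt_le_HS (f0 := f 0) hVH)
  have hfinB := finite_of_le_HS (Fb_le_HS h1 h2)
  have hF : F0 (f 0) (d + 1) ≤ Tt (f 0) V d := le_trans le_sup_right le_sup_left
  have hFF : F0 (f 0) (d + 1) ≤ Fb f (d + 1) := le_sup_left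
  have e := Submodule.finrank_sup_add_finrank_inf_eq (Tt (f 0) V d) (Fb f (d + 1))
  have hi1 : finrank K (F0 (f 0) (d + 1)) ≤
      finrank K (Tt (f 0) V d ⊓ Fb f (d + 1) : Submodule K (Poly K)) :=
    Submodule.finrank_mono (le_inf hF hFF)
  have hi2 : finrank K (Tt (f 0) V d ⊓ Fb f (d + 1) : Submodule K (Poly K)) ≤
      finrank K (Fb f (d + 1)) := Submodule.finrank_mono inf_le_right
  have hsup : finrank K (Fb f (d + 1)) ≤
      finrank K (Tt (f 0) V d ⊔ Fb f (d + 1) : Submodule K (Poly K)) :=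
    Submodule.finrank_mono le_sup_right
  by_cases hu0 : finrank K V = 0
  · rw [hu0, Eb, if_pos rfl, add_zero]
    exact hsup
  have hV0 : V ≠ ⊥ := by
    rintro rfl
    simp at hu0
  have hg1 := Tt_ge_one hf hVN hV0
  -- a nontrivial intersection excludes small growth
  have hex : finrank K (F0 (f 0) (d + 1)) <
      finrank K (Tt (f 0) V d ⊓ Fb f (d + 1) : Submodule K (Poly K)) →
      (finrank K (F0 (f 0) (d + 1)) + finrank K V + 2 ≤ finrank K (Tt (f 0) V d)) ∧
      (2 ≤ finrank K V → finrank K (F0 (f 0) (d + 1)) + finrank K V + 3 ≤ finrank K (Tt (f 0) V d)) := by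
    intro hlt
    have hfinF := finite_of_le_HS (F0_le_HS (f 0) (d + 1))
    have hnle : ¬ (Tt (f 0) V d ⊓ Fb f (d + 1) ≤ F0 (f 0) (d + 1)) := by
      intro hle
      have := Submodule.finrank_mono hle
      omega
    obtain ⟨x, hx, hxn⟩ := SetLike.not_le_iff_exists.1 hnle
    have hno : ∀ D m, 1 ≤ m → D.IsHomogeneous m → D ∣ f 0 → (∀ v ∈ V, D ∣ v) → False :=
      fun D m hm1 hDm hD0 hDV => no_factor_top (by omega) h1 h2 hm hx.2 hxn hDm hm1 hD0
        (dvd_of_mem_Tt hD0 hDV hx.1)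
    constructor
    · by_contra hlt2
      obtain ⟨_, D, m, hm1, hDm, hD0, hDV⟩ := P2 hf hVN hV0 (by omega)
      exact hno D m hm1 hDm hD0 hDV
    · intro hu2
      by_contra hlt2
      obtain ⟨_, D, m, hm1, hDm, hD0, hDV⟩ := P3 hf hVN hu2 (by omega)
      exact hno D m hm1 hDm hD0 hDV
  -- the case of everything
  have hall : finrank K (Tt (f 0) V d ⊓ Fb f (d + 1) : Submodule K (Poly K)) =
      finrank K (Fb f (d + 1)) →
      (2 ≤ finrank K V) ∧ (d ≤ finrank K V → finrank K V + 1 ≤ 3 * d →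
        finrank K (F0 (f 0) (d + 1)) + finrank K V + 4 ≤ finrank K (Tt (f 0) V d)) := by
    intro heq
    have hle : Fb f (d + 1) ≤ Tt (f 0) V d := by
      have := Submodule.eq_of_le_of_finrank_le (inf_le_right :
        Tt (f 0) V d ⊓ Fb f (d + 1) ≤ Fb f (d + 1)) heq.ge
      rw [← this]
      exact inf_le_left
    have hmem1 : f 1 ∈ Tt (f 0) V d :=
      hle (Submodule.mem_sup_right (Submodule.subset_span (by simp)))
    have hmem2 : f 2 ∈ Tt (f 0) V d :=
      hle (Submodule.mem_sup_right (Submodule.subset_span (by simp)))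
    have hmId : MPrim (Idl (f 0) V) :=
      hm.mono (Fid_le_of f0_mem_Idl (Tt_le_Idl hmem1) (Tt_le_Idl hmem2))
    constructor
    · by_contra hu2
      have hu1 : finrank K V = 1 := by omega
      obtain ⟨v, _, hv1, hs⟩ := exists_span_of_finrank_one hu1
      refine not_mprim_of_le (hVH hv1) hf.hom (by omega) (by omega) ?_ hmId
      refine Idl_le (fun w hw => ?_) (right_mem_span_pair _ _)
      rw [hs] at hw
      obtain ⟨c, rfl⟩ := Submodule.mem_span_singleton.1 hw
      rw [MvPolynomial.smul_eq_C_mul]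
      exact Ideal.mul_mem_left _ _ (left_mem_span_pair _ _)
    · intro hu1 hu2
      by_contra hlt2
      have hne : V ≠ Nt K d := by
        rintro rfl
        rw [finrank_Nt_eq (by omega)] at hu2
        omega
      exact P4 hf hVN (by omega) hne hu1 (by omega) hmId
  have hall2 : finrank K (Tt (f 0) V d ⊓ Fb f (d + 1) : Submodule K (Poly K)) =
      finrank K (Fb f (d + 1)) → 2 ≤ finrank K V := fun h => (hall h).1
  have hsmall : ¬ (finrank K (F0 (f 0) (d + 1)) + finrank K V + 2 ≤ finrank K (Tt (f 0) V d)) →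
      finrank K V + 1 ≤ d := fun hn => (P2 hf hVN hV0 (by omega)).1
  unfold Eb
  generalize finrank K (Tt (f 0) V d ⊔ Fb f (d + 1) : Submodule K (Poly K)) = A at *
  generalize finrank K (Tt (f 0) V d ⊓ Fb f (d + 1) : Submodule K (Poly K)) = B at *
  generalize finrank K (Tt (f 0) V d) = C at *
  generalize finrank K (Fb f (d + 1)) = E at *
  generalize finrank K (F0 (f 0) (d + 1)) = G at *
  generalize finrank K ↥V = u at *
  rw [if_neg hu0]
  have hd2 : 2 ≤ d := by omega
  by_cases hP2 : G + u + 2 ≤ C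
  · -- growth at least two
    by_cases hB0 : G < B
    · obtain ⟨hx1, hx2⟩ := hex hB0
      by_cases hBE : B = E
      · obtain ⟨hu2, hx3⟩ := hall hBE
        split_ifs with h3 h4
        · have := hx2 hu2
          omega
        · have := hx3 (by omega) (by omega)
          omega
        · have := hx2 hu2
          omega
      · have hu2 : u = 1 ∨ 2 ≤ u := by omega
        split_ifs with h3 h4
        · omega
        · have := hx2 (by omega)
          omega
        · have := hx2 (by omega)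
          omega
    · split_ifs with h3 h4 <;> omega
  · -- growth one
    have hB0 : ¬ G < B := fun h => hP2 (hex h).1
    have hsm := hsmall hP2
    rw [if_pos (by omega)]
    omega

end Vale.Agent.Lib.P200
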