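import Vale.Agent.Lib.P200.BDim

/-!
The monomial complete intersection: regularity, dimensions, counts of monomials outside it.
-/

namespace Vale.Agent.Lib.P200
open MvPolynomial Module

variable {K : Type*} [Field K]

/-- The pure powers. -/
noncomputable def powers (K : Type*) [Field K] (a : Fin 3 → ℕ) : Fin 3 → Poly K :=
  fun i => X i ^ a i

theorem X_pow_mono (i : Fin 3) (n : ℕ) : (X i : Poly K) ^ n = monomial (Finsupp.single i n) 1 :=
  X_pow_eq_monomial

theorem regTriple_powers (a : Fin 3 → ℕ) :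
    RegTriple ((X 0 : Poly K) ^ a 0) (X 1 ^ a 1) (X 2 ^ a 2) where
  ne := pow_ne_zero _ (X_ne_zero 0)
  h1 := by
    intro p q e
    have hp : p ∈ Ideal.span ((fun s => monomial s (1 : K)) '' {Finsupp.single (0 : Fin 3) (a 0)}) := by
      rw [mem_ideal_span_monomial_image]
      intro m hm
      have hm' : m + Finsupp.single 1 (a 1) ∈ (p * X 1 ^ a 1).support := by
        rw [X_pow_mono, MvPolynomial.mem_support_iff, coeff_mul_monomial, mul_one]
        exact MvPolynomial.mem_support_iff.1 hm
      have hmem : (p * X 1 ^ a 1 : Poly K) ∈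
          Ideal.span ((fun s => monomial s (1 : K)) '' {Finsupp.single (0 : Fin 3) (a 0)}) := by
        rw [e]
        exact Ideal.mul_mem_left _ _ (Ideal.subset_span ⟨_, rfl, (X_pow_mono _ _).symm⟩)
      obtain ⟨s, hs, hs2⟩ := (mem_ideal_span_monomial_image.1 hmem) _ hm'
      refine ⟨s, hs, ?_⟩
      have hs' : s = Finsupp.single 0 (a 0) := hs
      subst hs'
      rw [Finsupp.single_le_iff] at hs2 ⊢
      simpa [Finsupp.single_apply] using hs2
    simp only [Set.image_singleton] at hp
    obtain ⟨r, hr⟩ := Ideal.mem_span_singleton.1 hp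
    exact ⟨r, by rw [hr, X_pow_mono]; ring⟩
  h2 := by
    intro p α β e
    have hp : p ∈ Ideal.span ((fun s => monomial s (1 : K)) ''
        {Finsupp.single (0 : Fin 3) (a 0), Finsupp.single (1 : Fin 3) (a 1)}) := by
      rw [mem_ideal_span_monomial_image]
      intro m hm
      have hm' : m + Finsupp.single 2 (a 2) ∈ (p * X 2 ^ a 2).support := by
        rw [X_pow_mono, MvPolynomial.mem_support_iff, coeff_mul_monomial, mul_one]
        exact MvPolynomial.mem_support_iff.1 hm
      have hmem : (p * X 2 ^ a 2 : Poly K) ∈ Ideal.span ((fun s => monomial s (1 : K)) ''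
          {Finsupp.single (0 : Fin 3) (a 0), Finsupp.single (1 : Fin 3) (a 1)}) := by
        rw [e]
        refine Ideal.add_mem _ ?_ ?_
        · exact Ideal.mul_mem_left _ _ (Ideal.subset_span ⟨_, by simp, (X_pow_mono _ _).symm⟩)
        · exact Ideal.mul_mem_left _ _ (Ideal.subset_span ⟨_, by simp, (X_pow_mono _ _).symm⟩)
      obtain ⟨s, hs, hs2⟩ := (mem_ideal_span_monomial_image.1 hmem) _ hm'
      refine ⟨s, hs, ?_⟩
      have hs' : s = Finsupp.single 0 (a 0) ∨ s = Finsupp.single 1 (a 1) := hs
      rcases hs' with rfl | rfl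
      · rw [Finsupp.single_le_iff] at hs2 ⊢
        simpa [Finsupp.single_apply] using hs2
      · rw [Finsupp.single_le_iff] at hs2 ⊢
        simpa [Finsupp.single_apply] using hs2
    rw [Set.image_pair, Ideal.mem_span_pair] at hp
    obtain ⟨r, s, hrs⟩ := hp
    refine ⟨r, s, ?_⟩
    rw [X_pow_mono, X_pow_mono]
    exact hrs.symm

theorem formSeq_powers {a : Fin 3 → ℕ} (ha : ∀ i, 1 ≤ a i) : FormSeq a (powers K a) where
  pos := ha
  hom := fun i => by
    have := (isHomogeneous_X K i).pow (a i)
    rwa [one_mul] at this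
  reg := regTriple_powers a

theorem Fid_powers (a : Fin 3 → ℕ) : Fid (powers K a) = powerIdealT K a := rfl

theorem mem_powerIdealT {a : Fin 3 → ℕ} {p : Poly K} :
    p ∈ powerIdealT K a ↔ ∀ m ∈ p.support, ¬ OutsideT a m := by
  have e : powerIdealT K a = Ideal.span ((fun s => monomial s (1 : K)) ''
      (Set.range fun i : Fin 3 => Finsupp.single i (a i))) := by
    unfold powerIdealT
    congr 1
    ext x
    simp only [Set.mem_range, Set.mem_image, exists_exists_eq_and]
    constructor
    · rintro ⟨i, rfl⟩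
      exact ⟨i, (X_pow_eq_monomial).symm⟩
    · rintro ⟨i, rfl⟩
      exact ⟨i, X_pow_eq_monomial⟩
  rw [e, mem_ideal_span_monomial_image]
  refine forall₂_congr fun m _ => ?_
  unfold OutsideT
  push Not
  simp only [Set.mem_range, exists_exists_eq_and, Finsupp.single_le_iff]

theorem pieceT_power (a : Fin 3 → ℕ) (d : ℕ) :
    pieceT (powerIdealT K a) d = restrictSupport K {m | m.degree = d ∧ ¬ OutsideT a m} := by
  ext p
  simp only [pieceT, Submodule.mem_inf, Submodule.restrictScalars_mem, mem_powerIdealT]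
  change _ ∧ p ∈ HS K d ↔ _
  rw [HS_eq_restrict, mem_restrictSupport_iff, mem_restrictSupport_iff]
  constructor
  · rintro ⟨h1, h2⟩ m hm
    exact ⟨h2 hm, h1 m hm⟩
  · intro h
    exact ⟨fun m hm => (h hm).2, fun m hm => (h hm).1⟩

theorem finite_degree_set (d : ℕ) : ({m : Fin 3 →₀ ℕ | m.degree = d}).Finite := by
  by_contra hinf
  have := ncard_degree d
  rw [Set.Infinite.ncard hinf] at this
  have h2 : 0 < (d + 2).choose d := Nat.choose_pos (by omega)
  omega

/-- The number of monomials of degree `d` outside `P`. -/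
noncomputable def cntT (a : Fin 3 → ℕ) (d : ℕ) : ℕ :=
  ({m : Fin 3 →₀ ℕ | m.degree = d ∧ OutsideT a m}).ncard

theorem finrank_piece_P (a : Fin 3 → ℕ) (d : ℕ) :
    finrank K (pieceT (powerIdealT K a) d) + cntT a d = T d := by
  rw [pieceT_power, finrank_restrictSupport, cntT, T, ← ncard_degree]
  have hd : Disjoint {m : Fin 3 →₀ ℕ | m.degree = d ∧ ¬ OutsideT a m}
      {m : Fin 3 →₀ ℕ | m.degree = d ∧ OutsideT a m} := by
    rw [Set.disjoint_left]
    rintro m ⟨_, h1⟩ ⟨_, h2⟩
    exact h1 h2
  rw [← Set.ncard_union_eq hd ((finite_degree_set d).subset fun m hm => hm.1)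
    ((finite_degree_set d).subset fun m hm => hm.1)]
  congr 1
  ext m
  simp only [Set.mem_union, Set.mem_ofPred_eq]
  tauto

namespace FormSeq

variable {a : Fin 3 → ℕ} {f : Fin 3 → Poly K} (h : FormSeq a f)
include h

/-- The Hilbert function only depends on the degrees. -/
theorem finrank_FF_eq (d : ℕ) : finrank K (FF f d) = finrank K (pieceT (powerIdealT K a) d) := by
  rw [h.finrank_FF, ← Fid_powers, ← FF_eq_pieceT, (formSeq_powers h.pos).finrank_FF]

theorem finrank_FF_add_cnt (d : ℕ) : finrank K (FF f d) + cntT a d = T d := by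
  rw [h.finrank_FF_eq]
  exact finrank_piece_P a d

end FormSeq

section count

variable {a : Fin 3 → ℕ}

theorem degree_sum (m : Fin 3 →₀ ℕ) : m.degree = m 0 + m 1 + m 2 := by
  rw [Finsupp.degree_eq_sum, Fin.sum_univ_three]

/-- The monomial with three prescribed exponents. -/
noncomputable def mon3 (i j k : ℕ) : Fin 3 →₀ ℕ := Finsupp.equivFunOnFinite.symm ![i, j, k]

@[simp] theorem mon3_0 (i j k : ℕ) : mon3 i j k 0 = i := by simp [mon3]
@[simp] theorem mon3_1 (i j k : ℕ) : mon3 i j k 1 = j := by simp [mon3]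
@[simp] theorem mon3_2 (i j k : ℕ) : mon3 i j k 2 = k := by simp [mon3]

theorem mon3_ext {m n : Fin 3 →₀ ℕ} (h0 : m 0 = n 0) (h1 : m 1 = n 1) (h2 : m 2 = n 2) : m = n := by
  ext i
  fin_cases i
  · exact h0
  · exact h1
  · exact h2

theorem cntT_high {d : ℕ} (hd : a 0 + a 1 + a 2 < d + 3) : cntT a d = 0 := by
  unfold cntT
  have : {m : Fin 3 →₀ ℕ | m.degree = d ∧ OutsideT a m} = ∅ := by
    ext m
    simp only [Set.mem_ofPred_eq, Set.mem_empty_iff_false, iff_false, not_and]
    rintro rfl ho
    rw [degree_sum] at hd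
    have h0 := ho 0
    have h1 := ho 1
    have h2 := ho 2
    omega
  rw [this, Set.ncard_empty]

theorem cntT_top {s : ℕ} (hs : a 0 + a 1 + a 2 = s + 3) (ha : ∀ i, 1 ≤ a i) : cntT a s = 1 := by
  unfold cntT
  have : {m : Fin 3 →₀ ℕ | m.degree = s ∧ OutsideT a m} = {mon3 (a 0 - 1) (a 1 - 1) (a 2 - 1)} := by
    ext m
    simp only [Set.mem_ofPred_eq, Set.mem_singleton_iff]
    constructor
    · rintro ⟨rfl, ho⟩
      rw [degree_sum] at hs
      have h0 := ho 0
      have h1 := ho 1
      have h2 := ho 2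
      apply mon3_ext <;> simp <;> omega
    · rintro rfl
      refine ⟨?_, ?_⟩
      · have h0 := ha 0
        have h1 := ha 1
        have h2 := ha 2
        rw [degree_sum]
        simp only [mon3_0, mon3_1, mon3_2]
        omega
      · intro i
        have h0 := ha 0
        have h1 := ha 1
        have h2 := ha 2
        fin_cases i <;> simp <;> omega
  rw [this, Set.ncard_singleton]

end count

namespace FormSeq

variable {a : Fin 3 → ℕ} {f : Fin 3 → Poly K} (h : FormSeq a f)
include h

theorem HS_le_FF {d : ℕ} (hd : a 0 + a 1 + a 2 < d + 3) : HS K d ≤ FF f d := by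
  have hc := cntT_high hd
  have e := h.finrank_FF_add_cnt d
  rw [hc, add_zero] at e
  have hfin : Module.Finite K (HS K d) := inferInstance
  refine (Submodule.eq_of_le_of_finrank_eq (FF_le_HS f d) ?_).symm.le
  rw [e, finrank_HS]

end FormSeq

end Vale.Agent.Lib.P200
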