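import Vale.Agent.Lib.P200.BPencil

/-!
Reduced representatives modulo a cubic with nonzero coefficient of `x₀³`.
-/

namespace Vale.Agent.Lib.P200
open MvPolynomial Module

variable {K : Type*} [Field K]

/-- A cubic form with nonzero coefficient of `x₀³`. -/
structure NormCubic (f0 : Poly K) : Prop where
  hom : f0.IsHomogeneous 3
  lead : coeff (Finsupp.single 0 3) f0 ≠ 0

/-- The principal ideal of the cubic. -/
noncomputable def Fo (f0 : Poly K) : Ideal (Poly K) := Ideal.span {f0}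

theorem mem_Fo {f0 p : Poly K} : p ∈ Fo f0 ↔ ∃ c, p = c * f0 := by
  unfold Fo
  rw [Ideal.mem_span_singleton']
  exact exists_congr fun c => eq_comm

/-- Graded piece of the principal ideal of the cubic. -/
noncomputable def F0 (f0 : Poly K) (d : ℕ) : Submodule K (Poly K) := pieceT (Fo f0) d

theorem F0_le_HS (f0 : Poly K) (d : ℕ) : F0 f0 d ≤ HS K d := pieceT_le_HS _ _

theorem mem_F0 {f0 p : Poly K} {d : ℕ} : p ∈ F0 f0 d ↔ p ∈ Fo f0 ∧ p.IsHomogeneous d := mem_pieceT

/-- The forms of degree `d` of `x₀`-degree at most two. -/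
noncomputable def Nt (K : Type*) [Field K] (d : ℕ) : Submodule K (Poly K) :=
  restrictSupport K {m : Fin 3 →₀ ℕ | m.degree = d ∧ m 0 ≤ 2}

theorem mem_Nt {p : Poly K} {d : ℕ} : p ∈ Nt K d ↔ p.IsHomogeneous d ∧ degreeOf 0 p ≤ 2 := by
  rw [Nt, mem_restrictSupport_iff, degreeOf_le_iff]
  have h : p.IsHomogeneous d ↔ p ∈ HS K d := Iff.rfl
  rw [h, HS_eq_restrict, mem_restrictSupport_iff]
  constructor
  · intro hp
    exact ⟨fun m hm => (hp hm).1, fun m hm => (hp hm).2⟩
  · rintro ⟨h1, h2⟩ m hm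
    exact ⟨h1 hm, h2 m hm⟩

theorem Nt_le_HS (d : ℕ) : Nt K d ≤ HS K d := fun _ hp => (mem_Nt.1 hp).1

namespace NormCubic

variable {f0 : Poly K} (h : NormCubic f0)
include h

theorem ne0 : f0 ≠ 0 := by
  intro h0
  apply h.lead
  rw [h0, coeff_zero]

theorem degreeOf_ge : 3 ≤ degreeOf 0 f0 := by
  have hm : Finsupp.single (0 : Fin 3) 3 ∈ f0.support := MvPolynomial.mem_support_iff.2 h.lead
  simpa using monomial_le_degreeOf 0 hm

/-- Reduced forms meet the ideal trivially. -/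
theorem eq_zero_of_low {p : Poly K} (hp : p ∈ Fo f0) (hd : degreeOf 0 p ≤ 2) : p = 0 := by
  obtain ⟨c, rfl⟩ := mem_Fo.1 hp
  by_contra hne
  have hc : c ≠ 0 := left_ne_zero_of_mul hne
  rw [degreeOf_mul_eq hc h.ne0] at hd
  have := h.degreeOf_ge
  omega

theorem finrank_F0 (d : ℕ) : finrank K (F0 f0 d) = if 3 ≤ d then T (d - 3) else 0 := by
  have hb : ∀ e, finrank K (pieceT (⊥ : Ideal (Poly K)) e) = 0 := by
    intro e
    have : pieceT (⊥ : Ideal (Poly K)) e = ⊥ := by
      rw [eq_bot_iff]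
      intro x hx
      exact (Submodule.mem_bot K).2 ((Ideal.mem_bot).1 (mem_pieceT.1 hx).1)
    rw [this, finrank_bot]
  have hFo : Fo f0 = ⊥ ⊔ Ideal.span {f0} := by rw [bot_sup_eq]; rfl
  unfold F0
  rw [hFo]
  by_cases hd : 3 ≤ d
  · rw [if_pos hd]
    obtain ⟨D, rfl⟩ : ∃ D, d = D + 3 := ⟨d - 3, by omega⟩
    have := finrank_piece_add homClosed_bot h.hom h.ne0
      (fun p hp => by
        rw [Ideal.mem_bot] at hp ⊢
        exact (mul_eq_zero.1 hp).resolve_right h.ne0) D
    rw [hb, hb] at this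
    rw [Nat.add_sub_cancel]
    generalize finrank K ↥(pieceT (⊥ ⊔ Ideal.span {f0}) (D + 3)) = A at *
    omega
  · rw [if_neg hd, finrank_piece_low homClosed_bot h.hom (by omega), hb]

end NormCubic

/-- The count of monomials of `x₀`-degree at most two. -/
theorem finrank_Nt (d : ℕ) : finrank K (Nt K d) + (if 3 ≤ d then T (d - 3) else 0) = T d := by
  rw [Nt, finrank_restrictSupport]
  have hT : T d = ({m : Fin 3 →₀ ℕ | m.degree = d}).ncard := (ncard_degree d).symm
  have hsplit : {m : Fin 3 →₀ ℕ | m.degree = d} = {m : Fin 3 →₀ ℕ | m.degree = d ∧ m 0 ≤ 2} ∪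
      {m : Fin 3 →₀ ℕ | m.degree = d ∧ 3 ≤ m 0} := by
    ext m
    simp only [Set.mem_union, Set.mem_ofPred_eq]
    omega
  have hd : Disjoint {m : Fin 3 →₀ ℕ | m.degree = d ∧ m 0 ≤ 2}
      {m : Fin 3 →₀ ℕ | m.degree = d ∧ 3 ≤ m 0} := by
    rw [Set.disjoint_left]
    rintro m ⟨_, h1⟩ ⟨_, h2⟩
    omega
  rw [hT, hsplit, Set.ncard_union_eq hd ((finite_degree_set d).subset fun m hm => hm.1)
    ((finite_degree_set d).subset fun m hm => hm.1)]
  congr 1
  by_cases h3 : 3 ≤ d
  · rw [if_pos h3]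
    have e : {m : Fin 3 →₀ ℕ | m.degree = d ∧ 3 ≤ m 0} =
        (fun m => m + Finsupp.single 0 3) '' {m : Fin 3 →₀ ℕ | m.degree = d - 3} := by
      ext n
      simp only [Set.mem_ofPred_eq, Set.mem_image]
      constructor
      · rintro ⟨h1, h2⟩
        refine ⟨n - Finsupp.single 0 3, ?_, ?_⟩
        · rw [degree_sum] at h1 ⊢
          simp [Finsupp.single_apply]
          omega
        · apply mon3_ext <;> simp [Finsupp.single_apply]
          omega
      · rintro ⟨m, hm, rfl⟩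
        refine ⟨?_, by simp⟩
        rw [degree_sum] at hm ⊢
        simp [Finsupp.single_apply]
        omega
    rw [e, Set.ncard_image_of_injective _ (fun a b hab => add_right_cancel hab), ncard_degree]
    rfl
  · rw [if_neg h3]
    have : {m : Fin 3 →₀ ℕ | m.degree = d ∧ 3 ≤ m 0} = ∅ := by
      ext m
      simp only [Set.mem_ofPred_eq, Set.mem_empty_iff_false, iff_false, not_and, not_le]
      rintro rfl
      rw [degree_sum] at h3
      omega
    rw [this, Set.ncard_empty]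

namespace NormCubic

variable {f0 : Poly K} (h : NormCubic f0)
include h

theorem Nt_inf_F0 (d : ℕ) : Nt K d ⊓ F0 f0 d = ⊥ := by
  rw [eq_bot_iff]
  rintro p ⟨h1, h2⟩
  exact (Submodule.mem_bot K).2 (h.eq_zero_of_low (mem_F0.1 h2).1 (mem_Nt.1 h1).2)

/-- Every form is a reduced form plus a multiple of the cubic. -/
theorem Nt_sup_F0 (d : ℕ) : Nt K d ⊔ F0 f0 d = HS K d := by
  have hfinN := finite_of_le_HS (Nt_le_HS (K := K) d)
  have hfinF := finite_of_le_HS (F0_le_HS f0 d)
  refine Submodule.eq_of_le_of_finrank_le (sup_le (Nt_le_HS d) (F0_le_HS f0 d)) ?_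
  have e1 := Submodule.finrank_sup_add_finrank_inf_eq (Nt K d) (F0 f0 d)
  rw [h.Nt_inf_F0, finrank_bot, add_zero] at e1
  rw [e1, finrank_HS, h.finrank_F0, add_comm]
  have := finrank_Nt (K := K) d
  omega

theorem finrank_Nt_add_F0 (d : ℕ) : finrank K (Nt K d) + finrank K (F0 f0 d) = T d := by
  rw [h.finrank_F0]
  exact finrank_Nt d

/-- Cubic-free quotient: multiplication by a nonzero form without `x₀` is injective modulo the
cubic. -/
theorem torsion_free {a m : Poly K} {n e : ℕ} (ha : a ∈ (Pp K) ^ n) (ha0 : a ≠ 0)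
    (hm : m ∈ HS K e) (hmem : a * m ∈ Fo f0) : m ∈ Fo f0 := by
  rw [← h.Nt_sup_F0 e, Submodule.mem_sup] at hm
  obtain ⟨u, hu, w, hw, rfl⟩ := hm
  have hw' := (mem_F0.1 hw).1
  have h1 : a * u ∈ Fo f0 := by
    have : a * u = a * (u + w) - a * w := by ring
    rw [this]
    exact Ideal.sub_mem _ hmem (Ideal.mul_mem_left _ _ hw')
  have h2 : degreeOf 0 (a * u) ≤ 2 := by
    have := degreeOf_mul_le 0 a u
    rw [degreeOf_Pp_pow ha] at this
    have := (mem_Nt.1 hu).2
    omega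
  have h3 := h.eq_zero_of_low h1 h2
  have : u = 0 := (mul_eq_zero.1 h3).resolve_left ha0
  rw [this, zero_add]
  exact hw'

/-- The elements `x s - s'` are not multiples of the cubic. -/
theorem not_mem_of_linear {s s' : Poly K} {k l : ℕ} (hs : s ∈ (Pp K) ^ k) (hs' : s' ∈ (Pp K) ^ l)
    (hs0 : s ≠ 0) : X 0 * s - s' ∉ Fo f0 := by
  intro hm
  have hd : degreeOf 0 (X 0 * s - s') ≤ 2 := by
    have h1 := degreeOf_sub_le 0 (X 0 * s) s'
    have h2 := degreeOf_mul_le 0 (X 0 : Poly K) s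
    rw [degreeOf_Pp_pow hs, degreeOf_X, if_pos rfl] at h2
    rw [degreeOf_Pp_pow hs'] at h1
    have : max (degreeOf 0 (X 0 * s)) 0 ≤ 1 := by
      simp
      omega
    omega
  have h0 := h.eq_zero_of_low hm hd
  have e : X 0 * s = s' := by linear_combination h0
  have h1 := degreeOf_mul_eq (X_ne_zero (0 : Fin 3)) hs0 (n := 0) (R := K)
  rw [e, degreeOf_Pp_pow hs', degreeOf_Pp_pow hs, degreeOf_X, if_pos rfl] at h1
  omega

end NormCubic

end Vale.Agent.Lib.P200
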