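import Vale.Agent.Lib.P200.BDual

/-!
The pencil spanned by the last two variables acting on subspaces of forms: colon spaces, growth,
and the description of subspaces of small growth as sums of strings.
-/

namespace Vale.Agent.Lib.P200
open MvPolynomial Module

variable {K : Type*} [Field K]

/-- The span of the last two variables. -/
noncomputable def Pp (K : Type*) [Field K] : Submodule K (Poly K) :=
  Submodule.span K {X 1, X 2}

theorem mem_Pp_mul {V : Submodule K (Poly K)} {x : Poly K} :
    x ∈ Pp K * V ↔ ∃ a ∈ V, ∃ b ∈ V, x = X 1 * a + X 2 * b := by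
  unfold Pp
  rw [Submodule.span_insert, Submodule.sup_mul, Submodule.mem_sup]
  simp only [Submodule.mem_span_singleton_mul]
  constructor
  · rintro ⟨_, ⟨a, ha, rfl⟩, _, ⟨b, hb, rfl⟩, rfl⟩
    exact ⟨a, ha, b, hb, rfl⟩
  · rintro ⟨a, ha, b, hb, rfl⟩
    exact ⟨_, ⟨a, ha, rfl⟩, _, ⟨b, hb, rfl⟩, rfl⟩

theorem X1_mul_mem {V : Submodule K (Poly K)} {a : Poly K} (ha : a ∈ V) : X 1 * a ∈ Pp K * V :=
  mem_Pp_mul.2 ⟨a, ha, 0, V.zero_mem, by ring⟩

theorem X2_mul_mem {V : Submodule K (Poly K)} {a : Poly K} (ha : a ∈ V) : X 2 * a ∈ Pp K * V :=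
  mem_Pp_mul.2 ⟨0, V.zero_mem, a, ha, by ring⟩

theorem Pp_le_HS : Pp K ≤ HS K 1 := by
  unfold Pp
  rw [Submodule.span_le]
  rintro _ (rfl | rfl)
  · exact isHomogeneous_X K 1
  · exact isHomogeneous_X K 2

theorem Pp_mul_le_HS {V : Submodule K (Poly K)} {d : ℕ} (hV : V ≤ HS K d) :
    Pp K * V ≤ HS K (d + 1) := by
  have := mul_le_HS (d := 1) (e := d) (W := Pp K) (W' := V) Pp_le_HS hV
  rwa [add_comm] at this

/-- The colon space `{m : y m ∈ V, z m ∈ V}`. -/
noncomputable def colonP (V : Submodule K (Poly K)) : Submodule K (Poly K) where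
  carrier := {m | X 1 * m ∈ V ∧ X 2 * m ∈ V}
  add_mem' := by
    rintro x y ⟨h1, h2⟩ ⟨h3, h4⟩
    exact ⟨by rw [mul_add]; exact V.add_mem h1 h3, by rw [mul_add]; exact V.add_mem h2 h4⟩
  zero_mem' := by simp
  smul_mem' := by
    rintro c x ⟨h1, h2⟩
    exact ⟨by rw [mul_smul_comm]; exact V.smul_mem c h1, by rw [mul_smul_comm]; exact V.smul_mem c h2⟩

theorem mem_colonP {V : Submodule K (Poly K)} {m : Poly K} :
    m ∈ colonP V ↔ X 1 * m ∈ V ∧ X 2 * m ∈ V := Iff.rfl

theorem Pp_mul_colon_le (V : Submodule K (Poly K)) : Pp K * colonP V ≤ V := by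
  intro x hx
  obtain ⟨a, ha, b, hb, rfl⟩ := mem_Pp_mul.1 hx
  exact V.add_mem ha.1 hb.2

theorem le_colon_Pp_mul (V : Submodule K (Poly K)) : V ≤ colonP (Pp K * V) :=
  fun _ ha => ⟨X1_mul_mem ha, X2_mul_mem ha⟩

/-- A form whose product with a variable is homogeneous is homogeneous. -/
theorem homog_of_X_mul {i : Fin 3} {m : Poly K} {d : ℕ} (h : (X i * m : Poly K).IsHomogeneous (d + 1)) :
    m.IsHomogeneous d := by
  have e := homog_cofactor (a := X i) (g := X i * m) (r := m) (m := 1) (n := d)
    (isHomogeneous_X K i) h rfl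
  have := mul_left_cancel₀ (X_ne_zero i) e
  rw [this]
  exact homogeneousComponent_isHomogeneous _ _

theorem zero_of_X_mul_homog_zero {i : Fin 3} {m : Poly K}
    (h : (X i * m : Poly K).IsHomogeneous 0) : m = 0 := by
  have e := comp_mul_low (f := X i) (k := 1) (m := 0) (isHomogeneous_X K i) m (by omega)
  rw [mul_comm, homogeneousComponent_eq_self h] at e
  exact (mul_eq_zero.1 e).resolve_left (X_ne_zero i)

theorem colonP_le_HS {V : Submodule K (Poly K)} {d : ℕ} (hV : V ≤ HS K (d + 1)) :
    colonP V ≤ HS K d := fun _ hm => homog_of_X_mul (hV hm.1)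

theorem colonP_bot_of_HS0 {V : Submodule K (Poly K)} (hV : V ≤ HS K 0) : colonP V = ⊥ := by
  rw [eq_bot_iff]
  intro m hm
  exact (Submodule.mem_bot K).2 (zero_of_X_mul_homog_zero (hV hm.1))

theorem finite_colonP {V : Submodule K (Poly K)} {d : ℕ} (hV : V ≤ HS K d) :
    Module.Finite K (colonP V) := by
  cases d with
  | zero =>
    rw [colonP_bot_of_HS0 hV]
    infer_instance
  | succ d => exact finite_of_le_HS (colonP_le_HS hV)

/-- The divisibility property of the two variables. -/
theorem X1_dvd_of {v w : Poly K} (e : (X 2 : Poly K) * v = X 1 * w) : (X 1 : Poly K) ∣ v := by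
  have hp := linear_prime (K := K) (isHomogeneous_X K 1) (X_ne_zero 1)
  have hd : (X 1 : Poly K) ∣ X 2 * v := ⟨w, e⟩
  rcases hp.2.2 _ _ hd with h | h
  · exfalso
    have := linear_dvd_linear (isHomogeneous_X K 1) (isHomogeneous_X K 2) h
    obtain ⟨c, hc⟩ := this
    have h1 := congrArg (coeff (Finsupp.single 2 1)) hc
    have hne : (Finsupp.single (1 : Fin 3) 1 : Fin 3 →₀ ℕ) ≠ Finsupp.single 2 1 := by
      intro h
      have := congrArg (fun g : Fin 3 →₀ ℕ => g 1) h
      simp at this
    rw [coeff_C_mul, coeff_X, coeff_X, if_neg hne, mul_zero, if_pos rfl] at h1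
    exact one_ne_zero h1
  · exact h

/-- Dimension formula for the pencil. -/
theorem finrank_Pp_mul {V : Submodule K (Poly K)} {d : ℕ} (hV : V ≤ HS K d) :
    finrank K (Pp K * V : Submodule K (Poly K)) + finrank K (colonP V) = 2 * finrank K V := by
  have hfinV := finite_of_le_HS hV
  have hfinC := finite_colonP hV
  let ψ : (V × V) →ₗ[K] Poly K :=
    (LinearMap.mulLeft K (X 1 : Poly K)) ∘ₗ V.subtype ∘ₗ LinearMap.fst K V V +
      (LinearMap.mulLeft K (X 2 : Poly K)) ∘ₗ V.subtype ∘ₗ LinearMap.snd K V V
  have hψ : ∀ p : V × V, ψ p = X 1 * (p.1 : Poly K) + X 2 * (p.2 : Poly K) := fun p => by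
    simp [ψ]
  have hr : LinearMap.range ψ = Pp K * V := by
    ext x
    rw [mem_Pp_mul, LinearMap.mem_range]
    constructor
    · rintro ⟨p, rfl⟩
      exact ⟨p.1, p.1.2, p.2, p.2.2, hψ p⟩
    · rintro ⟨a, ha, b, hb, rfl⟩
      exact ⟨(⟨a, ha⟩, ⟨b, hb⟩), hψ _⟩
  let ι : colonP V →ₗ[K] (V × V) :=
    { toFun := fun m => (⟨-(X 2 * (m : Poly K)), V.neg_mem m.2.2⟩, ⟨X 1 * (m : Poly K), m.2.1⟩)
      map_add' := by
        intro u v
        apply Prod.ext <;> apply Subtype.ext <;> simp <;> ring
      map_smul' := by
        intro c v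
        apply Prod.ext <;> apply Subtype.ext <;> simp }
  have hι : Function.Injective ι := by
    intro u v e
    have := congrArg (fun p : V × V => (p.2 : Poly K)) e
    simp only [ι, LinearMap.coe_mk, AddHom.coe_mk] at this
    exact Subtype.ext (mul_left_cancel₀ (X_ne_zero 1) this)
  have hk : LinearMap.range ι = LinearMap.ker ψ := by
    apply le_antisymm
    · rintro _ ⟨m, rfl⟩
      rw [LinearMap.mem_ker, hψ]
      simp [ι]
      ring
    · intro p hp
      rw [LinearMap.mem_ker, hψ] at hp
      have e : (X 2 : Poly K) * (p.2 : Poly K) = X 1 * (-(p.1 : Poly K)) := by linear_combination hp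
      obtain ⟨m, hm⟩ := X1_dvd_of e
      have e2 : (p.1 : Poly K) = -(X 2 * m) := by
        have : (X 1 : Poly K) * ((p.1 : Poly K) + X 2 * m) = 0 := by
          rw [hm] at hp
          linear_combination hp
        have := (mul_eq_zero.1 this).resolve_left (X_ne_zero 1)
        linear_combination this
      refine ⟨⟨m, ⟨?_, ?_⟩⟩, ?_⟩
      · rw [← hm]
        exact p.2.2
      · have : (X 2 : Poly K) * m = -(p.1 : Poly K) := by rw [e2]; ring
        rw [this]
        exact V.neg_mem p.1.2
      · apply Prod.ext <;> apply Subtype.ext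
        · simp [ι, e2]
        · simp [ι, hm]
  have e1 := LinearMap.finrank_range_add_finrank_ker ψ
  rw [hr, ← hk, LinearMap.finrank_range_of_inj hι, Module.finrank_prod] at e1
  rw [e1]
  ring

/-- Nonzero subspaces grow. -/
theorem growth_pos : ∀ (d : ℕ) {V : Submodule K (Poly K)}, V ≤ HS K d → V ≠ ⊥ →
    finrank K V + 1 ≤ finrank K (Pp K * V : Submodule K (Poly K)) := by
  intro d
  induction d with
  | zero =>
    intro V hV hne
    have e := finrank_Pp_mul hV
    rw [colonP_bot_of_HS0 hV, finrank_bot] at e
    have hfin := finite_of_le_HS hV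
    have : 0 < finrank K V := Module.finrank_pos_iff.2 (Submodule.nontrivial_iff_ne_bot.2 hne)
    generalize finrank K V = A at *
    generalize finrank K (Pp K * V : Submodule K (Poly K)) = B at *
    omega
  | succ d ih =>
    intro V hV hne
    have e := finrank_Pp_mul hV
    have hC := colonP_le_HS hV
    have hfin := finite_of_le_HS hV
    have hfinC := finite_of_le_HS hC
    have hle := Submodule.finrank_mono (Pp_mul_colon_le V)
    by_cases hb : colonP V = ⊥
    · rw [hb, finrank_bot] at e
      have : 0 < finrank K V := Module.finrank_pos_iff.2 (Submodule.nontrivial_iff_ne_bot.2 hne)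
      generalize finrank K V = A at *
      generalize finrank K (Pp K * V : Submodule K (Poly K)) = B at *
      omega
    · have := ih hC hb
      generalize finrank K V = A at *
      generalize finrank K (Pp K * V : Submodule K (Poly K)) = B at *
      generalize finrank K (Pp K * colonP V : Submodule K (Poly K)) = C at *
      generalize finrank K (colonP V) = D at *
      omega

/-- A one-dimensional space is the span of a nonzero vector. -/
theorem exists_span_of_finrank_one {V : Submodule K (Poly K)} (h : finrank K V = 1) :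
    ∃ g, g ≠ 0 ∧ g ∈ V ∧ V = Submodule.span K {g} := by
  obtain ⟨⟨g, hg⟩, hg0, hspan⟩ := finrank_eq_one_iff'.1 h
  refine ⟨g, fun h0 => hg0 (Subtype.ext h0), hg, ?_⟩
  apply le_antisymm
  · intro x hx
    obtain ⟨c, hc⟩ := hspan ⟨x, hx⟩
    rw [Submodule.mem_span_singleton]
    exact ⟨c, by simpa using congrArg Subtype.val hc⟩
  · exact (Submodule.span_singleton_le_iff_mem _ _).2 hg

/-- The string `g Q_k`. -/
noncomputable def str (g : Poly K) (k : ℕ) : Submodule K (Poly K) :=
  Submodule.span K {g} * (Pp K) ^ k

theorem Pp_mul_str (g : Poly K) (k : ℕ) : Pp K * str g k = str g (k + 1) := by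
  unfold str
  rw [pow_succ', ← mul_assoc, ← mul_assoc, mul_comm (Pp K)]

theorem str_zero (g : Poly K) : str g 0 = Submodule.span K {g} := by
  simp [str]

/-- Subspaces of growth one are strings. -/
theorem string1 : ∀ (d : ℕ) {V : Submodule K (Poly K)}, V ≤ HS K d →
    finrank K (Pp K * V : Submodule K (Poly K)) = finrank K V + 1 →
    ∃ g k, k ≤ d ∧ g ∈ HS K (d - k) ∧ g ≠ 0 ∧ V = str g k ∧ finrank K V = k + 1 := by
  intro d
  induction d with
  | zero =>
    intro V hV hg
    have e := finrank_Pp_mul hV
    rw [colonP_bot_of_HS0 hV, finrank_bot] at e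
    have h1 : finrank K V = 1 := by
      generalize finrank K V = A at *
      generalize finrank K (Pp K * V : Submodule K (Poly K)) = B at *
      omega
    obtain ⟨g, hg0, hgV, rfl⟩ := exists_span_of_finrank_one h1
    exact ⟨g, 0, le_rfl, hV hgV, hg0, (str_zero g).symm, h1⟩
  | succ d ih =>
    intro V hV hg
    have e := finrank_Pp_mul hV
    have hC := colonP_le_HS hV
    have hfin := finite_of_le_HS hV
    have hfinC := finite_of_le_HS hC
    by_cases hb : colonP V = ⊥
    · rw [hb, finrank_bot] at e
      have h1 : finrank K V = 1 := by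
        generalize finrank K V = A at *
        generalize finrank K (Pp K * V : Submodule K (Poly K)) = B at *
        omega
      obtain ⟨g, hg0, hgV, rfl⟩ := exists_span_of_finrank_one h1
      exact ⟨g, 0, by omega, hV hgV, hg0, (str_zero g).symm, h1⟩
    · have hgr := growth_pos d hC hb
      have hle := Submodule.finrank_mono (Pp_mul_colon_le V)
      have hEq : Pp K * colonP V = V := by
        refine Submodule.eq_of_le_of_finrank_le (Pp_mul_colon_le V) ?_
        generalize finrank K V = A at *
        generalize finrank K (Pp K * V : Submodule K (Poly K)) = B at *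
        generalize finrank K (Pp K * colonP V : Submodule K (Poly K)) = C at *
        generalize finrank K (colonP V) = D at *
        omega
      have hg2 : finrank K (Pp K * colonP V : Submodule K (Poly K)) = finrank K (colonP V) + 1 := by
        generalize finrank K V = A at *
        generalize finrank K (Pp K * V : Submodule K (Poly K)) = B at *
        generalize finrank K (Pp K * colonP V : Submodule K (Poly K)) = C at *
        generalize finrank K (colonP V) = D at *
        omega
      obtain ⟨g, k, hk, hgd, hg0, hs, hr⟩ := ih hC hg2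
      refine ⟨g, k + 1, by omega, ?_, hg0, ?_, ?_⟩
      · rwa [show d + 1 - (k + 1) = d - k by omega]
      · rw [← hEq, hs, Pp_mul_str]
      · rw [← hEq, hg2, hr]

/-- A space of dimension two is spanned by two vectors. -/
theorem exists_span_of_finrank_two {V : Submodule K (Poly K)} (h : finrank K V = 2) :
    ∃ g u, g ∈ V ∧ u ∈ V ∧ V = Submodule.span K {g} ⊔ Submodule.span K {u} := by
  have hfin : Module.Finite K V := Module.finite_of_finrank_pos (by omega)
  have hb := Module.finBasisOfFinrankEq K V h
  refine ⟨hb 0, hb 1, (hb 0).2, (hb 1).2, ?_⟩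
  apply le_antisymm
  · intro x hx
    have e := hb.sum_repr ⟨x, hx⟩
    rw [Fin.sum_univ_two] at e
    have e2 := congrArg Subtype.val e
    simp only [Submodule.coe_add, Submodule.coe_smul] at e2
    rw [← e2]
    exact Submodule.add_mem_sup (Submodule.smul_mem _ _ (Submodule.mem_span_singleton_self _))
      (Submodule.smul_mem _ _ (Submodule.mem_span_singleton_self _))
  · exact sup_le ((Submodule.span_singleton_le_iff_mem _ _).2 (hb 0).2)
      ((Submodule.span_singleton_le_iff_mem _ _).2 (hb 1).2)

/-- Subspaces of growth two are sums of two strings. -/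
theorem string2 : ∀ (d : ℕ) {V : Submodule K (Poly K)}, V ≤ HS K d →
    finrank K (Pp K * V : Submodule K (Poly K)) = finrank K V + 2 →
    ∃ g u k l, k ≤ d ∧ l ≤ d ∧ g ∈ HS K (d - k) ∧ u ∈ HS K (d - l) ∧
      V = str g k ⊔ str u l ∧ finrank K V = k + l + 2 := by
  intro d
  induction d with
  | zero =>
    intro V hV hg
    have e := finrank_Pp_mul hV
    rw [colonP_bot_of_HS0 hV, finrank_bot] at e
    have h1 : finrank K V = 2 := by
      generalize finrank K V = A at *
      generalize finrank K (Pp K * V : Submodule K (Poly K)) = B at *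
      omega
    obtain ⟨g, u, hgV, huV, hs⟩ := exists_span_of_finrank_two h1
    exact ⟨g, u, 0, 0, le_rfl, le_rfl, hV hgV, hV huV, by rw [str_zero, str_zero]; exact hs, h1⟩
  | succ d ih =>
    intro V hV hg
    have e := finrank_Pp_mul hV
    have hC := colonP_le_HS hV
    have hfin := finite_of_le_HS hV
    have hfinC := finite_of_le_HS hC
    by_cases hb : colonP V = ⊥
    · rw [hb, finrank_bot] at e
      have h1 : finrank K V = 2 := by
        generalize finrank K V = A at *
        generalize finrank K (Pp K * V : Submodule K (Poly K)) = B at *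
        omega
      obtain ⟨g, u, hgV, huV, hs⟩ := exists_span_of_finrank_two h1
      exact ⟨g, u, 0, 0, by omega, by omega, hV hgV, hV huV,
        by rw [str_zero, str_zero]; exact hs, h1⟩
    · have hgr := growth_pos d hC hb
      have hle := Submodule.finrank_mono (Pp_mul_colon_le V)
      by_cases hcase : finrank K (Pp K * colonP V : Submodule K (Poly K)) = finrank K (colonP V) + 1
      · obtain ⟨g, k, hk, hgd, hg0, hs, hr⟩ := string1 d hC hcase
        -- the colon space is a string; the space is its multiple plus one vector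
        have hP : Pp K * colonP V = str g (k + 1) := by rw [hs, Pp_mul_str]
        have hfr : finrank K V = finrank K (Pp K * colonP V : Submodule K (Poly K)) + 1 := by
          generalize finrank K V = A at *
          generalize finrank K (Pp K * V : Submodule K (Poly K)) = B at *
          generalize finrank K (Pp K * colonP V : Submodule K (Poly K)) = C at *
          generalize finrank K (colonP V) = D at *
          omega
        have hlt : Pp K * colonP V < V := by
          refine lt_of_le_of_ne (Pp_mul_colon_le V) ?_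
          intro he
          rw [he] at hfr
          omega
        obtain ⟨u, huV, hu⟩ := SetLike.exists_of_lt hlt
        have hEq : V = str g (k + 1) ⊔ str u 0 := by
          rw [str_zero, ← hP]
          have hle2 : Pp K * colonP V ⊔ Submodule.span K {u} ≤ V :=
            sup_le (Pp_mul_colon_le V) ((Submodule.span_singleton_le_iff_mem _ _).2 huV)
          refine (Submodule.eq_of_le_of_finrank_le hle2 ?_).symm
          have hlt2 : Pp K * colonP V < Pp K * colonP V ⊔ Submodule.span K {u} := by
            refine lt_of_le_of_ne le_sup_left ?_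
            intro he
            apply hu
            rw [he]
            exact Submodule.mem_sup_right (Submodule.mem_span_singleton_self _)
          have hfin3 : Module.Finite K (Pp K * colonP V ⊔ Submodule.span K {u} : Submodule K (Poly K)) :=
            Submodule.finiteDimensional_of_le hle2
          have := Submodule.finrank_lt_finrank_of_lt hlt2
          generalize finrank K V = A at *
          generalize finrank K (Pp K * colonP V : Submodule K (Poly K)) = C at *
          generalize finrank K ↥(Pp K * colonP V ⊔ Submodule.span K {u}) = D at *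
          omega
        refine ⟨g, u, k + 1, 0, by omega, by omega, ?_, hV huV, hEq, ?_⟩
        · rwa [show d + 1 - (k + 1) = d - k by omega]
        · rw [hfr, hcase, hr]
      · have hg2 : finrank K (Pp K * colonP V : Submodule K (Poly K)) = finrank K (colonP V) + 2 := by
          generalize finrank K V = A at *
          generalize finrank K (Pp K * V : Submodule K (Poly K)) = B at *
          generalize finrank K (Pp K * colonP V : Submodule K (Poly K)) = C at *
          generalize finrank K (colonP V) = D at *
          omega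
        have hEq : Pp K * colonP V = V := by
          refine Submodule.eq_of_le_of_finrank_le (Pp_mul_colon_le V) ?_
          generalize finrank K V = A at *
          generalize finrank K (Pp K * V : Submodule K (Poly K)) = B at *
          generalize finrank K (Pp K * colonP V : Submodule K (Poly K)) = C at *
          generalize finrank K (colonP V) = D at *
          omega
        obtain ⟨g, u, k, l, hk, hl, hgd, hud, hs, hr⟩ := ih hC hg2
        refine ⟨g, u, k + 1, l + 1, by omega, by omega, ?_, ?_, ?_, ?_⟩
        · rwa [show d + 1 - (k + 1) = d - k by omega]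
        · rwa [show d + 1 - (l + 1) = d - l by omega]
        · rw [← hEq, hs, Submodule.mul_sup, Pp_mul_str, Pp_mul_str]
        · rw [← hEq, hg2, hr]
          ring

/-! ### Powers of the pencil -/

theorem Pp_pow_le_HS (k : ℕ) : (Pp K) ^ k ≤ HS K k := by
  induction k with
  | zero =>
    rw [pow_zero, HS_zero]
  | succ k ih =>
    rw [pow_succ']
    have := mul_le_HS (d := 1) (e := k) (W := Pp K) (W' := (Pp K) ^ k) Pp_le_HS ih
    rwa [add_comm] at this

theorem degreeOf_Pp_pow {k : ℕ} {q : Poly K} (hq : q ∈ (Pp K) ^ k) : degreeOf 0 q = 0 := by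
  induction k generalizing q with
  | zero =>
    rw [pow_zero] at hq
    obtain ⟨c, rfl⟩ := Submodule.mem_one.1 hq
    simp [algebraMap_eq, degreeOf_C]
  | succ k ih =>
    rw [pow_succ'] at hq
    obtain ⟨a, ha, b, hb, rfl⟩ := mem_Pp_mul.1 hq
    have h1 : degreeOf 0 ((X 1 : Poly K) * a) = 0 := by
      have := degreeOf_mul_le 0 (X 1 : Poly K) a
      rw [ih ha, degreeOf_X, if_neg (by decide)] at this
      omega
    have h2 : degreeOf 0 ((X 2 : Poly K) * b) = 0 := by
      have := degreeOf_mul_le 0 (X 2 : Poly K) b
      rw [ih hb, degreeOf_X, if_neg (by decide)] at this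
      omega
    have := degreeOf_add_le 0 ((X 1 : Poly K) * a) (X 2 * b)
    rw [h1, h2] at this
    simpa using this

theorem Pp_pow_eq (k : ℕ) :
    (Pp K) ^ k = restrictSupport K {m : Fin 3 →₀ ℕ | m 0 = 0 ∧ m.degree = k} := by
  apply le_antisymm
  · intro q hq
    rw [mem_restrictSupport_iff]
    intro m hm
    have h1 := (Pp_pow_le_HS k hq)
    refine ⟨?_, ?_⟩
    · have := monomial_le_degreeOf 0 hm
      rw [degreeOf_Pp_pow hq] at this
      omega
    · have := h1
      rw [HS_eq_restrict, mem_restrictSupport_iff] at this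
      exact this hm
  · rw [restrictSupport_eq_span, Submodule.span_le]
    rintro _ ⟨m, ⟨h0, rfl⟩, rfl⟩
    have hm : m = Finsupp.single 1 (m 1) + Finsupp.single 2 (m 2) := by
      apply mon3_ext <;> simp [h0]
    have e : (monomial m (1 : K) : Poly K) = X 1 ^ (m 1) * X 2 ^ (m 2) := by
      rw [X_pow_eq_monomial, X_pow_eq_monomial, monomial_mul, mul_one, ← hm]
    show (monomial m (1 : K) : Poly K) ∈ _
    rw [e, degree_sum, h0, zero_add, pow_add]
    refine Submodule.mul_mem_mul (Submodule.pow_mem_pow _ ?_ _) (Submodule.pow_mem_pow _ ?_ _)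
    · exact Submodule.subset_span (by simp)
    · exact Submodule.subset_span (by simp)

theorem finrank_Pp_pow (k : ℕ) : finrank K ((Pp K) ^ k : Submodule K (Poly K)) = k + 1 := by
  rw [Pp_pow_eq, finrank_restrictSupport]
  have : {m : Fin 3 →₀ ℕ | m 0 = 0 ∧ m.degree = k} =
      (fun j => mon3 0 j (k - j)) '' (↑(Finset.range (k + 1)) : Set ℕ) := by
    ext m
    simp only [Set.mem_ofPred_eq, Set.mem_image, Finset.coe_range, Set.mem_Iio]
    constructor
    · rintro ⟨h0, hd⟩
      rw [degree_sum, h0] at hd
      refine ⟨m 1, by omega, ?_⟩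
      apply mon3_ext
      · simp [h0]
      · simp
      · simp
        omega
    · rintro ⟨j, hj, rfl⟩
      refine ⟨by simp, ?_⟩
      rw [degree_sum]
      simp only [mon3_0, mon3_1, mon3_2]
      omega
  rw [this, Set.ncard_image_of_injective, Set.ncard_coe_finset, Finset.card_range]
  intro i j hij
  have := congrArg (fun g : Fin 3 →₀ ℕ => g 1) hij
  simpa using this

theorem finrank_str {g : Poly K} (hg : g ≠ 0) (k : ℕ) : finrank K (str g k) = k + 1 := by
  rw [str, finrank_span_singleton_mul hg, finrank_Pp_pow]

theorem str_le_HS {g : Poly K} {k e : ℕ} (hg : g ∈ HS K e) : str g k ≤ HS K (e + k) := by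
  unfold str
  have h1 := finite_mul_span_singleton (d := k) (W := (Pp K) ^ k) (Pp_pow_le_HS k) g hg
  exact h1

end Vale.Agent.Lib.P200
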