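import Vale.Agent.Lib.P200.BSeq

/-!
Lexicographic ranks of monomials outside `(x₀³, x₁^b, x₂^b)`.
-/

namespace Vale.Agent.Lib.P200
open MvPolynomial Module

theorem toLex_lt_iff3 (m n : Fin 3 →₀ ℕ) : toLex m < toLex n ↔
    m 0 < n 0 ∨ (m 0 = n 0 ∧ m 1 < n 1) ∨ (m 0 = n 0 ∧ m 1 = n 1 ∧ m 2 < n 2) := by
  rw [Finsupp.Lex.lt_iff]
  simp only [ofLex_toLex]
  constructor
  · rintro ⟨i, hj, hi⟩
    fin_cases i
    · exact Or.inl hi
    · exact Or.inr (Or.inl ⟨hj 0 (by decide), hi⟩)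
    · exact Or.inr (Or.inr ⟨hj 0 (by decide), hj 1 (by decide), hi⟩)
  · rintro (h | ⟨h0, h⟩ | ⟨h0, h1, h⟩)
    · exact ⟨0, fun j hj => absurd hj (by simp), h⟩
    · refine ⟨1, fun j hj => ?_, h⟩
      fin_cases j
      · exact h0
      · exact absurd hj (by simp)
      · exact absurd hj (by simp)
    · refine ⟨2, fun j hj => ?_, h⟩
      fin_cases j
      · exact h0
      · exact h1
      · exact absurd hj (by simp)

/-- Being outside, in coordinates. -/
theorem outside_ab {b : ℕ} {m : Fin 3 →₀ ℕ} : OutsideT (ab b) m ↔ m 0 < 3 ∧ m 1 < b ∧ m 2 < b := by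
  constructor
  · intro h
    exact ⟨h 0, h 1, h 2⟩
  · rintro ⟨h0, h1, h2⟩ i
    fin_cases i
    · exact h0
    · exact h1
    · exact h2

/-- The rank formula in low degrees. -/
def rkF (b d i k : ℕ) : ℕ :=
  if i = 2 then k else if i = 1 then (d - 1) + k else if d < b then (2 * d - 1) + k else (2 * b - 2) + k

section formula

variable {b d : ℕ}

/-- The position of a monomial. -/
def posM (b d : ℕ) (n : Fin 3 →₀ ℕ) : ℕ := rkF b d (n 0) (n 2)

theorem lex_iff_pos (hd : d ≤ b) {m n : Fin 3 →₀ ℕ} (hm : m.degree = d) (hn : n.degree = d)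
    (hmo : OutsideT (ab b) m) (hno : OutsideT (ab b) n) :
    toLex m < toLex n ↔ posM b d n < posM b d m := by
  rw [toLex_lt_iff3]
  rw [degree_sum] at hm hn
  obtain ⟨h0, h1, h2⟩ := outside_ab.1 hmo
  obtain ⟨h3, h4, h5⟩ := outside_ab.1 hno
  unfold posM rkF
  generalize m 0 = i at *
  generalize m 1 = j at *
  generalize m 2 = k at *
  generalize n 0 = i' at *
  generalize n 1 = j' at *
  generalize n 2 = k' at *
  split_ifs <;> omega

theorem pos_inj (hd : d ≤ b) {m n : Fin 3 →₀ ℕ} (hm : m.degree = d) (hn : n.degree = d)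
    (hmo : OutsideT (ab b) m) (hno : OutsideT (ab b) n) (e : posM b d m = posM b d n) : m = n := by
  rw [degree_sum] at hm hn
  obtain ⟨h0, h1, h2⟩ := outside_ab.1 hmo
  obtain ⟨h3, h4, h5⟩ := outside_ab.1 hno
  unfold posM rkF at e
  apply mon3_ext <;>
  · generalize m 0 = i at *
    generalize m 1 = j at *
    generalize m 2 = k at *
    generalize n 0 = i' at *
    generalize n 1 = j' at *
    generalize n 2 = k' at *
    split_ifs at e <;> omega

theorem pos_surj (hd : d ≤ b) {m : Fin 3 →₀ ℕ} (hm : m.degree = d) (hmo : OutsideT (ab b) m)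
    {r : ℕ} (hr : r < posM b d m) :
    ∃ n : Fin 3 →₀ ℕ, n.degree = d ∧ OutsideT (ab b) n ∧ posM b d n = r := by
  rw [degree_sum] at hm
  obtain ⟨h0, h1, h2⟩ := outside_ab.1 hmo
  unfold posM rkF at hr
  have hcases : r + 1 < d ∨ (d ≤ r + 1 ∧ r + 1 < 2 * d) ∨ 2 * d ≤ r + 1 := by omega
  rcases hcases with hc | ⟨hc, hc'⟩ | hc
  · refine ⟨mon3 2 (d - 2 - r) r, ?_, outside_ab.2 ?_, ?_⟩
    · rw [degree_sum]
      simp only [mon3_0, mon3_1, mon3_2]
      omega
    · simp only [mon3_0, mon3_1, mon3_2]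
      split_ifs at hr <;> omega
    · simp [posM, rkF]
  · refine ⟨mon3 1 (2 * d - 2 - r) (r + 1 - d), ?_, outside_ab.2 ?_, ?_⟩
    · rw [degree_sum]
      simp only [mon3_0, mon3_1, mon3_2]
      omega
    · simp only [mon3_0, mon3_1, mon3_2]
      split_ifs at hr <;> omega
    · simp [posM, rkF]
      omega
  · by_cases hdb : d < b
    · refine ⟨mon3 0 (3 * d - 1 - r) (r + 1 - 2 * d), ?_, outside_ab.2 ?_, ?_⟩
      · rw [degree_sum]
        simp only [mon3_0, mon3_1, mon3_2]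
        split_ifs at hr <;> omega
      · simp only [mon3_0, mon3_1, mon3_2]
        split_ifs at hr <;> omega
      · simp [posM, rkF, hdb]
        split_ifs at hr <;> omega
    · refine ⟨mon3 0 (3 * d - 2 - r) (r + 2 - 2 * d), ?_, outside_ab.2 ?_, ?_⟩
      · rw [degree_sum]
        simp only [mon3_0, mon3_1, mon3_2]
        split_ifs at hr <;> omega
      · simp only [mon3_0, mon3_1, mon3_2]
        split_ifs at hr <;> omega
      · simp [posM, rkF, hdb]
        split_ifs at hr <;> omega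

/-- The rank formula. -/
theorem lexRank_formula {m : Fin 3 →₀ ℕ} (hd : m.degree ≤ b) (hmo : OutsideT (ab b) m) :
    lexRankT (ab b) m = rkF b m.degree (m 0) (m 2) := by
  set d := m.degree with hdd
  unfold lexRankT
  have hS : {n : Fin 3 →₀ ℕ | n.degree = m.degree ∧ OutsideT (ab b) n ∧ toLex m < toLex n} =
      {n : Fin 3 →₀ ℕ | n.degree = d ∧ OutsideT (ab b) n ∧ posM b d n < posM b d m} := by
    ext n
    simp only [Set.mem_ofPred_eq]
    constructor
    · rintro ⟨h1, h2, h3⟩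
      exact ⟨h1, h2, (lex_iff_pos hd hdd.symm h1 hmo h2).1 h3⟩
    · rintro ⟨h1, h2, h3⟩
      exact ⟨h1, h2, (lex_iff_pos hd hdd.symm h1 hmo h2).2 h3⟩
  rw [hS]
  have himg : posM b d '' {n : Fin 3 →₀ ℕ | n.degree = d ∧ OutsideT (ab b) n ∧
      posM b d n < posM b d m} = ↑(Finset.range (posM b d m)) := by
    ext r
    simp only [Set.mem_image, Set.mem_ofPred_eq, Finset.coe_range, Set.mem_Iio]
    constructor
    · rintro ⟨n, ⟨_, _, h3⟩, rfl⟩
      exact h3
    · intro hr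
      obtain ⟨n, h1, h2, h3⟩ := pos_surj hd hdd.symm hmo hr
      exact ⟨n, ⟨h1, h2, by omega⟩, h3⟩
  have hinj : Set.InjOn (posM b d) {n : Fin 3 →₀ ℕ | n.degree = d ∧ OutsideT (ab b) n ∧
      posM b d n < posM b d m} := by
    rintro x ⟨h1, h2, _⟩ y ⟨h3, h4, _⟩ e
    exact pos_inj hd h1 h3 h2 h4 e
  rw [← Set.InjOn.ncard_image hinj, himg, Set.ncard_coe_finset, Finset.card_range]
  rfl

end formula

end Vale.Agent.Lib.P200
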