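import Vale.Agent.Lib.P200.BRank

/-!
The duality of ranks and the counting of initial segments.
-/

namespace Vale.Agent.Lib.P200
open MvPolynomial Module

variable {b : ℕ}

/-- The complementary monomial. -/
noncomputable def compM (b : ℕ) (m : Fin 3 →₀ ℕ) : Fin 3 →₀ ℕ :=
  mon3 (2 - m 0) (b - 1 - m 1) (b - 1 - m 2)

@[simp] theorem compM_0 (m : Fin 3 →₀ ℕ) : compM b m 0 = 2 - m 0 := by simp [compM]
@[simp] theorem compM_1 (m : Fin 3 →₀ ℕ) : compM b m 1 = b - 1 - m 1 := by simp [compM]
@[simp] theorem compM_2 (m : Fin 3 →₀ ℕ) : compM b m 2 = b - 1 - m 2 := by simp [compM]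

theorem compM_comp {m : Fin 3 →₀ ℕ} (hmo : OutsideT (ab b) m) : compM b (compM b m) = m := by
  obtain ⟨h0, h1, h2⟩ := outside_ab.1 hmo
  apply mon3_ext <;> simp <;> omega

theorem outside_comp {m : Fin 3 →₀ ℕ} (hmo : OutsideT (ab b) m) : OutsideT (ab b) (compM b m) := by
  obtain ⟨h0, h1, h2⟩ := outside_ab.1 hmo
  refine outside_ab.2 ?_
  simp only [compM_0, compM_1, compM_2]
  omega

theorem degree_comp {m : Fin 3 →₀ ℕ} (hmo : OutsideT (ab b) m) :
    (compM b m).degree + m.degree = 2 * b := by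
  obtain ⟨h0, h1, h2⟩ := outside_ab.1 hmo
  rw [degree_sum, degree_sum]
  simp only [compM_0, compM_1, compM_2]
  omega

theorem lex_comp {m n : Fin 3 →₀ ℕ} (hm : OutsideT (ab b) m) (hn : OutsideT (ab b) n)
    (hd : m.degree = n.degree) : toLex (compM b n) < toLex (compM b m) ↔ toLex m < toLex n := by
  obtain ⟨h0, h1, h2⟩ := outside_ab.1 hm
  obtain ⟨h3, h4, h5⟩ := outside_ab.1 hn
  rw [degree_sum, degree_sum] at hd
  rw [toLex_lt_iff3, toLex_lt_iff3]
  simp only [compM_0, compM_1, compM_2]
  omega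

/-- The monomials outside of a given degree. -/
def segS (b d : ℕ) : Set (Fin 3 →₀ ℕ) := {n | n.degree = d ∧ OutsideT (ab b) n}

theorem segS_finite (d : ℕ) : (segS b d).Finite :=
  (finite_degree_set d).subset fun _ h => h.1

theorem cnt_eq_segS (d : ℕ) : cntT (ab b) d = (segS b d).ncard := rfl

/-- The symmetry of the counts. -/
theorem cnt_dual {d e : ℕ} (hde : d + e = 2 * b) : cntT (ab b) e = cntT (ab b) d := by
  rw [cnt_eq_segS, cnt_eq_segS]
  have hinj : Set.InjOn (compM b) (segS b d) := by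
    rintro x ⟨_, hx⟩ y ⟨_, hy⟩ e
    rw [← compM_comp hx, ← compM_comp hy, e]
  have himg : compM b '' segS b d = segS b e := by
    ext n
    constructor
    · rintro ⟨x, ⟨hx1, hx2⟩, rfl⟩
      have := degree_comp hx2
      exact ⟨by omega, outside_comp hx2⟩
    · rintro ⟨hn1, hn2⟩
      have := degree_comp hn2
      exact ⟨compM b n, ⟨by omega, outside_comp hn2⟩, compM_comp hn2⟩
  rw [← himg, Set.InjOn.ncard_image hinj]

/-- The decomposition of the set of outside monomials around one of them. -/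
theorem rank_dual {m : Fin 3 →₀ ℕ} (hmo : OutsideT (ab b) m) :
    lexRankT (ab b) (compM b m) + lexRankT (ab b) m + 1 = cntT (ab b) m.degree := by
  classical
  set d := m.degree with hd
  set G : Set (Fin 3 →₀ ℕ) := {n | n.degree = m.degree ∧ OutsideT (ab b) n ∧ toLex m < toLex n} with hG
  set Ls : Set (Fin 3 →₀ ℕ) := {n | n.degree = d ∧ OutsideT (ab b) n ∧ toLex n < toLex m} with hLs
  have hrank : lexRankT (ab b) m = G.ncard := rfl
  have hdc := degree_comp hmo
  have hrank2 : lexRankT (ab b) (compM b m) = Ls.ncard := by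
    have himg : compM b '' Ls = {n | n.degree = (compM b m).degree ∧ OutsideT (ab b) n ∧
        toLex (compM b m) < toLex n} := by
      ext n
      constructor
      · rintro ⟨x, ⟨hx1, hx2, hx3⟩, rfl⟩
        have := degree_comp hx2
        refine ⟨by omega, outside_comp hx2, ?_⟩
        exact (lex_comp hx2 hmo hx1).2 hx3
      · rintro ⟨hn1, hn2, hn3⟩
        have h3 := degree_comp hn2
        refine ⟨compM b n, ⟨by omega, outside_comp hn2, ?_⟩, compM_comp hn2⟩
        have h4 := (lex_comp (b := b) (m := compM b n) (n := m) (outside_comp hn2) hmo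
          (by omega))
        rw [compM_comp hn2] at h4
        exact h4.1 hn3
    unfold lexRankT
    rw [← himg, Set.InjOn.ncard_image]
    rintro x ⟨_, hx, _⟩ y ⟨_, hy, _⟩ e
    rw [← compM_comp hx, ← compM_comp hy, e]
  have hS : segS b d = G ∪ (Ls ∪ {m}) := by
    ext n
    simp only [segS, hG, hLs, Set.mem_union, Set.mem_ofPred_eq, Set.mem_singleton_iff]
    constructor
    · rintro ⟨h1, h2⟩
      rcases lt_trichotomy (toLex m) (toLex n) with h | h | h
      · exact Or.inl ⟨h1, h2, h⟩
      · exact Or.inr (Or.inr (toLex.injective h).symm)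
      · exact Or.inr (Or.inl ⟨h1, h2, h⟩)
    · rintro (⟨h1, h2, _⟩ | ⟨h1, h2, _⟩ | rfl)
      · exact ⟨h1, h2⟩
      · exact ⟨h1, h2⟩
      · exact ⟨rfl, hmo⟩
  have hfin := segS_finite (b := b) d
  have hGfin : G.Finite := hfin.subset (by rw [hS]; exact Set.subset_union_left)
  have hLfin : Ls.Finite := hfin.subset (by
    rw [hS]; exact Set.subset_union_of_subset_right Set.subset_union_left _)
  have hd1 : Disjoint Ls {m} := by
    rw [Set.disjoint_singleton_right]
    rintro ⟨_, _, h⟩
    exact lt_irrefl _ h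
  have hd2 : Disjoint G (Ls ∪ {m}) := by
    rw [Set.disjoint_left]
    rintro x ⟨_, _, h⟩ (⟨_, _, h'⟩ | rfl)
    · exact lt_asymm h h'
    · exact lt_irrefl _ h
  rw [cnt_eq_segS, hS, Set.ncard_union_eq hd2 hGfin (hLfin.union (Set.finite_singleton m)),
    Set.ncard_union_eq hd1 hLfin (Set.finite_singleton m), Set.ncard_singleton, hrank, hrank2]
  omega

/-- The initial segments have the expected size. -/
theorem ncard_segment {d q : ℕ} (hq : q ≤ cntT (ab b) d) :
    ({n : Fin 3 →₀ ℕ | n.degree = d ∧ OutsideT (ab b) n ∧ lexRankT (ab b) n < q}).ncard = q := by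
  classical
  have hfin := segS_finite (b := b) d
  have hrinj : Set.InjOn (lexRankT (ab b)) (segS b d) := by
    -- rank is strictly decreasing for the lexicographic order
    have key : ∀ x y : Fin 3 →₀ ℕ, x ∈ segS b d → y ∈ segS b d → toLex x < toLex y →
        lexRankT (ab b) y < lexRankT (ab b) x := by
      rintro x y ⟨hx1, hx2⟩ ⟨hy1, hy2⟩ hlt
      unfold lexRankT
      rw [hx1, hy1]
      refine Set.ncard_lt_ncard ?_ (hfin.subset fun n hn => ⟨hn.1, hn.2.1⟩)
      refine ⟨fun n hn => ⟨hn.1, hn.2.1, lt_trans hlt hn.2.2⟩, fun hsub => ?_⟩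
      have := hsub (show y ∈ {n | n.degree = d ∧ OutsideT (ab b) n ∧ toLex x < toLex n} from
        ⟨hy1, hy2, hlt⟩)
      exact lt_irrefl _ this.2.2
    intro x hx y hy e
    rcases lt_trichotomy (toLex x) (toLex y) with h | h | h
    · have := key x y hx hy h
      omega
    · exact toLex.injective h
    · have := key y x hy hx h
      omega
  have hrbound : ∀ x ∈ segS b d, lexRankT (ab b) x < cntT (ab b) d := by
    rintro x ⟨hx1, hx2⟩
    have := rank_dual hx2
    rw [hx1] at this
    omega
  -- the image is everything below the count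
  have himg : lexRankT (ab b) '' segS b d = ↑(Finset.range (cntT (ab b) d)) := by
    apply Set.eq_of_subset_of_ncard_le
    · rintro _ ⟨x, hx, rfl⟩
      simpa using hrbound x hx
    · rw [Set.ncard_coe_finset, Finset.card_range, Set.InjOn.ncard_image hrinj, cnt_eq_segS]
    · exact (Finset.range _).finite_toSet
  have hsub : {n : Fin 3 →₀ ℕ | n.degree = d ∧ OutsideT (ab b) n ∧ lexRankT (ab b) n < q} ⊆ segS b d :=
    fun n hn => ⟨hn.1, hn.2.1⟩
  have himg2 : lexRankT (ab b) '' {n : Fin 3 →₀ ℕ | n.degree = d ∧ OutsideT (ab b) n ∧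
      lexRankT (ab b) n < q} = ↑(Finset.range q) := by
    ext r
    simp only [Set.mem_image, Set.mem_ofPred_eq, Finset.coe_range, Set.mem_Iio]
    constructor
    · rintro ⟨n, ⟨_, _, h3⟩, rfl⟩
      exact h3
    · intro hr
      have : r ∈ lexRankT (ab b) '' segS b d := by
        rw [himg]
        simp only [Finset.coe_range, Set.mem_Iio]
        omega
      obtain ⟨n, hn, rfl⟩ := this
      exact ⟨n, ⟨hn.1, hn.2, hr⟩, rfl⟩
  rw [← Set.InjOn.ncard_image (hrinj.mono hsub), himg2, Set.ncard_coe_finset, Finset.card_range]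

end Vale.Agent.Lib.P200
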