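import Vale.Agent.Lib.P200.BBase

/-!
The growth table for regular sequences of degrees `3, b, b`.
-/

namespace Vale.Agent.Lib.P200
open MvPolynomial Module

variable {K : Type*} [Field K]

/-- The degrees `3, b, b`. -/
abbrev ab (b : ℕ) : Fin 3 → ℕ := ![3, b, b]

namespace FormSeq

variable {b : ℕ} {f : Fin 3 → Poly K} (h : FormSeq (ab b) f)
include h

theorem hom0 : (f 0).IsHomogeneous 3 := h.hom 0
theorem hom1 : (f 1).IsHomogeneous b := h.hom 1
theorem hom2 : (f 2).IsHomogeneous b := h.hom 2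

theorem FF_eq_F0 {d : ℕ} (hd : d < b) : FF f d = F0 (f 0) d := by
  rw [h.FF_of_lt hd, h.J2_of_lt hd]
  unfold J1 F0 Fo
  rw [bot_sup_eq]

theorem FF_eq_Fb : FF f b = Fb f b := by
  apply le_antisymm
  · intro x hx
    obtain ⟨h1, h2⟩ := mem_FF.1 hx
    obtain ⟨p, hp, rfl⟩ := h.rep h2 h1
    have hp1 : (p 1).IsHomogeneous 0 := by
      have := (hp 1).1 (le_refl _)
      simpa using this
    have hp2 : (p 2).IsHomogeneous 0 := by
      have := (hp 2).1 (le_refl _)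
      simpa using this
    have hW : p 1 * f 1 + p 2 * f 2 ∈ Submodule.span K {f 1, f 2} := by
      refine Submodule.add_mem _ ?_ ?_
      · rw [const_of_homog_zero hp1, ← MvPolynomial.smul_eq_C_mul]
        exact Submodule.smul_mem _ _ (Submodule.subset_span (by simp))
      · rw [const_of_homog_zero hp2, ← MvPolynomial.smul_eq_C_mul]
        exact Submodule.smul_mem _ _ (Submodule.subset_span (by simp))
    have hWH : (p 1 * f 1 + p 2 * f 2).IsHomogeneous b := by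
      have h3 : (p 1 * f 1).IsHomogeneous (0 + b) := hp1.mul h.hom1
      have h4 : (p 2 * f 2).IsHomogeneous (0 + b) := hp2.mul h.hom2
      rw [zero_add] at h3 h4
      exact h3.add h4
    have h0H : (p 0 * f 0).IsHomogeneous b := by
      have e : p 0 * f 0 = (p 0 * f 0 + p 1 * f 1 + p 2 * f 2) - (p 1 * f 1 + p 2 * f 2) := by ring
      rw [e]
      exact h2.sub hWH
    have e : p 0 * f 0 + p 1 * f 1 + p 2 * f 2 = p 0 * f 0 + (p 1 * f 1 + p 2 * f 2) := by ring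
    rw [e]
    exact Submodule.add_mem_sup (mem_F0.2 ⟨mem_Fo.2 ⟨p 0, rfl⟩, h0H⟩) hW
  · refine sup_le ?_ ?_
    · intro x hx
      obtain ⟨h1, h2⟩ := mem_F0.1 hx
      obtain ⟨c, rfl⟩ := mem_Fo.1 h1
      exact mem_FF.2 ⟨Ideal.mul_mem_left _ _ (Ideal.subset_span ⟨0, rfl⟩), h2⟩
    · rw [Submodule.span_le]
      rintro _ (rfl | rfl)
      · exact mem_FF.2 ⟨Ideal.subset_span ⟨1, rfl⟩, h.hom1⟩
      · exact mem_FF.2 ⟨Ideal.subset_span ⟨2, rfl⟩, h.hom2⟩

theorem finrank_Fb (hb : 3 ≤ b) : finrank K (Fb f b) = finrank K (F0 (f 0) b) + 2 := by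
  rw [← h.FF_eq_Fb, h.finrank_FF]
  have e1 : finrank K (F0 (f 0) b) = phi1 (ab b) b := by
    rw [← h.finrank_J1]
    unfold J1 F0 Fo
    rw [bot_sup_eq]
  rw [e1]
  have h0 : ab b 0 = 3 := rfl
  have h1 : ab b 1 = b := rfl
  have h2 : ab b 2 = b := rfl
  have hT : T 0 = 1 := by decide
  unfold phi3 phi2
  simp only [h0, h1, h2, phi1, le_refl, if_true, Nat.sub_self, hT]
  rw [if_neg (by omega : ¬ 3 ≤ 0), if_neg (by omega : ¬ b ≤ 0)]

theorem growth_seq_low (hb : 3 ≤ b) {d : ℕ} (hd : 1 ≤ d) (hdb : d + 1 < b)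
    {X Y : Submodule K (Poly K)} (h1 : FF f d ≤ X) (h2 : X ≤ HS K d) (h3 : HS K 1 * X ≤ Y)
    (h4 : FF f (d + 1) ≤ Y) (h5 : Y ≤ HS K (d + 1)) :
    finrank K (FF f (d + 1)) + Ed d (finrank K X - finrank K (FF f d)) ≤ finrank K Y := by
  rw [h.FF_eq_F0 (by omega : d + 1 < b)] at h4 ⊢
  rw [h.FF_eq_F0 (by omega : d < b)] at h1 ⊢
  exact growth_any_low h.hom0 h.ne0 hd h1 h2 h3 h4 h5

theorem growth_seq_top (hb : 3 ≤ b) {d : ℕ} (hdb : d + 1 = b)
    {X Y : Submodule K (Poly K)} (h1 : FF f d ≤ X) (h2 : X ≤ HS K d) (h3 : HS K 1 * X ≤ Y)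
    (h4 : FF f (d + 1) ≤ Y) (h5 : Y ≤ HS K (d + 1)) :
    finrank K (FF f (d + 1)) + Eb b (finrank K X - finrank K (FF f d)) ≤ finrank K Y := by
  subst hdb
  rw [h.FF_eq_Fb] at h4 ⊢
  rw [h.FF_eq_F0 (by omega : d < d + 1)] at h1 ⊢
  exact growth_any_top h.hom0 h.ne0 hb h.hom1 h.hom2 h.mprim (h.finrank_Fb hb) rfl h1 h2 h3 h4 h5

end FormSeq

/-- Growth from degree zero. -/
theorem growth_zero {X Y : Submodule K (Poly K)} (h2 : X ≤ HS K 0) (h3 : HS K 1 * X ≤ Y)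
    (h5 : Y ≤ HS K 1) (hu : 1 ≤ finrank K X) : 3 ≤ finrank K Y := by
  have hfin := finite_of_le_HS h2
  have hfinY := finite_of_le_HS h5
  have h1 : finrank K (HS K 0) = 1 := by rw [finrank_HS]; decide
  have hEq : X = HS K 0 := Submodule.eq_of_le_of_finrank_le h2 (by omega)
  have hle : (HS K 1 : Submodule K (Poly K)) ≤ Y := by
    rw [hEq, HS_mul] at h3
    exact h3
  have := Submodule.finrank_mono hle
  rw [finrank_HS] at this
  have h3 : T 1 = 3 := by decide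
  omega

end Vale.Agent.Lib.P200
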