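import Vale.Agent.Lib.P200.BGen

/-!
Slope bounds for the ideal generated by a subspace of reduced forms modulo a cubic.
-/

namespace Vale.Agent.Lib.P200
open MvPolynomial Module

variable {K : Type*} [Field K]

/-- The ideal generated by `V` and the cubic. -/
noncomputable def Idl (f0 : Poly K) (V : Submodule K (Poly K)) : Ideal (Poly K) :=
  Ideal.span (V : Set (Poly K)) ⊔ Fo f0

theorem subset_Idl {f0 : Poly K} {V : Submodule K (Poly K)} {v : Poly K} (hv : v ∈ V) :
    v ∈ Idl f0 V :=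
  Ideal.mem_sup_left (Ideal.subset_span hv)

theorem f0_mem_Idl {f0 : Poly K} {V : Submodule K (Poly K)} : f0 ∈ Idl f0 V :=
  Ideal.mem_sup_right (Ideal.mem_span_singleton_self f0)

theorem Idl_le {f0 : Poly K} {V : Submodule K (Poly K)} {J : Ideal (Poly K)} (h1 : ∀ v ∈ V, v ∈ J)
    (h2 : f0 ∈ J) : Idl f0 V ≤ J := by
  refine sup_le (Ideal.span_le.2 fun v hv => h1 v hv) ?_
  unfold Fo
  rw [Ideal.span_le, Set.singleton_subset_iff]
  exact h2

/-- The multiples of `V` by forms of degree `e`, modulo the cubic, contain the graded piece. -/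
theorem piece_Idl_le {f0 : Poly K} (hf : NormCubic f0) {V : Submodule K (Poly K)} {d : ℕ}
    (hV : V ≤ HS K d) (e : ℕ) :
    pieceT (Idl f0 V) (e + d) ≤ HS K e * V ⊔ F0 f0 (e + d) := by
  intro x hx
  obtain ⟨h1, h2⟩ := mem_pieceT.1 hx
  obtain ⟨j, hj, w, hw, rfl⟩ := Submodule.mem_sup.1 h1
  have key : ∀ y ∈ Ideal.span (V : Set (Poly K)), ∀ c : Poly K,
      homogeneousComponent (e + d) (c * y) ∈ HS K e * V := by
    intro y hy
    induction hy using Submodule.span_induction with
    | mem v hv =>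
      intro c
      rw [comp_mul_add (hV hv)]
      exact Submodule.mul_mem_mul (homogeneousComponent_isHomogeneous _ _) hv
    | zero => simp
    | add a b _ _ ha hb =>
      intro c
      rw [mul_add, map_add]
      exact Submodule.add_mem _ (ha c) (hb c)
    | smul r a _ ha =>
      intro c
      rw [smul_eq_mul, ← mul_assoc]
      exact ha (c * r)
  have e1 := homogeneousComponent_eq_self h2
  rw [map_add] at e1
  rw [← e1]
  refine Submodule.add_mem_sup ?_ ?_
  · have := key j hj 1
    rwa [one_mul] at this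
  · obtain ⟨c, rfl⟩ := mem_Fo.1 hw
    rw [comp_mul_hzc hf.hom]
    exact mem_F0.2 ⟨Ideal.mul_mem_left _ _ (Ideal.mem_span_singleton_self _), by
      have h3 := hz_hzc c (e + d) 3
      by_cases h4 : 3 ≤ e + d
      · have := (h3.1 h4).mul hf.hom
        rwa [Nat.sub_add_cancel h4] at this
      · rw [h3.2 (by omega), zero_mul]
        exact isHomogeneous_zero _ _ _⟩

/-! ### Growth of the modules generated by `V` over the pencil -/

/-- The module generated by `V` over the pencil, in degree `e` over that of `V`. -/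
noncomputable def NN (V : Submodule K (Poly K)) (e : ℕ) : Submodule K (Poly K) := (Pp K) ^ e * V

theorem NN_zero (V : Submodule K (Poly K)) : NN V 0 = V := by simp [NN]

theorem NN_succ (V : Submodule K (Poly K)) (e : ℕ) : NN V (e + 1) = Pp K * NN V e := by
  simp only [NN]
  rw [pow_succ', mul_assoc]

theorem NN_le_HS {V : Submodule K (Poly K)} {d : ℕ} (hV : V ≤ HS K d) (e : ℕ) :
    NN V e ≤ HS K (e + d) :=
  mul_le_HS (Pp_pow_le_HS e) hV

theorem finrank_NN_succ_succ {V : Submodule K (Poly K)} {d : ℕ} (hV : V ≤ HS K d) (e : ℕ) :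
    finrank K (NN V (e + 2)) + finrank K (NN V e) ≤ 2 * finrank K (NN V (e + 1)) := by
  have hN := NN_le_HS hV (e + 1)
  have h1 := finrank_Pp_mul hN
  rw [← NN_succ] at h1
  have hfinC := finite_colonP hN
  have h2 : finrank K (NN V e) ≤ finrank K (colonP (NN V (e + 1))) := by
    apply Submodule.finrank_mono
    rw [NN_succ]
    exact le_colon_Pp_mul _
  generalize finrank K (NN V (e + 1 + 1)) = A at *
  generalize finrank K (NN V e) = B at *
  generalize finrank K (NN V (e + 1)) = C at *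
  generalize finrank K ↥(colonP (NN V (e + 1))) = D at *
  omega

/-- The slope of the module is at most its initial slope. -/
theorem finrank_NN_le {V : Submodule K (Poly K)} {d ρ : ℕ} (hV : V ≤ HS K d)
    (hρ : finrank K (Pp K * V : Submodule K (Poly K)) ≤ finrank K V + ρ) (e : ℕ) :
    finrank K (NN V e) ≤ finrank K V + e * ρ ∧
      finrank K (NN V (e + 1)) ≤ finrank K (NN V e) + ρ := by
  have h0 : finrank K (NN V 1) ≤ finrank K (NN V 0) + ρ := by
    rw [NN_succ, NN_zero]
    exact hρ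
  induction e with
  | zero =>
    refine ⟨?_, h0⟩
    rw [NN_zero]
    omega
  | succ e ih =>
    obtain ⟨i1, i2⟩ := ih
    have h3 := finrank_NN_succ_succ hV e
    refine ⟨?_, ?_⟩
    · rw [add_mul, one_mul]
      omega
    · rw [show e + 1 + 1 = e + 2 by ring]
      omega

/-! ### The closure under the variable `x₀` -/

/-- `Pp^t V` plus the ideal of the cubic. -/
noncomputable def BB (f0 : Poly K) (V : Submodule K (Poly K)) (t : ℕ) : Submodule K (Poly K) :=
  NN V t ⊔ (Fo f0).restrictScalars K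

theorem Fo_le_BB (f0 : Poly K) (V : Submodule K (Poly K)) (t : ℕ) :
    (Fo f0).restrictScalars K ≤ BB f0 V t := le_sup_right

theorem mem_BB_of_Fo {f0 : Poly K} {V : Submodule K (Poly K)} {t : ℕ} {x : Poly K}
    (h : x ∈ Fo f0) : x ∈ BB f0 V t := Fo_le_BB f0 V t h

theorem mul_mem_BB {f0 : Poly K} {V : Submodule K (Poly K)} {s t : ℕ} {q w : Poly K}
    (hq : q ∈ (Pp K) ^ s) (hw : w ∈ BB f0 V t) : q * w ∈ BB f0 V (s + t) := by
  obtain ⟨u, hu, v, hv, rfl⟩ := Submodule.mem_sup.1 hw
  rw [mul_add]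
  refine Submodule.add_mem _ (Submodule.mem_sup_left ?_) (mem_BB_of_Fo (Ideal.mul_mem_left _ _ hv))
  simp only [NN] at hu ⊢
  rw [pow_add, mul_assoc]
  exact Submodule.mul_mem_mul hq hu

/-- Closure of `V` gives closure of its module. -/
theorem close_NN {f0 : Poly K} {V : Submodule K (Poly K)} {a : Poly K} {n : ℕ}
    (hA : ∀ v ∈ V, a * (X 0 * v) ∈ BB f0 V (n + 1)) (t : ℕ) :
    ∀ w ∈ BB f0 V t, a * (X 0 * w) ∈ BB f0 V (t + (n + 1)) := by
  intro w hw
  obtain ⟨u, hu, v, hv, rfl⟩ := Submodule.mem_sup.1 hw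
  have hv' : v ∈ Fo f0 := hv
  rw [mul_add, mul_add]
  refine Submodule.add_mem _ ?_ (mem_BB_of_Fo (Ideal.mul_mem_left _ _
    (Ideal.mul_mem_left _ _ hv')))
  simp only [NN] at hu
  clear hw
  induction hu using Submodule.mul_induction_on' with
  | mem_mul_mem q hq v hv =>
    have := mul_mem_BB hq (hA v hv)
    rwa [show q * (a * (X 0 * v)) = a * (X 0 * (q * v)) by ring] at this
  | add x _ y _ hx hy =>
    rw [mul_add, mul_add]
    exact Submodule.add_mem _ hx hy

/-- Multiples of `V` by reduced forms land, after multiplying by `a²`, in the module. -/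
theorem a_sq_mem {f0 : Poly K} {V : Submodule K (Poly K)} {a : Poly K} {n : ℕ}
    (ha : a ∈ (Pp K) ^ n) (hA : ∀ v ∈ V, a * (X 0 * v) ∈ BB f0 V (n + 1)) {e : ℕ} {m v : Poly K}
    (hm : m ∈ Nt K e) (hv : v ∈ V) : a ^ 2 * (m * v) ∈ BB f0 V (e + 2 * n) := by
  rw [Nt, restrictSupport_eq_span] at hm
  induction hm using Submodule.span_induction with
  | mem x hx =>
    obtain ⟨t, ⟨hd, ht⟩, rfl⟩ := hx
    -- the monomial is `x₀^i` times a form in the pencil
    have hmq : (monomial t (1 : K) : Poly K) = X 0 ^ (t 0) * (X 1 ^ (t 1) * X 2 ^ (t 2)) := by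
      have htt : t = Finsupp.single 0 (t 0) + (Finsupp.single 1 (t 1) + Finsupp.single 2 (t 2)) := by
        apply mon3_ext <;> simp
      rw [X_pow_eq_monomial, X_pow_eq_monomial, X_pow_eq_monomial, monomial_mul, monomial_mul,
        ← htt]
      simp
    have hq : (X 1 ^ (t 1) * X 2 ^ (t 2) : Poly K) ∈ (Pp K) ^ (t 1 + t 2) := by
      rw [pow_add]
      refine Submodule.mul_mem_mul (Submodule.pow_mem_pow _ ?_ _) (Submodule.pow_mem_pow _ ?_ _)
      · exact Submodule.subset_span (by simp)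
      · exact Submodule.subset_span (by simp)
    set q : Poly K := X 1 ^ (t 1) * X 2 ^ (t 2) with hqdef
    have hdeg : t 0 + (t 1 + t 2) = e := by
      rw [← hd, degree_sum]
      ring
    have haa : a * a ∈ (Pp K) ^ (n + n) := by
      rw [pow_add]
      exact Submodule.mul_mem_mul ha ha
    have hvB : v ∈ NN V 0 := by rwa [NN_zero]
    show a ^ 2 * (monomial t (1 : K) * v) ∈ _
    rw [hmq]
    have hi : t 0 = 0 ∨ t 0 = 1 ∨ t 0 = 2 := by omega
    rcases hi with h0 | h0 | h0
    · rw [h0] at hdeg ⊢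
      have h1 : a * a * q * v ∈ BB f0 V (n + n + (t 1 + t 2) + 0) := by
        have : a * a * q ∈ (Pp K) ^ (n + n + (t 1 + t 2)) := by
          rw [pow_add _ (n + n)]
          exact Submodule.mul_mem_mul haa hq
        exact mul_mem_BB this (Submodule.mem_sup_left hvB)
      rw [show n + n + (t 1 + t 2) + 0 = e + 2 * n by omega] at h1
      convert h1 using 1
      ring
    · rw [h0] at hdeg ⊢
      have h1 : q * v ∈ BB f0 V (t 1 + t 2 + 0) := mul_mem_BB hq (Submodule.mem_sup_left hvB)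
      have h2 := close_NN hA _ _ h1
      have h3 := mul_mem_BB ha h2
      rw [show n + (t 1 + t 2 + 0 + (n + 1)) = e + 2 * n by omega] at h3
      convert h3 using 1
      ring
    · rw [h0] at hdeg ⊢
      have h1 : q * v ∈ BB f0 V (t 1 + t 2 + 0) := mul_mem_BB hq (Submodule.mem_sup_left hvB)
      have h2 := close_NN hA _ _ h1
      have h3 := close_NN hA _ _ h2
      rw [show t 1 + t 2 + 0 + (n + 1) + (n + 1) = e + 2 * n by omega] at h3
      convert h3 using 1
      ring
  | zero => simp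
  | add x y _ _ hx hy =>
    rw [add_mul, mul_add]
    exact Submodule.add_mem _ hx hy
  | smul c x _ hx =>
    have := Submodule.smul_mem _ c hx
    convert this using 1
    simp only [MvPolynomial.smul_eq_C_mul]
    ring

theorem mem_F0_of_homog {f0 : Poly K} {x : Poly K} {j : ℕ} (h1 : x ∈ Fo f0)
    (h2 : x.IsHomogeneous j) : x ∈ F0 f0 j := mem_F0.2 ⟨h1, h2⟩

theorem BB_inf_HS {f0 : Poly K} {V : Submodule K (Poly K)} {d t j : ℕ} (hV : V ≤ HS K d)
    (hj : j = t + d) {y : Poly K} (hy : y ∈ BB f0 V t) (hyh : y ∈ HS K j) :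
    y ∈ NN V t ⊔ F0 f0 j := by
  obtain ⟨u, hu, w, hw, rfl⟩ := Submodule.mem_sup.1 hy
  have hu' : u ∈ HS K j := by
    rw [hj]
    exact NN_le_HS hV t hu
  have hw' : w ∈ HS K j := by
    have : w = (u + w) - u := by ring
    rw [this]
    exact Submodule.sub_mem _ hyh hu'
  exact Submodule.add_mem_sup hu (mem_F0.2 ⟨hw, hw'⟩)

/-- The main slope bound. -/
theorem slope_bound {f0 : Poly K} (hf : NormCubic f0) {V : Submodule K (Poly K)} {d n ρ : ℕ}
    (hVN : V ≤ Nt K d) {a : Poly K} (ha : a ∈ (Pp K) ^ n) (ha0 : a ≠ 0)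
    (hA : ∀ v ∈ V, a * (X 0 * v) ∈ BB f0 V (n + 1))
    (hρ : finrank K (Pp K * V : Submodule K (Poly K)) ≤ finrank K V + ρ) (e : ℕ) :
    finrank K (HS K e * V ⊔ F0 f0 (e + d) : Submodule K (Poly K)) ≤
      finrank K V + (e + 2 * n) * ρ + finrank K (F0 f0 (e + d)) := by
  have hV : V ≤ HS K d := le_trans hVN (Nt_le_HS d)
  set U : Submodule K (Poly K) := HS K e * V ⊔ F0 f0 (e + d) with hU
  set j := e + 2 * n + d with hj
  set W : Submodule K (Poly K) := NN V (e + 2 * n) ⊔ F0 f0 j with hW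
  have haa : a ^ 2 ∈ (Pp K) ^ (n + n) := by
    rw [pow_two, pow_add]
    exact Submodule.mul_mem_mul ha ha
  have haa0 : a ^ 2 ≠ 0 := pow_ne_zero _ ha0
  have hah : (a ^ 2).IsHomogeneous (n + n) := Pp_pow_le_HS _ haa
  have hUH : U ≤ HS K (e + d) :=
    sup_le (mul_le_HS le_rfl hV) (F0_le_HS _ _)
  have hWH : W ≤ HS K j := sup_le (NN_le_HS hV _) (F0_le_HS _ _)
  have hfinU := finite_of_le_HS hUH
  have hfinW := finite_of_le_HS hWH
  have hfinU0 := finite_of_le_HS (F0_le_HS f0 (e + d))
  have hfinW0 := finite_of_le_HS (F0_le_HS f0 j)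
  -- the image lands in `W`
  have hmap : ∀ x ∈ U, a ^ 2 * x ∈ W := by
    intro x hx
    have hxH : x ∈ HS K (e + d) := hUH hx
    have hyH : a ^ 2 * x ∈ HS K j := by
      have := hah.mul hxH
      rwa [show n + n + (e + d) = j by omega] at this
    refine BB_inf_HS hV (by omega) ?_ hyH
    obtain ⟨u, hu, w, hw, rfl⟩ := Submodule.mem_sup.1 hx
    rw [mul_add]
    refine Submodule.add_mem _ ?_ (mem_BB_of_Fo (Ideal.mul_mem_left _ _ (mem_F0.1 hw).1))
    clear hx hxH hyH
    induction hu using Submodule.mul_induction_on' with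
    | mem_mul_mem m hm v hv =>
      rw [← hf.Nt_sup_F0 e, Submodule.mem_sup] at hm
      obtain ⟨m1, hm1, m2, hm2, rfl⟩ := hm
      rw [add_mul, mul_add]
      refine Submodule.add_mem _ (a_sq_mem ha hA hm1 hv) (mem_BB_of_Fo ?_)
      exact Ideal.mul_mem_left _ _ (Ideal.mul_mem_right _ _ (mem_F0.1 hm2).1)
    | add x _ y _ hx hy =>
      rw [mul_add]
      exact Submodule.add_mem _ hx hy
  set L : Poly K →ₗ[K] Poly K := LinearMap.mulLeft K (a ^ 2) with hL
  have hLinj : Function.Injective L := mulLeft_inj haa0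
  have e1 : finrank K (U.map L) = finrank K U :=
    (Submodule.equivMapOfInjective _ hLinj _).finrank_eq.symm
  have e2 : finrank K ((F0 f0 (e + d)).map L) = finrank K (F0 f0 (e + d)) :=
    (Submodule.equivMapOfInjective _ hLinj _).finrank_eq.symm
  have hfinLU : Module.Finite K (U.map L) := Module.Finite.map _ _
  have hfinLU0 : Module.Finite K ((F0 f0 (e + d)).map L) := Module.Finite.map _ _
  have hle1 : U.map L ⊔ F0 f0 j ≤ W := by
    refine sup_le ?_ le_sup_right
    rintro _ ⟨x, hx, rfl⟩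
    exact hmap x hx
  have hle2 : U.map L ⊓ F0 f0 j ≤ (F0 f0 (e + d)).map L := by
    rintro _ ⟨⟨x, hx, rfl⟩, h2⟩
    refine ⟨x, mem_F0.2 ⟨?_, hUH hx⟩, rfl⟩
    exact hf.torsion_free haa haa0 (hUH hx) (mem_F0.1 h2).1
  have e3 : finrank K (U.map L ⊔ F0 f0 j : Submodule K (Poly K)) +
      finrank K (U.map L ⊓ F0 f0 j : Submodule K (Poly K)) =
      finrank K (U.map L) + finrank K (F0 f0 j) :=
    Submodule.finrank_sup_add_finrank_inf_eq _ _
  have e4 : finrank K (U.map L ⊔ F0 f0 j : Submodule K (Poly K)) ≤ finrank K W :=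
    Submodule.finrank_mono hle1
  have e5 : finrank K (U.map L ⊓ F0 f0 j : Submodule K (Poly K)) ≤
      finrank K ((F0 f0 (e + d)).map L) := Submodule.finrank_mono hle2
  have e6 : finrank K W ≤ finrank K (NN V (e + 2 * n)) + finrank K (F0 f0 j) := by
    have hfinN := finite_of_le_HS (NN_le_HS hV (e + 2 * n))
    exact Submodule.finrank_add_le_finrank_add_finrank _ _
  have e7 := (finrank_NN_le hV hρ (e + 2 * n)).1
  generalize finrank K (U.map L ⊔ F0 f0 j : Submodule K (Poly K)) = A1 at *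
  generalize finrank K (U.map L ⊓ F0 f0 j : Submodule K (Poly K)) = A2 at *
  generalize finrank K (U.map L) = A3 at *
  generalize finrank K (F0 f0 j) = A4 at *
  generalize finrank K ((F0 f0 (e + d)).map L) = A5 at *
  generalize finrank K ↥W = A6 at *
  generalize finrank K (NN V (e + 2 * n)) = A7 at *
  generalize finrank K ↥U = A8 at *
  generalize finrank K (F0 f0 (e + d)) = A9 at *
  generalize finrank K ↥V = A10 at *
  generalize (e + 2 * n) * ρ = A11 at *
  omega

/-- Route one: a closed subspace of growth at most three, not everything, generates no primary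
ideal. -/
theorem not_mprim_of_closed {f0 : Poly K} (hf : NormCubic f0) {V : Submodule K (Poly K)} {d : ℕ}
    (hd : 1 ≤ d) (hVN : V ≤ Nt K d) (hne : V ≠ Nt K d)
    (hA : ∀ v ∈ V, X 0 * v ∈ BB f0 V 1)
    (hρ : finrank K (Pp K * V : Submodule K (Poly K)) ≤ finrank K V + 3) :
    ¬ MPrim (Idl f0 V) := by
  intro hm
  obtain ⟨N, hN⟩ := hm.up
  have hb := slope_bound (n := 0) (a := 1) hf hVN (by rw [pow_zero]; exact Submodule.one_le.1 le_rfl)
    one_ne_zero (by simpa using hA) hρ N
  have hH : HS K (N + d) ≤ HS K N * V ⊔ F0 f0 (N + d) := by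
    intro x hx
    exact piece_Idl_le hf (le_trans hVN (Nt_le_HS d)) N (mem_pieceT.2 ⟨hN d hx, hx⟩)
  have hV : V ≤ HS K d := le_trans hVN (Nt_le_HS d)
  have hfin := finite_of_le_HS (sup_le (mul_le_HS (le_refl _) hV) (F0_le_HS f0 (N + d)))
  have h1 := Submodule.finrank_mono hH
  rw [finrank_HS] at h1
  have h2 := hf.finrank_Nt_add_F0 (N + d)
  rw [finrank_Nt_eq (by omega)] at h2
  have hfinN := finite_of_le_HS (Nt_le_HS (K := K) d)
  have hlt : V < Nt K d := lt_of_le_of_ne hVN hne
  have h3 := Submodule.finrank_lt_finrank_of_lt hlt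
  rw [finrank_Nt_eq hd] at h3
  generalize finrank K (HS K N * V ⊔ F0 f0 (N + d) : Submodule K (Poly K)) = A at *
  generalize finrank K (F0 f0 (N + d)) = B at *
  generalize finrank K ↥V = C at *
  nlinarith

/-- Route two: a subspace of slope at most two has no element coprime to the cubic. -/
theorem not_relPrime_of_slope {f0 : Poly K} (hf : NormCubic f0) {V : Submodule K (Poly K)}
    {d n : ℕ} (hVN : V ≤ Nt K d) {a : Poly K} (ha : a ∈ (Pp K) ^ n) (ha0 : a ≠ 0)
    (hA : ∀ v ∈ V, a * (X 0 * v) ∈ BB f0 V (n + 1))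
    (hρ : finrank K (Pp K * V : Submodule K (Poly K)) ≤ finrank K V + 2)
    {v : Poly K} (hv : v ∈ V) (hv0 : v ≠ 0) : ¬ IsRelPrime f0 v := by
  intro hrel
  have hV : V ≤ HS K d := le_trans hVN (Nt_le_HS d)
  set e := finrank K V + 4 * n + 1 with he
  have hb := slope_bound (ρ := 2) hf hVN ha ha0 hA hρ e
  have hFo : HomClosed (Fo f0) := by
    have := homClosed_sup (homClosed_bot (K := K)) hf.hom
    rwa [bot_sup_eq] at this
  have h1 := finrank_piece_add hFo (hV hv) hv0
    (fun p hp => by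
      obtain ⟨c, hc⟩ := mem_Fo.1 hp
      have hd : f0 ∣ p * v := ⟨c, by rw [hc]; ring⟩
      obtain ⟨r, hr⟩ := hrel.dvd_of_dvd_mul_right hd
      exact mem_Fo.2 ⟨r, by rw [hr]; ring⟩) e
  have hle : pieceT (Fo f0 ⊔ Ideal.span {v}) (e + d) ≤ HS K e * V ⊔ F0 f0 (e + d) := by
    refine le_trans ?_ (piece_Idl_le hf hV e)
    intro x hx
    obtain ⟨h2, h3⟩ := mem_pieceT.1 hx
    refine mem_pieceT.2 ⟨?_, h3⟩
    refine (sup_le ?_ ?_ : Fo f0 ⊔ Ideal.span {v} ≤ Idl f0 V) h2
    · exact le_sup_right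
    · rw [Ideal.span_le, Set.singleton_subset_iff]
      exact subset_Idl hv
  have hfin := finite_of_le_HS (sup_le (mul_le_HS (le_refl _) hV) (F0_le_HS f0 (e + d)))
  have h4 : finrank K (pieceT (Fo f0 ⊔ Ideal.span {v}) (e + d)) ≤
      finrank K (HS K e * V ⊔ F0 f0 (e + d) : Submodule K (Poly K)) :=
    Submodule.finrank_mono hle
  have h5 : finrank K (F0 f0 e) + 3 * e = T e := by
    have := hf.finrank_Nt_add_F0 e
    rw [finrank_Nt_eq (by omega)] at this
    omega
  have h1' : finrank K (pieceT (Fo f0 ⊔ Ideal.span {v}) (e + d)) + finrank K (F0 f0 e) =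
      finrank K (F0 f0 (e + d)) + T e := h1
  have h7 : (e + 2 * n) * 2 = 2 * e + 4 * n := by ring
  rw [h7] at hb
  generalize finrank K (HS K e * V ⊔ F0 f0 (e + d) : Submodule K (Poly K)) = A at *
  generalize finrank K (pieceT (Fo f0 ⊔ Ideal.span {v}) (e + d)) = B at *
  generalize finrank K (F0 f0 (e + d)) = C at *
  generalize finrank K (F0 f0 e) = D at *
  generalize finrank K ↥V = E at *
  omega

/-- A subspace none of whose nonzero elements is coprime to the form has a common factor. -/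
theorem common_factor [Infinite K] {f0 : Poly K} (hf0 : f0 ≠ 0) (hu : ¬ IsUnit f0)
    {V : Submodule K (Poly K)} (h : ∀ v ∈ V, v ≠ 0 → ¬ IsRelPrime f0 v) :
    ∃ q, Irreducible q ∧ q ∣ f0 ∧ ∀ v ∈ V, q ∣ v := by
  classical
  set s := (UniqueFactorizationMonoid.factors f0).toFinset with hs
  let Wq : Poly K → Subspace K V := fun q =>
    ((Ideal.span {q}).restrictScalars K).comap V.subtype
  have hmemW : ∀ q (v : V), v ∈ Wq q ↔ q ∣ (v : Poly K) := by
    intro q v
    simp only [Wq, Submodule.mem_comap, Submodule.subtype_apply, Submodule.restrictScalars_mem]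
    exact Ideal.mem_span_singleton
  by_cases htop : ∃ q ∈ s, Wq q = ⊤
  · obtain ⟨q, hq, hW⟩ := htop
    have hq' : q ∈ UniqueFactorizationMonoid.factors f0 := Multiset.mem_toFinset.1 hq
    refine ⟨q, UniqueFactorizationMonoid.irreducible_of_factor q hq',
      UniqueFactorizationMonoid.dvd_of_mem_factors hq', fun v hv => ?_⟩
    have : (⟨v, hv⟩ : V) ∈ Wq q := by
      rw [hW]
      exact Submodule.mem_top
    exact (hmemW q _).1 this
  · exfalso
    have hnot : (⊤ : Subspace K V) ∉ s.image Wq := by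
      intro hh
      obtain ⟨q, hq, hW⟩ := Finset.mem_image.1 hh
      exact htop ⟨q, hq, hW⟩
    have hne := Subspace.biUnion_ne_univ_of_top_notMem hnot
    rw [Set.ne_univ_iff_exists_notMem] at hne
    obtain ⟨v, hv⟩ := hne
    simp only [Finset.mem_image, Set.mem_iUnion, not_exists, SetLike.mem_coe, exists_prop,
      not_and, forall_exists_index, and_imp, forall_apply_eq_imp_iff₂] at hv
    obtain ⟨p0, hp0⟩ := UniqueFactorizationMonoid.exists_mem_factors hf0 hu
    have hv0 : (v : Poly K) ≠ 0 := by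
      intro h0
      apply hv p0 (Multiset.mem_toFinset.2 hp0)
      rw [hmemW, h0]
      exact dvd_zero _
    have hnr := h v v.2 hv0
    unfold IsRelPrime at hnr
    push Not at hnr
    obtain ⟨D, hD1, hD2, hD3⟩ := hnr
    have hD0 : D ≠ 0 := fun h0 => hf0 (by rw [h0] at hD1; exact zero_dvd_iff.1 hD1)
    obtain ⟨p, hp, hpD⟩ := WfDvdMonoid.exists_irreducible_factor hD3 hD0
    obtain ⟨q, hq, hpq⟩ := UniqueFactorizationMonoid.exists_mem_factors_of_dvd hf0 hp
      (hpD.trans hD1)
    apply hv q (Multiset.mem_toFinset.2 hq)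
    rw [hmemW]
    exact hpq.symm.dvd.trans (hpD.trans hD2)

end Vale.Agent.Lib.P200
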