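import Vale.Agent.Lib.P200.BRank2

/-!
Lexicographic segments grow as slowly as the table allows, and every subspace grows as fast:
the step of the induction, in low and in high degrees.
-/

namespace Vale.Agent.Lib.P200
open MvPolynomial Module

variable {K : Type*} [Field K] {b : ℕ}

theorem Ed_mono {d u v : ℕ} (h : u ≤ v) : Ed d u ≤ Ed d v := by
  unfold Ed
  split_ifs <;> omega

theorem Eb_mono {u v : ℕ} (h : u ≤ v) : Eb b u ≤ Eb b v := by
  unfold Eb
  split_ifs <;> omega

theorem add_single_apply (m : Fin 3 →₀ ℕ) (l i : Fin 3) :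
    (m + Finsupp.single l 1 : Fin 3 →₀ ℕ) i = m i + if l = i then 1 else 0 := by
  simp [Finsupp.single_apply]

theorem degree_add_single (m : Fin 3 →₀ ℕ) (l : Fin 3) :
    (m + Finsupp.single l 1).degree = m.degree + 1 := by
  rw [map_add, Finsupp.degree_single]

/-- The numerical check in low degrees. -/
theorem numeric_low {m : Fin 3 →₀ ℕ} {l : Fin 3} (hd1 : 1 ≤ m.degree) (hd : m.degree + 1 < b)
    (hmo : OutsideT (ab b) m) (hmo' : OutsideT (ab b) (m + Finsupp.single l 1)) :
    lexRankT (ab b) (m + Finsupp.single l 1) + 1 ≤ Ed m.degree (lexRankT (ab b) m + 1) := by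
  have hdeg := degree_add_single m l
  rw [lexRank_formula (by omega) hmo, lexRank_formula (by omega) hmo', hdeg]
  rw [degree_sum] at hd hd1 ⊢
  obtain ⟨h0, h1, h2⟩ := outside_ab.1 hmo
  obtain ⟨h3, h4, h5⟩ := outside_ab.1 hmo'
  rw [add_single_apply] at h3 h4 h5 ⊢
  rw [add_single_apply]
  unfold rkF Ed
  fin_cases l <;> simp at h3 h4 h5 ⊢ <;> generalize m 0 = i at * <;> generalize m 1 = j at * <;>
    generalize m 2 = k at * <;> split_ifs <;> omega

/-- The numerical check into the degree of the other generators. -/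
theorem numeric_top {m : Fin 3 →₀ ℕ} {l : Fin 3} (hd : m.degree + 1 = b)
    (hmo : OutsideT (ab b) m) (hmo' : OutsideT (ab b) (m + Finsupp.single l 1)) :
    lexRankT (ab b) (m + Finsupp.single l 1) + 1 ≤ Eb b (lexRankT (ab b) m + 1) := by
  have hdeg := degree_add_single m l
  rw [lexRank_formula (by omega) hmo, lexRank_formula (by omega) hmo', hdeg]
  rw [degree_sum] at hd ⊢
  obtain ⟨h0, h1, h2⟩ := outside_ab.1 hmo
  obtain ⟨h3, h4, h5⟩ := outside_ab.1 hmo'
  rw [add_single_apply] at h3 h4 h5 ⊢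
  rw [add_single_apply]
  unfold rkF Eb
  fin_cases l <;> simp at h3 h4 h5 ⊢ <;> generalize m 0 = i at * <;> generalize m 1 = j at * <;>
    generalize m 2 = k at * <;> split_ifs <;> omega

theorem numeric_zero {m : Fin 3 →₀ ℕ} {l : Fin 3} (hb : 2 ≤ b) (hd : m.degree = 0)
    (hmo' : OutsideT (ab b) (m + Finsupp.single l 1)) :
    lexRankT (ab b) (m + Finsupp.single l 1) + 1 ≤ 3 := by
  have hdeg := degree_add_single m l
  rw [hd] at hdeg
  rw [lexRank_formula (by omega) hmo', hdeg, add_single_apply, add_single_apply]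
  rw [degree_sum] at hd
  have h0 : m 0 = 0 := by omega
  have h2 : m 2 = 0 := by omega
  rw [h0, h2]
  unfold rkF
  fin_cases l <;> simp <;> split_ifs <;> omega

/-- The low-degree step. -/
theorem lexStep_low {f : Fin 3 → Poly K} (h : FormSeq (ab b) f) (hb : 3 ≤ b) {d : ℕ}
    (hdb : d + 1 ≤ b) {X Y : Submodule K (Poly K)} (h1 : FF f d ≤ X) (h2 : X ≤ HS K d)
    (h3 : HS K 1 * X ≤ Y) (h4 : FF f (d + 1) ≤ Y) (h5 : Y ≤ HS K (d + 1))
    {m : Fin 3 →₀ ℕ} (hm : m.degree = d) (hmo : OutsideT (ab b) m)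
    (hr : lexRankT (ab b) m < finrank K X - finrank K (FF f d)) {l : Fin 3}
    (hmo' : OutsideT (ab b) (m + Finsupp.single l 1)) :
    lexRankT (ab b) (m + Finsupp.single l 1) < finrank K Y - finrank K (FF f (d + 1)) := by
  rcases Nat.eq_zero_or_pos d with rfl | hd1
  · have hFF1 : finrank K (FF f (0 + 1)) = 0 := by
      rw [h.FF_eq_F0 (by omega : 0 + 1 < b)]
      have : F0 (f 0) (0 + 1) = ⊥ := by
        rw [eq_bot_iff]
        intro x hx
        obtain ⟨h6, h7⟩ := mem_F0.1 hx
        obtain ⟨c, rfl⟩ := mem_Fo.1 h6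
        have := comp_mul_low (f := f 0) (k := 3) (m := 1) h.hom0 c (by omega)
        rw [homogeneousComponent_eq_self h7] at this
        rw [this]
        exact Submodule.zero_mem _
      rw [this, finrank_bot]
    have h6 := numeric_zero (b := b) (by omega) hm hmo'
    have h7 := growth_zero h2 h3 (by simpa using h5) (by omega)
    rw [hFF1]
    omega
  · have hfinY := finite_of_le_HS h5
    by_cases hdb' : d + 1 < b
    · have h6 := numeric_low (by omega) (by omega) hmo hmo'
      rw [hm] at h6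
      have h7 := h.growth_seq_low hb hd1 hdb' h1 h2 h3 h4 h5
      have h8 : Ed d (lexRankT (ab b) m + 1) ≤ Ed d (finrank K X - finrank K (FF f d)) :=
        Ed_mono (by omega)
      omega
    · have hdb2 : d + 1 = b := by omega
      have h6 := numeric_top (by omega) hmo hmo'
      have h7 := h.growth_seq_top hb hdb2 h1 h2 h3 h4 h5
      have h8 : Eb b (lexRankT (ab b) m + 1) ≤ Eb b (finrank K X - finrank K (FF f d)) :=
        Eb_mono (by omega)
      omega

/-- The perpendicular space is antitone. -/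
theorem perpT_anti {φ : Module.Dual K (Poly K)} {V V' : Submodule K (Poly K)} (hV : V ≤ V') (e : ℕ) :
    perpT φ V' e ≤ perpT φ V e :=
  fun _ hb => ⟨hb.1, fun a ha => hb.2 a (hV ha)⟩

/-- The high-degree step, by duality. -/
theorem lexStep_high {f : Fin 3 → Poly K} (h : FormSeq (ab b) f) (hb : 3 ≤ b) {d : ℕ} (hdb : b ≤ d)
    {X Y : Submodule K (Poly K)} (h1 : FF f d ≤ X) (h2 : X ≤ HS K d)
    (h3 : HS K 1 * X ≤ Y) (h4 : FF f (d + 1) ≤ Y) (h5 : Y ≤ HS K (d + 1))
    {m : Fin 3 →₀ ℕ} (hm : m.degree = d) (hmo : OutsideT (ab b) m)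
    (hr : lexRankT (ab b) m < finrank K X - finrank K (FF f d)) {l : Fin 3}
    (hmo' : OutsideT (ab b) (m + Finsupp.single l 1)) :
    lexRankT (ab b) (m + Finsupp.single l 1) < finrank K Y - finrank K (FF f (d + 1)) := by
  have hfinX := finite_of_le_HS h2
  have hfinY := finite_of_le_HS h5
  have hd1 := degree_add_single m l
  rw [hm] at hd1
  have hdc := degree_comp hmo'
  rw [hd1] at hdc
  -- the complementary degree
  obtain ⟨e, he⟩ : ∃ e, e = (compM b (m + Finsupp.single l 1)).degree := ⟨_, rfl⟩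
  have hde : d + 1 + e = 2 * b := by omega
  have hs : ab b 0 + ab b 1 + ab b 2 = 2 * b + 3 := by
    show 3 + b + b = 2 * b + 3
    omega
  obtain ⟨φ, hφ, _⟩ := h.exists_trace hs
  have hEle : e + 1 ≤ b := by omega
  -- the two perpendicular spaces
  set X' := perpT φ Y e with hX'
  set Y' := perpT φ X (e + 1) with hY'
  have hY'eq : d + (e + 1) = 2 * b := by omega
  have a1 : FF f e ≤ X' := h.FF_le_perpT hφ hde h5
  have a2 : X' ≤ HS K e := perpT_le _ _ _
  have a34 := h.growth_perpT hφ hY'eq h2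
  have hYle : HS K 1 * X ⊔ FF f (d + 1) ≤ Y := sup_le h3 h4
  have a5 : Y' ≤ HS K (e + 1) := perpT_le _ _ _
  have a3 : HS K 1 * X' ≤ Y' := by
    refine le_trans (mul_le_mul' le_rfl (perpT_anti hYle e)) (le_trans le_sup_left a34)
  have a4 : FF f (e + 1) ≤ Y' := le_trans le_sup_right a34
  have dimX' : finrank K X' + finrank K Y = T e + finrank K (FF f (d + 1)) :=
    h.finrank_perpT hs hφ hde h5 h4
  have dimY' : finrank K Y' + finrank K X = T (e + 1) + finrank K (FF f d) :=
    h.finrank_perpT hs hφ hY'eq h2 h1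
  have cntE := h.finrank_FF_add_cnt e
  have cntE1 := h.finrank_FF_add_cnt (e + 1)
  have cntD := h.finrank_FF_add_cnt d
  have cntD1 := h.finrank_FF_add_cnt (d + 1)
  have c1 : cntT (ab b) e = cntT (ab b) (d + 1) := cnt_dual hde
  have c2 : cntT (ab b) (e + 1) = cntT (ab b) d := cnt_dual hY'eq
  -- the complementary monomial
  have hcm : compM b (m + Finsupp.single l 1) + Finsupp.single l 1 = compM b m := by
    obtain ⟨h6, h7, h8⟩ := outside_ab.1 hmo'
    rw [add_single_apply] at h6 h7 h8
    apply mon3_ext <;> simp only [add_single_apply, compM_0, compM_1, compM_2] <;>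
    · fin_cases l <;> simp at h6 h7 h8 ⊢ <;> omega
  have hrd1 := rank_dual hmo'
  rw [hd1] at hrd1
  have hrd2 := rank_dual hmo
  rw [hm] at hrd2
  by_contra hcon
  have hcon' : finrank K Y - finrank K (FF f (d + 1)) ≤ lexRankT (ab b) (m + Finsupp.single l 1) := by
    omega
  have hstep := lexStep_low (m := compM b (m + Finsupp.single l 1)) (l := l) h hb hEle a1 a2 a3 a4 a5
    he.symm (outside_comp hmo') (by omega) (by rw [hcm]; exact outside_comp hmo)
  rw [hcm] at hstep
  omega

end Vale.Agent.Lib.P200
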