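import Vale.Agent.Lib.P200.BGrowth

/-!
Transfer of the growth table along a linear change of coordinates and a field extension.
-/

namespace Vale.Agent.Lib.P200
open MvPolynomial Module

variable {K : Type*} [Field K]

/-! ### The normalised case in terms of subspaces -/

theorem growth_norm_low [Infinite K] {f0 : Poly K} (hf : NormCubic f0) {d : ℕ} (hd : 1 ≤ d)
    {X Y : Submodule K (Poly K)} (h1 : F0 f0 d ≤ X) (h2 : X ≤ HS K d) (h3 : HS K 1 * X ≤ Y)
    (h4 : F0 f0 (d + 1) ≤ Y) (h5 : Y ≤ HS K (d + 1)) :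
    finrank K (F0 f0 (d + 1)) + Ed d (finrank K X - finrank K (F0 f0 d)) ≤ finrank K Y := by
  have e := finrank_Rd hf h1 h2
  have h6 := Tt_ge_Ed hf hd (Rd_le_Nt X d)
  have h7 : Tt f0 (Rd X d) d ≤ Y := Tt_le_of (Rd_le X d) h3 h4
  have hfinY := finite_of_le_HS h5
  have h8 := Submodule.finrank_mono h7
  have h9 : finrank K X - finrank K (F0 f0 d) = finrank K (Rd X d) := by omega
  rw [h9]
  omega

theorem growth_norm_top [Infinite K] {f : Fin 3 → Poly K} {b d : ℕ} (hf : NormCubic (f 0))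
    (hb : 3 ≤ b) (hf1 : (f 1).IsHomogeneous b) (hf2 : (f 2).IsHomogeneous b) (hm : MPrim (Fid f))
    (hdim : finrank K (Fb f b) = finrank K (F0 (f 0) b) + 2) (hdb : d + 1 = b)
    {X Y : Submodule K (Poly K)} (h1 : F0 (f 0) d ≤ X) (h2 : X ≤ HS K d) (h3 : HS K 1 * X ≤ Y)
    (h4 : Fb f b ≤ Y) (h5 : Y ≤ HS K b) :
    finrank K (Fb f b) + Eb b (finrank K X - finrank K (F0 (f 0) d)) ≤ finrank K Y := by
  have e := finrank_Rd hf h1 h2
  have h6 := Tt_sup_ge_Eb hf hb hf1 hf2 hm hdim hdb (Rd_le_Nt X d)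
  have h7 : Tt (f 0) (Rd X d) d ⊔ Fb f b ≤ Y := by
    refine sup_le (Tt_le_of (Rd_le X d) h3 ?_) h4
    rw [hdb]
    exact le_trans le_sup_left h4
  have hfinY := finite_of_le_HS h5
  have h8 := Submodule.finrank_mono h7
  have h9 : finrank K X - finrank K (F0 (f 0) d) = finrank K (Rd X d) := by omega
  rw [h9]
  omega

/-! ### Linear changes of coordinates -/

/-- A graded algebra automorphism. -/
structure Coord (σ : Poly K ≃ₐ[K] Poly K) : Prop where
  fwd : ∀ d x, x ∈ HS K d → σ x ∈ HS K d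
  bwd : ∀ d x, x ∈ HS K d → σ.symm x ∈ HS K d

/-- The image of a subspace. -/
noncomputable def mapC (σ : Poly K ≃ₐ[K] Poly K) (W : Submodule K (Poly K)) : Submodule K (Poly K) :=
  W.map (σ : Poly K →ₐ[K] Poly K).toLinearMap

theorem mem_mapC {σ : Poly K ≃ₐ[K] Poly K} {W : Submodule K (Poly K)} {x : Poly K} :
    x ∈ mapC σ W ↔ σ.symm x ∈ W := by
  constructor
  · rintro ⟨y, hy, rfl⟩
    simpa using hy
  · intro h
    exact ⟨_, h, by simp⟩

theorem finrank_mapC (σ : Poly K ≃ₐ[K] Poly K) (W : Submodule K (Poly K)) :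
    finrank K (mapC σ W) = finrank K W :=
  LinearEquiv.finrank_map_eq σ.toLinearEquiv W

theorem mapC_le {σ : Poly K ≃ₐ[K] Poly K} {W W' : Submodule K (Poly K)} (h : W ≤ W') :
    mapC σ W ≤ mapC σ W' := Submodule.map_mono h

namespace Coord

variable {σ : Poly K ≃ₐ[K] Poly K} (hσ : Coord σ)
include hσ

theorem mapC_HS (d : ℕ) : mapC σ (HS K d) = HS K d := by
  apply le_antisymm
  · rintro _ ⟨y, hy, rfl⟩
    exact hσ.fwd d y hy
  · intro x hx
    exact mem_mapC.2 (hσ.bwd d x hx)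

theorem mapC_mul (W W' : Submodule K (Poly K)) : mapC σ (W * W') = mapC σ W * mapC σ W' :=
  Submodule.map_mul W W' (σ : Poly K →ₐ[K] Poly K)

theorem mapC_F0 (f0 : Poly K) (d : ℕ) : F0 (σ f0) d = mapC σ (F0 f0 d) := by
  apply le_antisymm
  · intro x hx
    obtain ⟨h1, h2⟩ := mem_F0.1 hx
    obtain ⟨c, rfl⟩ := mem_Fo.1 h1
    refine mem_mapC.2 (mem_F0.2 ⟨mem_Fo.2 ⟨σ.symm c, by simp⟩, hσ.bwd d _ h2⟩)
  · intro x hx
    obtain ⟨h1, h2⟩ := mem_F0.1 (mem_mapC.1 hx)
    obtain ⟨c, hc⟩ := mem_Fo.1 h1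
    have e : x = σ c * σ f0 := by
      rw [← map_mul, ← hc]
      simp
    refine mem_F0.2 ⟨mem_Fo.2 ⟨σ c, e⟩, ?_⟩
    have := hσ.fwd d _ h2
    simpa using this

theorem mapC_Fb (f : Fin 3 → Poly K) (b : ℕ) : Fb (fun i => σ (f i)) b = mapC σ (Fb f b) := by
  unfold Fb
  rw [hσ.mapC_F0]
  unfold mapC
  rw [Submodule.map_sup, Submodule.map_span]
  congr 2
  simp [Set.image_pair]

theorem mprim_comp {f : Fin 3 → Poly K} (hm : MPrim (Fid f)) : MPrim (Fid fun i => σ (f i)) := by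
  obtain ⟨N, hN⟩ := hm
  refine ⟨N, fun x hx => ?_⟩
  have h1 : σ.symm x ∈ Fid f := hN (hσ.bwd N x hx)
  have h2 : ∀ y ∈ Fid f, σ y ∈ Fid fun i => σ (f i) := by
    intro y hy
    unfold Fid at hy
    refine Submodule.span_induction (p := fun y _ => σ y ∈ Fid fun i => σ (f i)) ?_ ?_ ?_ ?_ hy
    · rintro _ ⟨i, rfl⟩
      exact Ideal.subset_span ⟨i, rfl⟩
    · simp
    · intro a b _ _ ha hb
      rw [map_add]
      exact Ideal.add_mem _ ha hb
    · intro c a _ ha
      rw [smul_eq_mul, map_mul]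
      exact Ideal.mul_mem_left _ _ ha
  have := h2 _ h1
  simpa using this

end Coord

/-- The evaluation at the first coordinate vector reads off the coefficient of `x₀³`. -/
theorem eval_e0_eq_coeff {g : Poly K} (hg : g.IsHomogeneous 3) :
    eval ![1, 0, 0] g = coeff (Finsupp.single 0 3) g := by
  classical
  rw [eval_eq']
  have key : ∀ d ∈ g.support, d ≠ Finsupp.single 0 3 →
      coeff d g * ∏ i, (![1, 0, 0] : Fin 3 → K) i ^ d i = 0 := by
    intro d hd hne
    have hdeg : d.degree = 3 := by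
      have := hg (mem_support_iff.1 hd)
      rwa [Finsupp.degree_eq_weight_one]
    rw [degree_sum] at hdeg
    have : d 1 ≠ 0 ∨ d 2 ≠ 0 := by
      by_contra hcon
      push Not at hcon
      apply hne
      apply mon3_ext
      · simp [Finsupp.single_apply]
        omega
      · simp [Finsupp.single_apply, hcon.1]
      · simp [Finsupp.single_apply, hcon.2]
    rw [Fin.prod_univ_three]
    simp only [Matrix.cons_val_zero, Matrix.cons_val_one, Matrix.cons_val]
    rcases this with h | h <;> simp [h]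
  by_cases hmem : Finsupp.single (0 : Fin 3) 3 ∈ g.support
  · rw [Finset.sum_eq_single _ key (fun h => absurd hmem h), Fin.prod_univ_three]
    simp [Finsupp.single_apply]
  · rw [Finset.sum_eq_zero (fun d hd => key d hd (fun h => hmem (h ▸ hd)))]
    exact (notMem_support_iff.1 hmem).symm

/-- Existence of the normalising change of coordinates. -/
theorem exists_coord [Infinite K] {f0 : Poly K} (hf0 : f0.IsHomogeneous 3) (hne : f0 ≠ 0) :
    ∃ σ : Poly K ≃ₐ[K] Poly K, Coord σ ∧ NormCubic (σ f0) := by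
  -- a point with nonzero value
  obtain ⟨p, hp⟩ : ∃ p : Fin 3 → K, eval p ((X 0 : Poly K) * f0) ≠ 0 := by
    by_contra hcon
    push Not at hcon
    have h0 : (X 0 : Poly K) * f0 = 0 := MvPolynomial.funext fun x => by simpa using hcon x
    exact mul_ne_zero (X_ne_zero 0) hne h0
  rw [map_mul, eval_X] at hp
  have hp0 : p 0 ≠ 0 := left_ne_zero_of_mul hp
  have hp1 : eval p f0 ≠ 0 := right_ne_zero_of_mul hp
  set τ : Fin 3 → Poly K := ![C (p 0) * X 0, C (p 1) * X 0 + X 1, C (p 2) * X 0 + X 2] with hτ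
  set τ' : Fin 3 → Poly K := ![C (p 0)⁻¹ * X 0, X 1 - C (p 1 * (p 0)⁻¹) * X 0,
    X 2 - C (p 2 * (p 0)⁻¹) * X 0] with hτ'
  have hci : (C (p 0)⁻¹ * C (p 0) : Poly K) = 1 := by
    rw [← C_mul, inv_mul_cancel₀ hp0, C_1]
  have hci2 : (C (p 0) * C (p 0)⁻¹ : Poly K) = 1 := by
    rw [← C_mul, mul_inv_cancel₀ hp0, C_1]
  have h12 : (aeval τ' : Poly K →ₐ[K] Poly K).comp (aeval τ) = AlgHom.id K _ := by
    apply MvPolynomial.algHom_ext
    intro i
    fin_cases i
    · simp [hτ, hτ']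
      linear_combination (X 0 : Poly K) * hci2
    · simp [hτ, hτ']
      ring
    · simp [hτ, hτ']
      ring
  have h21 : (aeval τ : Poly K →ₐ[K] Poly K).comp (aeval τ') = AlgHom.id K _ := by
    apply MvPolynomial.algHom_ext
    intro i
    fin_cases i
    · simp [hτ, hτ']
      linear_combination (X 0 : Poly K) * hci
    · simp [hτ, hτ']
      linear_combination (-(C (p 1) * X 0 : Poly K)) * hci
    · simp [hτ, hτ']
      linear_combination (-(C (p 2) * X 0 : Poly K)) * hci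
  have hτH : ∀ i, (τ i).IsHomogeneous 1 := by
    intro i
    fin_cases i
    · simpa [hτ] using ((isHomogeneous_X K (0 : Fin 3)).C_mul (p 0))
    · simpa [hτ] using ((isHomogeneous_X K (0 : Fin 3)).C_mul (p 1)).add (isHomogeneous_X K 1)
    · simpa [hτ] using ((isHomogeneous_X K (0 : Fin 3)).C_mul (p 2)).add (isHomogeneous_X K 2)
  have hτ'H : ∀ i, (τ' i).IsHomogeneous 1 := by
    intro i
    fin_cases i
    · simpa [hτ'] using ((isHomogeneous_X K (0 : Fin 3)).C_mul (p 0)⁻¹)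
    · simpa [hτ'] using (isHomogeneous_X K 1).sub ((isHomogeneous_X K (0 : Fin 3)).C_mul (p 1 * (p 0)⁻¹))
    · simpa [hτ'] using (isHomogeneous_X K 2).sub ((isHomogeneous_X K (0 : Fin 3)).C_mul (p 2 * (p 0)⁻¹))
  let σ : Poly K ≃ₐ[K] Poly K := AlgEquiv.ofAlgHom (aeval τ) (aeval τ') h21 h12
  have hσ : ∀ x, σ x = aeval τ x := fun _ => rfl
  have hσ' : ∀ x, σ.symm x = aeval τ' x := fun _ => rfl
  have hC : Coord σ := by
    refine ⟨fun d x hx => ?_, fun d x hx => ?_⟩
    · rw [hσ]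
      have := IsHomogeneous.aeval hx τ hτH
      rwa [one_mul] at this
    · rw [hσ']
      have := IsHomogeneous.aeval hx τ' hτ'H
      rwa [one_mul] at this
  refine ⟨σ, hC, hC.fwd 3 f0 hf0, ?_⟩
  rw [← eval_e0_eq_coeff (hC.fwd 3 f0 hf0), hσ]
  have key : ∀ q : Poly K, eval ![1, 0, 0] (aeval τ q) = eval p q := by
    intro q
    induction q using MvPolynomial.induction_on with
    | C a => simp
    | add q1 q2 h1 h2 => simp only [map_add, h1, h2]
    | mul_X q i h1 =>
      simp only [map_mul, h1, aeval_X, eval_X]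
      congr 1
      fin_cases i <;> simp [hτ]
  rw [key]
  exact hp1

end Vale.Agent.Lib.P200
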