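import Mathlib

/-!
Basic graded algebra for three ternary forms.
-/

namespace Vale.Agent.Lib.P200
open MvPolynomial

variable {K : Type*} [Field K]

/-- Shorthand: the polynomial ring in three variables. -/
abbrev Poly (K : Type*) [Field K] := MvPolynomial (Fin 3) K

/-- Shorthand: forms of degree `d`. -/
abbrev HS (K : Type*) [Field K] (d : ℕ) : Submodule K (Poly K) := homogeneousSubmodule (Fin 3) K d

section comps

variable {σ : Type*} {R : Type*} [CommSemiring R]

theorem comp_mul_general {k : ℕ} {f : MvPolynomial σ R} (hf : f.IsHomogeneous k)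
    (p : MvPolynomial σ R) (m : ℕ) :
    homogeneousComponent m (p * f) = if k ≤ m then homogeneousComponent (m - k) p * f else 0 := by
  classical
  conv_lhs => rw [← sum_homogeneousComponent p, Finset.sum_mul, map_sum]
  have h : ∀ i, homogeneousComponent m (homogeneousComponent i p * f)
      = if m = i + k then homogeneousComponent i p * f else 0 := by
    intro i
    exact homogeneousComponent_of_mem (((homogeneousComponent_isHomogeneous i p).mul hf))
  simp only [h]
  by_cases hk : k ≤ m
  · rw [if_pos hk]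
    by_cases hlt : m - k < p.totalDegree + 1
    · rw [Finset.sum_eq_single (m - k)]
      · rw [if_pos (by omega)]
      · intro b _ hb
        rw [if_neg (by omega)]
      · intro hh
        exact absurd (Finset.mem_range.2 hlt) hh
    · rw [homogeneousComponent_eq_zero _ _ (by omega)]
      rw [zero_mul]
      apply Finset.sum_eq_zero
      intro i hi
      have := Finset.mem_range.1 hi
      rw [if_neg (by omega)]
  · rw [if_neg hk]
    apply Finset.sum_eq_zero
    intro i _
    rw [if_neg (by omega)]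

theorem comp_mul_add {k : ℕ} {f : MvPolynomial σ R} (hf : f.IsHomogeneous k)
    (p : MvPolynomial σ R) (n : ℕ) :
    homogeneousComponent (n + k) (p * f) = homogeneousComponent n p * f := by
  rw [comp_mul_general hf, if_pos (by omega), Nat.add_sub_cancel]

theorem comp_mul_low {k : ℕ} {f : MvPolynomial σ R} (hf : f.IsHomogeneous k)
    (p : MvPolynomial σ R) {m : ℕ} (hm : m < k) :
    homogeneousComponent m (p * f) = 0 := by
  rw [comp_mul_general hf, if_neg (by omega)]

theorem comp_sum_mul_add {ι : Type*} [Fintype ι] {k : ℕ} {g : ι → MvPolynomial σ R}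
    (hg : ∀ i, (g i).IsHomogeneous k) (p : ι → MvPolynomial σ R) (n : ℕ) :
    homogeneousComponent (n + k) (∑ i, p i * g i) = ∑ i, homogeneousComponent n (p i) * g i := by
  rw [map_sum]
  exact Finset.sum_congr rfl fun i _ => comp_mul_add (hg i) _ _

theorem comp_sum_mul_low {ι : Type*} [Fintype ι] {k : ℕ} {g : ι → MvPolynomial σ R}
    (hg : ∀ i, (g i).IsHomogeneous k) (p : ι → MvPolynomial σ R) {m : ℕ} (hm : m < k) :
    homogeneousComponent m (∑ i, p i * g i) = 0 := by
  rw [map_sum]
  exact Finset.sum_eq_zero fun i _ => comp_mul_low (hg i) _ hm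

/-- A homogeneous combination has homogeneous coefficients. -/
theorem homog_coeffs {ι : Type*} [Fintype ι] {k n : ℕ} {g : ι → MvPolynomial σ R}
    (hg : ∀ i, (g i).IsHomogeneous k) (p : ι → MvPolynomial σ R) {a : MvPolynomial σ R}
    (ha : a.IsHomogeneous (n + k)) (h : ∑ i, p i * g i = a) :
    ∑ i, homogeneousComponent n (p i) * g i = a := by
  rw [← comp_sum_mul_add hg, h, homogeneousComponent_eq_self ha]

/-- A homogeneous combination of degree below that of the generators vanishes. -/
theorem homog_low {ι : Type*} [Fintype ι] {k m : ℕ} {g : ι → MvPolynomial σ R}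
    (hg : ∀ i, (g i).IsHomogeneous k) (p : ι → MvPolynomial σ R) {a : MvPolynomial σ R}
    (ha : a.IsHomogeneous m) (hm : m < k) (h : ∑ i, p i * g i = a) : a = 0 := by
  rw [← homogeneousComponent_eq_self ha, ← h]
  exact comp_sum_mul_low hg p hm

end comps

/-! ### Koszul exactness for a regular triple, equational form -/

/-- Equational form of regularity of a triple in a commutative ring. -/
structure RegTriple {R : Type*} [CommRing R] (a b c : R) : Prop where
  ne : a ≠ 0
  h1 : ∀ p q : R, p * b = q * a → ∃ r, p = r * a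
  h2 : ∀ p α β : R, p * c = α * a + β * b → ∃ α' β', p = α' * a + β' * b

section koszul

variable {R : Type*} [CommRing R] [IsDomain R] {a b c : R}

theorem RegTriple.k1 (h : RegTriple a b c) {a0 a1 a2 : R} (e : a0 * a + a1 * b + a2 * c = 0) :
    ∃ q0 q1 q2, a0 = q1 * c - q2 * b ∧ a1 = q2 * a - q0 * c ∧ a2 = q0 * b - q1 * a := by
  obtain ⟨α, β, hab⟩ := h.h2 a2 (-a0) (-a1) (by linear_combination e)
  -- `a2 = α a + β b`
  have e2 : (a1 + β * c) * b = (- a0 - α * c) * a := by
    rw [hab] at e
    linear_combination e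
  obtain ⟨r, hr⟩ := h.h1 _ _ e2
  have e3 : a * (a0 + α * c + r * b) = 0 := by
    have : a1 = r * a - β * c := by linear_combination hr
    rw [this] at e2
    linear_combination e2
  have e4 : a0 + α * c + r * b = 0 := (mul_eq_zero.1 e3).resolve_left h.ne
  refine ⟨β, -α, r, ?_, ?_, ?_⟩
  · linear_combination e4
  · linear_combination hr
  · linear_combination hab

theorem RegTriple.k2 (h : RegTriple a b c) {q0 q1 q2 : R} (e01 : q0 * b = q1 * a)
    (e02 : q2 * a = q0 * c) :
    ∃ r, q0 = r * a ∧ q1 = r * b ∧ q2 = r * c := by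
  obtain ⟨r, hr⟩ := h.h1 _ _ e01
  refine ⟨r, hr, ?_, ?_⟩
  · have : a * (q1 - r * b) = 0 := by
      rw [hr] at e01
      linear_combination -e01
    have := (mul_eq_zero.1 this).resolve_left h.ne
    linear_combination this
  · have : a * (q2 - r * c) = 0 := by
      rw [hr] at e02
      linear_combination e02
    have := (mul_eq_zero.1 this).resolve_left h.ne
    linear_combination this

end koszul

/-! ### The variables form a regular triple -/

theorem regTriple_X : RegTriple (X 0 : Poly K) (X 1) (X 2) where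
  ne := X_ne_zero 0
  h1 := by
    intro p q e
    have hp : p ∈ Ideal.span ((X : Fin 3 → Poly K) '' {0}) := by
      rw [mem_ideal_span_X_image]
      intro m hm
      have hm' : m + Finsupp.single 1 1 ∈ (p * X 1).support := by
        rw [support_mul_X]
        exact Finset.mem_map.2 ⟨m, hm, rfl⟩
      have hmem : (p * X 1 : Poly K) ∈ Ideal.span ((X : Fin 3 → Poly K) '' {0}) := by
        rw [e]
        exact Ideal.mul_mem_left _ _ (Ideal.subset_span ⟨0, rfl, rfl⟩)
      obtain ⟨i, hi, hi2⟩ := (mem_ideal_span_X_image.1 hmem) _ hm'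
      refine ⟨i, hi, ?_⟩
      have : i = 0 := hi
      subst this
      simpa [Finsupp.single_apply] using hi2
    simp only [Set.image_singleton] at hp
    obtain ⟨r, hr⟩ := Ideal.mem_span_singleton.1 hp
    exact ⟨r, by rw [hr]; ring⟩
  h2 := by
    intro p α β e
    have hp : p ∈ Ideal.span ((X : Fin 3 → Poly K) '' {0, 1}) := by
      rw [mem_ideal_span_X_image]
      intro m hm
      have hm' : m + Finsupp.single 2 1 ∈ (p * X 2).support := by
        rw [support_mul_X]
        exact Finset.mem_map.2 ⟨m, hm, rfl⟩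
      have hmem : (p * X 2) ∈ Ideal.span ((X : Fin 3 → Poly K) '' {0, 1}) := by
        rw [e]
        refine Ideal.add_mem _ ?_ ?_
        · exact Ideal.mul_mem_left _ _ (Ideal.subset_span ⟨0, by simp, rfl⟩)
        · exact Ideal.mul_mem_left _ _ (Ideal.subset_span ⟨1, by simp, rfl⟩)
      obtain ⟨i, hi, hi2⟩ := (mem_ideal_span_X_image.1 hmem) _ hm'
      refine ⟨i, hi, ?_⟩
      have hi' : i = 0 ∨ i = 1 := by simpa using hi
      rcases hi' with rfl | rfl <;> simpa [Finsupp.single_apply] using hi2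
    rw [Set.image_pair, Ideal.mem_span_pair] at hp
    obtain ⟨r, s, hrs⟩ := hp
    exact ⟨r, s, hrs.symm⟩

/-! ### The socle argument, equational core -/

section core

variable {R : Type*} [CommRing R] [IsDomain R]

theorem socle_core {x0 x1 x2 f0 f1 f2 a : R} (hx : RegTriple x0 x1 x2)
    (p0 p1 p2 q01 q02 q12 : Fin 3 → R)
    (h0 : x0 * a = p0 0 * f0 + p0 1 * f1 + p0 2 * f2)
    (e01_0 : x1 * p0 0 - x0 * p1 0 = q01 1 * f2 - q01 2 * f1)
    (e01_1 : x1 * p0 1 - x0 * p1 1 = q01 2 * f0 - q01 0 * f2)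
    (e01_2 : x1 * p0 2 - x0 * p1 2 = q01 0 * f1 - q01 1 * f0)
    (e02_0 : x2 * p0 0 - x0 * p2 0 = q02 1 * f2 - q02 2 * f1)
    (e02_1 : x2 * p0 1 - x0 * p2 1 = q02 2 * f0 - q02 0 * f2)
    (e02_2 : x2 * p0 2 - x0 * p2 2 = q02 0 * f1 - q02 1 * f0)
    (hE : ∀ k, x2 * q01 k - x1 * q02 k + x0 * q12 k = 0) :
    ∃ τ : Fin 3 → R, a = τ 0 * f0 + τ 1 * f1 + τ 2 * f2 := by
  have hk : ∀ k, ∃ s0 s1 s2, q12 k = s1 * x2 - s2 * x1 ∧ - q02 k = s2 * x0 - s0 * x2 ∧
      q01 k = s0 * x1 - s1 * x0 := by
    intro k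
    exact hx.k1 (a0 := q12 k) (a1 := - q02 k) (a2 := q01 k) (by linear_combination hE k)
  choose s0 s1 s2 hs12 hs02 hs01 using hk
  obtain ⟨t0, h00, _, _⟩ := hx.k2 (q0 := p0 0 - (s0 1 * f2 - s0 2 * f1))
    (q1 := p1 0 - (s1 1 * f2 - s1 2 * f1)) (q2 := p2 0 - (s2 1 * f2 - s2 2 * f1))
    (by linear_combination e01_0 + f2 * hs01 1 - f1 * hs01 2)
    (by linear_combination (-1 : R) * e02_0 + f2 * hs02 1 - f1 * hs02 2)
  obtain ⟨t1, h01, _, _⟩ := hx.k2 (q0 := p0 1 - (s0 2 * f0 - s0 0 * f2))
    (q1 := p1 1 - (s1 2 * f0 - s1 0 * f2)) (q2 := p2 1 - (s2 2 * f0 - s2 0 * f2))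
    (by linear_combination e01_1 + f0 * hs01 2 - f2 * hs01 0)
    (by linear_combination (-1 : R) * e02_1 + f0 * hs02 2 - f2 * hs02 0)
  obtain ⟨t2, h02, _, _⟩ := hx.k2 (q0 := p0 2 - (s0 0 * f1 - s0 1 * f0))
    (q1 := p1 2 - (s1 0 * f1 - s1 1 * f0)) (q2 := p2 2 - (s2 0 * f1 - s2 1 * f0))
    (by linear_combination e01_2 + f1 * hs01 0 - f0 * hs01 1)
    (by linear_combination (-1 : R) * e02_2 + f1 * hs02 0 - f0 * hs02 1)
  refine ⟨![t0, t1, t2], ?_⟩
  have hx0 : x0 * (a - (t0 * f0 + t1 * f1 + t2 * f2)) = 0 := by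
    linear_combination h0 + f0 * h00 + f1 * h01 + f2 * h02
  have := (mul_eq_zero.1 hx0).resolve_left hx.ne
  simp only [Matrix.cons_val]
  linear_combination this

end core

end Vale.Agent.Lib.P200
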