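import Vale.Agent.Lib.P200.CNum

/-!
The pair modulo `x₀`: dimensions, and the two-variable growth lemma.
-/

namespace Vale.Agent.Lib.P200
open MvPolynomial Module

variable {K : Type*} [Field K]

/-- The image of the pieces of a pair modulo `x₀`. -/
noncomputable def FZ (f g : Poly K) (d : ℕ) : Submodule K (Poly K) := imZ (FP f g d)

theorem FZ_le_Pp (f g : Poly K) (d : ℕ) : FZ f g d ≤ (Pp K) ^ d := imZ_le_HS (FP_le_HS f g d)

theorem FZ_le_HS (f g : Poly K) (d : ℕ) : FZ f g d ≤ HS K d := imZ_le_HS' (FP_le_HS f g d)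

theorem LL_all_zero {a b p : ℕ} (hp : p < a) : LL a b p 0 = 0 := by
  induction p with
  | zero => rfl
  | succ p ih =>
    rw [LL_succ, ih (by omega)]
    simp [ell]
    omega

theorem Dl_full {a b d : ℕ} (ha : 1 ≤ a) (hab : a ≤ b) : Dl a b a (d + 1) = gg a b (d + 1) := by
  unfold Dl gg
  split_ifs <;> omega

namespace ZP

variable {a b : ℕ} {f g : Poly K} (h : ZP a b f g)
include h

theorem finrank_FP_succ (d : ℕ) :
    finrank K (FP f g (d + 1)) = finrank K (FP f g d) + finrank K (FZ f g (d + 1)) := by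
  have := finrank_col_add_im (FP_le_HS f g (d + 1))
  rw [h.colZ_FP] at this
  exact this.symm

theorem FZ_zero : FZ f g 0 = ⊥ := by
  unfold FZ
  rw [h.FP_zero]
  simp [imZ]

theorem finrank_FZ (d : ℕ) : finrank K (FZ f g d) + gg a b d = d + 1 := by
  cases d with
  | zero =>
    rw [h.FZ_zero, finrank_bot]
    have := h.ha
    simp [gg]
    omega
  | succ d =>
    have e1 := h.finrank_FP_succ d
    rw [h.finrank_FP, h.finrank_FP] at e1
    have e2 := phi2_rec (c := 1) h.ha h.hab d
    omega

theorem gg_le (d : ℕ) : gg a b d ≤ d + 1 := by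
  have := h.finrank_FZ d
  omega

/-- The total length of all the rows is the Hilbert function. -/
theorem LL_all (d : ℕ) : LL a b a d + finrank K (FP f g d) = T d := by
  induction d with
  | zero =>
    rw [h.FP_zero, finrank_bot, T_zero]
    obtain ⟨a', ha'⟩ : ∃ a', a = a' + 1 := ⟨a - 1, by have := h.ha; omega⟩
    rw [ha', LL_succ, LL_all_zero (by omega)]
    have hab := h.hab
    simp [ell]
    omega
  | succ d ih =>
    rw [LL_step, Dl_full h.ha h.hab, h.finrank_FP_succ, T_succ]
    have := h.finrank_FZ (d + 1)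
    omega

theorem imZ_mul_FP {d : ℕ} (hd : b ≤ d) : Pp K * FZ f g d = FZ f g (d + 1) := by
  unfold FZ
  rw [← imZ_HS1_mul, h.HS1_mul_FP hd]

theorem Pp_mul_Fb_le (d : ℕ) : Pp K * FZ f g d ≤ FZ f g (d + 1) := by
  unfold FZ
  rw [← imZ_HS1_mul]
  exact imZ_mono (mul_FP_le f g d)

/-- Subspaces containing the image of the pair and not everything grow at least as fast as the
image of the pair. -/
theorem twoV {d : ℕ} {V : Submodule K (Poly K)} (hF : FZ f g d ≤ V) (hV : V ≤ (Pp K) ^ d)
    (hne : V ≠ (Pp K) ^ d) :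
    finrank K V + finrank K (FZ f g (d + 1)) ≤
      finrank K (Pp K * V ⊔ FZ f g (d + 1) : Submodule K (Poly K)) + finrank K (FZ f g d) := by
  have hVH : V ≤ HS K d := le_trans hV (Pp_pow_le_HS d)
  have hfV := finite_of_le_HS hVH
  have hPH : Pp K * V ≤ HS K (d + 1) := Pp_mul_le_HS hVH
  have hSH : Pp K * V ⊔ FZ f g (d + 1) ≤ HS K (d + 1) := sup_le hPH (FZ_le_HS f g (d + 1))
  have hfS := finite_of_le_HS hSH
  have hfP := finite_of_le_HS hPH
  have hfF1 := finite_of_le_HS (FZ_le_HS f g (d + 1))
  have hfF0 := finite_of_le_HS (FZ_le_HS f g d)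
  have e0 := h.finrank_FZ d
  have e1 := h.finrank_FZ (d + 1)
  have hle1 : finrank K (Pp K * V : Submodule K (Poly K)) ≤
      finrank K (Pp K * V ⊔ FZ f g (d + 1) : Submodule K (Poly K)) :=
    Submodule.finrank_mono le_sup_left
  have hle2 : finrank K (FZ f g (d + 1)) ≤
      finrank K (Pp K * V ⊔ FZ f g (d + 1) : Submodule K (Poly K)) :=
    Submodule.finrank_mono le_sup_right
  have hle3 : finrank K (FZ f g d) ≤ finrank K V := Submodule.finrank_mono hF
  by_cases hbot : V = ⊥
  · rw [hbot, finrank_bot, Submodule.mul_bot, bot_sup_eq]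
    omega
  have hgrow := growth_pos d hVH hbot
  -- the difference of the two dimensions
  have hab := h.hab
  have ha := h.ha
  by_cases hsmall : b ≤ d + 1 ∧ d + 1 < a + b
  swap
  · -- the pair grows by at most one
    have hgg : gg a b (d + 1) + 1 ≥ gg a b d := by
      unfold gg
      split_ifs <;> omega
    have hgg2 : gg a b d ≤ gg a b (d + 1) := by
      unfold gg
      split_ifs <;> omega
    omega
  obtain ⟨hs1, hs2⟩ := hsmall
  by_contra hcon
  have hcon' : finrank K (Pp K * V ⊔ FZ f g (d + 1) : Submodule K (Poly K)) + finrank K (FZ f g d) <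
      finrank K V + finrank K (FZ f g (d + 1)) := by omega
  -- the pair grows by two
  have hgg : gg a b (d + 1) + 1 = gg a b d ∨ gg a b (d + 1) = gg a b d := by
    unfold gg
    split_ifs <;> omega
  have hgr1 : finrank K (Pp K * V : Submodule K (Poly K)) = finrank K V + 1 := by
    omega
  have heq : Pp K * V ⊔ FZ f g (d + 1) = Pp K * V := by
    refine (Submodule.eq_of_le_of_finrank_le le_sup_left ?_).symm
    omega
  have hFZ : FZ f g (d + 1) ≤ Pp K * V := by
    rw [← heq]
    exact le_sup_right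
  obtain ⟨u, k, hk, huH, hu0, hVs, hdimV⟩ := string1 d hVH hgr1
  have key : ∀ i, FZ f g (d + 1 + i) ≤ str u (k + 1 + i) := by
    intro i
    induction i with
    | zero =>
      rw [hVs, Pp_mul_str] at hFZ
      exact hFZ
    | succ i ih =>
      have e := h.imZ_mul_FP (d := d + 1 + i) (by omega)
      rw [← add_assoc, ← e, ← add_assoc, ← Pp_mul_str]
      exact mul_le_mul' le_rfl ih
  have hbig := key (a + b)
  have hstrH : str u (k + 1 + (a + b)) ≤ HS K (d - k + (k + 1 + (a + b))) := str_le_HS huH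
  have hdim := finrank_le_of_le_HS hbig hstrH
  rw [finrank_str hu0] at hdim
  have e3 := h.finrank_FZ (d + 1 + (a + b))
  have hg0 : gg a b (d + 1 + (a + b)) = 0 := by
    unfold gg
    split_ifs <;> omega
  have hkd : k = d := by omega
  apply hne
  haveI := finite_of_le_HS (Pp_pow_le_HS (K := K) d)
  refine Submodule.eq_of_le_of_finrank_le hV ?_
  rw [finrank_Pp_pow]
  omega

end ZP

end Vale.Agent.Lib.P200
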