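import Vale.Agent.Lib.P200.BFinal

/-!
Pairs of forms, the linear form `x₀`, colon spaces and images modulo `x₀`.
-/

namespace Vale.Agent.Lib.P200
open MvPolynomial Module

variable {K : Type*} [Field K]

/-! ### Linear forms -/

theorem HS1_le_span : HS K 1 ≤ Submodule.span K {(X 0 : Poly K), X 1, X 2} := by
  intro x hx
  rw [← support_sum_monomial_coeff x]
  refine Submodule.sum_mem _ fun m hm => ?_
  have hdeg : m.degree = 1 := by
    have h1 : Finsupp.weight 1 m = 1 := hx (mem_support_iff.1 hm)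
    rwa [Finsupp.degree_eq_weight_one]
  rw [degree_sum] at hdeg
  have hcases : m = Finsupp.single 0 1 ∨ m = Finsupp.single 1 1 ∨ m = Finsupp.single 2 1 := by
    have h0 : m 0 = 1 ∨ m 1 = 1 ∨ m 2 = 1 := by omega
    rcases h0 with h | h | h
    · left
      apply mon3_ext <;> simp <;> omega
    · right; left
      apply mon3_ext <;> simp <;> omega
    · right; right
      apply mon3_ext <;> simp <;> omega
  have hsm : ∀ (i : Fin 3) (c : K), (monomial (Finsupp.single i 1) c : Poly K) = c • X i := by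
    intro i c
    rw [MvPolynomial.smul_eq_C_mul, C_mul_X_eq_monomial]
  rcases hcases with rfl | rfl | rfl
  · rw [hsm]
    exact Submodule.smul_mem _ _ (Submodule.subset_span (by simp))
  · rw [hsm]
    exact Submodule.smul_mem _ _ (Submodule.subset_span (by simp))
  · rw [hsm]
    exact Submodule.smul_mem _ _ (Submodule.subset_span (by simp))

theorem X_mem_HS1 (i : Fin 3) : (X i : Poly K) ∈ HS K 1 := isHomogeneous_X K i

theorem HS1_eq_span : HS K 1 = Submodule.span K {(X 0 : Poly K), X 1, X 2} := by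
  apply le_antisymm HS1_le_span
  rw [Submodule.span_le]
  rintro _ (rfl | rfl | rfl)
  · exact X_mem_HS1 0
  · exact X_mem_HS1 1
  · exact X_mem_HS1 2

theorem mem_HS1_mul {U : Submodule K (Poly K)} {x : Poly K} :
    x ∈ HS K 1 * U ↔ ∃ a ∈ U, ∃ b ∈ U, ∃ c ∈ U, x = X 0 * a + X 1 * b + X 2 * c := by
  rw [HS1_eq_span, Submodule.span_insert, Submodule.sup_mul, Submodule.mem_sup]
  constructor
  · rintro ⟨u, hu, w, hw, rfl⟩
    obtain ⟨a, ha, rfl⟩ := Submodule.mem_span_singleton_mul.1 hu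
    obtain ⟨b, hb, c, hc, rfl⟩ := mem_Pp_mul.1 hw
    exact ⟨a, ha, b, hb, c, hc, by ring⟩
  · rintro ⟨a, ha, b, hb, c, hc, rfl⟩
    refine ⟨X 0 * a, Submodule.mem_span_singleton_mul.2 ⟨a, ha, rfl⟩, X 1 * b + X 2 * c,
      mem_Pp_mul.2 ⟨b, hb, c, hc, rfl⟩, by ring⟩

theorem X_mul_mem_HS1_mul {U : Submodule K (Poly K)} {a : Poly K} (ha : a ∈ U) (i : Fin 3) :
    X i * a ∈ HS K 1 * U := Submodule.mul_mem_mul (X_mem_HS1 i) ha

/-! ### Setting `x₀` to zero -/

/-- The substitution `x₀ ↦ 0`. -/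
noncomputable def piZ : Poly K →ₐ[K] Poly K := aeval ![0, X 1, X 2]

@[simp] theorem piZ_X0 : piZ (X 0 : Poly K) = 0 := by simp [piZ]
@[simp] theorem piZ_X1 : piZ (X 1 : Poly K) = X 1 := by simp [piZ]
@[simp] theorem piZ_X2 : piZ (X 2 : Poly K) = X 2 := by simp [piZ]

theorem piZ_idem (p : Poly K) : piZ (piZ p) = piZ p := by
  induction p using MvPolynomial.induction_on with
  | C a => simp [piZ]
  | add p q hp hq => simp only [map_add, hp, hq]
  | mul_X p i hp =>
    simp only [map_mul, hp]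
    fin_cases i <;> simp

theorem exists_sub_piZ (p : Poly K) : ∃ q, p = piZ p + X 0 * q := by
  induction p using MvPolynomial.induction_on with
  | C a => exact ⟨0, by simp [piZ]⟩
  | add p q hp hq =>
    obtain ⟨r, hr⟩ := hp
    obtain ⟨s, hs⟩ := hq
    exact ⟨r + s, by rw [map_add]; nth_rewrite 1 [hr, hs]; ring⟩
  | mul_X p i hp =>
    obtain ⟨r, hr⟩ := hp
    fin_cases i
    · refine ⟨p, ?_⟩
      simp only [Fin.zero_eta, map_mul, piZ_X0, mul_zero, zero_add]
      ring
    · refine ⟨r * X 1, ?_⟩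
      simp only [Fin.mk_one, map_mul, piZ_X1]
      nth_rewrite 1 [hr]
      ring
    · refine ⟨r * X 2, ?_⟩
      simp only [Fin.reduceFinMk, map_mul, piZ_X2]
      nth_rewrite 1 [hr]
      ring

theorem piZ_eq_zero_iff {p : Poly K} : piZ p = 0 ↔ ∃ q, p = X 0 * q := by
  constructor
  · intro h
    obtain ⟨q, hq⟩ := exists_sub_piZ p
    rw [h, zero_add] at hq
    exact ⟨q, hq⟩
  · rintro ⟨q, rfl⟩
    simp

theorem piZ_hom {p : Poly K} {d : ℕ} (hp : p.IsHomogeneous d) : (piZ p).IsHomogeneous d := by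
  have h := IsHomogeneous.aeval hp (![0, X 1, X 2] : Fin 3 → Poly K) (n := 1) (fun i => by
    fin_cases i
    · exact isHomogeneous_zero _ _ _
    · exact isHomogeneous_X K 1
    · exact isHomogeneous_X K 2)
  rwa [one_mul] at h

/-- The image of a subspace modulo `x₀`. -/
noncomputable def imZ (U : Submodule K (Poly K)) : Submodule K (Poly K) :=
  U.map (piZ : Poly K →ₐ[K] Poly K).toLinearMap

theorem mem_imZ {U : Submodule K (Poly K)} {x : Poly K} :
    x ∈ imZ U ↔ ∃ u ∈ U, piZ u = x := by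
  simp [imZ, Submodule.mem_map]

theorem imZ_mono {U V : Submodule K (Poly K)} (h : U ≤ V) : imZ U ≤ imZ V := Submodule.map_mono h

theorem piZ_mem_imZ {U : Submodule K (Poly K)} {u : Poly K} (hu : u ∈ U) : piZ u ∈ imZ U :=
  mem_imZ.2 ⟨u, hu, rfl⟩

theorem imZ_sup (U V : Submodule K (Poly K)) : imZ (U ⊔ V) = imZ U ⊔ imZ V := Submodule.map_sup _ _ _

theorem imZ_mul (U V : Submodule K (Poly K)) : imZ (U * V) = imZ U * imZ V :=
  Submodule.map_mul U V (piZ : Poly K →ₐ[K] Poly K)

theorem imZ_HS1 : imZ (HS K 1) = Pp K := by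
  apply le_antisymm
  · intro x hx
    obtain ⟨u, hu, rfl⟩ := mem_imZ.1 hx
    rw [HS1_eq_span] at hu
    have : Submodule.span K {(X 0 : Poly K), X 1, X 2} ≤ (Pp K).comap
        (piZ : Poly K →ₐ[K] Poly K).toLinearMap := by
      rw [Submodule.span_le]
      rintro _ (rfl | rfl | rfl)
      · simp
      · simp only [SetLike.mem_coe, Submodule.mem_comap, AlgHom.toLinearMap_apply, piZ_X1]
        exact Submodule.subset_span (by simp)
      · simp only [SetLike.mem_coe, Submodule.mem_comap, AlgHom.toLinearMap_apply, piZ_X2]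
        exact Submodule.subset_span (by simp)
    exact this hu
  · unfold Pp
    rw [Submodule.span_le]
    rintro _ (rfl | rfl)
    · exact mem_imZ.2 ⟨X 1, X_mem_HS1 1, by simp⟩
    · exact mem_imZ.2 ⟨X 2, X_mem_HS1 2, by simp⟩

theorem imZ_HS1_mul (U : Submodule K (Poly K)) : imZ (HS K 1 * U) = Pp K * imZ U := by
  rw [imZ_mul, imZ_HS1]

theorem imZ_HS (d : ℕ) : imZ (HS K d) = (Pp K) ^ d := by
  induction d with
  | zero =>
    apply le_antisymm
    · intro x hx
      obtain ⟨u, hu, rfl⟩ := mem_imZ.1 hx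
      rw [HS_zero] at hu
      obtain ⟨c, rfl⟩ := Submodule.mem_one.1 hu
      simp only [pow_zero]
      refine Submodule.mem_one.2 ⟨c, ?_⟩
      simp [piZ]
    · rw [pow_zero, Submodule.one_le]
      exact mem_imZ.2 ⟨1, isHomogeneous_one _ _, by simp⟩
  | succ d ih =>
    have e : HS K (d + 1) = HS K 1 * HS K d := by rw [HS_mul, add_comm]
    rw [e, imZ_HS1_mul, ih, pow_succ']

theorem imZ_le_HS {U : Submodule K (Poly K)} {d : ℕ} (hU : U ≤ HS K d) : imZ U ≤ (Pp K) ^ d := by
  rw [← imZ_HS]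
  exact imZ_mono hU

theorem Pp_pow_le {d : ℕ} : (Pp K) ^ d ≤ HS K d := Pp_pow_le_HS d

theorem imZ_le_HS' {U : Submodule K (Poly K)} {d : ℕ} (hU : U ≤ HS K d) : imZ U ≤ HS K d :=
  le_trans (imZ_le_HS hU) Pp_pow_le

/-! ### The colon by `x₀` -/

/-- The space `{m : x₀ m ∈ U}`. -/
noncomputable def colZ (U : Submodule K (Poly K)) : Submodule K (Poly K) :=
  U.comap (LinearMap.mulLeft K (X 0 : Poly K))

theorem mem_colZ {U : Submodule K (Poly K)} {m : Poly K} : m ∈ colZ U ↔ X 0 * m ∈ U := Iff.rfl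

theorem colZ_mono {U V : Submodule K (Poly K)} (h : U ≤ V) : colZ U ≤ colZ V :=
  fun _ hm => h hm

theorem colZ_le_HS {U : Submodule K (Poly K)} {d : ℕ} (hU : U ≤ HS K (d + 1)) :
    colZ U ≤ HS K d := fun _ hm => homog_of_X_mul (hU hm)

theorem colZ_HS0 {U : Submodule K (Poly K)} (hU : U ≤ HS K 0) : colZ U = ⊥ := by
  rw [eq_bot_iff]
  intro m hm
  exact (Submodule.mem_bot K).2 (zero_of_X_mul_homog_zero (hU hm))

theorem finite_colZ {U : Submodule K (Poly K)} {d : ℕ} (hU : U ≤ HS K d) :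
    Module.Finite K (colZ U) := by
  cases d with
  | zero =>
    rw [colZ_HS0 hU]
    infer_instance
  | succ d => exact finite_of_le_HS (colZ_le_HS hU)

/-- Rank-nullity for the substitution on a subspace of forms. -/
theorem finrank_col_add_im {U : Submodule K (Poly K)} {d : ℕ} (hU : U ≤ HS K d) :
    finrank K (colZ U) + finrank K (imZ U) = finrank K U := by
  have hfinU := finite_of_le_HS hU
  have hfinC := finite_colZ hU
  let φ : U →ₗ[K] Poly K := (piZ : Poly K →ₐ[K] Poly K).toLinearMap ∘ₗ U.subtype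
  have hφ : ∀ u : U, φ u = piZ (u : Poly K) := fun _ => rfl
  have hr : LinearMap.range φ = imZ U := by
    ext x
    simp only [LinearMap.mem_range, mem_imZ]
    constructor
    · rintro ⟨u, rfl⟩
      exact ⟨u, u.2, (hφ u).symm⟩
    · rintro ⟨u, hu, rfl⟩
      exact ⟨⟨u, hu⟩, rfl⟩
  let ι : colZ U →ₗ[K] U :=
    { toFun := fun m => ⟨X 0 * (m : Poly K), m.2⟩
      map_add' := fun m n => Subtype.ext (by simp [mul_add])
      map_smul' := fun c m => Subtype.ext (by simp) }
  have hι' : ∀ m : colZ U, ((ι m : U) : Poly K) = X 0 * (m : Poly K) := fun _ => rfl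
  have hι : Function.Injective ι := by
    intro m n e
    have := congrArg Subtype.val e
    rw [hι', hι'] at this
    exact Subtype.ext (mul_left_cancel₀ (X_ne_zero 0) this)
  have hk : LinearMap.range ι = LinearMap.ker φ := by
    apply le_antisymm
    · rintro _ ⟨m, rfl⟩
      rw [LinearMap.mem_ker, hφ, hι']
      simp
    · intro u hu
      rw [LinearMap.mem_ker, hφ] at hu
      obtain ⟨q, hq⟩ := piZ_eq_zero_iff.1 hu
      have hqm : q ∈ colZ U := by
        rw [mem_colZ, ← hq]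
        exact u.2
      exact ⟨⟨q, hqm⟩, Subtype.ext hq.symm⟩
  have e1 := LinearMap.finrank_range_add_finrank_ker φ
  rw [hr, ← hk, LinearMap.finrank_range_of_inj hι] at e1
  omega

/-! ### Pairs of forms -/

/-- The ideal generated by two forms. -/
noncomputable def FPi (f g : Poly K) : Ideal (Poly K) := Ideal.span {f, g}

/-- Graded piece of the ideal generated by two forms. -/
noncomputable def FP (f g : Poly K) (d : ℕ) : Submodule K (Poly K) := pieceT (FPi f g) d

theorem FP_le_HS (f g : Poly K) (d : ℕ) : FP f g d ≤ HS K d := pieceT_le_HS _ _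

theorem mem_FPi {f g p : Poly K} : p ∈ FPi f g ↔ ∃ α β, p = α * f + β * g := by
  unfold FPi
  rw [Ideal.mem_span_pair]
  exact exists_congr fun _ => exists_congr fun _ => eq_comm

theorem mem_FP {f g p : Poly K} {d : ℕ} :
    p ∈ FP f g d ↔ (∃ α β, p = α * f + β * g) ∧ p.IsHomogeneous d := by
  unfold FP
  rw [mem_pieceT, mem_FPi]

theorem J2_eq_FPi (s : Fin 3 → Poly K) : J2 s = FPi (s 0) (s 1) := by
  ext p
  rw [mem_J2, mem_FPi]

theorem pieceT_J2 (s : Fin 3 → Poly K) (d : ℕ) : pieceT (J2 s) d = FP (s 0) (s 1) d := by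
  rw [J2_eq_FPi]
  rfl

theorem mul_FP_le (f g : Poly K) (d : ℕ) : HS K 1 * FP f g d ≤ FP f g (d + 1) :=
  mul_pieceT_le _ _

/-- A pair of forms of degrees `a ≤ b` that is regular together with the variable `x₀`. -/
structure ZP (a b : ℕ) (f g : Poly K) : Prop where
  ha : 1 ≤ a
  hab : a ≤ b
  homf : f.IsHomogeneous a
  homg : g.IsHomogeneous b
  reg : RegTriple f g (X 0)

namespace ZP

variable {a b : ℕ} {f g : Poly K} (h : ZP a b f g)
include h

theorem formSeq : FormSeq ![a, b, 1] ![f, g, X 0] where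
  pos := by
    intro i
    fin_cases i
    · exact h.ha
    · exact le_trans h.ha h.hab
    · exact le_rfl
  hom := by
    intro i
    fin_cases i
    · exact h.homf
    · exact h.homg
    · exact isHomogeneous_X K 0
  reg := h.reg

theorem finrank_FP (d : ℕ) : finrank K (FP f g d) = phi2 ![a, b, 1] d := by
  have := h.formSeq.finrank_J2 d
  rwa [pieceT_J2] at this

theorem ne_f : f ≠ 0 := h.reg.ne

theorem colZ_FP (d : ℕ) : colZ (FP f g (d + 1)) = FP f g d := by
  apply le_antisymm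
  · intro m hm
    obtain ⟨⟨α, β, e⟩, hom⟩ := mem_FP.1 (mem_colZ.1 hm)
    obtain ⟨r, s, hrs⟩ := h.reg.h2 m α β (by rw [mul_comm, e])
    exact mem_FP.2 ⟨⟨r, s, hrs⟩, homog_of_X_mul hom⟩
  · intro m hm
    obtain ⟨⟨α, β, e⟩, hom⟩ := mem_FP.1 hm
    refine mem_colZ.2 (mem_FP.2 ⟨⟨X 0 * α, X 0 * β, by rw [e]; ring⟩, ?_⟩)
    have := (isHomogeneous_X K (0 : Fin 3)).mul hom
    rwa [add_comm] at this

theorem FP_zero : FP f g 0 = ⊥ := by
  rw [eq_bot_iff]
  intro p hp
  obtain ⟨⟨α, β, e⟩, hom⟩ := mem_FP.1 hp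
  have h0 := congrArg (homogeneousComponent 0) e
  rw [homogeneousComponent_eq_self hom, map_add, comp_mul_low h.homf α (by have := h.ha; omega),
    comp_mul_low h.homg β (by have := h.ha; have := h.hab; omega), add_zero] at h0
  exact (Submodule.mem_bot K).2 h0

/-- Homogeneous representatives. -/
theorem rep {p : Poly K} {d : ℕ} (hp : p ∈ FP f g d) :
    ∃ α β, Hz α d a ∧ Hz β d b ∧ p = α * f + β * g := by
  obtain ⟨⟨α, β, e⟩, hom⟩ := mem_FP.1 hp
  refine ⟨hzc α d a, hzc β d b, hz_hzc _ _ _, hz_hzc _ _ _, ?_⟩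
  have := congrArg (homogeneousComponent d) e
  rwa [homogeneousComponent_eq_self hom, map_add, comp_mul_hzc h.homf, comp_mul_hzc h.homg] at this

/-- In degrees at least `b` the pieces are generated from below. -/
theorem HS1_mul_FP {d : ℕ} (hd : b ≤ d) : HS K 1 * FP f g d = FP f g (d + 1) := by
  apply le_antisymm (mul_FP_le f g d)
  intro p hp
  obtain ⟨α, β, hα, hβ, rfl⟩ := h.rep hp
  have hab := h.hab
  have ha := h.ha
  have hα' := hα.1 (by omega)
  have hβ' := hβ.1 (by omega)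
  obtain ⟨k, hk⟩ : ∃ k, d + 1 - a = k + 1 := ⟨d - a, by omega⟩
  obtain ⟨l, hl⟩ : ∃ l, d + 1 - b = l + 1 := ⟨d - b, by omega⟩
  rw [hk] at hα'
  rw [hl] at hβ'
  have hα2 : α ∈ HS K 1 * HS K k := by
    rw [HS_mul, add_comm]
    exact hα'
  have hβ2 : β ∈ HS K 1 * HS K l := by
    rw [HS_mul, add_comm]
    exact hβ'
  have key : ∀ {q r : Poly K} {e n : ℕ}, q ∈ HS K 1 * HS K e → r ∈ FPi f g →
      r.IsHomogeneous n → e + n = d → q * r ∈ HS K 1 * FP f g d := by
    intro q r e n hq hr hrh hen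
    refine Submodule.mul_induction_on hq ?_ ?_
    · intro u hu v hv
      rw [mul_assoc]
      refine Submodule.mul_mem_mul hu (mem_FP.2 ⟨mem_FPi.1 ?_, ?_⟩)
      · exact Ideal.mul_mem_left _ _ hr
      · rw [← hen]
        exact (show v.IsHomogeneous e from hv).mul hrh
    · intro x y hx hy
      rw [add_mul]
      exact Submodule.add_mem _ hx hy
  refine Submodule.add_mem _ (key hα2 (Ideal.subset_span (by simp)) h.homf (by omega))
    (key hβ2 (Ideal.subset_span (by simp)) h.homg (by omega))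

end ZP

end Vale.Agent.Lib.P200
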