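import Vale.Agent.Lib.P200.CRank

/-!
The duality of ranks and the counting of initial segments, for arbitrary degrees.
-/

namespace Vale.Agent.Lib.P200
open MvPolynomial Module

variable {a : Fin 3 → ℕ}

/-- The complementary monomial. -/
noncomputable def compA (a : Fin 3 → ℕ) (m : Fin 3 →₀ ℕ) : Fin 3 →₀ ℕ :=
  mon3 (a 0 - 1 - m 0) (a 1 - 1 - m 1) (a 2 - 1 - m 2)

@[simp] theorem compA_0 (m : Fin 3 →₀ ℕ) : compA a m 0 = a 0 - 1 - m 0 := by simp [compA]
@[simp] theorem compA_1 (m : Fin 3 →₀ ℕ) : compA a m 1 = a 1 - 1 - m 1 := by simp [compA]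
@[simp] theorem compA_2 (m : Fin 3 →₀ ℕ) : compA a m 2 = a 2 - 1 - m 2 := by simp [compA]

theorem outside_iff {m : Fin 3 →₀ ℕ} : OutsideT a m ↔ m 0 < a 0 ∧ m 1 < a 1 ∧ m 2 < a 2 := by
  constructor
  · intro h
    exact ⟨h 0, h 1, h 2⟩
  · rintro ⟨h0, h1, h2⟩ i
    fin_cases i
    · exact h0
    · exact h1
    · exact h2

theorem compA_comp {m : Fin 3 →₀ ℕ} (hmo : OutsideT a m) : compA a (compA a m) = m := by
  obtain ⟨h0, h1, h2⟩ := outside_iff.1 hmo
  apply mon3_ext <;> simp <;> omega

theorem outside_compA {m : Fin 3 →₀ ℕ} (hmo : OutsideT a m) : OutsideT a (compA a m) := by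
  obtain ⟨h0, h1, h2⟩ := outside_iff.1 hmo
  refine outside_iff.2 ?_
  simp only [compA_0, compA_1, compA_2]
  omega

theorem degree_compA {s : ℕ} (hs : a 0 + a 1 + a 2 = s + 3) {m : Fin 3 →₀ ℕ} (hmo : OutsideT a m) :
    (compA a m).degree + m.degree = s := by
  obtain ⟨h0, h1, h2⟩ := outside_iff.1 hmo
  rw [degree_sum, degree_sum]
  simp only [compA_0, compA_1, compA_2]
  omega

theorem lex_compA {m n : Fin 3 →₀ ℕ} (hm : OutsideT a m) (hn : OutsideT a n)
    (hd : m.degree = n.degree) : toLex (compA a n) < toLex (compA a m) ↔ toLex m < toLex n := by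
  obtain ⟨h0, h1, h2⟩ := outside_iff.1 hm
  obtain ⟨h3, h4, h5⟩ := outside_iff.1 hn
  rw [degree_sum, degree_sum] at hd
  rw [toLex_lt_iff3, toLex_lt_iff3]
  simp only [compA_0, compA_1, compA_2]
  omega

/-- The monomials outside of a given degree. -/
def segA (a : Fin 3 → ℕ) (d : ℕ) : Set (Fin 3 →₀ ℕ) := {n | n.degree = d ∧ OutsideT a n}

theorem segA_finite (d : ℕ) : (segA a d).Finite :=
  (finite_degree_set d).subset fun _ h => h.1

theorem cnt_eq_segA (d : ℕ) : cntT a d = (segA a d).ncard := rfl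

/-- The symmetry of the counts. -/
theorem cnt_dualA {s d e : ℕ} (hs : a 0 + a 1 + a 2 = s + 3) (hde : d + e = s) :
    cntT a e = cntT a d := by
  rw [cnt_eq_segA, cnt_eq_segA]
  have hinj : Set.InjOn (compA a) (segA a d) := by
    rintro x ⟨_, hx⟩ y ⟨_, hy⟩ e
    rw [← compA_comp hx, ← compA_comp hy, e]
  have himg : compA a '' segA a d = segA a e := by
    ext n
    constructor
    · rintro ⟨x, ⟨hx1, hx2⟩, rfl⟩
      have := degree_compA hs hx2
      exact ⟨by omega, outside_compA hx2⟩
    · rintro ⟨hn1, hn2⟩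
      have := degree_compA hs hn2
      exact ⟨compA a n, ⟨by omega, outside_compA hn2⟩, compA_comp hn2⟩
  rw [← himg, Set.InjOn.ncard_image hinj]

/-- The decomposition of the set of outside monomials around one of them. -/
theorem rank_dualA {s : ℕ} (hs : a 0 + a 1 + a 2 = s + 3) {m : Fin 3 →₀ ℕ} (hmo : OutsideT a m) :
    lexRankT a (compA a m) + lexRankT a m + 1 = cntT a m.degree := by
  classical
  set d := m.degree with hd
  set G : Set (Fin 3 →₀ ℕ) := {n | n.degree = m.degree ∧ OutsideT a n ∧ toLex m < toLex n} with hG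
  set Ls : Set (Fin 3 →₀ ℕ) := {n | n.degree = d ∧ OutsideT a n ∧ toLex n < toLex m} with hLs
  have hrank : lexRankT a m = G.ncard := rfl
  have hdc := degree_compA hs hmo
  have hrank2 : lexRankT a (compA a m) = Ls.ncard := by
    have himg : compA a '' Ls = {n | n.degree = (compA a m).degree ∧ OutsideT a n ∧
        toLex (compA a m) < toLex n} := by
      ext n
      constructor
      · rintro ⟨x, ⟨hx1, hx2, hx3⟩, rfl⟩
        have := degree_compA hs hx2
        refine ⟨by omega, outside_compA hx2, ?_⟩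
        exact (lex_compA hx2 hmo hx1).2 hx3
      · rintro ⟨hn1, hn2, hn3⟩
        have h3 := degree_compA hs hn2
        refine ⟨compA a n, ⟨by omega, outside_compA hn2, ?_⟩, compA_comp hn2⟩
        have h4 := (lex_compA (a := a) (m := compA a n) (n := m) (outside_compA hn2) hmo
          (by omega))
        rw [compA_comp hn2] at h4
        exact h4.1 hn3
    unfold lexRankT
    rw [← himg, Set.InjOn.ncard_image]
    rintro x ⟨_, hx, _⟩ y ⟨_, hy, _⟩ e
    rw [← compA_comp hx, ← compA_comp hy, e]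
  have hS : segA a d = G ∪ (Ls ∪ {m}) := by
    ext n
    simp only [segA, hG, hLs, Set.mem_union, Set.mem_ofPred_eq, Set.mem_singleton_iff]
    constructor
    · rintro ⟨h1, h2⟩
      rcases lt_trichotomy (toLex m) (toLex n) with h | h | h
      · exact Or.inl ⟨h1, h2, h⟩
      · exact Or.inr (Or.inr (toLex.injective h).symm)
      · exact Or.inr (Or.inl ⟨h1, h2, h⟩)
    · rintro (⟨h1, h2, _⟩ | ⟨h1, h2, _⟩ | rfl)
      · exact ⟨h1, h2⟩
      · exact ⟨h1, h2⟩
      · exact ⟨rfl, hmo⟩
  have hfin := segA_finite (a := a) d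
  have hGfin : G.Finite := hfin.subset (by rw [hS]; exact Set.subset_union_left)
  have hLfin : Ls.Finite := hfin.subset (by
    rw [hS]; exact Set.subset_union_of_subset_right Set.subset_union_left _)
  have hd1 : Disjoint Ls {m} := by
    rw [Set.disjoint_singleton_right]
    rintro ⟨_, _, h⟩
    exact lt_irrefl _ h
  have hd2 : Disjoint G (Ls ∪ {m}) := by
    rw [Set.disjoint_left]
    rintro x ⟨_, _, h⟩ (⟨_, _, h'⟩ | rfl)
    · exact lt_asymm h h'
    · exact lt_irrefl _ h
  rw [cnt_eq_segA, hS, Set.ncard_union_eq hd2 hGfin (hLfin.union (Set.finite_singleton m)),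
    Set.ncard_union_eq hd1 hLfin (Set.finite_singleton m), Set.ncard_singleton, hrank, hrank2]
  omega

/-- The initial segments have the expected size. -/
theorem ncard_segmentA {s : ℕ} (hs : a 0 + a 1 + a 2 = s + 3) {d q : ℕ} (hq : q ≤ cntT a d) :
    ({n : Fin 3 →₀ ℕ | n.degree = d ∧ OutsideT a n ∧ lexRankT a n < q}).ncard = q := by
  classical
  have hfin := segA_finite (a := a) d
  have hrinj : Set.InjOn (lexRankT a) (segA a d) := by
    have key : ∀ x y : Fin 3 →₀ ℕ, x ∈ segA a d → y ∈ segA a d → toLex x < toLex y →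
        lexRankT a y < lexRankT a x := by
      rintro x y ⟨hx1, hx2⟩ ⟨hy1, hy2⟩ hlt
      unfold lexRankT
      rw [hx1, hy1]
      refine Set.ncard_lt_ncard ?_ (hfin.subset fun n hn => ⟨hn.1, hn.2.1⟩)
      refine ⟨fun n hn => ⟨hn.1, hn.2.1, lt_trans hlt hn.2.2⟩, fun hsub => ?_⟩
      have := hsub (show y ∈ {n | n.degree = d ∧ OutsideT a n ∧ toLex x < toLex n} from
        ⟨hy1, hy2, hlt⟩)
      exact lt_irrefl _ this.2.2
    intro x hx y hy e
    rcases lt_trichotomy (toLex x) (toLex y) with h | h | h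
    · have := key x y hx hy h
      omega
    · exact toLex.injective h
    · have := key y x hy hx h
      omega
  have hrbound : ∀ x ∈ segA a d, lexRankT a x < cntT a d := by
    rintro x ⟨hx1, hx2⟩
    have := rank_dualA hs hx2
    rw [hx1] at this
    omega
  have himg : lexRankT a '' segA a d = ↑(Finset.range (cntT a d)) := by
    apply Set.eq_of_subset_of_ncard_le
    · rintro _ ⟨x, hx, rfl⟩
      simpa using hrbound x hx
    · rw [Set.ncard_coe_finset, Finset.card_range, Set.InjOn.ncard_image hrinj, cnt_eq_segA]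
    · exact (Finset.range _).finite_toSet
  have hsub : {n : Fin 3 →₀ ℕ | n.degree = d ∧ OutsideT a n ∧ lexRankT a n < q} ⊆ segA a d :=
    fun n hn => ⟨hn.1, hn.2.1⟩
  have himg2 : lexRankT a '' {n : Fin 3 →₀ ℕ | n.degree = d ∧ OutsideT a n ∧
      lexRankT a n < q} = ↑(Finset.range q) := by
    ext r
    simp only [Set.mem_image, Set.mem_ofPred_eq, Finset.coe_range, Set.mem_Iio]
    constructor
    · rintro ⟨n, ⟨_, _, h3⟩, rfl⟩
      exact h3
    · intro hr
      have : r ∈ lexRankT a '' segA a d := by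
        rw [himg]
        simp only [Finset.coe_range, Set.mem_Iio]
        omega
      obtain ⟨n, hn, rfl⟩ := this
      exact ⟨n, ⟨hn.1, hn.2, hr⟩, rfl⟩
  rw [← Set.InjOn.ncard_image (hrinj.mono hsub), himg2, Set.ncard_coe_finset, Finset.card_range]

end Vale.Agent.Lib.P200
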