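import Vale.Agent.Lib.P200.CStep
import Vale.Agent.Lib.P200.BFinal

/-!
The monomial set of `J`, its closure, and the main theorem for degrees `a, b, a + b - 3`.
-/

namespace Vale.Agent.Lib.P200
open MvPolynomial Module RingTheory.Sequence

variable {K : Type*} [Field K] {a b c : ℕ}

section step

variable {f : Fin 3 → Poly K} {I : Ideal (Poly K)}

theorem MSetT_step_abc (h : FormSeq ![a, b, c] f) (ha3 : 3 ≤ a) (hab : a ≤ b) (hc : c + 3 = a + b)
    (hI : ∀ i, f i ∈ I) {m : Fin 3 →₀ ℕ}
    (hm : m ∈ MSetT ![a, b, c] I) (l : Fin 3) : m + Finsupp.single l 1 ∈ MSetT ![a, b, c] I := by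
  by_cases ho : OutsideT ![a, b, c] (m + Finsupp.single l 1)
  swap
  · exact Or.inl ho
  right
  have hom : OutsideT ![a, b, c] m := by
    intro j
    have := ho j
    simp only [Finsupp.add_apply] at this
    omega
  have hr : lexRankT ![a, b, c] m < excessT ![a, b, c] I m.degree := by
    rcases hm with hm | hm
    · exact absurd hom hm
    · exact hm
  rw [degree_add_single]
  unfold excessT at hr ⊢
  rw [← h.finrank_FF_eq] at hr ⊢
  by_cases hd : m.degree + 1 ≤ c
  · exact lexStep_abc_low h ha3 hab hc hd (FF_le_pieceT hI _) (pieceT_le_HS _ _) (mul_pieceT_le I _)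
      (FF_le_pieceT hI _) (pieceT_le_HS _ _) rfl hom hr ho
  · exact lexStep_abc_high h ha3 hab hc (by omega) (FF_le_pieceT hI _) (pieceT_le_HS _ _)
      (mul_pieceT_le I _) (FF_le_pieceT hI _) (pieceT_le_HS _ _) rfl hom hr ho

theorem MSetT_upper_abc (h : FormSeq ![a, b, c] f) (ha3 : 3 ≤ a) (hab : a ≤ b) (hc : c + 3 = a + b)
    (hI : ∀ i, f i ∈ I) : IsUpperSet (MSetT ![a, b, c] I) := by
  have key : ∀ k : Fin 3 →₀ ℕ, ∀ x ∈ MSetT ![a, b, c] I, x + k ∈ MSetT ![a, b, c] I := by
    intro k
    induction k using Finsupp.induction_linear with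
    | zero =>
      intro x hx
      simpa using hx
    | add k1 k2 h1 h2 =>
      intro x hx
      rw [← add_assoc]
      exact h2 _ (h1 _ hx)
    | single i n =>
      induction n with
      | zero =>
        intro x hx
        simpa using hx
      | succ n ih =>
        intro x hx
        have := MSetT_step_abc h ha3 hab hc hI (ih x hx) i
        rwa [add_assoc, ← Finsupp.single_add] at this
  intro x y hxy hx
  have := key (y - x) x hx
  rwa [add_tsub_cancel_of_le hxy] at this

end step

/-- The space `J` is an ideal. -/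
theorem lexSpaceT_ideal_abc {f : Fin 3 → Poly K} (h : FormSeq ![a, b, c] f) (ha3 : 3 ≤ a) (hab : a ≤ b)
    (hc : c + 3 = a + b) {I : Ideal (Poly K)} (hI : ∀ i, f i ∈ I) :
    ∃ J : Ideal (Poly K), J.restrictScalars K = lexSpaceT ![a, b, c] I :=
  ⟨restrictSupportIdeal K (MSetT ![a, b, c] I) (MSetT_upper_abc h ha3 hab hc hI), by
    rw [restrictScalars_restrictSupportIdeal, lexSpaceT_eq]⟩

/-- `dim J_d = dim I_d`. -/
theorem finrank_lexPieceT_abc {A : Fin 3 → ℕ} {s : ℕ} (hsum : A 0 + A 1 + A 2 = s + 3)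
    {f : Fin 3 → Poly K} (h : FormSeq A f) {I : Ideal (Poly K)}
    (hI : ∀ i, f i ∈ I) (d : ℕ) :
    finrank K (lexPieceT A I d) = finrank K (pieceT I d) := by
  have hp : finrank K (pieceT (powerIdealT K A) d) ≤ finrank K (pieceT I d) := by
    rw [← h.finrank_FF_eq d]
    exact finrank_le_of_le_HS (FF_le_pieceT hI d) (pieceT_le_HS I d)
  have hq : excessT A I d ≤ cntT A d := by
    have h1 := finrank_piece_P (K := K) A d
    have h2 : finrank K (pieceT I d) ≤ T d := by
      rw [← finrank_HS (K := K)]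
      exact Submodule.finrank_mono (pieceT_le_HS I d)
    unfold excessT
    omega
  have hseg := ncard_segmentA hsum hq
  have hdisj : Disjoint {m : Fin 3 →₀ ℕ | m.degree = d ∧ ¬ OutsideT A m}
      {m : Fin 3 →₀ ℕ | m.degree = d ∧ OutsideT A m ∧ lexRankT A m < excessT A I d} := by
    rw [Set.disjoint_left]
    rintro m ⟨_, h1⟩ ⟨_, h2, _⟩
    exact h1 h2
  have hunion := Set.ncard_union_eq hdisj ((finite_degree_set d).subset fun m hm => hm.1)
    ((finite_degree_set d).subset fun m hm => hm.1)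
  have hset : {m | m ∈ MSetT A I ∧ m.degree = d} =
      {m : Fin 3 →₀ ℕ | m.degree = d ∧ ¬ OutsideT A m} ∪
      {m : Fin 3 →₀ ℕ | m.degree = d ∧ OutsideT A m ∧ lexRankT A m < excessT A I d} := by
    ext m
    simp only [Set.mem_union, Set.mem_ofPred_eq, MSetT]
    constructor
    · rintro ⟨h1 | h1, h2⟩
      · exact Or.inl ⟨h2, h1⟩
      · by_cases ho : OutsideT A m
        · subst h2
          exact Or.inr ⟨rfl, ho, h1⟩
        · exact Or.inl ⟨h2, ho⟩
    · rintro (⟨h1, h2⟩ | ⟨h1, _, h3⟩)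
      · exact ⟨Or.inl h2, h1⟩
      · subst h1
        exact ⟨Or.inr h3, rfl⟩
  rw [lexPieceT_eq, finrank_restrictSupport, hset, hunion, hseg]
  have h3 : finrank K (pieceT (powerIdealT K A) d) =
      ({m : Fin 3 →₀ ℕ | m.degree = d ∧ ¬ OutsideT A m}).ncard := by
    rw [pieceT_power, finrank_restrictSupport]
  rw [← h3]
  unfold excessT
  omega

end Vale.Agent.Lib.P200
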