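import Vale.Agent.Lib.P200.CNzd

/-!
Subspaces surjecting onto the quotient modulo `x₀`, of minimal growth.
-/

namespace Vale.Agent.Lib.P200
open MvPolynomial Module

variable {K : Type*} [Field K]

/-- The iterated next subspaces. -/
noncomputable def iterG (f g : Poly K) (d : ℕ) (U : Submodule K (Poly K)) :
    ℕ → Submodule K (Poly K)
  | 0 => U
  | k + 1 => gpl f g (d + k) (iterG f g d U k)

namespace ZP

variable {a b : ℕ} {f g : Poly K} (h : ZP a b f g)
include h

theorem FP_le_gpl_mul {D : ℕ} (hD : b ≤ D + 1) {U : Submodule K (Poly K)} :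
    FP f g (D + 1 + 1) ≤ HS K 1 * gpl f g D U := by
  rw [← h.HS1_mul_FP hD]
  exact mul_le_mul' le_rfl FP_le_gpl

omit h in
theorem imZ_gpl_onto {D : ℕ} {U : Submodule K (Poly K)} (honto : imZ U = (Pp K) ^ D) :
    imZ (gpl f g D U) = (Pp K) ^ (D + 1) := by
  rw [imZ_gpl, honto, ← pow_succ']
  exact sup_eq_left.2 (FZ_le_Pp f g _)

/-- Persistence: the absence of new elements in the colon propagates. -/
theorem persist {D : ℕ} (hD : b ≤ D + 1) {U : Submodule K (Poly K)}
    (honto : imZ U = (Pp K) ^ D) (hU : U ≤ HS K D)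
    (hc : colZ (gpl f g D U) = U) :
    colZ (gpl f g (D + 1) (gpl f g D U)) = gpl f g D U := by
  apply le_antisymm _ le_colZ_gpl
  intro w hw
  have h1 : X 0 * w ∈ HS K 1 * gpl f g D U := by
    have h2 := mem_colZ.1 hw
    have h3 : gpl f g (D + 1) (gpl f g D U) ≤ HS K 1 * gpl f g D U :=
      sup_le le_rfl (h.FP_le_gpl_mul hD)
    exact h3 h2
  obtain ⟨c, hc', A, hA, B, hB, e⟩ := mem_HS1_mul.1 h1
  have e1 : X 1 * piZ A + X 2 * piZ B = 0 := by
    have := congrArg piZ e
    simpa using this.symm
  have e2 : (X 2 : Poly K) * piZ B = X 1 * (-piZ A) := by linear_combination e1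
  obtain ⟨m, hm⟩ := X1_dvd_of e2
  have e3 : piZ A = -(X 2 * m) := by
    have : (X 1 : Poly K) * (piZ A + X 2 * m) = 0 := by
      rw [hm] at e1
      linear_combination e1
    have := (mul_eq_zero.1 this).resolve_left (X_ne_zero 1)
    linear_combination this
  -- the element m is a form of the right degree without x₀
  have hAH : A ∈ HS K (D + 1) := gpl_le_HS hU hA
  have hmH : m ∈ HS K D := by
    have h4 : ((X 2 : Poly K) * (-m)).IsHomogeneous (D + 1) := by
      have := piZ_hom hAH
      rw [e3] at this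
      have e4 : -((X 2 : Poly K) * m) = X 2 * (-m) := by ring
      rwa [e4] at this
    have h6 : -m ∈ HS K D := homog_of_X_mul h4
    have h5 := (HS K D).neg_mem h6
    simpa using h5
  have hmpi : piZ m = m := by
    have h4 := congrArg piZ e3
    rw [piZ_idem, e3] at h4
    simp only [map_neg, map_mul, piZ_X2] at h4
    have h5 : (X 2 : Poly K) * (piZ m - m) = 0 := by linear_combination h4
    have := (mul_eq_zero.1 h5).resolve_left (X_ne_zero 2)
    linear_combination this
  have hmI : m ∈ imZ U := by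
    rw [honto, ← imZ_HS]
    exact mem_imZ.2 ⟨m, hmH, hmpi⟩
  obtain ⟨d', hd', hd2⟩ := mem_imZ.1 hmI
  -- the corrections
  have hA1 : ∃ A1, A + X 2 * d' = X 0 * A1 := by
    apply piZ_eq_zero_iff.1
    simp only [map_add, map_mul, piZ_X2, hd2, e3]
    ring
  have hB1 : ∃ B1, B - X 1 * d' = X 0 * B1 := by
    apply piZ_eq_zero_iff.1
    simp only [map_sub, map_mul, piZ_X1, hd2, hm]
    ring
  obtain ⟨A1, hA1⟩ := hA1
  obtain ⟨B1, hB1⟩ := hB1
  have hA2 : A1 ∈ U := by
    rw [← hc]
    refine mem_colZ.2 ?_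
    rw [← hA1]
    exact Submodule.add_mem _ hA (mul_mem_gpl hd' 2)
  have hB2 : B1 ∈ U := by
    rw [← hc]
    refine mem_colZ.2 ?_
    rw [← hB1]
    exact Submodule.sub_mem _ hB (mul_mem_gpl hd' 1)
  have e5 : X 0 * (w - c - (X 1 * A1 + X 2 * B1)) = 0 := by
    linear_combination e + X 1 * hA1 + X 2 * hB1
  have e6 : w = c + (X 1 * A1 + X 2 * B1) := by
    have := (mul_eq_zero.1 e5).resolve_left (X_ne_zero 0)
    linear_combination this
  rw [e6]
  exact Submodule.add_mem _ hc' (Submodule.add_mem _ (mul_mem_gpl hA2 1) (mul_mem_gpl hB2 2))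

/-- A subspace containing a nonzerodivisor and surjecting modulo `x₀` with the smallest possible
growth is everything. -/
theorem flat (ha2 : 2 ≤ a) {d : ℕ} {U : Submodule K (Poly K)} {ξ : Poly K} (hd : b ≤ d + 1)
    (hF : FP f g d ≤ U) (hU : U ≤ HS K d) (honto : imZ U = (Pp K) ^ d) (hξ : ξ ∈ U)
    (hn : NZ f g ξ)
    (hgr : finrank K (gpl f g d U) + finrank K (FP f g d) ≤
      finrank K U + finrank K (FP f g (d + 1)) + gg a b (d + 1)) : U = HS K d := by
  have hab := h.hab
  have hd1 : 1 ≤ d := by omega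
  have hfU := finite_of_le_HS hU
  -- first step
  have hc0 : colZ (gpl f g d U) = U := by
    have hUp := gpl_le_HS (f := f) (g := g) hU
    have e2 := finrank_col_add_im hUp
    rw [imZ_gpl_onto honto, finrank_Pp_pow] at e2
    have s1 := h.finrank_FP_succ d
    have g1 := h.finrank_FZ (d + 1)
    have hCp := colZ_le_HS hUp
    have hfC := finite_of_le_HS hCp
    refine (Submodule.eq_of_le_of_finrank_le le_colZ_gpl ?_).symm
    omega
  -- iteration
  have hTs : ∀ k, iterG f g d U (k + 1) = gpl f g (d + k) (iterG f g d U k) := fun _ => rfl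
  have key : ∀ k, iterG f g d U k ≤ HS K (d + k) ∧ FP f g (d + k) ≤ iterG f g d U k ∧
      imZ (iterG f g d U k) = (Pp K) ^ (d + k) ∧
      colZ (gpl f g (d + k) (iterG f g d U k)) = iterG f g d U k ∧
      finrank K (iterG f g d U k) + T d = T (d + k) + finrank K U ∧
      (∀ s, s.IsHomogeneous k → s * ξ ∈ iterG f g d U k) := by
    intro k
    induction k with
    | zero =>
      refine ⟨hU, hF, honto, hc0, ?_, ?_⟩
      · show finrank K U + T d = T d + finrank K U
        omega
      intro s hs
      rw [const_of_homog_zero hs, ← MvPolynomial.smul_eq_C_mul]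
      exact Submodule.smul_mem _ _ hξ
    | succ k ih =>
      obtain ⟨i1, i2, i3, i4, i5, i6⟩ := ih
      rw [hTs]
      have hUp := gpl_le_HS (f := f) (g := g) i1
      refine ⟨hUp, ?_, imZ_gpl_onto i3, h.persist (D := d + k) (by omega) i3 i1 i4, ?_, ?_⟩
      · exact FP_le_gpl
      · have e2 := finrank_col_add_im hUp
        rw [imZ_gpl_onto i3, finrank_Pp_pow, i4] at e2
        have := T_succ (d + k)
        rw [show d + (k + 1) = d + k + 1 by omega]
        omega
      · intro s hs
        have hs2 : s ∈ HS K 1 * HS K k := by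
          rw [HS_mul, add_comm]
          exact hs
        refine Submodule.mul_induction_on hs2 ?_ ?_
        · intro u hu v hv
          rw [mul_assoc]
          exact mul_le_gpl (Submodule.mul_mem_mul hu (i6 v hv))
        · intro x y hx hy
          rw [add_mul]
          exact Submodule.add_mem _ hx hy
  -- large degrees
  have hξH : ξ.IsHomogeneous d := hU hξ
  have hseq := h.formSeq_of_NZ hd1 hξH hn
  obtain ⟨i1, i2, _, _, i5, i6⟩ := key (a + b)
  have htop : HS K (d + (a + b)) ≤ iterG f g d U (a + b) := by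
    have hle := hseq.HS_le_FF (d := d + (a + b)) (by
      show a + b + d < d + (a + b) + 3
      omega)
    intro x hx
    have hx2 := hle hx
    obtain ⟨hx3, hx4⟩ := mem_FF.1 hx2
    obtain ⟨p, hp, e⟩ := hseq.rep hx4 hx3
    have e' : p 0 * f + p 1 * g + p 2 * ξ = x := e
    have hp2 : (p 2).IsHomogeneous (a + b) := by
      have := (hp 2).1 (by
        show d ≤ d + (a + b)
        omega)
      have e2 : d + (a + b) - (![a, b, d] : Fin 3 → ℕ) 2 = a + b := by
        show d + (a + b) - d = a + b
        omega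
      rwa [e2] at this
    have h0 : p 0 * f + p 1 * g = x - p 2 * ξ := by
      rw [← e']
      ring
    have h1 : p 0 * f + p 1 * g ∈ FP f g (d + (a + b)) := by
      refine mem_FP.2 ⟨⟨_, _, rfl⟩, ?_⟩
      rw [h0]
      have h3 := hp2.mul hξH
      rw [show a + b + d = d + (a + b) by omega] at h3
      exact IsHomogeneous.sub hx h3
    rw [← e']
    exact Submodule.add_mem _ (i2 h1) (i6 _ hp2)
  have hfT := finite_of_le_HS i1
  have hEq : iterG f g d U (a + b) = HS K (d + (a + b)) := le_antisymm i1 htop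
  rw [hEq, finrank_HS] at i5
  have hfH := finite_of_le_HS (le_refl (HS K d))
  refine Submodule.eq_of_le_of_finrank_le hU ?_
  rw [finrank_HS]
  omega

end ZP

end Vale.Agent.Lib.P200
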