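import Vale.Agent.Lib.P200.C2V

/-!
The growth of subspaces modulo a pair of forms: the minimal growth bound.
-/

namespace Vale.Agent.Lib.P200
open MvPolynomial Module

variable {K : Type*} [Field K]

/-- The next subspace: `S₁ U + F_{d+1}`. -/
noncomputable def gpl (f g : Poly K) (d : ℕ) (U : Submodule K (Poly K)) : Submodule K (Poly K) :=
  HS K 1 * U ⊔ FP f g (d + 1)

section

variable {f g : Poly K} {d : ℕ} {U : Submodule K (Poly K)}

theorem gpl_le_HS (hU : U ≤ HS K d) : gpl f g d U ≤ HS K (d + 1) := by
  refine sup_le ?_ (FP_le_HS f g (d + 1))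
  have := mul_le_HS (d := 1) (e := d) (W := HS K 1) (W' := U) le_rfl hU
  rwa [add_comm] at this

theorem imZ_gpl : imZ (gpl f g d U) = Pp K * imZ U ⊔ FZ f g (d + 1) := by
  unfold gpl
  rw [imZ_sup, imZ_HS1_mul]
  rfl

theorem FP_le_gpl : FP f g (d + 1) ≤ gpl f g d U := le_sup_right

theorem mul_le_gpl : HS K 1 * U ≤ gpl f g d U := le_sup_left

theorem mul_mem_gpl {x : Poly K} (hx : x ∈ U) (i : Fin 3) : X i * x ∈ gpl f g d U :=
  mul_le_gpl (X_mul_mem_HS1_mul hx i)

theorem le_colZ_gpl : U ≤ colZ (gpl f g d U) := fun _ hx => mem_colZ.2 (mul_mem_gpl hx 0)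

theorem gpl_colZ_le (U : Submodule K (Poly K)) :
    gpl f g d (colZ U) ≤ colZ (gpl f g (d + 1) U) := by
  refine sup_le ?_ ?_
  · rw [Submodule.mul_le]
    intro l hl m hm
    refine mem_colZ.2 (mul_le_gpl ?_)
    rw [show (X 0 : Poly K) * (l * m) = l * (X 0 * m) by ring]
    exact Submodule.mul_mem_mul hl hm
  · intro x hx
    refine mem_colZ.2 (FP_le_gpl (mul_FP_le f g (d + 1) (X_mul_mem_HS1_mul hx 0)))

theorem gpl_mono {V : Submodule K (Poly K)} (hUV : U ≤ V) : gpl f g d U ≤ gpl f g d V :=
  sup_le_sup_right (mul_le_mul' le_rfl hUV) _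

end

namespace ZP

variable {a b : ℕ} {f g : Poly K} (h : ZP a b f g)
include h

theorem FP_le_colZ {d : ℕ} {U : Submodule K (Poly K)} (hF : FP f g (d + 1) ≤ U) :
    FP f g d ≤ colZ U := by
  rw [← h.colZ_FP]
  exact colZ_mono hF

/-- The minimal growth bound. -/
theorem growthC (ha2 : 2 ≤ a) : ∀ (d : ℕ) (U : Submodule K (Poly K)) (p : ℕ), FP f g d ≤ U →
    U ≤ HS K d → p < a → LL a b p d + finrank K (FP f g d) < finrank K U →
    finrank K U + finrank K (FP f g (d + 1)) + min (p + 1) (tauZ a b d) ≤
      finrank K (gpl f g d U) + finrank K (FP f g d) + (a - 2 - d) := by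
  have hab := h.hab
  intro d
  induction d with
  | zero =>
    intro U p hF hU hp hr
    have hfinU := finite_of_le_HS hU
    have hfin1 := finite_of_le_HS (gpl_le_HS (f := f) (g := g) hU)
    rw [h.FP_zero, finrank_bot] at hr ⊢
    have hU1 : finrank K U ≤ 1 := by
      have := Submodule.finrank_mono hU
      rwa [finrank_HS, T_zero] at this
    have hUe : U = HS K 0 := by
      have := finite_of_le_HS (le_refl (HS K 0))
      refine Submodule.eq_of_le_of_finrank_le hU ?_
      rw [finrank_HS, T_zero]
      omega
    have hg : HS K 1 ≤ gpl f g 0 U := by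
      refine le_trans ?_ mul_le_gpl
      rw [hUe, HS_mul]
    have h3 : 3 ≤ finrank K (gpl f g 0 U) := by
      have := Submodule.finrank_mono hg
      rwa [finrank_HS, show T 1 = 3 by decide] at this
    have e1 : finrank K (FP f g 1) = finrank K (FZ f g 1) := by
      have := h.finrank_FP_succ 0
      rw [h.FP_zero, finrank_bot] at this
      simpa using this
    have e2 := h.finrank_FZ 1
    have e3 : gg a b 1 = 2 := by
      unfold gg
      rw [if_pos (by omega)]
    have e4 : tauZ a b 0 = a + b - 2 := rfl
    show finrank K U + finrank K (FP f g 1) + min (p + 1) (tauZ a b 0) ≤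
      finrank K (gpl f g 0 U) + 0 + (a - 2 - 0)
    omega
  | succ d ih =>
    intro U p hF hU hp hr
    have hfinU := finite_of_le_HS hU
    have hU' : colZ U ≤ HS K d := colZ_le_HS hU
    have hfinU' := finite_of_le_HS hU'
    have hF' : FP f g d ≤ colZ U := h.FP_le_colZ hF
    have hV : imZ U ≤ (Pp K) ^ (d + 1) := imZ_le_HS hU
    have hVF : FZ f g (d + 1) ≤ imZ U := imZ_mono hF
    have hVH : imZ U ≤ HS K (d + 1) := imZ_le_HS' hU
    have hUp : gpl f g (d + 1) U ≤ HS K (d + 1 + 1) := gpl_le_HS hU
    have e1 := finrank_col_add_im hU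
    have e2 := finrank_col_add_im hUp
    rw [imZ_gpl] at e2
    have hCp : colZ (gpl f g (d + 1) U) ≤ HS K (d + 1) := colZ_le_HS hUp
    have hfinCp := finite_of_le_HS hCp
    have h3 : finrank K U ≤ finrank K (colZ (gpl f g (d + 1) U)) :=
      Submodule.finrank_mono le_colZ_gpl
    have h4 : finrank K (gpl f g d (colZ U)) ≤ finrank K (colZ (gpl f g (d + 1) U)) :=
      Submodule.finrank_mono (gpl_colZ_le U)
    have s1 := h.finrank_FP_succ d
    have s2 := h.finrank_FP_succ (d + 1)
    have gF1 := h.finrank_FZ (d + 1)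
    have gF2 := h.finrank_FZ (d + 1 + 1)
    have hIle : FZ f g (d + 1 + 1) ≤ Pp K * imZ U ⊔ FZ f g (d + 1 + 1) := le_sup_right
    have hISH : Pp K * imZ U ⊔ FZ f g (d + 1 + 1) ≤ HS K (d + 1 + 1) :=
      sup_le (Pp_mul_le_HS hVH) (FZ_le_HS f g _)
    have hfinI := finite_of_le_HS hISH
    have hI1 := Submodule.finrank_mono hIle
    by_cases hall : imZ U = (Pp K) ^ (d + 1)
    · -- the image is everything
      have hI : Pp K * imZ U ⊔ FZ f g (d + 1 + 1) = (Pp K) ^ (d + 1 + 1) := by
        rw [hall, ← pow_succ']
        exact sup_eq_left.2 (FZ_le_Pp f g _)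
      rw [hI, finrank_Pp_pow] at e2
      have hgg : min (p + 1) (tauZ a b (d + 1)) ≤ gg a b (d + 1 + 1) + (a - 2 - (d + 1)) := by
        unfold gg tauZ
        split_ifs <;> omega
      omega
    have h2V := h.twoV hVF hV hall
    by_cases hlow : d + 1 + 1 < a
    · -- the range of the polynomial ring
      have g1 : gg a b (d + 1) = d + 2 := by
        unfold gg
        rw [if_pos (by omega)]
      have g2 : gg a b (d + 1 + 1) = d + 3 := by
        unfold gg
        rw [if_pos (by omega)]
      have hmin : tauZ a b (d + 1) ≥ p + 1 := by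
        unfold tauZ
        omega
      have hmin2 : tauZ a b d ≥ p + 2 := by
        unfold tauZ
        omega
      by_cases hbot : imZ U = ⊥
      · rw [hbot, finrank_bot] at e1
        by_cases hpa : p + 1 < a
        · have hs := LL_shift a b p d (by omega)
          have := ih (colZ U) (p + 1) hF' hU' hpa (by omega)
          omega
        · have hs := LL_shift a b p d (by omega)
          have hpe : p + 1 = a := by omega
          rw [hpe] at hs
          have hT := h.LL_all d
          have := Submodule.finrank_mono hU'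
          rw [finrank_HS] at this
          omega
      · have hgrow := growth_pos (d + 1) hVH hbot
        have hPle : Pp K * imZ U ≤ Pp K * imZ U ⊔ FZ f g (d + 1 + 1) := le_sup_left
        have hP1 := Submodule.finrank_mono hPle
        have hD : Dl a b p (d + 1) = p + 1 - (a - (d + 1)) := by
          unfold Dl
          omega
        by_cases hbig : min (p + 1) (tauZ a b (d + 1)) ≤ finrank K (imZ U) + 1 + (a - 2 - (d + 1))
        · omega
        · have hst := LL_step a b p d
          have := ih (colZ U) p hF' hU' hp (by omega)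
          omega
    · -- from the degree of the first form on
      have hs0 : a - 2 - (d + 1) = 0 := by omega
      have hs1 : a - 2 - d = 0 := by omega
      rw [hs0]
      by_cases hbig : min (p + 1) (tauZ a b (d + 1)) + finrank K (FZ f g (d + 1)) ≤
          finrank K (imZ U)
      · omega
      · have hst := LL_step a b p d
        have hD : min (p + 1) (tauZ a b (d + 1)) ≤ Dl a b p (d + 1) + 1 := by
          unfold Dl tauZ
          omega
        have := ih (colZ U) p hF' hU' hp (by omega)
        rw [hs1] at this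
        have hm : min (p + 1) (tauZ a b (d + 1)) ≤ min (p + 1) (tauZ a b d) := by
          unfold tauZ
          omega
        omega

end ZP

end Vale.Agent.Lib.P200
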