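import Vale.Agent.Lib.P200.CFlat

/-!
Subspaces of growth one are killed by a linear form.
-/

namespace Vale.Agent.Lib.P200
open MvPolynomial Module

variable {K : Type*} [Field K]

/-- The dimension count for the image of a linear map modulo a subspace. -/
theorem finrank_range_sup {E : Type*} [AddCommGroup E] [Module K E] [Module.Finite K E]
    (χ : E →ₗ[K] Poly K) (P : Submodule K (Poly K)) [Module.Finite K P] :
    finrank K (LinearMap.range χ ⊔ P : Submodule K (Poly K)) + finrank K (P.comap χ) =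
      finrank K E + finrank K P := by
  have e1 := Submodule.finrank_sup_add_finrank_inf_eq (LinearMap.range χ) P
  have e2 := LinearMap.finrank_range_add_finrank_ker χ
  have e3 := LinearMap.finrank_range_add_finrank_ker (χ.domRestrict (P.comap χ))
  rw [LinearMap.range_domRestrict, Submodule.map_comap_eq, LinearMap.ker_domRestrict] at e3
  have hle : LinearMap.ker χ ≤ P.comap χ := fun x hx => by
    rw [LinearMap.mem_ker] at hx
    simp [Submodule.mem_comap, hx]
  have e4 := (Submodule.comapSubtypeEquivOfLe hle).finrank_eq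
  rw [e4] at e3
  omega

theorem LL_low {a b p d : ℕ} (h : p + d + 1 ≤ a) : LL a b p d = 0 := by
  induction p with
  | zero => rfl
  | succ p ih =>
    rw [LL_succ, ih (by omega)]
    simp [ell]
    omega

section

variable {f g : Poly K}

/-- A form killing a subspace kills the next one. -/
theorem mul_mem_of_gpl {d : ℕ} {U : Submodule K (Poly K)} {δ : Poly K}
    (hδ : ∀ u ∈ U, δ * u ∈ FPi f g) {x : Poly K} (hx : x ∈ gpl f g d U) : δ * x ∈ FPi f g := by
  obtain ⟨y, hy, φ, hφ, rfl⟩ := Submodule.mem_sup.1 hx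
  rw [mul_add]
  refine Ideal.add_mem _ ?_ (Ideal.mul_mem_left _ _ (mem_pieceT.1 hφ).1)
  refine Submodule.mul_induction_on hy ?_ ?_
  · intro l _ m hm
    rw [show δ * (l * m) = l * (δ * m) by ring]
    exact Ideal.mul_mem_left _ _ (hδ m hm)
  · intro a b ha hb
    rw [mul_add]
    exact Ideal.add_mem _ ha hb

theorem gpl_HS (f g : Poly K) (d : ℕ) : gpl f g d (HS K d) = HS K (d + 1) := by
  apply le_antisymm (gpl_le_HS le_rfl)
  refine le_trans ?_ mul_le_gpl
  rw [HS_mul, add_comm]

end

namespace ZP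

variable {a b : ℕ} {f g : Poly K} (h : ZP a b f g)
include h

/-- The case of dimension one. -/
theorem exists_linear_one {d : ℕ} {U : Submodule K (Poly K)} (hF : FP f g d ≤ U) (hU : U ≤ HS K d)
    (hn : finrank K U = finrank K (FP f g d) + 1)
    (hgr : finrank K (gpl f g d U) + finrank K (FP f g d) ≤
      finrank K U + finrank K (FP f g (d + 1)) + 1) :
    ∃ δ, δ ∈ HS K 1 ∧ δ ≠ 0 ∧ ∀ u ∈ U, δ * u ∈ FPi f g := by
  have hfU := finite_of_le_HS hU
  have hfF := finite_of_le_HS (FP_le_HS f g d)
  have hfF1 := finite_of_le_HS (FP_le_HS f g (d + 1))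
  have hUp := gpl_le_HS (f := f) (g := g) hU
  have hfUp := finite_of_le_HS hUp
  have hlt : FP f g d < U := by
    refine lt_of_le_of_ne hF ?_
    intro he
    rw [← he] at hn
    omega
  obtain ⟨u, huU, hu⟩ := SetLike.exists_of_lt hlt
  have huH : u ∈ HS K d := hU huU
  let χ : HS K 1 →ₗ[K] Poly K := (LinearMap.mulRight K u) ∘ₗ (HS K 1).subtype
  have hχ : ∀ l : HS K 1, χ l = (l : Poly K) * u := fun _ => rfl
  have hr : LinearMap.range χ ⊔ FP f g (d + 1) ≤ gpl f g d U := by
    refine sup_le ?_ FP_le_gpl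
    rintro _ ⟨l, rfl⟩
    rw [hχ]
    exact mul_le_gpl (Submodule.mul_mem_mul l.2 huU)
  have e := finrank_range_sup χ (FP f g (d + 1))
  rw [finrank_HS, show T 1 = 3 by decide] at e
  have h1 := Submodule.finrank_mono hr
  have hpos : 0 < finrank K ((FP f g (d + 1)).comap χ) := by omega
  have hnt : Nontrivial ((FP f g (d + 1)).comap χ) := Module.finrank_pos_iff.1 hpos
  obtain ⟨⟨δ, hδ⟩, hδ0⟩ := exists_ne (0 : (FP f g (d + 1)).comap χ)
  refine ⟨δ.1, δ.2, fun he => hδ0 (Subtype.ext (Subtype.ext he)), ?_⟩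
  -- every element of the subspace is a multiple of `u` modulo the pair
  have hδu : δ.1 * u ∈ FPi f g := (mem_pieceT.1 hδ).1
  have hspan : U ≤ FP f g d ⊔ Submodule.span K {u} := by
    have hle : FP f g d ⊔ Submodule.span K {u} ≤ U :=
      sup_le hF ((Submodule.span_singleton_le_iff_mem _ _).2 huU)
    have hgt : FP f g d < FP f g d ⊔ Submodule.span K {u} := by
      refine lt_of_le_of_ne le_sup_left ?_
      intro he
      apply hu
      rw [he]
      exact Submodule.mem_sup_right (Submodule.mem_span_singleton_self _)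
    have hfS : Module.Finite K (FP f g d ⊔ Submodule.span K {u} : Submodule K (Poly K)) :=
      Submodule.finiteDimensional_of_le hle
    have hlt2 := Submodule.finrank_lt_finrank_of_lt hgt
    exact (Submodule.eq_of_le_of_finrank_le hle (by omega)).symm.le
  intro v hv
  obtain ⟨φ, hφ, w, hw, rfl⟩ := Submodule.mem_sup.1 (hspan hv)
  obtain ⟨c, rfl⟩ := Submodule.mem_span_singleton.1 hw
  rw [mul_add, MvPolynomial.smul_eq_C_mul, show δ.1 * (C c * u) = C c * (δ.1 * u) by ring]
  exact Ideal.add_mem _ (Ideal.mul_mem_left _ _ (mem_pieceT.1 hφ).1) (Ideal.mul_mem_left _ _ hδu)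

/-- Subspaces of growth one are killed by a linear form. -/
theorem exists_linear (ha2 : 2 ≤ a) : ∀ (d : ℕ) (U : Submodule K (Poly K)), FP f g d ≤ U →
    U ≤ HS K d → finrank K (FP f g d) < finrank K U → 2 ≤ tauZ a b d →
    finrank K (gpl f g d U) + finrank K (FP f g d) ≤
      finrank K U + finrank K (FP f g (d + 1)) + 1 →
    ∃ δ, δ ∈ HS K 1 ∧ δ ≠ 0 ∧ ∀ u ∈ U, δ * u ∈ FPi f g := by
  have hab := h.hab
  intro d
  induction d with
  | zero =>
    intro U hF hU hn ht hgr
    have hU1 : finrank K U ≤ 1 := by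
      have hfH := finite_of_le_HS (le_refl (HS K 0))
      have := Submodule.finrank_mono hU
      rwa [finrank_HS, T_zero] at this
    refine h.exists_linear_one hF hU ?_ hgr
    omega
  | succ d ih =>
    intro U hF hU hn ht hgr
    by_cases hn1 : finrank K U = finrank K (FP f g (d + 1)) + 1
    · exact h.exists_linear_one hF hU hn1 hgr
    have hfinU := finite_of_le_HS hU
    have hU' : colZ U ≤ HS K d := colZ_le_HS hU
    have hfinU' := finite_of_le_HS hU'
    have hF' : FP f g d ≤ colZ U := h.FP_le_colZ hF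
    have hV : imZ U ≤ (Pp K) ^ (d + 1) := imZ_le_HS hU
    have hVF : FZ f g (d + 1) ≤ imZ U := imZ_mono hF
    have hVH : imZ U ≤ HS K (d + 1) := imZ_le_HS' hU
    have hUp : gpl f g (d + 1) U ≤ HS K (d + 1 + 1) := gpl_le_HS hU
    have e1 := finrank_col_add_im hU
    have e2 := finrank_col_add_im hUp
    rw [imZ_gpl] at e2
    have hCp : colZ (gpl f g (d + 1) U) ≤ HS K (d + 1) := colZ_le_HS hUp
    have hfinCp := finite_of_le_HS hCp
    have h3 : finrank K U ≤ finrank K (colZ (gpl f g (d + 1) U)) :=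
      Submodule.finrank_mono le_colZ_gpl
    have h4 : finrank K (gpl f g d (colZ U)) ≤ finrank K (colZ (gpl f g (d + 1) U)) :=
      Submodule.finrank_mono (gpl_colZ_le U)
    have s1 := h.finrank_FP_succ d
    have s2 := h.finrank_FP_succ (d + 1)
    have gF1 := h.finrank_FZ (d + 1)
    have gF2 := h.finrank_FZ (d + 1 + 1)
    by_cases hall : imZ U = (Pp K) ^ (d + 1)
    · exfalso
      have hI : Pp K * imZ U ⊔ FZ f g (d + 1 + 1) = (Pp K) ^ (d + 1 + 1) := by
        rw [hall, ← pow_succ']
        exact sup_eq_left.2 (FZ_le_Pp f g _)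
      rw [hI, finrank_Pp_pow] at e2
      have hgg : 2 ≤ gg a b (d + 1 + 1) := by
        unfold tauZ at ht
        unfold gg
        split_ifs <;> omega
      omega
    have h2V := h.twoV hVF hV hall
    have hnU' : finrank K (FP f g d) < finrank K (colZ U) := by omega
    -- growth of the colon space
    have hgU' : 1 ≤ finrank K (gpl f g d (colZ U)) + finrank K (FP f g d) -
        (finrank K (colZ U) + finrank K (FP f g (d + 1))) ∧
        (d + 2 ≤ a → 2 ≤ finrank K (gpl f g d (colZ U)) + finrank K (FP f g d) -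
        (finrank K (colZ U) + finrank K (FP f g (d + 1)))) := by
      unfold tauZ at ht
      have hfXX := finite_of_le_HS (gpl_le_HS (f := f) (g := g) hU')
      by_cases hlow : d + 2 ≤ a
      · have hL : LL a b (a - d - 1) d = 0 := LL_low (by omega)
        have := h.growthC ha2 d (colZ U) (a - d - 1) hF' hU' (by omega) (by omega)
        unfold tauZ at this
        omega
      · have := h.growthC ha2 d (colZ U) 0 hF' hU' (by omega) (by simpa using hnU')
        unfold tauZ at this
        omega
    obtain ⟨hg1, hg2⟩ := hgU'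
    have hlow : ¬ d + 2 ≤ a := by
      intro hh
      have := hg2 hh
      omega
    have hI1 : FZ f g (d + 1 + 1) ≤ Pp K * imZ U ⊔ FZ f g (d + 1 + 1) := le_sup_right
    have hISH : Pp K * imZ U ⊔ FZ f g (d + 1 + 1) ≤ HS K (d + 1 + 1) :=
      sup_le (Pp_mul_le_HS hVH) (FZ_le_HS f g _)
    have hfinI := finite_of_le_HS hISH
    have hI2 := Submodule.finrank_mono hI1
    have hfXX := finite_of_le_HS (gpl_le_HS (f := f) (g := g) hU')
    have hEq : gpl f g d (colZ U) = colZ (gpl f g (d + 1) U) :=
      Submodule.eq_of_le_of_finrank_le (gpl_colZ_le U) (by omega)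
    obtain ⟨δ, hδ1, hδ0, hδ⟩ := ih (colZ U) hF' hU' hnU' (by unfold tauZ at ht ⊢; omega) (by omega)
    refine ⟨δ, hδ1, hδ0, fun u hu => ?_⟩
    apply mul_mem_of_gpl (d := d) (U := colZ U) hδ
    rw [hEq]
    exact le_colZ_gpl hu

end ZP

end Vale.Agent.Lib.P200
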