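import Vale.Agent.Lib.P200.CDual

/-!
The growth bound for three forms of degrees `a, b, a + b - 3` in normalised coordinates.
-/

namespace Vale.Agent.Lib.P200
open MvPolynomial Module

variable {K : Type*} [Field K]

namespace ZP

variable {a b c : ℕ} {f g t : Poly K} (h : ZP a b f g)
include h

theorem FF_low (hc : 1 ≤ c) (ht : t.IsHomogeneous c) (hn : NZ f g t) {d : ℕ} (hd : d < c) :
    FF ![f, g, t] d = FP f g d := by
  have hs := h.formSeq_of_NZ hc ht hn
  rw [hs.FF_of_lt (by simpa using hd), pieceT_J2]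
  rfl

omit h in
theorem FP_le_FF (d : ℕ) : FP f g d ≤ FF ![f, g, t] d := by
  intro x hx
  obtain ⟨h1, h2⟩ := mem_pieceT.1 hx
  refine mem_FF.2 ⟨?_, h2⟩
  obtain ⟨α, β, rfl⟩ := mem_FPi.1 h1
  refine Ideal.add_mem _ (Ideal.mul_mem_left _ _ (Ideal.subset_span ⟨0, rfl⟩))
    (Ideal.mul_mem_left _ _ (Ideal.subset_span ⟨1, rfl⟩))

theorem finrank_FF_top (hc : 1 ≤ c) (ht : t.IsHomogeneous c) (hn : NZ f g t) :
    finrank K (FF ![f, g, t] c) = finrank K (FP f g c) + 1 := by
  have hs := h.formSeq_of_NZ hc ht hn
  have e1 := hs.finrank_FF c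
  have e2 := hs.finrank_J2 c
  have e3 := hs.finrank_J2 0
  rw [pieceT_J2] at e2 e3
  have e4 : ![f, g, t] 0 = f := rfl
  have e5 : ![f, g, t] 1 = g := rfl
  rw [e4, e5] at e2 e3
  rw [h.FP_zero, finrank_bot] at e3
  have e6 : phi3 ![a, b, c] c = phi2 ![a, b, c] c + (T 0 - phi2 ![a, b, c] 0) := by
    unfold phi3
    rw [if_pos (by simp)]
    simp
  rw [e1, e6, e2, ← e3, T_zero]

/-- The growth into the degree of the third form. -/
theorem growth_top [Infinite K] (ha3 : 3 ≤ a) (hc : c + 3 = a + b) (ht : t.IsHomogeneous c)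
    (hn : NZ f g t) {d : ℕ} (hd : d + 1 = c) {X Y : Submodule K (Poly K)} (h1 : FP f g d ≤ X)
    (h2 : X ≤ HS K d) (h3 : HS K 1 * X ≤ Y) (h4 : FF ![f, g, t] c ≤ Y) (h5 : Y ≤ HS K c)
    (hne : finrank K X < T d) {p : ℕ} (hp : p < a) (hr : LL a b p d + finrank K (FP f g d) < finrank K X) :
    finrank K (FF ![f, g, t] c) + (finrank K X - finrank K (FP f g d)) + min (p + 1) 2 ≤
      finrank K Y := by
  have hab := h.hab
  have hc1 : 1 ≤ c := by omega
  have hfX := finite_of_le_HS h2
  have hfY := finite_of_le_HS h5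
  have hfF := finite_of_le_HS (FP_le_HS f g d)
  have hfF1 := finite_of_le_HS (FP_le_HS f g c)
  have hle : gpl f g d X ≤ Y := by
    refine sup_le h3 ?_
    rw [hd]
    exact le_trans (FP_le_FF c) h4
  have hgH : gpl f g d X ≤ HS K (d + 1) := gpl_le_HS h2
  have hfG := finite_of_le_HS hgH
  have hlee := Submodule.finrank_mono hle
  have eF := h.finrank_FF_top hc1 ht hn
  have hF1 : FP f g (d + 1) = FP f g c := by rw [hd]
  have hgrow := h.growthC (by omega) d X p h1 h2 hp hr
  rw [hF1] at hgrow
  have hτ : tauZ a b d = 2 := by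
    unfold tauZ
    omega
  rw [hτ, show a - 2 - d = 0 by omega] at hgrow
  have hXne : X ≠ HS K d := by
    intro he
    rw [he, finrank_HS] at hne
    omega
  by_cases htm : t ∈ gpl f g d X
  · -- the subspace contains a nonzerodivisor
    have hnz : ∃ ξ ∈ X, NZ f g ξ := by
      by_contra hcon
      push Not at hcon
      obtain ⟨P, hP, hPX⟩ := exists_assoc_of_no_nz hcon
      have hgP : ∀ x ∈ gpl f g d X, x ∈ P := by
        intro x hx
        have hle2 : gpl f g d X ≤ P.restrictScalars K := by
          refine sup_le ?_ ?_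
          · rw [Submodule.mul_le]
            intro u _ v hv
            exact P.mul_mem_left u (hPX v hv)
          · intro y hy
            exact FPi_le_of_assoc hP (mem_pieceT.1 hy).1
        exact hle2 hx
      exact (nz_iff.1 hn) P hP (hgP t htm)
    obtain ⟨ξ, hξ, hξn⟩ := hnz
    by_cases hn2 : finrank K (FP f g d) + 2 ≤ finrank K X
    · have := h.growthZ ha3 d X h1 h2 ⟨ξ, hξ, hξn⟩ hXne hn2 (by omega)
      rw [hF1] at this
      have : min (p + 1) 2 ≤ 2 := by omega
      omega
    · have hn1 : finrank K X = finrank K (FP f g d) + 1 := by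
        omega
      -- the row count forces `p = 0`
      have hp0 : p = 0 := by
        by_contra hp0
        have h6 : LL a b 1 d ≤ LL a b p d := LL_mono_p a b (by omega) d
        have h7 : LL a b 1 d = ell a b 1 d := by
          rw [show (1 : ℕ) = 0 + 1 from rfl, LL_succ, LL_zero, zero_add]
        have h8 : 1 ≤ ell a b 1 d := by
          unfold ell
          omega
        omega
      subst hp0
      have hξH : ξ.IsHomogeneous d := h2 hξ
      have hrange := finrank_range_sup (E := HS K 1) (((LinearMap.mulRight K ξ)).comp (HS K 1).subtype)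
        (FP f g c)
      have hcomap : (FP f g c).comap (((LinearMap.mulRight K ξ)).comp (HS K 1).subtype) = ⊥ := by
        rw [eq_bot_iff]
        rintro ⟨l, hl⟩ hx
        have hm : l * ξ ∈ FPi f g := (mem_pieceT.1 hx).1
        have h9 := hξn l hm
        have h10 : l = 0 := h.FP_mem_eq_zero (d := 1) (by omega) h9 hl
        subst h10
        rfl
      rw [hcomap, finrank_bot, finrank_HS, show T 1 = 3 by decide] at hrange
      have hsub : LinearMap.range (((LinearMap.mulRight K ξ)).comp (HS K 1).subtype) ⊔ FP f g c ≤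
          gpl f g d X := by
        refine sup_le ?_ ?_
        · rintro _ ⟨⟨l, hl⟩, rfl⟩
          exact mul_le_gpl (Submodule.mul_mem_mul hl hξ)
        · rw [← hF1]
          exact FP_le_gpl
      have := Submodule.finrank_mono hsub
      simp at hrange this ⊢
      omega
  · -- the third form is new
    have hsub : gpl f g d X ⊔ Submodule.span K {t} ≤ Y := by
      refine sup_le hle ((Submodule.span_singleton_le_iff_mem _ _).2 (h4 ?_))
      refine mem_FF.2 ⟨Ideal.subset_span ⟨2, rfl⟩, ht⟩
    have hgt : gpl f g d X < gpl f g d X ⊔ Submodule.span K {t} := by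
      refine lt_of_le_of_ne le_sup_left ?_
      intro he
      apply htm
      rw [he]
      exact Submodule.mem_sup_right (Submodule.mem_span_singleton_self _)
    have hfS : Module.Finite K (gpl f g d X ⊔ Submodule.span K {t} : Submodule K (Poly K)) :=
      Submodule.finiteDimensional_of_le hsub
    have h6 := Submodule.finrank_lt_finrank_of_lt hgt
    have h7 := Submodule.finrank_mono hsub
    have h8 := Submodule.finrank_mono h1
    omega

/-- The growth bound in normalised coordinates. -/
theorem growth_norm [Infinite K] (ha3 : 3 ≤ a) (hc : c + 3 = a + b) (ht : t.IsHomogeneous c)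
    (hn : NZ f g t) {d : ℕ} (hd : d + 1 ≤ c) {X Y : Submodule K (Poly K)}
    (h1 : FF ![f, g, t] d ≤ X) (h2 : X ≤ HS K d) (h3 : HS K 1 * X ≤ Y)
    (h4 : FF ![f, g, t] (d + 1) ≤ Y) (h5 : Y ≤ HS K (d + 1)) (hne : finrank K X < T d) {p : ℕ}
    (hp : p < a) (hr : LL a b p d + finrank K (FF ![f, g, t] d) < finrank K X) :
    finrank K (FF ![f, g, t] (d + 1)) + (finrank K X - finrank K (FF ![f, g, t] d)) +
      min (p + 1) (tauZ a b d) ≤ finrank K Y + (a - 2 - d) := by
  have hab := h.hab
  have hc1 : 1 ≤ c := by omega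
  have hFd := h.FF_low hc1 ht hn (show d < c by omega)
  rw [hFd] at h1 hr ⊢
  by_cases hdc : d + 1 = c
  · subst hdc
    have := h.growth_top ha3 hc ht hn rfl h1 h2 h3 h4 h5 hne hp hr
    have hτ : tauZ a b d = 2 := by
      unfold tauZ
      omega
    rw [hτ]
    omega
  · have hFd1 := h.FF_low hc1 ht hn (show d + 1 < c by omega)
    rw [hFd1] at h4 ⊢
    have hfY := finite_of_le_HS h5
    have hle : gpl f g d X ≤ Y := sup_le h3 h4
    have := Submodule.finrank_mono hle
    have h6 := h.growthC (by omega) d X p h1 h2 hp hr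
    have hfX := finite_of_le_HS h2
    have h8 := Submodule.finrank_mono h1
    omega

end ZP

end Vale.Agent.Lib.P200
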