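import Vale.Agent.Lib.P200.CBasic

/-!
Numerical functions attached to a pair of degrees: the Hilbert function of the quotient modulo
`x₀`, the rows of the model and the sums of the first rows.
-/

namespace Vale.Agent.Lib.P200
open MvPolynomial Module

variable {K : Type*} [Field K]

theorem T_zero : T 0 = 1 := by decide

/-- The Hilbert function of the quotient by a pair of degrees `a ≤ b` and a variable. -/
def gg (a b e : ℕ) : ℕ := if e < a then e + 1 else if e < b then a else a + b - 1 - e

/-- The number of rows of the model that still grow after degree `d`. -/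
def tauZ (a b d : ℕ) : ℕ := a + b - 2 - d

/-- The length of the `k`-th row of the model in degree `d`. -/
def ell (a b k d : ℕ) : ℕ := min (d + k + 1 - a) b

/-- The total length of the first `p` rows of the model in degree `d`. -/
def LL (a b : ℕ) : ℕ → ℕ → ℕ
  | 0, _ => 0
  | p + 1, d => LL a b p d + ell a b (p + 1) d

@[simp] theorem LL_zero (a b d : ℕ) : LL a b 0 d = 0 := rfl

theorem LL_succ (a b p d : ℕ) : LL a b (p + 1) d = LL a b p d + ell a b (p + 1) d := rfl

/-- The number of rows among the first `p` that grow from degree `D - 1` to degree `D`. -/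
def Dl (a b p D : ℕ) : ℕ := min p (a + b - D - 1) + 1 - max 1 (a - D)

theorem LL_step (a b p d : ℕ) : LL a b p (d + 1) = LL a b p d + Dl a b p (d + 1) := by
  induction p with
  | zero =>
    simp [Dl]
  | succ p ih =>
    rw [LL_succ, LL_succ, ih]
    unfold ell Dl
    omega

theorem LL_mono_p (a b : ℕ) {p q : ℕ} (h : p ≤ q) (d : ℕ) : LL a b p d ≤ LL a b q d := by
  induction q, h using Nat.le_induction with
  | base => exact le_rfl
  | succ q _ ih =>
    rw [LL_succ]
    omega

/-- In low degrees the rows shift. -/
theorem LL_shift (a b p d : ℕ) (hd : d + 2 ≤ a) : LL a b (p + 1) d = LL a b p (d + 1) := by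
  induction p with
  | zero =>
    rw [LL_succ]
    simp [ell]
    omega
  | succ p ih =>
    rw [LL_succ, ih, LL_succ]
    unfold ell
    congr 1
    omega

/-- The recursion for the dimension of the ideal of a pair. -/
theorem phi2_rec {a b c : ℕ} (ha : 1 ≤ a) (hab : a ≤ b) (d : ℕ) :
    phi2 ![a, b, c] (d + 1) + gg a b (d + 1) = phi2 ![a, b, c] d + d + 2 := by
  have e : ∀ D, phi2 ![a, b, c] D = (if a ≤ D then T (D - a) else 0) +
      (if b ≤ D then T (D - b) - (if a ≤ D - b then T (D - b - a) else 0) else 0) := fun _ => rfl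
  rw [e, e]
  unfold gg
  have hA : a ≤ d → T (d + 1 - a) = T (d - a) + (d - a + 2) := by
    intro hh
    rw [show d + 1 - a = (d - a) + 1 by omega, T_succ]
  have hA0 : a = d + 1 → T (d + 1 - a) = 1 := by
    intro hh
    rw [hh, Nat.sub_self]
    exact T_zero
  have hB : b ≤ d → T (d + 1 - b) = T (d - b) + (d - b + 2) := by
    intro hh
    rw [show d + 1 - b = (d - b) + 1 by omega, T_succ]
  have hB0 : b = d + 1 → T (d + 1 - b) = 1 := by
    intro hh
    rw [hh, Nat.sub_self]
    exact T_zero
  have hC : a + b ≤ d → T (d + 1 - b - a) = T (d - b - a) + (d - b - a + 2) := by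
    intro hh
    rw [show d + 1 - b - a = (d - b - a) + 1 by omega, T_succ]
  have hC0 : a + b = d + 1 → T (d + 1 - b - a) = 1 := by
    intro hh
    rw [show d + 1 - b - a = 0 by omega]
    exact T_zero
  have m1 : T (d - b - a) ≤ T (d - b) := T_mono (by omega)
  have m2 : T (d + 1 - b - a) ≤ T (d + 1 - b) := T_mono (by omega)
  split_ifs <;> omega

end Vale.Agent.Lib.P200
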