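import Vale.Agent.Lib.P200.CGrow

/-!
Nonzerodivisors modulo a pair of forms; avoiding finitely many subspaces.
-/

namespace Vale.Agent.Lib.P200
open MvPolynomial Module

variable {K : Type*} [Field K]

/-- `ξ` is a nonzerodivisor modulo the pair. -/
def NZ (f g ξ : Poly K) : Prop := ∀ p, p * ξ ∈ FPi f g → p ∈ FPi f g

/-- The associated primes of the pair. -/
def assocF (f g : Poly K) : Set (Ideal (Poly K)) :=
  associatedPrimes (Poly K) (Poly K ⧸ FPi f g)

section

variable {f g : Poly K}

theorem assocF_finite : (assocF f g).Finite := associatedPrimes.finite _ _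

theorem FPi_le_of_assoc {P : Ideal (Poly K)} (hP : P ∈ assocF f g) : FPi f g ≤ P := by
  have h := isAssociatedPrime_iff.1 (AssociatedPrimes.mem_iff.1 hP)
  obtain ⟨_, x, hx⟩ := h
  intro j hj
  rw [hx, Submodule.mem_colon_singleton]
  obtain ⟨q, rfl⟩ := Ideal.Quotient.mk_surjective x
  rw [Submodule.mem_bot, ← Ideal.Quotient.mk_eq_mk, ← Submodule.Quotient.mk_smul, smul_eq_mul]
  exact (Submodule.Quotient.mk_eq_zero _).2 (Ideal.mul_mem_right _ _ hj)

theorem nz_iff {ξ : Poly K} : NZ f g ξ ↔ ∀ P ∈ assocF f g, ξ ∉ P := by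
  have hU := biUnion_associatedPrimes_eq_zero_divisors (Poly K) (Poly K ⧸ FPi f g)
  constructor
  · intro hN P hP hξ
    have : ξ ∈ ⋃ p ∈ associatedPrimes (Poly K) (Poly K ⧸ FPi f g), (p : Set (Poly K)) :=
      Set.mem_biUnion hP hξ
    rw [hU] at this
    obtain ⟨x, hx0, hx⟩ := this
    obtain ⟨q, rfl⟩ := Ideal.Quotient.mk_surjective x
    apply hx0
    rw [← Ideal.Quotient.mk_eq_mk, ← Submodule.Quotient.mk_smul, smul_eq_mul] at hx
    rw [← Ideal.Quotient.mk_eq_mk]
    have h1 : ξ * q ∈ FPi f g := (Submodule.Quotient.mk_eq_zero _).1 hx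
    exact (Submodule.Quotient.mk_eq_zero _).2 (hN q (by rwa [mul_comm]))
  · intro hN p hp
    by_contra hcon
    have : ξ ∈ {r : Poly K | ∃ x : Poly K ⧸ FPi f g, x ≠ 0 ∧ r • x = 0} := by
      refine ⟨Ideal.Quotient.mk _ p, ?_, ?_⟩
      · intro h0
        exact hcon ((Submodule.Quotient.mk_eq_zero _).1 h0)
      · rw [← Ideal.Quotient.mk_eq_mk, ← Submodule.Quotient.mk_smul, smul_eq_mul]
        exact (Submodule.Quotient.mk_eq_zero _).2 (by rwa [mul_comm])
    rw [← hU] at this
    obtain ⟨P, hP, hm⟩ := Set.mem_iUnion₂.1 this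
    exact hN P hP hm

/-- In an infinite field, a subspace containing a nonzerodivisor and not contained in a given
subspace contains a nonzerodivisor outside this subspace. -/
theorem exists_nz_avoid [Infinite K] {U X : Submodule K (Poly K)} {ξ0 : Poly K} (h0 : ξ0 ∈ U)
    (hn : NZ f g ξ0) (hX : ¬ U ≤ X) : ∃ ξ ∈ U, NZ f g ξ ∧ ξ ∉ X := by
  classical
  have : Finite (assocF f g) := assocF_finite.to_subtype
  by_contra hcon
  push Not at hcon
  let p : Option (assocF f g) → Subspace K U := fun o =>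
    match o with
    | none => X.comap U.subtype
    | some P => ((P.1).restrictScalars K).comap U.subtype
  have hcov : ⋃ i, (p i : Set U) = Set.univ := by
    ext u
    simp only [Set.mem_iUnion, Set.mem_univ, iff_true]
    by_cases hu : u.1 ∈ X
    · exact ⟨none, hu⟩
    · have hnn : ¬ NZ f g u.1 := fun hnz => hu (hcon u.1 u.2 hnz)
      rw [nz_iff] at hnn
      push Not at hnn
      obtain ⟨P, hP, hm⟩ := hnn
      exact ⟨some ⟨P, hP⟩, hm⟩
  obtain ⟨i, hi⟩ := Subspace.exists_eq_top_of_iUnion_eq_univ hcov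
  cases i with
  | none =>
    apply hX
    intro u hu
    have : (⟨u, hu⟩ : U) ∈ p none := by
      rw [hi]
      trivial
    exact this
  | some P =>
    have : (⟨ξ0, h0⟩ : U) ∈ p (some P) := by
      rw [hi]
      trivial
    exact (nz_iff.1 hn) P.1 P.2 this

/-- In an infinite field, a subspace without nonzerodivisors lies in an associated prime. -/
theorem exists_assoc_of_no_nz [Infinite K] {U : Submodule K (Poly K)}
    (hU : ∀ ξ ∈ U, ¬ NZ f g ξ) : ∃ P ∈ assocF f g, ∀ u ∈ U, u ∈ P := by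
  classical
  have : Finite (assocF f g) := assocF_finite.to_subtype
  let p : assocF f g → Subspace K U := fun P => ((P.1).restrictScalars K).comap U.subtype
  have hcov : ⋃ i, (p i : Set U) = Set.univ := by
    ext u
    simp only [Set.mem_iUnion, Set.mem_univ, iff_true]
    have := hU u.1 u.2
    rw [nz_iff] at this
    push Not at this
    obtain ⟨P, hP, hm⟩ := this
    exact ⟨⟨P, hP⟩, hm⟩
  obtain ⟨i, hi⟩ := Subspace.exists_eq_top_of_iUnion_eq_univ hcov
  refine ⟨i.1, i.2, fun u hu => ?_⟩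
  have : (⟨u, hu⟩ : U) ∈ p i := by
    rw [hi]
    trivial
  exact this

end

namespace ZP

variable {a b : ℕ} {f g : Poly K} (h : ZP a b f g)
include h

theorem FP_low {d : ℕ} (hd : d < a) : FP f g d = ⊥ := by
  rw [eq_bot_iff]
  intro p hp
  obtain ⟨α, β, hα, hβ, rfl⟩ := h.rep hp
  have hab := h.hab
  rw [hα.2 (by omega), hβ.2 (by omega)]
  simp

theorem FP_mem_eq_zero {d : ℕ} (hd : d < a) {p : Poly K} (hp : p ∈ FPi f g)
    (hh : p.IsHomogeneous d) : p = 0 := by
  have : p ∈ FP f g d := mem_pieceT.2 ⟨hp, hh⟩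
  rw [h.FP_low hd] at this
  exact (Submodule.mem_bot K).1 this

/-- A nonzerodivisor gives a regular sequence together with the pair. -/
theorem formSeq_of_NZ {e : ℕ} (he : 1 ≤ e) {ξ : Poly K} (hξ : ξ.IsHomogeneous e) (hn : NZ f g ξ) :
    FormSeq ![a, b, e] ![f, g, ξ] where
  pos := by
    intro i
    fin_cases i
    · exact h.ha
    · exact le_trans h.ha h.hab
    · exact he
  hom := by
    intro i
    fin_cases i
    · exact h.homf
    · exact h.homg
    · exact hξ
  reg :=
    { ne := h.reg.ne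
      h1 := h.reg.h1
      h2 := by
        intro p α β e
        have e' : p * ξ = α * f + β * g := e
        have := hn p (by rw [e']; exact mem_FPi.2 ⟨α, β, rfl⟩)
        obtain ⟨r, s, hrs⟩ := mem_FPi.1 this
        exact ⟨r, s, hrs⟩ }

end ZP

end Vale.Agent.Lib.P200
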