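import Vale.Agent.Lib.P200.CZ3

/-!
Lexicographic ranks of monomials outside `(x₀^a, x₁^b, x₂^c)` in degrees up to `c`.
-/

namespace Vale.Agent.Lib.P200
open MvPolynomial Module

section count

variable {a b c : ℕ}

theorem outside_abc {m : Fin 3 →₀ ℕ} : OutsideT ![a, b, c] m ↔ m 0 < a ∧ m 1 < b ∧ m 2 < c := by
  constructor
  · intro h
    exact ⟨h 0, h 1, h 2⟩
  · rintro ⟨h0, h1, h2⟩ i
    fin_cases i
    · exact h0
    · exact h1
    · exact h2

/-- A piece of a row: monomials with fixed first exponent and second exponent at least `k0`. -/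
theorem ncard_rowS {d i k0 : ℕ} (hi : i < a) (hc : d - i < c + k0) :
    ({n : Fin 3 →₀ ℕ | n.degree = d ∧ OutsideT ![a, b, c] n ∧ n 0 = i ∧ k0 ≤ n 1}).ncard =
      min b (d + 1 - i) - k0 := by
  have hS : {n : Fin 3 →₀ ℕ | n.degree = d ∧ OutsideT ![a, b, c] n ∧ n 0 = i ∧ k0 ≤ n 1} =
      (fun j => mon3 i j (d - i - j)) '' (↑(Finset.Ico k0 (min b (d + 1 - i))) : Set ℕ) := by
    ext n
    simp only [Set.mem_ofPred_eq, Set.mem_image, Finset.coe_Ico, Set.mem_Ico]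
    constructor
    · rintro ⟨h1, h2, h3, h4⟩
      obtain ⟨_, h5, _⟩ := outside_abc.1 h2
      rw [degree_sum] at h1
      refine ⟨n 1, ⟨h4, by omega⟩, ?_⟩
      apply mon3_ext <;> simp <;> omega
    · rintro ⟨j, ⟨h1, h2⟩, rfl⟩
      refine ⟨?_, outside_abc.2 ?_, by simp, by simpa using h1⟩
      · rw [degree_sum]
        simp only [mon3_0, mon3_1, mon3_2]
        omega
      · simp only [mon3_0, mon3_1, mon3_2]
        omega
  have hinj : Set.InjOn (fun j => mon3 i j (d - i - j)) (↑(Finset.Ico k0 (min b (d + 1 - i))) : Set ℕ) := by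
    intro x _ y _ e
    have := congrArg (fun g : Fin 3 →₀ ℕ => g 1) e
    simpa using this
  rw [hS, hinj.ncard_image, Set.ncard_coe_finset, Nat.card_Ico]

/-- The first `p` rows. -/
theorem ncard_topRows {d : ℕ} (hc1 : 1 ≤ c) (hac : d ≤ c) : ∀ p, p < a →
    ({n : Fin 3 →₀ ℕ | n.degree = d ∧ OutsideT ![a, b, c] n ∧ a ≤ n 0 + p}).ncard = LL a b p d := by
  intro p
  induction p with
  | zero =>
    intro _
    have : {n : Fin 3 →₀ ℕ | n.degree = d ∧ OutsideT ![a, b, c] n ∧ a ≤ n 0 + 0} = ∅ := by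
      ext n
      simp only [Set.mem_ofPred_eq, Set.mem_empty_iff_false, iff_false]
      rintro ⟨_, h2, h3⟩
      have := (outside_abc.1 h2).1
      omega
    rw [this]
    simp
  | succ p ih =>
    intro hp
    have hS : {n : Fin 3 →₀ ℕ | n.degree = d ∧ OutsideT ![a, b, c] n ∧ a ≤ n 0 + (p + 1)} =
        {n : Fin 3 →₀ ℕ | n.degree = d ∧ OutsideT ![a, b, c] n ∧ a ≤ n 0 + p} ∪
        {n : Fin 3 →₀ ℕ | n.degree = d ∧ OutsideT ![a, b, c] n ∧ n 0 = a - 1 - p ∧ 0 ≤ n 1} := by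
      ext n
      simp only [Set.mem_ofPred_eq, Set.mem_union]
      constructor
      · rintro ⟨h1, h2, h3⟩
        have := (outside_abc.1 h2).1
        by_cases h4 : a ≤ n 0 + p
        · exact Or.inl ⟨h1, h2, h4⟩
        · exact Or.inr ⟨h1, h2, by omega, Nat.zero_le _⟩
      · rintro (⟨h1, h2, h3⟩ | ⟨h1, h2, h3, _⟩)
        · exact ⟨h1, h2, by omega⟩
        · exact ⟨h1, h2, by omega⟩
    have hdisj : Disjoint {n : Fin 3 →₀ ℕ | n.degree = d ∧ OutsideT ![a, b, c] n ∧ a ≤ n 0 + p}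
        {n : Fin 3 →₀ ℕ | n.degree = d ∧ OutsideT ![a, b, c] n ∧ n 0 = a - 1 - p ∧ 0 ≤ n 1} := by
      rw [Set.disjoint_left]
      rintro n ⟨_, _, h3⟩ ⟨_, _, h4, _⟩
      omega
    have hfin := finite_degree_set d
    rw [hS, Set.ncard_union_eq hdisj (hfin.subset fun n hn => hn.1) (hfin.subset fun n hn => hn.1),
      ih (by omega), ncard_rowS (by omega) (by omega), LL_succ]
    unfold ell
    congr 1
    omega

/-- The rank formula in degrees up to `c`. -/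
theorem lexRank_abc {m : Fin 3 →₀ ℕ} (hd : m.degree ≤ c) (hmo : OutsideT ![a, b, c] m) :
    lexRankT ![a, b, c] m = LL a b (a - 1 - m 0) m.degree + (min b (m.degree + 1 - m 0) - (m 1 + 1)) := by
  obtain ⟨h0, h1, h2⟩ := outside_abc.1 hmo
  have hdeg := degree_sum m
  set d := m.degree with hdd
  have hS : {n : Fin 3 →₀ ℕ | n.degree = d ∧ OutsideT ![a, b, c] n ∧ toLex m < toLex n} =
      {n : Fin 3 →₀ ℕ | n.degree = d ∧ OutsideT ![a, b, c] n ∧ a ≤ n 0 + (a - 1 - m 0)} ∪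
      {n : Fin 3 →₀ ℕ | n.degree = d ∧ OutsideT ![a, b, c] n ∧ n 0 = m 0 ∧ m 1 + 1 ≤ n 1} := by
    ext n
    simp only [Set.mem_ofPred_eq, Set.mem_union, toLex_lt_iff3]
    constructor
    · rintro ⟨e1, e2, e3⟩
      rcases e3 with e3 | ⟨e3, e4⟩ | ⟨e3, e4, e5⟩
      · exact Or.inl ⟨e1, e2, by omega⟩
      · exact Or.inr ⟨e1, e2, e3.symm, by omega⟩
      · rw [degree_sum] at e1
        omega
    · rintro (⟨e1, e2, e3⟩ | ⟨e1, e2, e3, e4⟩)
      · exact ⟨e1, e2, Or.inl (by omega)⟩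
      · exact ⟨e1, e2, Or.inr (Or.inl ⟨e3.symm, by omega⟩)⟩
  have hdisj : Disjoint
      {n : Fin 3 →₀ ℕ | n.degree = d ∧ OutsideT ![a, b, c] n ∧ a ≤ n 0 + (a - 1 - m 0)}
      {n : Fin 3 →₀ ℕ | n.degree = d ∧ OutsideT ![a, b, c] n ∧ n 0 = m 0 ∧ m 1 + 1 ≤ n 1} := by
    rw [Set.disjoint_left]
    rintro n ⟨_, _, h3⟩ ⟨_, _, h4, _⟩
    omega
  have hfin := finite_degree_set d
  unfold lexRankT
  rw [← hdd, hS, Set.ncard_union_eq hdisj (hfin.subset fun n hn => hn.1)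
    (hfin.subset fun n hn => hn.1), ncard_topRows (by omega) (by omega) _ (by omega),
    ncard_rowS h0 (by omega)]

end count

end Vale.Agent.Lib.P200
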