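import Vale.Agent.Lib.P200.CTrans
import Vale.Agent.Lib.P200.BStep

/-!
Lexicographic segments grow as slowly as the growth bound allows, for the degrees `a, b, a + b - 3`:
the step of the induction in low and in high degrees.
-/

namespace Vale.Agent.Lib.P200
open MvPolynomial Module

variable {K : Type*} [Field K] {a b c : ℕ}

/-- The numerical check in degrees up to `c`. -/
theorem numeric_abc {m : Fin 3 →₀ ℕ} {l : Fin 3} (ha3 : 3 ≤ a) (hab : a ≤ b) (hc : c + 3 = a + b)
    (hd : m.degree + 1 ≤ c) (hmo : OutsideT ![a, b, c] m)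
    (hmo' : OutsideT ![a, b, c] (m + Finsupp.single l 1)) :
    lexRankT ![a, b, c] (m + Finsupp.single l 1) + (a - 2 - m.degree) ≤
      lexRankT ![a, b, c] m + min (a - 1 - m 0 + 1) (tauZ a b m.degree) := by
  have hdeg := degree_add_single m l
  obtain ⟨h0, h1, h2⟩ := outside_abc.1 hmo
  obtain ⟨h3, h4, h5⟩ := outside_abc.1 hmo'
  rw [add_single_apply] at h3 h4 h5
  rw [lexRank_abc (by omega) hmo, lexRank_abc (by omega) hmo', hdeg, add_single_apply,
    add_single_apply, LL_step]
  have hdS := degree_sum m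
  generalize m.degree = d at *
  fin_cases l
  · simp at h3 h4 h5 ⊢
    have e : a - 1 - m 0 = (a - 1 - (m 0 + 1)) + 1 := by omega
    rw [e, LL_succ]
    generalize LL a b (a - 1 - (m 0 + 1)) d = A
    unfold ell Dl tauZ
    rw [← e]
    generalize m 0 = i at *
    generalize m 1 = j at *
    generalize m 2 = k at *
    omega
  · simp at h3 h4 h5 ⊢
    generalize LL a b (a - 1 - m 0) d = A
    unfold Dl tauZ
    generalize m 0 = i at *
    generalize m 1 = j at *
    generalize m 2 = k at *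
    omega
  · simp at h3 h4 h5 ⊢
    generalize LL a b (a - 1 - m 0) d = A
    unfold Dl tauZ
    generalize m 0 = i at *
    generalize m 1 = j at *
    generalize m 2 = k at *
    omega

theorem sum_abc {a b c s : ℕ} (h : c + 3 = a + b) (hs : s = 2 * c) :
    (![a, b, c] : Fin 3 → ℕ) 0 + (![a, b, c] : Fin 3 → ℕ) 1 + (![a, b, c] : Fin 3 → ℕ) 2 = s + 3 := by
  show a + b + c = s + 3
  omega

/-- The low-degree step. -/
theorem lexStep_abc_low {f : Fin 3 → Poly K} (hs : FormSeq ![a, b, c] f) (ha3 : 3 ≤ a) (hab : a ≤ b)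
    (hc : c + 3 = a + b) {d : ℕ} (hd : d + 1 ≤ c) {X Y : Submodule K (Poly K)} (h1 : FF f d ≤ X)
    (h2 : X ≤ HS K d) (h3 : HS K 1 * X ≤ Y) (h4 : FF f (d + 1) ≤ Y) (h5 : Y ≤ HS K (d + 1))
    {m : Fin 3 →₀ ℕ} (hm : m.degree = d) (hmo : OutsideT ![a, b, c] m)
    (hr : lexRankT ![a, b, c] m < finrank K X - finrank K (FF f d)) {l : Fin 3}
    (hmo' : OutsideT ![a, b, c] (m + Finsupp.single l 1)) :
    lexRankT ![a, b, c] (m + Finsupp.single l 1) < finrank K Y - finrank K (FF f (d + 1)) := by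
  have hfX := finite_of_le_HS h2
  have hfY := finite_of_le_HS h5
  have hfF := finite_of_le_HS (FF_le_HS f d)
  have hfF1 := finite_of_le_HS (FF_le_HS f (d + 1))
  have hX := Submodule.finrank_mono h2
  rw [finrank_HS] at hX
  have hFY := Submodule.finrank_mono h4
  have hFX := Submodule.finrank_mono h1
  by_cases hne : finrank K X < T d
  · have hrk := lexRank_abc (a := a) (b := b) (c := c) (m := m) (by omega) hmo
    rw [hm] at hrk
    have hg := growth_any ha3 hab hc hs hd h1 h2 h3 h4 h5 hne (p := a - 1 - m 0) (by omega)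
      (by omega)
    have hn := numeric_abc ha3 hab hc (by omega) hmo hmo'
    rw [hm] at hn
    omega
  · -- the whole space
    have hXe : X = HS K d := by
      have := finite_of_le_HS (le_refl (HS K d))
      refine Submodule.eq_of_le_of_finrank_le h2 ?_
      rw [finrank_HS]
      omega
    have hYe : Y = HS K (d + 1) := by
      refine le_antisymm h5 ?_
      rw [hXe, HS_mul, add_comm] at h3
      exact h3
    have hsum : (![a, b, c] : Fin 3 → ℕ) 0 + (![a, b, c] : Fin 3 → ℕ) 1 +
        (![a, b, c] : Fin 3 → ℕ) 2 = 2 * c + 3 := sum_abc hc rfl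
    have hrd := rank_dualA hsum hmo'
    rw [degree_add_single, hm] at hrd
    have hcnt := hs.finrank_FF_add_cnt (d + 1)
    rw [hYe, finrank_HS]
    omega

/-- The high-degree step, by duality. -/
theorem lexStep_abc_high {f : Fin 3 → Poly K} (h : FormSeq ![a, b, c] f) (ha3 : 3 ≤ a) (hab : a ≤ b)
    (hc : c + 3 = a + b) {d : ℕ} (hdb : c ≤ d)
    {X Y : Submodule K (Poly K)} (h1 : FF f d ≤ X) (h2 : X ≤ HS K d)
    (h3 : HS K 1 * X ≤ Y) (h4 : FF f (d + 1) ≤ Y) (h5 : Y ≤ HS K (d + 1))
    {m : Fin 3 →₀ ℕ} (hm : m.degree = d) (hmo : OutsideT ![a, b, c] m)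
    (hr : lexRankT ![a, b, c] m < finrank K X - finrank K (FF f d)) {l : Fin 3}
    (hmo' : OutsideT ![a, b, c] (m + Finsupp.single l 1)) :
    lexRankT ![a, b, c] (m + Finsupp.single l 1) < finrank K Y - finrank K (FF f (d + 1)) := by
  have hfinX := finite_of_le_HS h2
  have hfinY := finite_of_le_HS h5
  have hd1 := degree_add_single m l
  rw [hm] at hd1
  have hs : (![a, b, c] : Fin 3 → ℕ) 0 + (![a, b, c] : Fin 3 → ℕ) 1 +
      (![a, b, c] : Fin 3 → ℕ) 2 = 2 * c + 3 := sum_abc hc rfl
  have hdc := degree_compA hs hmo'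
  rw [hd1] at hdc
  -- the complementary degree
  obtain ⟨e, he⟩ : ∃ e, e = (compA ![a, b, c] (m + Finsupp.single l 1)).degree := ⟨_, rfl⟩
  have hde : d + 1 + e = 2 * c := by omega
  obtain ⟨φ, hφ, _⟩ := h.exists_trace hs
  have hEle : e + 1 ≤ c := by omega
  -- the two perpendicular spaces
  set X' := perpT φ Y e with hX'
  set Y' := perpT φ X (e + 1) with hY'
  have hY'eq : d + (e + 1) = 2 * c := by omega
  have a1 : FF f e ≤ X' := h.FF_le_perpT hφ hde h5
  have a2 : X' ≤ HS K e := perpT_le _ _ _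
  have a34 := h.growth_perpT hφ hY'eq h2
  have hYle : HS K 1 * X ⊔ FF f (d + 1) ≤ Y := sup_le h3 h4
  have a5 : Y' ≤ HS K (e + 1) := perpT_le _ _ _
  have a3 : HS K 1 * X' ≤ Y' := by
    refine le_trans (mul_le_mul' le_rfl (perpT_anti hYle e)) (le_trans le_sup_left a34)
  have a4 : FF f (e + 1) ≤ Y' := le_trans le_sup_right a34
  have dimX' : finrank K X' + finrank K Y = T e + finrank K (FF f (d + 1)) :=
    h.finrank_perpT hs hφ hde h5 h4
  have dimY' : finrank K Y' + finrank K X = T (e + 1) + finrank K (FF f d) :=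
    h.finrank_perpT hs hφ hY'eq h2 h1
  have cntE := h.finrank_FF_add_cnt e
  have cntE1 := h.finrank_FF_add_cnt (e + 1)
  have cntD := h.finrank_FF_add_cnt d
  have cntD1 := h.finrank_FF_add_cnt (d + 1)
  have c1 : cntT ![a, b, c] e = cntT ![a, b, c] (d + 1) := cnt_dualA hs hde
  have c2 : cntT ![a, b, c] (e + 1) = cntT ![a, b, c] d := cnt_dualA hs hY'eq
  -- the complementary monomial
  have hcm : compA ![a, b, c] (m + Finsupp.single l 1) + Finsupp.single l 1 = compA ![a, b, c] m := by
    obtain ⟨h6, h7, h8⟩ := outside_abc.1 hmo'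
    rw [add_single_apply] at h6 h7 h8
    apply mon3_ext <;> simp only [add_single_apply, compA_0, compA_1, compA_2] <;>
    · fin_cases l <;> simp at h6 h7 h8 ⊢ <;> omega
  have hrd1 := rank_dualA hs hmo'
  rw [hd1] at hrd1
  have hrd2 := rank_dualA hs hmo
  rw [hm] at hrd2
  by_contra hcon
  have hcon' : finrank K Y - finrank K (FF f (d + 1)) ≤
      lexRankT ![a, b, c] (m + Finsupp.single l 1) := by
    omega
  have hstep := lexStep_abc_low (m := compA ![a, b, c] (m + Finsupp.single l 1)) (l := l) h ha3 hab hc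
    hEle a1 a2 a3 a4 a5 he.symm (outside_compA hmo') (by omega)
    (by rw [hcm]; exact outside_compA hmo)
  rw [hcm] at hstep
  omega

end Vale.Agent.Lib.P200
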