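import Vale.Agent.Lib.P200.CNorm

/-!
Transfer of the growth bound along linear changes of coordinates and extensions of the base field.
-/

namespace Vale.Agent.Lib.P200
open MvPolynomial Module

variable {K : Type*} [Field K]

/-! ### Changes of coordinates -/

theorem RegTriple_map {x y z : Poly K} (hr : RegTriple x y z) (σ : Poly K ≃ₐ[K] Poly K) :
    RegTriple (σ x) (σ y) (σ z) where
  ne := by
    intro h0
    exact hr.ne ((map_eq_zero_iff σ σ.injective).1 h0)
  h1 := by
    intro p q e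
    have e' : σ.symm p * y = σ.symm q * x := by
      have := congrArg σ.symm e
      simpa using this
    obtain ⟨r, hr'⟩ := hr.h1 _ _ e'
    refine ⟨σ r, ?_⟩
    have := congrArg σ hr'
    simpa using this
  h2 := by
    intro p α β e
    have e' : σ.symm p * z = σ.symm α * x + σ.symm β * y := by
      have := congrArg σ.symm e
      simpa using this
    obtain ⟨r, s, hr'⟩ := hr.h2 _ _ _ e'
    refine ⟨σ r, σ s, ?_⟩
    have := congrArg σ hr'
    simpa using this

theorem mem_Fid_map {L : Type*} [Field L] (φ : Poly K →+* Poly L) {s : Fin 3 → Poly K} {y : Poly K}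
    (hy : y ∈ Fid s) : φ y ∈ Fid (fun i => φ (s i)) := by
  unfold Fid at hy
  refine Submodule.span_induction (p := fun y _ => φ y ∈ Fid fun i => φ (s i)) ?_ ?_ ?_ ?_ hy
  · rintro _ ⟨i, rfl⟩
    exact Ideal.subset_span ⟨i, rfl⟩
  · simp
  · intro a b _ _ ha hb
    rw [map_add]
    exact Ideal.add_mem _ ha hb
  · intro c a _ ha
    rw [smul_eq_mul, map_mul]
    exact Ideal.mul_mem_left _ _ ha

theorem Coord.formSeq {σ : Poly K ≃ₐ[K] Poly K} (hσ : Coord σ) {a : Fin 3 → ℕ} {s : Fin 3 → Poly K}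
    (hs : FormSeq a s) : FormSeq a (fun i => σ (s i)) where
  pos := hs.pos
  hom := fun i => hσ.fwd _ _ (hs.hom i)
  reg := RegTriple_map hs.reg σ

theorem FormSeq.map_le_FF {σ : Poly K ≃ₐ[K] Poly K} (hσ : Coord σ) (s : Fin 3 → Poly K) (d : ℕ) :
    mapC σ (FF s d) ≤ FF (fun i => σ (s i)) d := by
  rintro _ ⟨y, hy, rfl⟩
  obtain ⟨h1, h2⟩ := mem_FF.1 hy
  exact mem_FF.2 ⟨mem_Fid_map (σ : Poly K →+* Poly K) h1, hσ.fwd _ _ h2⟩

theorem Coord.FF_eq {σ : Poly K ≃ₐ[K] Poly K} (hσ : Coord σ) {a : Fin 3 → ℕ} {s : Fin 3 → Poly K}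
    (hs : FormSeq a s) (d : ℕ) : FF (fun i => σ (s i)) d = mapC σ (FF s d) := by
  have hfH := finite_of_le_HS (FF_le_HS (fun i => σ (s i)) d)
  refine (Submodule.eq_of_le_of_finrank_le (FormSeq.map_le_FF hσ s d) ?_).symm
  rw [finrank_mapC, (hσ.formSeq hs).finrank_FF, hs.finrank_FF]

/-- A linear nonzerodivisor with nonzero coefficient of the first variable. -/
theorem exists_nz_linear [Infinite K] {f g t : Poly K} {c : ℕ} (hc : 1 ≤ c)
    (ht : t.IsHomogeneous c) (hn : NZ f g t) : ∃ l ∈ HS K 1, NZ f g l ∧ l ∉ Pp K := by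
  have h0 : ∃ ξ ∈ HS K 1, NZ f g ξ := by
    by_contra hcon
    push Not at hcon
    obtain ⟨P, hP, hPX⟩ := exists_assoc_of_no_nz hcon
    have hle : HS K 1 * HS K (c - 1) ≤ P.restrictScalars K := by
      rw [Submodule.mul_le]
      intro u hu v _
      exact P.mul_mem_right v (hPX u hu)
    rw [HS_mul, show 1 + (c - 1) = c by omega] at hle
    exact (nz_iff.1 hn) P hP (hle ht)
  obtain ⟨ξ0, h1, h2⟩ := h0
  obtain ⟨l, h3, h4, h5⟩ := exists_nz_avoid (X := Pp K) h1 h2 (by
    intro hle
    have h6 := piZ_of_mem_Pp (hle (X_mem_HS1 0))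
    rw [piZ_X0] at h6
    exact X_ne_zero 0 h6.symm)
  exact ⟨l, h3, h4, h5⟩

/-- A linear form with nonzero coefficient of the first variable is a coordinate. -/
theorem exists_coord_linear [Infinite K] {l : Poly K} (h1 : l ∈ HS K 1) (h2 : l ∉ Pp K) :
    ∃ σ : Poly K ≃ₐ[K] Poly K, Coord σ ∧ σ l = X 0 := by
  rw [HS1_eq_span] at h1
  obtain ⟨c0, c1, c2, rfl⟩ := Submodule.mem_span_triple.1 h1
  have hc0 : c0 ≠ 0 := by
    rintro rfl
    apply h2
    rw [zero_smul, zero_add]
    exact Submodule.add_mem _ (Submodule.smul_mem _ _ (Submodule.subset_span (by simp)))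
      (Submodule.smul_mem _ _ (Submodule.subset_span (by simp)))
  set l : Poly K := c0 • X 0 + c1 • X 1 + c2 • X 2 with hl
  have hlH : l.IsHomogeneous 1 :=
    (((isHomogeneous_X K (0 : Fin 3)).C_mul c0).add ((isHomogeneous_X K (1 : Fin 3)).C_mul c1)).add
      ((isHomogeneous_X K (2 : Fin 3)).C_mul c2) |> fun h => by
        simpa [hl, MvPolynomial.smul_eq_C_mul] using h
  set τ : Fin 3 → Poly K := ![l, X 1, X 2] with hτ
  set l' : Poly K := C c0⁻¹ * (X 0 - C c1 * X 1 - C c2 * X 2) with hl'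
  have hlH' : l'.IsHomogeneous 1 :=
    (((isHomogeneous_X K (0 : Fin 3)).sub ((isHomogeneous_X K (1 : Fin 3)).C_mul c1)).sub
      ((isHomogeneous_X K (2 : Fin 3)).C_mul c2)).C_mul c0⁻¹
  set τ' : Fin 3 → Poly K := ![l', X 1, X 2] with hτ'
  have hci : (C c0⁻¹ * C c0 : Poly K) = 1 := by
    rw [← C_mul, inv_mul_cancel₀ hc0, C_1]
  have hs : ∀ (c : K) (p : Poly K), c • p = C c * p := fun c p => MvPolynomial.smul_eq_C_mul p c
  have e1 : aeval τ' l = (X 0 : Poly K) := by
    rw [hl, map_add, map_add, map_smul, map_smul, map_smul, aeval_X, aeval_X, aeval_X]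
    simp only [hτ', Matrix.cons_val_zero, Matrix.cons_val_one, Matrix.cons_val]
    rw [hs, hs, hs, hl']
    linear_combination ((X 0 : Poly K) - C c1 * X 1 - C c2 * X 2) * hci
  have e2 : aeval τ l' = (X 0 : Poly K) := by
    rw [hl', map_mul, map_sub, map_sub, aeval_C, map_mul, map_mul, aeval_C, aeval_C, aeval_X, aeval_X, aeval_X]
    simp only [hτ, Matrix.cons_val_zero, Matrix.cons_val_one, Matrix.cons_val]
    rw [hl, hs, hs, hs]
    simp only [MvPolynomial.algebraMap_eq]
    linear_combination (X 0 : Poly K) * hci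
  have h12 : (aeval τ' : Poly K →ₐ[K] Poly K).comp (aeval τ) = AlgHom.id K _ := by
    apply MvPolynomial.algHom_ext
    intro i
    fin_cases i
    · simpa [hτ] using e1
    · simp [hτ, hτ']
    · simp [hτ, hτ']
  have h21 : (aeval τ : Poly K →ₐ[K] Poly K).comp (aeval τ') = AlgHom.id K _ := by
    apply MvPolynomial.algHom_ext
    intro i
    fin_cases i
    · simpa [hτ'] using e2
    · simp [hτ, hτ']
    · simp [hτ, hτ']
  have hτH : ∀ i, (τ i).IsHomogeneous 1 := by
    intro i
    fin_cases i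
    · exact hlH
    · exact isHomogeneous_X K 1
    · exact isHomogeneous_X K 2
  have hτ'H : ∀ i, (τ' i).IsHomogeneous 1 := by
    intro i
    fin_cases i
    · exact hlH'
    · exact isHomogeneous_X K 1
    · exact isHomogeneous_X K 2
  let σ : Poly K ≃ₐ[K] Poly K := AlgEquiv.ofAlgHom (aeval τ') (aeval τ) h12 h21
  have hσ : ∀ x, σ x = aeval τ' x := fun _ => rfl
  have hσ' : ∀ x, σ.symm x = aeval τ x := fun _ => rfl
  refine ⟨σ, ⟨fun d x hx => ?_, fun d x hx => ?_⟩, ?_⟩
  · rw [hσ]
    have := IsHomogeneous.aeval hx τ' hτ'H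
    rwa [one_mul] at this
  · rw [hσ']
    have := IsHomogeneous.aeval hx τ hτH
    rwa [one_mul] at this
  · rw [hσ]
    exact e1

/-- The growth bound over an infinite field. -/
theorem growth_inf [Infinite K] {a b c : ℕ} (ha3 : 3 ≤ a) (hab : a ≤ b) (hc : c + 3 = a + b)
    {s : Fin 3 → Poly K} (hs : FormSeq ![a, b, c] s) {d : ℕ} (hd : d + 1 ≤ c)
    {X Y : Submodule K (Poly K)} (h1 : FF s d ≤ X) (h2 : X ≤ HS K d) (h3 : HS K 1 * X ≤ Y)
    (h4 : FF s (d + 1) ≤ Y) (h5 : Y ≤ HS K (d + 1)) (hne : finrank K X < T d) {p : ℕ}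
    (hp : p < a) (hr : LL a b p d + finrank K (FF s d) < finrank K X) :
    finrank K (FF s (d + 1)) + (finrank K X - finrank K (FF s d)) +
      min (p + 1) (tauZ a b d) ≤ finrank K Y + (a - 2 - d) := by
  have hc1 : 1 ≤ c := by omega
  have hn : NZ (s 0) (s 1) (s 2) := by
    intro q hq
    obtain ⟨α, β, e⟩ := mem_FPi.1 hq
    obtain ⟨r, t, e'⟩ := hs.reg.h2 q α β e
    exact mem_FPi.2 ⟨r, t, e'⟩
  obtain ⟨l, hl1, hl2, hl3⟩ := exists_nz_linear hc1 (hs.hom 2) hn
  obtain ⟨σ, hσ, hσl⟩ := exists_coord_linear hl1 hl3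
  have hregl : RegTriple (s 0) (s 1) l :=
    { ne := hs.reg.ne
      h1 := hs.reg.h1
      h2 := by
        intro q α β e
        have := hl2 q (by rw [e]; exact mem_FPi.2 ⟨α, β, rfl⟩)
        obtain ⟨r, t, e'⟩ := mem_FPi.1 this
        exact ⟨r, t, e'⟩ }
  have hZ : ZP a b (σ (s 0)) (σ (s 1)) :=
    { ha := by omega
      hab := hab
      homf := hσ.fwd _ _ (hs.hom 0)
      homg := hσ.fwd _ _ (hs.hom 1)
      reg := by
        have := RegTriple_map hregl σ
        rwa [hσl] at this }
  have hn' : NZ (σ (s 0)) (σ (s 1)) (σ (s 2)) := by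
    intro q hq
    obtain ⟨α, β, e⟩ := mem_FPi.1 hq
    obtain ⟨r, t, e'⟩ := (RegTriple_map hs.reg σ).h2 q α β e
    exact mem_FPi.2 ⟨r, t, e'⟩
  have hFF : ∀ D, FF ![σ (s 0), σ (s 1), σ (s 2)] D = mapC σ (FF s D) := by
    intro D
    rw [← hσ.FF_eq hs]
    congr 1
    funext i
    fin_cases i <;> rfl
  have := hZ.growth_norm (X := mapC σ X) (Y := mapC σ Y) ha3 hc (hσ.fwd _ _ (hs.hom 2)) hn' hd
    (by rw [hFF]; exact mapC_le h1)
    (by rw [← hσ.mapC_HS d]; exact mapC_le h2)
    (by rw [← hσ.mapC_HS 1, ← hσ.mapC_mul]; exact mapC_le h3)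
    (by rw [hFF]; exact mapC_le h4)
    (by rw [← hσ.mapC_HS (d + 1)]; exact mapC_le h5)
    (by rwa [finrank_mapC]) hp (by rwa [hFF, finrank_mapC, finrank_mapC])
  rwa [hFF, hFF, finrank_mapC, finrank_mapC, finrank_mapC, finrank_mapC] at this

/-! ### Extension of the base field -/

section ext

variable {L : Type*} [Field L] [Algebra K L]

/-- The coefficientwise application of a linear form on `L`. -/
noncomputable def Lam (lam : Module.Dual K L) (p : Poly L) : Poly K :=
  p.support.sum fun m => monomial m (lam (coeff m p))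

theorem coeff_Lam (lam : Module.Dual K L) (p : Poly L) (m : Fin 3 →₀ ℕ) :
    coeff m (Lam lam p) = lam (coeff m p) := by
  classical
  unfold Lam
  rw [coeff_sum]
  simp only [coeff_monomial]
  by_cases hm : m ∈ p.support
  · rw [Finset.sum_eq_single m]
    · simp
    · intro n _ hne
      simp [hne]
    · intro h0
      exact absurd hm h0
  · rw [Finset.sum_eq_zero]
    · rw [notMem_support_iff.1 hm, map_zero]
    · intro n hn
      rw [if_neg]
      rintro rfl
      exact hm hn

theorem Lam_add (lam : Module.Dual K L) (p q : Poly L) : Lam lam (p + q) = Lam lam p + Lam lam q := by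
  ext m
  simp [coeff_Lam]

theorem Lam_mul (lam : Module.Dual K L) (p : Poly L) (c : Poly K) :
    Lam lam (p * iotaP L c) = Lam lam p * c := by
  ext m
  rw [coeff_Lam, coeff_mul, coeff_mul, map_sum]
  refine Finset.sum_congr rfl fun x _ => ?_
  rw [coeff_map, coeff_Lam, mul_comm, ← Algebra.smul_def, map_smul, smul_eq_mul, mul_comm]

/-- A polynomial all of whose coefficientwise images lie in an ideal lies in the extended ideal. -/
theorem mem_map_of_Lam {J : Ideal (Poly K)} {p : Poly L} (h : ∀ lam : Module.Dual K L, Lam lam p ∈ J) :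
    p ∈ Ideal.map (iotaP (K := K) L) J := by
  classical
  let B := Module.Basis.ofVectorSpace K L
  let F := p.support.biUnion fun m => (B.repr (coeff m p)).support
  have e : p = ∑ i ∈ F, C (B i) * iotaP L (Lam (B.coord i) p) := by
    ext m
    rw [coeff_sum]
    simp only [coeff_C_mul, coeff_map, coeff_Lam, Module.Basis.coord_apply]
    have hsum : ∑ i ∈ F, B i * algebraMap K L ((B.repr (coeff m p)) i) =
        ∑ i ∈ (B.repr (coeff m p)).support, B i * algebraMap K L ((B.repr (coeff m p)) i) := by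
      symm
      refine Finset.sum_subset ?_ ?_
      · intro i hi
        refine Finset.mem_biUnion.2 ⟨m, ?_, hi⟩
        rw [MvPolynomial.mem_support_iff]
        intro h0
        rw [h0, map_zero] at hi
        simp at hi
      · intro i _ hi
        rw [Finsupp.notMem_support_iff.1 hi, map_zero, mul_zero]
    rw [hsum]
    have := B.linearCombination_repr (coeff m p)
    rw [Finsupp.linearCombination_apply, Finsupp.sum] at this
    conv_lhs => rw [← this]
    refine Finset.sum_congr rfl fun i _ => ?_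
    rw [Algebra.smul_def, mul_comm]
  rw [e]
  refine Ideal.sum_mem _ fun i _ => Ideal.mul_mem_left _ _ (Ideal.mem_map_of_mem _ (h _))

/-- Regular sequences stay regular under an extension of the base field. -/
theorem regTriple_iota {x y z : Poly K} (hr : RegTriple x y z) :
    RegTriple (iotaP L x) (iotaP L y) (iotaP L z) where
  ne := iota_ne_zero hr.ne
  h1 := by
    intro p q e
    have hm : p ∈ Ideal.map (iotaP (K := K) L) (Ideal.span {x}) := by
      refine mem_map_of_Lam fun lam => ?_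
      have e' := congrArg (Lam lam) e
      rw [Lam_mul, Lam_mul] at e'
      obtain ⟨r, hr'⟩ := hr.h1 _ _ e'
      rw [hr']
      exact Ideal.mul_mem_left _ _ (Ideal.mem_span_singleton_self x)
    rw [Ideal.map_span, Set.image_singleton] at hm
    obtain ⟨r, hr'⟩ := Ideal.mem_span_singleton'.1 hm
    exact ⟨r, hr'.symm⟩
  h2 := by
    intro p α β e
    have hm : p ∈ Ideal.map (iotaP (K := K) L) (Ideal.span {x, y}) := by
      refine mem_map_of_Lam fun lam => ?_
      have e' := congrArg (Lam lam) e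
      rw [Lam_add, Lam_mul, Lam_mul, Lam_mul] at e'
      obtain ⟨r, s, hr'⟩ := hr.h2 _ _ _ e'
      rw [hr']
      exact Ideal.mem_span_pair.2 ⟨r, s, rfl⟩
    rw [Ideal.map_span, Set.image_pair] at hm
    obtain ⟨r, s, hr'⟩ := Ideal.mem_span_pair.1 hm
    exact ⟨r, s, hr'.symm⟩

theorem formSeq_iota {a : Fin 3 → ℕ} {s : Fin 3 → Poly K} (hs : FormSeq a s) :
    FormSeq a (fun i => iotaP L (s i)) where
  pos := hs.pos
  hom := fun i => IsHomogeneous.map (hs.hom i) _
  reg := regTriple_iota hs.reg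

theorem extS_FF {a : Fin 3 → ℕ} {s : Fin 3 → Poly K} (hs : FormSeq a s) (d : ℕ) :
    FF (fun i => iotaP L (s i)) d = extS L (FF s d) := by
  have hfH := finite_of_le_HS (FF_le_HS (fun i => iotaP L (s i)) d)
  have hfF := finite_of_le_HS (FF_le_HS s d)
  have hle : extS L (FF s d) ≤ FF (fun i => iotaP L (s i)) d := by
    refine extS_le fun x hx => ?_
    obtain ⟨h1, h2⟩ := mem_FF.1 hx
    exact mem_FF.2 ⟨mem_Fid_map (iotaP L) h1, IsHomogeneous.map h2 _⟩
  refine (Submodule.eq_of_le_of_finrank_le hle ?_).symm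
  rw [finrank_extS, (formSeq_iota hs).finrank_FF, hs.finrank_FF]

end ext

/-- The growth bound over every field. -/
theorem growth_any {a b c : ℕ} (ha3 : 3 ≤ a) (hab : a ≤ b) (hc : c + 3 = a + b)
    {s : Fin 3 → Poly K} (hs : FormSeq ![a, b, c] s) {d : ℕ} (hd : d + 1 ≤ c)
    {X Y : Submodule K (Poly K)} (h1 : FF s d ≤ X) (h2 : X ≤ HS K d) (h3 : HS K 1 * X ≤ Y)
    (h4 : FF s (d + 1) ≤ Y) (h5 : Y ≤ HS K (d + 1)) (hne : finrank K X < T d) {p : ℕ}
    (hp : p < a) (hr : LL a b p d + finrank K (FF s d) < finrank K X) :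
    finrank K (FF s (d + 1)) + (finrank K X - finrank K (FF s d)) +
      min (p + 1) (tauZ a b d) ≤ finrank K Y + (a - 2 - d) := by
  let L := AlgebraicClosure K
  have hfinX := finite_of_le_HS h2
  have hfinY := finite_of_le_HS h5
  have hfinF := finite_of_le_HS (FF_le_HS s d)
  have hfinF' := finite_of_le_HS (FF_le_HS s (d + 1))
  have := growth_inf (K := L) (s := fun i => iotaP (K := K) L (s i)) (X := extS L X) (Y := extS L Y)
    ha3 hab hc (formSeq_iota hs) hd
    (by rw [extS_FF hs]; exact extS_mono h1)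
    (by rw [← extS_HS (K := K)]; exact extS_mono h2)
    (by rw [← extS_HS (K := K)]; exact le_trans (extS_mul_le _ _) (extS_mono h3))
    (by rw [extS_FF hs]; exact extS_mono h4)
    (by rw [← extS_HS (K := K)]; exact extS_mono h5)
    (by rwa [finrank_extS]) hp (by rwa [extS_FF hs, finrank_extS, finrank_extS])
  rwa [extS_FF hs, extS_FF hs, finrank_extS, finrank_extS, finrank_extS, finrank_extS] at this

end Vale.Agent.Lib.P200
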