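import Vale.Agent.Lib.P200.CLin

/-!
Subspaces containing a nonzerodivisor and of dimension at least two grow by at least three.
-/

namespace Vale.Agent.Lib.P200
open MvPolynomial Module

variable {K : Type*} [Field K]

theorem piZ_of_mem_Pp {α : Poly K} (hα : α ∈ Pp K) : piZ α = α := by
  unfold Pp at hα
  refine Submodule.span_induction (p := fun x _ => piZ x = x) ?_ ?_ ?_ ?_ hα
  · rintro _ (rfl | rfl)
    · simp
    · simp
  · simp
  · intro x y _ _ hx hy
    rw [map_add, hx, hy]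
  · intro c x _ hx
    rw [map_smul, hx]

theorem finrank_Pp : finrank K (Pp K) = 2 := by
  have := finrank_Pp_pow (K := K) 1
  rwa [pow_one] at this

namespace ZP

variable {a b : ℕ} {f g : Poly K} (h : ZP a b f g)
include h

/-- Positive growth in the range where some rows grow. -/
theorem growth_one (ha2 : 2 ≤ a) {d : ℕ} {U : Submodule K (Poly K)} (hF : FP f g d ≤ U)
    (hU : U ≤ HS K d) (hn : finrank K (FP f g d) < finrank K U) (ht : 1 ≤ tauZ a b d) :
    finrank K U + finrank K (FP f g (d + 1)) + 1 ≤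
      finrank K (gpl f g d U) + finrank K (FP f g d) := by
  have hab := h.hab
  unfold tauZ at ht
  by_cases hlow : d + 2 ≤ a
  · have hL : LL a b (a - d - 1) d = 0 := LL_low (by omega)
    have := h.growthC ha2 d U (a - d - 1) hF hU (by omega) (by omega)
    unfold tauZ at this
    omega
  · have := h.growthC ha2 d U 0 hF hU (by omega) (by simpa using hn)
    unfold tauZ at this
    omega

/-- A form of positive growth range is not killed by two independent linear forms. -/
theorem point_lemma (ha2 : 2 ≤ a) {d : ℕ} {u β1 β2 : Poly K} (ht : 1 ≤ tauZ a b d)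
    (hu : u ∈ HS K d) (hu0 : u ∉ FPi f g) (h1 : β1 ∈ HS K 1) (h2 : β2 ∈ HS K 1) (hne : β1 ≠ 0)
    (hind : ∀ c : K, c • β1 ≠ β2) (hβ1 : β1 * u ∈ FPi f g) (hβ2 : β2 * u ∈ FPi f g) : False := by
  obtain ⟨U, hUdef⟩ : ∃ U, U = FP f g d ⊔ Submodule.span K {u} := ⟨_, rfl⟩
  have hUH : U ≤ HS K d := by
    rw [hUdef]
    exact sup_le (FP_le_HS f g d) ((Submodule.span_singleton_le_iff_mem _ _).2 hu)
  have hfU := finite_of_le_HS hUH
  have hfF := finite_of_le_HS (FP_le_HS f g d)
  have hfF1 := finite_of_le_HS (FP_le_HS f g (d + 1))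
  have hFU : FP f g d ≤ U := by
    rw [hUdef]
    exact le_sup_left
  have hlt : FP f g d < U := by
    refine lt_of_le_of_ne hFU ?_
    intro he
    apply hu0
    have : u ∈ FP f g d := by
      rw [he, hUdef]
      exact Submodule.mem_sup_right (Submodule.mem_span_singleton_self _)
    exact (mem_pieceT.1 this).1
  have hlt2 := Submodule.finrank_lt_finrank_of_lt hlt
  have hg := h.growth_one ha2 hFU hUH hlt2 ht
  let χ : HS K 1 →ₗ[K] Poly K := (LinearMap.mulRight K u) ∘ₗ (HS K 1).subtype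
  have hχ : ∀ l : HS K 1, χ l = (l : Poly K) * u := fun _ => rfl
  have hr : gpl f g d U ≤ LinearMap.range χ ⊔ FP f g (d + 1) := by
    refine sup_le ?_ le_sup_right
    rw [Submodule.mul_le]
    intro l hl x hx
    rw [hUdef] at hx
    obtain ⟨φ, hφ, w, hw, rfl⟩ := Submodule.mem_sup.1 hx
    obtain ⟨c, rfl⟩ := Submodule.mem_span_singleton.1 hw
    rw [mul_add]
    refine Submodule.add_mem _ (Submodule.mem_sup_right (mul_FP_le f g d (Submodule.mul_mem_mul hl hφ)))
      (Submodule.mem_sup_left ⟨c • ⟨l, hl⟩, ?_⟩)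
    rw [hχ]
    simp
  have e := finrank_range_sup χ (FP f g (d + 1))
  rw [finrank_HS, show T 1 = 3 by decide] at e
  have hUp := gpl_le_HS (f := f) (g := g) hUH
  have hfUp := finite_of_le_HS hUp
  have hSH : LinearMap.range χ ⊔ FP f g (d + 1) ≤ HS K (d + 1) := by
    refine sup_le ?_ (FP_le_HS f g _)
    rintro _ ⟨l, rfl⟩
    rw [hχ]
    have := (show (l : Poly K).IsHomogeneous 1 from l.2).mul hu
    rwa [add_comm] at this
  have hfS := finite_of_le_HS hSH
  have h3 := Submodule.finrank_mono hr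
  -- the relations contain two independent elements
  have hmem : ∀ β : Poly K, (hb : β ∈ HS K 1) → β * u ∈ FPi f g →
      (⟨β, hb⟩ : HS K 1) ∈ (FP f g (d + 1)).comap χ := by
    intro β hb hm
    refine mem_pieceT.2 ⟨?_, ?_⟩
    · rw [hχ]
      exact hm
    · rw [hχ]
      have := (show β.IsHomogeneous 1 from hb).mul hu
      rwa [add_comm] at this
  have hcomap : 2 ≤ finrank K ((FP f g (d + 1)).comap χ) := by
    by_contra hcon
    have hle : finrank K ((FP f g (d + 1)).comap χ) ≤ 1 := by omega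
    let v1 : (FP f g (d + 1)).comap χ := ⟨⟨β1, h1⟩, hmem β1 h1 hβ1⟩
    let v2 : (FP f g (d + 1)).comap χ := ⟨⟨β2, h2⟩, hmem β2 h2 hβ2⟩
    have hv1 : v1 ≠ 0 := fun h0 => hne (congrArg Subtype.val (congrArg Subtype.val h0))
    have hpos : 0 < finrank K ((FP f g (d + 1)).comap χ) :=
      Module.finrank_pos_iff.2 ⟨⟨v1, 0, hv1⟩⟩
    have hone : finrank K ((FP f g (d + 1)).comap χ) = 1 := by omega
    obtain ⟨c, hc⟩ := (finrank_eq_one_iff_of_nonzero' v1 hv1).1 hone v2
    exact hind c (congrArg Subtype.val (congrArg Subtype.val hc))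
  omega

/-- Two generators, one of them a nonzerodivisor. -/
theorem two_gen (ha3 : 3 ≤ a) {d : ℕ} {U : Submodule K (Poly K)} {ξ : Poly K}
    (ht : 1 ≤ tauZ a b d) (hF : FP f g d ≤ U) (hU : U ≤ HS K d) (hξ : ξ ∈ U) (hn : NZ f g ξ)
    (hdim : finrank K U = finrank K (FP f g d) + 2) :
    finrank K U + finrank K (FP f g (d + 1)) + 3 ≤
      finrank K (gpl f g d U) + finrank K (FP f g d) := by
  have hfU := finite_of_le_HS hU
  have hfF := finite_of_le_HS (FP_le_HS f g d)
  have hfF1 := finite_of_le_HS (FP_le_HS f g (d + 1))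
  have hξJ : ξ ∉ FPi f g := by
    intro hm
    have h1 : (1 : Poly K) ∈ FPi f g := hn 1 (by rwa [one_mul])
    have := h.FP_mem_eq_zero (d := 0) (by omega) h1 (isHomogeneous_one _ _)
    exact one_ne_zero this
  have hξ0 : ξ ≠ 0 := fun h0 => hξJ (h0 ▸ Ideal.zero_mem _)
  -- a second generator
  have hle : FP f g d ⊔ Submodule.span K {ξ} ≤ U :=
    sup_le hF ((Submodule.span_singleton_le_iff_mem _ _).2 hξ)
  have hfS : Module.Finite K (FP f g d ⊔ Submodule.span K {ξ} : Submodule K (Poly K)) :=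
    Submodule.finiteDimensional_of_le hle
  have hlt : FP f g d ⊔ Submodule.span K {ξ} < U := by
    refine lt_of_le_of_ne hle ?_
    intro he
    have h1 := Submodule.finrank_add_le_finrank_add_finrank (FP f g d) (Submodule.span K {ξ})
    rw [finrank_span_singleton hξ0, he] at h1
    omega
  obtain ⟨ξ2, hξ2U, hξ2⟩ := SetLike.exists_of_lt hlt
  have hξH : ξ ∈ HS K d := hU hξ
  have hξ2H : ξ2 ∈ HS K d := hU hξ2U
  let χ : (HS K 1 × HS K 1) →ₗ[K] Poly K :=
    (LinearMap.mulRight K ξ) ∘ₗ (HS K 1).subtype ∘ₗ LinearMap.fst K _ _ +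
      (LinearMap.mulRight K ξ2) ∘ₗ (HS K 1).subtype ∘ₗ LinearMap.snd K _ _
  have hχ : ∀ v : HS K 1 × HS K 1, χ v = (v.1 : Poly K) * ξ + (v.2 : Poly K) * ξ2 := fun _ => rfl
  have hr : LinearMap.range χ ⊔ FP f g (d + 1) ≤ gpl f g d U := by
    refine sup_le ?_ FP_le_gpl
    rintro _ ⟨v, rfl⟩
    rw [hχ]
    exact Submodule.add_mem _ (mul_le_gpl (Submodule.mul_mem_mul v.1.2 hξ))
      (mul_le_gpl (Submodule.mul_mem_mul v.2.2 hξ2U))
  have e := finrank_range_sup χ (FP f g (d + 1))
  rw [Module.finrank_prod, finrank_HS, show T 1 = 3 by decide] at e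
  have hUp := gpl_le_HS (f := f) (g := g) hU
  have hfUp := finite_of_le_HS hUp
  have h3 := Submodule.finrank_mono hr
  by_contra hcon
  have hcomap : 2 ≤ finrank K ((FP f g (d + 1)).comap χ) := by omega
  -- two independent relations
  have hpos : 0 < finrank K ((FP f g (d + 1)).comap χ) := by omega
  have hnt : Nontrivial ((FP f g (d + 1)).comap χ) := Module.finrank_pos_iff.1 hpos
  obtain ⟨v1, hv1⟩ := exists_ne (0 : (FP f g (d + 1)).comap χ)
  have hv2 : ∃ v2 : (FP f g (d + 1)).comap χ, ∀ c : K, c • v1 ≠ v2 := by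
    by_contra hc
    push Not at hc
    have := finrank_le_one v1 hc
    omega
  obtain ⟨v2, hv2⟩ := hv2
  obtain ⟨α1, β1⟩ := id v1.1
  have hrel : ∀ v : (FP f g (d + 1)).comap χ,
      (v.1.1 : Poly K) * ξ + (v.1.2 : Poly K) * ξ2 ∈ FPi f g := by
    intro v
    have := (mem_pieceT.1 v.2).1
    rwa [hχ] at this
  have hJ1 : ∀ {q : Poly K}, q.IsHomogeneous 1 → q ∈ FPi f g → q = 0 :=
    fun hq hm => h.FP_mem_eq_zero (d := 1) (by omega) hm hq
  have hJ2 : ∀ {q : Poly K}, q.IsHomogeneous 2 → q ∈ FPi f g → q = 0 :=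
    fun hq hm => h.FP_mem_eq_zero (d := 2) (by omega) hm hq
  set a1 : Poly K := (v1.1.1 : Poly K) with ha1
  set b1 : Poly K := (v1.1.2 : Poly K) with hb1
  set a2 : Poly K := (v2.1.1 : Poly K) with ha2
  set b2 : Poly K := (v2.1.2 : Poly K) with hb2
  have ha1H : a1.IsHomogeneous 1 := v1.1.1.2
  have hb1H : b1.IsHomogeneous 1 := v1.1.2.2
  have ha2H : a2.IsHomogeneous 1 := v2.1.1.2
  have hb2H : b2.IsHomogeneous 1 := v2.1.2.2
  have r1 : a1 * ξ + b1 * ξ2 ∈ FPi f g := hrel v1
  have r2 : a2 * ξ + b2 * ξ2 ∈ FPi f g := hrel v2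
  -- the determinant vanishes
  have hQ : a1 * b2 - a2 * b1 = 0 := by
    refine hJ2 ?_ (hn _ ?_)
    · have h5 := ha1H.mul hb2H
      have h6 := ha2H.mul hb1H
      exact h5.sub h6
    · have : (a1 * b2 - a2 * b1) * ξ = b2 * (a1 * ξ + b1 * ξ2) - b1 * (a2 * ξ + b2 * ξ2) := by ring
      rw [this]
      exact Ideal.sub_mem _ (Ideal.mul_mem_left _ _ r1) (Ideal.mul_mem_left _ _ r2)
  have hvext : ∀ v w : (FP f g (d + 1)).comap χ, (v.1.1 : Poly K) = w.1.1 → (v.1.2 : Poly K) = w.1.2 →
      v = w := by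
    intro v w e1 e2
    exact Subtype.ext (Prod.ext (Subtype.ext e1) (Subtype.ext e2))
  have hb10 : b1 ≠ 0 := by
    intro h0
    rw [h0, zero_mul, add_zero] at r1
    have h1 := hJ1 ha1H (hn _ r1)
    apply hv1
    apply hvext
    · exact h1
    · exact h0
  have hb20 : b2 ≠ 0 := by
    intro h0
    rw [h0, zero_mul, add_zero] at r2
    have h1 := hJ1 ha2H (hn _ r2)
    apply hv2 0
    rw [zero_smul]
    apply hvext
    · exact h1.symm
    · exact h0.symm
  have hind : ∀ c : K, c • b1 ≠ b2 := by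
    intro c hc
    apply hv2 c
    apply hvext
    · show c • a1 = a2
      have e1 : b1 * (c • a1 - a2) = 0 := by
        rw [← hc, MvPolynomial.smul_eq_C_mul] at hQ
        rw [MvPolynomial.smul_eq_C_mul]
        linear_combination hQ
      have e2 := (mul_eq_zero.1 e1).resolve_left hb10
      linear_combination e2
    · exact hc
  -- the linear form divides
  have hdvd : b1 ∣ a1 * b2 := ⟨a2, by linear_combination hQ⟩
  have hp := linear_prime hb1H hb10
  obtain ⟨l, hl⟩ : ∃ l : K, a1 = C l * b1 := by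
    rcases hp.2.2 _ _ hdvd with hd | hd
    · exact linear_dvd_linear hb1H ha1H hd
    · obtain ⟨c, hc⟩ := linear_dvd_linear hb1H hb2H hd
      exact absurd (by rw [MvPolynomial.smul_eq_C_mul, hc]) (hind c)
  have hl2 : a2 = C l * b2 := by
    have e1 : b1 * (a2 - C l * b2) = 0 := by
      rw [hl] at hQ
      linear_combination -hQ
    have e2 := (mul_eq_zero.1 e1).resolve_left hb10
    linear_combination e2
  -- the element killed by two linear forms
  set u : Poly K := C l * ξ + ξ2 with hu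
  have huH : u ∈ HS K d := by
    refine Submodule.add_mem _ ?_ hξ2H
    rw [← MvPolynomial.smul_eq_C_mul]
    exact Submodule.smul_mem _ _ hξH
  have huJ : u ∉ FPi f g := by
    intro hm
    apply hξ2
    have h1 : u ∈ FP f g d := mem_pieceT.2 ⟨hm, huH⟩
    have e1 : ξ2 = u + (-l) • ξ := by
      rw [hu, MvPolynomial.smul_eq_C_mul, C_neg]
      ring
    rw [e1]
    exact Submodule.add_mem_sup h1 (Submodule.smul_mem _ _ (Submodule.mem_span_singleton_self _))
  have k1 : b1 * u ∈ FPi f g := by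
    have : b1 * u = a1 * ξ + b1 * ξ2 := by
      rw [hu, hl]
      ring
    rw [this]
    exact r1
  have k2 : b2 * u ∈ FPi f g := by
    have : b2 * u = a2 * ξ + b2 * ξ2 := by
      rw [hu, hl2]
      ring
    rw [this]
    exact r2
  exact h.point_lemma (by omega) ht huH huJ hb1H hb2H hb10 hind k1 k2

/-- Multiples of a nonzerodivisor by linear forms. -/
theorem growth_of_nz_line (ha3 : 3 ≤ a) {d : ℕ} {U : Submodule K (Poly K)} {ξ : Poly K}
    (hn : NZ f g ξ) (hF : FP f g (d + 1) ≤ U) (hU : U ≤ HS K (d + 1))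
    (hle : U ≤ HS K 1 * Submodule.span K {ξ} ⊔ FP f g (d + 1))
    (hdim : finrank K (FP f g (d + 1)) + 2 ≤ finrank K U) :
    finrank K U + finrank K (FP f g (d + 1 + 1)) + 3 ≤
      finrank K (gpl f g (d + 1) U) + finrank K (FP f g (d + 1)) := by
  have hab := h.hab
  have hfU := finite_of_le_HS hU
  have hfF := finite_of_le_HS (FP_le_HS f g (d + 1))
  have hfF1 := finite_of_le_HS (FP_le_HS f g (d + 1 + 1))
  have hJ1 : ∀ {q : Poly K}, q.IsHomogeneous 1 → q ∈ FPi f g → q = 0 :=
    fun hq hm => h.FP_mem_eq_zero (d := 1) (by omega) hm hq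
  have hJ2 : ∀ {q : Poly K}, q.IsHomogeneous 2 → q ∈ FPi f g → q = 0 :=
    fun hq hm => h.FP_mem_eq_zero (d := 2) (by omega) hm hq
  obtain ⟨L, hLdef⟩ : ∃ L : Submodule K (Poly K), L = U.comap (LinearMap.mulRight K ξ) ⊓ HS K 1 :=
    ⟨_, rfl⟩
  have hLH : L ≤ HS K 1 := by
    rw [hLdef]
    exact inf_le_right
  have hLU : ∀ l ∈ L, l * ξ ∈ U := by
    intro l hl
    rw [hLdef] at hl
    exact hl.1
  have hfL := finite_of_le_HS hLH
  -- the dimension of L
  let χ : L →ₗ[K] Poly K := (LinearMap.mulRight K ξ) ∘ₗ L.subtype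
  have hχ : ∀ l : L, χ l = (l : Poly K) * ξ := fun _ => rfl
  have hcomap : (FP f g (d + 1)).comap χ = ⊥ := by
    rw [eq_bot_iff]
    intro l hl
    have h1 := (mem_pieceT.1 hl).1
    rw [hχ] at h1
    have h2 := hJ1 (hLH l.2) (hn _ h1)
    exact (Submodule.mem_bot K).2 (Subtype.ext h2)
  have hsup : LinearMap.range χ ⊔ FP f g (d + 1) = U := by
    apply le_antisymm
    · refine sup_le ?_ hF
      rintro _ ⟨l, rfl⟩
      rw [hχ]
      exact hLU _ l.2
    · intro u hu
      obtain ⟨y, hy, φ, hφ, rfl⟩ := Submodule.mem_sup.1 (hle hu)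
      obtain ⟨l, hl, rfl⟩ := Submodule.mem_mul_span_singleton.1 hy
      have hlL : l ∈ L := by
        rw [hLdef]
        refine ⟨?_, hl⟩
        have : l * ξ = (l * ξ + φ) - φ := by ring
        show l * ξ ∈ U
        rw [this]
        exact Submodule.sub_mem _ hu (hF hφ)
      exact Submodule.add_mem_sup ⟨⟨l, hlL⟩, rfl⟩ hφ
  have e1 := finrank_range_sup χ (FP f g (d + 1))
  rw [hcomap, hsup, finrank_bot] at e1
  -- the growth of L
  have hF1 : FP f g 1 = ⊥ := h.FP_low (by omega)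
  have hF2 : FP f g 2 = ⊥ := h.FP_low (by omega)
  have hLg : finrank K L + 3 ≤ finrank K (HS K 1 * L : Submodule K (Poly K)) := by
    have hLL : LL a b (a - 1) 1 = 1 := by
      obtain ⟨a', ha'⟩ : ∃ a', a = a' + 2 := ⟨a - 2, by omega⟩
      subst ha'
      show LL (a' + 2) b (a' + 1) 1 = 1
      rw [LL_succ, LL_low (by omega)]
      simp [ell]
      omega
    have := h.growthC (by omega) 1 L (a - 1) (by rw [hF1]; exact bot_le) hLH (by omega)
      (by rw [hLL, hF1, finrank_bot]; omega)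
    rw [hF1, finrank_bot] at this
    have e2 : gpl f g 1 L = HS K 1 * L := by
      unfold gpl
      rw [show 1 + 1 = 2 by rfl, hF2, sup_bot_eq]
    rw [e2, show 1 + 1 = 2 by rfl, hF2, finrank_bot] at this
    have e3 : min (a - 1 + 1) (tauZ a b 1) = a := by
      unfold tauZ
      omega
    rw [e3] at this
    omega
  -- transporting by the nonzerodivisor
  have hWH : HS K 1 * L ≤ HS K 2 := by
    have := mul_le_HS (d := 1) (e := 1) (W := HS K 1) (W' := L) le_rfl hLH
    exact this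
  have hfW := finite_of_le_HS hWH
  let χ2 : (HS K 1 * L : Submodule K (Poly K)) →ₗ[K] Poly K :=
    (LinearMap.mulRight K ξ) ∘ₗ (HS K 1 * L).subtype
  have hχ2 : ∀ l : (HS K 1 * L : Submodule K (Poly K)), χ2 l = (l : Poly K) * ξ := fun _ => rfl
  have hcomap2 : (FP f g (d + 1 + 1)).comap χ2 = ⊥ := by
    rw [eq_bot_iff]
    intro l hl
    have h1 := (mem_pieceT.1 hl).1
    rw [hχ2] at h1
    have h2 := hJ2 (hWH l.2) (hn _ h1)
    exact (Submodule.mem_bot K).2 (Subtype.ext h2)
  have e3 := finrank_range_sup χ2 (FP f g (d + 1 + 1))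
  rw [hcomap2, finrank_bot] at e3
  have hr : LinearMap.range χ2 ⊔ FP f g (d + 1 + 1) ≤ gpl f g (d + 1) U := by
    refine sup_le ?_ FP_le_gpl
    rintro _ ⟨q, rfl⟩
    rw [hχ2]
    refine Submodule.mul_induction_on q.2 ?_ ?_
    · intro l hl m hm
      rw [mul_assoc]
      exact mul_le_gpl (Submodule.mul_mem_mul hl (hLU m hm))
    · intro x y hx hy
      rw [add_mul]
      exact Submodule.add_mem _ hx hy
  have hUp := gpl_le_HS (f := f) (g := g) hU
  have hfUp := finite_of_le_HS hUp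
  have h5 := Submodule.finrank_mono hr
  omega

end ZP

end Vale.Agent.Lib.P200
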