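import Vale.Agent.Lib.P200.CZ

/-!
Subspaces containing a nonzerodivisor and of dimension at least two grow by at least three:
the main induction.
-/

namespace Vale.Agent.Lib.P200
open MvPolynomial Module

variable {K : Type*} [Field K]

namespace ZP

variable {a b : ℕ} {f g : Poly K} (h : ZP a b f g)
include h

/-- The key exclusion: a relation with a new nonzerodivisor, when the colon space is killed by a
linear form. -/
theorem no_relation (ha3 : 3 ≤ a) {d : ℕ} {U : Submodule K (Poly K)} {ξ δ : Poly K}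
    (hF : FP f g (d + 1) ≤ U) (hU : U ≤ HS K (d + 1)) (hξ : ξ ∈ U) (hn : NZ f g ξ)
    (hξX : ξ ∉ gpl f g d (colZ U)) (hall : imZ U ≠ (Pp K) ^ (d + 1))
    (hδ1 : δ ∈ HS K 1) (hδ0 : δ ≠ 0) (hδ : ∀ u ∈ colZ U, δ * u ∈ FPi f g)
    (hW : colZ (gpl f g (d + 1) U) ≤ gpl f g d (colZ U) ⊔ Submodule.span K {ξ})
    (hr : finrank K (Pp K * imZ U ⊔ FZ f g (d + 1 + 1) : Submodule K (Poly K)) +
      finrank K (FZ f g (d + 1)) ≤ finrank K (imZ U) + finrank K (FZ f g (d + 1 + 1))) :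
    False := by
  set Xp := gpl f g d (colZ U) with hXp
  have hfU := finite_of_le_HS hU
  have hU' : colZ U ≤ HS K d := colZ_le_HS hU
  have hXH : Xp ≤ HS K (d + 1) := gpl_le_HS hU'
  have hfX := finite_of_le_HS hXH
  -- the hyperplane
  obtain ⟨T1, hT1⟩ : ∃ T1, T1 = U ⊓ Xp := ⟨_, rfl⟩
  have hT1U : T1 ≤ U := by
    rw [hT1]
    exact inf_le_left
  have hT1X : T1 ≤ Xp := by
    rw [hT1]
    exact inf_le_right
  have hfT := finite_of_le_HS (le_trans hT1U hU)
  have hξT : ξ ∉ T1 := fun hm => hξX (hT1X hm)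
  have hsup : U ≤ T1 ⊔ Submodule.span K {ξ} := by
    intro u hu
    obtain ⟨x, hx, w, hw, e⟩ := Submodule.mem_sup.1 (hW (le_colZ_gpl hu))
    obtain ⟨c, rfl⟩ := Submodule.mem_span_singleton.1 hw
    have hxU : x ∈ U := by
      have : x = u - c • ξ := by rw [← e]; ring
      rw [this]
      exact Submodule.sub_mem _ hu (Submodule.smul_mem _ _ hξ)
    rw [← e]
    exact Submodule.add_mem_sup (by rw [hT1]; exact ⟨hxU, hx⟩)
      (Submodule.smul_mem _ _ (Submodule.mem_span_singleton_self _))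
  have hξ0 : ξ ≠ 0 := by
    rintro rfl
    exact hξT (Submodule.zero_mem _)
  have hT1dim : finrank K U ≤ finrank K T1 + 1 := by
    have h1 := Submodule.finrank_add_le_finrank_add_finrank T1 (Submodule.span K {ξ})
    rw [finrank_span_singleton hξ0] at h1
    have hS : T1 ⊔ Submodule.span K {ξ} ≤ U :=
      sup_le hT1U ((Submodule.span_singleton_le_iff_mem _ _).2 hξ)
    have hfS : Module.Finite K (T1 ⊔ Submodule.span K {ξ} : Submodule K (Poly K)) :=
      Submodule.finiteDimensional_of_le hS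
    have h2 := Submodule.finrank_mono hsup
    omega
  -- the colon of the hyperplane
  have hcol : colZ T1 = colZ U := by
    apply le_antisymm (colZ_mono hT1U)
    intro m hm
    rw [mem_colZ, hT1]
    exact ⟨hm, mul_le_gpl (X_mul_mem_HS1_mul hm 0)⟩
  have e1 := finrank_col_add_im hU
  have e2 := finrank_col_add_im (le_trans hT1U hU)
  rw [hcol] at e2
  have hVH : imZ U ≤ HS K (d + 1) := imZ_le_HS' hU
  have hfV := finite_of_le_HS hVH
  have hV1le : imZ T1 ≤ imZ U := imZ_mono hT1U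
  have hFT : FP f g (d + 1) ≤ T1 := by
    rw [hT1]
    exact le_inf hF FP_le_gpl
  have hV1F : FZ f g (d + 1) ≤ imZ T1 := imZ_mono hFT
  have hV1ne : imZ T1 ≠ (Pp K) ^ (d + 1) := by
    intro he
    apply hall
    apply le_antisymm (imZ_le_HS hU)
    rw [← he]
    exact hV1le
  have h2V := h.twoV hV1F (le_trans hV1le (imZ_le_HS hU)) hV1ne
  -- a relation for the image of the nonzerodivisor
  obtain ⟨P1, hP1⟩ : ∃ P1, P1 = Pp K * imZ T1 ⊔ FZ f g (d + 1 + 1) := ⟨_, rfl⟩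
  have hP1H : P1 ≤ HS K (d + 1 + 1) := by
    rw [hP1]
    exact sup_le (Pp_mul_le_HS (imZ_le_HS' (le_trans hT1U hU))) (FZ_le_HS f g _)
  have hfP1 := finite_of_le_HS hP1H
  have hPfull : Pp K * imZ U ⊔ FZ f g (d + 1 + 1) ≤ HS K (d + 1 + 1) :=
    sup_le (Pp_mul_le_HS hVH) (FZ_le_HS f g _)
  have hfPf := finite_of_le_HS hPfull
  have hfPp : Module.Finite K (Pp K) := finite_of_le_HS Pp_le_HS
  let χ : Pp K →ₗ[K] Poly K := (LinearMap.mulRight K (piZ ξ)) ∘ₗ (Pp K).subtype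
  have hχ : ∀ l : Pp K, χ l = (l : Poly K) * piZ ξ := fun _ => rfl
  have hr2 : LinearMap.range χ ⊔ P1 ≤ Pp K * imZ U ⊔ FZ f g (d + 1 + 1) := by
    refine sup_le ?_ ?_
    · rintro _ ⟨l, rfl⟩
      rw [hχ]
      exact Submodule.mem_sup_left (Submodule.mul_mem_mul l.2 (piZ_mem_imZ hξ))
    · rw [hP1]
      exact sup_le_sup_right (mul_le_mul' le_rfl hV1le) _
  have e3 := finrank_range_sup χ P1
  rw [finrank_Pp] at e3
  have h5 := Submodule.finrank_mono hr2
  have hcomap : 0 < finrank K (P1.comap χ) := by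
    rw [hP1] at e3 h5 ⊢
    have hV1dim : finrank K (imZ U) ≤ finrank K (imZ T1) + 1 := by omega
    omega
  have hnt : Nontrivial (P1.comap χ) := Module.finrank_pos_iff.1 hcomap
  obtain ⟨⟨α, hα⟩, hα0⟩ := exists_ne (0 : P1.comap χ)
  have hα0' : (α : Poly K) ≠ 0 := fun he => hα0 (Subtype.ext (Subtype.ext he))
  have hαP : (α : Poly K) ∈ Pp K := α.2
  have hαm : (α : Poly K) * piZ ξ ∈ P1 := hα
  rw [hP1] at hαm
  obtain ⟨y, hy, φb, hφb, e4⟩ := Submodule.mem_sup.1 hαm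
  obtain ⟨v1b, hv1b, v2b, hv2b, rfl⟩ := mem_Pp_mul.1 hy
  obtain ⟨v1, hv1, rfl⟩ := mem_imZ.1 hv1b
  obtain ⟨v2, hv2, rfl⟩ := mem_imZ.1 hv2b
  obtain ⟨φ, hφ, rfl⟩ := mem_imZ.1 hφb
  -- lifting the relation
  have hdiv : ∃ w, (α : Poly K) * ξ - X 1 * v1 - X 2 * v2 - φ = X 0 * w := by
    apply piZ_eq_zero_iff.1
    simp only [map_sub, map_mul, piZ_X1, piZ_X2, piZ_of_mem_Pp hαP]
    rw [← e4]
    ring
  obtain ⟨w, hw⟩ := hdiv
  have hαH : (α : Poly K) ∈ HS K 1 := Pp_le_HS hαP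
  have hwW : w ∈ colZ (gpl f g (d + 1) U) := by
    rw [mem_colZ, ← hw]
    refine Submodule.sub_mem _ (Submodule.sub_mem _ (Submodule.sub_mem _ ?_ ?_) ?_) ?_
    · exact mul_le_gpl (Submodule.mul_mem_mul hαH hξ)
    · exact mul_mem_gpl (hT1U hv1) 1
    · exact mul_mem_gpl (hT1U hv2) 2
    · exact FP_le_gpl hφ
  obtain ⟨x, hx, t, ht, e5⟩ := Submodule.mem_sup.1 (hW hwW)
  obtain ⟨c, rfl⟩ := Submodule.mem_span_singleton.1 ht
  -- applying the linear form
  have hδX : ∀ x ∈ Xp, δ * x ∈ FPi f g := fun x hx => mul_mem_of_gpl hδ hx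
  have hfin : δ * ((α : Poly K) - C c * X 0) * ξ ∈ FPi f g := by
    have e6 : δ * ((α : Poly K) - C c * X 0) * ξ =
        X 1 * (δ * v1) + X 2 * (δ * v2) + δ * φ + X 0 * (δ * x) := by
      have e7 : w = x + C c * ξ := by
        rw [← e5, MvPolynomial.smul_eq_C_mul]
      rw [e7] at hw
      linear_combination δ * hw
    rw [e6]
    refine Ideal.add_mem _ (Ideal.add_mem _ (Ideal.add_mem _ ?_ ?_) ?_) ?_
    · exact Ideal.mul_mem_left _ _ (hδX _ (hT1X hv1))
    · exact Ideal.mul_mem_left _ _ (hδX _ (hT1X hv2))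
    · exact Ideal.mul_mem_left _ _ (mem_pieceT.1 hφ).1
    · exact Ideal.mul_mem_left _ _ (hδX _ hx)
  have h6 := hn _ hfin
  have hαc : ((α : Poly K) - C c * X 0).IsHomogeneous 1 := by
    refine IsHomogeneous.sub hαH ?_
    rw [← MvPolynomial.smul_eq_C_mul]
    exact Submodule.smul_mem (HS K 1) c (X_mem_HS1 0)
  have h7 : (δ * ((α : Poly K) - C c * X 0)).IsHomogeneous 2 :=
    (show δ.IsHomogeneous 1 from hδ1).mul hαc
  have h8 := h.FP_mem_eq_zero (d := 2) (by omega) h6 h7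
  rcases mul_eq_zero.1 h8 with h9 | h9
  · exact hδ0 h9
  · have h10 := congrArg piZ h9
    simp only [map_sub, map_mul, piZ_X0, mul_zero, sub_zero, map_zero, piZ_of_mem_Pp hαP] at h10
    exact hα0' h10

end ZP

end Vale.Agent.Lib.P200
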