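import Vale.Agent.Lib.P200.CZ2

/-!
Subspaces containing a nonzerodivisor and of dimension at least two grow by at least three:
the main induction.
-/

namespace Vale.Agent.Lib.P200
open MvPolynomial Module

variable {K : Type*} [Field K]

namespace ZP

variable {a b : ℕ} {f g : Poly K} (h : ZP a b f g)
include h

/-- Growth by three. -/
theorem growthZ [Infinite K] (ha3 : 3 ≤ a) : ∀ (d : ℕ) (U : Submodule K (Poly K)), FP f g d ≤ U →
    U ≤ HS K d → (∃ ξ ∈ U, NZ f g ξ) → U ≠ HS K d → finrank K (FP f g d) + 2 ≤ finrank K U →
    2 ≤ tauZ a b d →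
    finrank K U + finrank K (FP f g (d + 1)) + 3 ≤
      finrank K (gpl f g d U) + finrank K (FP f g d) := by
  have hab := h.hab
  intro d
  induction d with
  | zero =>
    intro U hF hU _ _ hn _
    exfalso
    rw [h.FP_zero, finrank_bot] at hn
    have hfH := finite_of_le_HS (le_refl (HS K 0))
    have := Submodule.finrank_mono hU
    rw [finrank_HS, T_zero] at this
    omega
  | succ d ih =>
    intro U hF hU hnz hne hn ht
    obtain ⟨ξ0, hξ0, hn0⟩ := hnz
    have hfinU := finite_of_le_HS hU
    have hUp : gpl f g (d + 1) U ≤ HS K (d + 1 + 1) := gpl_le_HS hU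
    have hfUp := finite_of_le_HS hUp
    by_cases hlow : d + 1 + 2 ≤ a
    · -- the range of the polynomial ring
      have hLL : LL a b (a - (d + 1)) (d + 1) = 1 := by
        obtain ⟨p, hp⟩ : ∃ p, a - (d + 1) = p + 1 := ⟨a - (d + 1) - 1, by omega⟩
        rw [hp, LL_succ, LL_low (by omega)]
        simp only [ell]
        omega
      have := h.growthC (by omega) (d + 1) U (a - (d + 1)) hF hU (by omega) (by omega)
      unfold tauZ at this ht
      have hm : min (a - (d + 1) + 1) (a + b - 2 - (d + 1)) = a - (d + 1) + 1 := by omega
      rw [hm] at this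
      omega
    have hU' : colZ U ≤ HS K d := colZ_le_HS hU
    have hfinU' := finite_of_le_HS hU'
    have hF' : FP f g d ≤ colZ U := h.FP_le_colZ hF
    have hV : imZ U ≤ (Pp K) ^ (d + 1) := imZ_le_HS hU
    have hVF : FZ f g (d + 1) ≤ imZ U := imZ_mono hF
    have hVH : imZ U ≤ HS K (d + 1) := imZ_le_HS' hU
    have e1 := finrank_col_add_im hU
    have e2 := finrank_col_add_im hUp
    rw [imZ_gpl] at e2
    have hCp : colZ (gpl f g (d + 1) U) ≤ HS K (d + 1) := colZ_le_HS hUp
    have hfinCp := finite_of_le_HS hCp
    have h3 : finrank K U ≤ finrank K (colZ (gpl f g (d + 1) U)) :=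
      Submodule.finrank_mono le_colZ_gpl
    have h4 : finrank K (gpl f g d (colZ U)) ≤ finrank K (colZ (gpl f g (d + 1) U)) :=
      Submodule.finrank_mono (gpl_colZ_le U)
    have s1 := h.finrank_FP_succ d
    have s2 := h.finrank_FP_succ (d + 1)
    have gF1 := h.finrank_FZ (d + 1)
    have gF2 := h.finrank_FZ (d + 1 + 1)
    have hXH : gpl f g d (colZ U) ≤ HS K (d + 1) := gpl_le_HS hU'
    have hfinX := finite_of_le_HS hXH
    by_cases hall : imZ U = (Pp K) ^ (d + 1)
    · -- surjective modulo x₀
      have hI : Pp K * imZ U ⊔ FZ f g (d + 1 + 1) = (Pp K) ^ (d + 1 + 1) := by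
        rw [hall, ← pow_succ']
        exact sup_eq_left.2 (FZ_le_Pp f g _)
      rw [hI, finrank_Pp_pow] at e2
      by_cases hb : b ≤ d + 1 + 1
      · by_contra hcon
        apply hne
        refine h.flat (by omega) hb hF hU hall hξ0 hn0 ?_
        have hgg : gg a b (d + 1 + 1) = tauZ a b (d + 1) := by
          unfold gg tauZ
          split_ifs <;> omega
        omega
      · have hgg : gg a b (d + 1 + 1) = a := by
          unfold gg
          rw [if_neg (by omega), if_pos (by omega)]
        omega
    have h2V := h.twoV hVF hV hall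
    have hI1 : FZ f g (d + 1 + 1) ≤ Pp K * imZ U ⊔ FZ f g (d + 1 + 1) := le_sup_right
    have hISH : Pp K * imZ U ⊔ FZ f g (d + 1 + 1) ≤ HS K (d + 1 + 1) :=
      sup_le (Pp_mul_le_HS hVH) (FZ_le_HS f g _)
    have hfinI := finite_of_le_HS hISH
    have hI2 := Submodule.finrank_mono hI1
    by_cases hrbig : 3 + finrank K (FZ f g (d + 1)) ≤ finrank K (imZ U)
    · omega
    by_cases hUX : U ≤ gpl f g d (colZ U)
    · -- the subspace is generated from the colon space
      have hnzU' : ∃ ξ ∈ colZ U, NZ f g ξ := by
        by_contra hcon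
        push Not at hcon
        obtain ⟨P, hP, hPU⟩ := exists_assoc_of_no_nz (f := f) (g := g) hcon
        have hXP : gpl f g d (colZ U) ≤ P.restrictScalars K := by
          refine sup_le ?_ ?_
          · rw [Submodule.mul_le]
            intro l _ m hm
            exact Ideal.mul_mem_left _ _ (hPU m hm)
          · intro x hx
            exact FPi_le_of_assoc hP (mem_pieceT.1 hx).1
        exact (nz_iff.1 hn0) P hP (hXP (hUX hξ0))
      obtain ⟨ξ', hξ', hn'⟩ := hnzU'
      have hξ'J : ξ' ∉ FP f g d := by
        intro hm
        have h1 : (1 : Poly K) ∈ FPi f g := hn' 1 (by rw [one_mul]; exact (mem_pieceT.1 hm).1)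
        have := h.FP_mem_eq_zero (d := 0) (by omega) h1 (isHomogeneous_one _ _)
        exact one_ne_zero this
      have hnpos : finrank K (FP f g d) < finrank K (colZ U) := by
        have hlt : FP f g d < colZ U := lt_of_le_of_ne hF' (fun he => hξ'J (he ▸ hξ'))
        exact Submodule.finrank_lt_finrank_of_lt hlt
      by_cases hn1 : finrank K (colZ U) = finrank K (FP f g d) + 1
      · -- one new element in the colon space
        have hξ'0 : ξ' ≠ 0 := fun h0 => hξ'J (h0 ▸ Submodule.zero_mem _)
        have hle : FP f g d ⊔ Submodule.span K {ξ'} ≤ colZ U :=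
          sup_le hF' ((Submodule.span_singleton_le_iff_mem _ _).2 hξ')
        have hfS : Module.Finite K (FP f g d ⊔ Submodule.span K {ξ'} : Submodule K (Poly K)) :=
          Submodule.finiteDimensional_of_le hle
        have hgt : FP f g d < FP f g d ⊔ Submodule.span K {ξ'} := by
          refine lt_of_le_of_ne le_sup_left ?_
          intro he
          apply hξ'J
          rw [he]
          exact Submodule.mem_sup_right (Submodule.mem_span_singleton_self _)
        have hlt2 := Submodule.finrank_lt_finrank_of_lt hgt
        have hEq : FP f g d ⊔ Submodule.span K {ξ'} = colZ U :=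
          Submodule.eq_of_le_of_finrank_le hle (by omega)
        refine h.growth_of_nz_line ha3 hn' hF hU (le_trans hUX ?_) hn
        refine sup_le ?_ le_sup_right
        rw [← hEq, Submodule.mul_sup]
        exact sup_le (le_trans (mul_FP_le f g d) le_sup_right) le_sup_left
      · by_cases hU'all : colZ U = HS K d
        · -- the colon space is everything
          have hX : gpl f g d (colZ U) = HS K (d + 1) := by
            rw [hU'all, gpl_HS]
          have hT : T (d + 1) = T d + (d + 2) := T_succ d
          have hfH := finite_of_le_HS (le_refl (HS K d))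
          have hfH1 := finite_of_le_HS (le_refl (HS K (d + 1)))
          rw [hX, finrank_HS] at h4
          rw [hU'all, finrank_HS] at e1
          have hgg : 3 ≤ gg a b (d + 1) := by
            unfold tauZ at ht
            unfold gg
            split_ifs <;> omega
          omega
        · have := ih (colZ U) hF' hU' ⟨ξ', hξ', hn'⟩ hU'all (by omega)
            (by unfold tauZ at ht ⊢; omega)
          omega
    · -- a new nonzerodivisor
      obtain ⟨ξ, hξ, hnξ, hξX⟩ := exists_nz_avoid hξ0 hn0 hUX
      have hnewle : gpl f g d (colZ U) ⊔ Submodule.span K {ξ} ≤ colZ (gpl f g (d + 1) U) :=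
        sup_le (gpl_colZ_le U) ((Submodule.span_singleton_le_iff_mem _ _).2 (le_colZ_gpl hξ))
      have hfS : Module.Finite K (gpl f g d (colZ U) ⊔ Submodule.span K {ξ} :
          Submodule K (Poly K)) := Submodule.finiteDimensional_of_le hnewle
      have hgt : gpl f g d (colZ U) < gpl f g d (colZ U) ⊔ Submodule.span K {ξ} := by
        refine lt_of_le_of_ne le_sup_left ?_
        intro he
        apply hξX
        rw [he]
        exact Submodule.mem_sup_right (Submodule.mem_span_singleton_self _)
      have hlt2 := Submodule.finrank_lt_finrank_of_lt hgt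
      have hle2 := Submodule.finrank_mono hnewle
      by_cases hn0' : finrank K (colZ U) = finrank K (FP f g d)
      · -- two generators
        have hdim : finrank K U = finrank K (FP f g (d + 1)) + 2 := by omega
        exact h.two_gen ha3 (by unfold tauZ at ht ⊢; omega) hF hU hξ hnξ hdim
      have hnpos : finrank K (FP f g d) < finrank K (colZ U) := by
        have := Submodule.finrank_mono hF'
        omega
      by_cases hg2 : finrank K (colZ U) + finrank K (FP f g (d + 1)) + 2 ≤
          finrank K (gpl f g d (colZ U)) + finrank K (FP f g d)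
      · omega
      -- growth one of the colon space
      obtain ⟨δ, hδ1, hδ0, hδ⟩ := h.exists_linear (by omega) d (colZ U) hF' hU' hnpos
        (by unfold tauZ at ht ⊢; omega) (by omega)
      by_contra hcon
      have hg1 := h.growth_one (by omega) hF' hU' hnpos (by unfold tauZ at ht ⊢; omega)
      refine h.no_relation ha3 hF hU hξ hnξ hξX hall hδ1 hδ0 hδ ?_ (by omega)
      exact (Submodule.eq_of_le_of_finrank_le hnewle (by omega)).symm.le

end ZP

end Vale.Agent.Lib.P200
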