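import Vale.Agent.Lib.P200.Pair

/-!
Choice of a linear form acting injectively on a two-dimensional space modulo an ideal
without socle.
-/

namespace Vale.Agent.Lib.P200
open MvPolynomial Module

section pure

variable {K : Type*} [Field K] {A : Type*} [CommRing A] [Algebra K A]

/-- The case in which all multiples lie on one line. -/
theorem line_case {x : Fin 3 → A} (hs : ∀ a : A, (∀ i, x i * a = 0) → a = 0) {u v w : A}
    (hind : ∀ r s : K, r • u + s • v = 0 → r = 0 ∧ s = 0) (a b : Fin 3 → K)
    (hu : ∀ k, x k * u = a k • w) (hv : ∀ k, x k * v = b k • w) : False := by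
  -- first, no nontrivial combination kills both coefficient vectors
  have hdep : ∀ r s : K, (∀ k, r * a k + s * b k = 0) → r = 0 ∧ s = 0 := by
    intro r s h
    apply hind r s
    apply hs
    intro i
    rw [mul_add, mul_smul_comm, mul_smul_comm, hu, hv, smul_smul, smul_smul, ← add_smul, h i,
      zero_smul]
  have hcomm : ∀ i j, a i • (x j * w) = a j • (x i * w) := by
    intro i j
    have : x j * (x i * u) = x i * (x j * u) := by ring
    rw [hu, hu, mul_smul_comm, mul_smul_comm] at this
    exact this
  have hcomm' : ∀ i j, b i • (x j * w) = b j • (x i * w) := by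
    intro i j
    have : x j * (x i * v) = x i * (x j * v) := by ring
    rw [hv, hv, mul_smul_comm, mul_smul_comm] at this
    exact this
  have htk : ∀ k, x k * w = 0 := by
    intro k
    by_contra hne
    have h1 : ∀ i, (b k * a i + (- a k) * b i) = 0 := by
      intro i
      have h2 : (b k * a i - a k * b i) • (x k * w) = 0 := by
        rw [sub_smul, mul_smul, mul_smul, hcomm i k, hcomm' i k, smul_smul, smul_smul, mul_comm,
          sub_self]
      have h3 := (smul_eq_zero.1 h2).resolve_right hne
      linear_combination h3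
    obtain ⟨h4, h5⟩ := hdep _ _ h1
    have h5' : a k = 0 := by simpa using h5
    -- then the vector `a` and `b` annihilate `x k * w`
    have h6 : ∀ i, a i = 0 := by
      intro i
      have h7 : a i • (x k * w) = 0 := by rw [hcomm i k, h5', zero_smul]
      exact (smul_eq_zero.1 h7).resolve_right hne
    have h8 := (hdep 1 0 (by intro i; simp [h6 i])).1
    exact one_ne_zero h8
  have hw : w = 0 := hs w htk
  have hu0 : u = 0 := by
    apply hs
    intro i
    rw [hu, hw, smul_zero]
  have := (hind 1 0 (by simp [hu0])).1
  exact one_ne_zero this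

/-- Two dependent vectors are multiples of one vector, with a normalisation. -/
theorem rep_of_singular {p q : A} {r s : K} (hne : ¬ (r = 0 ∧ s = 0)) (e : r • p + s • q = 0) :
    ∃ (a b : K) (w : A), p = a • w ∧ q = b • w ∧ ((a = 0 ∧ b = 0) ∨ w ≠ 0) := by
  by_cases hw : p = 0 ∧ q = 0
  · exact ⟨0, 0, 0, by simp [hw.1], by simp [hw.2], Or.inl ⟨rfl, rfl⟩⟩
  by_cases hs : s = 0
  · subst hs
    have hr : r ≠ 0 := fun h0 => hne ⟨h0, rfl⟩
    rw [zero_smul, add_zero, smul_eq_zero] at e
    have hp := e.resolve_left hr
    have hq : q ≠ 0 := fun h0 => hw ⟨hp, h0⟩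
    exact ⟨0, 1, q, by simp [hp], by simp, Or.inr hq⟩
  · have hq : q = (- r / s) • p := by
      have h1 : s • q = - (r • p) := by linear_combination (exp := 1) e
      have h2 : q = s⁻¹ • (s • q) := by rw [smul_smul, inv_mul_cancel₀ hs, one_smul]
      rw [h2, h1, smul_neg, smul_smul, ← neg_smul]
      congr 1
      field_simp
    have hp : p ≠ 0 := by
      intro h0
      apply hw
      refine ⟨h0, ?_⟩
      rw [hq, h0, smul_zero]
    exact ⟨1, - r / s, p, by simp, hq, Or.inr hp⟩

/-- Choice of a linear form. -/
theorem exists_inj_combination (x : Fin 3 → A) (hs : ∀ a : A, (∀ i, x i * a = 0) → a = 0) {u v : A}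
    (hind : ∀ r s : K, r • u + s • v = 0 → r = 0 ∧ s = 0) :
    ∃ c : Fin 3 → K, ∀ r s : K,
      (c 0 • x 0 + c 1 • x 1 + c 2 • x 2) * (r • u + s • v) = 0 → r = 0 ∧ s = 0 := by
  by_contra hcon
  push Not at hcon
  -- singularity of a given linear form
  have sing : ∀ c : Fin 3 → K, ∃ r s : K, ¬ (r = 0 ∧ s = 0) ∧
      r • ((c 0 • x 0 + c 1 • x 1 + c 2 • x 2) * u) + s • ((c 0 • x 0 + c 1 • x 1 + c 2 • x 2) * v) = 0 := by
    intro c
    obtain ⟨r, s, h1, h2⟩ := hcon c
    refine ⟨r, s, fun h3 => h2 h3.1 h3.2, ?_⟩
    rw [mul_add, mul_smul_comm, mul_smul_comm] at h1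
    exact h1
  -- the representation for each variable
  have hrep : ∀ i : Fin 3, ∃ (a b : K) (w : A), x i * u = a • w ∧ x i * v = b • w ∧
      ((a = 0 ∧ b = 0) ∨ w ≠ 0) := by
    intro i
    obtain ⟨r, s, h1, h2⟩ := sing (Pi.single i 1)
    have hx : (Pi.single i (1 : K) : Fin 3 → K) 0 • x 0 + (Pi.single i (1 : K) : Fin 3 → K) 1 • x 1
        + (Pi.single i (1 : K) : Fin 3 → K) 2 • x 2 = x i := by
      fin_cases i <;> simp
    rw [hx] at h2
    exact rep_of_singular h1 h2
  choose a b w hu hv hnorm using hrep
  -- pair lemma
  have hpair : ∀ i j : Fin 3, i ≠ j → a i * b j - a j * b i ≠ 0 →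
      (∃ κ : K, w j = κ • w i) := by
    intro i j hij hdet
    obtain ⟨r, s, h1, h2⟩ := sing (Pi.single i 1 + Pi.single j 1)
    have hx : ((Pi.single i (1 : K) + Pi.single j (1 : K) : Fin 3 → K)) 0 • x 0
        + ((Pi.single i (1 : K) + Pi.single j (1 : K) : Fin 3 → K)) 1 • x 1
        + ((Pi.single i (1 : K) + Pi.single j (1 : K) : Fin 3 → K)) 2 • x 2 = x i + x j := by
      fin_cases i <;> fin_cases j <;> simp at hij ⊢ <;> ring
    rw [hx, add_mul, add_mul, hu, hv, hu, hv] at h2
    have hE : (r * a i + s * b i) • w i + (r * a j + s * b j) • w j = 0 := by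
      have : (r * a i + s * b i) • w i + (r * a j + s * b j) • w j
          = r • (a i • w i + a j • w j) + s • (b i • w i + b j • w j) := by
        simp only [add_smul, mul_smul, smul_add]
        abel
      rw [this]
      exact h2
    have hwi : w i ≠ 0 := by
      rcases hnorm i with ⟨h3, h4⟩ | h3
      · exfalso
        apply hdet
        rw [h3, h4]
        ring
      · exact h3
    have hwj : w j ≠ 0 := by
      rcases hnorm j with ⟨h3, h4⟩ | h3
      · exfalso
        apply hdet
        rw [h3, h4]
        ring
      · exact h3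
    -- coefficient of `w j` is nonzero
    by_cases hρ : r * a j + s * b j = 0
    · rw [hρ, zero_smul, add_zero] at hE
      have hρi : r * a i + s * b i = 0 := (smul_eq_zero.1 hE).resolve_right hwi
      exfalso
      apply h1
      constructor
      · have : r * (a i * b j - a j * b i) = 0 := by
          linear_combination b j * hρi - b i * hρ
        exact (mul_eq_zero.1 this).resolve_right hdet
      · have : s * (a i * b j - a j * b i) = 0 := by
          linear_combination a i * hρ - a j * hρi
        exact (mul_eq_zero.1 this).resolve_right hdet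
    · refine ⟨- ((r * a i + s * b i) / (r * a j + s * b j)), ?_⟩
      have h5 : (r * a j + s * b j) • w j = - ((r * a i + s * b i) • w i) := by
        linear_combination (exp := 1) hE
      have h6 : w j = (r * a j + s * b j)⁻¹ • ((r * a j + s * b j) • w j) := by
        rw [smul_smul, inv_mul_cancel₀ hρ, one_smul]
      rw [h6, h5, smul_neg, smul_smul, neg_smul]
      congr 2
      field_simp
  -- the main case distinction
  by_cases hdets : ∀ i j, a i * b j - a j * b i = 0
  · -- common kernel
    by_cases hz : ∀ i, a i = 0 ∧ b i = 0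
    · have hu0 : u = 0 := by
        apply hs
        intro i
        rw [hu, (hz i).1, zero_smul]
      have := (hind 1 0 (by simp [hu0])).1
      exact one_ne_zero this
    · push Not at hz
      obtain ⟨p, hp⟩ := hz
      have hker : b p • u + (- a p) • v = 0 := by
        apply hs
        intro i
        rw [mul_add, mul_smul_comm, mul_smul_comm, hu, hv, smul_smul, smul_smul, ← add_smul]
        have : b p * a i + - a p * b i = 0 := by
          have := hdets i p
          linear_combination this
        rw [this, zero_smul]
      obtain ⟨h1, h2⟩ := hind _ _ hker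
      exact hp (by simpa using h2) h1
  · -- common image
    push Not at hdets
    obtain ⟨i, j, hij⟩ := hdets
    have hne : i ≠ j := by
      rintro rfl
      apply hij
      ring
    obtain ⟨κj, hκj⟩ := hpair i j hne hij
    have hall : ∀ k, ∃ κ : K, a k = 0 ∧ b k = 0 ∨ w k = κ • w i := by
      intro k
      by_cases hki : k = i
      · exact ⟨1, Or.inr (by rw [hki, one_smul])⟩
      by_cases hkj : k = j
      · exact ⟨κj, Or.inr (by rw [hkj, hκj])⟩
      by_cases hz : a k = 0 ∧ b k = 0
      · exact ⟨0, Or.inl hz⟩
      by_cases hd1 : a i * b k - a k * b i = 0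
      · by_cases hd2 : a j * b k - a k * b j = 0
        · exfalso
          apply hz
          constructor
          · have : a k * (a i * b j - a j * b i) = 0 := by
              linear_combination a j * hd1 - a i * hd2
            exact (mul_eq_zero.1 this).resolve_right hij
          · have : b k * (a i * b j - a j * b i) = 0 := by
              linear_combination b j * hd1 - b i * hd2
            exact (mul_eq_zero.1 this).resolve_right hij
        · obtain ⟨κ, hκ⟩ := hpair j k (Ne.symm hkj) hd2
          exact ⟨κ * κj, Or.inr (by rw [hκ, hκj, smul_smul])⟩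
      · obtain ⟨κ, hκ⟩ := hpair i k (Ne.symm hki) hd1
        exact ⟨κ, Or.inr hκ⟩
    choose κ hκ using hall
    refine line_case (K := K) (x := x) hs (u := u) (v := v) (w := w i) hind
      (fun k => a k * κ k) (fun k => b k * κ k) ?_ ?_
    · intro k
      rw [hu]
      rcases hκ k with ⟨h1, _⟩ | h1
      · simp [h1]
      · rw [h1, smul_smul]
    · intro k
      rw [hv]
      rcases hκ k with ⟨_, h1⟩ | h1
      · simp [h1]
      · rw [h1, smul_smul]

end pure

end Vale.Agent.Lib.P200
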