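import Mathlib

/-!
Linear algebra over an algebraically closed field: a pencil or a net of maps from a space to a
space of at most one more dimension always has a zero pair.
-/

namespace Vale.Agent.Lib.P200
open Module Matrix

section obs

variable {R : Type*} [CommRing R] {n : ℕ}

/-- The observability matrix of the pair `(s p + t q, s A + t B)`. -/
def obsM (p q : Fin n → R) (A B : Matrix (Fin n) (Fin n) R) (s t : R) :
    Matrix (Fin n) (Fin n) R :=
  Matrix.of fun i j => ((s • p + t • q) ᵥ* (s • A + t • B) ^ (i : ℕ)) j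

theorem obsM_map {R' : Type*} [CommRing R'] (g : R →+* R') (p q : Fin n → R)
    (A B : Matrix (Fin n) (Fin n) R) (s t : R) :
    (obsM p q A B s t).map g = obsM (g ∘ p) (g ∘ q) (A.map g) (B.map g) (g s) (g t) := by
  ext i j
  simp only [obsM, Matrix.map_apply, Matrix.of_apply]
  have e1 : (g.mapMatrix (s • A + t • B)) ^ (i : ℕ) = (g s • A.map g + g t • B.map g) ^ (i : ℕ) := by
    congr 1
    ext k l
    simp
  have e2 := RingHom.map_vecMul g ((s • A + t • B) ^ (i : ℕ)) ((s • p + t • q)) j
  rw [e2]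
  have e3 : ((s • A + t • B) ^ (i : ℕ)).map g = (g s • A.map g + g t • B.map g) ^ (i : ℕ) := by
    rw [← e1]
    exact map_pow g.mapMatrix _ _
  rw [e3]
  congr 2
  funext k
  simp

/-- Scaling a pair scales the rows of the observability matrix. -/
theorem obsM_scale (p q : Fin n → R) (A B : Matrix (Fin n) (Fin n) R) (c s t : R) :
    (obsM p q A B (c * s) (c * t)).det = c ^ (∑ i : Fin n, ((i : ℕ) + 1)) * (obsM p q A B s t).det := by
  have e : obsM p q A B (c * s) (c * t) =
      Matrix.of fun (i j : Fin n) => (c ^ ((i : ℕ) + 1)) * obsM p q A B s t i j := by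
    ext i j
    simp only [obsM, Matrix.of_apply]
    have e1 : (c * s) • p + (c * t) • q = c • (s • p + t • q) := by
      simp [smul_add, smul_smul]
    have e2 : (c * s) • A + (c * t) • B = c • (s • A + t • B) := by
      simp [smul_add, smul_smul]
    rw [e1, e2, smul_pow, Matrix.smul_vecMul, Matrix.vecMul_smul, smul_smul]
    simp [pow_succ']
  rw [e, Matrix.det_mul_column (fun i : Fin n => c ^ ((i : ℕ) + 1)) (obsM p q A B s t),
    Finset.prod_pow_eq_pow_sum]

end obs

section closed

variable {K : Type*} [Field K] [IsAlgClosed K] {n : ℕ}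

open Polynomial

/-- A projective root of the determinant of the observability matrix. -/
theorem exists_obs_root (hn : n ≠ 0) (p q : Fin n → K) (A B : Matrix (Fin n) (Fin n) K) :
    ∃ s t : K, (s ≠ 0 ∨ t ≠ 0) ∧ (obsM p q A B s t).det = 0 := by
  classical
  -- the two polynomials
  set P : K[X] := (obsM (C ∘ p) (C ∘ q) (A.map C) (B.map C) 1 X).det with hP
  set Q : K[X] := (obsM (C ∘ p) (C ∘ q) (A.map C) (B.map C) X 1).det with hQ
  have evP : ∀ u : K, P.eval u = (obsM p q A B 1 u).det := by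
    intro u
    have := RingHom.map_det (evalRingHom u) (obsM (C ∘ p) (C ∘ q) (A.map C) (B.map C) 1 X)
    rw [RingHom.mapMatrix_apply, obsM_map] at this
    have e1 : (evalRingHom u) ∘ (C ∘ p) = p := by
      funext i
      simp
    have e2 : (evalRingHom u) ∘ (C ∘ q) = q := by
      funext i
      simp
    have e3 : ∀ M : Matrix (Fin n) (Fin n) K, (M.map C).map (evalRingHom u) = M := by
      intro M
      ext i j
      simp
    rw [e1, e2, e3, e3] at this
    simpa [hP] using this
  have evQ : ∀ u : K, Q.eval u = (obsM p q A B u 1).det := by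
    intro u
    have := RingHom.map_det (evalRingHom u) (obsM (C ∘ p) (C ∘ q) (A.map C) (B.map C) X 1)
    rw [RingHom.mapMatrix_apply, obsM_map] at this
    have e1 : (evalRingHom u) ∘ (C ∘ p) = p := by
      funext i
      simp
    have e2 : (evalRingHom u) ∘ (C ∘ q) = q := by
      funext i
      simp
    have e3 : ∀ M : Matrix (Fin n) (Fin n) K, (M.map C).map (evalRingHom u) = M := by
      intro M
      ext i j
      simp
    rw [e1, e2, e3, e3] at this
    simpa [hQ] using this
  by_contra hcon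
  push Not at hcon
  have hnP : ∀ u, P.eval u ≠ 0 := fun u => by
    rw [evP]
    exact hcon 1 u (Or.inl one_ne_zero)
  have hnQ : ∀ u, Q.eval u ≠ 0 := fun u => by
    rw [evQ]
    exact hcon u 1 (Or.inr one_ne_zero)
  have hdP : P.degree = 0 := by
    by_contra hd
    obtain ⟨u, hu⟩ := IsAlgClosed.exists_root P hd
    exact hnP u hu
  have hdQ : Q.degree = 0 := by
    by_contra hd
    obtain ⟨u, hu⟩ := IsAlgClosed.exists_root Q hd
    exact hnQ u hu
  have eP := eq_C_of_degree_eq_zero hdP
  have eQ := eq_C_of_degree_eq_zero hdQ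
  set N := ∑ i : Fin n, ((i : ℕ) + 1) with hN
  have hN1 : 1 ≤ N := by
    have h0 : (⟨0, Nat.pos_of_ne_zero hn⟩ : Fin n) ∈ (Finset.univ : Finset (Fin n)) :=
      Finset.mem_univ _
    have := Finset.single_le_sum (f := fun i : Fin n => (i : ℕ) + 1) (fun _ _ => Nat.zero_le _) h0
    simpa using this
  have hconst : ∀ u : K, u ≠ 0 → Q.coeff 0 = u ^ N * P.coeff 0 := by
    intro u hu
    have e1 := obsM_scale p q A B u 1 u⁻¹
    rw [mul_one, mul_inv_cancel₀ hu, ← evQ, ← evP] at e1
    rw [eP, eQ] at e1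
    simpa using e1
  have hp0 : P.coeff 0 ≠ 0 := by
    have := hnP 0
    rw [eP] at this
    simpa using this
  have h1 := hconst 1 one_ne_zero
  rw [one_pow, one_mul] at h1
  have hu1 : ∀ u : K, u ≠ 0 → u ^ N = 1 := by
    intro u hu
    have := hconst u hu
    rw [h1] at this
    have h2 : (u ^ N - 1) * P.coeff 0 = 0 := by
      linear_combination -this
    have h3 := (mul_eq_zero.1 h2).resolve_right hp0
    linear_combination h3
  -- a root of `X ^ (N + 1) - (X + 1)`
  have hdeg : (X ^ (N + 1) - (X + 1) : K[X]).degree ≠ 0 := by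
    have hd1 : (X + 1 : K[X]).degree < (X ^ (N + 1) : K[X]).degree := by
      rw [show (X + 1 : K[X]) = X + C 1 by simp, degree_X_add_C, degree_X_pow]
      exact_mod_cast (show 1 < N + 1 by omega)
    rw [degree_sub_eq_left_of_degree_lt hd1, degree_X_pow]
    exact_mod_cast (show N + 1 ≠ 0 by omega)
  obtain ⟨u, hu⟩ := IsAlgClosed.exists_root _ hdeg
  have hu' : u ^ (N + 1) - (u + 1) = 0 := by
    simpa [IsRoot] using hu
  have hu0 : u ≠ 0 := by
    rintro rfl
    simp at hu'
  have := hu1 u hu0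
  rw [pow_succ, this] at hu'
  simp at hu'

/-- A vector killed by the first `n` functionals is killed by all of them. -/
theorem vecMul_pow_dot (T : Matrix (Fin n) (Fin n) K) (π v : Fin n → K) (hn : n ≠ 0)
    (h : ∀ i : ℕ, i < n → (π ᵥ* T ^ i) ⬝ᵥ v = 0) (m : ℕ) : (π ᵥ* T ^ m) ⬝ᵥ v = 0 := by
  classical
  have hmon : T.charpoly.Monic := Matrix.charpoly_monic T
  have hdeg : T.charpoly.natDegree = n := by
    simp
  have hne1 : T.charpoly ≠ 1 := by
    intro h1
    rw [h1, natDegree_one] at hdeg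
    exact hn hdeg.symm
  have hm : T ^ m = aeval T ((X ^ m : K[X]) %ₘ T.charpoly) := by
    conv_lhs => rw [show T ^ m = aeval T (X ^ m : K[X]) by simp,
      ← Polynomial.modByMonic_add_div (X ^ m : K[X]) T.charpoly]
    rw [map_add, map_mul, Matrix.aeval_self_charpoly, zero_mul, add_zero]
  have hr : ((X ^ m : K[X]) %ₘ T.charpoly).natDegree < n := by
    have := Polynomial.natDegree_modByMonic_lt (X ^ m : K[X]) hmon hne1
    omega
  rw [hm, aeval_eq_sum_range, Matrix.vecMul_sum, sum_dotProduct]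
  refine Finset.sum_eq_zero fun i hi => ?_
  have hi' : i ≤ ((X ^ m : K[X]) %ₘ T.charpoly).natDegree := by
    have := Finset.mem_range.1 hi
    omega
  rw [Matrix.vecMul_smul, smul_dotProduct, h i (by omega), smul_zero]

/-- A pair with an eigenvector in the kernel of the functional. -/
theorem exists_unobs (hn : n ≠ 0) (p q : Fin n → K) (A B : Matrix (Fin n) (Fin n) K) :
    ∃ (s t ζ : K) (v : Fin n → K), (s ≠ 0 ∨ t ≠ 0) ∧ v ≠ 0 ∧ (s • A + t • B) *ᵥ v = ζ • v ∧
      (s • p + t • q) ⬝ᵥ v = 0 := by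
  classical
  obtain ⟨s, t, hst, hdet⟩ := exists_obs_root hn p q A B
  obtain ⟨v0, hv0, hz⟩ := Matrix.exists_mulVec_eq_zero_iff.2 hdet
  set T := s • A + t • B with hT
  set π := s • p + t • q with hπ
  have h0 : ∀ i : ℕ, i < n → (π ᵥ* T ^ i) ⬝ᵥ v0 = 0 := by
    intro i hi
    have := congrFun hz ⟨i, hi⟩
    simpa [Matrix.mulVec, obsM, dotProduct] using this
  have hall := vecMul_pow_dot T π v0 hn h0
  -- the invariant subspace
  let Y : Submodule K (Fin n → K) :=
    { carrier := {w | ∀ m : ℕ, (π ᵥ* T ^ m) ⬝ᵥ w = 0}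
      add_mem' := by
        intro x y hx hy m
        rw [dotProduct_add, hx m, hy m, add_zero]
      zero_mem' := by
        intro m
        simp
      smul_mem' := by
        intro c x hx m
        rw [dotProduct_smul, hx m, smul_zero] }
  have hinv : ∀ w ∈ Y, Matrix.toLin' T w ∈ Y := by
    intro w hw m
    rw [Matrix.toLin'_apply, Matrix.dotProduct_mulVec, Matrix.vecMul_vecMul, ← pow_succ]
    exact hw (m + 1)
  have hnt : Nontrivial Y := ⟨⟨⟨v0, hall⟩, 0, fun e => hv0 (congrArg Subtype.val e)⟩⟩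
  obtain ⟨ζ, hζ⟩ := Module.End.exists_eigenvalue ((Matrix.toLin' T).restrict hinv)
  obtain ⟨y, hy⟩ := hζ.exists_hasEigenvector
  refine ⟨s, t, ζ, y.1, hst, fun e => hy.2 (Subtype.ext e), ?_, ?_⟩
  · have := congrArg Subtype.val hy.apply_eq_smul
    simpa [LinearMap.restrict_apply] using this
  · have := y.2 0
    rw [pow_zero, Matrix.vecMul_one] at this
    exact this

variable {E E' : Type*} [AddCommGroup E] [Module K E] [FiniteDimensional K E]
  [AddCommGroup E'] [Module K E'] [FiniteDimensional K E']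

/-- The coordinate-free form. -/
theorem la_obs [Nontrivial E] (T1 T2 : E →ₗ[K] E) (μ1 μ2 : E →ₗ[K] K) :
    ∃ (s t ζ : K) (v : E), (s ≠ 0 ∨ t ≠ 0) ∧ v ≠ 0 ∧ s • T1 v + t • T2 v = ζ • v ∧
      s * μ1 v + t * μ2 v = 0 := by
  classical
  let b := Module.finBasis K E
  have hn : finrank K E ≠ 0 := (Module.finrank_pos).ne'
  obtain ⟨s, t, ζ, v', hst, hv', h1, h2⟩ := exists_unobs hn (fun j => μ1 (b j)) (fun j => μ2 (b j))
    (LinearMap.toMatrix b b T1) (LinearMap.toMatrix b b T2)
  set v : E := b.equivFun.symm v' with hv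
  have hr : ⇑(b.repr v) = v' := by
    have := b.equivFun.apply_symm_apply v'
    rwa [Module.Basis.equivFun_apply] at this
  have hdot : ∀ μ : E →ₗ[K] K, (fun j => μ (b j)) ⬝ᵥ v' = μ v := by
    intro μ
    rw [hv, Module.Basis.equivFun_symm_apply, map_sum]
    simp [dotProduct, mul_comm]
  refine ⟨s, t, ζ, v, hst, ?_, ?_, ?_⟩
  · intro h0
    apply hv'
    rw [← hr, h0]
    simp
  · apply b.repr.injective
    ext j
    have e1 := congrFun h1 j
    rw [Matrix.add_mulVec, Matrix.smul_mulVec, Matrix.smul_mulVec, ← hr,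
      LinearMap.toMatrix_mulVec_repr, LinearMap.toMatrix_mulVec_repr] at e1
    simpa using e1
  · rw [add_dotProduct, smul_dotProduct, smul_dotProduct, hdot, hdot] at h2
    simpa using h2

/-- A pencil of maps to a space of at most the same dimension has a zero pair. -/
theorem la_pencil [Nontrivial E] (φ0 φ1 : E →ₗ[K] E') (h : finrank K E' ≤ finrank K E) :
    ∃ (c0 c1 : K) (v : E), (c0 ≠ 0 ∨ c1 ≠ 0) ∧ v ≠ 0 ∧ c0 • φ0 v + c1 • φ1 v = 0 := by
  classical
  by_cases hinj : Function.Injective φ0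
  · have hsurj : Function.Surjective φ0 := by
      have hr := LinearMap.finrank_range_of_inj hinj
      have hle := Submodule.finrank_le (LinearMap.range φ0)
      have : LinearMap.range φ0 = ⊤ :=
        Submodule.eq_top_of_finrank_eq (by omega)
      exact LinearMap.range_eq_top.1 this
    let e : E ≃ₗ[K] E' := LinearEquiv.ofBijective φ0 ⟨hinj, hsurj⟩
    let T : E →ₗ[K] E := e.symm.toLinearMap ∘ₗ φ1
    obtain ⟨μ, hμ⟩ := Module.End.exists_eigenvalue T
    obtain ⟨v, hv⟩ := hμ.exists_hasEigenvector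
    refine ⟨-μ, 1, v, Or.inr one_ne_zero, hv.2, ?_⟩
    have e1 : e.symm (φ1 v) = μ • v := hv.apply_eq_smul
    have e2 : φ1 v = μ • φ0 v := by
      have := congrArg e e1
      rw [e.apply_symm_apply, map_smul] at this
      exact this
    rw [e2]
    simp
  · rw [Function.Injective] at hinj
    push Not at hinj
    obtain ⟨x, y, hxy, hne⟩ := hinj
    refine ⟨1, 0, x - y, Or.inl one_ne_zero, sub_ne_zero.2 hne, ?_⟩
    simp [map_sub, hxy]

/-- A net of maps to a space of at most one more dimension has a zero pair. -/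
theorem la_net [Nontrivial E] (φ0 φ1 φ2 : E →ₗ[K] E') (h : finrank K E' ≤ finrank K E + 1) :
    ∃ (c0 c1 c2 : K) (v : E), (c0 ≠ 0 ∨ c1 ≠ 0 ∨ c2 ≠ 0) ∧ v ≠ 0 ∧
      c0 • φ0 v + c1 • φ1 v + c2 • φ2 v = 0 := by
  classical
  by_cases hle : finrank K E' ≤ finrank K E
  · obtain ⟨c0, c1, v, hc, hv, e⟩ := la_pencil φ0 φ1 hle
    refine ⟨c0, c1, 0, v, ?_, hv, by simpa using e⟩
    rcases hc with hc | hc
    · exact Or.inl hc
    · exact Or.inr (Or.inl hc)
  by_cases hinj : LinearMap.ker φ0 = ⊥
  · have hfull : finrank K E' = finrank K E + 1 := by omega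
    obtain ⟨ψ, hψ⟩ := LinearMap.exists_leftInverse_of_injective φ0 hinj
    have hinj' : Function.Injective φ0 := LinearMap.ker_eq_bot.1 hinj
    have hr := LinearMap.finrank_range_of_inj hinj'
    have hlt : LinearMap.range φ0 < ⊤ := by
      refine lt_top_iff_ne_top.2 fun e => ?_
      rw [e, finrank_top] at hr
      omega
    obtain ⟨l, hl0, hl⟩ := Submodule.exists_le_ker_of_lt_top _ hlt
    have hker : LinearMap.ker l = LinearMap.range φ0 := by
      have hk := Module.Dual.finrank_ker_add_one_of_ne_zero hl0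
      exact (Submodule.eq_of_le_of_finrank_eq hl (by omega)).symm
    obtain ⟨s, t, ζ, v, hst, hv, e1, e2⟩ :=
      la_obs (ψ ∘ₗ φ1) (ψ ∘ₗ φ2) (l ∘ₗ φ1) (l ∘ₗ φ2)
    set y := s • φ1 v + t • φ2 v with hy
    have hyk : y ∈ LinearMap.ker l := by
      rw [LinearMap.mem_ker, hy, map_add, map_smul, map_smul]
      simpa using e2
    rw [hker] at hyk
    obtain ⟨x, hx⟩ := hyk
    have hψx : ψ y = x := by
      rw [← hx]
      exact LinearMap.congr_fun hψ x
    have hxv : x = ζ • v := by
      rw [← hψx, hy, map_add, map_smul, map_smul]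
      exact e1
    refine ⟨-ζ, s, t, v, ?_, hv, ?_⟩
    · rcases hst with h1 | h1
      · exact Or.inr (Or.inl h1)
      · exact Or.inr (Or.inr h1)
    · rw [add_assoc, ← hy, ← hx, hxv, map_smul]
      simp
  · have hne : LinearMap.ker φ0 ≠ ⊥ := hinj
    obtain ⟨v, hv, hv0⟩ := Submodule.exists_mem_ne_zero_of_ne_bot hne
    refine ⟨1, 0, 0, v, Or.inl one_ne_zero, hv0, ?_⟩
    rw [LinearMap.mem_ker] at hv
    simp [hv]

end closed

end Vale.Agent.Lib.P200
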