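import Vale.Agent.Lib.P200.LStep

/-!
From the lexicographic step in all degrees to the ideal `J` and the comparison of Betti numbers.
-/

namespace Vale.Agent.Lib.P200
open MvPolynomial Module

variable {K : Type*} [Field K]

section

variable {A : Fin 3 → ℕ} {s : Fin 3 → Poly K} {I : Ideal (Poly K)}

theorem MSetT_step_of (h : FormSeq A s) (hstep : ∀ d, LexStepAt A s d) (hI : ∀ i, s i ∈ I)
    {m : Fin 3 →₀ ℕ} (hm : m ∈ MSetT A I) (l : Fin 3) : m + Finsupp.single l 1 ∈ MSetT A I := by
  by_cases ho : OutsideT A (m + Finsupp.single l 1)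
  swap
  · exact Or.inl ho
  right
  have hom : OutsideT A m := by
    intro j
    have := ho j
    simp only [Finsupp.add_apply] at this
    omega
  have hr : lexRankT A m < excessT A I m.degree := by
    rcases hm with hm | hm
    · exact absurd hom hm
    · exact hm
  rw [degree_add_single]
  unfold excessT at hr ⊢
  rw [← h.finrank_FF_eq] at hr ⊢
  exact hstep _ _ _ (FF_le_pieceT hI _) (pieceT_le_HS _ _) (mul_pieceT_le I _)
    (FF_le_pieceT hI _) (pieceT_le_HS _ _) m rfl hom hr l ho

theorem MSetT_upper_of (h : FormSeq A s) (hstep : ∀ d, LexStepAt A s d) (hI : ∀ i, s i ∈ I) :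
    IsUpperSet (MSetT A I) := by
  have key : ∀ k : Fin 3 →₀ ℕ, ∀ x ∈ MSetT A I, x + k ∈ MSetT A I := by
    intro k
    induction k using Finsupp.induction_linear with
    | zero =>
      intro x hx
      simpa using hx
    | add k1 k2 h1 h2 =>
      intro x hx
      rw [← add_assoc]
      exact h2 _ (h1 _ hx)
    | single i n =>
      induction n with
      | zero =>
        intro x hx
        simpa using hx
      | succ n ih =>
        intro x hx
        have := MSetT_step_of h hstep hI (ih x hx) i
        rwa [add_assoc, ← Finsupp.single_add] at this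
  intro x y hxy hx
  have := key (y - x) x hx
  rwa [add_tsub_cancel_of_le hxy] at this

/-- Degree `e + 1` of the ideal of forms all of whose generators have degree different
from `e + 1` lies in the next multiples of `I_e`. -/
theorem FF_succ_le (h : FormSeq A s) {e : ℕ} (hA : ∀ i, A i ≠ e + 1) (hI : ∀ i, s i ∈ I) :
    FF s (e + 1) ≤ HS K 1 * pieceT I e := by
  intro y hy
  obtain ⟨h1, h2⟩ := mem_FF.1 hy
  obtain ⟨p, hp, rfl⟩ := h.rep h2 h1
  have key : ∀ i, p i * s i ∈ HS K 1 * pieceT I e := by
    intro i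
    by_cases hle : A i ≤ e
    · have hh := (hp i).1 (by omega)
      have hmem : p i ∈ HS K 1 * HS K (e - A i) := by
        rw [HS_mul, show 1 + (e - A i) = e + 1 - A i by omega]
        exact hh
      obtain ⟨u, hu, v, hv, w, hw, e1⟩ := mem_HS1_mul.1 hmem
      have hq : ∀ x ∈ HS K (e - A i), x * s i ∈ pieceT I e := by
        intro x hx
        refine mem_pieceT.2 ⟨I.mul_mem_left _ (hI i), ?_⟩
        have := (show x.IsHomogeneous (e - A i) from hx).mul (h.hom i)
        rwa [show e - A i + A i = e by omega] at this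
      rw [e1, show (X 0 * u + X 1 * v + X 2 * w) * s i =
        X 0 * (u * s i) + X 1 * (v * s i) + X 2 * (w * s i) by ring]
      exact mem_HS1_mul.2 ⟨_, hq u hu, _, hq v hv, _, hq w hw, rfl⟩
    · have := (hp i).2 (by have := hA i; omega)
      rw [this, zero_mul]
      exact Submodule.zero_mem _
  exact Submodule.add_mem _ (Submodule.add_mem _ (key 0) (key 1)) (key 2)

end

/-- The exponent used to move a generator out of the way. -/
def kxp (e x : ℕ) : ℕ := if x ≤ e then 1 else e + 2

theorem kxp_pos (e x : ℕ) : 1 ≤ kxp e x := by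
  unfold kxp
  split_ifs <;> omega

theorem kxp_ne {e x : ℕ} (hx : 1 ≤ x) : x * kxp e x ≠ e + 1 := by
  unfold kxp
  split_ifs with h
  · omega
  · have : 1 * (e + 2) ≤ x * (e + 2) := Nat.mul_le_mul_right _ hx
    omega

theorem lt_mul_kxp_iff {e x v : ℕ} (hv : v ≤ e) (hx : 1 ≤ x) : v < x * kxp e x ↔ v < x := by
  unfold kxp
  split_ifs with h
  · simp
  · have : 1 * (e + 2) ≤ x * (e + 2) := Nat.mul_le_mul_right _ hx
    constructor <;> intro <;> omega

theorem mul_kxp_mono {e x y : ℕ} (hxy : x ≤ y) (hx : 1 ≤ x) : x * kxp e x ≤ y * kxp e y := by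
  unfold kxp
  split_ifs with h1 h2 h2
  · simpa using hxy
  · have : 1 * (e + 2) ≤ y * (e + 2) := Nat.mul_le_mul_right _ (by omega)
    omega
  · omega
  · exact Nat.mul_le_mul_right _ hxy

/-- The main comparison theorem. -/
theorem lpp_of_steps {a b c : ℕ} {s : Fin 3 → Poly K} (ha2 : 2 ≤ a) (hab : a ≤ b) (hbc : b ≤ c)
    (h : FormSeq ![a, b, c] s) (hstep : ∀ d, LexStepAt ![a, b, c] s d) {I : Ideal (Poly K)}
    (hI : ∀ i, s i ∈ I) :
    ∃ J : Ideal (Poly K), J.restrictScalars K = lexSpaceT ![a, b, c] I ∧
      (∀ d, finrank K (pieceT J d) = finrank K (pieceT I d)) ∧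
      ∀ p j, bettiT I p j ≤ bettiT J p j := by
  have hsum : (![a, b, c] : Fin 3 → ℕ) 0 + (![a, b, c] : Fin 3 → ℕ) 1 +
      (![a, b, c] : Fin 3 → ℕ) 2 = (a + b + c - 3) + 3 := by
    show a + b + c = _
    omega
  refine ⟨restrictSupportIdeal K (MSetT ![a, b, c] I) (MSetT_upper_of h hstep hI), ?_, ?_⟩
  · rw [restrictScalars_restrictSupportIdeal, lexSpaceT_eq]
  set J := restrictSupportIdeal K (MSetT ![a, b, c] I) (MSetT_upper_of h hstep hI) with hJdef
  have hJ : J.restrictScalars K = lexSpaceT ![a, b, c] I := by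
    rw [hJdef, restrictScalars_restrictSupportIdeal, lexSpaceT_eq]
  have hd : ∀ d, finrank K (pieceT J d) = finrank K (pieceT I d) := by
    intro d
    rw [pieceT_J hJ]
    exact finrank_lexPieceT_abc hsum h hI d
  refine ⟨hd, betti_le_of hd ?_ ?_⟩
  · intro e
    have hpos : ∀ x, 1 ≤ x → ∃ k, kxp e x = k + 1 := fun x _ => ⟨kxp e x - 1, by
      have := kxp_pos e x
      omega⟩
    by_cases hce : c ≤ e
    · refine finrank_mul_J_le h ⟨_, hsum⟩ hI (hstep e) (FF_succ_le h ?_ hI) (fun _ _ => Iff.rfl) hJ
      intro i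
      fin_cases i
      · show a ≠ e + 1
        omega
      · show b ≠ e + 1
        omega
      · show c ≠ e + 1
        omega
    · obtain ⟨k0, hk0⟩ := hpos a (by omega)
      obtain ⟨k1, hk1⟩ := hpos b (by omega)
      -- the modified sequence
      set s' : Fin 3 → Poly K := ![s 0 ^ kxp e a, s 1 ^ kxp e b, s 2 ^ kxp e c] with hs'
      have h' : FormSeq ![a * kxp e a, b * kxp e b, c * kxp e c] s' := by
        refine ⟨?_, ?_, ?_⟩
        · intro i
          have p0 := Nat.mul_le_mul (show 1 ≤ a by omega) (kxp_pos e a)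
          have p1 := Nat.mul_le_mul (show 1 ≤ b by omega) (kxp_pos e b)
          have p2 := Nat.mul_le_mul (show 1 ≤ c by omega) (kxp_pos e c)
          fin_cases i
          · simpa using p0
          · simpa using p1
          · simpa using p2
        · intro i
          fin_cases i
          · exact (h.hom 0).pow _
          · exact (h.hom 1).pow _
          · exact (h.hom 2).pow _
        · show RegTriple (s 0 ^ kxp e a) (s 1 ^ kxp e b) (s 2 ^ kxp e c)
          rw [hk0, hk1]
          exact h.reg.pows k0 k1 _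
      have hI' : ∀ i, s' i ∈ I := by
        intro i
        fin_cases i
        · exact Ideal.pow_mem_of_mem _ (hI 0) _ (by have := kxp_pos e a; omega)
        · exact Ideal.pow_mem_of_mem _ (hI 1) _ (by have := kxp_pos e b; omega)
        · exact Ideal.pow_mem_of_mem _ (hI 2) _ (by have := kxp_pos e c; omega)
      have p0 := Nat.mul_le_mul (show 2 ≤ a from ha2) (kxp_pos e a)
      have p1 := Nat.mul_le_mul (show 1 ≤ b by omega) (kxp_pos e b)
      have p2 := Nat.mul_le_mul (show 1 ≤ c by omega) (kxp_pos e c)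
      have hlow : e + 1 < c * kxp e c := by
        unfold kxp
        rw [if_neg hce]
        have : 1 * (e + 2) ≤ c * (e + 2) := Nat.mul_le_mul_right _ (by omega)
        omega
      refine finrank_mul_J_le h' ⟨a * kxp e a + b * kxp e b + c * kxp e c - 3, ?_⟩ hI'
        (lexStep_pair h' (by omega) (mul_kxp_mono hab (by omega)) hlow) (FF_succ_le h' ?_ hI') ?_ hJ
      · show a * kxp e a + b * kxp e b + c * kxp e c = _
        omega
      · intro i
        fin_cases i
        · exact kxp_ne (show 1 ≤ a by omega)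
        · exact kxp_ne (show 1 ≤ b by omega)
        · exact kxp_ne (show 1 ≤ c by omega)
      · intro m hm
        have hS := degree_sum m
        rw [outside_abc, outside_abc, lt_mul_kxp_iff (by omega) (by omega),
          lt_mul_kxp_iff (by omega) (by omega), lt_mul_kxp_iff (by omega) (by omega)]
  · intro t
    exact finrank_ScT_le h ⟨_, hsum⟩ hI (hstep t) hJ

end Vale.Agent.Lib.P200
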