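import Vale.Agent.Lib.P200.D1LA
import Vale.Agent.Lib.P200.LMain

/-!
The excess of growth of a subspace modulo three forms: superadditivity, zero pairs and duality.
-/

namespace Vale.Agent.Lib.P200
open MvPolynomial Module

variable {K : Type*} [Field K]

/-- The next subspace, modulo the three forms. -/
noncomputable def nxS (s : Fin 3 → Poly K) (k : ℕ) (X : Submodule K (Poly K)) :
    Submodule K (Poly K) :=
  HS K 1 * X ⊔ FF s (k + 1)

/-- The excess of growth. -/
noncomputable def GamS (s : Fin 3 → Poly K) (k : ℕ) (X : Submodule K (Poly K)) : ℤ :=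
  (finrank K (nxS s k X) : ℤ) - finrank K (FF s (k + 1)) - finrank K X + finrank K (FF s k)

theorem HS1_mul_FF_le (s : Fin 3 → Poly K) (k : ℕ) : HS K 1 * FF s k ≤ FF s (k + 1) := by
  rw [Submodule.mul_le]
  intro l hl x hx
  obtain ⟨h1, h2⟩ := mem_FF.1 hx
  refine mem_FF.2 ⟨Ideal.mul_mem_left _ _ h1, ?_⟩
  have := (show l.IsHomogeneous 1 from hl).mul h2
  rwa [add_comm] at this

section

variable {s : Fin 3 → Poly K} {k : ℕ} {X : Submodule K (Poly K)}

theorem nxS_le_HS (hX : X ≤ HS K k) : nxS s k X ≤ HS K (k + 1) := by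
  refine sup_le ?_ (FF_le_HS s _)
  rw [add_comm, ← HS_mul]
  exact mul_le_mul' le_rfl hX

theorem FF_le_nxS : FF s (k + 1) ≤ nxS s k X := le_sup_right

theorem mul_le_nxS : HS K 1 * X ≤ nxS s k X := le_sup_left

theorem nxS_mono {X' : Submodule K (Poly K)} (h : X ≤ X') : nxS s k X ≤ nxS s k X' :=
  sup_le_sup_right (mul_le_mul' le_rfl h) _

theorem mul_mem_nxS {l x : Poly K} (hl : l ∈ HS K 1) (hx : x ∈ X) : l * x ∈ nxS s k X :=
  mul_le_nxS (Submodule.mul_mem_mul hl hx)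

/-- The dimension count for a map and a subspace. -/
theorem finrank_map_sup_add (φ : Poly K →ₗ[K] Poly K) (V P : Submodule K (Poly K))
    [Module.Finite K V] [Module.Finite K P] :
    finrank K (V.map φ ⊔ P : Submodule K (Poly K)) + finrank K (V ⊓ P.comap φ : Submodule K (Poly K)) =
      finrank K V + finrank K P := by
  have e := finrank_range_sup (φ ∘ₗ V.subtype) P
  have e1 : LinearMap.range (φ ∘ₗ V.subtype) = V.map φ := by
    rw [LinearMap.range_comp, Submodule.range_subtype]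
  have e2 : P.comap (φ ∘ₗ V.subtype) = (V ⊓ P.comap φ).comap V.subtype := by
    ext x
    simp
  have e3 := (Submodule.comapSubtypeEquivOfLe (inf_le_left : V ⊓ P.comap φ ≤ V)).finrank_eq
  rw [e1, e2, e3] at e
  exact e

/-- Multiplication by a form, as a linear map. -/
noncomputable abbrev mulL (δ : Poly K) : Poly K →ₗ[K] Poly K := LinearMap.mulLeft K δ

/-- The part of `X` killed by `δ`. -/
noncomputable def Xkil (s : Fin 3 → Poly K) (k : ℕ) (δ : Poly K) (X : Submodule K (Poly K)) :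
    Submodule K (Poly K) :=
  X ⊓ (FF s (k + 1)).comap (mulL δ)

/-- The image of `X` under `δ`. -/
noncomputable def Xmul (s : Fin 3 → Poly K) (k : ℕ) (δ : Poly K) (X : Submodule K (Poly K)) :
    Submodule K (Poly K) :=
  X.map (mulL δ) ⊔ FF s (k + 1)

theorem Xkil_le {δ : Poly K} : Xkil s k δ X ≤ X := inf_le_left

theorem mem_Xkil {δ x : Poly K} : x ∈ Xkil s k δ X ↔ x ∈ X ∧ δ * x ∈ FF s (k + 1) := Iff.rfl

theorem Xmul_le_HS {δ : Poly K} (hδ : δ ∈ HS K 1) (hX : X ≤ HS K k) :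
    Xmul s k δ X ≤ HS K (k + 1) := by
  refine sup_le ?_ (FF_le_HS s _)
  rintro _ ⟨x, hx, rfl⟩
  have := (show δ.IsHomogeneous 1 from hδ).mul (hX hx)
  rw [add_comm] at this
  exact this

theorem FF_le_Xkil {δ : Poly K} (hδ : δ ∈ HS K 1) (hF : FF s k ≤ X) : FF s k ≤ Xkil s k δ X :=
  le_inf hF fun _ hx => HS1_mul_FF_le s k (Submodule.mul_mem_mul hδ hx)

theorem FF_le_Xmul {δ : Poly K} : FF s (k + 1) ≤ Xmul s k δ X := le_sup_right

/-- The dimensions of the two parts add up. -/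
theorem finrank_Xkil_add {δ : Poly K} (hX : X ≤ HS K k) :
    finrank K (Xmul s k δ X) + finrank K (Xkil s k δ X) =
      finrank K X + finrank K (FF s (k + 1)) := by
  have hfX := finite_of_le_HS hX
  have hfF := finite_of_le_HS (FF_le_HS s (k + 1))
  exact finrank_map_sup_add (mulL δ) X (FF s (k + 1))

/-- The excess of growth is superadditive. -/
theorem Gam_superadd {δ : Poly K} (hδ : δ ∈ HS K 1) (hX : X ≤ HS K k) :
    GamS s (k + 1) (Xmul s k δ X) + GamS s k (Xkil s k δ X) ≤ GamS s k X := by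
  have hdim := finrank_Xkil_add (s := s) (δ := δ) hX
  have hfX := finite_of_le_HS hX
  have hN := nxS_le_HS (s := s) hX
  have hfN := finite_of_le_HS hN
  have hfF := finite_of_le_HS (FF_le_HS s (k + 1 + 1))
  have e := finrank_map_sup_add (mulL δ) (nxS s k X) (FF s (k + 1 + 1))
  have hle1 : nxS s (k + 1) (Xmul s k δ X) ≤ (nxS s k X).map (mulL δ) ⊔ FF s (k + 1 + 1) := by
    refine sup_le ?_ le_sup_right
    rw [Submodule.mul_le]
    intro l hl y hy
    obtain ⟨u, hu, w, hw, rfl⟩ := Submodule.mem_sup.1 hy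
    rw [mul_add]
    refine Submodule.add_mem _ ?_ ?_
    · obtain ⟨x, hx, rfl⟩ := hu
      refine Submodule.mem_sup_left ⟨l * x, mul_mem_nxS hl hx, ?_⟩
      simp only [mulL, LinearMap.mulLeft_apply]
      ring
    · exact Submodule.mem_sup_right (HS1_mul_FF_le s _ (Submodule.mul_mem_mul hl hw))
  have hle2 : nxS s k (Xkil s k δ X) ≤ nxS s k X ⊓ (FF s (k + 1 + 1)).comap (mulL δ) := by
    refine le_inf (nxS_mono Xkil_le) ?_
    refine sup_le ?_ ?_
    · rw [Submodule.mul_le]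
      intro l hl x hx
      show δ * (l * x) ∈ FF s (k + 1 + 1)
      rw [show δ * (l * x) = l * (δ * x) by ring]
      exact HS1_mul_FF_le s _ (Submodule.mul_mem_mul hl hx.2)
    · intro y hy
      exact HS1_mul_FF_le s _ (Submodule.mul_mem_mul hδ hy)
  have hfS : Module.Finite K ((nxS s k X).map (mulL δ) ⊔ FF s (k + 1 + 1) : Submodule K (Poly K)) :=
    inferInstance
  have hfI : Module.Finite K (nxS s k X ⊓ (FF s (k + 1 + 1)).comap (mulL δ) : Submodule K (Poly K)) :=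
    Submodule.finiteDimensional_of_le (inf_le_left : _ ≤ nxS s k X)
  have m1 := Submodule.finrank_mono hle1
  have m2 := Submodule.finrank_mono hle2
  unfold GamS
  omega

end

section zero

variable {F X F' Z : Submodule K (Poly K)}

/-- Multiplication by a form on the quotients. -/
noncomputable def mulQ (l : Poly K) (h1 : ∀ x ∈ X, l * x ∈ Z) (h2 : ∀ x ∈ F, l * x ∈ F') :
    (X ⧸ F.comap X.subtype) →ₗ[K] (Z ⧸ F'.comap Z.subtype) :=
  Submodule.mapQ _ _ ((mulL l).restrict h1) (by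
    intro x hx
    exact h2 _ hx)

theorem mulQ_mk (l : Poly K) (h1 : ∀ x ∈ X, l * x ∈ Z)
    (h2 : ∀ x ∈ F, l * x ∈ F') (x : X) :
    mulQ l h1 h2 (Submodule.Quotient.mk x) =
      Submodule.Quotient.mk ⟨l * x.1, h1 x.1 x.2⟩ := rfl

theorem finrank_quot (hF : F ≤ X) [Module.Finite K X] :
    finrank K (X ⧸ F.comap X.subtype) + finrank K F = finrank K X := by
  have e1 := Submodule.finrank_quotient_add_finrank (F.comap X.subtype)
  have e2 := (Submodule.comapSubtypeEquivOfLe hF).finrank_eq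
  rw [e2] at e1
  exact e1

variable [IsAlgClosed K]

/-- The zero pair of a net of multiplications. -/
theorem zero_pair_net (hF : F ≤ X) (hF' : F' ≤ Z) [Module.Finite K X] [Module.Finite K Z]
    (l : Fin 3 → Poly K) (h1 : ∀ i, ∀ x ∈ X, l i * x ∈ Z) (h2 : ∀ i, ∀ x ∈ F, l i * x ∈ F')
    (hn : finrank K F < finrank K X)
    (hdim : finrank K Z + finrank K F ≤ finrank K X + finrank K F' + 1) :
    ∃ (c0 c1 c2 : K) (x : Poly K), (c0 ≠ 0 ∨ c1 ≠ 0 ∨ c2 ≠ 0) ∧ x ∈ X ∧ x ∉ F ∧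
      (c0 • l 0 + c1 • l 1 + c2 • l 2) * x ∈ F' := by
  have e1 := finrank_quot hF
  have e2 := finrank_quot hF'
  have hnt : Nontrivial (X ⧸ F.comap X.subtype) := by
    apply Module.nontrivial_of_finrank_pos (R := K)
    omega
  obtain ⟨c0, c1, c2, v, hc, hv, e⟩ := la_net (mulQ (l 0) (h1 0) (h2 0))
    (mulQ (l 1) (h1 1) (h2 1)) (mulQ (l 2) (h1 2) (h2 2)) (by omega)
  obtain ⟨x, rfl⟩ := Submodule.Quotient.mk_surjective _ v
  refine ⟨c0, c1, c2, x.1, hc, x.2, ?_, ?_⟩
  · intro hxF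
    apply hv
    exact (Submodule.Quotient.mk_eq_zero _).2 hxF
  · rw [mulQ_mk, mulQ_mk, mulQ_mk, ← Submodule.Quotient.mk_smul, ← Submodule.Quotient.mk_smul,
      ← Submodule.Quotient.mk_smul, ← Submodule.Quotient.mk_add, ← Submodule.Quotient.mk_add,
      Submodule.Quotient.mk_eq_zero] at e
    have e' : (c0 • l 0 + c1 • l 1 + c2 • l 2) * x.1 = c0 • (l 0 * x.1) + c1 • (l 1 * x.1) +
        c2 • (l 2 * x.1) := by
      simp only [add_mul, smul_mul_assoc]
    rw [e']
    exact e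

/-- The zero pair of a pencil of multiplications. -/
theorem zero_pair_pencil (hF : F ≤ X) (hF' : F' ≤ Z) [Module.Finite K X] [Module.Finite K Z]
    (l0 l1 : Poly K) (h1 : ∀ x ∈ X, l0 * x ∈ Z) (h2 : ∀ x ∈ F, l0 * x ∈ F')
    (h3 : ∀ x ∈ X, l1 * x ∈ Z) (h4 : ∀ x ∈ F, l1 * x ∈ F')
    (hn : finrank K F < finrank K X) (hdim : finrank K Z + finrank K F ≤ finrank K X + finrank K F') :
    ∃ (c0 c1 : K) (x : Poly K), (c0 ≠ 0 ∨ c1 ≠ 0) ∧ x ∈ X ∧ x ∉ F ∧
      (c0 • l0 + c1 • l1) * x ∈ F' := by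
  have e1 := finrank_quot hF
  have e2 := finrank_quot hF'
  have hnt : Nontrivial (X ⧸ F.comap X.subtype) := by
    apply Module.nontrivial_of_finrank_pos (R := K)
    omega
  obtain ⟨c0, c1, v, hc, hv, e⟩ := la_pencil (mulQ l0 h1 h2) (mulQ l1 h3 h4) (by omega)
  obtain ⟨x, rfl⟩ := Submodule.Quotient.mk_surjective _ v
  refine ⟨c0, c1, x.1, hc, x.2, ?_, ?_⟩
  · intro hxF
    apply hv
    exact (Submodule.Quotient.mk_eq_zero _).2 hxF
  · rw [mulQ_mk, mulQ_mk, ← Submodule.Quotient.mk_smul, ← Submodule.Quotient.mk_smul,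
      ← Submodule.Quotient.mk_add, Submodule.Quotient.mk_eq_zero] at e
    have e' : (c0 • l0 + c1 • l1) * x.1 = c0 • (l0 * x.1) + c1 • (l1 * x.1) := by
      simp only [add_mul, smul_mul_assoc]
    rw [e']
    exact e

end zero

section gam

variable {s : Fin 3 → Poly K} {k : ℕ} {V : Submodule K (Poly K)}

theorem lin_X_ne_zero {c0 c1 c2 : K} (hc : c0 ≠ 0 ∨ c1 ≠ 0 ∨ c2 ≠ 0) :
    (c0 • X 0 + c1 • X 1 + c2 • X 2 : Poly K) ≠ 0 := by
  intro h0
  have key : ∀ i : Fin 3, coeff (Finsupp.single i 1) (c0 • X 0 + c1 • X 1 + c2 • X 2 : Poly K) =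
      ![c0, c1, c2] i := by
    intro i
    fin_cases i <;> simp [coeff_X, Finsupp.single_left_inj]
  rw [h0] at key
  rcases hc with hc | hc | hc
  · exact hc (by simpa using (key 0).symm)
  · exact hc (by simpa using (key 1).symm)
  · exact hc (by simpa using (key 2).symm)

theorem lin_X_mem (c0 c1 c2 : K) : (c0 • X 0 + c1 • X 1 + c2 • X 2 : Poly K) ∈ HS K 1 := by
  refine Submodule.add_mem _ (Submodule.add_mem _ ?_ ?_) ?_ <;>
  exact Submodule.smul_mem _ _ (X_mem_HS1 _)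

/-- A subspace with excess of growth at most one has a zero pair. -/
theorem exists_zero_pair [IsAlgClosed K] (hF : FF s k ≤ V) (hX : V ≤ HS K k)
    (hn : finrank K (FF s k) < finrank K V) (hG : GamS s k V ≤ 1) :
    ∃ δ ∈ HS K 1, δ ≠ 0 ∧ ∃ x ∈ V, x ∉ FF s k ∧ δ * x ∈ FF s (k + 1) := by
  have hfX := finite_of_le_HS hX
  have hfN := finite_of_le_HS (nxS_le_HS (s := s) hX)
  unfold GamS at hG
  obtain ⟨c0, c1, c2, x, hc, hxX, hxF, hx⟩ := zero_pair_net hF (FF_le_nxS (s := s) (k := k) (X := V))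
    (fun i => (X i : Poly K)) (fun i x hx => mul_mem_nxS (X_mem_HS1 i) hx)
    (fun i x hx => HS1_mul_FF_le s k (Submodule.mul_mem_mul (X_mem_HS1 i) hx)) hn (by omega)
  exact ⟨_, lin_X_mem c0 c1 c2, lin_X_ne_zero hc, x, hxX, hxF, hx⟩

/-- A subspace with excess of growth at most zero has a zero pair in every pencil. -/
theorem exists_zero_pair_pencil [IsAlgClosed K] (hF : FF s k ≤ V) (hX : V ≤ HS K k)
    (hn : finrank K (FF s k) < finrank K V) (hG : GamS s k V ≤ 0) {l0 l1 : Poly K}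
    (hl0 : l0 ∈ HS K 1) (hl1 : l1 ∈ HS K 1) :
    ∃ (c0 c1 : K) (x : Poly K), (c0 ≠ 0 ∨ c1 ≠ 0) ∧ x ∈ V ∧ x ∉ FF s k ∧
      (c0 • l0 + c1 • l1) * x ∈ FF s (k + 1) := by
  have hfX := finite_of_le_HS hX
  have hfN := finite_of_le_HS (nxS_le_HS (s := s) hX)
  unfold GamS at hG
  exact zero_pair_pencil hF (FF_le_nxS (s := s) (k := k) (X := V)) l0 l1
    (fun x hx => mul_mem_nxS hl0 hx) (fun x hx => HS1_mul_FF_le s k (Submodule.mul_mem_mul hl0 hx))
    (fun x hx => mul_mem_nxS hl1 hx) (fun x hx => HS1_mul_FF_le s k (Submodule.mul_mem_mul hl1 hx))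
    hn (by omega)

end gam

section dual

variable {A : Fin 3 → ℕ} {s : Fin 3 → Poly K} (h : FormSeq A s)
include h

/-- The excess of growth of the perpendicular space. -/
theorem Gam_perp {S : ℕ} (hS : A 0 + A 1 + A 2 = S + 3) {φ : Module.Dual K (Poly K)}
    (hφ : ∀ x ∈ HS K S, φ x = 0 ↔ x ∈ FF s S) {k e : ℕ} (hke : k + (e + 1) = S)
    {X : Submodule K (Poly K)} (hF : FF s k ≤ X) (hX : X ≤ HS K k) :
    GamS s e (perpT φ (nxS s k X) e) ≤
      GamS s k X + ((cntT A (e + 1) : ℤ) - cntT A e) := by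
  have hN := nxS_le_HS (s := s) (k := k) hX
  have hfX := finite_of_le_HS hX
  have hfN := finite_of_le_HS hN
  have e1 := h.finrank_perpT hS hφ (show (k + 1) + e = S by omega) hN FF_le_nxS
  have e2 := h.finrank_perpT hS hφ hke hX hF
  have hle := h.growth_perpT hφ hke hX
  have hY := perpT_le φ X (e + 1)
  have hfY := finite_of_le_HS hY
  have hm := Submodule.finrank_mono hle
  have c1 := h.finrank_FF_add_cnt e
  have c2 := h.finrank_FF_add_cnt (e + 1)
  unfold GamS
  have hnx : nxS s e (perpT φ (nxS s k X) e) =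
      HS K 1 * perpT φ (HS K 1 * X ⊔ FF s (k + 1)) e ⊔ FF s (e + 1) := rfl
  rw [hnx]
  have hN' : nxS s k X = HS K 1 * X ⊔ FF s (k + 1) := rfl
  rw [hN'] at e1 ⊢
  have hT1 : (T (e + 1) : ℤ) = finrank K (FF s (e + 1)) + cntT A (e + 1) := by
    rw [← c2]
    push_cast
    ring
  have hT2 : (T e : ℤ) = finrank K (FF s e) + cntT A e := by
    rw [← c1]
    push_cast
    ring
  omega

end dual

end Vale.Agent.Lib.P200
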