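import Vale.Agent.Lib.P200.D2Gam

/-!
Modulo three forms, the third of degree at least `b - 1`: the point lemma, the chain of images up to
the top degree of the pair, and duality.
-/

namespace Vale.Agent.Lib.P200
open MvPolynomial Module

variable {K : Type*} [Field K]

/-- The context: a normalised pair and a nonzerodivisor of degree at least `b - 1`. -/
structure Th (a b e : ℕ) (f g ξ : Poly K) : Prop where
  zp : ZP a b f g
  ha : 4 ≤ a
  he : b ≤ e + 1
  hom : ξ.IsHomogeneous e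
  nz : NZ f g ξ

namespace Th

variable {a b e : ℕ} {f g ξ : Poly K} (t : Th a b e f g ξ)
include t

theorem hab : a ≤ b := t.zp.hab

theorem he1 : 1 ≤ e := by
  have := t.ha
  have := t.zp.hab
  have := t.he
  omega

theorem fs : FormSeq ![a, b, e] ![f, g, ξ] := t.zp.formSeq_of_NZ t.he1 t.hom t.nz

theorem hsum : (![a, b, e] : Fin 3 → ℕ) 0 + (![a, b, e] : Fin 3 → ℕ) 1 +
    (![a, b, e] : Fin 3 → ℕ) 2 = (a + b + e - 3) + 3 := by
  have := t.ha
  show a + b + e = _
  omega

theorem FF_lt {d : ℕ} (hd : d < e) : FF ![f, g, ξ] d = FP f g d :=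
  t.zp.FF_low t.he1 t.hom t.nz hd

theorem finrank_FF_e : finrank K (FF ![f, g, ξ] e) = finrank K (FP f g e) + 1 :=
  t.zp.finrank_FF_top t.he1 t.hom t.nz

theorem finrank_FF_e1 : finrank K (FF ![f, g, ξ] (e + 1)) = finrank K (FP f g (e + 1)) + 3 := by
  have hs := t.fs
  have e1 := hs.finrank_FF (e + 1)
  have e2 := hs.finrank_J2 (e + 1)
  have e3 := hs.finrank_J2 1
  rw [pieceT_J2] at e2 e3
  have e4 : ![f, g, ξ] 0 = f := rfl
  have e5 : ![f, g, ξ] 1 = g := rfl
  rw [e4, e5] at e2 e3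
  rw [t.zp.FP_low (show 1 < a by have := t.ha; omega), finrank_bot] at e3
  have e6 : phi3 ![a, b, e] (e + 1) = phi2 ![a, b, e] (e + 1) +
      (T 1 - phi2 ![a, b, e] 1) := by
    unfold phi3
    rw [if_pos (by simp)]
    simp
  rw [e1, e6, e2, ← e3]
  simp [show T 1 = 3 by decide]

theorem mem_Fid_third : ξ ∈ Fid ![f, g, ξ] := Ideal.subset_span ⟨2, rfl⟩

theorem xi_mem_FF : ξ ∈ FF ![f, g, ξ] e := mem_FF.2 ⟨t.mem_Fid_third, t.hom⟩

omit t in
theorem FPi_le_Fid (f g ξ : Poly K) : FPi f g ≤ Fid ![f, g, ξ] := by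
  intro x hx
  obtain ⟨α, β, rfl⟩ := mem_FPi.1 hx
  exact Ideal.add_mem _ (Ideal.mul_mem_left _ _ (Ideal.subset_span ⟨0, rfl⟩))
    (Ideal.mul_mem_left _ _ (Ideal.subset_span ⟨1, rfl⟩))

/-- A decomposition of an element of the ideal of the three forms. -/
theorem rep_Fid {x : Poly K} {m : ℕ} (hx : x.IsHomogeneous m) (hm : x ∈ Fid ![f, g, ξ]) :
    ∃ p : Poly K, Hz p m e ∧ x - p * ξ ∈ FPi f g := by
  obtain ⟨p, hp, e1⟩ := t.fs.rep hx hm
  refine ⟨p 2, hp 2, ?_⟩
  rw [← e1]
  refine mem_FPi.2 ⟨p 0, p 1, ?_⟩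
  simp

/-- The space of degree `e + 1` lies in the growth of a subspace containing the third form. -/
theorem FF_e1_le {U : Submodule K (Poly K)} (hξ : ξ ∈ U) :
    FF ![f, g, ξ] (e + 1) ≤ gpl f g e U := by
  intro x hx
  obtain ⟨h1, h2⟩ := mem_FF.1 hx
  obtain ⟨p, hp, e1⟩ := t.rep_Fid h2 h1
  have hp1 : p ∈ HS K 1 := by
    have := hp.1 (by omega)
    rwa [show e + 1 - e = 1 by omega] at this
  have hpξ := (show p.IsHomogeneous 1 from hp1).mul t.hom
  have hxp : (x - p * ξ).IsHomogeneous (e + 1) := by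
    refine h2.sub ?_
    rwa [add_comm] at hpξ
  have e2 : x = (x - p * ξ) + p * ξ := by ring
  rw [e2]
  refine Submodule.add_mem _ ?_ ?_
  · exact Submodule.mem_sup_right (mem_pieceT.2 ⟨e1, hxp⟩)
  · exact Submodule.mem_sup_left (Submodule.mul_mem_mul hp1 hξ)

theorem nxS_eq_gpl {U : Submodule K (Poly K)} (hξ : ξ ∈ U) :
    nxS ![f, g, ξ] e U = gpl f g e U := by
  apply le_antisymm
  · exact sup_le le_sup_left (t.FF_e1_le hξ)
  · exact sup_le le_sup_left (le_trans (ZP.FP_le_FF (e + 1)) le_sup_right)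

/-- The excess of growth in terms of the pair, in the degree of the third form. -/
theorem Gam_e {U : Submodule K (Poly K)} (hξ : ξ ∈ U) :
    GamS ![f, g, ξ] e U = (finrank K (gpl f g e U) : ℤ) - finrank K (FP f g (e + 1)) -
      finrank K U + finrank K (FP f g e) - 2 := by
  unfold GamS
  rw [t.nxS_eq_gpl hξ, t.finrank_FF_e1, t.finrank_FF_e]
  push_cast
  ring

/-- The point lemma modulo three forms. -/
theorem point_star {k : ℕ} (hk : k + 4 ≤ a + b) {x δ l : Poly K} (hx : x ∈ HS K k) (hδ : δ ∈ HS K 1)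
    (hδ0 : δ ≠ 0) (hl : l ∈ HS K 1) (hind : ∀ c : K, c • δ ≠ l) (h1 : δ * x ∈ Fid ![f, g, ξ])
    (h2 : l * x ∈ Fid ![f, g, ξ]) : x ∈ Fid ![f, g, ξ] := by
  have ha4 := t.ha
  have hab := t.hab
  have he := t.he
  have hδH : δ.IsHomogeneous 1 := hδ
  have hlH : l.IsHomogeneous 1 := hl
  have hxH : x.IsHomogeneous k := hx
  have fin0 : ∀ y ∈ HS K k, δ * y ∈ FPi f g → l * y ∈ FPi f g → y ∈ FPi f g := by
    intro y hy e1 e2
    by_contra hy0
    exact t.zp.point_lemma (by omega) (d := k) (by unfold tauZ; omega) hy hy0 hδ hl hδ0 hind e1 e2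
  have hδx : (δ * x).IsHomogeneous (k + 1) := by
    have := hδH.mul hxH
    rwa [add_comm] at this
  have hlx : (l * x).IsHomogeneous (k + 1) := by
    have := hlH.mul hxH
    rwa [add_comm] at this
  obtain ⟨p, hp, e1⟩ := t.rep_Fid hδx h1
  obtain ⟨q, hq, e2⟩ := t.rep_Fid hlx h2
  have hrel : (l * p - δ * q) * ξ ∈ FPi f g := by
    have e3 : (l * p - δ * q) * ξ = δ * (l * x - q * ξ) - l * (δ * x - p * ξ) := by ring
    rw [e3]
    exact Ideal.sub_mem _ (Ideal.mul_mem_left _ _ e2) (Ideal.mul_mem_left _ _ e1)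
  have hrel2 := t.nz _ hrel
  by_cases hek : e ≤ k + 1
  · -- the coefficients are proportional
    have hpH := hp.1 hek
    have hqH := hq.1 hek
    have hdiff : (l * p - δ * q).IsHomogeneous (k + 2 - e) := by
      have e3 := hlH.mul hpH
      have e4 := hδH.mul hqH
      rw [show 1 + (k + 1 - e) = k + 2 - e by omega] at e3 e4
      exact e3.sub e4
    have hzero : l * p - δ * q = 0 := t.zp.FP_mem_eq_zero (by omega) hrel2 hdiff
    have heq : l * p = δ * q := sub_eq_zero.1 hzero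
    have hdvd : δ ∣ l * p := ⟨q, heq⟩
    have hnl : ¬ δ ∣ l := by
      intro hd
      obtain ⟨c, hc⟩ := linear_dvd_linear hδH hlH hd
      exact hind c (by rw [hc, MvPolynomial.smul_eq_C_mul])
    obtain ⟨w0, hw0⟩ := ((linear_prime hδH hδ0).dvd_or_dvd hdvd).resolve_left hnl
    -- a homogeneous cofactor
    obtain ⟨w, hwH, hpw⟩ : ∃ w : Poly K, w * ξ ∈ HS K k ∧ p = δ * w := by
      by_cases hke : e ≤ k
      · have e3 : p.IsHomogeneous ((k - e) + 1) := by
          rwa [show k - e + 1 = k + 1 - e by omega]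
        have e4 := homog_cofactor hδH e3 hw0
        refine ⟨homogeneousComponent (k - e) w0, ?_, e4⟩
        have e5 := (homogeneousComponent_isHomogeneous (k - e) w0).mul t.hom
        rwa [show k - e + e = k by omega] at e5
      · have hke' : k + 1 = e := by omega
        refine ⟨0, by simp, ?_⟩
        have e3 : p.IsHomogeneous 0 := by
          rwa [show k + 1 - e = 0 by omega] at hpH
        have e4 := comp_mul_low hδH w0 (m := 0) (by omega)
        rw [mul_comm, ← hw0, homogeneousComponent_eq_self e3] at e4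
        rw [e4, mul_zero]
    have hqw : q = l * w := by
      rw [hpw] at heq
      have e3 : δ * (l * w - q) = 0 := by linear_combination heq
      have := (mul_eq_zero.1 e3).resolve_left hδ0
      linear_combination -this
    have hy : x - w * ξ ∈ FPi f g := by
      refine fin0 _ (Submodule.sub_mem _ hx hwH) ?_ ?_
      · have e3 : δ * (x - w * ξ) = δ * x - p * ξ := by rw [hpw]; ring
        rw [e3]
        exact e1
      · have e3 : l * (x - w * ξ) = l * x - q * ξ := by rw [hqw]; ring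
        rw [e3]
        exact e2
    have e3 : x = (x - w * ξ) + w * ξ := by ring
    rw [e3]
    exact Ideal.add_mem _ (FPi_le_Fid f g ξ hy) (Ideal.mul_mem_left _ _ t.mem_Fid_third)
  · have hp0 := hp.2 (by omega)
    have hq0 := hq.2 (by omega)
    rw [hp0, zero_mul, sub_zero] at e1
    rw [hq0, zero_mul, sub_zero] at e2
    exact FPi_le_Fid f g ξ (fin0 x hx e1 e2)

end Th

/-- A pencil complementary to a nonzero linear form. -/
theorem exists_compl_pencil {δ : Poly K} (hδ : δ ∈ HS K 1) (hδ0 : δ ≠ 0) :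
    ∃ l0 ∈ HS K 1, ∃ l1 ∈ HS K 1, ∀ c0 c1 : K, (c0 ≠ 0 ∨ c1 ≠ 0) → ∀ c : K, c • δ ≠ c0 • l0 + c1 • l1 := by
  rw [HS1_eq_span] at hδ
  obtain ⟨a0, a1, a2, rfl⟩ : ∃ a0 a1 a2 : K, δ = a0 • X 0 + a1 • X 1 + a2 • X 2 := by
    obtain ⟨a0, w, hw, rfl⟩ := Submodule.mem_span_insert.1 hδ
    obtain ⟨a1, w', hw', rfl⟩ := Submodule.mem_span_insert.1 hw
    obtain ⟨a2, rfl⟩ := Submodule.mem_span_singleton.1 hw'
    exact ⟨a0, a1, a2, by ring⟩
  have hcoef : ∀ (i : Fin 3) (b0 b1 b2 : K), coeff (Finsupp.single i 1)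
      (b0 • X 0 + b1 • X 1 + b2 • X 2 : Poly K) = ![b0, b1, b2] i := by
    intro i b0 b1 b2
    fin_cases i <;> simp [coeff_X, Finsupp.single_left_inj]
  by_cases h0 : a0 = 0
  · by_cases h1 : a1 = 0
    · have h2 : a2 ≠ 0 := by
        rintro rfl
        apply hδ0
        simp [h0, h1]
      refine ⟨X 0, X_mem_HS1 0, X 1, X_mem_HS1 1, fun c0 c1 hc c e => ?_⟩
      have e2 := congrArg (coeff (Finsupp.single 2 1)) (show
        (c * a0) • (X 0 : Poly K) + (c * a1) • X 1 + (c * a2) • X 2 =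
          c0 • X 0 + c1 • X 1 + (0 : K) • X 2 by
        rw [← e]; simp [smul_add, smul_smul])
      rw [hcoef, hcoef] at e2
      have hc0 : c = 0 := by simpa [h2] using e2
      subst hc0
      refine lin_X_ne_zero (c0 := c0) (c1 := c1) (c2 := 0) (by tauto) ?_
      simpa using e.symm
    · refine ⟨X 0, X_mem_HS1 0, X 2, X_mem_HS1 2, fun c0 c1 hc c e => ?_⟩
      have e2 := congrArg (coeff (Finsupp.single 1 1)) (show
        (c * a0) • (X 0 : Poly K) + (c * a1) • X 1 + (c * a2) • X 2 =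
          c0 • X 0 + (0 : K) • X 1 + c1 • X 2 by
        rw [zero_smul, add_zero, ← e]; simp [smul_add, smul_smul])
      rw [hcoef, hcoef] at e2
      have hc0 : c = 0 := by simpa [h1] using e2
      subst hc0
      refine lin_X_ne_zero (c0 := c0) (c1 := 0) (c2 := c1) (by tauto) ?_
      simpa using e.symm
  · refine ⟨X 1, X_mem_HS1 1, X 2, X_mem_HS1 2, fun c0 c1 hc c e => ?_⟩
    have e2 := congrArg (coeff (Finsupp.single 0 1)) (show
      (c * a0) • (X 0 : Poly K) + (c * a1) • X 1 + (c * a2) • X 2 =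
        (0 : K) • X 0 + c0 • X 1 + c1 • X 2 by
      rw [zero_smul, zero_add, ← e]; simp [smul_add, smul_smul])
    rw [hcoef, hcoef] at e2
    have hc0 : c = 0 := by simpa [h0] using e2
    subst hc0
    refine lin_X_ne_zero (c0 := 0) (c1 := c0) (c2 := c1) (by tauto) ?_
    simpa using e.symm

end Vale.Agent.Lib.P200
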