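import Vale.Agent.Lib.P200.D3Th

/-!
Subspaces killed by a linear form modulo a pair or modulo three forms have few dimensions.
-/

namespace Vale.Agent.Lib.P200
open MvPolynomial Module

variable {K : Type*} [Field K]

/-- The forms of degree `d` killed by `δ` modulo the pair. -/
noncomputable def Kdl (f g δ : Poly K) (d : ℕ) : Submodule K (Poly K) :=
  HS K d ⊓ ((FPi f g).restrictScalars K).comap (mulL δ)

theorem mem_Kdl {f g δ x : Poly K} {d : ℕ} : x ∈ Kdl f g δ d ↔ x ∈ HS K d ∧ δ * x ∈ FPi f g :=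
  Iff.rfl

theorem Kdl_le_HS (f g δ : Poly K) (d : ℕ) : Kdl f g δ d ≤ HS K d := inf_le_left

namespace ZP

variable {a b : ℕ} {f g : Poly K} (h : ZP a b f g)
include h

theorem FP_le_Kdl {δ : Poly K} (d : ℕ) : FP f g d ≤ Kdl f g δ d := fun _ hx =>
  ⟨(mem_pieceT.1 hx).2, Ideal.mul_mem_left _ _ (mem_pieceT.1 hx).1⟩

/-- The colon of the kernel. -/
theorem colZ_Kdl {δ : Poly K} (d : ℕ) : colZ (Kdl f g δ (d + 1)) = Kdl f g δ d := by
  ext x
  rw [mem_colZ, mem_Kdl, mem_Kdl]
  constructor
  · rintro ⟨h1, h2⟩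
    refine ⟨homog_of_X_mul h1, ?_⟩
    have e : (δ * x) * X 0 ∈ FPi f g := by
      rw [show δ * x * X 0 = δ * (X 0 * x) by ring]
      exact h2
    obtain ⟨r, s, e'⟩ := h.reg.h2 _ _ _ (show (δ * x) * X 0 = _ from (mem_FPi.1 e).choose_spec.choose_spec)
    exact mem_FPi.2 ⟨r, s, e'⟩
  · rintro ⟨h1, h2⟩
    refine ⟨?_, ?_⟩
    · have := (isHomogeneous_X K (0 : Fin 3)).mul h1
      rwa [add_comm] at this
    · rw [show δ * (X 0 * x) = X 0 * (δ * x) by ring]
      exact Ideal.mul_mem_left _ _ h2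

/-- The image of the pair is a multiple of a form only below the degree `b`. -/
theorem FZ_not_le_of_large {δ : Poly K} {t : ℕ} (ht : b ≤ t + 1) :
    ¬ FZ f g (t + 1) ≤ ((Pp K) ^ t).map (mulL δ) := by
  intro hle
  have key : ∀ n, FZ f g (t + 1 + n) ≤ ((Pp K) ^ (t + n)).map (mulL δ) := by
    intro n
    induction n with
    | zero => exact hle
    | succ n ih =>
      have e : FZ f g (t + 1 + (n + 1)) = Pp K * FZ f g (t + 1 + n) :=
        (h.imZ_mul_FP (d := t + 1 + n) (by omega)).symm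
      rw [e]
      rw [Submodule.mul_le]
      intro l hl y hy
      obtain ⟨w, hw, rfl⟩ := hy |> (fun hy => ih hy)
      refine ⟨l * w, ?_, ?_⟩
      · rw [show t + (n + 1) = 1 + (t + n) by omega, pow_add, pow_one]
        exact Submodule.mul_mem_mul hl hw
      · simp only [mulL, LinearMap.mulLeft_apply]
        ring
  -- in large degree the image of the pair is everything
  have hn := key (a + b)
  have h1 := h.finrank_FZ (t + 1 + (a + b))
  have hgg : gg a b (t + 1 + (a + b)) = 0 := by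
    unfold gg
    have := h.hab
    have := h.ha
    split_ifs <;> omega
  have hfP : Module.Finite K (Pp K ^ (t + (a + b)) : Submodule K (Poly K)) :=
    finite_of_le_HS (Pp_pow_le_HS _)
  have hf : Module.Finite K ((Pp K ^ (t + (a + b))).map (mulL δ) : Submodule K (Poly K)) :=
    inferInstance
  have hm := Submodule.finrank_mono hn
  have hmm := Submodule.finrank_map_le (mulL δ) (Pp K ^ (t + (a + b)) : Submodule K (Poly K))
  rw [finrank_Pp_pow] at hmm
  omega

theorem Kdl_low {δ : Poly K} (hδ : δ ∈ HS K 1) (hδ0 : δ ≠ 0) {d : ℕ} (hd : d + 1 < a) :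
    Kdl f g δ d = ⊥ := by
  rw [eq_bot_iff]
  rintro x ⟨h1, h2⟩
  have hH := (show δ.IsHomogeneous 1 from hδ).mul h1
  rw [add_comm] at hH
  have := h.FP_mem_eq_zero hd h2 hH
  exact (Submodule.mem_bot K).2 ((mul_eq_zero.1 this).resolve_left hδ0)

/-- The image modulo `x₀` of the kernel is small. -/
theorem finrank_imZ_Kdl {δ : Poly K} (hδ : δ ∈ HS K 1) (hδ' : piZ δ ≠ 0) (d : ℕ) :
    finrank K (imZ (Kdl f g δ (d + 1))) ≤ finrank K (FZ f g (d + 1)) + 1 := by
  set δ' := piZ δ with hδ'def
  have hδP : δ' ∈ Pp K := by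
    rw [← imZ_HS1]
    exact piZ_mem_imZ hδ
  have hV := imZ_le_HS (Kdl_le_HS f g δ (d + 1))
  set V := imZ (Kdl f g δ (d + 1)) with hVdef
  have hfV : Module.Finite K V := finite_of_le_HS (le_trans hV (Pp_pow_le_HS _))
  have hfP : Module.Finite K (Pp K ^ (d + 1) : Submodule K (Poly K)) :=
    finite_of_le_HS (Pp_pow_le_HS _)
  have hfP2 : Module.Finite K (Pp K ^ (d + 1 + 1) : Submodule K (Poly K)) :=
    finite_of_le_HS (Pp_pow_le_HS _)
  have hfZ : Module.Finite K (FZ f g (d + 1 + 1)) := finite_of_le_HS (FZ_le_HS f g _)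
  have hfZ1 : Module.Finite K (FZ f g (d + 1)) := finite_of_le_HS (FZ_le_HS f g _)
  have hker : LinearMap.ker (mulL δ') = ⊥ := by
    rw [LinearMap.ker_eq_bot]
    intro x y e
    exact mul_left_cancel₀ hδ' e
  have hdimV : finrank K (V.map (mulL δ')) = finrank K V := by
    have := finrank_map_add_inf (mulL δ') V
    rw [hker, bot_inf_eq, finrank_bot, add_zero] at this
    exact this
  set B : Submodule K (Poly K) := ((Pp K) ^ (d + 1)).map (mulL δ') with hB
  have hdimB : finrank K B = d + 2 := by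
    have := finrank_map_add_inf (mulL δ') ((Pp K) ^ (d + 1) : Submodule K (Poly K))
    rw [hker, bot_inf_eq, finrank_bot, add_zero, finrank_Pp_pow] at this
    exact this
  have hBP : B ≤ (Pp K) ^ (d + 1 + 1) := by
    rintro _ ⟨w, hw, rfl⟩
    rw [pow_succ']
    exact Submodule.mul_mem_mul hδP hw
  have hsub1 : V.map (mulL δ') ≤ FZ f g (d + 1 + 1) := by
    rintro _ ⟨v, hv, rfl⟩
    obtain ⟨x, hx, rfl⟩ := mem_imZ.1 hv
    refine mem_imZ.2 ⟨δ * x, mem_pieceT.2 ⟨hx.2, ?_⟩, ?_⟩
    · have := (show δ.IsHomogeneous 1 from hδ).mul hx.1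
      rwa [add_comm] at this
    · simp [hδ'def]
  have hsub2 : V.map (mulL δ') ≤ B := Submodule.map_mono hV
  have hsub : V.map (mulL δ') ≤ FZ f g (d + 1 + 1) ⊓ B := le_inf hsub1 hsub2
  have hfB : Module.Finite K B := inferInstance
  have hfI : Module.Finite K (FZ f g (d + 1 + 1) ⊓ B : Submodule K (Poly K)) :=
    Submodule.finiteDimensional_of_le inf_le_right
  have hm := Submodule.finrank_mono hsub
  have g1 := h.finrank_FZ (d + 1)
  have g2 := h.finrank_FZ (d + 1 + 1)
  have hab := h.hab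
  have ha := h.ha
  by_cases hcase : FZ f g (d + 1 + 1) ≤ B
  · have hdb : d + 1 + 1 < b := by
      by_contra hcon
      exact h.FZ_not_le_of_large (t := d + 1) (by omega) hcase
    have hm2 := Submodule.finrank_mono hsub1
    have hgg : gg a b (d + 1) ≤ gg a b (d + 1 + 1) := by
      unfold gg
      split_ifs <;> omega
    omega
  · have hdim := Submodule.finrank_sup_add_finrank_inf_eq (FZ f g (d + 1 + 1)) B
    have hlt : B < FZ f g (d + 1 + 1) ⊔ B := by
      refine lt_of_le_of_ne le_sup_right fun e => hcase ?_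
      rw [e]
      exact le_sup_left
    have hfS : Module.Finite K (FZ f g (d + 1 + 1) ⊔ B : Submodule K (Poly K)) := inferInstance
    have hlt2 := Submodule.finrank_lt_finrank_of_lt hlt
    have hgg : gg a b (d + 1) ≤ gg a b (d + 1 + 1) + 1 := by
      unfold gg
      split_ifs <;> omega
    omega

/-- The kernel of a nonzero linear form modulo the pair has few dimensions. -/
theorem finrank_Kdl {δ : Poly K} (hδ : δ ∈ HS K 1) (hδ0 : δ ≠ 0) (ha2 : 2 ≤ a) (d : ℕ) :
    finrank K (Kdl f g δ d) ≤ finrank K (FP f g d) + (d + 2 - a) := by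
  induction d with
  | zero =>
    rw [h.Kdl_low hδ hδ0 (by omega), finrank_bot]
    exact Nat.zero_le _
  | succ d ih =>
    by_cases hda : d + 2 < a
    · rw [h.Kdl_low hδ hδ0 hda, finrank_bot]
      exact Nat.zero_le _
    by_cases hz : piZ δ = 0
    · -- the form is a multiple of `x₀`
      obtain ⟨q, hq⟩ := piZ_eq_zero_iff.1 hz
      have hqH : q.IsHomogeneous 0 := homog_of_X_mul (by rw [← hq]; exact hδ)
      have hq0 : q ≠ 0 := by
        rintro rfl
        exact hδ0 (by simpa using hq)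
      have hc := const_of_homog_zero hqH
      have hc0 : coeff 0 q ≠ 0 := by
        intro e
        rw [e, map_zero] at hc
        exact hq0 hc
      have hle : Kdl f g δ (d + 1) ≤ FP f g (d + 1) := by
        rintro x ⟨h1, h2⟩
        refine mem_pieceT.2 ⟨?_, h1⟩
        rw [hq] at h2
        have e1 : (q * x) * X 0 ∈ FPi f g := by
          rw [show q * x * X 0 = X 0 * q * x by ring]
          exact h2
        obtain ⟨α, β, e2⟩ := mem_FPi.1 e1
        obtain ⟨r, s, e3⟩ := h.reg.h2 _ _ _ e2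
        have e4 : q * x ∈ FPi f g := mem_FPi.2 ⟨r, s, e3⟩
        have e5 : x = C (coeff 0 q)⁻¹ * (q * x) := by
          nth_rewrite 2 [hc]
          rw [← mul_assoc, ← C_mul, inv_mul_cancel₀ hc0, C_1, one_mul]
        rw [e5]
        exact Ideal.mul_mem_left _ _ e4
      have hfF := finite_of_le_HS (FP_le_HS f g (d + 1))
      have := Submodule.finrank_mono hle
      omega
    · have e1 := finrank_col_add_im (Kdl_le_HS f g δ (d + 1))
      rw [h.colZ_Kdl] at e1
      have e2 := h.finrank_FP_succ d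
      have e3 := h.finrank_imZ_Kdl hδ hz d
      omega

end ZP

namespace Th

variable {a b e : ℕ} {f g ξ : Poly K} (t : Th a b e f g ξ)
include t

/-- A subspace containing the third form and killed by a linear form is small. -/
theorem rb2 (hτ : 1 ≤ tauZ a b e) {U : Submodule K (Poly K)} (hF : FP f g e ≤ U) (hξ : ξ ∈ U)
    (hU : U ≤ HS K e) {δ : Poly K} (hδ : δ ∈ HS K 1) (hδ0 : δ ≠ 0)
    (hk : ∀ u ∈ U, δ * u ∈ FF ![f, g, ξ] (e + 1)) :
    finrank K U ≤ finrank K (FP f g e) + 1 + max 2 (e + 2 - a) := by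
  have ha4 := t.ha
  have hfU := finite_of_le_HS hU
  have hfK := finite_of_le_HS (Kdl_le_HS f g δ e)
  have hfF := finite_of_le_HS (FP_le_HS f g e)
  have hfF1 := finite_of_le_HS (FP_le_HS f g (e + 1))
  have hfFF := finite_of_le_HS (FF_le_HS ![f, g, ξ] (e + 1))
  by_cases hcase : ∀ u ∈ U, ∃ c : K, δ * u - c • (δ * ξ) ∈ FPi f g
  · -- the subspace lies in the kernel plus the third form
    have hle : U ≤ Kdl f g δ e ⊔ Submodule.span K {ξ} := by
      intro u hu
      obtain ⟨c, hc⟩ := hcase u hu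
      have e1 : u = (u - c • ξ) + c • ξ := by ring
      rw [e1]
      refine Submodule.add_mem _ (Submodule.mem_sup_left ⟨?_, ?_⟩)
        (Submodule.mem_sup_right (Submodule.smul_mem _ _ (Submodule.mem_span_singleton_self _)))
      · exact Submodule.sub_mem _ (hU hu) (Submodule.smul_mem _ _ (hU hξ))
      · show δ * (u - c • ξ) ∈ FPi f g
        rw [mul_sub, mul_smul_comm]
        exact hc
    have hfS : Module.Finite K (Kdl f g δ e ⊔ Submodule.span K {ξ} : Submodule K (Poly K)) :=
      inferInstance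
    have e1 := Submodule.finrank_mono hle
    have e2 := Submodule.finrank_add_le_finrank_add_finrank (Kdl f g δ e) (Submodule.span K {ξ})
    have hξ0 : ξ ≠ 0 := by
      rintro rfl
      have h1 : (1 : Poly K) ∈ FPi f g := t.nz 1 (by simp)
      have h2 := t.zp.FP_mem_eq_zero (d := 0) (by omega) h1 (isHomogeneous_one _ _)
      exact one_ne_zero h2
    have e3 : finrank K (Submodule.span K {ξ}) ≤ 1 := (finrank_span_singleton hξ0).le
    have e4 := t.zp.finrank_Kdl hδ hδ0 (by omega) e
    have : e + 2 - a ≤ max 2 (e + 2 - a) := le_max_right _ _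
    omega
  · push Not at hcase
    obtain ⟨u0, hu0, hu0c⟩ := hcase
    have hδH : δ.IsHomogeneous 1 := hδ
    obtain ⟨p, hp, e1⟩ := t.rep_Fid (mem_FF.1 (hk u0 hu0)).2 (mem_FF.1 (hk u0 hu0)).1
    have hp1 : p ∈ HS K 1 := by
      have := hp.1 (by omega)
      rwa [show e + 1 - e = 1 by omega] at this
    have hind : ∀ c : K, c • δ ≠ p := by
      intro c hc
      apply hu0c c
      have e2 : δ * u0 - c • (δ * ξ) = δ * u0 - p * ξ := by
        rw [← hc, smul_mul_assoc]
      rw [e2]
      exact e1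
    -- the kernel inside the subspace is the pair
    have hker : U ⊓ ((FP f g (e + 1)).comap (mulL δ)) ≤ FP f g e := by
      rintro x ⟨hxU, hx⟩
      have hx1 : δ * x ∈ FPi f g := (mem_pieceT.1 hx).1
      have hx2 : (p * x) * ξ ∈ FPi f g := by
        have e2 : (p * x) * ξ = u0 * (δ * x) - x * (δ * u0 - p * ξ) := by ring
        rw [e2]
        exact Ideal.sub_mem _ (Ideal.mul_mem_left _ _ hx1) (Ideal.mul_mem_left _ _ e1)
      have hx3 := t.nz _ hx2
      refine mem_pieceT.2 ⟨?_, hU hxU⟩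
      by_contra hx0
      exact t.zp.point_lemma (by omega) hτ (hU hxU) hx0 hδ hp1 hδ0 hind hx1 hx3
    have hdim := finrank_map_sup_add (mulL δ) U (FP f g (e + 1))
    have hle : U.map (mulL δ) ⊔ FP f g (e + 1) ≤ FF ![f, g, ξ] (e + 1) := by
      refine sup_le ?_ (ZP.FP_le_FF (e + 1))
      rintro _ ⟨u, hu, rfl⟩
      exact hk u hu
    have hfI : Module.Finite K (U ⊓ (FP f g (e + 1)).comap (mulL δ) : Submodule K (Poly K)) :=
      Submodule.finiteDimensional_of_le (inf_le_left : _ ≤ U)
    have e2 := Submodule.finrank_mono hle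
    have e3 := Submodule.finrank_mono hker
    rw [t.finrank_FF_e1] at e2
    have : 2 ≤ max 2 (e + 2 - a) := le_max_left _ _
    omega

end Th

end Vale.Agent.Lib.P200
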