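import Vale.Agent.Lib.P200.D4Row

/-!
Permuting a regular sequence of forms, and small subspaces below the degree of the second form.
-/

namespace Vale.Agent.Lib.P200
open MvPolynomial Module

variable {K : Type*} [Field K]

namespace ZP

variable {a b : ℕ} {f g ξ : Poly K} {e : ℕ} (h : ZP a b f g) (hξ : ξ.IsHomogeneous e) (hn : NZ f g ξ)
include h hξ hn

/-- Divisibility by the first form, for homogeneous forms. -/
theorem dvd_of_mul_xi_hom : ∀ (n : ℕ) (p q : Poly K), p.IsHomogeneous n → p * ξ = q * f → f ∣ p := by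
  intro n
  induction n using Nat.strong_induction_on with
  | _ n ih =>
    intro p q hp e1
    have hm : p ∈ FP f g n := by
      refine mem_pieceT.2 ⟨hn p ?_, hp⟩
      rw [e1]
      exact Ideal.mul_mem_left _ _ (Ideal.subset_span (by simp))
    obtain ⟨α, β, _, hβ, e2⟩ := h.rep hm
    have hab := h.hab
    have ha := h.ha
    by_cases hbn : b ≤ n
    · have hβH := hβ.1 hbn
      have e3 : (β * ξ) * g = (q - α * ξ) * f := by
        rw [e2] at e1
        linear_combination e1
      obtain ⟨r, hr⟩ := h.reg.h1 _ _ e3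
      obtain ⟨w, hw⟩ := ih (n - b) (by omega) β r hβH hr
      refine ⟨α + w * g, ?_⟩
      rw [e2, hw]
      ring
    · have hβ0 := hβ.2 (by omega)
      refine ⟨α, ?_⟩
      rw [e2, hβ0]
      ring

/-- Divisibility by the first form. -/
theorem dvd_of_mul_xi {p q : Poly K} (e1 : p * ξ = q * f) : f ∣ p := by
  have hfH := h.homf
  have key : ∀ n, f ∣ homogeneousComponent n p := by
    intro n
    have e2 := comp_mul_add hξ p n
    rw [e1, comp_mul_general hfH] at e2
    split_ifs at e2 with hle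
    · exact h.dvd_of_mul_xi_hom hξ hn n _ _ (homogeneousComponent_isHomogeneous n p) e2.symm
    · have hne : ξ ≠ 0 := by
        rintro rfl
        have h1 : (1 : Poly K) ∈ FPi f g := hn 1 (by simp)
        have h2 := h.FP_mem_eq_zero (d := 0) (by have := h.ha; omega) h1 (isHomogeneous_one _ _)
        exact one_ne_zero h2
      have := (mul_eq_zero.1 e2.symm).resolve_right hne
      rw [this]
      exact dvd_zero _
  rw [← sum_homogeneousComponent p]
  exact Finset.dvd_sum fun n _ => key n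

theorem xi_ne_zero : ξ ≠ 0 := by
  rintro rfl
  have h1 : (1 : Poly K) ∈ FPi f g := hn 1 (by simp)
  have h2 := h.FP_mem_eq_zero (d := 0) (by have := h.ha; omega) h1 (isHomogeneous_one _ _)
  exact one_ne_zero h2

/-- The third form may be moved to the second place. -/
theorem regTriple_perm : RegTriple f ξ g where
  ne := h.reg.ne
  h1 := by
    intro p q e1
    obtain ⟨r, hr⟩ := h.dvd_of_mul_xi hξ hn e1
    exact ⟨r, by rw [hr]; ring⟩
  h2 := by
    intro p α β e1
    have hm : β * ξ ∈ FPi f g := by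
      have e2 : β * ξ = p * g - α * f := by rw [e1]; ring
      rw [e2]
      exact mem_FPi.2 ⟨-α, p, by ring⟩
    obtain ⟨u, v, e3⟩ := mem_FPi.1 (hn β hm)
    have e4 : (p - v * ξ) * g = (α + u * ξ) * f := by
      rw [e3] at e1
      linear_combination e1
    obtain ⟨w, hw⟩ := h.reg.h1 _ _ e4
    exact ⟨w, v, by linear_combination hw⟩

/-- The third form may be moved to the first place. -/
theorem regTriple_perm' : RegTriple ξ f g where
  ne := h.xi_ne_zero hξ hn
  h1 := by
    intro p q e1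
    obtain ⟨r, hr⟩ := h.dvd_of_mul_xi hξ hn e1.symm
    refine ⟨r, ?_⟩
    have hf := h.reg.ne
    rw [hr] at e1
    apply mul_right_cancel₀ hf
    linear_combination e1
  h2 := by
    intro p α β e1
    obtain ⟨α', β', e2⟩ := (h.regTriple_perm hξ hn).h2 p β α (by rw [e1]; ring)
    exact ⟨β', α', by rw [e2]; ring⟩

variable (he1 : 1 ≤ e)
include he1

theorem rep_Fid' {x : Poly K} {m : ℕ} (hx : x.IsHomogeneous m) (hm : x ∈ Fid ![f, g, ξ]) :
    ∃ p : Poly K, Hz p m e ∧ x - p * ξ ∈ FPi f g := by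
  obtain ⟨p, hp, e1⟩ := (h.formSeq_of_NZ he1 hξ hn).rep hx hm
  refine ⟨p 2, hp 2, ?_⟩
  rw [← e1]
  refine mem_FPi.2 ⟨p 0, p 1, ?_⟩
  simp

theorem FF_e_le {U : Submodule K (Poly K)} (hF : FP f g e ≤ U) (hx : ξ ∈ U) :
    FF ![f, g, ξ] e ≤ U := by
  intro x hxF
  obtain ⟨h1, h2⟩ := mem_FF.1 hxF
  obtain ⟨p, hp, e1⟩ := h.rep_Fid' hξ hn he1 h2 h1
  have hp0 : p.IsHomogeneous 0 := by
    have := hp.1 le_rfl
    rwa [Nat.sub_self] at this
  have hc := const_of_homog_zero hp0
  have hpξ : p * ξ ∈ U := by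
    rw [hc, ← MvPolynomial.smul_eq_C_mul]
    exact Submodule.smul_mem _ _ hx
  have hU : p * ξ ∈ HS K e := by
    have := hp0.mul hξ
    rwa [zero_add] at this
  have e2 : x - p * ξ ∈ FP f g e := mem_pieceT.2 ⟨e1, h2.sub hU⟩
  have e3 : x = (x - p * ξ) + p * ξ := by ring
  rw [e3]
  exact Submodule.add_mem _ (hF e2) hpξ

theorem FF_e1_le' {U : Submodule K (Poly K)} (hx : ξ ∈ U) :
    FF ![f, g, ξ] (e + 1) ≤ gpl f g e U := by
  intro x hxF
  obtain ⟨h1, h2⟩ := mem_FF.1 hxF
  obtain ⟨p, hp, e1⟩ := h.rep_Fid' hξ hn he1 h2 h1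
  have hp1 : p ∈ HS K 1 := by
    have := hp.1 (by omega)
    rwa [show e + 1 - e = 1 by omega] at this
  have hpξ := (show p.IsHomogeneous 1 from hp1).mul hξ
  have hxp : (x - p * ξ).IsHomogeneous (e + 1) := by
    refine h2.sub ?_
    rwa [add_comm] at hpξ
  have e2 : x = (x - p * ξ) + p * ξ := by ring
  rw [e2]
  refine Submodule.add_mem _ ?_ ?_
  · exact Submodule.mem_sup_right (mem_pieceT.2 ⟨e1, hxp⟩)
  · exact Submodule.mem_sup_left (Submodule.mul_mem_mul hp1 hx)

theorem finrank_FF_e1' (ha2 : 2 ≤ a) :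
    finrank K (FF ![f, g, ξ] (e + 1)) = finrank K (FP f g (e + 1)) + 3 := by
  have hs := h.formSeq_of_NZ he1 hξ hn
  have e1 := hs.finrank_FF (e + 1)
  have e2 := hs.finrank_J2 (e + 1)
  have e3 := hs.finrank_J2 1
  rw [pieceT_J2] at e2 e3
  have e4 : ![f, g, ξ] 0 = f := rfl
  have e5 : ![f, g, ξ] 1 = g := rfl
  rw [e4, e5] at e2 e3
  rw [h.FP_low (show 1 < a by omega), finrank_bot] at e3
  have e6 : phi3 ![a, b, e] (e + 1) = phi2 ![a, b, e] (e + 1) +
      (T 1 - phi2 ![a, b, e] 1) := by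
    unfold phi3
    rw [if_pos (by simp)]
    simp
  rw [e1, e6, e2, ← e3]
  simp [show T 1 = 3 by decide]

end ZP

theorem Fid_perm1 (f g ξ : Poly K) : Fid ![f, ξ, g] = Fid ![f, g, ξ] := by
  unfold Fid
  congr 1
  ext x
  simp only [Set.mem_range]
  constructor
  · rintro ⟨i, rfl⟩
    fin_cases i
    · exact ⟨0, rfl⟩
    · exact ⟨2, rfl⟩
    · exact ⟨1, rfl⟩
  · rintro ⟨i, rfl⟩
    fin_cases i
    · exact ⟨0, rfl⟩
    · exact ⟨2, rfl⟩
    · exact ⟨1, rfl⟩

theorem Fid_perm2 (f g ξ : Poly K) : Fid ![ξ, f, g] = Fid ![f, g, ξ] := by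
  unfold Fid
  congr 1
  ext x
  simp only [Set.mem_range]
  constructor
  · rintro ⟨i, rfl⟩
    fin_cases i
    · exact ⟨2, rfl⟩
    · exact ⟨0, rfl⟩
    · exact ⟨1, rfl⟩
  · rintro ⟨i, rfl⟩
    fin_cases i
    · exact ⟨1, rfl⟩
    · exact ⟨2, rfl⟩
    · exact ⟨0, rfl⟩

theorem FF_congr {s s' : Fin 3 → Poly K} (h : Fid s = Fid s') (d : ℕ) : FF s d = FF s' d := by
  unfold FF
  rw [h]

namespace ZP

variable {a b : ℕ} {f g ξ : Poly K} {e : ℕ} (h : ZP a b f g)
include h

/-- The growth bound applied to a pair containing the third form. -/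
theorem W3_low_aux {a' b' : ℕ} (ha2 : 2 ≤ a') (hab' : a' ≤ b') {s : Fin 3 → Poly K}
    (hs : FormSeq ![a', b', b] s) (he : e + 1 < b) (ha'e : a' ≤ e + 2) (hτ : 2 ≤ tauZ a' b' e)
    {U : Submodule K (Poly K)} (hU : U ≤ HS K e)
    (hF0 : FF s e ≤ U) (hF1 : FF s (e + 1) ≤ gpl f g e U)
    (hd0 : finrank K (FF s e) = finrank K (FP f g e) + 1)
    (hd1 : finrank K (FF s (e + 1)) = finrank K (FP f g (e + 1)) + 3)
    (hG : finrank K (gpl f g e U) + finrank K (FP f g e) ≤
      finrank K U + finrank K (FP f g (e + 1)) + 3) :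
    finrank K U ≤ finrank K (FP f g e) + 1 + LL a' b' 1 e := by
  have hfU := finite_of_le_HS hU
  have hfF := finite_of_le_HS (FF_le_HS s e)
  have hfF1 := finite_of_le_HS (FF_le_HS s (e + 1))
  have hgH := gpl_le_HS (f := f) (g := g) hU
  have hfG := finite_of_le_HS hgH
  by_contra hcon
  have hr : LL a' b' 1 e + finrank K (FF s e) < finrank K U := by omega
  have := growth_any_pair ha2 hab' hs he hF0 hU mul_le_gpl hF1 hgH (p := 1) (by omega) hr
  have hm : min (1 + 1) (tauZ a' b' e) = 2 := by omega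
  rw [hm, show a' - 2 - e = 0 by omega] at this
  have hle := Submodule.finrank_mono hF0
  omega

end ZP

/-- The dimension bound below the degree of the second form. -/
theorem ZP.W3_low {a b e : ℕ} {f g ξ : Poly K} (h : ZP a b f g) (ha4 : 4 ≤ a) (he : e + 1 < b)
    {U : Submodule K (Poly K)} (hF : FP f g e ≤ U) (hU : U ≤ HS K e) (hx : ξ ∈ U) (hn : NZ f g ξ)
    (hG : finrank K (gpl f g e U) + finrank K (FP f g e) ≤
      finrank K U + finrank K (FP f g (e + 1)) + 3) :
    finrank K U ≤ finrank K (FP f g e) + max 3 (LL a b 2 e) := by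
  have hfU := finite_of_le_HS hU
  have hξ : ξ.IsHomogeneous e := hU hx
  have h3 : 3 ≤ max 3 (LL a b 2 e) := le_max_left _ _
  have hL : LL a b 2 e ≤ max 3 (LL a b 2 e) := le_max_right _ _
  have hab := h.hab
  by_cases he1 : e ≤ 1
  · have hle := Submodule.finrank_mono hU
    rw [finrank_HS] at hle
    have : T e ≤ 3 := by
      interval_cases e <;> decide
    omega
  have he2 : 2 ≤ e := by omega
  have hd0 := h.finrank_FF_top (c := e) (by omega) hξ hn
  have hd1 := h.finrank_FF_e1' hξ hn (by omega) (by omega)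
  have hF0 := h.FF_e_le hξ hn (by omega) hF hx
  have hF1 := h.FF_e1_le' hξ hn (by omega) hx
  have hLL : LL a b 2 e = min (e + 1 + 1 - a) b + min (e + 2 + 1 - a) b := by
    rw [show (2 : ℕ) = 0 + 1 + 1 from rfl, LL_succ, LL_succ, LL_zero]
    simp [ell]
  by_cases hae : a ≤ e
  · have hs : FormSeq ![a, e, b] ![f, ξ, g] := by
      refine ⟨?_, ?_, h.regTriple_perm hξ hn⟩
      · intro i
        fin_cases i
        · show 1 ≤ a
          omega
        · show 1 ≤ e
          omega
        · show 1 ≤ b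
          omega
      · intro i
        fin_cases i
        · exact h.homf
        · exact hξ
        · exact h.homg
    have hff : ∀ d, FF ![f, ξ, g] d = FF ![f, g, ξ] d := FF_congr (Fid_perm1 f g ξ)
    have := h.W3_low_aux (a' := a) (b' := e) (by omega) hae hs he (by omega)
      (by unfold tauZ; omega) hU (by rw [hff]; exact hF0) (by rw [hff]; exact hF1)
      (by rw [hff]; exact hd0) (by rw [hff]; exact hd1) hG
    have hl1 : LL a e 1 e = min (e + 1 + 1 - a) e := by
      rw [show (1 : ℕ) = 0 + 1 from rfl, LL_succ, LL_zero]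
      simp [ell]
    omega
  · have hs : FormSeq ![e, a, b] ![ξ, f, g] := by
      refine ⟨?_, ?_, h.regTriple_perm' hξ hn⟩
      · intro i
        fin_cases i
        · show 1 ≤ e
          omega
        · show 1 ≤ a
          omega
        · show 1 ≤ b
          omega
      · intro i
        fin_cases i
        · exact hξ
        · exact h.homf
        · exact h.homg
    have hff : ∀ d, FF ![ξ, f, g] d = FF ![f, g, ξ] d := FF_congr (Fid_perm2 f g ξ)
    have := h.W3_low_aux (a' := e) (b' := a) (by omega) (by omega) hs he (by omega)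
      (by unfold tauZ; omega) hU (by rw [hff]; exact hF0) (by rw [hff]; exact hF1)
      (by rw [hff]; exact hd0) (by rw [hff]; exact hd1) hG
    have hl1 : LL e a 1 e = min (e + 1 + 1 - e) a := by
      rw [show (1 : ℕ) = 0 + 1 from rfl, LL_succ, LL_zero]
      simp [ell]
    omega

end Vale.Agent.Lib.P200
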