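import Vale.Agent.Lib.P200.D5Pair

/-!
Chains of images up to the top degree of the pair and duality, over an algebraically closed field.
-/

namespace Vale.Agent.Lib.P200
open MvPolynomial Module

variable {K : Type*} [Field K]

/-- The growth statement for subspaces with a nonzerodivisor, in one degree. -/
def W3At (a b : ℕ) (f g : Poly K) (d : ℕ) : Prop :=
  ∀ U : Submodule K (Poly K), FP f g d ≤ U → U ≤ HS K d → U ≠ HS K d → (∃ ξ ∈ U, NZ f g ξ) →
    finrank K (gpl f g d U) + finrank K (FP f g d) ≤ finrank K U + finrank K (FP f g (d + 1)) + 3 →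
    finrank K U ≤ finrank K (FP f g d) + max 3 (LL a b 2 d)

theorem ZP.exists_nz_of_mem_gpl [Infinite K] {a b : ℕ} {f g : Poly K} (_h : ZP a b f g) {d : ℕ}
    {X : Submodule K (Poly K)} {τ : Poly K} (hn : NZ f g τ) (hm : τ ∈ gpl f g d X) :
    ∃ ξ ∈ X, NZ f g ξ := by
  by_contra hcon
  push Not at hcon
  obtain ⟨P, hP, hPX⟩ := exists_assoc_of_no_nz hcon
  have hle2 : gpl f g d X ≤ P.restrictScalars K := by
    refine sup_le ?_ ?_
    · rw [Submodule.mul_le]
      intro u _ v hv
      exact P.mul_mem_left u (hPX v hv)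
    · intro y hy
      exact FPi_le_of_assoc hP (mem_pieceT.1 hy).1
  exact (nz_iff.1 hn) P hP (hle2 hm)

namespace Th

variable {a b e : ℕ} {f g ξ : Poly K} (t : Th a b e f g ξ)
include t

theorem small_pg [IsAlgClosed K] {k : ℕ} (hk : k + 4 ≤ a + b) {V : Submodule K (Poly K)}
    (hF : FF ![f, g, ξ] k ≤ V) (hV : V ≤ HS K k) (hn : finrank K (FF ![f, g, ξ] k) < finrank K V)
    {δ : Poly K} (hδ : δ ∈ HS K 1) (hδ0 : δ ≠ 0) (hkill : ∀ x ∈ V, δ * x ∈ FF ![f, g, ξ] (k + 1)) :
    1 ≤ GamS ![f, g, ξ] k V := by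
  by_contra hcon
  obtain ⟨l0, hl0, l1, hl1, hind⟩ := exists_compl_pencil hδ hδ0
  obtain ⟨c0, c1, x, hc, hxV, hxF, hx⟩ := exists_zero_pair_pencil hF hV hn (by omega) hl0 hl1
  apply hxF
  refine mem_FF.2 ⟨t.point_star hk (hV hxV) hδ hδ0
    (Submodule.add_mem _ (Submodule.smul_mem _ _ hl0) (Submodule.smul_mem _ _ hl1))
    (hind c0 c1 hc) (mem_FF.1 (hkill x hxV)).1 (mem_FF.1 hx).1, hV hxV⟩

/-- The chain of images up to the top degree. -/
theorem pg_chain [IsAlgClosed K] {top : ℕ} (htop : top + 3 = a + b) : ∀ (r k : ℕ)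
    (V : Submodule K (Poly K)) (γ : ℤ), k + r = top → FF ![f, g, ξ] k ≤ V → V ≤ HS K k →
    finrank K (FF ![f, g, ξ] k) < finrank K V → GamS ![f, g, ξ] k V ≤ γ → γ ≤ 0 →
    ∃ Y : Submodule K (Poly K), FF ![f, g, ξ] top ≤ Y ∧ Y ≤ HS K top ∧
      finrank K (FF ![f, g, ξ] top) < finrank K Y ∧
      finrank K Y + r + finrank K (FF ![f, g, ξ] k) ≤ finrank K V + finrank K (FF ![f, g, ξ] top) ∧
      GamS ![f, g, ξ] top Y ≤ γ - r := by
  intro r
  induction r with
  | zero =>
    intro k V γ hk hF hV hn hG _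
    have hk' : k = top := by omega
    subst hk'
    exact ⟨V, hF, hV, hn, by omega, by simpa using hG⟩
  | succ r ih =>
    intro k V γ hk hF hV hn hG hγ
    have hfV := finite_of_le_HS hV
    have hfF := finite_of_le_HS (FF_le_HS ![f, g, ξ] k)
    obtain ⟨c0, c1, x, hc, hxV, hxF, hx⟩ := exists_zero_pair_pencil hF hV hn (hG.trans hγ)
      (X_mem_HS1 0) (X_mem_HS1 1)
    have hδ : (c0 • X 0 + c1 • X 1 : Poly K) ∈ HS K 1 :=
      Submodule.add_mem _ (Submodule.smul_mem _ _ (X_mem_HS1 0)) (Submodule.smul_mem _ _ (X_mem_HS1 1))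
    have hδ0 : (c0 • X 0 + c1 • X 1 : Poly K) ≠ 0 := by
      have := lin_X_ne_zero (K := K) (c0 := c0) (c1 := c1) (c2 := 0) (by tauto)
      simpa using this
    set δ : Poly K := c0 • X 0 + c1 • X 1 with hδdef
    have hF' : FF ![f, g, ξ] k ≤ Xkil ![f, g, ξ] k δ V := FF_le_Xkil hδ hF
    have hV' : Xkil ![f, g, ξ] k δ V ≤ HS K k := le_trans Xkil_le hV
    have hfV' := finite_of_le_HS hV'
    have hxV' : x ∈ Xkil ![f, g, ξ] k δ V := ⟨hxV, hx⟩
    have hlt : FF ![f, g, ξ] k < Xkil ![f, g, ξ] k δ V := by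
      refine lt_of_le_of_ne hF' fun e => hxF ?_
      rw [e]
      exact hxV'
    have hn' := Submodule.finrank_lt_finrank_of_lt hlt
    have hg1 := t.small_pg (k := k) (by omega) hF' hV' hn' hδ hδ0 (fun y hy => hy.2)
    have hsup := Gam_superadd (s := ![f, g, ξ]) hδ hV
    have hdim := finrank_Xkil_add (s := ![f, g, ξ]) (δ := δ) hV
    have hXm : Xmul ![f, g, ξ] k δ V ≤ HS K (k + 1) := Xmul_le_HS hδ hV
    have hfXm := finite_of_le_HS hXm
    have hFm : FF ![f, g, ξ] (k + 1) ≤ Xmul ![f, g, ξ] k δ V := FF_le_Xmul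
    have hfF1 := finite_of_le_HS (FF_le_HS ![f, g, ξ] (k + 1))
    have hstrict : finrank K (FF ![f, g, ξ] (k + 1)) < finrank K (Xmul ![f, g, ξ] k δ V) := by
      by_contra hcon
      have hfe := Submodule.finrank_mono hFm
      have e1 : finrank K (Xkil ![f, g, ξ] k δ V) = finrank K V := by omega
      have e2 : Xkil ![f, g, ξ] k δ V = V :=
        Submodule.eq_of_le_of_finrank_eq Xkil_le e1
      rw [e2] at hg1
      omega
    obtain ⟨Y, h1, h2, h3, h4, h5⟩ := ih (k + 1) _ (γ - 1) (by omega) hFm hXm hstrict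
      (by omega) (by omega)
    refine ⟨Y, h1, h2, h3, ?_, ?_⟩
    · omega
    · push_cast
      omega

/-- The difference of the counts around the third degree. -/
theorem cnt_diff (hτ : 2 ≤ tauZ a b e) {d : ℕ} (hd : d + 1 = e) :
    cntT ![a, b, e] e = cntT ![a, b, e] d + tauZ a b e := by
  subst hd
  have hs := t.fs
  have c1 := hs.finrank_FF_add_cnt (d + 1)
  have c2 := hs.finrank_FF_add_cnt d
  have e1 := t.finrank_FF_e
  have e2 := t.FF_lt (d := d) (by omega)
  have l1 := t.zp.LL_all (d + 1)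
  have l2 := t.zp.LL_all d
  have l3 := LL_step a b a d
  have l4 := Dl_full (d := d) (a := a) (b := b) (by have := t.ha; omega) t.hab
  have hgg : gg a b (d + 1) = tauZ a b (d + 1) + 1 := by
    have := t.he
    have := t.hab
    unfold gg
    unfold tauZ at hτ ⊢
    split_ifs <;> omega
  rw [e2] at c2
  omega

theorem cnt_next (hτ : 2 ≤ tauZ a b e) :
    cntT ![a, b, e] (e + 1) + 2 = cntT ![a, b, e] e + tauZ a b e := by
  have hs := t.fs
  have c1 := hs.finrank_FF_add_cnt (e + 1)
  have c2 := hs.finrank_FF_add_cnt e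
  have e1 := t.finrank_FF_e
  have e2 := t.finrank_FF_e1
  have l1 := t.zp.LL_all (e + 1)
  have l2 := t.zp.LL_all e
  have l3 := LL_step a b a e
  have l4 := Dl_full (d := e) (a := a) (b := b) (by have := t.ha; omega) t.hab
  have hgg : gg a b (e + 1) = tauZ a b e := by
    have := t.he
    have := t.hab
    unfold gg
    unfold tauZ at hτ ⊢
    split_ifs <;> omega
  omega

/-- The dual of a subspace in the top degree of the pair. -/
theorem top_dual {top : ℕ} (htop : top + 3 = a + b) (hτ : 2 ≤ tauZ a b e) {d : ℕ} (hd : d + 1 = e)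
    {φ : Module.Dual K (Poly K)}
    (hφ : ∀ x ∈ HS K (a + b + e - 3), φ x = 0 ↔ x ∈ FF ![f, g, ξ] (a + b + e - 3))
    {Y : Submodule K (Poly K)} (hF : FF ![f, g, ξ] top ≤ Y) (hY : Y ≤ HS K top)
    (hn : finrank K (FF ![f, g, ξ] top) < finrank K Y) :
    FP f g d ≤ perpT φ (nxS ![f, g, ξ] top Y) d ∧ perpT φ (nxS ![f, g, ξ] top Y) d ≤ HS K d ∧
      perpT φ (nxS ![f, g, ξ] top Y) d ≠ HS K d ∧
      GamS ![f, g, ξ] d (perpT φ (nxS ![f, g, ξ] top Y) d) ≤
        GamS ![f, g, ξ] top Y + (tauZ a b e : ℤ) ∧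
      (finrank K (perpT φ (nxS ![f, g, ξ] top Y) d) : ℤ) - finrank K (FP f g d) =
        (LL a b a d : ℤ) - (finrank K Y - finrank K (FF ![f, g, ξ] top)) - GamS ![f, g, ξ] top Y := by
  have hs := t.fs
  have hsum := t.hsum
  have ha4 := t.ha
  have hFd := t.FF_lt (d := d) (by omega)
  have hN := nxS_le_HS (s := ![f, g, ξ]) (k := top) hY
  have hke : top + (d + 1) = a + b + e - 3 := by omega
  have hke' : (top + 1) + d = a + b + e - 3 := by omega
  refine ⟨?_, perpT_le _ _ _, ?_, ?_, ?_⟩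
  · rw [← hFd]
    exact hs.FF_le_perpT hφ hke' hN
  · intro hW
    apply Nat.lt_irrefl (finrank K Y)
    have hYle : Y ≤ FF ![f, g, ξ] top := by
      intro u hu
      refine mem_FF.2 ⟨?_, hY hu⟩
      refine hs.socle (hY hu) (by
        show top + 3 < a + b + e
        have := t.he1
        omega) fun i => ?_
      have hm : (X i : Poly K) * u ∈ nxS ![f, g, ξ] top Y := mul_mem_nxS (X_mem_HS1 i) hu
      have hh := nxS_le_HS (s := ![f, g, ξ]) (k := top) hY hm
      have := hs.radical hsum hφ d (top + 1) hke' _ hh (fun y hy => by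
        have hy' : y ∈ perpT φ (nxS ![f, g, ξ] top Y) d := by rw [hW]; exact hy
        exact hy'.2 _ hm)
      exact (mem_FF.1 this).1
    have hfF := finite_of_le_HS (FF_le_HS ![f, g, ξ] top)
    have := Submodule.finrank_mono hYle
    omega
  · have := Gam_perp hs hsum hφ hke hF hY
    have hc := t.cnt_diff hτ hd
    rw [hd, hc] at this
    push_cast at this
    omega
  · have e1 := hs.finrank_perpT hsum hφ hke' hN FF_le_nxS
    have l2 := t.zp.LL_all d
    unfold GamS
    have e1' : (finrank K (perpT φ (nxS ![f, g, ξ] top Y) d) : ℤ) + finrank K (nxS ![f, g, ξ] top Y) =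
        T d + finrank K (FF ![f, g, ξ] (top + 1)) := by exact_mod_cast e1
    have l2' : (LL a b a d : ℤ) + finrank K (FP f g d) = T d := by exact_mod_cast l2
    omega

/-- Subspaces just below the degree of the third form with small excess of growth are small. -/
theorem W_bound [Infinite K] (hτ : 2 ≤ tauZ a b e) {d : ℕ} (hd : d + 1 = e)
    (hW3 : W3At a b f g d) {W : Submodule K (Poly K)} (hF : FP f g d ≤ W) (hW : W ≤ HS K d)
    (hne : W ≠ HS K d) (hG : GamS ![f, g, ξ] d W ≤ 2) :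
    finrank K W ≤ finrank K (FP f g d) + max 3 (LL a b 2 d) := by
  have ha4 := t.ha
  have hab := t.hab
  have he := t.he
  have hfW := finite_of_le_HS hW
  have hFd := t.FF_lt (d := d) (by omega)
  have hgH := gpl_le_HS (f := f) (g := g) hW
  have hfg := finite_of_le_HS hgH
  have hN := nxS_le_HS (s := ![f, g, ξ]) (k := d) hW
  have hfN := finite_of_le_HS hN
  have hle : gpl f g d W ≤ nxS ![f, g, ξ] d W :=
    sup_le le_sup_left (le_trans (ZP.FP_le_FF (d + 1)) le_sup_right)
  have hm := Submodule.finrank_mono hle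
  have hdim := t.finrank_FF_e
  have hL : LL a b 2 d ≤ max 3 (LL a b 2 d) := le_max_right _ _
  have hξH : ξ ∈ HS K (d + 1) := by
    rw [hd]
    exact t.hom
  unfold GamS at hG
  rw [hFd, hd, hdim] at hG
  have hFP : FP f g (d + 1) = FP f g e := by rw [hd]
  by_cases hmem : ξ ∈ gpl f g d W
  · obtain ⟨x, hx, hxn⟩ := t.zp.exists_nz_of_mem_gpl t.nz hmem
    refine hW3 W hF hW hne ⟨x, hx, hxn⟩ ?_
    rw [hFP]
    omega
  · have hξF : ξ ∈ FF ![f, g, ξ] (d + 1) := by
      rw [hd]
      exact t.xi_mem_FF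
    have hsub : gpl f g d W ⊔ Submodule.span K {ξ} ≤ nxS ![f, g, ξ] d W := by
      refine sup_le hle ?_
      rw [Submodule.span_singleton_le_iff_mem]
      exact Submodule.mem_sup_right hξF
    have hgt : gpl f g d W < gpl f g d W ⊔ Submodule.span K {ξ} := by
      refine lt_of_le_of_ne le_sup_left fun e' => hmem ?_
      rw [e']
      exact Submodule.mem_sup_right (Submodule.mem_span_singleton_self _)
    have hfS : Module.Finite K (gpl f g d W ⊔ Submodule.span K {ξ} : Submodule K (Poly K)) :=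
      inferInstance
    have h1 := Submodule.finrank_lt_finrank_of_lt hgt
    have h2 := Submodule.finrank_mono hsub
    by_contra hcon
    have hr : LL a b 2 d + finrank K (FP f g d) < finrank K W := by omega
    have hg := t.zp.growthC (by omega) d W 2 hF hW (by omega) hr
    have hmin : min (2 + 1) (tauZ a b d) = 3 := by
      unfold tauZ at hτ ⊢
      omega
    rw [hmin, show a - 2 - d = 0 by omega, hFP] at hg
    omega

end Th

end Vale.Agent.Lib.P200
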