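import Vale.Agent.Lib.P200.D6Chain

/-!
The dimension bound for subspaces with a nonzerodivisor and small growth.
-/

namespace Vale.Agent.Lib.P200
open MvPolynomial Module

variable {K : Type*} [Field K]

namespace Th

variable {a b e : ℕ} {f g ξ : Poly K} (t : Th a b e f g ξ)
include t

/-- A subspace in the top degree of the pair with small excess of growth is large. -/
theorem top_large [IsAlgClosed K] (hτ : 2 ≤ tauZ a b e) {d : ℕ} (hd : d + 1 = e)
    (hW3 : W3At a b f g d) {top : ℕ} (htop : top + 3 = a + b) {Y : Submodule K (Poly K)}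
    (hF : FF ![f, g, ξ] top ≤ Y) (hY : Y ≤ HS K top)
    (hn : finrank K (FF ![f, g, ξ] top) < finrank K Y) {γ : ℤ} (hγ : GamS ![f, g, ξ] top Y ≤ γ)
    (hγ2 : γ + tauZ a b e ≤ 2) :
    (LL a b a d : ℤ) ≤ (finrank K Y : ℤ) - finrank K (FF ![f, g, ξ] top) + γ + max 3 (LL a b 2 d) := by
  obtain ⟨φ, hφ, _⟩ := t.fs.exists_trace t.hsum
  obtain ⟨h1, h2, h3, h4, h5⟩ := t.top_dual htop hτ hd hφ hF hY hn
  have hW := t.W_bound hτ hd hW3 h1 h2 h3 (by omega)
  have hW' : (finrank K (perpT φ (nxS ![f, g, ξ] top Y) d) : ℤ) ≤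
      finrank K (FP f g d) + (max 3 (LL a b 2 d) : ℕ) := by exact_mod_cast hW
  omega

/-- The main alternative for subspaces containing the third form with small growth. -/
theorem hb_path [IsAlgClosed K] (hτ : 2 ≤ tauZ a b e) {d : ℕ} (hd : d + 1 = e)
    (hW3 : W3At a b f g d) {U : Submodule K (Poly K)} (hF : FP f g e ≤ U) (hξ : ξ ∈ U)
    (hU : U ≤ HS K e) (hne : U ≠ HS K e)
    (hG : finrank K (gpl f g e U) + finrank K (FP f g e) ≤
      finrank K U + finrank K (FP f g (e + 1)) + 3)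
    (h2 : finrank K (FP f g e) + 2 ≤ finrank K U) :
    finrank K U ≤ finrank K (FP f g e) + 1 + max 2 (e + 2 - a) ∨
      LL a b a d + 2 * tauZ a b e + finrank K (FP f g e) + 1 ≤
        finrank K U + 3 + max 3 (LL a b 2 d) := by
  have ha4 := t.ha
  have hab := t.hab
  have he := t.he
  have hfU := finite_of_le_HS hU
  have hFF : FF ![f, g, ξ] e ≤ U := t.zp.FF_e_le t.hom t.nz t.he1 hF hξ
  have hdim0 := t.finrank_FF_e
  have hdim1 := t.finrank_FF_e1
  have hGam : GamS ![f, g, ξ] e U ≤ 1 := by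
    rw [t.Gam_e hξ]
    omega
  obtain ⟨δ, hδ, hδ0, x, hxU, hxF, hx⟩ := exists_zero_pair hFF hU (by omega) hGam
  -- the killed part
  have hVF : FF ![f, g, ξ] e ≤ Xkil ![f, g, ξ] e δ U := FF_le_Xkil hδ hFF
  have hVU : Xkil ![f, g, ξ] e δ U ≤ U := Xkil_le
  have hVH : Xkil ![f, g, ξ] e δ U ≤ HS K e := le_trans hVU hU
  have hfV := finite_of_le_HS hVH
  have hxV : x ∈ Xkil ![f, g, ξ] e δ U := ⟨hxU, hx⟩
  have hlt : FF ![f, g, ξ] e < Xkil ![f, g, ξ] e δ U := by
    refine lt_of_le_of_ne hVF fun e' => hxF ?_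
    rw [e']
    exact hxV
  have hVn := Submodule.finrank_lt_finrank_of_lt hlt
  have hVξ : ξ ∈ Xkil ![f, g, ξ] e δ U := hVF t.xi_mem_FF
  have hVne : Xkil ![f, g, ξ] e δ U ≠ HS K e := by
    intro e'
    apply hne
    apply le_antisymm hU
    rw [← e']
    exact hVU
  have hVP : FP f g e ≤ Xkil ![f, g, ξ] e δ U :=
    le_trans (ZP.FP_le_FF e) hVF
  have hZ := t.zp.growthZ (by omega) e _ hVP hVH ⟨ξ, hVξ, t.nz⟩ hVne (by omega) hτ
  have hGV : 1 ≤ GamS ![f, g, ξ] e (Xkil ![f, g, ξ] e δ U) := by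
    rw [t.Gam_e hVξ]
    omega
  have hsup := Gam_superadd (s := ![f, g, ξ]) hδ hU
  have hdim := finrank_Xkil_add (s := ![f, g, ξ]) (δ := δ) hU
  have hXm : Xmul ![f, g, ξ] e δ U ≤ HS K (e + 1) := Xmul_le_HS hδ hU
  have hfXm := finite_of_le_HS hXm
  have hFm : FF ![f, g, ξ] (e + 1) ≤ Xmul ![f, g, ξ] e δ U := FF_le_Xmul
  have hfF1 := finite_of_le_HS (FF_le_HS ![f, g, ξ] (e + 1))
  by_cases hcase : finrank K (FF ![f, g, ξ] (e + 1)) < finrank K (Xmul ![f, g, ξ] e δ U)
  · right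
    have hτ' := hτ
    unfold tauZ at hτ'
    obtain ⟨top, htop⟩ : ∃ top, top + 3 = a + b := ⟨a + b - 3, by omega⟩
    obtain ⟨Y, h1, h3, h4, h5, h6⟩ := t.pg_chain htop (tauZ a b e - 2) (e + 1) _ 0
      (by unfold tauZ; omega) hFm hXm hcase (by omega) le_rfl
    have hlarge := t.top_large hτ hd hW3 htop h1 h3 h4 h6 (by
      push_cast [Nat.cast_sub hτ]
      omega)
    have hτc : ((tauZ a b e - 2 : ℕ) : ℤ) = (tauZ a b e : ℤ) - 2 := by
      push_cast [Nat.cast_sub hτ]
      ring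
    rw [hτc] at hlarge
    have hlarge' : (LL a b a d : ℤ) + tauZ a b e + finrank K (FF ![f, g, ξ] top) ≤
        finrank K Y + 2 + (max 3 (LL a b 2 d) : ℕ) := by
      have : (0 : ℤ) - ((tauZ a b e : ℤ) - 2) = 2 - tauZ a b e := by ring
      omega
    have h5' : (finrank K Y : ℤ) + ((tauZ a b e : ℤ) - 2) + finrank K (FF ![f, g, ξ] (e + 1)) ≤
        finrank K (Xmul ![f, g, ξ] e δ U) + finrank K (FF ![f, g, ξ] top) := by
      rw [← hτc]
      exact_mod_cast h5
    have hdim' : (finrank K (Xmul ![f, g, ξ] e δ U) : ℤ) + finrank K (Xkil ![f, g, ξ] e δ U) =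
        finrank K U + finrank K (FF ![f, g, ξ] (e + 1)) := by exact_mod_cast hdim
    have hVn' : (finrank K (FF ![f, g, ξ] e) : ℤ) + 1 ≤ finrank K (Xkil ![f, g, ξ] e δ U) := by
      exact_mod_cast hVn
    have hdim0' : (finrank K (FF ![f, g, ξ] e) : ℤ) = finrank K (FP f g e) + 1 := by
      exact_mod_cast hdim0
    zify
    omega
  · left
    have hEq : Xmul ![f, g, ξ] e δ U = FF ![f, g, ξ] (e + 1) := by
      refine (Submodule.eq_of_le_of_finrank_le hFm (by omega)).symm
    refine t.rb2 (by omega) hF hξ hU hδ hδ0 fun u hu => ?_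
    rw [← hEq]
    exact Submodule.mem_sup_left ⟨u, hu, rfl⟩

/-- The dual alternative. -/
theorem dual_path [IsAlgClosed K] (hτ : 3 ≤ tauZ a b e) {d : ℕ} (hd : d + 1 = e)
    (hW3 : W3At a b f g d) {U : Submodule K (Poly K)} (hF : FP f g e ≤ U) (hξ : ξ ∈ U)
    (hU : U ≤ HS K e) (hne : U ≠ HS K e)
    (hG : finrank K (gpl f g e U) + finrank K (FP f g e) ≤
      finrank K U + finrank K (FP f g (e + 1)) + 3)
    (h2 : finrank K (FP f g e) + 2 ≤ finrank K U) :
    finrank K U + 1 ≤ finrank K (FP f g e) + tauZ a b e + max 3 (LL a b 2 d) := by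
  have ha4 := t.ha
  have hab := t.hab
  have he := t.he
  have hs := t.fs
  have hsum := t.hsum
  have hτ2 : 2 ≤ tauZ a b e := by omega
  have hτ' := hτ
  unfold tauZ at hτ'
  obtain ⟨top, htop⟩ : ∃ top, top + 3 = a + b := ⟨a + b - 3, by omega⟩
  obtain ⟨k, hk⟩ : ∃ k, k + 1 = top := ⟨top - 1, by omega⟩
  have hfU := finite_of_le_HS hU
  have hFF : FF ![f, g, ξ] e ≤ U := t.zp.FF_e_le t.hom t.nz t.he1 hF hξ
  have hdim0 := t.finrank_FF_e
  have hdim1 := t.finrank_FF_e1
  have hGam : GamS ![f, g, ξ] e U ≤ 1 := by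
    rw [t.Gam_e hξ]
    omega
  obtain ⟨φ, hφ, _⟩ := hs.exists_trace hsum
  have hN := nxS_le_HS (s := ![f, g, ξ]) (k := e) hU
  have hfN := finite_of_le_HS hN
  have hke1 : e + (k + 1) = a + b + e - 3 := by omega
  have hke2 : (e + 1) + k = a + b + e - 3 := by omega
  have hperp := Gam_perp hs hsum hφ hke1 hFF hU
  have c1 : cntT ![a, b, e] (k + 1) = cntT ![a, b, e] e := cnt_dualA hsum hke1
  have c2 : cntT ![a, b, e] k = cntT ![a, b, e] (e + 1) := cnt_dualA hsum hke2
  have c3 := t.cnt_next hτ2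
  have hXF := hs.FF_le_perpT hφ hke2 hN
  have hXH := perpT_le φ (nxS ![f, g, ξ] e U) k
  have hfX := finite_of_le_HS hXH
  have hdimX := hs.finrank_perpT hsum hφ hke2 hN FF_le_nxS
  have t1 := hs.finrank_FF_add_cnt k
  have t2 := hs.finrank_FF_add_cnt (e + 1)
  have hNg : finrank K (nxS ![f, g, ξ] e U) = finrank K (gpl f g e U) := by
    rw [t.nxS_eq_gpl hξ]
  -- the numbers of the pair
  have l1 := t.zp.LL_all (e + 1)
  have l2 := t.zp.LL_all e
  have l3 := t.zp.LL_all d
  have l4 := LL_step a b a e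
  have l5 := Dl_full (d := e) (a := a) (b := b) (by omega) hab
  have hgg : gg a b (e + 1) = tauZ a b e := by
    unfold gg
    unfold tauZ at hτ ⊢
    split_ifs <;> omega
  have l6 := LL_step a b a d
  have l7 := Dl_full (d := d) (a := a) (b := b) (by omega) hab
  have hgg2 : gg a b e = tauZ a b e + 1 := by
    unfold gg
    unfold tauZ at hτ ⊢
    split_ifs <;> omega
  rw [hd] at l6 l7
  -- the dual space is not the trivial one
  have hstrict : finrank K (FF ![f, g, ξ] k) < finrank K (perpT φ (nxS ![f, g, ξ] e U) k) := by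
    by_contra hcon
    apply hne
    refine Submodule.eq_of_le_of_finrank_le hU ?_
    rw [finrank_HS]
    omega
  have hG1 : GamS ![f, g, ξ] k (perpT φ (nxS ![f, g, ξ] e U) k) ≤ 3 - tauZ a b e := by
    rw [c1, c2] at hperp
    have : (cntT ![a, b, e] (e + 1) : ℤ) + 2 = cntT ![a, b, e] e + tauZ a b e := by
      exact_mod_cast c3
    omega
  obtain ⟨Y, y1, y2, y3, y4, y5⟩ := t.pg_chain htop 1 k _ (3 - tauZ a b e) hk hXF hXH hstrict hG1
    (by omega)
  have hlarge := t.top_large hτ2 hd hW3 htop y1 y2 y3 y5 (by push_cast; omega)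
  have hZ := t.zp.growthZ (by omega) e U hF hU ⟨ξ, hξ, t.nz⟩ hne h2 hτ2
  zify at *
  push_cast at *
  omega

end Th

namespace ZP

variable {a b : ℕ} {f g : Poly K} (h : ZP a b f g)
include h

omit h in
theorem LL_mono_d {p d d' : ℕ} (a b : ℕ) (hd : d ≤ d') : LL a b p d ≤ LL a b p d' := by
  induction d', hd using Nat.le_induction with
  | base => exact le_rfl
  | succ n _ ih =>
    rw [LL_step]
    omega

omit h in
theorem LL_four_ge (a b d : ℕ) : 2 * LL a b 2 d ≤ LL a b 4 d := by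
  have e1 : LL a b 2 d = ell a b 1 d + ell a b 2 d := by
    rw [LL_succ a b 1 d, LL_succ a b 0 d, LL_zero, zero_add]
  have e2 : LL a b 4 d = LL a b 2 d + ell a b 3 d + ell a b 4 d := by
    rw [LL_succ a b 3 d, LL_succ a b 2 d]
  rw [e2, e1]
  unfold ell
  omega

/-- The dimension bound for subspaces with a nonzerodivisor and small growth. -/
theorem W3_all [IsAlgClosed K] (ha4 : 4 ≤ a) : ∀ d, 3 ≤ tauZ a b d → W3At a b f g d := by
  have hab := h.hab
  intro e
  induction e with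
  | zero =>
    intro _ U hF hU hne hx hG
    obtain ⟨ξ, hξ, hn⟩ := hx
    refine h.W3_low ha4 (by omega) hF hU hξ hn hG
  | succ e ih =>
    intro hτ U hF hU hne hx hG
    obtain ⟨ξ, hξ, hn⟩ := hx
    by_cases he : e + 1 + 1 < b
    · exact h.W3_low ha4 he hF hU hξ hn hG
    have t : Th a b (e + 1) f g ξ := ⟨h, ha4, by omega, hU hξ, hn⟩
    have hW3 : W3At a b f g e := ih (by unfold tauZ at hτ ⊢; omega)
    have h3 : 3 ≤ max 3 (LL a b 2 (e + 1)) := le_max_left _ _
    have hL : LL a b 2 (e + 1) ≤ max 3 (LL a b 2 (e + 1)) := le_max_right _ _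
    by_cases h2 : finrank K (FP f g (e + 1)) + 2 ≤ finrank K U
    swap
    · omega
    have hLL : LL a b 2 (e + 1) = min (e + 1 + 1 + 1 - a) b + min (e + 1 + 2 + 1 - a) b := by
      rw [show (2 : ℕ) = 0 + 1 + 1 from rfl, LL_succ, LL_succ, LL_zero]
      simp [ell]
    rcases t.hb_path (by omega) rfl hW3 hF hξ hU hne hG h2 with hl | hl
    · have hm : max 2 (e + 1 + 2 - a) ≤ 2 ∨ max 2 (e + 1 + 2 - a) = e + 1 + 2 - a := by
        rcases le_total 2 (e + 1 + 2 - a) with h5 | h5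
        · right
          exact max_eq_right h5
        · left
          rw [max_eq_left h5]
      unfold tauZ at hτ
      omega
    · exfalso
      have hd := t.dual_path hτ rfl hW3 hF hξ hU hne hG h2
      -- numerics
      have hfour := LL_four_ge a b e
      have hmono := LL_mono_p a b ha4 e
      have hsix : 6 ≤ LL a b a e := by
        have e1 : LL a b a 2 ≤ LL a b a e := LL_mono_d a b (by omega)
        have e2 := h.LL_all 2
        rw [h.FP_low (by omega), finrank_bot, show T 2 = 6 by decide] at e2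
        omega
      rcases le_total 3 (LL a b 2 e) with h5 | h5
      · rw [max_eq_right h5] at hl hd
        omega
      · rw [max_eq_left h5] at hl hd
        omega

end ZP

end Vale.Agent.Lib.P200
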