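import Vale.Agent.Lib.P200.D7W3

/-!
The growth statements for three forms of degrees `a, b, a + b - 4`, in normalised coordinates.
-/

namespace Vale.Agent.Lib.P200
open MvPolynomial Module

variable {K : Type*} [Field K]

theorem LL_add_two (a b p d : ℕ) : LL a b (p + 2) d = LL a b 2 d + LL a b p (d + 2) := by
  induction p with
  | zero => simp
  | succ p ih =>
    rw [show p + 1 + 2 = (p + 2) + 1 by ring, LL_succ, ih, LL_succ a b p (d + 2)]
    unfold ell
    rw [show d + (p + 2 + 1) + 1 - a = d + 2 + (p + 1) + 1 - a by omega]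
    omega

namespace ZP

variable {a b c : ℕ} {f g t : Poly K} (h : ZP a b f g)
include h

/-- The growth into the degree of the third form. -/
theorem top4 [IsAlgClosed K] (ha4 : 4 ≤ a) (hc : c + 4 = a + b) (ht : t.IsHomogeneous c)
    (hn : NZ f g t) {d : ℕ} (hd : d + 1 = c) {X Y : Submodule K (Poly K)} (h1 : FP f g d ≤ X)
    (h2 : X ≤ HS K d) (h3 : HS K 1 * X ≤ Y) (h4 : FF ![f, g, t] c ≤ Y) (h5 : Y ≤ HS K c)
    (hne : finrank K X < T d) {p : ℕ} (hp : p < a) (hr : LL a b p d + finrank K (FP f g d) < finrank K X) :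
    finrank K (FF ![f, g, t] c) + (finrank K X - finrank K (FP f g d)) + min (p + 1) 3 ≤
      finrank K Y := by
  have hab := h.hab
  have hc1 : 1 ≤ c := by omega
  have hfX := finite_of_le_HS h2
  have hfY := finite_of_le_HS h5
  have hfF := finite_of_le_HS (FP_le_HS f g d)
  have hfF1 := finite_of_le_HS (FP_le_HS f g c)
  have hle : gpl f g d X ≤ Y := by
    refine sup_le h3 ?_
    rw [hd]
    exact le_trans (FP_le_FF c) h4
  have hgH : gpl f g d X ≤ HS K (d + 1) := gpl_le_HS h2
  have hfG := finite_of_le_HS hgH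
  have hlee := Submodule.finrank_mono hle
  have eF := h.finrank_FF_top hc1 ht hn
  have hF1 : FP f g (d + 1) = FP f g c := by rw [hd]
  have hgrow := h.growthC (by omega) d X p h1 h2 hp hr
  rw [hF1] at hgrow
  have hτ : tauZ a b d = 3 := by
    unfold tauZ
    omega
  rw [hτ, show a - 2 - d = 0 by omega] at hgrow
  have hXne : X ≠ HS K d := by
    intro he
    rw [he, finrank_HS] at hne
    omega
  have hF2 := Submodule.finrank_mono h1
  by_cases htm : t ∈ gpl f g d X
  · obtain ⟨ξ, hξ, hξn⟩ := h.exists_nz_of_mem_gpl hn htm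
    by_cases hn2 : finrank K (FP f g d) + 2 ≤ finrank K X
    · have hZ := h.growthZ (by omega) d X h1 h2 ⟨ξ, hξ, hξn⟩ hXne hn2 (by omega)
      rw [hF1] at hZ
      by_cases hp2 : 2 ≤ p
      · have hW := h.W3_all ha4 d (by omega) X h1 h2 hXne ⟨ξ, hξ, hξn⟩
        rw [hF1] at hW
        have hL2 : LL a b 2 d ≤ LL a b p d := LL_mono_p a b hp2 d
        have hLL : LL a b 2 d = min (d + 1 + 1 - a) b + min (d + 2 + 1 - a) b := by
          rw [show (2 : ℕ) = 0 + 1 + 1 from rfl, LL_succ, LL_succ, LL_zero]
          simp [ell]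
        have hmax : max 3 (LL a b 2 d) = LL a b 2 d := max_eq_right (by omega)
        rw [hmax] at hW
        by_contra hcon
        have := hW (by
          have : min (p + 1) 3 = 3 := by omega
          omega)
        omega
      · have : min (p + 1) 3 ≤ 2 := by omega
        omega
    · have hn1 : finrank K X = finrank K (FP f g d) + 1 := by omega
      have hp0 : p = 0 := by
        by_contra hp0
        have h6 : LL a b 1 d ≤ LL a b p d := LL_mono_p a b (by omega) d
        have h7 : LL a b 1 d = ell a b 1 d := by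
          rw [show (1 : ℕ) = 0 + 1 from rfl, LL_succ, LL_zero, zero_add]
        have h8 : 1 ≤ ell a b 1 d := by
          unfold ell
          omega
        omega
      subst hp0
      have hξH : ξ.IsHomogeneous d := h2 hξ
      have hrange := finrank_range_sup (E := HS K 1)
        (((LinearMap.mulRight K ξ)).comp (HS K 1).subtype) (FP f g c)
      have hcomap : (FP f g c).comap (((LinearMap.mulRight K ξ)).comp (HS K 1).subtype) = ⊥ := by
        rw [eq_bot_iff]
        rintro ⟨l, hl⟩ hx
        have hm : l * ξ ∈ FPi f g := (mem_pieceT.1 hx).1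
        have h9 := hξn l hm
        have h10 : l = 0 := h.FP_mem_eq_zero (d := 1) (by omega) h9 hl
        subst h10
        rfl
      rw [hcomap, finrank_bot, finrank_HS, show T 1 = 3 by decide] at hrange
      have hsub : LinearMap.range (((LinearMap.mulRight K ξ)).comp (HS K 1).subtype) ⊔ FP f g c ≤
          gpl f g d X := by
        refine sup_le ?_ ?_
        · rintro _ ⟨⟨l, hl⟩, rfl⟩
          exact mul_le_gpl (Submodule.mul_mem_mul hl hξ)
        · rw [← hF1]
          exact FP_le_gpl
      have := Submodule.finrank_mono hsub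
      simp at hrange this ⊢
      omega
  · have hsub : gpl f g d X ⊔ Submodule.span K {t} ≤ Y := by
      refine sup_le hle ((Submodule.span_singleton_le_iff_mem _ _).2 (h4 ?_))
      exact mem_FF.2 ⟨Ideal.subset_span ⟨2, rfl⟩, ht⟩
    have hgt : gpl f g d X < gpl f g d X ⊔ Submodule.span K {t} := by
      refine lt_of_le_of_ne le_sup_left ?_
      intro he
      apply htm
      rw [he]
      exact Submodule.mem_sup_right (Submodule.mem_span_singleton_self _)
    have hfS : Module.Finite K (gpl f g d X ⊔ Submodule.span K {t} : Submodule K (Poly K)) :=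
      Submodule.finiteDimensional_of_le hsub
    have h6 := Submodule.finrank_lt_finrank_of_lt hgt
    have h7 := Submodule.finrank_mono hsub
    have : min (p + 1) 3 ≤ min (p + 1) 3 := le_rfl
    omega

/-- The growth out of the degree of the third form. -/
theorem mid4 [IsAlgClosed K] (ha4 : 4 ≤ a) (hc : c + 4 = a + b) (ht : t.IsHomogeneous c)
    (hn : NZ f g t) {X Y : Submodule K (Poly K)} (h1 : FF ![f, g, t] c ≤ X)
    (h2 : X ≤ HS K c) (h3 : HS K 1 * X ≤ Y) (h4 : FF ![f, g, t] (c + 1) ≤ Y) (h5 : Y ≤ HS K (c + 1))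
    (hne : finrank K X < T c) (hpos : finrank K (FF ![f, g, t] c) < finrank K X) :
    finrank K (FF ![f, g, t] (c + 1)) + (finrank K X - finrank K (FF ![f, g, t] c)) + 1 ≤
        finrank K Y ∧
      (b - 2 < finrank K X - finrank K (FF ![f, g, t] c) →
        finrank K X - finrank K (FF ![f, g, t] c) ≤ LL a b (a - 2) (c + 1) →
        finrank K (FF ![f, g, t] (c + 1)) + (finrank K X - finrank K (FF ![f, g, t] c)) + 2 ≤
          finrank K Y) := by
  have hab := h.hab
  have th : Th a b c f g t := ⟨h, ha4, by omega, ht, hn⟩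
  have hfX := finite_of_le_HS h2
  have hfY := finite_of_le_HS h5
  have hξ : t ∈ X := h1 th.xi_mem_FF
  have hF : FP f g c ≤ X := le_trans (FP_le_FF c) h1
  have hd0 := th.finrank_FF_e
  have hd1 := th.finrank_FF_e1
  have hle : gpl f g c X ≤ Y := sup_le h3 (le_trans (FP_le_FF (c + 1)) h4)
  have hgH := gpl_le_HS (f := f) (g := g) h2
  have hfG := finite_of_le_HS hgH
  have hlee := Submodule.finrank_mono hle
  have hXne : X ≠ HS K c := by
    intro he
    rw [he, finrank_HS] at hne
    omega
  have hτ : tauZ a b c = 2 := by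
    unfold tauZ
    omega
  have hZ := h.growthZ (by omega) c X hF h2 ⟨t, hξ, hn⟩ hXne (by omega) (by omega)
  refine ⟨by omega, fun hl1 hl2 => ?_⟩
  by_contra hcon
  obtain ⟨d, hd⟩ : ∃ d, d + 1 = c := ⟨c - 1, by omega⟩
  have hτd : 3 ≤ tauZ a b d := by
    unfold tauZ
    omega
  have hW3 := h.W3_all ha4 d hτd
  have hLL : LL a b 2 d = min (d + 1 + 1 - a) b + min (d + 2 + 1 - a) b := by
    rw [show (2 : ℕ) = 0 + 1 + 1 from rfl, LL_succ, LL_succ, LL_zero]
    simp [ell]
  have hmax : max 3 (LL a b 2 d) = LL a b 2 d := max_eq_right (by omega)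
  have hmax2 : max 2 (c + 2 - a) = c + 2 - a := max_eq_right (by omega)
  have hLadd := LL_add_two a b (a - 2) d
  rw [show a - 2 + 2 = a by omega, show d + 2 = c + 1 by omega] at hLadd
  rcases th.hb_path (by omega) hd hW3 hF hξ h2 hXne (by omega) (by omega) with hl | hl
  · rw [hmax2] at hl
    omega
  · rw [hmax, hτ] at hl
    omega

end ZP

end Vale.Agent.Lib.P200
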