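import Vale.Agent.Lib.P200.D8Step

/-!
Statements about dimensions pass from normalised coordinates over algebraically closed fields to
all regular sequences over all fields.
-/

universe u

namespace Vale.Agent.Lib.P200
open MvPolynomial Module

/-- From normalised coordinates to general ones. -/
theorem transfer_coord {a b c d : ℕ} (Q : ℕ → ℕ → ℕ → ℕ → Prop) (ha : 1 ≤ a) (hab : a ≤ b)
    (hc1 : 1 ≤ c) {L : Type u} [Field L] [Infinite L]
    (main : ∀ {f g t : Poly L}, ZP a b f g → t.IsHomogeneous c → NZ f g t →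
      ∀ X Y : Submodule L (Poly L), FF ![f, g, t] d ≤ X → X ≤ HS L d → HS L 1 * X ≤ Y →
      FF ![f, g, t] (d + 1) ≤ Y → Y ≤ HS L (d + 1) →
      Q (finrank L (FF ![f, g, t] d)) (finrank L (FF ![f, g, t] (d + 1))) (finrank L X) (finrank L Y))
    {s : Fin 3 → Poly L} (hs : FormSeq ![a, b, c] s) {X Y : Submodule L (Poly L)}
    (h1 : FF s d ≤ X) (h2 : X ≤ HS L d) (h3 : HS L 1 * X ≤ Y)
    (h4 : FF s (d + 1) ≤ Y) (h5 : Y ≤ HS L (d + 1)) :
    Q (finrank L (FF s d)) (finrank L (FF s (d + 1))) (finrank L X) (finrank L Y) := by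
  have hn : NZ (s 0) (s 1) (s 2) := by
    intro q hq
    obtain ⟨α, β, e⟩ := mem_FPi.1 hq
    obtain ⟨r, t, e'⟩ := hs.reg.h2 q α β e
    exact mem_FPi.2 ⟨r, t, e'⟩
  obtain ⟨l, hl1, hl2, hl3⟩ := exists_nz_linear hc1 (hs.hom 2) hn
  obtain ⟨σ, hσ, hσl⟩ := exists_coord_linear hl1 hl3
  have hregl : RegTriple (s 0) (s 1) l :=
    { ne := hs.reg.ne
      h1 := hs.reg.h1
      h2 := by
        intro q α β e
        have := hl2 q (by rw [e]; exact mem_FPi.2 ⟨α, β, rfl⟩)
        obtain ⟨r, t, e'⟩ := mem_FPi.1 this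
        exact ⟨r, t, e'⟩ }
  have hZ : ZP a b (σ (s 0)) (σ (s 1)) :=
    { ha := ha
      hab := hab
      homf := hσ.fwd _ _ (hs.hom 0)
      homg := hσ.fwd _ _ (hs.hom 1)
      reg := by
        have := RegTriple_map hregl σ
        rwa [hσl] at this }
  have hn' : NZ (σ (s 0)) (σ (s 1)) (σ (s 2)) := by
    intro q hq
    obtain ⟨α, β, e⟩ := mem_FPi.1 hq
    obtain ⟨r, t, e'⟩ := (RegTriple_map hs.reg σ).h2 q α β e
    exact mem_FPi.2 ⟨r, t, e'⟩
  have hFF : ∀ D, FF ![σ (s 0), σ (s 1), σ (s 2)] D = mapC σ (FF s D) := by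
    intro D
    rw [← hσ.FF_eq hs]
    congr 1
    funext i
    fin_cases i <;> rfl
  have := main hZ (hσ.fwd _ _ (hs.hom 2)) hn' (mapC σ X) (mapC σ Y)
    (by rw [hFF]; exact mapC_le h1)
    (by rw [← hσ.mapC_HS d]; exact mapC_le h2)
    (by rw [← hσ.mapC_HS 1, ← hσ.mapC_mul]; exact mapC_le h3)
    (by rw [hFF]; exact mapC_le h4)
    (by rw [← hσ.mapC_HS (d + 1)]; exact mapC_le h5)
  rwa [hFF, hFF, finrank_mapC, finrank_mapC, finrank_mapC, finrank_mapC] at this

/-- From algebraically closed fields to all fields. -/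
theorem transfer_any {a b c d : ℕ} (Q : ℕ → ℕ → ℕ → ℕ → Prop) (ha : 1 ≤ a) (hab : a ≤ b)
    (hc1 : 1 ≤ c)
    (main : ∀ {L : Type u} [Field L] [IsAlgClosed L] {f g t : Poly L}, ZP a b f g →
      t.IsHomogeneous c → NZ f g t →
      ∀ X Y : Submodule L (Poly L), FF ![f, g, t] d ≤ X → X ≤ HS L d → HS L 1 * X ≤ Y →
      FF ![f, g, t] (d + 1) ≤ Y → Y ≤ HS L (d + 1) →
      Q (finrank L (FF ![f, g, t] d)) (finrank L (FF ![f, g, t] (d + 1))) (finrank L X) (finrank L Y))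
    {K : Type u} [Field K] {s : Fin 3 → Poly K} (hs : FormSeq ![a, b, c] s)
    {X Y : Submodule K (Poly K)}
    (h1 : FF s d ≤ X) (h2 : X ≤ HS K d) (h3 : HS K 1 * X ≤ Y)
    (h4 : FF s (d + 1) ≤ Y) (h5 : Y ≤ HS K (d + 1)) :
    Q (finrank K (FF s d)) (finrank K (FF s (d + 1))) (finrank K X) (finrank K Y) := by
  let L := AlgebraicClosure K
  have hfinX := finite_of_le_HS h2
  have hfinY := finite_of_le_HS h5
  have hfinF := finite_of_le_HS (FF_le_HS s d)
  have hfinF' := finite_of_le_HS (FF_le_HS s (d + 1))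
  have := transfer_coord (L := L) Q ha hab hc1 (fun {f g t} hZ ht hn X Y a1 a2 a3 a4 a5 =>
      main hZ ht hn X Y a1 a2 a3 a4 a5) (s := fun i => iotaP (K := K) L (s i))
    (X := extS L X) (Y := extS L Y) (formSeq_iota hs)
    (by rw [extS_FF hs]; exact extS_mono h1)
    (by rw [← extS_HS (K := K)]; exact extS_mono h2)
    (by rw [← extS_HS (K := K)]; exact le_trans (extS_mul_le _ _) (extS_mono h3))
    (by rw [extS_FF hs]; exact extS_mono h4)
    (by rw [← extS_HS (K := K)]; exact extS_mono h5)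
  rwa [extS_FF hs, extS_FF hs, finrank_extS, finrank_extS, finrank_extS, finrank_extS] at this

end Vale.Agent.Lib.P200
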