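import Vale.Agent.Lib.P200.D9Trans

/-!
The lexicographic ranks in degrees somewhat above `c`, and the duality for the lexicographic step.
-/

namespace Vale.Agent.Lib.P200
open MvPolynomial Module

variable {K : Type*} [Field K]

section count

variable {a b c : ℕ}

/-- The first `p` rows, as long as they are not cut by the third power. -/
theorem ncard_topRows' (hc1 : 1 ≤ c) {d : ℕ} : ∀ p, p < a → d + p < c + a →
    ({n : Fin 3 →₀ ℕ | n.degree = d ∧ OutsideT ![a, b, c] n ∧ a ≤ n 0 + p}).ncard = LL a b p d := by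
  intro p
  induction p with
  | zero =>
    intro _ _
    have : {n : Fin 3 →₀ ℕ | n.degree = d ∧ OutsideT ![a, b, c] n ∧ a ≤ n 0 + 0} = ∅ := by
      ext n
      simp only [Set.mem_ofPred_eq, Set.mem_empty_iff_false, iff_false]
      rintro ⟨_, h2, h3⟩
      have := (outside_abc.1 h2).1
      omega
    rw [this]
    simp
  | succ p ih =>
    intro hp hd
    have hS : {n : Fin 3 →₀ ℕ | n.degree = d ∧ OutsideT ![a, b, c] n ∧ a ≤ n 0 + (p + 1)} =
        {n : Fin 3 →₀ ℕ | n.degree = d ∧ OutsideT ![a, b, c] n ∧ a ≤ n 0 + p} ∪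
        {n : Fin 3 →₀ ℕ | n.degree = d ∧ OutsideT ![a, b, c] n ∧ n 0 = a - 1 - p ∧ 0 ≤ n 1} := by
      ext n
      simp only [Set.mem_ofPred_eq, Set.mem_union]
      constructor
      · rintro ⟨h1, h2, h3⟩
        have := (outside_abc.1 h2).1
        by_cases h4 : a ≤ n 0 + p
        · exact Or.inl ⟨h1, h2, h4⟩
        · exact Or.inr ⟨h1, h2, by omega, Nat.zero_le _⟩
      · rintro (⟨h1, h2, h3⟩ | ⟨h1, h2, h3, _⟩)
        · exact ⟨h1, h2, by omega⟩
        · exact ⟨h1, h2, by omega⟩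
    have hdisj : Disjoint {n : Fin 3 →₀ ℕ | n.degree = d ∧ OutsideT ![a, b, c] n ∧ a ≤ n 0 + p}
        {n : Fin 3 →₀ ℕ | n.degree = d ∧ OutsideT ![a, b, c] n ∧ n 0 = a - 1 - p ∧ 0 ≤ n 1} := by
      rw [Set.disjoint_left]
      rintro n ⟨_, _, h3⟩ ⟨_, _, h4, _⟩
      omega
    have hfin := finite_degree_set d
    rw [hS, Set.ncard_union_eq hdisj (hfin.subset fun n hn => hn.1) (hfin.subset fun n hn => hn.1),
      ih (by omega) (by omega), ncard_rowS (by omega) (by omega), LL_succ]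
    unfold ell
    congr 1
    omega

/-- The rank formula above the degree `c`, for the rows above the last ones. -/
theorem lexRank_ext (hc1 : 1 ≤ c) {m : Fin 3 →₀ ℕ} (hd : m.degree ≤ c + m 0) (hmo : OutsideT ![a, b, c] m) :
    lexRankT ![a, b, c] m = LL a b (a - 1 - m 0) m.degree + (min b (m.degree + 1 - m 0) - (m 1 + 1)) := by
  obtain ⟨h0, h1, h2⟩ := outside_abc.1 hmo
  have hdeg := degree_sum m
  set d := m.degree with hdd
  have hS : {n : Fin 3 →₀ ℕ | n.degree = d ∧ OutsideT ![a, b, c] n ∧ toLex m < toLex n} =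
      {n : Fin 3 →₀ ℕ | n.degree = d ∧ OutsideT ![a, b, c] n ∧ a ≤ n 0 + (a - 1 - m 0)} ∪
      {n : Fin 3 →₀ ℕ | n.degree = d ∧ OutsideT ![a, b, c] n ∧ n 0 = m 0 ∧ m 1 + 1 ≤ n 1} := by
    ext n
    simp only [Set.mem_ofPred_eq, Set.mem_union, toLex_lt_iff3]
    constructor
    · rintro ⟨e1, e2, e3⟩
      rcases e3 with e3 | ⟨e3, e4⟩ | ⟨e3, e4, e5⟩
      · exact Or.inl ⟨e1, e2, by omega⟩
      · exact Or.inr ⟨e1, e2, e3.symm, by omega⟩
      · rw [degree_sum] at e1
        omega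
    · rintro (⟨e1, e2, e3⟩ | ⟨e1, e2, e3, e4⟩)
      · exact ⟨e1, e2, Or.inl (by omega)⟩
      · exact ⟨e1, e2, Or.inr (Or.inl ⟨e3.symm, by omega⟩)⟩
  have hdisj : Disjoint
      {n : Fin 3 →₀ ℕ | n.degree = d ∧ OutsideT ![a, b, c] n ∧ a ≤ n 0 + (a - 1 - m 0)}
      {n : Fin 3 →₀ ℕ | n.degree = d ∧ OutsideT ![a, b, c] n ∧ n 0 = m 0 ∧ m 1 + 1 ≤ n 1} := by
    rw [Set.disjoint_left]
    rintro n ⟨_, _, h3⟩ ⟨_, _, h4, _⟩
    omega
  have hfin := finite_degree_set d
  unfold lexRankT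
  rw [← hdd, hS, Set.ncard_union_eq hdisj (hfin.subset fun n hn => hn.1)
    (hfin.subset fun n hn => hn.1), ncard_topRows' hc1 _ (by omega) (by omega),
    ncard_rowS h0 (by omega)]

end count

/-- The lexicographic step follows from the dual step. -/
theorem lexStep_via_dual {A : Fin 3 → ℕ} {s : Fin 3 → Poly K} (h : FormSeq A s) {S : ℕ}
    (hS : A 0 + A 1 + A 2 = S + 3) {d e : ℕ} (hde : d + 1 + e = S) {m : Fin 3 →₀ ℕ} {l : Fin 3}
    (hm : m.degree = d) (hmo : OutsideT A m) (hmo' : OutsideT A (m + Finsupp.single l 1))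
    (hdual : ∀ X' Y' : Submodule K (Poly K), FF s e ≤ X' → X' ≤ HS K e → HS K 1 * X' ≤ Y' →
      FF s (e + 1) ≤ Y' → Y' ≤ HS K (e + 1) →
      lexRankT A (compA A (m + Finsupp.single l 1)) < finrank K X' - finrank K (FF s e) →
      lexRankT A (compA A m) < finrank K Y' - finrank K (FF s (e + 1)))
    {X Y : Submodule K (Poly K)} (h1 : FF s d ≤ X) (h2 : X ≤ HS K d)
    (h3 : HS K 1 * X ≤ Y) (h4 : FF s (d + 1) ≤ Y) (h5 : Y ≤ HS K (d + 1))
    (hr : lexRankT A m < finrank K X - finrank K (FF s d)) :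
    lexRankT A (m + Finsupp.single l 1) < finrank K Y - finrank K (FF s (d + 1)) := by
  have hfinX := finite_of_le_HS h2
  have hfinY := finite_of_le_HS h5
  have hd1 := degree_add_single m l
  rw [hm] at hd1
  obtain ⟨φ, hφ, _⟩ := h.exists_trace hS
  have hdeY : (d + 1) + e = S := hde
  have hdeX : d + (e + 1) = S := by omega
  set X' := perpT φ Y e with hX'
  set Y' := perpT φ X (e + 1) with hY'
  have a1 : FF s e ≤ X' := h.FF_le_perpT hφ hdeY h5
  have a2 : X' ≤ HS K e := perpT_le _ _ _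
  have a34 := h.growth_perpT hφ hdeX h2
  have hYle : HS K 1 * X ⊔ FF s (d + 1) ≤ Y := sup_le h3 h4
  have a5 : Y' ≤ HS K (e + 1) := perpT_le _ _ _
  have a3 : HS K 1 * X' ≤ Y' := le_trans (mul_le_mul' le_rfl (perpT_anti hYle e)) (le_trans le_sup_left a34)
  have a4 : FF s (e + 1) ≤ Y' := le_trans le_sup_right a34
  have dimX' : finrank K X' + finrank K Y = T e + finrank K (FF s (d + 1)) :=
    h.finrank_perpT hS hφ hdeY h5 h4
  have dimY' : finrank K Y' + finrank K X = T (e + 1) + finrank K (FF s d) :=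
    h.finrank_perpT hS hφ hdeX h2 h1
  have cntE := h.finrank_FF_add_cnt e
  have cntE1 := h.finrank_FF_add_cnt (e + 1)
  have cntD := h.finrank_FF_add_cnt d
  have cntD1 := h.finrank_FF_add_cnt (d + 1)
  have c1 : cntT A e = cntT A (d + 1) := cnt_dualA hS hdeY
  have c2 : cntT A (e + 1) = cntT A d := cnt_dualA hS hdeX
  have hrd1 := rank_dualA hS hmo'
  rw [hd1] at hrd1
  have hrd2 := rank_dualA hS hmo
  rw [hm] at hrd2
  by_contra hcon
  have hstep := hdual X' Y' a1 a2 a3 a4 a5 (by omega)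
  omega

end Vale.Agent.Lib.P200
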