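import Vale.Agent.Lib.P200.DARank

/-!
The lexicographic step for degrees `a, b, a + b - 4`.
-/

universe u

namespace Vale.Agent.Lib.P200
open MvPolynomial Module

variable {K : Type u} [Field K] {a b c : ℕ}

theorem sum_abd {a b c : ℕ} (hc : c + 4 = a + b) :
    (![a, b, c] : Fin 3 → ℕ) 0 + (![a, b, c] : Fin 3 → ℕ) 1 + (![a, b, c] : Fin 3 → ℕ) 2 =
      (2 * c + 1) + 3 := by
  show a + b + c = _
  omega

/-- The growth into the degree of the third form, over every field. -/
theorem growth_top_any (ha4 : 4 ≤ a) (hab : a ≤ b) (hc : c + 4 = a + b) {s : Fin 3 → Poly K}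
    (hs : FormSeq ![a, b, c] s) {d : ℕ} (hd : d + 1 = c) {X Y : Submodule K (Poly K)}
    (h1 : FF s d ≤ X) (h2 : X ≤ HS K d) (h3 : HS K 1 * X ≤ Y) (h4 : FF s (d + 1) ≤ Y)
    (h5 : Y ≤ HS K (d + 1)) (hne : finrank K X < T d) {p : ℕ} (hp : p < a)
    (hr : LL a b p d + finrank K (FF s d) < finrank K X) :
    finrank K (FF s (d + 1)) + (finrank K X - finrank K (FF s d)) + min (p + 1) 3 ≤ finrank K Y := by
  refine transfer_any (a := a) (b := b) (c := c) (d := d)
    (fun n0 n1 x y => x < T d → ∀ p, p < a → LL a b p d + n0 < x → n1 + (x - n0) + min (p + 1) 3 ≤ y)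
    (by omega) hab (by omega) ?_ hs h1 h2 h3 h4 h5 hne p hp hr
  intro L _ _ f g t hZ ht hn X Y a1 a2 a3 a4 a5 hne p hp hr
  subst hd
  have hF := hZ.FF_low (by omega) ht hn (show d < d + 1 by omega)
  rw [hF] at a1 hr ⊢
  exact hZ.top4 ha4 hc ht hn rfl a1 a2 a3 a4 a5 hne hp hr

/-- The growth out of the degree of the third form, over every field. -/
theorem growth_mid_any (ha4 : 4 ≤ a) (hab : a ≤ b) (hc : c + 4 = a + b) {s : Fin 3 → Poly K}
    (hs : FormSeq ![a, b, c] s) {X Y : Submodule K (Poly K)}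
    (h1 : FF s c ≤ X) (h2 : X ≤ HS K c) (h3 : HS K 1 * X ≤ Y) (h4 : FF s (c + 1) ≤ Y)
    (h5 : Y ≤ HS K (c + 1)) (hne : finrank K X < T c) (hpos : finrank K (FF s c) < finrank K X) :
    finrank K (FF s (c + 1)) + (finrank K X - finrank K (FF s c)) + 1 ≤ finrank K Y ∧
      (b - 2 < finrank K X - finrank K (FF s c) →
        finrank K X - finrank K (FF s c) ≤ LL a b (a - 2) (c + 1) →
        finrank K (FF s (c + 1)) + (finrank K X - finrank K (FF s c)) + 2 ≤ finrank K Y) := by
  refine transfer_any (a := a) (b := b) (c := c) (d := c)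
    (fun n0 n1 x y => x < T c → n0 < x → n1 + (x - n0) + 1 ≤ y ∧
      (b - 2 < x - n0 → x - n0 ≤ LL a b (a - 2) (c + 1) → n1 + (x - n0) + 2 ≤ y))
    (by omega) hab (by omega) ?_ hs h1 h2 h3 h4 h5 hne hpos
  intro L _ _ f g t hZ ht hn X Y a1 a2 a3 a4 a5 hne hpos
  exact hZ.mid4 ha4 hc ht hn a1 a2 a3 a4 a5 hne hpos

/-- The lexicographic step into the degree of the third form. -/
theorem lexStep_top {s : Fin 3 → Poly K} (hs : FormSeq ![a, b, c] s) (ha4 : 4 ≤ a) (hab : a ≤ b)
    (hc : c + 4 = a + b) {d : ℕ} (hd : d + 1 = c) : LexStepAt ![a, b, c] s d := by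
  intro X Y h1 h2 h3 h4 h5 m hm hmo hr l hmo'
  have hfX := finite_of_le_HS h2
  have hfY := finite_of_le_HS h5
  have hfF := finite_of_le_HS (FF_le_HS s d)
  have hfF1 := finite_of_le_HS (FF_le_HS s (d + 1))
  have hX := Submodule.finrank_mono h2
  rw [finrank_HS] at hX
  have hFY := Submodule.finrank_mono h4
  have hFX := Submodule.finrank_mono h1
  by_cases hne : finrank K X < T d
  · have hrk := lexRank_abc (a := a) (b := b) (c := c) (m := m) (by omega) hmo
    rw [hm] at hrk
    have hg := growth_top_any ha4 hab hc hs hd h1 h2 h3 h4 h5 hne (p := a - 1 - m 0)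
      (by
        have := (outside_abc.1 hmo).1
        omega)
      (by omega)
    have hn := numeric_pair (by omega) hab (by omega) hmo hmo'
    rw [hm] at hn
    have e1 : tauZ a b d = 3 := by
      unfold tauZ
      omega
    rw [e1, show a - 2 - d = 0 by omega] at hn
    omega
  · have hXe : X = HS K d := by
      have := finite_of_le_HS (le_refl (HS K d))
      refine Submodule.eq_of_le_of_finrank_le h2 ?_
      rw [finrank_HS]
      omega
    have hYe : Y = HS K (d + 1) := by
      refine le_antisymm h5 ?_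
      rw [hXe, HS_mul, add_comm] at h3
      exact h3
    have hrd := rank_dualA (sum_abd hc) hmo'
    rw [degree_add_single, hm] at hrd
    have hcnt := hs.finrank_FF_add_cnt (d + 1)
    rw [hYe, finrank_HS]
    omega

/-- The step in all degrees below the degree of the third form. -/
theorem lexStep_lowD {s : Fin 3 → Poly K} (hs : FormSeq ![a, b, c] s) (ha4 : 4 ≤ a) (hab : a ≤ b)
    (hc : c + 4 = a + b) {d : ℕ} (hd : d + 1 ≤ c) : LexStepAt ![a, b, c] s d := by
  rcases Nat.lt_or_ge (d + 1) c with h | h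
  · exact lexStep_pair hs (by omega) hab h
  · exact lexStep_top hs ha4 hab hc (by omega)

/-- The numerical check just above the degree of the third form. -/
theorem numeric_mid (ha4 : 4 ≤ a) (hab : a ≤ b) (hc : c + 4 = a + b) {m : Fin 3 →₀ ℕ} {l : Fin 3}
    (hd : m.degree = c) (hm0 : 1 ≤ (m + Finsupp.single l 1 : Fin 3 →₀ ℕ) 0) (hmo : OutsideT ![a, b, c] m)
    (hmo' : OutsideT ![a, b, c] (m + Finsupp.single l 1)) :
    lexRankT ![a, b, c] (m + Finsupp.single l 1) ≤ lexRankT ![a, b, c] m + 2 ∧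
      (lexRankT ![a, b, c] m < b - 2 →
        lexRankT ![a, b, c] (m + Finsupp.single l 1) ≤ lexRankT ![a, b, c] m + 1) ∧
      (l = 0 → lexRankT ![a, b, c] (m + Finsupp.single l 1) ≤ lexRankT ![a, b, c] m) := by
  have hdeg := degree_add_single m l
  obtain ⟨h0, h1, h2⟩ := outside_abc.1 hmo
  obtain ⟨h3, h4, h5⟩ := outside_abc.1 hmo'
  have hdS := degree_sum m
  rw [lexRank_abc (by omega) hmo, lexRank_ext (by omega) (by omega) hmo', hdeg, hd]
  rw [add_single_apply] at h3 h4 h5 hm0
  rw [add_single_apply, add_single_apply, LL_step]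
  rw [hd] at hdS
  have hDl : ∀ p, Dl a b p (c + 1) = min p 2 := by
    intro p
    unfold Dl
    omega
  rw [hDl]
  -- the first row sums
  have hLL1 : 1 ≤ a - 1 - m 0 → b - 2 ≤ LL a b (a - 1 - m 0) c := by
    intro hp
    have h6 : LL a b 1 c ≤ LL a b (a - 1 - m 0) c := LL_mono_p a b hp c
    have h7 : LL a b 1 c = ell a b 1 c := by
      rw [show (1 : ℕ) = 0 + 1 from rfl, LL_succ, LL_zero, zero_add]
    have h8 : ell a b 1 c = b - 2 := by
      unfold ell
      omega
    omega
  generalize hA : LL a b (a - 1 - m 0) c = A at *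
  fin_cases l
  · simp at h3 h4 h5 hm0 ⊢
    have e : a - 1 - m 0 = (a - 1 - (m 0 + 1)) + 1 := by omega
    rw [e, LL_succ] at hA
    have e2 : ell a b (a - 1 - (m 0 + 1) + 1) c = min (c - m 0) b := by
      unfold ell
      omega
    rw [e2] at hA
    generalize LL a b (a - 1 - (m 0 + 1)) c = B at *
    generalize m 0 = i at *
    generalize m 1 = j at *
    generalize m 2 = k at *
    omega
  · simp at h3 h4 h5 hm0 ⊢
    generalize m 0 = i at *
    generalize m 1 = j at *
    generalize m 2 = k at *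
    omega
  · simp at h3 h4 h5 hm0 ⊢
    generalize m 0 = i at *
    generalize m 1 = j at *
    generalize m 2 = k at *
    omega

/-- Above the degree of the third form, the top rows fit in the first rows. -/
theorem numeric_topD (hab : a ≤ b) (hc : c + 4 = a + b) (ha : 4 ≤ a) {m : Fin 3 →₀ ℕ}
    (hd : m.degree = c + 1) (hm0 : 2 ≤ m 0) (hmo : OutsideT ![a, b, c] m) :
    lexRankT ![a, b, c] m < LL a b (a - 2) (c + 1) := by
  obtain ⟨h0, h1, h2⟩ := outside_abc.1 hmo
  have hdS := degree_sum m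
  rw [lexRank_ext (by omega) (by omega) hmo, hd]
  rw [hd] at hdS
  have hle : LL a b (a - 1 - m 0 + 1) (c + 1) ≤ LL a b (a - 2) (c + 1) :=
    LL_mono_p a b (by omega) _
  rw [LL_succ] at hle
  have e : ell a b (a - 1 - m 0 + 1) (c + 1) = min (c + 2 - m 0) b := by
    unfold ell
    omega
  rw [e] at hle
  omega

/-- The whole space grows to the whole space. -/
theorem lexStep_whole {A : Fin 3 → ℕ} {S : ℕ} (hS : A 0 + A 1 + A 2 = S + 3) {s : Fin 3 → Poly K}
    (hs : FormSeq A s) {d : ℕ} {X Y : Submodule K (Poly K)}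
    (h2 : X ≤ HS K d) (h3 : HS K 1 * X ≤ Y) (h5 : Y ≤ HS K (d + 1)) (hne : ¬ finrank K X < T d)
    {m : Fin 3 →₀ ℕ} (hm : m.degree = d) {l : Fin 3} (hmo' : OutsideT A (m + Finsupp.single l 1)) :
    lexRankT A (m + Finsupp.single l 1) < finrank K Y - finrank K (FF s (d + 1)) := by
  have hXe : X = HS K d := by
    have := finite_of_le_HS (le_refl (HS K d))
    refine Submodule.eq_of_le_of_finrank_le h2 ?_
    rw [finrank_HS]
    omega
  have hYe : Y = HS K (d + 1) := by
    refine le_antisymm h5 ?_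
    rw [hXe, HS_mul, add_comm] at h3
    exact h3
  have hrd := rank_dualA hS hmo'
  rw [degree_add_single, hm] at hrd
  have hcnt := hs.finrank_FF_add_cnt (d + 1)
  rw [hYe, finrank_HS]
  omega

/-- The step out of the degree of the third form, for the first rows. -/
theorem lexStep_midTop {s : Fin 3 → Poly K} (hs : FormSeq ![a, b, c] s) (ha4 : 4 ≤ a) (hab : a ≤ b)
    (hc : c + 4 = a + b) {X Y : Submodule K (Poly K)} (h1 : FF s c ≤ X)
    (h2 : X ≤ HS K c) (h3 : HS K 1 * X ≤ Y) (h4 : FF s (c + 1) ≤ Y) (h5 : Y ≤ HS K (c + 1))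
    {m : Fin 3 →₀ ℕ} (hm : m.degree = c) (hm0 : 2 ≤ m 0) (hmo : OutsideT ![a, b, c] m)
    (hr : lexRankT ![a, b, c] m < finrank K X - finrank K (FF s c)) {l : Fin 3}
    (hmo' : OutsideT ![a, b, c] (m + Finsupp.single l 1)) :
    lexRankT ![a, b, c] (m + Finsupp.single l 1) < finrank K Y - finrank K (FF s (c + 1)) := by
  have hfX := finite_of_le_HS h2
  have hfY := finite_of_le_HS h5
  have hfF := finite_of_le_HS (FF_le_HS s c)
  have hfF1 := finite_of_le_HS (FF_le_HS s (c + 1))
  have hFY := Submodule.finrank_mono h4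
  have hFX := Submodule.finrank_mono h1
  by_cases hne : finrank K X < T c
  · have hm1 : 2 ≤ (m + Finsupp.single l 1 : Fin 3 →₀ ℕ) 0 := by
      rw [add_single_apply]
      omega
    obtain ⟨n1, n2, -⟩ := numeric_mid ha4 hab hc hm (by omega) hmo hmo'
    have n3 := numeric_topD hab hc ha4 (m := m + Finsupp.single l 1)
      (by rw [degree_add_single, hm]) hm1 hmo'
    obtain ⟨z1, z2⟩ := growth_mid_any ha4 hab hc hs h1 h2 h3 h4 h5 hne (by omega)
    by_cases hb : finrank K X - finrank K (FF s c) ≤ b - 2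
    · have := n2 (by omega)
      omega
    · by_cases hL : finrank K X - finrank K (FF s c) ≤ LL a b (a - 2) (c + 1)
      · have := z2 (by omega) hL
        omega
      · omega
  · exact lexStep_whole (sum_abd hc) hs h2 h3 h5 hne hm hmo'

/-- The complement is compatible with the step. -/
theorem compA_step {m : Fin 3 →₀ ℕ} {l : Fin 3}
    (hmo' : OutsideT ![a, b, c] (m + Finsupp.single l 1)) :
    compA ![a, b, c] (m + Finsupp.single l 1) + Finsupp.single l 1 = compA ![a, b, c] m := by
  obtain ⟨h6, h7, h8⟩ := outside_abc.1 hmo'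
  rw [add_single_apply] at h6 h7 h8
  apply mon3_ext <;> simp only [add_single_apply, compA_0, compA_1, compA_2] <;>
  · fin_cases l <;> simp at h6 h7 h8 ⊢ <;> omega

/-- The step out of the degree of the third form. -/
theorem lexStep_mid {s : Fin 3 → Poly K} (hs : FormSeq ![a, b, c] s) (ha4 : 4 ≤ a) (hab : a ≤ b)
    (hc : c + 4 = a + b) : LexStepAt ![a, b, c] s c := by
  intro X Y h1 h2 h3 h4 h5 m hm hmo hr l hmo'
  by_cases hm0 : 2 ≤ m 0
  · exact lexStep_midTop hs ha4 hab hc h1 h2 h3 h4 h5 hm hm0 hmo hr hmo'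
  have hS := sum_abd hc
  have hcm := compA_step hmo'
  by_cases hex : 2 ≤ compA ![a, b, c] (m + Finsupp.single l 1) 0
  · refine lexStep_via_dual hs hS (d := c) (e := c) (by omega) hm hmo hmo' ?_ h1 h2 h3 h4 h5 hr
    intro X' Y' a1 a2 a3 a4 a5 hr'
    have hdc := degree_compA hS hmo'
    rw [degree_add_single, hm] at hdc
    have := lexStep_midTop (m := compA ![a, b, c] (m + Finsupp.single l 1)) (l := l) hs ha4 hab hc
      a1 a2 a3 a4 a5 (by omega) hex (outside_compA hmo') hr'
      (by rw [hcm]; exact outside_compA hmo)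
    rwa [hcm] at this
  · -- the one remaining row
    have hfX := finite_of_le_HS h2
    have hfY := finite_of_le_HS h5
    have hfF := finite_of_le_HS (FF_le_HS s c)
    have hfF1 := finite_of_le_HS (FF_le_HS s (c + 1))
    have hFY := Submodule.finrank_mono h4
    have hFX := Submodule.finrank_mono h1
    obtain ⟨h6, h7, h8⟩ := outside_abc.1 hmo'
    rw [compA_0] at hex
    simp only [add_single_apply] at h6 h7 h8 hex
    have hl0 : l = 0 := by
      fin_cases l
      · rfl
      · simp at hex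
        omega
      · simp at hex
        omega
    subst hl0
    simp at hex
    by_cases hne : finrank K X < T c
    · obtain ⟨-, -, n3⟩ := numeric_mid ha4 hab hc hm
        (by rw [add_single_apply]; simp) hmo hmo'
      have := n3 rfl
      obtain ⟨z1, -⟩ := growth_mid_any ha4 hab hc hs h1 h2 h3 h4 h5 hne (by omega)
      omega
    · exact lexStep_whole hS hs h2 h3 h5 hne hm hmo'

/-- The step above the degree of the third form. -/
theorem lexStep_highD {s : Fin 3 → Poly K} (hs : FormSeq ![a, b, c] s) (ha4 : 4 ≤ a) (hab : a ≤ b)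
    (hc : c + 4 = a + b) {d : ℕ} (hd : c < d) : LexStepAt ![a, b, c] s d := by
  intro X Y h1 h2 h3 h4 h5 m hm hmo hr l hmo'
  have hS := sum_abd hc
  have hcm := compA_step hmo'
  have hdc := degree_compA hS hmo'
  rw [degree_add_single, hm] at hdc
  obtain ⟨e, he⟩ : ∃ e, e = (compA ![a, b, c] (m + Finsupp.single l 1)).degree := ⟨_, rfl⟩
  refine lexStep_via_dual hs hS (d := d) (e := e) (by omega) hm hmo hmo' ?_ h1 h2 h3 h4 h5 hr
  intro X' Y' a1 a2 a3 a4 a5 hr'
  have := lexStep_lowD hs ha4 hab hc (d := e) (by omega) X' Y' a1 a2 a3 a4 a5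
    (compA ![a, b, c] (m + Finsupp.single l 1)) he.symm (outside_compA hmo') hr' l
    (by rw [hcm]; exact outside_compA hmo)
  rwa [hcm] at this

/-- The lexicographic step in all degrees, for the degrees `a, b, a + b - 4`. -/
theorem lexStep_abd {s : Fin 3 → Poly K} (hs : FormSeq ![a, b, c] s) (ha4 : 4 ≤ a) (hab : a ≤ b)
    (hc : c + 4 = a + b) (d : ℕ) : LexStepAt ![a, b, c] s d := by
  rcases Nat.lt_trichotomy d c with h | h | h
  · exact lexStep_lowD hs ha4 hab hc (by omega)
  · subst h
    exact lexStep_mid hs ha4 hab hc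
  · exact lexStep_highD hs ha4 hab hc h

end Vale.Agent.Lib.P200
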