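import Mathlib

/-!
Definitions for the statement: the space `J` attached to an ideal `I` of `K[x₀,x₁,x₂]`
containing three cubics, following the problem statement for `a = (3,3,3)`, `n = c = 3`.
-/

namespace Vale.Agent.Lib.P200
open MvPolynomial Module

variable {K : Type*} [Field K]

/-- The ideal `P = (x₀³, x₁³, x₂³)` of `K[x₀, x₁, x₂]`. -/
noncomputable def powerIdeal (K : Type*) [Field K] : Ideal (MvPolynomial (Fin 3) K) :=
  Ideal.span (Set.range fun i : Fin 3 => (X i : MvPolynomial (Fin 3) K) ^ 3)

/-- The degree `d` part `I_d` of an ideal `I`, as a `K`-subspace. -/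
noncomputable def piece (I : Ideal (MvPolynomial (Fin 3) K)) (d : ℕ) :
    Submodule K (MvPolynomial (Fin 3) K) :=
  I.restrictScalars K ⊓ homogeneousSubmodule (Fin 3) K d

/-- The number `q_d = dim I_d - dim P_d`. -/
noncomputable def excess (I : Ideal (MvPolynomial (Fin 3) K)) (d : ℕ) : ℕ :=
  finrank K (piece I d) - finrank K (piece (powerIdeal K) d)

/-- The monomial with exponent vector `m` lies outside `P`. -/
def OutsideP (m : Fin 3 →₀ ℕ) : Prop := ∀ i, m i < 3

/-- The number of monomials outside `P`, of the same degree as `m`, that are lexicographically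
greater than `m`, with `x₀ > x₁ > x₂`. -/
noncomputable def lexRank (m : Fin 3 →₀ ℕ) : ℕ :=
  Set.ncard {n : Fin 3 →₀ ℕ | n.degree = m.degree ∧ OutsideP n ∧ toLex m < toLex n}

/-- The space `J_d`: the span of `P_d` and of the `q_d` lexicographically greatest monomials of
degree `d` outside `P` (those with fewer than `q_d` greater monomials outside `P`). -/
noncomputable def lexPiece (I : Ideal (MvPolynomial (Fin 3) K)) (d : ℕ) :
    Submodule K (MvPolynomial (Fin 3) K) :=
  piece (powerIdeal K) d ⊔
    Submodule.span K ((fun m => monomial m (1 : K)) ''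
      {m : Fin 3 →₀ ℕ | m.degree = d ∧ OutsideP m ∧ lexRank m < excess I d})

/-- The graded subspace `J = ⨁ J_d`. -/
noncomputable def lexSpace (I : Ideal (MvPolynomial (Fin 3) K)) :
    Submodule K (MvPolynomial (Fin 3) K) :=
  ⨆ d, lexPiece I d

end Vale.Agent.Lib.P200
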