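import Vale.Agent.Lib.P200.Forms

/-!
Dimensions of graded pieces of the polynomial ring and of the ideal of the cubics.
-/

namespace Vale.Agent.Lib.P200
open MvPolynomial Module

variable {K : Type*} [Field K]

theorem finrank_restrictSupport (s : Set (Fin 3 →₀ ℕ)) :
    finrank K (restrictSupport K s) = s.ncard := by
  rw [finrank_eq_nat_card_basis (basisRestrictSupport K s), Nat.card_coe_set_eq]

theorem HS_eq_restrict (d : ℕ) : HS K d = restrictSupport K {m | m.degree = d} :=
  homogeneousSubmodule_eq_finsupp_supported _ _ d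

theorem ncard_degree (d : ℕ) : ({m : Fin 3 →₀ ℕ | m.degree = d}).ncard = (d + 2).choose d := by
  have : {m : Fin 3 →₀ ℕ | m.degree = d} = ↑(Finset.finsuppAntidiag (Finset.univ : Finset (Fin 3)) d) := by
    ext m
    simp only [Set.mem_ofPred_eq, Finset.mem_coe, Finset.mem_finsuppAntidiag, Finset.subset_univ,
      and_true, Finsupp.degree_eq_sum]
  rw [this, Set.ncard_coe_finset, Finset.card_finsuppAntidiag_nat_eq_choose]
  simp only [Finset.card_univ, Fintype.card_fin]
  congr 1
  omega

/-- Number of monomials of degree `d`. -/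
def T (d : ℕ) : ℕ := (d + 2).choose d

theorem finrank_HS (d : ℕ) : finrank K (HS K d) = T d := by
  rw [HS_eq_restrict, finrank_restrictSupport, ncard_degree, T]

instance instFiniteHS (d : ℕ) : Module.Finite K (HS K d) :=
  Module.Finite.iff_fg.2 (homogeneousSubmodule_fg _ _ d)

theorem finite_of_le_HS {W : Submodule K (Poly K)} {d : ℕ} (h : W ≤ HS K d) : Module.Finite K W :=
  Submodule.finiteDimensional_of_le h

theorem finrank_le_of_le_HS {W W' : Submodule K (Poly K)} {d : ℕ} (h : W ≤ W') (h' : W' ≤ HS K d) :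
    finrank K W ≤ finrank K W' :=
  have := finite_of_le_HS h'
  Submodule.finrank_mono h

/-- Graded piece of the ideal of the cubics. -/
noncomputable def FF (f : Fin 3 → Poly K) (d : ℕ) : Submodule K (Poly K) :=
  (Fid f).restrictScalars K ⊓ HS K d

theorem mem_FF {f : Fin 3 → Poly K} {d : ℕ} {a : Poly K} :
    a ∈ FF f d ↔ a ∈ Fid f ∧ a.IsHomogeneous d := by
  simp [FF, mem_homogeneousSubmodule]

theorem FF_le_HS (f : Fin 3 → Poly K) (d : ℕ) : FF f d ≤ HS K d := inf_le_right

/-- Combination map. -/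
noncomputable def combo (f : Fin 3 → Poly K) (D : ℕ) : (Fin 3 → HS K D) →ₗ[K] Poly K :=
  ∑ i, (LinearMap.mulRight K (f i)) ∘ₗ (HS K D).subtype ∘ₗ LinearMap.proj i

theorem combo_apply (f : Fin 3 → Poly K) (D : ℕ) (p : Fin 3 → HS K D) :
    combo f D p = (p 0 : Poly K) * f 0 + p 1 * f 1 + p 2 * f 2 := by
  simp [combo, Fin.sum_univ_three]

/-- Cross product map. -/
noncomputable def crossMap {f : Fin 3 → Poly K} (h : CubicSeq f) (E : ℕ) :
    (Fin 3 → HS K E) →ₗ[K] (Fin 3 → HS K (E + 3)) where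
  toFun q := ![⟨(q 1 : Poly K) * f 2 - q 2 * f 1,
      ((q 1).2.mul (h.hom 2)).sub ((q 2).2.mul (h.hom 1))⟩,
    ⟨(q 2 : Poly K) * f 0 - q 0 * f 2, ((q 2).2.mul (h.hom 0)).sub ((q 0).2.mul (h.hom 2))⟩,
    ⟨(q 0 : Poly K) * f 1 - q 1 * f 0, ((q 0).2.mul (h.hom 1)).sub ((q 1).2.mul (h.hom 0))⟩]
  map_add' q r := by
    funext i
    apply Subtype.ext
    fin_cases i <;> simp <;> ring
  map_smul' c q := by
    funext i
    apply Subtype.ext
    fin_cases i <;> simp [smul_sub]

namespace CubicSeq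

variable {f : Fin 3 → Poly K} (h : CubicSeq f)
include h

theorem range_combo (D : ℕ) : LinearMap.range (combo f D) = FF f (D + 3) := by
  apply le_antisymm
  · rintro _ ⟨p, rfl⟩
    rw [combo_apply, mem_FF]
    refine ⟨mem_Fid_of _ _ _, ?_⟩
    exact (((p 0).2.mul (h.hom 0)).add ((p 1).2.mul (h.hom 1))).add ((p 2).2.mul (h.hom 2))
  · intro a ha
    obtain ⟨ha1, ha2⟩ := mem_FF.1 ha
    obtain ⟨p, hp⟩ := mem_Fid.1 ha1
    have e := homog_coeffs (k := 3) (n := D) h.hom p ha2 (by simpa [Fin.sum_univ_three] using hp)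
    refine ⟨fun i => ⟨homogeneousComponent D (p i), homogeneousComponent_isHomogeneous _ _⟩, ?_⟩
    rw [combo_apply]
    simpa [Fin.sum_univ_three] using e

theorem ker_combo_low {D : ℕ} (hD : D < 3) : LinearMap.ker (combo f D) = ⊥ := by
  rw [LinearMap.ker_eq_bot']
  intro p hp
  rw [combo_apply] at hp
  obtain ⟨h0, h1, h2⟩ := h.nls (p 0).2 (p 1).2 (p 2).2 hD hp
  funext i
  apply Subtype.ext
  fin_cases i
  · simpa using h0
  · simpa using h1
  · simpa using h2

theorem crossMap_inj {E : ℕ} (hE : E < 3) : Function.Injective (crossMap h E) := by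
  rw [← LinearMap.ker_eq_bot, LinearMap.ker_eq_bot']
  intro q hq
  have h0 := congrArg Subtype.val (congrFun hq 0)
  have h1 := congrArg Subtype.val (congrFun hq 1)
  have h2 := congrArg Subtype.val (congrFun hq 2)
  simp only [crossMap, LinearMap.coe_mk, AddHom.coe_mk, Matrix.cons_val, Pi.zero_apply,
    ZeroMemClass.coe_zero] at h0 h1 h2
  obtain ⟨r0, r1, r2⟩ := h.cross_zero (q 0).2 (q 1).2 (q 2).2 hE
    (by linear_combination h2) (by linear_combination h1)
  funext i
  apply Subtype.ext
  fin_cases i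
  · simpa using r0
  · simpa using r1
  · simpa using r2

theorem ker_combo_eq (E : ℕ) :
    LinearMap.ker (combo f (E + 3)) = LinearMap.range (crossMap h E) := by
  apply le_antisymm
  · intro p hp
    rw [LinearMap.mem_ker, combo_apply] at hp
    obtain ⟨q0, q1, q2, h0, h1, h2, e0, e1, e2⟩ := h.k1h (p 0).2 (p 1).2 (p 2).2 hp
    refine ⟨![⟨q0, h0⟩, ⟨q1, h1⟩, ⟨q2, h2⟩], ?_⟩
    funext i
    apply Subtype.ext
    fin_cases i
    · simpa [crossMap] using e0.symm
    · simpa [crossMap] using e1.symm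
    · simpa [crossMap] using e2.symm
  · rintro _ ⟨q, rfl⟩
    rw [LinearMap.mem_ker, combo_apply]
    simp [crossMap]
    ring

theorem finrank_FF_low {D : ℕ} (hD : D < 3) : finrank K (FF f (D + 3)) = 3 * T D := by
  rw [← h.range_combo D, LinearMap.finrank_range_of_inj (LinearMap.ker_eq_bot.1 (h.ker_combo_low hD))]
  simp [Module.finrank_pi_fintype, finrank_HS]

theorem finrank_FF_high {E : ℕ} (hE : E < 3) :
    finrank K (FF f (E + 3 + 3)) + 3 * T E = 3 * T (E + 3) := by
  have e1 := LinearMap.finrank_range_add_finrank_ker (combo f (E + 3))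
  rw [h.range_combo, h.ker_combo_eq, LinearMap.finrank_range_of_inj (h.crossMap_inj hE)] at e1
  simpa [Module.finrank_pi_fintype, finrank_HS] using e1

theorem FF_low {d : ℕ} (hd : d < 3) : FF f d = ⊥ := by
  rw [eq_bot_iff]
  intro a ha
  obtain ⟨ha1, ha2⟩ := mem_FF.1 ha
  exact (Submodule.mem_bot K).2 (h.low_mem ha2 hd ha1)

theorem finrank_FF3 : finrank K (FF f 3) = 3 := by
  simpa [T] using h.finrank_FF_low (D := 0) (by omega)

theorem finrank_FF4 : finrank K (FF f 4) = 9 := by
  simpa [T] using h.finrank_FF_low (D := 1) (by omega)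

theorem finrank_FF5 : finrank K (FF f 5) = 18 := by
  simpa [T, Nat.choose] using h.finrank_FF_low (D := 2) (by omega)

theorem finrank_FF6 : finrank K (FF f 6) = 27 := by
  have := h.finrank_FF_high (E := 0) (by omega)
  simp only [T] at this
  norm_num [Nat.choose] at this
  have h6 : finrank K (FF f 6) + 3 = 30 := this
  omega

theorem finrank_FF7 : finrank K (FF f 7) = 36 := by
  have := h.finrank_FF_high (E := 1) (by omega)
  simp only [T] at this
  norm_num [Nat.choose] at this
  have h7 : finrank K (FF f 7) + 9 = 45 := this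
  omega

theorem HS7_le : HS K 7 ≤ FF f 7 := by
  have hfin : Module.Finite K (HS K 7) := inferInstance
  refine (Submodule.eq_of_le_of_finrank_eq (FF_le_HS f 7) ?_).symm.le
  rw [h.finrank_FF7, finrank_HS]
  decide

theorem X_pow_mem (i : Fin 3) : (X i : Poly K) ^ 7 ∈ Fid f := by
  have : (X i : Poly K) ^ 7 ∈ FF f 7 := by
    apply h.HS7_le
    exact (isHomogeneous_X K i).pow 7
  exact (mem_FF.1 this).1

end CubicSeq

end Vale.Agent.Lib.P200
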