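import Vale.Agent.Lib.P200.E9Gen

/-!
The numerical condition for a pair of subspaces of forms, and its behaviour under the reductions.
-/

namespace Vale.Agent.Lib.P200
open MvPolynomial Module

/-- The total length of the first rows, for an integer number of rows. -/
def LLz (a b : ℕ) (g : ℤ) (d : ℕ) : ℕ := LL a b g.toNat d

/-- The difference of the numbers of monomials in consecutive degrees, in the middle range. -/
def DAz (a b c d : ℕ) : ℤ := (a : ℤ) + b + c - 2 * d - 4

/-- The numerical condition: a small gain forces the subspace, or its dual, into the first rows. -/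
def TNum (a b c d n nY : ℕ) : Prop :=
  ((nY : ℤ) - n < (a : ℤ) + b - 2 - d) →
    n ≤ LLz a b ((nY : ℤ) - n) d ∨
    cntT ![a, b, c] (d + 1) - nY ≤
      LLz a b ((nY : ℤ) - n - DAz a b c d) (a + b + c - 3 - d - 1)

theorem LLz_mono (a b : ℕ) {g h : ℤ} (hg : g ≤ h) (d : ℕ) : LLz a b g d ≤ LLz a b h d :=
  LL_mono_p a b (by omega) d

theorem LLz_neg (a b : ℕ) {g : ℤ} (hg : g ≤ 0) (d : ℕ) : LLz a b g d = 0 := by
  unfold LLz
  rw [show g.toNat = 0 by omega]
  rfl

theorem LLz_nat (a b p : ℕ) (d : ℕ) : LLz a b (p : ℤ) d = LL a b p d := by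
  unfold LLz
  rw [Int.toNat_natCast]

theorem LL_step2 {a b p d : ℕ} (h1 : a ≤ d + 2) (h2 : p + d + 2 ≤ a + b) :
    LL a b p (d + 1) = LL a b p d + p := by
  rw [LL_step]
  congr 1
  unfold Dl
  omega

theorem LL_poly {a b d p : ℕ} (h1 : a ≤ d + 1) : ∀ g : ℕ, p + g + d + 2 ≤ a + b →
    2 * LL a b p d + g * (g - 1) ≤ 2 * LL a b (p + g) d := by
  intro g
  induction g with
  | zero =>
    intro _
    simp
  | succ g ih =>
    intro h2
    have ih' := ih (by omega)
    rw [← add_assoc, LL_succ]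
    have he : g ≤ ell a b (p + g + 1) d := by
      unfold ell
      omega
    have e : (g + 1) * (g + 1 - 1) = g * (g - 1) + 2 * g := by
      rw [Nat.add_sub_cancel]
      cases g with
      | zero => simp
      | succ g =>
        rw [Nat.add_sub_cancel]
        ring
    rw [e]
    omega

variable {a b c : ℕ}

/-- Enlarging the second subspace. -/
theorem TNum.Ymono {d n nY0 nY : ℕ} (h : TNum a b c d n nY0) (hle : nY0 ≤ nY) : TNum a b c d n nY := by
  intro hΓ
  rcases h (by omega) with h1 | h2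
  · exact Or.inl (le_trans h1 (LLz_mono a b (by omega) d))
  · refine Or.inr (le_trans ?_ (le_trans h2 (LLz_mono a b (by omega) _)))
    omega

/-- The polynomial reduction. -/
theorem TNum.poly {d n0 nY0 k g : ℕ} (h : TNum a b c d n0 nY0) (h1 : a ≤ d + 1) (hg : 2 ≤ g)
    (hk : 2 * k ≤ g * (g - 1)) : TNum a b c d (n0 + k) (nY0 + k + g) := by
  intro hΓ
  push_cast at hΓ
  rcases h (by omega) with h2 | h2
  · left
    by_cases hn : (nY0 : ℤ) - n0 ≤ 0
    · have hn0 : n0 = 0 := by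
        rw [LLz_neg a b hn] at h2
        omega
      subst hn0
      have hn1 : nY0 = 0 := by omega
      subst hn1
      have := LL_poly (a := a) (b := b) (d := d) (p := 0) h1 g (by omega)
      rw [show (((0 + k + g : ℕ) : ℤ) - ((0 + k : ℕ) : ℤ)) = ((0 + g : ℕ) : ℤ) by push_cast; ring,
        LLz_nat]
      omega
    · obtain ⟨p, hp⟩ : ∃ p : ℕ, (nY0 : ℤ) - n0 = p := ⟨((nY0 : ℤ) - n0).toNat, by omega⟩
      rw [hp, LLz_nat] at h2
      have := LL_poly (a := a) (b := b) (d := d) (p := p) h1 g (by omega)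
      rw [show (((nY0 + k + g : ℕ) : ℤ) - ((n0 + k : ℕ) : ℤ)) = ((p + g : ℕ) : ℤ) by
        push_cast
        omega, LLz_nat]
      omega
  · right
    refine le_trans ?_ (le_trans h2 (LLz_mono a b (by push_cast; omega) _))
    omega

/-- The reduction to the lower degree. -/
theorem TNum.down {e nV n nY : ℕ} (ha2 : 2 ≤ a) (hac : a ≤ c) (hce : c ≤ e + 2) (he : e + 3 ≤ a + b)
    (hc2 : ((cntT ![a, b, c] (e + 1 + 1) : ℕ) : ℤ) - cntT ![a, b, c] (e + 1) = DAz a b c (e + 1))
    (hn : n ≤ cntT ![a, b, c] (e + 1)) (hnY : nY ≤ cntT ![a, b, c] (e + 1 + 1))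
    (h : TNum a b c e nV n) (h2 : 2 * n ≤ nV + nY)
    (hX0 : 0 < cntT ![a, b, c] (e + 1 + 1) - nY → 0 < cntT ![a, b, c] (e + 1) - n) :
    TNum a b c (e + 1) n nY := by
  intro hΓ
  push_cast at hΓ
  unfold DAz at hc2
  push_cast at hc2
  rcases h (by omega) with h1 | h1
  · left
    by_cases hn0 : (n : ℤ) - nV ≤ 0
    · rw [LLz_neg a b hn0] at h1
      have hV : nV = 0 := by omega
      subst hV
      have hn00 : n = 0 := by omega
      subst hn00
      exact Nat.zero_le _
    · obtain ⟨p, hp⟩ : ∃ p : ℕ, (n : ℤ) - nV = p := ⟨((n : ℤ) - nV).toNat, by omega⟩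
      rw [hp, LLz_nat] at h1
      have hL := LL_step2 (a := a) (b := b) (p := p) (d := e) (by omega) (by omega)
      have hm : LLz a b (p : ℤ) (e + 1) ≤ LLz a b ((nY : ℤ) - n) (e + 1) := LLz_mono a b (by omega) _
      rw [LLz_nat] at hm
      omega
  · right
    unfold DAz at h1 ⊢
    push_cast at h1 ⊢
    set g : ℤ := (nY : ℤ) - n - ((a : ℤ) + b + c - 2 * (e + 1) - 4) with hg
    have e1 : a + b + c - 3 - e - 1 = (a + b + c - 3 - (e + 1) - 1) + 1 := by omega
    rw [e1] at h1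
    set d' := a + b + c - 3 - (e + 1) - 1 with hd'
    have h3 : cntT ![a, b, c] (e + 1) - n ≤ LLz a b (g - 2) (d' + 1) :=
      le_trans h1 (LLz_mono a b (by omega) _)
    by_cases hg2 : g - 2 ≤ 0
    · rw [LLz_neg a b hg2] at h3
      by_contra hcon
      have := hX0 (by omega)
      omega
    · obtain ⟨p, hp⟩ : ∃ p : ℕ, g - 2 = p := ⟨(g - 2).toNat, by omega⟩
      rw [hp, LLz_nat, LL_step2 (by omega) (by omega)] at h3
      have hm : LLz a b (p : ℤ) d' ≤ LLz a b g d' := LLz_mono a b (by omega) _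
      rw [LLz_nat] at hm
      omega

/-- The reduction to the higher degree. -/
theorem TNum.up {d n nY nZ : ℕ} (ha2 : 2 ≤ a) (hac : a ≤ c) (hcd : c ≤ d + 2) (hd : d + 3 ≤ a + b)
    (hc2 : ((cntT ![a, b, c] (d + 1 + 1) : ℕ) : ℤ) - cntT ![a, b, c] (d + 1) = DAz a b c (d + 1))
    (hnY : nY ≤ cntT ![a, b, c] (d + 1)) (hnZ : nZ ≤ cntT ![a, b, c] (d + 1 + 1))
    (h : TNum a b c (d + 1) nY nZ) (h2 : nZ + n + 2 ≤ 2 * nY) (h0 : 0 < n → 0 < nY) :
    TNum a b c d n nY := by
  intro hΓ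
  unfold DAz at hc2
  push_cast at hc2
  rcases h (by push_cast; omega) with h1 | h1
  · left
    have h3 : nY ≤ LLz a b ((nY : ℤ) - n - 2) (d + 1) := le_trans h1 (LLz_mono a b (by omega) _)
    by_cases hg2 : (nY : ℤ) - n - 2 ≤ 0
    · rw [LLz_neg a b hg2] at h3
      have hn0 : n = 0 := by
        by_contra hne
        have := h0 (by omega)
        omega
      subst hn0
      exact Nat.zero_le _
    · obtain ⟨p, hp⟩ : ∃ p : ℕ, (nY : ℤ) - n - 2 = p := ⟨((nY : ℤ) - n - 2).toNat, by omega⟩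
      rw [hp, LLz_nat, LL_step2 (by omega) (by omega)] at h3
      have hm : LLz a b (p : ℤ) d ≤ LLz a b ((nY : ℤ) - n) d := LLz_mono a b (by omega) _
      rw [LLz_nat] at hm
      omega
  · right
    unfold DAz at h1 ⊢
    push_cast at h1 ⊢
    have e1 : a + b + c - 3 - d - 1 = (a + b + c - 3 - (d + 1) - 1) + 1 := by omega
    rw [e1]
    set d'' := a + b + c - 3 - (d + 1) - 1 with hd''
    set q : ℤ := (nZ : ℤ) - nY - ((a : ℤ) + b + c - 2 * (d + 1) - 4) with hq
    by_cases hq0 : q ≤ 0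
    · rw [LLz_neg a b hq0] at h1
      have : cntT ![a, b, c] (d + 1) - nY ≤ 0 := by omega
      omega
    · obtain ⟨p, hp⟩ : ∃ p : ℕ, q = p := ⟨q.toNat, by omega⟩
      rw [hp, LLz_nat] at h1
      have hL := LL_step2 (a := a) (b := b) (p := p) (d := d'') (by omega) (by omega)
      have hm : LLz a b (p : ℤ) (d'' + 1) ≤
          LLz a b ((nY : ℤ) - n - ((a : ℤ) + b + c - 2 * d - 4)) (d'' + 1) :=
        LLz_mono a b (by omega) _
      rw [LLz_nat] at hm
      omega

/-- Duality. -/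
theorem TNum.dual {d d' n nY : ℕ} (hdd : d + 1 + d' + 3 = a + b + c)
    (hc1 : ((cntT ![a, b, c] (d + 1) : ℕ) : ℤ) - cntT ![a, b, c] d = DAz a b c d)
    (hc2 : cntT ![a, b, c] (d' + 1) = cntT ![a, b, c] d)
    (hn : n ≤ cntT ![a, b, c] d) (hnY : nY ≤ cntT ![a, b, c] (d + 1))
    (h : TNum a b c d' (cntT ![a, b, c] (d + 1) - nY) (cntT ![a, b, c] d - n)) :
    TNum a b c d n nY := by
  intro hΓ
  unfold DAz at hc1
  push_cast at hc1
  rcases h (by push_cast [Nat.cast_sub hn, Nat.cast_sub hnY]; omega) with h1 | h1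
  · right
    have e : (((cntT ![a, b, c] d - n : ℕ) : ℤ) - ((cntT ![a, b, c] (d + 1) - nY : ℕ) : ℤ)) =
        (nY : ℤ) - n - DAz a b c d := by
      unfold DAz
      push_cast [Nat.cast_sub hn, Nat.cast_sub hnY]
      omega
    rw [e, show d' = a + b + c - 3 - d - 1 by omega] at h1
    exact h1
  · left
    have e : (((cntT ![a, b, c] d - n : ℕ) : ℤ) - ((cntT ![a, b, c] (d + 1) - nY : ℕ) : ℤ)) -
        DAz a b c d' = (nY : ℤ) - n := by
      unfold DAz
      push_cast [Nat.cast_sub hn, Nat.cast_sub hnY]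
      omega
    rw [e, show a + b + c - 3 - d' - 1 = d by omega, hc2] at h1
    omega

/-- The boundary case. -/
theorem TNum.base {d n nY : ℕ} (hbc : b ≤ c) (hd : d + 2 = c) (hw : c + 2 ≤ a + b)
    (hg : ∀ p, p < a → LL a b p d < n → n + min (p + 1) (tauZ a b d) ≤ nY) : TNum a b c d n nY := by
  intro hΓ
  left
  by_contra hcon
  push Not at hcon
  unfold tauZ at hg
  by_cases hn : (nY : ℤ) - n ≤ 0
  · rw [LLz_neg a b hn] at hcon
    have := hg 0 (by omega) (by simpa using hcon)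
    omega
  · obtain ⟨p, hp⟩ : ∃ p : ℕ, (nY : ℤ) - n = p := ⟨((nY : ℤ) - n).toNat, by omega⟩
    rw [hp, LLz_nat] at hcon
    have := hg p (by omega) hcon
    omega

end Vale.Agent.Lib.P200
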