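import Vale.Agent.Lib.P200.E10Num

/-!
The main induction: every pair of subspaces satisfies the numerical condition.
-/

universe u

namespace Vale.Agent.Lib.P200
open MvPolynomial Module

variable {K : Type u} [Field K]

theorem phi3_mid {a b c d : ℕ} (ha : 1 ≤ a) (hab : a ≤ b) (hbc : b ≤ c) (hd : d < a + b) :
    phi3 ![a, b, c] d = (if a ≤ d then T (d - a) else 0) + (if b ≤ d then T (d - b) else 0) +
      (if c ≤ d then T (d - c) else 0) := by
  have e1 : ∀ D, phi1 ![a, b, c] D = if a ≤ D then T (D - a) else 0 := fun _ => rfl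
  have e2 : ∀ D, phi2 ![a, b, c] D = phi1 ![a, b, c] D +
      if b ≤ D then T (D - b) - phi1 ![a, b, c] (D - b) else 0 := fun _ => rfl
  have e3 : phi3 ![a, b, c] d = phi2 ![a, b, c] d +
      if c ≤ d then T (d - c) - phi2 ![a, b, c] (d - c) else 0 := rfl
  have z1 : phi1 ![a, b, c] (d - b) = 0 := by
    rw [e1, if_neg (by omega)]
  have z2 : phi2 ![a, b, c] (d - c) = 0 := by
    rw [e2, e1, if_neg (by omega), if_neg (by omega)]
  rw [e3, e2, e1, z1, z2]
  simp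

theorem T_diff {d e : ℕ} (h : e ≤ d + 2) :
    (if e ≤ d + 1 then T (d + 1 - e) else 0) = (if e ≤ d then T (d - e) else 0) + (d + 2 - e) := by
  split_ifs with h1 h2
  · rw [show d + 1 - e = (d - e) + 1 by omega, T_succ]
    omega
  · rw [show d + 1 - e = 0 by omega, T_zero]
    omega
  · omega
  · omega

/-- The difference of the numbers of monomials in the middle range. -/
theorem cnt_step {a b c d : ℕ} {s : Fin 3 → Poly K} (hs : FormSeq ![a, b, c] s) (ha : 1 ≤ a) (hab : a ≤ b)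
    (hbc : b ≤ c) (hcd : c ≤ d + 2) (hd : d + 2 ≤ a + b) :
    ((cntT ![a, b, c] (d + 1) : ℕ) : ℤ) - cntT ![a, b, c] d = DAz a b c d := by
  have h0 := hs.finrank_FF_add_cnt d
  have h1 := hs.finrank_FF_add_cnt (d + 1)
  rw [hs.finrank_FF, phi3_mid ha hab hbc (by omega)] at h0 h1
  rw [T_diff (by omega), T_diff (by omega), T_diff (by omega), T_succ] at h1
  unfold DAz
  omega

/-- A pair of subspaces in consecutive degrees. -/
structure PrS (s : Fin 3 → Poly K) (d : ℕ) (U Y : Submodule K (Poly K)) : Prop where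
  h1 : FF s d ≤ U
  h2 : U ≤ HS K d
  h3 : HS K 1 * U ≤ Y
  h4 : FF s (d + 1) ≤ Y
  h5 : Y ≤ HS K (d + 1)

/-- The dimension modulo the ideal. -/
noncomputable def nnS (s : Fin 3 → Poly K) (d : ℕ) (U : Submodule K (Poly K)) : ℕ :=
  finrank K U - finrank K (FF s d)

theorem nnS_add {s : Fin 3 → Poly K} {d : ℕ} {U : Submodule K (Poly K)} (h1 : FF s d ≤ U)
    (h2 : U ≤ HS K d) : finrank K U = finrank K (FF s d) + nnS s d U := by
  have := finite_of_le_HS h2
  have := Submodule.finrank_mono h1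
  unfold nnS
  omega

theorem nnS_le {A : Fin 3 → ℕ} {s : Fin 3 → Poly K} (hs : FormSeq A s) {d : ℕ}
    {U : Submodule K (Poly K)} (h2 : U ≤ HS K d) : nnS s d U ≤ cntT A d := by
  have := hs.finrank_FF_add_cnt d
  have h3 := Submodule.finrank_mono h2
  rw [finrank_HS] at h3
  unfold nnS
  omega

theorem PrS.nY_le {A : Fin 3 → ℕ} {s : Fin 3 → Poly K} (hs : FormSeq A s) {d : ℕ}
    {U Y : Submodule K (Poly K)} (h : PrS s d U Y) : nnS s (d + 1) Y ≤ cntT A (d + 1) :=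
  nnS_le hs h.h5

/-- If the first subspace is everything, so is the second one. -/
theorem PrS.whole {A : Fin 3 → ℕ} {s : Fin 3 → Poly K} (hs : FormSeq A s) {d : ℕ}
    {U Y : Submodule K (Poly K)} (h : PrS s d U Y) (hw : cntT A d ≤ nnS s d U) :
    cntT A (d + 1) ≤ nnS s (d + 1) Y := by
  have e1 := nnS_add h.h1 h.h2
  have e0 := hs.finrank_FF_add_cnt d
  have e2 := hs.finrank_FF_add_cnt (d + 1)
  have hU : U = HS K d := by
    have := finite_of_le_HS (le_refl (HS K d))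
    refine Submodule.eq_of_le_of_finrank_le h.h2 ?_
    rw [finrank_HS]
    omega
  have hY : Y = HS K (d + 1) := by
    refine le_antisymm h.h5 ?_
    have h3 := h.h3
    rw [hU, HS_mul, add_comm] at h3
    exact h3
  have e3 := nnS_add h.h4 h.h5
  rw [hY, finrank_HS] at e3
  subst hY
  omega

/-- If the second subspace is the ideal, so is the first one, below the socle degree. -/
theorem PrS.zero {A : Fin 3 → ℕ} {s : Fin 3 → Poly K} (hs : FormSeq A s) {d : ℕ}
    (hd : d + 3 < A 0 + A 1 + A 2) {U Y : Submodule K (Poly K)} (h : PrS s d U Y)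
    (h0 : nnS s (d + 1) Y = 0) : nnS s d U = 0 := by
  have e3 := nnS_add h.h4 h.h5
  rw [h0, add_zero] at e3
  have hfF := finite_of_le_HS h.h5
  have hY : Y = FF s (d + 1) := (Submodule.eq_of_le_of_finrank_le h.h4 (by omega)).symm
  have hU : U ≤ FF s d := by
    intro u hu
    have hH := h.h2 hu
    refine mem_FF.2 ⟨hs.socle hH hd fun i => ?_, hH⟩
    have : (X i : Poly K) * u ∈ Y := h.h3 (Submodule.mul_mem_mul (X_mem_HS1 i) hu)
    rw [hY] at this
    exact (mem_FF.1 this).1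
  have hfU := finite_of_le_HS (FF_le_HS s d)
  have := Submodule.finrank_mono hU
  unfold nnS
  omega

/-- The dual pair. -/
theorem PrS.dual {A : Fin 3 → ℕ} {s : Fin 3 → Poly K} (hs : FormSeq A s) {S : ℕ}
    (hS : A 0 + A 1 + A 2 = S + 3) {φ : Module.Dual K (Poly K)}
    (hφ : ∀ x ∈ HS K S, φ x = 0 ↔ x ∈ FF s S) {d d' : ℕ} (hdd : d + 1 + d' = S)
    {U Y : Submodule K (Poly K)} (h : PrS s d U Y) :
    PrS s d' (perpT φ Y d') (perpT φ U (d' + 1)) ∧
      nnS s d' (perpT φ Y d') = cntT A (d + 1) - nnS s (d + 1) Y ∧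
      nnS s (d' + 1) (perpT φ U (d' + 1)) = cntT A d - nnS s d U := by
  have hdeX : d + (d' + 1) = S := by omega
  have a1 : FF s d' ≤ perpT φ Y d' := hs.FF_le_perpT hφ hdd h.h5
  have a2 : perpT φ Y d' ≤ HS K d' := perpT_le _ _ _
  have a34 := hs.growth_perpT hφ hdeX h.h2
  have hYle : HS K 1 * U ⊔ FF s (d + 1) ≤ Y := sup_le h.h3 h.h4
  have a5 : perpT φ U (d' + 1) ≤ HS K (d' + 1) := perpT_le _ _ _
  have a3 : HS K 1 * perpT φ Y d' ≤ perpT φ U (d' + 1) :=
    le_trans (mul_le_mul' le_rfl (perpT_anti hYle d')) (le_trans le_sup_left a34)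
  have a4 : FF s (d' + 1) ≤ perpT φ U (d' + 1) := le_trans le_sup_right a34
  have dimX : finrank K (perpT φ Y d') + finrank K Y = T d' + finrank K (FF s (d + 1)) :=
    hs.finrank_perpT hS hφ hdd h.h5 h.h4
  have dimY : finrank K (perpT φ U (d' + 1)) + finrank K U = T (d' + 1) + finrank K (FF s d) :=
    hs.finrank_perpT hS hφ hdeX h.h2 h.h1
  have c1 : cntT A d' = cntT A (d + 1) := cnt_dualA hS hdd
  have c2 : cntT A (d' + 1) = cntT A d := cnt_dualA hS hdeX
  have e1 := hs.finrank_FF_add_cnt d'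
  have e2 := hs.finrank_FF_add_cnt (d' + 1)
  have e3 := hs.finrank_FF_add_cnt d
  have e4 := hs.finrank_FF_add_cnt (d + 1)
  have n1 := nnS_add h.h1 h.h2
  have n2 := nnS_add h.h4 h.h5
  have n3 := nnS_add a1 a2
  have n4 := nnS_add a4 a5
  refine ⟨⟨a1, a2, a3, a4, a5⟩, ?_, ?_⟩ <;> omega

/-- The double perpendicular. -/
theorem perp_perp {A : Fin 3 → ℕ} {s : Fin 3 → Poly K} (hs : FormSeq A s) {S : ℕ}
    (hS : A 0 + A 1 + A 2 = S + 3) {φ : Module.Dual K (Poly K)}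
    (hφ : ∀ x ∈ HS K S, φ x = 0 ↔ x ∈ FF s S) {d e : ℕ} (hde : d + e = S)
    {U : Submodule K (Poly K)} (h1 : FF s d ≤ U) (h2 : U ≤ HS K d) :
    perpT φ (perpT φ U e) d = U := by
  have hed : e + d = S := by omega
  have a1 : FF s e ≤ perpT φ U e := hs.FF_le_perpT hφ hde h2
  have hle : U ≤ perpT φ (perpT φ U e) d := by
    intro u hu
    refine ⟨h2 hu, fun v hv => ?_⟩
    rw [mul_comm]
    exact hv.2 u hu
  have dim1 := hs.finrank_perpT hS hφ hde h2 h1
  have dim2 := hs.finrank_perpT hS hφ hed (perpT_le φ U e) a1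
  have c1 : cntT A e = cntT A d := cnt_dualA hS hde
  have e1 := hs.finrank_FF_add_cnt d
  have e2 := hs.finrank_FF_add_cnt e
  have hfin := finite_of_le_HS (perpT_le φ (perpT φ U e) d)
  exact (Submodule.eq_of_le_of_finrank_le hle (by omega)).symm

/-- The two reductions to smaller pairs in the same degree. -/
theorem T_reduce [Infinite K] {a b c d : ℕ} {s : Fin 3 → Poly K} (had : a ≤ d + 1)
    {U Y : Submodule K (Poly K)} (h : PrS s d U Y)
    (IH : ∀ U0 Y0 : Submodule K (Poly K), PrS s d U0 Y0 →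
      (nnS s (d + 1) Y0 : ℤ) - nnS s d U0 < (nnS s (d + 1) Y : ℤ) - nnS s d U →
      TNum a b c d (nnS s d U0) (nnS s (d + 1) Y0)) :
    TNum a b c d (nnS s d U) (nnS s (d + 1) Y) ∨
      ∃ D : Poly K, D ≠ 0 ∧ ∀ p : Fin 3 → K, eval p D ≠ 0 →
        Y ≤ (⨆ i, ⨆ k, U.map (LinearMap.mulLeft K (C (p i) * X k - C (p k) * X i))) ⊔
          FF s (d + 1) := by
  by_cases hY1 : HS K 1 * U ⊔ FF s (d + 1) = Y
  swap
  · left
    have hle : HS K 1 * U ⊔ FF s (d + 1) ≤ Y := sup_le h.h3 h.h4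
    have hlt := lt_of_le_of_ne hle hY1
    have hfY := finite_of_le_HS h.h5
    have hflt := Submodule.finrank_lt_finrank_of_lt hlt
    have hP0 : PrS s d U (HS K 1 * U ⊔ FF s (d + 1)) :=
      ⟨h.h1, h.h2, le_sup_left, le_sup_right, le_trans hle h.h5⟩
    have n0 := nnS_add hP0.h4 hP0.h5
    have n1 := nnS_add h.h4 h.h5
    exact (IH U _ hP0 (by omega)).Ymono (by omega)
  rcases pair_dichotomy h.h2 h.h1 h.h5 h.h4 (HS1_mul_FF_le s d) hY1.symm with hL | hR
  · exact Or.inr hL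
  · left
    obtain ⟨U0, Y0, k, g, h1, h2, h3, h4, h5, e1, e2, hg, hk⟩ := hR
    have hP0 : PrS s d U0 Y0 := ⟨h1, h2, h3, h4, h5⟩
    have n0 := nnS_add h1 h2
    have n1 := nnS_add h4 h5
    have n2 := nnS_add h.h1 h.h2
    have n3 := nnS_add h.h4 h.h5
    have hT := (IH U0 Y0 hP0 (by omega)).poly had hg hk
    rw [show nnS s d U = nnS s d U0 + k by omega,
      show nnS s (d + 1) Y = nnS s (d + 1) Y0 + k + g by omega]
    exact hT

section main

variable {a b c : ℕ} {f g t : Poly K}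

theorem T_base [Infinite K] (ha2 : 2 ≤ a) (hab : a ≤ b) (hbc : b ≤ c) (hw : c + 2 ≤ a + b)
    {s : Fin 3 → Poly K} (hs : FormSeq ![a, b, c] s) {d : ℕ} (hd : d + 2 = c)
    {U Y : Submodule K (Poly K)} (h : PrS s d U Y) :
    TNum a b c d (nnS s d U) (nnS s (d + 1) Y) := by
  refine TNum.base hbc hd hw fun p hp hr => ?_
  have e1 := nnS_add h.h1 h.h2
  have e2 := nnS_add h.h4 h.h5
  have := growth_inf_pair ha2 hab hs (d := d) (by omega) h.h1 h.h2 h.h3 h.h4 h.h5 hp (by omega)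
  rw [show a - 2 - d = 0 by omega] at this
  omega

theorem sum_all (h3 : 3 ≤ a + b + c) :
    (![a, b, c] : Fin 3 → ℕ) 0 + (![a, b, c] : Fin 3 → ℕ) 1 + (![a, b, c] : Fin 3 → ℕ) 2 =
      (a + b + c - 3) + 3 := by
  show a + b + c = _
  omega

theorem T_top [Infinite K] (ha2 : 2 ≤ a) (hab : a ≤ b) (hbc : b ≤ c) (hw : c + 2 ≤ a + b)
    {s : Fin 3 → Poly K} (hs : FormSeq ![a, b, c] s) {d : ℕ} (hd : d + 2 = a + b)
    {U Y : Submodule K (Poly K)} (h : PrS s d U Y) :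
    TNum a b c d (nnS s d U) (nnS s (d + 1) Y) := by
  have hS := sum_all (a := a) (b := b) (c := c) (by omega)
  obtain ⟨φ, hφ, -⟩ := hs.exists_trace hS
  have hdd : d + 1 + (c - 2) = a + b + c - 3 := by omega
  obtain ⟨hP, n1, n2⟩ := h.dual hs hS hφ hdd
  have hb := T_base ha2 hab hbc hw hs (d := c - 2) (by omega) hP
  rw [n1, n2] at hb
  exact TNum.dual (d' := c - 2) (by omega) (cnt_step hs (by omega) hab hbc (by omega) (by omega))
    (cnt_dualA hS (by omega)) (nnS_le hs h.h2) (nnS_le hs h.h5) hb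

/-- The step in the interior range. -/
theorem T_interior [IsAlgClosed K] (hZ : ZP a b f g) (ht : t.IsHomogeneous c) (hn : NZ f g t)
    (ha2 : 2 ≤ a) (hbc : b ≤ c) {e : ℕ} (hce : c ≤ e + 2) (hea : e + 4 ≤ a + b)
    {U Y : Submodule K (Poly K)} (h : PrS ![f, g, t] (e + 1) U Y)
    (IH : ∀ d0 (U0 Y0 : Submodule K (Poly K)), c ≤ d0 + 2 → d0 + 2 ≤ a + b → PrS ![f, g, t] d0 U0 Y0 →
      (d0 : ℤ) + nnS ![f, g, t] (d0 + 1) Y0 - nnS ![f, g, t] d0 U0 <
        ((e + 1 : ℕ) : ℤ) + nnS ![f, g, t] (e + 1 + 1) Y - nnS ![f, g, t] (e + 1) U →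
      TNum a b c d0 (nnS ![f, g, t] d0 U0) (nnS ![f, g, t] (d0 + 1) Y0)) :
    TNum a b c (e + 1) (nnS ![f, g, t] (e + 1) U) (nnS ![f, g, t] (e + 1 + 1) Y) := by
  have hab := hZ.hab
  have hc1 : 1 ≤ c := by omega
  have hs : FormSeq ![a, b, c] ![f, g, t] := hZ.formSeq_of_NZ hc1 ht hn
  have hS := sum_all (a := a) (b := b) (c := c) (by omega)
  obtain ⟨φ, hφ, -⟩ := hs.exists_trace hS
  obtain ⟨d', hd'⟩ : ∃ d', e + 1 + 1 + d' = a + b + c - 3 := ⟨a + b + c - 3 - (e + 1 + 1), by omega⟩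
  obtain ⟨hPD, nX, nB⟩ := h.dual hs hS hφ hd'
  have hcS := cnt_step hs (by omega) hab hbc (d := e + 1) (by omega) (by omega)
  have hcS2 := cnt_step hs (by omega) hab hbc (d := e + 1 + 1) (by omega) (by omega)
  have hn1 := nnS_le hs h.h2
  have hn2 := nnS_le hs h.h5
  have hcD : cntT ![a, b, c] (d' + 1) = cntT ![a, b, c] (e + 1) := cnt_dualA hS (by omega)
  have hdualT : TNum a b c d' (nnS ![f, g, t] d' (perpT φ Y d')) (nnS ![f, g, t] (d' + 1) (perpT φ U (d' + 1))) →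
      TNum a b c (e + 1) (nnS ![f, g, t] (e + 1) U) (nnS ![f, g, t] (e + 1 + 1) Y) := by
    intro hT
    rw [nX, nB] at hT
    exact TNum.dual (by omega) hcS hcD hn1 hn2 hT
  have hμ : (d' : ℤ) + nnS ![f, g, t] (d' + 1) (perpT φ U (d' + 1)) - nnS ![f, g, t] d' (perpT φ Y d') =
      ((e + 1 : ℕ) : ℤ) + nnS ![f, g, t] (e + 1 + 1) Y - nnS ![f, g, t] (e + 1) U := by
    rw [nX, nB]
    push_cast [Nat.cast_sub hn1, Nat.cast_sub hn2]
    unfold DAz at hcS
    push_cast at hcS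
    omega
  -- the reductions in the same degree
  rcases T_reduce (a := a) (b := b) (c := c) (by omega) h
    (fun U0 Y0 hP hlt => IH (e + 1) U0 Y0 (by omega) (by omega) hP (by push_cast at hlt ⊢; omega))
    with hT | ⟨D1, hD1, hD1p⟩
  · exact hT
  rcases T_reduce (a := a) (b := b) (c := c) (by omega) hPD
    (fun U0 Y0 hP hlt => IH d' U0 Y0 (by omega) (by omega) hP (by omega))
    with hT | ⟨D2, hD2, hD2p⟩
  · exact hdualT hT
  -- a general point
  have hf0 : f ≠ 0 := hZ.reg.ne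
  have hprod : D1 * D2 * f ≠ 0 := mul_ne_zero (mul_ne_zero hD1 hD2) hf0
  obtain ⟨p0, hp0⟩ : ∃ p0, eval p0 (D1 * D2 * f) ≠ 0 := by
    by_contra hcon
    push Not at hcon
    exact hprod (MvPolynomial.funext fun p => by rw [hcon p, map_zero])
  rw [map_mul, map_mul] at hp0
  have hp1 : eval p0 D1 ≠ 0 := fun h0 => hp0 (by rw [h0]; simp)
  have hp2 : eval p0 D2 ≠ 0 := fun h0 => hp0 (by rw [h0]; simp)
  have hp3 : eval p0 f ≠ 0 := fun h0 => hp0 (by rw [h0]; simp)
  obtain ⟨x, l, l', hP, nz1, nz2, nz3, nz4⟩ := exists_penc hZ ht hn hc1 hp3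
  have hevf : (aeval p0 : Poly K →ₐ[K] K) f ≠ 0 := by
    rw [aeval_eq_eval]
    exact hp3
  have hPS : Y ≤ LamS l l' U ⊔ FF ![f, g, t] (e + 1 + 1) :=
    le_trans (hD1p p0 hp1) (sup_le_sup_right (hP.net_le U) _)
  have hPSB : perpT φ U (d' + 1) ≤ LamS l l' (perpT φ Y d') ⊔ FF ![f, g, t] (d' + 1) :=
    le_trans (hD2p p0 hp2) (sup_le_sup_right (hP.net_le _) _)
  have hst : ∀ u ∈ HS K (e + 1), l * u ∈ Y → l' * u ∈ Y → u ∈ U := by
    intro u hu h1 h2
    rw [← perp_perp hs hS hφ (d := e + 1) (e := d' + 1) (by omega) h.h1 h.h2]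
    refine ⟨hu, fun v hv => ?_⟩
    obtain ⟨v1, hv1, v2, hv2, hi⟩ := mem_LamS_sup.1 (hPSB hv)
    have e1 : v * u = (l * u) * v1 + (l' * u) * v2 + u * (v - l * v1 - l' * v2) := by ring
    rw [e1, map_add, map_add, hv1.2 _ h1, hv2.2 _ h2, zero_add, zero_add]
    exact (hs.FF_le_perpT hφ (d := e + 1) (e := d' + 1) (by omega) (V := HS K (e + 1)) le_rfl hi).2 u hu
  have u1 := nnS_add h.h1 h.h2
  have u2 := nnS_add h.h4 h.h5
  intro hΓ
  have hΓ' : finrank K Y + finrank K (FF ![f, g, t] (e + 1)) + e + 3 <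
      finrank K U + finrank K (FF ![f, g, t] (e + 1 + 1)) + a + b := by
    push_cast at hΓ
    omega
  have hUle := h.h2
  suffices hfin : TNum a b c (e + 1) (nnS ![f, g, t] (e + 1) U) (nnS ![f, g, t] (e + 1 + 1) Y) from hfin hΓ
  rcases class_trichotomy hZ ht hn hc1 hbc hP hevf nz1 nz2 nz3 nz4 hce hea h.h2 h.h1 h.h5 h.h4 h.h3
    hPS hst hΓ' with hL | hR
  · have hL' : 2 * finrank K U + finrank K (FF ![f, g, t] (e + 1 + 1)) + finrank K (FF ![f, g, t] e) ≤
        finrank K (colS U e) + finrank K Y + 2 * finrank K (FF ![f, g, t] (e + 1)) := hL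
    have hP1 : PrS ![f, g, t] e (colS U e) U :=
      ⟨fun v hv => ⟨FF_le_HS _ e hv, fun w hw =>
        h.h1 (HS1_mul_FF_le _ e (Submodule.mul_mem_mul hw hv))⟩, colS_le U e, mul_colS_le, h.h1, h.h2⟩
    have u3 := nnS_add hP1.h1 hP1.h2
    have hT := IH e (colS U e) U (by omega) (by omega) hP1 (by push_cast; omega)
    refine TNum.down ha2 (by omega) hce (by omega) hcS hn1 hn2 hT (by omega) ?_
    intro hpos
    by_contra hcon
    have := h.whole hs (by omega)
    omega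
  · have hR' : finrank K (HS K 1 * Y ⊔ FF ![f, g, t] (e + 1 + 1 + 1) : Submodule K (Poly K)) +
        finrank K U + 2 + 2 * finrank K (FF ![f, g, t] (e + 1 + 1)) ≤
        2 * finrank K Y + finrank K (FF ![f, g, t] (e + 1 + 1 + 1)) + finrank K (FF ![f, g, t] (e + 1)) := hR
    have hP2 : PrS ![f, g, t] (e + 1 + 1) Y (HS K 1 * Y ⊔ FF ![f, g, t] (e + 1 + 1 + 1)) := by
      refine ⟨h.h4, h.h5, le_sup_left, le_sup_right, sup_le ?_ (FF_le_HS _ _)⟩
      have := mul_le_HS (le_refl (HS K 1)) h.h5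
      rwa [add_comm] at this
    have u3 := nnS_add hP2.h4 hP2.h5
    have hT := IH (e + 1 + 1) Y _ (by omega) (by omega) hP2 (by push_cast; omega)
    have hnZ := nnS_le hs hP2.h5
    refine TNum.up ha2 (by omega) (by omega) (by omega) hcS2 hn2 hnZ hT (by omega) ?_
    intro hpos
    by_contra hcon
    have h00 := h.zero hs (by show e + 1 + 3 < a + b + c; omega) (by omega)
    omega

/-- The numerical condition holds for all pairs in the middle range. -/
theorem T_main [IsAlgClosed K] (hZ : ZP a b f g) (ht : t.IsHomogeneous c) (hn : NZ f g t)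
    (ha2 : 2 ≤ a) (hbc : b ≤ c) (hw : c + 2 ≤ a + b) :
    ∀ (N : ℕ) (d : ℕ) (U Y : Submodule K (Poly K)), c ≤ d + 2 → d + 2 ≤ a + b → PrS ![f, g, t] d U Y →
      (d : ℤ) + nnS ![f, g, t] (d + 1) Y - nnS ![f, g, t] d U + T (a + b) < N →
      TNum a b c d (nnS ![f, g, t] d U) (nnS ![f, g, t] (d + 1) Y) := by
  have hab := hZ.hab
  have hc1 : 1 ≤ c := by omega
  have hs : FormSeq ![a, b, c] ![f, g, t] := hZ.formSeq_of_NZ hc1 ht hn
  have hW : ∀ (d : ℕ) (U : Submodule K (Poly K)), d + 2 ≤ a + b → U ≤ HS K d →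
      nnS ![f, g, t] d U ≤ T (a + b) := by
    intro d U hd hU
    have h1 := nnS_le hs hU
    have h2 := hs.finrank_FF_add_cnt d
    have h3 : T d ≤ T (a + b) := T_mono (by omega)
    omega
  intro N
  induction N with
  | zero =>
    intro d U Y h1 h2 hP hlt
    have := hW d U h2 hP.h2
    push_cast at hlt
    omega
  | succ N ih =>
    intro d U Y h1 h2 hP hlt
    by_cases hd1 : d + 2 = c
    · exact T_base ha2 hab hbc hw hs hd1 hP
    by_cases hd2 : d + 2 = a + b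
    · exact T_top ha2 hab hbc hw hs hd2 hP
    obtain ⟨e, rfl⟩ : ∃ e, d = e + 1 := ⟨d - 1, by omega⟩
    refine T_interior hZ ht hn ha2 hbc (by omega) (by omega) hP ?_
    intro d0 U0 Y0 a1 a2 a3 hlt0
    exact ih d0 U0 Y0 a1 a2 a3 (by push_cast at hlt hlt0 ⊢; omega)

/-- The numerical condition for all fields. -/
theorem T_any {K : Type u} [Field K] {s : Fin 3 → Poly K} (hs : FormSeq ![a, b, c] s) (ha2 : 2 ≤ a)
    (hab : a ≤ b) (hbc : b ≤ c) (hw : c + 2 ≤ a + b) {d : ℕ} (hcd : c ≤ d + 2) (hd : d + 2 ≤ a + b)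
    {X Y : Submodule K (Poly K)} (h1 : FF s d ≤ X) (h2 : X ≤ HS K d) (h3 : HS K 1 * X ≤ Y)
    (h4 : FF s (d + 1) ≤ Y) (h5 : Y ≤ HS K (d + 1)) :
    TNum a b c d (finrank K X - finrank K (FF s d)) (finrank K Y - finrank K (FF s (d + 1))) := by
  refine transfer_any (a := a) (b := b) (c := c) (d := d)
    (fun n0 n1 x y => TNum a b c d (x - n0) (y - n1)) (by omega) hab (by omega) ?_ hs h1 h2 h3 h4 h5
  intro L _ _ f g t hZ ht hn X Y a1 a2 a3 a4 a5
  have hμ : (d : ℤ) + nnS ![f, g, t] (d + 1) Y - nnS ![f, g, t] d X + T (a + b) <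
      ((d + nnS ![f, g, t] (d + 1) Y + T (a + b) + 1 : ℕ) : ℤ) := by
    push_cast
    omega
  exact T_main hZ ht hn ha2 hbc hw _ d X Y hcd hd ⟨a1, a2, a3, a4, a5⟩ hμ

end main

end Vale.Agent.Lib.P200
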