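import Vale.Agent.Lib.P200.E11Main

/-!
The lexicographic step in all degrees, for all degrees of the three forms.
-/

universe u

namespace Vale.Agent.Lib.P200
open MvPolynomial Module

variable {a b c : ℕ}

/-- The comparison of ranks, for the uncut rows. -/
theorem numeric_ext {m : Fin 3 →₀ ℕ} {l : Fin 3} (hc1 : 1 ≤ c)
    (hd : m.degree + 1 ≤ c + m 0) (hmo : OutsideT ![a, b, c] m)
    (hmo' : OutsideT ![a, b, c] (m + Finsupp.single l 1)) :
    lexRankT ![a, b, c] (m + Finsupp.single l 1) + (a - 2 - m.degree) ≤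
      lexRankT ![a, b, c] m + min (a - 1 - m 0 + 1) (tauZ a b m.degree) := by
  have hdeg := degree_add_single m l
  obtain ⟨h0, h1, h2⟩ := outside_abc.1 hmo
  obtain ⟨h3, h4, h5⟩ := outside_abc.1 hmo'
  rw [add_single_apply] at h3 h4 h5
  have hd' : (m + Finsupp.single l 1 : Fin 3 →₀ ℕ).degree ≤ c + (m + Finsupp.single l 1 : Fin 3 →₀ ℕ) 0 := by
    rw [hdeg, add_single_apply]
    omega
  rw [lexRank_ext hc1 (by omega) hmo, lexRank_ext hc1 hd' hmo', hdeg, add_single_apply,
    add_single_apply, LL_step]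
  have hdS := degree_sum m
  generalize m.degree = d at *
  fin_cases l
  · simp at h3 h4 h5 ⊢
    have e : a - 1 - m 0 = (a - 1 - (m 0 + 1)) + 1 := by omega
    rw [e, LL_succ]
    generalize LL a b (a - 1 - (m 0 + 1)) d = A
    unfold ell Dl tauZ
    rw [← e]
    generalize m 0 = i at *
    generalize m 1 = j at *
    generalize m 2 = k at *
    omega
  · simp at h3 h4 h5 ⊢
    generalize LL a b (a - 1 - m 0) d = A
    unfold Dl tauZ
    generalize m 0 = i at *
    generalize m 1 = j at *
    generalize m 2 = k at *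
    omega
  · simp at h3 h4 h5 ⊢
    generalize LL a b (a - 1 - m 0) d = A
    unfold Dl tauZ
    generalize m 0 = i at *
    generalize m 1 = j at *
    generalize m 2 = k at *
    omega

/-- A monomial of small rank lies in the first rows. -/
theorem row_small {m : Fin 3 →₀ ℕ} {p : ℕ} (hc1 : 1 ≤ c) (hp : p < a)
    (hp2 : m.degree + p < c + a) (hr : lexRankT ![a, b, c] m < LL a b p m.degree) :
    a ≤ m 0 + p := by
  by_contra hcon
  have hcard := ncard_topRows' (a := a) (b := b) (c := c) hc1 (d := m.degree) p hp hp2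
  have hsub : {n : Fin 3 →₀ ℕ | n.degree = m.degree ∧ OutsideT ![a, b, c] n ∧ a ≤ n 0 + p} ⊆
      {n : Fin 3 →₀ ℕ | n.degree = m.degree ∧ OutsideT ![a, b, c] n ∧ toLex m < toLex n} := by
    rintro n ⟨h1, h2, h3⟩
    refine ⟨h1, h2, ?_⟩
    rw [toLex_lt_iff3]
    left
    omega
  have hfin : ({n : Fin 3 →₀ ℕ | n.degree = m.degree ∧ OutsideT ![a, b, c] n ∧ toLex m < toLex n}).Finite :=
    (finite_degree_set m.degree).subset fun n hn => hn.1
  have := Set.ncard_le_ncard hsub hfin
  rw [hcard] at this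
  have h2 : lexRankT ![a, b, c] m =
    Set.ncard {n : Fin 3 →₀ ℕ | n.degree = m.degree ∧ OutsideT ![a, b, c] n ∧ toLex m < toLex n} := rfl
  omega

/-- The gain of a monomial of small rank. -/
theorem gain_small {m : Fin 3 →₀ ℕ} {l : Fin 3} {p : ℕ} (hac : a ≤ c) (hbc : b ≤ c) (hc1 : 1 ≤ c)
    (had : a ≤ m.degree + 2) (hp : p + m.degree + 2 < a + b) (hcd : c ≤ m.degree + 2)
    (hr : lexRankT ![a, b, c] m < LL a b p m.degree) (hmo : OutsideT ![a, b, c] m)
    (hmo' : OutsideT ![a, b, c] (m + Finsupp.single l 1)) :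
    lexRankT ![a, b, c] (m + Finsupp.single l 1) ≤ lexRankT ![a, b, c] m + p := by
  have h1 := row_small (b := b) hc1 (p := p) (m := m) (by omega) (by omega) hr
  have h2 := numeric_ext hc1 (by omega) hmo hmo'
  have := (outside_abc.1 hmo).1
  omega

/-- The gain of an uncut row. -/
theorem gain_top {m : Fin 3 →₀ ℕ} {l : Fin 3} (hc1 : 1 ≤ c) (hu : m.degree + 1 ≤ c + m 0)
    (had : a ≤ m.degree + 2) (hmo : OutsideT ![a, b, c] m)
    (hmo' : OutsideT ![a, b, c] (m + Finsupp.single l 1)) :
    lexRankT ![a, b, c] (m + Finsupp.single l 1) ≤ lexRankT ![a, b, c] m + tauZ a b m.degree := by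
  have h2 := numeric_ext hc1 hu hmo hmo'
  omega

/-- The lexicographic step in the middle degrees. -/
theorem lexStep_interior {K : Type u} [Field K] {s : Fin 3 → Poly K} (hs : FormSeq ![a, b, c] s)
    (ha2 : 2 ≤ a) (hab : a ≤ b) (hbc : b ≤ c) {d : ℕ} (hc : c ≤ d + 1) (hd : d + 3 ≤ a + b) :
    LexStepAt ![a, b, c] s d := by
  intro X Y h1 h2 h3 h4 h5 m hm hmo hr l hmo'
  have hc1 : 1 ≤ c := by omega
  have hfX := finite_of_le_HS h2
  have hfY := finite_of_le_HS h5
  have hfF := finite_of_le_HS (FF_le_HS s d)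
  have hfF1 := finite_of_le_HS (FF_le_HS s (d + 1))
  have hT := T_any hs ha2 hab hbc (by omega) (d := d) (by omega) (by omega) h1 h2 h3 h4 h5
  have hS := sum_all (a := a) (b := b) (c := c) (by omega)
  have hcS := cnt_step hs (by omega) hab hbc (d := d) (by omega) (by omega)
  unfold DAz at hcS
  push_cast at hcS
  have hd1 : (m + Finsupp.single l 1 : Fin 3 →₀ ℕ).degree = d + 1 := by
    rw [degree_add_single, hm]
  have hcomp := compA_step hmo'
  have hrd1 := rank_dualA hS hmo'
  rw [hd1] at hrd1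
  have hrd2 := rank_dualA hS hmo
  rw [hm, ← hcomp] at hrd2
  have hdc := degree_compA hS hmo'
  rw [hd1] at hdc
  have hmoC := outside_compA hmo'
  have hmoC' : OutsideT ![a, b, c] (compA ![a, b, c] (m + Finsupp.single l 1) + Finsupp.single l 1) := by
    rw [hcomp]
    exact outside_compA hmo
  set mc := compA ![a, b, c] (m + Finsupp.single l 1) with hmc
  generalize hN : finrank K X - finrank K (FF s d) = n at *
  generalize hNY : finrank K Y - finrank K (FF s (d + 1)) = nY at *
  have hnY : nY ≤ cntT ![a, b, c] (d + 1) := by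
    have e1 := hs.finrank_FF_add_cnt (d + 1)
    have e2 := Submodule.finrank_mono h5
    rw [finrank_HS] at e2
    omega
  by_contra hcon
  push Not at hcon
  by_cases hΓ : (nY : ℤ) - n < (a : ℤ) + b - 2 - d
  · rcases hT hΓ with alt | alt
    · by_cases hG : (nY : ℤ) - n ≤ 0
      · rw [LLz_neg a b hG] at alt
        omega
      · obtain ⟨p, hp⟩ : ∃ p : ℕ, (nY : ℤ) - n = p := ⟨((nY : ℤ) - n).toNat, by omega⟩
        rw [hp, LLz_nat] at alt
        have := gain_small (m := m) (l := l) (p := p) (by omega) hbc hc1 (by omega)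
          (by rw [hm]; omega) (by rw [hm]; omega) (by rw [hm]; omega) hmo hmo'
        omega
    · have e0 : a + b + c - 3 - d - 1 = mc.degree := by omega
      rw [e0] at alt
      by_cases hG : (nY : ℤ) - n - DAz a b c d ≤ 0
      · rw [LLz_neg a b hG] at alt
        omega
      · obtain ⟨p, hp⟩ : ∃ p : ℕ, (nY : ℤ) - n - DAz a b c d = p :=
          ⟨((nY : ℤ) - n - DAz a b c d).toNat, by omega⟩
        rw [hp, LLz_nat] at alt
        unfold DAz at hp
        push_cast at hp
        have := gain_small (m := mc) (l := l) (p := p) (by omega) hbc hc1 (by omega)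
          (by omega) (by omega) (by omega) hmoC hmoC'
        omega
  · by_cases hu : d + 1 ≤ c + m 0
    · have := gain_top (m := m) (l := l) hc1 (by rw [hm]; omega) (by rw [hm]; omega) hmo hmo'
      rw [hm] at this
      unfold tauZ at this
      omega
    · have hmc0 : mc 0 = a - 1 - (m + Finsupp.single l 1 : Fin 3 →₀ ℕ) 0 := compA_0 _
      obtain ⟨x1, x2, x3⟩ := outside_abc.1 hmo'
      have hm0 : (m + Finsupp.single l 1 : Fin 3 →₀ ℕ) 0 ≤ m 0 + 1 := by
        rw [add_single_apply]
        split_ifs <;> omega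
      have := gain_top (m := mc) (l := l) hc1 (by omega) (by omega) hmoC hmoC'
      unfold tauZ at this
      omega

/-- The lexicographic step in all degrees. -/
theorem lexStep_all {K : Type u} [Field K] {s : Fin 3 → Poly K} (hs : FormSeq ![a, b, c] s)
    (ha2 : 2 ≤ a) (hab : a ≤ b) (hbc : b ≤ c) (d : ℕ) : LexStepAt ![a, b, c] s d := by
  by_cases h1 : d + 1 < c
  · exact lexStep_pair hs ha2 hab h1
  by_cases h2 : d + 3 ≤ a + b
  · exact lexStep_interior hs ha2 hab hbc (by omega) h2
  intro X Y h1' h2' h3' h4' h5' m hm hmo hr l hmo'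
  have hS := sum_all (a := a) (b := b) (c := c) (by omega)
  have hcm := compA_step hmo'
  have hdc := degree_compA hS hmo'
  rw [degree_add_single, hm] at hdc
  obtain ⟨e, he⟩ : ∃ e, e = (compA ![a, b, c] (m + Finsupp.single l 1)).degree := ⟨_, rfl⟩
  refine lexStep_via_dual hs hS (d := d) (e := e) (by omega) hm hmo hmo' ?_ h1' h2' h3' h4' h5' hr
  intro X' Y' a1 a2 a3 a4 a5 hr'
  have := lexStep_pair hs ha2 hab (d := e) (by omega) X' Y' a1 a2 a3 a4 a5
    (compA ![a, b, c] (m + Finsupp.single l 1)) he.symm (outside_compA hmo') hr' l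
    (by rw [hcm]; exact outside_compA hmo)
  rwa [hcm] at this

end Vale.Agent.Lib.P200
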