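import Mathlib

/-!
Strings for a multiplication operator on a finite-dimensional subspace of a commutative algebra.
-/

namespace Vale.Agent.Lib.P200
open Module Polynomial

variable {K : Type*} [Field K] {B : Type*} [CommRing B] [Algebra K B]

/-- The elements of `U` whose product with `t` stays in `U`. -/
def Vt (t : B) (U : Submodule K B) : Submodule K B :=
  U ⊓ U.comap (LinearMap.mulLeft K t)

theorem mem_Vt {t : B} {U : Submodule K B} {w : B} : w ∈ Vt t U ↔ w ∈ U ∧ t * w ∈ U := Iff.rfl

theorem Vt_le (t : B) (U : Submodule K B) : Vt t U ≤ U := inf_le_left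

theorem Vt_mono (t : B) {U V : Submodule K B} (h : V ≤ U) : Vt t V ≤ Vt t U :=
  fun _ hw => ⟨h hw.1, h hw.2⟩

/-- Degree below `n`, in terms of coefficients. -/
def Dg (p : K[X]) (n : ℕ) : Prop := ∀ k, n ≤ k → p.coeff k = 0

theorem Dg_zero (n : ℕ) : Dg (0 : K[X]) n := fun _ _ => coeff_zero _

theorem Dg.add {p q : K[X]} {n : ℕ} (hp : Dg p n) (hq : Dg q n) : Dg (p + q) n := fun k hk => by
  rw [coeff_add, hp k hk, hq k hk, add_zero]

theorem Dg.sub {p q : K[X]} {n : ℕ} (hp : Dg p n) (hq : Dg q n) : Dg (p - q) n := fun k hk => by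
  rw [coeff_sub, hp k hk, hq k hk, sub_zero]

theorem Dg.smul {p : K[X]} {n : ℕ} (c : K) (hp : Dg p n) : Dg (c • p) n := fun k hk => by
  rw [coeff_smul, hp k hk, smul_zero]

theorem Dg.mono {p : K[X]} {n n' : ℕ} (hp : Dg p n) (h : n ≤ n') : Dg p n' :=
  fun k hk => hp k (h.trans hk)

theorem Dg.X_mul {p : K[X]} {n : ℕ} (hp : Dg p n) : Dg (X * p) (n + 1) := fun k hk => by
  obtain ⟨k, rfl⟩ : ∃ j, k = j + 1 := ⟨k - 1, by omega⟩
  rw [coeff_X_mul]
  exact hp k (by omega)

theorem Dg_C_mul_X_pow (a : K) (k : ℕ) : Dg (C a * X ^ k) (k + 1) := fun j hj => by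
  rw [coeff_C_mul, coeff_X_pow, if_neg (by omega), mul_zero]

theorem Dg_C (a : K) {n : ℕ} (hn : 1 ≤ n) : Dg (C a) n := fun j hj => by
  rw [coeff_C, if_neg (by omega)]

theorem Dg.of_pow_mul {p : K[X]} {n r : ℕ} (hp : Dg (X ^ r * p) n) : Dg p (n - r) := fun k hk => by
  have := hp (k + r) (by omega)
  rwa [coeff_X_pow_mul] at this

theorem eq_zero_of_Dg_zero {p : K[X]} (hp : Dg p 0) : p = 0 := by
  ext k
  rw [hp k (Nat.zero_le _), coeff_zero]

theorem Dg_zero_iff {p : K[X]} : Dg p 0 ↔ p = 0 :=
  ⟨eq_zero_of_Dg_zero, fun h => h ▸ Dg_zero 0⟩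

/-- Linear combinations with polynomial coefficients in `t`. -/
noncomputable def srep {ι : Type} [Fintype ι] (t : B) (ε : ι → B) (p : ι → K[X]) : B :=
  ∑ i, aeval t (p i) * ε i

theorem srep_add {ι : Type} [Fintype ι] (t : B) (ε : ι → B) (p q : ι → K[X]) :
    srep t ε (p + q) = srep t ε p + srep t ε q := by
  simp only [srep, Pi.add_apply, map_add, add_mul, Finset.sum_add_distrib]

theorem srep_add' {ι : Type} [Fintype ι] (t : B) (ε : ι → B) (p q : ι → K[X]) :
    srep t ε (fun i => p i + q i) = srep t ε p + srep t ε q := by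
  simp only [srep, map_add, add_mul, Finset.sum_add_distrib]

theorem srep_sub {ι : Type} [Fintype ι] (t : B) (ε : ι → B) (p q : ι → K[X]) :
    srep t ε (p - q) = srep t ε p - srep t ε q := by
  simp only [srep, Pi.sub_apply, map_sub, sub_mul, Finset.sum_sub_distrib]

theorem srep_smul {ι : Type} [Fintype ι] (t : B) (ε : ι → B) (c : K) (p : ι → K[X]) :
    srep t ε (c • p) = c • srep t ε p := by
  simp only [srep, Pi.smul_apply, map_smul, Finset.smul_sum, smul_mul_assoc]

theorem srep_X_mul {ι : Type} [Fintype ι] (t : B) (ε : ι → B) (p : ι → K[X]) :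
    srep t ε (fun i => X * p i) = t * srep t ε p := by
  simp only [srep, Finset.mul_sum, map_mul, aeval_X, mul_assoc]

theorem srep_zero {ι : Type} [Fintype ι] (t : B) (ε : ι → B) :
    srep t ε (0 : ι → K[X]) = 0 := by
  simp [srep]

/-- The string structure. -/
structure IsStrings {ι : Type} [Fintype ι] (t : B) (U : Submodule K B) (m : ι → ℕ) (ε : ι → B) :
    Prop where
  mem_iff : ∀ u, u ∈ U ↔ ∃ p : ι → K[X], (∀ i, Dg (p i) (m i + 1)) ∧ u = srep t ε p
  indep : ∀ p : ι → K[X], (∀ i, Dg (p i) (m i + 1)) → srep t ε p = 0 → p = 0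
  vt : ∀ w, w ∈ Vt t U ↔ ∃ p : ι → K[X], (∀ i, Dg (p i) (m i)) ∧ w = srep t ε p
  card : Fintype.card ι + finrank K (Vt t U) = finrank K U

section

variable {ι : Type} [Fintype ι] {t : B} {U : Submodule K B} {m : ι → ℕ} {ε : ι → B}

/-- Independence one degree further. -/
theorem IsStrings.indep1 (h : IsStrings t U m ε) (p : ι → K[X])
    (hp : ∀ i, Dg (p i) (m i + 2)) (h0 : srep t ε p = 0) : p = 0 := by
  classical
  -- split off the top coefficient
  set a : ι → K := fun i => (p i).coeff (m i + 1) with ha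
  set q : ι → K[X] := fun i => p i - C (a i) * X ^ (m i + 1) with hq
  have hqd : ∀ i, Dg (q i) (m i + 1) := by
    intro i k hk
    simp only [hq, coeff_sub, coeff_C_mul, coeff_X_pow, ha]
    by_cases hk2 : k = m i + 1
    · subst hk2
      simp
    · rw [if_neg hk2, mul_zero, sub_zero]
      exact hp i k (by omega)
  set r : ι → K[X] := fun i => C (a i) * X ^ (m i) with hr
  have hrd : ∀ i, Dg (r i) (m i + 1) := fun i => Dg_C_mul_X_pow _ _
  have hsplit : srep t ε p = srep t ε q + t * srep t ε r := by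
    rw [← srep_X_mul, ← srep_add]
    congr 1
    funext i
    simp only [hq, hr, Pi.add_apply]
    ring
  have hyU : srep t ε r ∈ U := (h.mem_iff _).2 ⟨r, hrd, rfl⟩
  have hqU : srep t ε q ∈ U := (h.mem_iff _).2 ⟨q, hqd, rfl⟩
  have hty : t * srep t ε r = - srep t ε q := by
    rw [h0] at hsplit
    linear_combination -hsplit
  have hyV : srep t ε r ∈ Vt t U := mem_Vt.2 ⟨hyU, by rw [hty]; exact U.neg_mem hqU⟩
  obtain ⟨w, hw, ew⟩ := (h.vt _).1 hyV
  have hdiff : r - w = 0 := by
    refine h.indep _ (fun i => ?_) ?_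
    · exact (hrd i).sub ((hw i).mono (by omega))
    · rw [srep_sub, ← ew, sub_self]
  have hrw : r = w := sub_eq_zero.1 hdiff
  have ha0 : ∀ i, a i = 0 := by
    intro i
    have h1 : (r i).coeff (m i) = a i := by
      simp [hr]
    rw [← h1, hrw]
    exact hw i _ le_rfl
  have hqp : q = p := by
    funext i
    simp [hq, ha0]
  have hq0 : q = 0 := by
    refine h.indep _ hqd ?_
    have : srep t ε r = 0 := by
      have : r = 0 := by
        funext i
        simp [hr, ha0]
      rw [this, srep_zero]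
    rw [this, mul_zero, add_zero] at hsplit
    rw [← hsplit, h0]
  rw [← hqp, hq0]

end

section ex1

variable {t : B}

theorem finrank_map_mulLeft_of_inj {V : Submodule K B} (h0 : ∀ w ∈ V, t * w = 0 → w = 0) :
    finrank K (V.map (LinearMap.mulLeft K t)) = finrank K V := by
  have hinj : Function.Injective ((LinearMap.mulLeft K t).comp V.subtype) := by
    rw [← LinearMap.ker_eq_bot, LinearMap.ker_eq_bot']
    intro w hw
    have := h0 w.1 w.2 (by simpa using hw)
    exact Subtype.ext this
  have := LinearMap.finrank_range_of_inj hinj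
  rwa [LinearMap.range_comp, Submodule.range_subtype] at this

/-- The span of `V` and `t V` has the expected dimension. -/
theorem finrank_sup_mul {V : Submodule K B} [Module.Finite K V]
    (h0 : ∀ w ∈ V, t * w = 0 → w = 0) :
    finrank K (V ⊔ V.map (LinearMap.mulLeft K t) : Submodule K B) + finrank K (Vt t V) =
      2 * finrank K V := by
  have hfin : Module.Finite K (V.map (LinearMap.mulLeft K t)) := inferInstance
  have e1 := Submodule.finrank_sup_add_finrank_inf_eq V (V.map (LinearMap.mulLeft K t))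
  have e2 := finrank_map_mulLeft_of_inj (t := t) h0
  have e3 : V ⊓ V.map (LinearMap.mulLeft K t) = (Vt t V).map (LinearMap.mulLeft K t) := by
    ext y
    constructor
    · rintro ⟨hy, z, hz, rfl⟩
      exact ⟨z, mem_Vt.2 ⟨hz, hy⟩, rfl⟩
    · rintro ⟨z, hz, rfl⟩
      exact ⟨(mem_Vt.1 hz).2, z, (mem_Vt.1 hz).1, rfl⟩
  have e4 : finrank K ((Vt t V).map (LinearMap.mulLeft K t)) = finrank K (Vt t V) :=
    finrank_map_mulLeft_of_inj (fun w hw => h0 w (mem_Vt.1 hw).1)
  rw [e3, e4, e2] at e1
  omega

/-- The description of `V + t V` by polynomials of one more degree. -/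
theorem mem_sup_iff_srep {ι : Type} [Fintype ι] {V : Submodule K B} {m : ι → ℕ} {ε : ι → B}
    (h : IsStrings t V m ε) (w : B) :
    w ∈ (V ⊔ V.map (LinearMap.mulLeft K t) : Submodule K B) ↔
      ∃ p : ι → K[X], (∀ i, Dg (p i) (m i + 2)) ∧ w = srep t ε p := by
  constructor
  · intro hw
    obtain ⟨v1, hv1, y, ⟨v2, hv2, rfl⟩, rfl⟩ := Submodule.mem_sup.1 hw
    obtain ⟨p1, hp1, rfl⟩ := (h.mem_iff _).1 hv1
    obtain ⟨p2, hp2, rfl⟩ := (h.mem_iff _).1 hv2
    refine ⟨fun i => p1 i + X * p2 i, fun i => ((hp1 i).mono (Nat.le_succ _)).add (hp2 i).X_mul, ?_⟩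
    rw [srep_add', srep_X_mul, LinearMap.mulLeft_apply]
  · rintro ⟨p, hp, rfl⟩
    have hsplit : srep t ε p = srep t ε (fun i => C ((p i).coeff 0)) +
        t * srep t ε (fun i => divX (p i)) := by
      rw [← srep_X_mul]
      rw [← srep_add']
      congr 1
      funext i
      conv_lhs => rw [← divX_mul_X_add (p i)]
      ring
    rw [hsplit]
    refine Submodule.add_mem _ (Submodule.mem_sup_left ?_) (Submodule.mem_sup_right ?_)
    · exact (h.mem_iff _).2 ⟨_, fun i => Dg_C _ (by omega), rfl⟩
    · refine ⟨_, (h.mem_iff _).2 ⟨fun i => divX (p i), fun i k hk => ?_, rfl⟩, rfl⟩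
      rw [coeff_divX]
      exact hp i _ (by omega)

/-- One step of the construction of strings. -/
theorem IsStrings.step {ι : Type} [Fintype ι] {U : Submodule K B} {m : ι → ℕ} {ε : ι → B}
    [Module.Finite K U]
    (h : IsStrings t (Vt t U) m ε) (h0 : ∀ w ∈ Vt t U, t * w = 0 → w = 0) :
    ∃ (ι' : Type) (_ : Fintype ι') (m' : ι' → ℕ) (ε' : ι' → B), IsStrings t U m' ε' := by
  classical
  set V := Vt t U with hV
  have hVU : V ≤ U := Vt_le t U
  have hfV : Module.Finite K V := Submodule.finiteDimensional_of_le hVU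
  set W : Submodule K B := V ⊔ V.map (LinearMap.mulLeft K t) with hW
  have hWU : W ≤ U := by
    refine sup_le hVU ?_
    rintro _ ⟨v, hv, rfl⟩
    exact (mem_Vt.1 hv).2
  obtain ⟨C0, hC0⟩ := Submodule.exists_isCompl (W.comap U.subtype)
  set C' : Submodule K B := C0.map U.subtype with hC'
  have hC'U : C' ≤ U := by
    rintro _ ⟨c, _, rfl⟩
    exact c.2
  have hfC : Module.Finite K C' := Submodule.finiteDimensional_of_le hC'U
  have hfW : Module.Finite K W := Submodule.finiteDimensional_of_le hWU
  have hdisj : W ⊓ C' = ⊥ := by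
    rw [eq_bot_iff]
    rintro x ⟨hx1, c, hc, rfl⟩
    have : c ∈ W.comap U.subtype ⊓ C0 := ⟨hx1, hc⟩
    rw [hC0.inf_eq_bot] at this
    have h3 : c = 0 := (Submodule.mem_bot K).1 this
    simp [h3]
  have hsup : W ⊔ C' = U := by
    refine le_antisymm (sup_le hWU hC'U) ?_
    intro u hu
    have : (⟨u, hu⟩ : U) ∈ W.comap U.subtype ⊔ C0 := by
      rw [hC0.sup_eq_top]
      trivial
    obtain ⟨a, ha, c, hc, e⟩ := Submodule.mem_sup.1 this
    have e2 : u = a.1 + c.1 := by
      have := congrArg Subtype.val e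
      exact this.symm
    rw [e2]
    exact Submodule.add_mem _ (Submodule.mem_sup_left ha)
      (Submodule.mem_sup_right ⟨c, hc, rfl⟩)
  let b := finBasis K C'
  refine ⟨ι ⊕ Fin (finrank K C'), inferInstance,
    fun o => Sum.elim (fun i => m i + 1) (fun _ => 0) o,
    fun o => Sum.elim ε (fun k => (b k : B)) o, ?_⟩
  -- splitting the combinations
  have hsplit : ∀ p : ι ⊕ Fin (finrank K C') → K[X],
      srep t (fun o => Sum.elim ε (fun k => (b k : B)) o) p =
        srep t ε (fun i => p (Sum.inl i)) + ∑ k, aeval t (p (Sum.inr k)) * (b k : B) := by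
    intro p
    simp only [srep, Fintype.sum_sum_type, Sum.elim_inl, Sum.elim_inr]
  -- constants
  have hconst : ∀ (q : K[X]), Dg q 1 → ∃ c : K, q = C c ∧ aeval t q = algebraMap K B c := by
    intro q hq
    refine ⟨q.coeff 0, ?_, ?_⟩
    · ext k
      rw [coeff_C]
      split_ifs with h
      · rw [h]
      · exact hq k (by omega)
    · have : q = C (q.coeff 0) := by
        ext k
        rw [coeff_C]
        split_ifs with h
        · rw [h]
        · exact hq k (by omega)
      conv_lhs => rw [this]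
      rw [aeval_C]
  have hsumC : ∀ p : Fin (finrank K C') → K[X], (∀ k, Dg (p k) 1) →
      ∃ c : Fin (finrank K C') → K, (∀ k, p k = C (c k)) ∧
        ∑ k, aeval t (p k) * (b k : B) = ((∑ k, c k • b k : C') : B) := by
    intro p hp
    choose c hc1 hc2 using fun k => hconst (p k) (hp k)
    refine ⟨c, hc1, ?_⟩
    rw [Submodule.coe_sum]
    refine Finset.sum_congr rfl fun k _ => ?_
    rw [hc2, Submodule.coe_smul, Algebra.smul_def]
  refine ⟨?_, ?_, ?_, ?_⟩
  · -- membership
    intro u
    constructor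
    · intro hu
      rw [← hsup] at hu
      obtain ⟨w, hw, c, hc, rfl⟩ := Submodule.mem_sup.1 hu
      obtain ⟨p, hp, rfl⟩ := (mem_sup_iff_srep h w).1 hw
      refine ⟨Sum.elim p (fun k => C (b.repr ⟨c, hc⟩ k)), ?_, ?_⟩
      · rintro (i | k)
        · exact hp i
        · exact Dg_C _ (by simp)
      · rw [hsplit]
        congr 1
        have e := b.sum_repr ⟨c, hc⟩
        have e2 := congrArg Subtype.val e
        simp only [Submodule.coe_sum, Submodule.coe_smul] at e2
        refine Eq.trans e2.symm ?_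
        refine Finset.sum_congr rfl fun k _ => ?_
        simp [aeval_C, Algebra.smul_def]
    · rintro ⟨p, hp, rfl⟩
      rw [hsplit]
      obtain ⟨c, _, ec⟩ := hsumC (fun k => p (Sum.inr k)) (fun k => hp (Sum.inr k))
      rw [ec]
      refine U.add_mem (hWU ((mem_sup_iff_srep h _).2 ⟨_, fun i => hp (Sum.inl i), rfl⟩)) ?_
      exact hC'U (Subtype.property _)
  · -- independence
    intro p hp e
    rw [hsplit] at e
    obtain ⟨c, hc1, ec⟩ := hsumC (fun k => p (Sum.inr k)) (fun k => hp (Sum.inr k))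
    rw [ec] at e
    have hwW : srep t ε (fun i => p (Sum.inl i)) ∈ W :=
      (mem_sup_iff_srep h _).2 ⟨_, fun i => hp (Sum.inl i), rfl⟩
    have hcC : ((∑ k, c k • b k : C') : B) ∈ C' := Subtype.property _
    have hmem : srep t ε (fun i => p (Sum.inl i)) ∈ W ⊓ C' := by
      refine ⟨hwW, ?_⟩
      rw [eq_neg_of_add_eq_zero_left e]
      exact C'.neg_mem hcC
    rw [hdisj] at hmem
    have hz1 : srep t ε (fun i => p (Sum.inl i)) = 0 := (Submodule.mem_bot K).1 hmem
    have hz2 : ((∑ k, c k • b k : C') : B) = 0 := by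
      rw [hz1, zero_add] at e
      exact e
    have hz3 : (∑ k, c k • b k : C') = 0 := Subtype.ext hz2
    have hz4 : ∀ k, c k = 0 := by
      have := Fintype.linearIndependent_iff.1 b.linearIndependent c hz3
      exact this
    have hz5 : (fun i => p (Sum.inl i)) = 0 := h.indep1 _ (fun i => hp (Sum.inl i)) hz1
    funext o
    rcases o with i | k
    · exact congrFun hz5 i
    · rw [hc1 k, hz4 k]
      simp
  · -- the lower part
    intro w
    constructor
    · intro hw
      obtain ⟨p, hp, rfl⟩ := (h.mem_iff _).1 hw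
      refine ⟨Sum.elim p (fun _ => 0), ?_, ?_⟩
      · rintro (i | k)
        · exact hp i
        · exact Dg_zero _
      · rw [hsplit]
        simp
    · rintro ⟨p, hp, rfl⟩
      rw [hsplit]
      have hz : ∀ k, p (Sum.inr k) = 0 := fun k => eq_zero_of_Dg_zero (hp (Sum.inr k))
      simp only [hz, map_zero, zero_mul, Finset.sum_const_zero, add_zero]
      exact (h.mem_iff _).2 ⟨_, fun i => hp (Sum.inl i), rfl⟩
  · -- the count
    have e1 := Submodule.finrank_sup_add_finrank_inf_eq W C'
    rw [hdisj, hsup, finrank_bot] at e1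
    have e2 := finrank_sup_mul (t := t) (V := V) h0
    have e3 := h.card
    rw [Fintype.card_sum, Fintype.card_fin]
    rw [← hW] at e2
    have e4 : finrank K (Vt t U) = finrank K V := rfl
    omega

/-- The empty string structure. -/
theorem isStrings_bot (t : B) :
    IsStrings t (⊥ : Submodule K B) (fun e : Empty => e.elim) (fun e : Empty => e.elim) where
  mem_iff := by
    intro u
    constructor
    · intro hu
      refine ⟨fun e => e.elim, fun e => e.elim, ?_⟩
      rw [(Submodule.mem_bot K).1 hu]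
      simp [srep]
    · rintro ⟨p, _, rfl⟩
      simp [srep]
  indep := by
    intro p _ _
    funext e
    exact e.elim
  vt := by
    intro w
    constructor
    · intro hw
      refine ⟨fun e => e.elim, fun e => e.elim, ?_⟩
      rw [(Submodule.mem_bot K).1 (mem_Vt.1 hw).1]
      simp [srep]
    · rintro ⟨p, _, rfl⟩
      have : srep t (fun e : Empty => e.elim) p = (0 : B) := by
        simp [srep]
      rw [this]
      exact Submodule.zero_mem _
  card := by
    have : Vt t (⊥ : Submodule K B) = ⊥ := le_bot_iff.1 (Vt_le t ⊥)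
    rw [this]
    simp

theorem exists_strings [IsAlgClosed K] (t : B) : ∀ (N : ℕ) (U : Submodule K B) [Module.Finite K U],
    finrank K U ≤ N → (∀ (c : K), ∀ w ∈ Vt t U, t * w = c • w → w = 0) →
    ∃ (ι : Type) (_ : Fintype ι) (m : ι → ℕ) (ε : ι → B), IsStrings t U m ε := by
  intro N
  induction N with
  | zero =>
    intro U _ hN _
    have hU : U = ⊥ := by
      rw [← Submodule.finrank_eq_zero]
      omega
    subst hU
    exact ⟨Empty, inferInstance, _, _, isStrings_bot t⟩
  | succ N ih =>
    intro U _ hN hE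
    by_cases hU : U = ⊥
    · subst hU
      exact ⟨Empty, inferInstance, _, _, isStrings_bot t⟩
    have hlt : Vt t U < U := by
      refine lt_of_le_of_ne (Vt_le t U) ?_
      intro he
      have hinv : ∀ w ∈ U, t * w ∈ U := by
        intro w hw
        rw [← he] at hw
        exact (mem_Vt.1 hw).2
      have hnt : Nontrivial U := Submodule.nontrivial_iff_ne_bot.2 hU
      let T : Module.End K U := (LinearMap.mulLeft K t).restrict hinv
      obtain ⟨c, hc⟩ := Module.End.exists_eigenvalue T
      obtain ⟨w, hw⟩ := hc.exists_hasEigenvector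
      have h1 : t * (w : B) = c • (w : B) := congrArg Subtype.val hw.apply_eq_smul
      have h2 : (w : B) ∈ Vt t U := by
        rw [he]
        exact w.2
      exact hw.2 (Subtype.ext (hE c _ h2 h1))
    have hfV : Module.Finite K (Vt t U) := Submodule.finiteDimensional_of_le (Vt_le t U)
    have hltf := Submodule.finrank_lt_finrank_of_lt hlt
    obtain ⟨ι, hι, m, ε, hs⟩ := ih (Vt t U) (by omega)
      (fun c w hw => hE c w (Vt_le t _ hw))
    have h0 : ∀ w ∈ Vt t U, t * w = 0 → w = 0 := by
      intro w hw e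
      exact hE 0 w hw (by rw [e, zero_smul])
    exact hs.step h0

theorem srep_pow_mul {ι : Type} [Fintype ι] (t : B) (ε : ι → B) (p : ι → K[X]) (r : ℕ) :
    srep t ε (fun i => X ^ r * p i) = t ^ r * srep t ε p := by
  simp only [srep, Finset.mul_sum, map_mul, map_pow, aeval_X, mul_assoc]

/-- The elements `t ^ r * ε k` as combinations. -/
theorem srep_single {ι : Type} [Fintype ι] [DecidableEq ι] (t : B) (ε : ι → B) (k : ι) (r : ℕ) :
    srep t ε (fun j => if j = k then (X ^ r : K[X]) else 0) = t ^ r * ε k := by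
  simp only [srep, ite_mul, apply_ite (aeval t), map_pow, aeval_X, map_zero, zero_mul,
    Finset.sum_ite_eq', Finset.mem_univ, if_true]

theorem Dg_X_pow {r n : ℕ} (h : r < n) : Dg (X ^ r : K[X]) n := fun k hk => by
  rw [coeff_X_pow, if_neg (by omega)]

/-- The action of a second operator on the strings. -/
theorem IsStrings.exists_C {ι : Type} [Fintype ι] {U : Submodule K B} {m : ι → ℕ} {ε : ι → B}
    (h : IsStrings t U m ε) {ξ : B} (hξ1 : ∀ w ∈ Vt t U, ξ * w ∈ U)
    (hξ2 : ∀ u ∈ U, ξ * u ∈ (U ⊔ U.map (LinearMap.mulLeft K t) : Submodule K B)) (k : ι) :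
    ∃ C' : ι → K[X], (∀ j, Dg (C' j) (m j + 2 - m k)) ∧ ξ * ε k = srep t ε C' := by
  classical
  have hsingU : ∀ r, r ≤ m k → t ^ r * ε k ∈ U := by
    intro r hr
    rw [← srep_single (K := K)]
    refine (h.mem_iff _).2 ⟨_, fun j => ?_, rfl⟩
    by_cases hj : j = k
    · subst hj
      simpa using Dg_X_pow (K := K) (r := r) (n := m j + 1) (by omega)
    · simpa [hj] using Dg_zero (K := K) (m j + 1)
  have hsingV : ∀ r, r < m k → t ^ r * ε k ∈ Vt t U := by
    intro r hr
    refine mem_Vt.2 ⟨hsingU r hr.le, ?_⟩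
    have := hsingU (r + 1) hr
    rwa [pow_succ', mul_assoc] at this
  by_cases hm : m k = 0
  · have h1 := hξ2 (ε k) (by simpa using hsingU 0 (by omega))
    obtain ⟨p, hp, e⟩ := (mem_sup_iff_srep h _).1 h1
    exact ⟨p, fun j => by rw [hm]; exact hp j, e⟩
  · have h1 := hξ1 (ε k) (by simpa using hsingV 0 (by omega))
    obtain ⟨C', hC, e⟩ := (h.mem_iff _).1 h1
    refine ⟨C', ?_, e⟩
    have key : ∀ r, r < m k → ∀ j, Dg (X ^ r * C' j) (m j + 1) := by
      intro r
      induction r with
      | zero =>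
        intro _ j
        simpa using hC j
      | succ r ih =>
        intro hr j
        have h2 := hξ1 _ (hsingV (r + 1) hr)
        obtain ⟨b, hb, e2⟩ := (h.mem_iff _).1 h2
        have h3 : b - (fun i => X ^ (r + 1) * C' i) = 0 := by
          refine h.indep1 _ (fun i => ?_) ?_
          · refine ((hb i).mono (by omega)).sub ?_
            have := (ih (by omega) i).X_mul
            rwa [← mul_assoc, ← pow_succ'] at this
          · rw [srep_sub, srep_pow_mul, ← e2, ← e]
            ring
        have h4 : b = fun i => X ^ (r + 1) * C' i := sub_eq_zero.1 h3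
        rw [h4] at hb
        exact hb j
    intro j
    have := (key (m k - 1) (by omega) j).of_pow_mul
    rwa [show m j + 1 - (m k - 1) = m j + 2 - m k by omega] at this

end ex1

end Vale.Agent.Lib.P200
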