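import Vale.Agent.Lib.P200.E1Strings
import Vale.Agent.Lib.P200.Basic

/-!
From strings to a form annihilating a subspace: the determinant construction.
-/

namespace Vale.Agent.Lib.P200
open Module

variable {K : Type*} [Field K] {B : Type*} [CommRing B] [Algebra K B]

/-- Homogenisation of a polynomial in `l' / l`. -/
noncomputable def hP (l l' : Poly K) (p : Polynomial K) (d : ℕ) : Poly K :=
  ∑ i ∈ Finset.range (d + 1), MvPolynomial.C (p.coeff i) * l' ^ i * l ^ (d - i)

theorem hP_zero (l l' : Poly K) (d : ℕ) : hP l l' 0 d = 0 := by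
  simp [hP]

theorem hP_hom {l l' : Poly K} (hl : l.IsHomogeneous 1) (hl' : l'.IsHomogeneous 1)
    (p : Polynomial K) (d : ℕ) : (hP l l' p d).IsHomogeneous d := by
  refine MvPolynomial.IsHomogeneous.sum _ _ _ fun i hi => ?_
  have hi' : i ≤ d := by
    have := Finset.mem_range.1 hi
    omega
  have h1 := (MvPolynomial.isHomogeneous_C (Fin 3) (p.coeff i)).mul (hl'.pow i)
  have h2 := h1.mul (hl.pow (d - i))
  have e : 0 + 1 * i + 1 * (d - i) = d := by omega
  rwa [e] at h2

theorem hP_map {l l' : Poly K} (π : Poly K →ₐ[K] B) {y : B} (hy : π l * y = 1) {p : Polynomial K}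
    {d : ℕ} (hp : Dg p (d + 1)) :
    π (hP l l' p d) = π l ^ d * Polynomial.aeval (y * π l') p := by
  have hnd : p.natDegree < d + 1 := by
    rw [Nat.lt_succ_iff, Polynomial.natDegree_le_iff_coeff_eq_zero]
    intro N hN
    exact hp N hN
  rw [Polynomial.aeval_eq_sum_range' hnd, hP, map_sum, Finset.mul_sum]
  refine Finset.sum_congr rfl fun i hi => ?_
  have hi' : i ≤ d := by
    have := Finset.mem_range.1 hi
    omega
  rw [map_mul, map_mul, map_pow, map_pow, ← MvPolynomial.algebraMap_eq, AlgHom.commutes,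
    Algebra.smul_def, mul_pow]
  obtain ⟨r, rfl⟩ := Nat.exists_eq_add_of_le hi'
  have : π l ^ (i + r) * y ^ i = π l ^ r := by
    rw [add_comm, pow_add, mul_assoc, ← mul_pow, hy, one_pow, mul_one]
  rw [Nat.add_sub_cancel_left]
  linear_combination (- (algebraMap K B (p.coeff i)) * π l' ^ i) * this

theorem hP_ev {l l' : Poly K} (ev : Poly K →ₐ[K] K) (evl : ev l = 0) (evl' : ev l' = 0)
    (p : Polynomial K) {d : ℕ} (hd : d ≠ 0) : ev (hP l l' p d) = 0 := by
  rw [hP, map_sum]
  refine Finset.sum_eq_zero fun i hi => ?_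
  have hi' : i ≤ d := by
    have := Finset.mem_range.1 hi
    omega
  rw [map_mul, map_mul, map_pow, map_pow, evl, evl']
  by_cases h : i = 0
  · subst h
    rw [zero_pow (show d - 0 ≠ 0 by omega)]
    simp
  · rw [zero_pow h]
    simp

/-- No eigenvectors of `t` on the lower part, given no common eigenvectors. -/
theorem no_eigen [IsAlgClosed K] {t ξ : B} {U : Submodule K B} [Module.Finite K U]
    (hξ1 : ∀ w ∈ Vt t U, ξ * w ∈ U)
    (hE : ∀ (c b : K), ∀ w ∈ Vt t U, t * w = c • w → ξ * w = b • w → w = 0) (c : K) :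
    ∀ w ∈ Vt t U, t * w = c • w → w = 0 := by
  intro w hw hc
  by_contra hne
  let E : Submodule K B := Vt t U ⊓ LinearMap.ker (LinearMap.mulLeft K t - c • LinearMap.id)
  have hmem : ∀ z, z ∈ E ↔ z ∈ Vt t U ∧ t * z = c • z := by
    intro z
    simp only [E, Submodule.mem_inf, LinearMap.mem_ker, LinearMap.sub_apply,
      LinearMap.mulLeft_apply, LinearMap.smul_apply, LinearMap.id_apply, sub_eq_zero]
  have hEU : E ≤ U := fun z hz => ((hmem z).1 hz).1.1
  have hfE : Module.Finite K E := Submodule.finiteDimensional_of_le hEU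
  have hinv : ∀ z ∈ E, ξ * z ∈ E := by
    intro z hz
    obtain ⟨h1, h2⟩ := (hmem z).1 hz
    have h3 : t * (ξ * z) = c • (ξ * z) := by
      rw [mul_left_comm, h2, mul_smul_comm]
    refine (hmem _).2 ⟨mem_Vt.2 ⟨hξ1 z h1, ?_⟩, h3⟩
    rw [h3]
    exact U.smul_mem _ (hξ1 z h1)
  have hnt : Nontrivial E := by
    refine ⟨⟨⟨w, (hmem w).2 ⟨hw, hc⟩⟩, 0, ?_⟩⟩
    intro h0
    exact hne (congrArg Subtype.val h0)
  let T : End K E := (LinearMap.mulLeft K ξ).restrict hinv
  obtain ⟨b, hb⟩ := Module.End.exists_eigenvalue T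
  obtain ⟨z, hz⟩ := hb.exists_hasEigenvector
  have h1 : ξ * (z : B) = b • (z : B) := congrArg Subtype.val hz.apply_eq_smul
  obtain ⟨h2, h3⟩ := (hmem z).1 z.2
  exact hz.2 (Subtype.ext (hE c b _ h2 h3 h1))

/-- A square matrix of forms with graded entries has a homogeneous determinant. -/
theorem det_homogeneous {ι : Type} [Fintype ι] [DecidableEq ι] (m : ι → ℕ)
    (M : Matrix ι ι (Poly K)) (h1 : ∀ j k, m k ≤ m j + 1 → (M j k).IsHomogeneous (m j + 1 - m k))
    (h2 : ∀ j k, m j + 1 < m k → M j k = 0) : (M.det).IsHomogeneous (Fintype.card ι) := by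
  rw [Matrix.det_apply']
  refine MvPolynomial.IsHomogeneous.sum _ _ _ fun σ _ => ?_
  have hs : ((((Equiv.Perm.sign σ : ℤˣ) : ℤ) : Poly K)).IsHomogeneous 0 := by
    rcases Int.units_eq_one_or (Equiv.Perm.sign σ) with e | e <;> rw [e]
    · simpa using MvPolynomial.isHomogeneous_one (Fin 3) K
    · simpa using (MvPolynomial.isHomogeneous_one (Fin 3) K).neg
  by_cases hz : ∃ i, m (σ i) + 1 < m i
  · obtain ⟨i, hi⟩ := hz
    have h0 : ∏ i, M (σ i) i = 0 := Finset.prod_eq_zero (Finset.mem_univ i) (h2 _ _ hi)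
    rw [h0, mul_zero]
    exact MvPolynomial.isHomogeneous_zero _ _ _
  · push Not at hz
    have hp := MvPolynomial.IsHomogeneous.prod Finset.univ (fun i => M (σ i) i)
      (fun i => m (σ i) + 1 - m i) (fun i _ => h1 _ _ (hz i))
    have hsum : ∑ i, (m (σ i) + 1 - m i) = Fintype.card ι := by
      have e1 : ∑ i, ((m (σ i) + 1 - m i) + m i) = ∑ i, (m (σ i) + 1) :=
        Finset.sum_congr rfl fun i _ => by
          have := hz i
          omega
      rw [Finset.sum_add_distrib, Finset.sum_add_distrib, Equiv.sum_comp σ m] at e1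
      simp only [Finset.sum_const, Finset.card_univ, smul_eq_mul, mul_one] at e1
      omega
    rw [hsum] at hp
    simpa using hs.mul hp

/-- The annihilating form. -/
theorem exists_chi [IsAlgClosed K] {π : Poly K →ₐ[K] B} {ev : Poly K →ₐ[K] K} {l l' x : Poly K}
    {y : B} (hl : l.IsHomogeneous 1) (hl' : l'.IsHomogeneous 1) (hx : x.IsHomogeneous 1)
    (evl : ev l = 0) (evl' : ev l' = 0) (evx : ev x = 1) (hy : π l * y = 1)
    {U : Submodule K B} [Module.Finite K U]
    (hξ1 : ∀ w ∈ Vt (y * π l') U, (y * π x) * w ∈ U)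
    (hξ2 : ∀ u ∈ U, (y * π x) * u ∈ (U ⊔ U.map (LinearMap.mulLeft K (y * π l')) : Submodule K B))
    (hE : ∀ (c b : K), ∀ w ∈ Vt (y * π l') U, (y * π l') * w = c • w → (y * π x) * w = b • w →
      w = 0) :
    ∃ (χ : Poly K) (G : ℕ), G + finrank K (Vt (y * π l') U) = finrank K U ∧ χ.IsHomogeneous G ∧
      ev χ = 1 ∧ ∀ u ∈ U, π χ * u = 0 := by
  classical
  set t := y * π l' with ht
  set ξ := y * π x with hξ
  have hEf := no_eigen hξ1 hE
  obtain ⟨ι, hι, m, ε, hs⟩ := exists_strings t _ U le_rfl hEf
  choose C' hC1 hC2 using hs.exists_C hξ1 hξ2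
  let M : Matrix ι ι (Poly K) := fun j k =>
    (if j = k then x else 0) - hP l l' (C' k j) (m j + 1 - m k)
  have hMe : ∀ j k, M j k = (if j = k then x else 0) - hP l l' (C' k j) (m j + 1 - m k) :=
    fun _ _ => rfl
  have hC0 : ∀ j k, m j + 1 < m k → C' k j = 0 := by
    intro j k h
    apply eq_zero_of_Dg_zero
    have := hC1 k j
    rwa [show m j + 2 - m k = 0 by omega] at this
  have hM0 : ∀ j k, m j + 1 < m k → M j k = 0 := by
    intro j k h
    have hjk : j ≠ k := by
      rintro rfl
      omega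
    rw [hMe, if_neg hjk, hC0 j k h, hP_zero, sub_zero]
  have hM1 : ∀ j k, m k ≤ m j + 1 → (M j k).IsHomogeneous (m j + 1 - m k) := by
    intro j k h
    rw [hMe]
    refine MvPolynomial.IsHomogeneous.sub ?_ (hP_hom hl hl' _ _)
    by_cases hjk : j = k
    · subst hjk
      rw [if_pos rfl, show m j + 1 - m j = 1 by omega]
      exact hx
    · rw [if_neg hjk]
      exact MvPolynomial.isHomogeneous_zero _ _ _
  refine ⟨M.det, Fintype.card ι, hs.card, det_homogeneous m M hM1 hM0, ?_, ?_⟩
  · -- the value at the point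
    have hval : ∀ j k, ev (M j k) = (if j = k then 1 else 0) -
        ev (hP l l' (C' k j) (m j + 1 - m k)) := by
      intro j k
      rw [hMe, map_sub]
      congr 1
      by_cases hjk : j = k
      · rw [if_pos hjk, if_pos hjk, evx]
      · rw [if_neg hjk, if_neg hjk, map_zero]
    rw [AlgHom.map_det]
    have hbt : Matrix.BlockTriangular (ev.mapMatrix M) m := by
      intro i j hij
      have hne : i ≠ j := by
        rintro rfl
        exact lt_irrefl _ hij
      change ev (M i j) = 0
      rw [hval, if_neg hne, hP_ev ev evl evl' _ (by omega), sub_zero]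
    rw [hbt.det]
    refine Finset.prod_eq_one fun a _ => ?_
    have hblock : (ev.mapMatrix M).toSquareBlock m a = 1 := by
      ext i j
      have hi : m i.1 = a := i.2
      have hj : m j.1 = a := j.2
      change ev (M i.1 j.1) = _
      rw [hval, hP_ev ev evl evl' _ (by omega), sub_zero, Matrix.one_apply]
      by_cases hij : i = j
      · rw [if_pos hij, if_pos (congrArg Subtype.val hij)]
      · rw [if_neg hij, if_neg (fun h => hij (Subtype.ext h))]
    rw [hblock, Matrix.det_one]
  · -- the annihilation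
    set M0 := Finset.univ.sup m with hM0d
    have hle : ∀ i, m i ≤ M0 := fun i => Finset.le_sup (Finset.mem_univ i)
    set F : ι → B := fun j => π l ^ (M0 - m j) * ε j with hF
    have hterm : ∀ j k, π (hP l l' (C' k j) (m j + 1 - m k)) * F j =
        π l ^ (M0 + 1 - m k) * (Polynomial.aeval t (C' k j) * ε j) := by
      intro j k
      by_cases h : m k ≤ m j + 1
      · have hd : Dg (C' k j) (m j + 1 - m k + 1) := by
          have := hC1 k j
          rwa [show m j + 2 - m k = m j + 1 - m k + 1 by omega] at this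
        rw [hP_map π hy hd, hF]
        have e : M0 + 1 - m k = (m j + 1 - m k) + (M0 - m j) := by
          have := hle j
          have := hle k
          omega
        rw [e, pow_add]
        ring
      · rw [hC0 j k (by omega), hP_zero]
        simp
    have hkey : ∀ k, ∑ j, F j * π (M j k) = 0 := by
      intro k
      have e1 : ∀ j, F j * π (M j k) =
          (if j = k then π x * F k else 0) -
            π l ^ (M0 + 1 - m k) * (Polynomial.aeval t (C' k j) * ε j) := by
        intro j
        rw [hMe, map_sub, ← hterm, mul_sub, mul_comm (F j) (π (hP _ _ _ _)), sub_left_inj]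
        by_cases hjk : j = k
        · subst hjk
          rw [if_pos rfl, if_pos rfl, mul_comm]
        · rw [if_neg hjk, if_neg hjk, map_zero, mul_zero]
      rw [Finset.sum_congr rfl fun j _ => e1 j, Finset.sum_sub_distrib, Finset.sum_ite_eq',
        if_pos (Finset.mem_univ k), ← Finset.mul_sum]
      have e2 := hC2 k
      have e3 : ∑ j, Polynomial.aeval t (C' k j) * ε j = ξ * ε k := e2.symm
      rw [e3, hF, hξ]
      have e4 : M0 + 1 - m k = (M0 - m k) + 1 := by
        have := hle k
        omega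
      rw [e4, pow_succ]
      linear_combination (- π x * π l ^ (M0 - m k) * ε k) * hy
    set N := (π : Poly K →ₐ[K] B).mapMatrix M with hN
    have hv : Matrix.vecMul F N = 0 := by
      funext k
      exact hkey k
    have hdet : N.det • F = 0 := by
      have h1 : Matrix.vecMul (Matrix.vecMul F N) N.adjugate = 0 := by
        rw [hv, Matrix.zero_vecMul]
      rw [Matrix.vecMul_vecMul, Matrix.mul_adjugate, Matrix.vecMul_smul, Matrix.vecMul_one] at h1
      exact h1
    have hdetπ : N.det = π M.det := (AlgHom.map_det π M).symm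
    have hkill : ∀ k, π M.det * ε k = 0 := by
      intro k
      have h1 := congrFun hdet k
      simp only [Pi.smul_apply, smul_eq_mul, Pi.zero_apply] at h1
      rw [hdetπ, hF] at h1
      have h2 : (π l * y) ^ (M0 - m k) = 1 := by
        rw [hy, one_pow]
      calc π M.det * ε k = (π l * y) ^ (M0 - m k) * (π M.det * ε k) := by rw [h2, one_mul]
        _ = y ^ (M0 - m k) * (π M.det * (π l ^ (M0 - m k) * ε k)) := by
          rw [mul_pow]
          ring
        _ = 0 := by
          rw [h1, mul_zero]
    intro u hu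
    obtain ⟨p, _, rfl⟩ := (hs.mem_iff u).1 hu
    rw [srep, Finset.mul_sum]
    refine Finset.sum_eq_zero fun i _ => ?_
    rw [mul_left_comm, hkill, mul_zero]

end Vale.Agent.Lib.P200
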