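import Vale.Agent.Lib.P200.E2Chi
import Vale.Agent.Lib.P200.DBStep

/-!
The annihilating form for a subspace modulo a pair of forms.
-/

universe u

namespace Vale.Agent.Lib.P200
open MvPolynomial Module

variable {K : Type u} [Field K]

theorem eq_zero_of_eq_mul_hom {p r F : Poly K} {D d : ℕ} (hp : p.IsHomogeneous D)
    (hF : F.IsHomogeneous d) (hF0 : F ≠ 0) (e : p = r * F) (h : D < d) : p = 0 := by
  by_contra hp0
  have hr : r ≠ 0 := by
    rintro rfl
    simp at e
    exact hp0 e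
  have h1 := hp.totalDegree hp0
  have h2 := hF.totalDegree hF0
  have h3 := totalDegree_mul_of_isDomain hr hF0
  rw [← e] at h3
  omega

theorem irreducible_linear {w : Poly K} (hh : w.IsHomogeneous 1) (h0 : w ≠ 0) : Irreducible w := by
  have hd := hh.totalDegree h0
  rw [irreducible_iff]
  constructor
  · intro hu
    obtain ⟨v, hv⟩ := hu.exists_right_inv
    have hv0 : v ≠ 0 := by
      rintro rfl
      simp at hv
    have := totalDegree_mul_of_isDomain h0 hv0
    rw [hv, totalDegree_one] at this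
    omega
  · rintro a b rfl
    have ha0 : a ≠ 0 := left_ne_zero_of_mul h0
    have hb0 : b ≠ 0 := right_ne_zero_of_mul h0
    have := totalDegree_mul_of_isDomain ha0 hb0
    have key : ∀ c : Poly K, c ≠ 0 → c.totalDegree = 0 → IsUnit c := by
      intro c hc hcd
      rw [totalDegree_eq_zero_iff_eq_C] at hcd
      rw [hcd] at hc ⊢
      refine IsUnit.map C (isUnit_iff_ne_zero.2 ?_)
      intro h
      rw [h] at hc
      simp at hc
    by_cases ha : a.totalDegree = 0
    · exact Or.inl (key a ha0 ha)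
    · exact Or.inr (key b hb0 (by omega))

theorem prime_linear {w : Poly K} (hh : w.IsHomogeneous 1) (h0 : w ≠ 0) : Prime w :=
  UniqueFactorizationMonoid.irreducible_iff_prime.1 (irreducible_linear hh h0)

/-- The Koszul relation for two linear forms. -/
theorem koszul_linear {w z p q : Poly K} (hh : w.IsHomogeneous 1) (h0 : w ≠ 0) (hnd : ¬ w ∣ z)
    (e : z * p = w * q) : ∃ r, p = w * r ∧ q = z * r := by
  have hd : w ∣ z * p := ⟨q, e⟩
  obtain ⟨r, rfl⟩ := ((prime_linear hh h0).dvd_or_dvd hd).resolve_left hnd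
  refine ⟨r, rfl, ?_⟩
  have : w * (z * r) = w * q := by
    rw [← e]
    ring
  exact (mul_left_cancel₀ h0 this).symm

/-- Homogeneous representatives modulo a pair. -/
theorem pair_rep {f g : Poly K} {d1 d2 : ℕ} (hf : f.IsHomogeneous d1) (hg : g.IsHomogeneous d2)
    {b : Poly K} {m : ℕ} (hb : b.IsHomogeneous m) (h : b ∈ FPi f g) :
    ∃ α β, Hz α m d1 ∧ Hz β m d2 ∧ b = α * f + β * g := by
  obtain ⟨α, β, e⟩ := mem_FPi.1 h
  refine ⟨hzc α m d1, hzc β m d2, hz_hzc _ _ _, hz_hzc _ _ _, ?_⟩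
  have := congrArg (homogeneousComponent m) e
  rw [homogeneousComponent_eq_self hb, map_add, comp_mul_hzc hf, comp_mul_hzc hg] at this
  exact this

/-- No elements of a low degree are killed by a pencil modulo a pair. -/
theorem pair_socle {f g : Poly K} {d1 d2 : ℕ} (hf : f.IsHomogeneous d1) (hg : g.IsHomogeneous d2)
    (hf0 : f ≠ 0) (hreg : ∀ p q : Poly K, p * g = q * f → ∃ r, p = r * f)
    {w z v : Poly K} (hw : w.IsHomogeneous 1) (hz : z.IsHomogeneous 1) (hw0 : w ≠ 0)
    (hnd : ¬ w ∣ z) {e : ℕ} (hv : v.IsHomogeneous e) (he : e + 2 < d1 + d2)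
    (h1 : w * v ∈ FPi f g) (h2 : z * v ∈ FPi f g) : v ∈ FPi f g := by
  have hwv : (w * v).IsHomogeneous (e + 1) := by
    have := hw.mul hv
    rwa [add_comm] at this
  have hzv : (z * v).IsHomogeneous (e + 1) := by
    have := hz.mul hv
    rwa [add_comm] at this
  obtain ⟨α1, β1, ha1, hb1, e1⟩ := pair_rep hf hg hwv h1
  obtain ⟨α2, β2, ha2, hb2, e2⟩ := pair_rep hf hg hzv h2
  have hrel : (z * β1 - w * β2) * g = (w * α2 - z * α1) * f := by
    linear_combination w * e2 - z * e1
  obtain ⟨r, hr⟩ := hreg _ _ hrel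
  have hz0 : z * β1 - w * β2 = 0 := by
    have hH : Hz (z * β1 - w * β2) (e + 2) d2 :=
      (hb1.mul_form hz).sub (hb2.mul_form hw)
    by_cases hle : d2 ≤ e + 2
    · exact eq_zero_of_eq_mul_hom (hH.1 hle) hf hf0 hr (by omega)
    · exact hH.2 (by omega)
  have hq0 : w * α2 - z * α1 = 0 := by
    rw [hz0, zero_mul] at hrel
    exact (mul_eq_zero.1 hrel.symm).resolve_right hf0
  obtain ⟨β, rfl, rfl⟩ := koszul_linear hw hw0 hnd (p := β1) (q := β2)
    (by linear_combination hz0)
  obtain ⟨α, rfl, rfl⟩ := koszul_linear hw hw0 hnd (p := α1) (q := α2)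
    (by linear_combination -hq0)
  have : w * v = w * (α * f + β * g) := by
    rw [e1]
    ring
  rw [mul_left_cancel₀ hw0 this]
  exact mem_FPi.2 ⟨α, β, rfl⟩

/-- The localisation at a nonzerodivisor modulo an ideal. -/
theorem exists_loc {P : Ideal (Poly K)} {l : Poly K} (hl : ∀ p, p * l ∈ P → p ∈ P) :
    ∃ (B : Type u) (_ : CommRing B) (_ : Algebra K B) (π : Poly K →ₐ[K] B) (y : B),
      π l * y = 1 ∧ ∀ p, π p = 0 ↔ p ∈ P := by
  let a : Poly K ⧸ P := Ideal.Quotient.mk P l
  let B := Localization.Away a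
  have ha : a ∈ nonZeroDivisors (Poly K ⧸ P) := by
    rw [mem_nonZeroDivisors_iff]
    constructor
    · intro x hx
      obtain ⟨q, rfl⟩ := Ideal.Quotient.mk_surjective x
      rw [← map_mul, Ideal.Quotient.eq_zero_iff_mem] at hx
      rw [Ideal.Quotient.eq_zero_iff_mem]
      have : q * l ∈ P := by rwa [mul_comm]
      exact hl q this
    · intro x hx
      obtain ⟨q, rfl⟩ := Ideal.Quotient.mk_surjective x
      rw [← map_mul, Ideal.Quotient.eq_zero_iff_mem] at hx
      rw [Ideal.Quotient.eq_zero_iff_mem]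
      exact hl q hx
  have hinj : Function.Injective (algebraMap (Poly K ⧸ P) B) :=
    IsLocalization.injective B (Submonoid.powers_le.2 ha)
  let π : Poly K →ₐ[K] B := (IsScalarTower.toAlgHom K (Poly K ⧸ P) B).comp (Ideal.Quotient.mkₐ K P)
  have hπ : ∀ p, π p = algebraMap (Poly K ⧸ P) B (Ideal.Quotient.mk P p) := fun _ => rfl
  refine ⟨B, inferInstance, inferInstance, π, IsLocalization.Away.invSelf a, ?_, ?_⟩
  · rw [hπ]
    exact IsLocalization.Away.mul_invSelf a
  · intro p
    rw [hπ, map_eq_zero_iff _ hinj, Ideal.Quotient.eq_zero_iff_mem]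

/-- Rank and nullity for a map restricted to a subspace. -/
theorem finrank_map_add_kernel {A B : Type*} [AddCommGroup A] [Module K A] [AddCommGroup B]
    [Module K B] {W Z : Submodule K A} [Module.Finite K W] (L : A →ₗ[K] B) (hZ : Z ≤ W)
    (h : ∀ x ∈ W, L x = 0 ↔ x ∈ Z) : finrank K (W.map L) + finrank K Z = finrank K W := by
  have h1 := LinearMap.finrank_range_add_finrank_ker (L.domRestrict W)
  rw [LinearMap.range_domRestrict] at h1
  have h2 : (LinearMap.ker (L.domRestrict W)).map W.subtype = Z := by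
    ext x
    simp only [Submodule.mem_map, LinearMap.mem_ker, LinearMap.domRestrict_apply,
      Submodule.subtype_apply]
    constructor
    · rintro ⟨y, hy, rfl⟩
      exact (h y.1 y.2).1 hy
    · intro hx
      exact ⟨⟨x, hZ hx⟩, (h x (hZ hx)).2 hx, rfl⟩
  have h3 := Submodule.finrank_map_subtype_eq W (LinearMap.ker (L.domRestrict W))
  rw [h2] at h3
  omega

/-- A pencil of linear forms vanishing at a point, with a complementary linear form. -/
structure Penc (ev : Poly K →ₐ[K] K) (x l l' : Poly K) : Prop where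
  hx : x.IsHomogeneous 1
  hl : l.IsHomogeneous 1
  hl' : l'.IsHomogeneous 1
  evx : ev x = 1
  evl : ev l = 0
  evl' : ev l' = 0
  l0 : l ≠ 0
  nd : ¬ l ∣ l'
  span : HS K 1 ≤ Submodule.span K {x, l, l'}

/-- The annihilating form modulo a pair of forms. -/
theorem och [IsAlgClosed K] {f g : Poly K} {d1 d2 : ℕ} (hf : f.IsHomogeneous d1)
    (hg : g.IsHomogeneous d2) (hf0 : f ≠ 0) (hreg : ∀ p q : Poly K, p * g = q * f → ∃ r, p = r * f)
    {ev : Poly K →ₐ[K] K} {x l l' : Poly K} (hP : Penc ev x l l')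
    (hnzl : ∀ p, p * l ∈ FPi f g → p ∈ FPi f g) {e : ℕ} (he : e + 2 < d1 + d2)
    {U V : Submodule K (Poly K)} (hV : V ≤ HS K e) (hU : U ≤ HS K (e + 1))
    (hPV : FP f g e ≤ V) (hPU : FP f g (e + 1) ≤ U)
    (hVU : ∀ v ∈ V, ∀ w ∈ HS K 1, w * v ∈ U)
    (hPS : ∀ u ∈ U, ∃ u1 ∈ U, ∃ u2 ∈ U, x * u - l * u1 - l' * u2 ∈ FPi f g)
    (hH : ∀ u1 ∈ U, ∀ u2 ∈ U, l * u1 + l' * u2 ∈ FPi f g →
      ∃ v ∈ V, u1 - l' * v ∈ FPi f g ∧ u2 + l * v ∈ FPi f g) :
    ∃ (χ : Poly K) (G : ℕ), G + finrank K V + finrank K (FP f g (e + 1)) =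
        finrank K U + finrank K (FP f g e) ∧ χ.IsHomogeneous G ∧ ev χ = 1 ∧
      ∀ u ∈ U, χ * u ∈ FPi f g := by
  obtain ⟨B, _, _, π, y, hy, hπ⟩ := exists_loc hnzl
  have hyl : y * π l = 1 := by rw [mul_comm]; exact hy
  let L : ℕ → Poly K →ₗ[K] B := fun k => (LinearMap.mulLeft K (y ^ k)).comp π.toLinearMap
  have hL : ∀ k p, L k p = y ^ k * π p := fun _ _ => rfl
  have hL1 : ∀ k p, L (k + 1) (l * p) = L k p := by
    intro k p
    rw [hL, hL, map_mul, pow_succ]
    linear_combination (y ^ k * π p) * hyl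
  set t := y * π l' with ht
  set ξ := y * π x with hξ
  have hL2 : ∀ k p, t * L k p = L (k + 1) (l' * p) := by
    intro k p
    rw [hL, hL, map_mul, pow_succ, ht]
    ring
  have hL3 : ∀ k p, ξ * L k p = L (k + 1) (x * p) := by
    intro k p
    rw [hL, hL, map_mul, pow_succ, hξ]
    ring
  have hunit : ∀ k, (π l) ^ k * y ^ k = 1 := by
    intro k
    rw [← mul_pow, hy, one_pow]
  have hL0 : ∀ k p, L k p = 0 ↔ p ∈ FPi f g := by
    intro k p
    rw [hL, ← hπ]
    constructor
    · intro h0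
      calc π p = (π l) ^ k * y ^ k * π p := by rw [hunit, one_mul]
        _ = (π l) ^ k * (y ^ k * π p) := by ring
        _ = 0 := by rw [h0, mul_zero]
    · intro h0
      rw [h0, mul_zero]
  have hLe : ∀ k p q, L k p = L k q ↔ p - q ∈ FPi f g := by
    intro k p q
    rw [← hL0 k, map_sub, sub_eq_zero]
  have hfU := finite_of_le_HS hU
  have hfV := finite_of_le_HS hV
  set U0 := U.map (L (e + 1)) with hU0
  set V0 := V.map (L e) with hV0
  have hfU0 : Module.Finite K U0 := inferInstance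
  have hVt : Vt t U0 = V0 := by
    ext w
    constructor
    · rintro ⟨⟨u, hu, rfl⟩, ⟨u', hu', e'⟩⟩
      have e2 : L (e + 2) (l * u') = L (e + 2) (l' * u) := by
        rw [hL1, ← hL2]
        exact e'
      have e3 := (hLe _ _ _).1 e2
      obtain ⟨v, hv, h1, h2⟩ := hH ((-1 : Poly K) * u') (U.smul_mem (-1 : K) hu' |> fun h => by
        simpa using h) u hu (by
          have := (FPi f g).neg_mem e3
          convert this using 1
          ring)
      refine ⟨(-1 : K) • v, V.smul_mem _ hv, ?_⟩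
      have e4 : L (e + 1) u = L (e + 1) (-(l * v)) := by
        rw [hLe]
        convert h2 using 1
        ring
      change L e ((-1 : K) • v) = L (e + 1) u
      rw [e4, ← hL1 e ((-1 : K) • v)]
      congr 1
      rw [smul_eq_C_mul]
      simp
    · rintro ⟨v, hv, rfl⟩
      refine mem_Vt.2 ⟨⟨l * v, hVU v hv l hP.hl, hL1 _ _⟩, ?_⟩
      change t * L e v ∈ U0
      rw [hL2]
      exact ⟨l' * v, hVU v hv l' hP.hl', rfl⟩
  have hV0f : finrank K V0 + finrank K (FP f g e) = finrank K V := by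
    refine finrank_map_add_kernel (L e) hPV fun p hp => ?_
    rw [hL0]
    constructor
    · intro h
      exact mem_FP.2 ⟨mem_FPi.1 h, hV hp⟩
    · intro h
      exact mem_FPi.2 (mem_FP.1 h).1
  have hU0f : finrank K U0 + finrank K (FP f g (e + 1)) = finrank K U := by
    refine finrank_map_add_kernel (L (e + 1)) hPU fun p hp => ?_
    rw [hL0]
    constructor
    · intro h
      exact mem_FP.2 ⟨mem_FPi.1 h, hU hp⟩
    · intro h
      exact mem_FPi.2 (mem_FP.1 h).1
  have hξ1 : ∀ w ∈ Vt t U0, ξ * w ∈ U0 := by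
    intro w hw
    rw [hVt] at hw
    obtain ⟨v, hv, rfl⟩ := hw
    change ξ * L e v ∈ U0
    rw [hL3]
    exact ⟨x * v, hVU v hv x hP.hx, rfl⟩
  have hξ2 : ∀ u ∈ U0, ξ * u ∈ (U0 ⊔ U0.map (LinearMap.mulLeft K t) : Submodule K B) := by
    rintro _ ⟨u, hu, rfl⟩
    obtain ⟨u1, hu1, u2, hu2, e1⟩ := hPS u hu
    change ξ * L (e + 1) u ∈ _
    rw [hL3]
    have e2 : L (e + 2) (x * u) = L (e + 2) (l * u1 + l' * u2) := by
      rw [hLe]
      convert e1 using 1
      ring
    rw [show e + 1 + 1 = e + 2 from rfl, e2, map_add, hL1, show e + 2 = (e + 1) + 1 from rfl, ← hL2]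
    exact Submodule.add_mem _ (Submodule.mem_sup_left ⟨u1, hu1, rfl⟩)
      (Submodule.mem_sup_right ⟨_, ⟨u2, hu2, rfl⟩, rfl⟩)
  have hE : ∀ (c b : K), ∀ w ∈ Vt t U0, t * w = c • w → ξ * w = b • w → w = 0 := by
    intro c b w hw h1 h2
    rw [hVt] at hw
    obtain ⟨v, hv, rfl⟩ := hw
    change L e v = 0
    rw [hL0]
    have h1' : t * L e v = c • L e v := h1
    have h2' : ξ * L e v = b • L e v := h2
    have hcl : ∀ a : K, a • L e v = L (e + 1) (l * (a • v)) := by
      intro a
      rw [hL1, map_smul]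
    rw [hL2, hcl, hLe] at h1'
    rw [hL3, hcl, hLe] at h2'
    have hw1 : (l' - C c * l).IsHomogeneous 1 :=
      hP.hl'.sub (by simpa using (isHomogeneous_C (Fin 3) c).mul hP.hl)
    have hw2 : (x - C b * l).IsHomogeneous 1 :=
      hP.hx.sub (by simpa using (isHomogeneous_C (Fin 3) b).mul hP.hl)
    have hw0 : l' - C c * l ≠ 0 := by
      intro h0
      apply hP.nd
      exact ⟨C c, by linear_combination h0⟩
    have hnd : ¬ (l' - C c * l) ∣ (x - C b * l) := by
      rintro ⟨q, hq⟩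
      have := congrArg ev hq
      simp only [map_sub, map_mul, hP.evx, hP.evl, hP.evl', mul_zero, sub_zero,
        zero_mul, algHom_C] at this
      simp at this
    refine pair_socle hf hg hf0 hreg hw1 hw2 hw0 hnd (hV hv) he ?_ ?_
    · convert h1' using 1
      rw [smul_eq_C_mul]
      ring
    · convert h2' using 1
      rw [smul_eq_C_mul]
      ring
  obtain ⟨χ, G, hG, hχ, hev, hkill⟩ := exists_chi hP.hl hP.hl' hP.hx hP.evl hP.evl' hP.evx hy
    hξ1 hξ2 hE
  refine ⟨χ, G, ?_, hχ, hev, ?_⟩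
  · rw [hVt] at hG
    omega
  · intro u hu
    have := hkill _ ⟨u, hu, rfl⟩
    rw [← hL0 (e + 1), hL, map_mul]
    have e2 : π χ * L (e + 1) u = 0 := this
    rw [hL] at e2
    linear_combination e2

end Vale.Agent.Lib.P200
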