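import Vale.Agent.Lib.P200.E3Och

/-!
Decompositions along a pencil of linear forms, the class map, and the socle for a pencil.
-/

universe u

namespace Vale.Agent.Lib.P200
open MvPolynomial Module

variable {K : Type u} [Field K]

section penc

variable {ev : Poly K →ₐ[K] K} {x l l' : Poly K} (hP : Penc ev x l l')
include hP

theorem Penc.linear {w : Poly K} (hw : w ∈ HS K 1) :
    ∃ α β γ : K, w = α • x + β • l + γ • l' := by
  have := hP.span hw
  obtain ⟨α, β, γ, e⟩ := Submodule.mem_span_triple.1 this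
  exact ⟨α, β, γ, e.symm⟩

theorem Penc.l'_ne : l' ≠ 0 := by
  rintro rfl
  exact hP.nd (dvd_zero _)

theorem Penc.x_ne : x ≠ 0 := by
  rintro rfl
  have := hP.evx
  simp at this

/-- Forms vanishing at the point lie in the ideal of the pencil. -/
theorem Penc.dec : ∀ (m : ℕ) (p : Poly K), p.IsHomogeneous m → ev p = 0 →
    ∃ p1 p2, Hz p1 m 1 ∧ Hz p2 m 1 ∧ p = l * p1 + l' * p2 := by
  intro m
  induction m with
  | zero =>
    intro p hp h0
    refine ⟨0, 0, Hz.zero _ _, Hz.zero _ _, ?_⟩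
    have hd : p.totalDegree = 0 := by
      have := hp.totalDegree_le
      omega
    rw [totalDegree_eq_zero_iff_eq_C] at hd
    have hc : coeff 0 p = 0 := by
      rw [hd, algHom_C] at h0
      simpa using h0
    rw [hd, hc]
    simp
  | succ m ih =>
    intro p hp h0
    have hmem : p ∈ HS K 1 * HS K m := by
      rw [HS_mul, add_comm]
      exact hp
    obtain ⟨u, hu, v, hv, w, hw, rfl⟩ := mem_HS1_mul.1 hmem
    obtain ⟨α0, β0, γ0, e0⟩ := hP.linear (X_mem_HS1 0)
    obtain ⟨α1, β1, γ1, e1⟩ := hP.linear (X_mem_HS1 1)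
    obtain ⟨α2, β2, γ2, e2⟩ := hP.linear (X_mem_HS1 2)
    set q := α0 • u + α1 • v + α2 • w with hq
    have hqH : q.IsHomogeneous m :=
      Submodule.add_mem _ (Submodule.add_mem _ (Submodule.smul_mem _ _ hu)
        (Submodule.smul_mem _ _ hv)) (Submodule.smul_mem _ _ hw)
    set A := β0 • u + β1 • v + β2 • w with hA
    set B := γ0 • u + γ1 • v + γ2 • w with hB
    have hAH : A.IsHomogeneous m :=
      Submodule.add_mem _ (Submodule.add_mem _ (Submodule.smul_mem _ _ hu)
        (Submodule.smul_mem _ _ hv)) (Submodule.smul_mem _ _ hw)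
    have hBH : B.IsHomogeneous m :=
      Submodule.add_mem _ (Submodule.add_mem _ (Submodule.smul_mem _ _ hu)
        (Submodule.smul_mem _ _ hv)) (Submodule.smul_mem _ _ hw)
    have hexp : (X 0 : Poly K) * u + X 1 * v + X 2 * w = x * q + l * A + l' * B := by
      rw [e0, e1, e2, hq, hA, hB]
      simp only [smul_eq_C_mul]
      ring
    have hq0 : ev q = 0 := by
      have := congrArg ev hexp
      rw [h0, map_add, map_add, map_mul, map_mul, map_mul, hP.evx, hP.evl, hP.evl'] at this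
      simpa using this.symm
    obtain ⟨q1, q2, h1, h2, e3⟩ := ih q hqH hq0
    refine ⟨x * q1 + A, x * q2 + B, ?_, ?_, ?_⟩
    · refine ⟨fun _ => ?_, fun h => by omega⟩
      rw [show m + 1 - 1 = m by omega]
      refine MvPolynomial.IsHomogeneous.add ?_ hAH
      by_cases hm : 1 ≤ m
      · have := hP.hx.mul (h1.1 hm)
        rwa [show 1 + (m - 1) = m by omega] at this
      · rw [h1.2 (by omega), mul_zero]
        exact isHomogeneous_zero _ _ _
    · refine ⟨fun _ => ?_, fun h => by omega⟩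
      rw [show m + 1 - 1 = m by omega]
      refine MvPolynomial.IsHomogeneous.add ?_ hBH
      by_cases hm : 1 ≤ m
      · have := hP.hx.mul (h2.1 hm)
        rwa [show 1 + (m - 1) = m by omega] at this
      · rw [h2.2 (by omega), mul_zero]
        exact isHomogeneous_zero _ _ _
    · rw [hexp, e3]
      ring

/-- The same statement with prescribed degrees. -/
theorem Penc.dec_hz {α : Poly K} {D k : ℕ} (h : Hz α (D + 1) k) (h0 : ev α = 0) :
    ∃ α1 α2, Hz α1 D k ∧ Hz α2 D k ∧ α = l * α1 + l' * α2 := by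
  by_cases hk : k ≤ D + 1
  · obtain ⟨p1, p2, h1, h2, e⟩ := hP.dec _ α (h.1 hk) h0
    refine ⟨p1, p2, ⟨fun hk2 => ?_, fun hk2 => ?_⟩, ⟨fun hk2 => ?_, fun hk2 => ?_⟩, e⟩
    · have := h1.1 (by omega)
      rwa [show D + 1 - k - 1 = D - k by omega] at this
    · exact h1.2 (by omega)
    · have := h2.1 (by omega)
      rwa [show D + 1 - k - 1 = D - k by omega] at this
    · exact h2.2 (by omega)
  · refine ⟨0, 0, Hz.zero _ _, Hz.zero _ _, ?_⟩
    rw [h.2 (by omega)]
    simp

/-- Splitting off the value at the point. -/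
theorem Penc.dec_val {α : Poly K} {D k : ℕ} (h : Hz α (D + 1) k) (hk : k ≤ D + 1) :
    ∃ α1 α2, Hz α1 D k ∧ Hz α2 D k ∧ α = C (ev α) * x ^ (D + 1 - k) + l * α1 + l' * α2 := by
  have hH : (C (ev α) * x ^ (D + 1 - k) : Poly K).IsHomogeneous (D + 1 - k) := by
    have := (isHomogeneous_C (Fin 3) (ev α)).mul (hP.hx.pow (D + 1 - k))
    simpa using this
  have h1 : Hz (α - C (ev α) * x ^ (D + 1 - k)) (D + 1) k :=
    h.sub ⟨fun _ => hH, fun h' => by omega⟩
  obtain ⟨α1, α2, e1, e2, e3⟩ := hP.dec_hz h1 (by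
    rw [map_sub, map_mul, map_pow, hP.evx, algHom_C]
    simp)
  exact ⟨α1, α2, e1, e2, by linear_combination e3⟩

end penc

/-- Homogeneity of a quotient by a nonzero form. -/
theorem homog_of_lin_mul {w p : Poly K} {k m : ℕ} (hw : w.IsHomogeneous k) (h0 : w ≠ 0)
    (hp : (w * p).IsHomogeneous (k + m)) : p.IsHomogeneous m := by
  have hall : ∀ n, n ≠ m → homogeneousComponent n p = 0 := by
    intro n hn
    have h1 := comp_mul_general hw p (n + k)
    rw [if_pos (by omega), Nat.add_sub_cancel, mul_comm p w,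
      homogeneousComponent_of_mem hp, if_neg (by omega)] at h1
    have h2 := h1.symm
    exact (mul_eq_zero.1 h2).resolve_right h0
  have e : p = homogeneousComponent m p := by
    conv_lhs => rw [← sum_homogeneousComponent p]
    by_cases hm : m ∈ Finset.range (p.totalDegree + 1)
    · exact Finset.sum_eq_single_of_mem _ hm (fun n _ hn => hall n hn)
    · rw [Finset.sum_eq_zero (fun n hn => hall n (by
        rintro rfl
        exact hm hn))]
      rw [homogeneousComponent_eq_zero _ _ (by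
        have := Finset.mem_range.not.1 hm
        omega)]
  rw [e]
  exact homogeneousComponent_isHomogeneous _ _

namespace FormSeq

variable {A : Fin 3 → ℕ} {s : Fin 3 → Poly K} (hs : FormSeq A s)
include hs

/-- Uniqueness of representatives in low degrees. -/
theorem rep_unique {D : ℕ} (h01 : D < A 0 + A 1) (h02 : D < A 0 + A 2) (h12 : D < A 1 + A 2)
    {a0 a1 a2 : Poly K} (h0 : Hz a0 D (A 0)) (h1 : Hz a1 D (A 1)) (h2 : Hz a2 D (A 2))
    (e : a0 * s 0 + a1 * s 1 + a2 * s 2 = 0) : a0 = 0 ∧ a1 = 0 ∧ a2 = 0 := by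
  obtain ⟨q, hq, e0, e1, e2⟩ := hs.koszul_hom h0 h1 h2 e
  have q0 : q 0 = 0 := (hq 0).2 (by omega)
  have q1 : q 1 = 0 := (hq 1).2 (by omega)
  have q2 : q 2 = 0 := (hq 2).2 (by omega)
  simp only [q0, q1, q2, zero_mul, sub_self] at e0 e1 e2
  exact ⟨e0, e1, e2⟩

/-- The socle for a pencil. -/
theorem pencil_socle {w z v : Poly K} (hw : w.IsHomogeneous 1) (hz : z.IsHomogeneous 1)
    (hw0 : w ≠ 0) (hnd : ¬ w ∣ z) {m : ℕ} (hv : v.IsHomogeneous m)
    (h01 : m + 2 < A 0 + A 1) (h02 : m + 2 < A 0 + A 2) (h12 : m + 2 < A 1 + A 2)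
    (h1 : w * v ∈ Fid s) (h2 : z * v ∈ Fid s) : v ∈ Fid s := by
  have hwv : (w * v).IsHomogeneous (m + 1) := by
    have := hw.mul hv
    rwa [add_comm] at this
  have hzv : (z * v).IsHomogeneous (m + 1) := by
    have := hz.mul hv
    rwa [add_comm] at this
  obtain ⟨p, hp, ep⟩ := hs.rep hwv h1
  obtain ⟨q, hq, eq⟩ := hs.rep hzv h2
  have hd : ∀ k, Hz (z * p k - w * q k) (m + 2) (A k) := fun k =>
    ((hp k).mul_form hz).sub ((hq k).mul_form hw)
  obtain ⟨e0, e1, e2⟩ := hs.rep_unique h01 h02 h12 (hd 0) (hd 1) (hd 2)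
    (by linear_combination z * ep - w * eq)
  obtain ⟨r0, h01', -⟩ := koszul_linear hw hw0 hnd (p := p 0) (q := q 0)
    (by linear_combination e0)
  obtain ⟨r1, h11, -⟩ := koszul_linear hw hw0 hnd (p := p 1) (q := q 1)
    (by linear_combination e1)
  obtain ⟨r2, h21, -⟩ := koszul_linear hw hw0 hnd (p := p 2) (q := q 2)
    (by linear_combination e2)
  have : w * v = w * (r0 * s 0 + r1 * s 1 + r2 * s 2) := by
    rw [← ep, h01', h11, h21]
    ring
  rw [mul_left_cancel₀ hw0 this]
  exact mem_Fid_of _ _ _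

end FormSeq

/-- The forms of the degree needed as coefficients. -/
def hzS (K : Type u) [Field K] (D k : ℕ) : Submodule K (Poly K) where
  carrier := {p | Hz p D k}
  add_mem' := fun ha hb => Hz.add ha hb
  zero_mem' := Hz.zero _ _
  smul_mem' := fun c x hx => by
    refine ⟨fun hk => Submodule.smul_mem (HS K (D - k)) c (hx.1 hk), fun hk => ?_⟩
    rw [hx.2 hk, smul_zero]

/-- The class map: a linear map reading off the values at a point of the coefficients of an
element of the ideal. -/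
theorem exists_cl {a b c : ℕ} {f g t : Poly K} (hs : FormSeq ![a, b, c] ![f, g, t])
    (ev : Poly K →ₐ[K] K) {D : ℕ} (h01 : D < a + b) (h02 : D < a + c) (h12 : D < b + c) :
    ∃ cl : Poly K →ₗ[K] (Fin 3 → K), ∀ α β γ, Hz α D a → Hz β D b → Hz γ D c →
      cl (α * f + β * g + γ * t) = ![ev α, ev β, ev γ] := by
  let Θ : (hzS K D a × hzS K D b × hzS K D c) →ₗ[K] Poly K :=
    { toFun := fun v => (v.1 : Poly K) * f + (v.2.1 : Poly K) * g + (v.2.2 : Poly K) * t
      map_add' := by
        intro v w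
        simp only [Prod.fst_add, Prod.snd_add, Submodule.coe_add]
        ring
      map_smul' := by
        intro r v
        simp only [Prod.smul_fst, Prod.smul_snd, Submodule.coe_smul, RingHom.id_apply,
          smul_eq_C_mul]
        ring }
  have hker : LinearMap.ker Θ = ⊥ := by
    rw [LinearMap.ker_eq_bot']
    intro v hv
    obtain ⟨e0, e1, e2⟩ := hs.rep_unique (A := ![a, b, c]) (s := ![f, g, t]) (D := D) h01 h02 h12
      (a0 := v.1) (a1 := v.2.1) (a2 := v.2.2) v.1.2 v.2.1.2 v.2.2.2 hv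
    ext1
    · exact Subtype.ext e0
    · ext1
      · exact Subtype.ext e1
      · exact Subtype.ext e2
  obtain ⟨ψ, hψ⟩ := LinearMap.exists_leftInverse_of_injective Θ hker
  let E : (hzS K D a × hzS K D b × hzS K D c) →ₗ[K] (Fin 3 → K) :=
    { toFun := fun v => ![ev v.1, ev v.2.1, ev v.2.2]
      map_add' := by
        intro v w
        funext i
        fin_cases i <;> simp
      map_smul' := by
        intro r v
        funext i
        fin_cases i <;> simp }
  refine ⟨E.comp ψ, fun α β γ h1 h2 h3 => ?_⟩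
  have e : α * f + β * g + γ * t = Θ (⟨α, h1⟩, ⟨β, h2⟩, ⟨γ, h3⟩) := rfl
  rw [e, LinearMap.comp_apply]
  have e2 : ψ (Θ (⟨α, h1⟩, ⟨β, h2⟩, ⟨γ, h3⟩)) = (⟨α, h1⟩, ⟨β, h2⟩, ⟨γ, h3⟩) := by
    have := LinearMap.congr_fun hψ (⟨α, h1⟩, ⟨β, h2⟩, ⟨γ, h3⟩)
    simpa using this
  rw [e2]
  rfl

/-! ### Relations for a pencil -/

/-- The map `(u₁, u₂) ↦ l u₁ + l' u₂`. -/
noncomputable def rhoL (l l' : Poly K) : (Poly K × Poly K) →ₗ[K] Poly K :=
  (LinearMap.mulLeft K l).coprod (LinearMap.mulLeft K l')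

theorem rhoL_apply (l l' : Poly K) (p : Poly K × Poly K) : rhoL l l' p = l * p.1 + l' * p.2 := rfl

/-- The relations among elements of `W` modulo `I`. -/
noncomputable def relS (l l' : Poly K) (W I : Submodule K (Poly K)) :
    Submodule K (Poly K × Poly K) :=
  (W.prod W) ⊓ I.comap (rhoL l l')

theorem mem_relS {l l' : Poly K} {W I : Submodule K (Poly K)} {p : Poly K × Poly K} :
    p ∈ relS l l' W I ↔ p.1 ∈ W ∧ p.2 ∈ W ∧ l * p.1 + l' * p.2 ∈ I := by
  simp only [relS, Submodule.mem_inf, Submodule.mem_prod, Submodule.mem_comap, rhoL_apply, and_assoc]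

/-- The map `v ↦ (l' v, -l v)`. -/
noncomputable def kosL (l l' : Poly K) : Poly K →ₗ[K] (Poly K × Poly K) :=
  (LinearMap.mulLeft K l').prod (-(LinearMap.mulLeft K l))

theorem kosL_apply (l l' v : Poly K) : kosL l l' v = (l' * v, -(l * v)) := rfl

theorem kosL_inj {l l' : Poly K} (hl : l ≠ 0) : Function.Injective (kosL l l') := by
  rw [← LinearMap.ker_eq_bot, LinearMap.ker_eq_bot']
  intro v hv
  have := congrArg Prod.snd hv
  simp only [kosL_apply, Prod.snd_zero, neg_eq_zero] at this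
  exact (mul_eq_zero.1 this).resolve_left hl

theorem finrank_map_of_inj {A B : Type*} [AddCommGroup A] [Module K A] [AddCommGroup B] [Module K B]
    {L : A →ₗ[K] B} (hL : Function.Injective L) (W : Submodule K A) :
    finrank K (W.map L) = finrank K W :=
  (LinearEquiv.finrank_eq (Submodule.equivMapOfInjective L hL W)).symm

theorem finrank_prod_self (W : Submodule K (Poly K)) [Module.Finite K W] :
    finrank K (W.prod W) = 2 * finrank K W := by
  have hinj : Function.Injective (W.subtype.prodMap W.subtype) := by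
    rintro ⟨a, b⟩ ⟨c, d⟩ h
    have h1 := congrArg Prod.fst h
    have h2 := congrArg Prod.snd h
    simp only [LinearMap.prodMap_apply, Submodule.subtype_apply] at h1 h2
    exact Prod.ext (Subtype.ext h1) (Subtype.ext h2)
  have h1 := LinearMap.finrank_range_of_inj hinj
  have h2 : LinearMap.range (W.subtype.prodMap W.subtype) = W.prod W := by
    ext ⟨x, y⟩
    constructor
    · rintro ⟨⟨a, b⟩, e⟩
      have e1 := congrArg Prod.fst e
      have e2 := congrArg Prod.snd e
      simp only [LinearMap.prodMap_apply, Submodule.subtype_apply] at e1 e2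
      subst e1 e2
      exact Submodule.mem_prod.2 ⟨a.2, b.2⟩
    · rintro ⟨h3, h4⟩
      exact ⟨(⟨x, h3⟩, ⟨y, h4⟩), rfl⟩
  rw [h2] at h1
  rw [h1, Module.finrank_prod]
  ring

/-- The span of the two families `l W` and `l' W`. -/
noncomputable def LamS (l l' : Poly K) (W : Submodule K (Poly K)) : Submodule K (Poly K) :=
  W.map (LinearMap.mulLeft K l) ⊔ W.map (LinearMap.mulLeft K l')

theorem mem_LamS {l l' : Poly K} {W : Submodule K (Poly K)} {y : Poly K} :
    y ∈ LamS l l' W ↔ ∃ u1 ∈ W, ∃ u2 ∈ W, y = l * u1 + l' * u2 := by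
  unfold LamS
  rw [Submodule.mem_sup]
  constructor
  · rintro ⟨_, ⟨u1, hu1, rfl⟩, _, ⟨u2, hu2, rfl⟩, rfl⟩
    exact ⟨u1, hu1, u2, hu2, rfl⟩
  · rintro ⟨u1, hu1, u2, hu2, rfl⟩
    exact ⟨_, ⟨u1, hu1, rfl⟩, _, ⟨u2, hu2, rfl⟩, rfl⟩

theorem mem_LamS_sup {l l' : Poly K} {W I : Submodule K (Poly K)} {y : Poly K} :
    y ∈ LamS l l' W ⊔ I ↔ ∃ u1 ∈ W, ∃ u2 ∈ W, y - l * u1 - l' * u2 ∈ I := by
  rw [Submodule.mem_sup]
  constructor
  · rintro ⟨z, hz, i, hi, rfl⟩
    obtain ⟨u1, hu1, u2, hu2, rfl⟩ := mem_LamS.1 hz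
    refine ⟨u1, hu1, u2, hu2, ?_⟩
    convert hi using 1
    ring
  · rintro ⟨u1, hu1, u2, hu2, h⟩
    refine ⟨l * u1 + l' * u2, mem_LamS.2 ⟨u1, hu1, u2, hu2, rfl⟩, _, h, ?_⟩
    ring

/-- The dimension of the space of relations. -/
theorem finrank_relS {l l' : Poly K} {W Y I : Submodule K (Poly K)} [Module.Finite K W]
    [Module.Finite K Y] (hI : I ≤ Y) (hL : ∀ u ∈ W, l * u ∈ Y ∧ l' * u ∈ Y)
    (hPS : Y ≤ LamS l l' W ⊔ I) :
    finrank K (relS l l' W I) + finrank K Y = 2 * finrank K W + finrank K I := by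
  have hfP : Module.Finite K (W.prod W) := by
    have : Module.Finite K (W × W) := inferInstance
    have hinj : LinearMap.range (W.subtype.prodMap W.subtype) = W.prod W := by
      ext ⟨x, y⟩
      constructor
      · rintro ⟨⟨a, b⟩, e⟩
        have e1 := congrArg Prod.fst e
        have e2 := congrArg Prod.snd e
        simp only [LinearMap.prodMap_apply, Submodule.subtype_apply] at e1 e2
        subst e1 e2
        exact Submodule.mem_prod.2 ⟨a.2, b.2⟩
      · rintro ⟨h3, h4⟩
        exact ⟨(⟨x, h3⟩, ⟨y, h4⟩), rfl⟩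
    rw [← hinj]
    infer_instance
  set L : (Poly K × Poly K) →ₗ[K] (Poly K ⧸ I) := I.mkQ.comp (rhoL l l') with hLd
  have h1 : finrank K ((W.prod W).map L) + finrank K (relS l l' W I) = finrank K (W.prod W) := by
    refine finrank_map_add_kernel L inf_le_left fun p hp => ?_
    rw [hLd, LinearMap.comp_apply, Submodule.mkQ_apply, Submodule.Quotient.mk_eq_zero, mem_relS]
    exact ⟨fun h => ⟨hp.1, hp.2, h⟩, fun h => h.2.2⟩
  have h2 : finrank K (Y.map I.mkQ) + finrank K I = finrank K Y := by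
    refine finrank_map_add_kernel I.mkQ hI fun p _ => ?_
    rw [Submodule.mkQ_apply, Submodule.Quotient.mk_eq_zero]
  have h3 : (W.prod W).map L = Y.map I.mkQ := by
    ext q
    constructor
    · rintro ⟨⟨u1, u2⟩, ⟨h3, h4⟩, rfl⟩
      exact ⟨l * u1 + l' * u2, Submodule.add_mem _ (hL u1 h3).1 (hL u2 h4).2, rfl⟩
    · rintro ⟨y, hy, rfl⟩
      obtain ⟨u1, hu1, u2, hu2, h⟩ := mem_LamS_sup.1 (hPS hy)
      refine ⟨(u1, u2), ⟨hu1, hu2⟩, ?_⟩
      rw [hLd, LinearMap.comp_apply, rhoL_apply]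
      refine (Submodule.Quotient.eq I).2 ?_
      convert I.neg_mem h using 1
      ring
  rw [h3] at h1
  rw [finrank_prod_self] at h1
  omega

end Vale.Agent.Lib.P200
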