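import Vale.Agent.Lib.P200.E4Cl

/-!
A pencil whose relations have a one-dimensional space of classes is impossible in low degrees.
-/

universe u

namespace Vale.Agent.Lib.P200
open MvPolynomial Module

variable {K : Type u} [Field K]

/-- The forms of degree `e` all of whose linear multiples lie in `U`. -/
def colS (U : Submodule K (Poly K)) (e : ℕ) : Submodule K (Poly K) where
  carrier := {v | v ∈ HS K e ∧ ∀ w ∈ HS K 1, w * v ∈ U}
  add_mem' := by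
    rintro a b ⟨h1, h2⟩ ⟨h3, h4⟩
    refine ⟨Submodule.add_mem _ h1 h3, fun w hw => ?_⟩
    rw [mul_add]
    exact U.add_mem (h2 w hw) (h4 w hw)
  zero_mem' := ⟨Submodule.zero_mem _, fun w _ => by simp⟩
  smul_mem' := by
    rintro c a ⟨h1, h2⟩
    refine ⟨Submodule.smul_mem _ _ h1, fun w hw => ?_⟩
    rw [mul_smul_comm]
    exact U.smul_mem _ (h2 w hw)

theorem mem_colS {U : Submodule K (Poly K)} {e : ℕ} {v : Poly K} :
    v ∈ colS U e ↔ v ∈ HS K e ∧ ∀ w ∈ HS K 1, w * v ∈ U := Iff.rfl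

theorem colS_le (U : Submodule K (Poly K)) (e : ℕ) : colS U e ≤ HS K e := fun _ h => h.1

theorem mul_colS_le {U : Submodule K (Poly K)} {e : ℕ} : HS K 1 * colS U e ≤ U := by
  rw [Submodule.mul_le]
  intro w hw v hv
  exact hv.2 w hw

theorem FP_le_FF (F1 F2 F3 : Poly K) (d : ℕ) : FP F1 F2 d ≤ FF ![F1, F2, F3] d := by
  intro p hp
  obtain ⟨⟨α, β, e⟩, h⟩ := mem_FP.1 hp
  refine mem_FF.2 ⟨?_, h⟩
  rw [e]
  have := mem_Fid_of (f := ![F1, F2, F3]) α β 0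
  simpa using this

/-- Cancel powers of a nonzerodivisor. -/
theorem NZ.of_pow {f g x : Poly K} (hx : NZ f g x) {p : Poly K} : ∀ j : ℕ, p * x ^ j ∈ FPi f g →
    p ∈ FPi f g := by
  intro j
  induction j with
  | zero =>
    intro h
    simpa using h
  | succ j ih =>
    intro h
    refine ih (hx _ ?_)
    rwa [pow_succ, ← mul_assoc] at h

/-- The annihilating form of low degree cannot exist. -/
theorem r1_false [IsAlgClosed K] {d1 d2 d3 : ℕ} {F1 F2 F3 : Poly K}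
    (hs : FormSeq ![d1, d2, d3] ![F1, F2, F3]) {ev : Poly K →ₐ[K] K} {x l l' : Poly K}
    (hP : Penc ev x l l') (hnzl : NZ F1 F2 l) (hnzx : NZ F1 F2 x) {e : ℕ} (he : e + 2 < d1 + d2)
    {U V : Submodule K (Poly K)} (hV : V ≤ HS K e) (hU : U ≤ HS K (e + 1))
    (hPV : FP F1 F2 e ≤ V) (hPU : FP F1 F2 (e + 1) ≤ U)
    (hVU : ∀ v ∈ V, ∀ w ∈ HS K 1, w * v ∈ U)
    (hPS : ∀ u ∈ U, ∃ u1 ∈ U, ∃ u2 ∈ U, x * u - l * u1 - l' * u2 ∈ FPi F1 F2)
    (hH : ∀ u1 ∈ U, ∀ u2 ∈ U, l * u1 + l' * u2 ∈ FPi F1 F2 →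
      ∃ v ∈ V, u1 - l' * v ∈ FPi F1 F2 ∧ u2 + l * v ∈ FPi F1 F2)
    {j : ℕ} {w1 w2 : Poly K} (hw1 : w1 ∈ U) (hw2 : w2 ∈ U)
    (hrel : x ^ j * F3 - l * w1 - l' * w2 ∈ FPi F1 F2)
    (hG1 : finrank K U + finrank K (FP F1 F2 e) < d1 + finrank K V + finrank K (FP F1 F2 (e + 1)))
    (hG2 : finrank K U + finrank K (FP F1 F2 e) < d2 + finrank K V + finrank K (FP F1 F2 (e + 1))) :
    False := by
  have hF1 : F1.IsHomogeneous d1 := hs.hom 0
  have hF2 : F2.IsHomogeneous d2 := hs.hom 1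
  have hF10 : F1 ≠ 0 := hs.reg.ne
  obtain ⟨χ, G, hG, hχ, hev, hk⟩ := och hF1 hF2 hF10 hs.reg.h1 hP hnzl he hV hU hPV hPU hVU hPS hH
  have h1 : χ * (x ^ j * F3) ∈ FPi F1 F2 := by
    have e1 : χ * (x ^ j * F3) = χ * (x ^ j * F3 - l * w1 - l' * w2) + l * (χ * w1) +
        l' * (χ * w2) := by ring
    rw [e1]
    exact (FPi F1 F2).add_mem ((FPi F1 F2).add_mem ((FPi F1 F2).mul_mem_left _ hrel)
      ((FPi F1 F2).mul_mem_left _ (hk w1 hw1))) ((FPi F1 F2).mul_mem_left _ (hk w2 hw2))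
  obtain ⟨α, β, e1⟩ := mem_FPi.1 h1
  obtain ⟨α', β', e2⟩ := hs.reg.h2 (χ * x ^ j) α β (by
    show χ * x ^ j * F3 = α * F1 + β * F2
    rw [← e1]
    ring)
  have h2 : χ * x ^ j ∈ FPi F1 F2 := mem_FPi.2 ⟨α', β', e2⟩
  have h3 : χ ∈ FPi F1 F2 := hnzx.of_pow j h2
  obtain ⟨a1, b1, ha1, hb1, e3⟩ := pair_rep hF1 hF2 hχ h3
  rw [ha1.2 (by omega), hb1.2 (by omega)] at e3
  rw [e3] at hev
  simp at hev

/-- The contradiction from a class with a nonzero coefficient of the third form. -/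
theorem r1_pair [IsAlgClosed K] {d1 d2 d3 : ℕ} {F1 F2 F3 : Poly K}
    (hs : FormSeq ![d1, d2, d3] ![F1, F2, F3]) {ev : Poly K →ₐ[K] K} {x l l' : Poly K}
    (hP : Penc ev x l l') (hnzl : NZ F1 F2 l) (hnzx : NZ F1 F2 x) {e : ℕ} (he : e + 2 < d1 + d2)
    (hd3 : d3 ≤ e + 2) {U Y : Submodule K (Poly K)} (hU : U ≤ HS K (e + 1))
    (hFU : FF ![F1, F2, F3] (e + 1) ≤ U)
    (hxU : ∀ u ∈ U, x * u ∈ Y) (hPS : Y ≤ LamS l l' U ⊔ FF ![F1, F2, F3] (e + 2))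
    (hst : ∀ u ∈ HS K (e + 1), l * u ∈ Y → l' * u ∈ Y → u ∈ U)
    {u10 u20 A0 B0 C0 : Poly K} (hu10 : u10 ∈ U) (hu20 : u20 ∈ U)
    (hC0 : Hz C0 (e + 2) d3)
    (erel : l * u10 + l' * u20 = A0 * F1 + B0 * F2 + C0 * F3) (hC : ev C0 ≠ 0)
    (hH0 : ∀ u1 ∈ U, ∀ u2 ∈ U, ∀ α β, Hz α (e + 2) d1 → Hz β (e + 2) d2 →
      l * u1 + l' * u2 = α * F1 + β * F2 → ev α = 0 ∧ ev β = 0)
    (hG1 : finrank K U + finrank K (FP F1 F2 e) <
      d1 + finrank K (colS U e) + finrank K (FP F1 F2 (e + 1)))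
    (hG2 : finrank K U + finrank K (FP F1 F2 e) <
      d2 + finrank K (colS U e) + finrank K (FP F1 F2 (e + 1))) : False := by
  have hF1 : F1.IsHomogeneous d1 := hs.hom 0
  have hF2 : F2.IsHomogeneous d2 := hs.hom 1
  have hF3 : F3.IsHomogeneous d3 := hs.hom 2
  have hmemF : ∀ {q : Poly K}, Hz q (e + 1) d3 → q * F3 ∈ U := by
    intro q hq
    refine hFU (mem_FF.2 ⟨?_, hq.mul_top hF3⟩)
    have := mem_Fid_of (f := ![F1, F2, F3]) 0 0 q
    simpa using this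
  have hPU : FP F1 F2 (e + 1) ≤ U := le_trans (FP_le_FF F1 F2 F3 _) hFU
  have hPV : FP F1 F2 e ≤ colS U e := by
    intro p hp
    refine ⟨FP_le_HS _ _ _ hp, fun w hw => hPU ?_⟩
    exact mul_FP_le F1 F2 e (Submodule.mul_mem_mul hw hp)
  set j := e + 2 - d3 with hj
  -- the third form modulo the pencil
  obtain ⟨C1, C2, hC1, hC2, eC⟩ := hP.dec_val (D := e + 1) hC0 hd3
  set c := ev C0 with hc
  have hcc : (C c⁻¹ * C c : Poly K) = 1 := by
    rw [← C_mul, inv_mul_cancel₀ hC, C_1]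
  set w1 := C c⁻¹ * (u10 - C1 * F3) with hw1d
  set w2 := C c⁻¹ * (u20 - C2 * F3) with hw2d
  have hw1 : w1 ∈ U := by
    rw [hw1d, ← smul_eq_C_mul]
    exact U.smul_mem _ (U.sub_mem hu10 (hmemF hC1))
  have hw2 : w2 ∈ U := by
    rw [hw2d, ← smul_eq_C_mul]
    exact U.smul_mem _ (U.sub_mem hu20 (hmemF hC2))
  have hrel0 : x ^ j * F3 - l * w1 - l' * w2 = (- C c⁻¹ * A0) * F1 + (- C c⁻¹ * B0) * F2 := by
    rw [hw1d, hw2d]
    have e1 : (x ^ j * F3 : Poly K) = (C c⁻¹ * C c) * (x ^ j * F3) := by rw [hcc, one_mul]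
    rw [e1]
    rw [show e + 1 + 1 - d3 = j from rfl] at eC
    linear_combination (- C c⁻¹) * erel - (C c⁻¹ * F3) * eC
  have hrel : x ^ j * F3 - l * w1 - l' * w2 ∈ FPi F1 F2 := by
    rw [hrel0]
    exact mem_FPi.2 ⟨_, _, rfl⟩
  refine r1_false hs hP hnzl hnzx he (colS_le U e) hU hPV hPU (fun v hv w hw => hv.2 w hw)
    ?_ ?_ hw1 hw2 hrel hG1 hG2
  · -- the complementary form acts through the pencil
    intro u hu
    obtain ⟨u1, hu1, u2, hu2, h⟩ := mem_LamS_sup.1 (hPS (hxU u hu))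
    obtain ⟨h3, h4⟩ := mem_FF.1 h
    obtain ⟨p, hp, ep⟩ := hs.rep h4 h3
    have hpE : Hz (p 2) (e + 1 + 1) d3 := hp 2
    obtain ⟨E1, E2, hE1, hE2, eE⟩ := hP.dec_val (D := e + 1) hpE hd3
    set ε' := ev (p 2) with hε
    refine ⟨u1 + E1 * F3 + C ε' * w1, ?_, u2 + E2 * F3 + C ε' * w2, ?_, ?_⟩
    · refine U.add_mem (U.add_mem hu1 (hmemF hE1)) ?_
      rw [← smul_eq_C_mul]
      exact U.smul_mem _ hw1
    · refine U.add_mem (U.add_mem hu2 (hmemF hE2)) ?_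
      rw [← smul_eq_C_mul]
      exact U.smul_mem _ hw2
    · have e1 : x * u - l * (u1 + E1 * F3 + C ε' * w1) - l' * (u2 + E2 * F3 + C ε' * w2) =
          (p 0) * F1 + (p 1) * F2 + C ε' * (x ^ j * F3 - l * w1 - l' * w2) := by
        rw [show e + 1 + 1 - d3 = j from rfl] at eE
        have ep' : p 0 * F1 + p 1 * F2 + p 2 * F3 = x * u - l * u1 - l' * u2 := ep
        linear_combination (-1 : Poly K) * ep' + F3 * eE
      rw [e1]
      refine (FPi F1 F2).add_mem (mem_FPi.2 ⟨_, _, rfl⟩) ((FPi F1 F2).mul_mem_left _ hrel)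
  · -- the relations modulo the pair
    intro u1 hu1 u2 hu2 hm
    have hH1 : (l * u1 + l' * u2).IsHomogeneous (e + 2) := by
      have h1 := hP.hl.mul (hU hu1)
      have h2 := hP.hl'.mul (hU hu2)
      rw [show 1 + (e + 1) = e + 2 by omega] at h1 h2
      exact h1.add h2
    obtain ⟨α, β, hα, hβ, e1⟩ := pair_rep hF1 hF2 hH1 hm
    obtain ⟨h0α, h0β⟩ := hH0 u1 hu1 u2 hu2 α β hα hβ e1
    obtain ⟨α1, α2, hα1, hα2, e2⟩ := hP.dec_hz (D := e + 1) hα h0α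
    obtain ⟨β1, β2, hβ1, hβ2, e3⟩ := hP.dec_hz (D := e + 1) hβ h0β
    set i1 := α1 * F1 + β1 * F2 with hi1
    set i2 := α2 * F1 + β2 * F2 with hi2
    have hi1H : i1.IsHomogeneous (e + 1) := (hα1.mul_top hF1).add (hβ1.mul_top hF2)
    have hi2H : i2.IsHomogeneous (e + 1) := (hα2.mul_top hF1).add (hβ2.mul_top hF2)
    have hi1P : i1 ∈ FP F1 F2 (e + 1) := mem_FP.2 ⟨⟨_, _, rfl⟩, hi1H⟩
    have hi2P : i2 ∈ FP F1 F2 (e + 1) := mem_FP.2 ⟨⟨_, _, rfl⟩, hi2H⟩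
    obtain ⟨r, er1, er2⟩ := koszul_linear hP.hl hP.l0 hP.nd (p := u2 - i2) (q := -(u1 - i1)) (by
      rw [e2, e3] at e1
      rw [hi1, hi2]
      linear_combination e1)
    have hrH : r.IsHomogeneous e := by
      refine homog_of_lin_mul (k := 1) hP.hl hP.l0 ?_
      rw [← er1, add_comm]
      exact (hU hu2).sub hi2H
    have hlr : l * (-r) ∈ U := by
      have : l * (-r) = -(u2 - i2) := by rw [er1]; ring
      rw [this]
      exact U.neg_mem (U.sub_mem hu2 (hPU hi2P))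
    have hl'r : l' * (-r) ∈ U := by
      have : l' * (-r) = u1 - i1 := by linear_combination er2
      rw [this]
      exact U.sub_mem hu1 (hPU hi1P)
    have hxr : x * (-r) ∈ U := by
      refine hst _ ?_ ?_ ?_
      · have := hP.hx.mul hrH.neg
        rwa [add_comm] at this
      · rw [mul_left_comm]
        exact hxU _ hlr
      · rw [mul_left_comm]
        exact hxU _ hl'r
    refine ⟨-r, ⟨hrH.neg, fun w hw => ?_⟩, ?_, ?_⟩
    · obtain ⟨a1, a2, a3, rfl⟩ := hP.linear hw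
      have e4 : (a1 • x + a2 • l + a3 • l') * (-r) =
          a1 • (x * (-r)) + a2 • (l * (-r)) + a3 • (l' * (-r)) := by
        simp only [smul_eq_C_mul]
        ring
      rw [e4]
      exact U.add_mem (U.add_mem (U.smul_mem _ hxr) (U.smul_mem _ hlr)) (U.smul_mem _ hl'r)
    · have : u1 - l' * (-r) = i1 := by linear_combination (-1 : Poly K) * er2
      rw [this]
      exact mem_FPi.2 ⟨_, _, rfl⟩
    · have : u2 + l * (-r) = i2 := by linear_combination er1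
      rw [this]
      exact mem_FPi.2 ⟨_, _, rfl⟩

end Vale.Agent.Lib.P200
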