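import Vale.Agent.Lib.P200.E5R1

/-!
The trichotomy for a subspace on which a pencil of linear forms acts with full image.
-/

universe u

namespace Vale.Agent.Lib.P200
open MvPolynomial Module

variable {K : Type u} [Field K]

theorem rep3 {a b c : ℕ} {f g t : Poly K} (hs : FormSeq ![a, b, c] ![f, g, t]) {y : Poly K} {m : ℕ}
    (hy : y ∈ FF ![f, g, t] m) :
    ∃ α β γ, Hz α m a ∧ Hz β m b ∧ Hz γ m c ∧ y = α * f + β * g + γ * t := by
  obtain ⟨h1, h2⟩ := mem_FF.1 hy
  obtain ⟨p, hp, e⟩ := hs.rep h2 h1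
  exact ⟨p 0, p 1, p 2, hp 0, hp 1, hp 2, e.symm⟩

theorem mem_FF3 {a b c : ℕ} {f g t : Poly K} (hf : f.IsHomogeneous a) (hg : g.IsHomogeneous b)
    (ht : t.IsHomogeneous c) {α β γ : Poly K} {m : ℕ} (h1 : Hz α m a) (h2 : Hz β m b)
    (h3 : Hz γ m c) : α * f + β * g + γ * t ∈ FF ![f, g, t] m :=
  mem_FF.2 ⟨mem_Fid_of (f := ![f, g, t]) α β γ, ((h1.mul_top hf).add (h2.mul_top hg)).add (h3.mul_top ht)⟩

/-- The difference of the dimensions of a triple and a pair. -/
theorem psi_step {d1 d2 d3 : ℕ} {F1 F2 F3 : Poly K} (hs : FormSeq ![d1, d2, d3] ![F1, F2, F3])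
    {e : ℕ} (hd3 : d3 ≤ e + 2) :
    finrank K (FF ![F1, F2, F3] (e + 1)) + finrank K (FP F1 F2 e) ≤
      finrank K (FF ![F1, F2, F3] e) + finrank K (FP F1 F2 (e + 1)) + (e + 2 - d3) := by
  have hP : ∀ d, finrank K (FP F1 F2 d) = phi2 ![d1, d2, d3] d := by
    intro d
    have := hs.finrank_J2 d
    rwa [pieceT_J2] at this
  have hF : ∀ d, finrank K (FF ![F1, F2, F3] d) = phi3 ![d1, d2, d3] d := hs.finrank_FF
  have hmono : ∀ d, phi2 ![d1, d2, d3] d ≤ phi2 ![d1, d2, d3] (d + 1) := by
    intro d
    rw [← hP, ← hP]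
    have hle : (FP F1 F2 d).map (LinearMap.mulLeft K (X 0 : Poly K)) ≤ FP F1 F2 (d + 1) := by
      rintro _ ⟨p, hp, rfl⟩
      exact mul_FP_le F1 F2 d (Submodule.mul_mem_mul (X_mem_HS1 0) hp)
    have hinj : Function.Injective (LinearMap.mulLeft K (X 0 : Poly K)) :=
      mul_right_injective₀ (X_ne_zero 0)
    have hfin := finite_of_le_HS (FP_le_HS F1 F2 (d + 1))
    have := Submodule.finrank_mono hle
    rwa [finrank_map_of_inj hinj] at this
  have hle : ∀ d, phi2 ![d1, d2, d3] d ≤ T d := hs.phi2_le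
  rw [hP, hP, hF, hF]
  have e3 : ∀ d, phi3 ![d1, d2, d3] d = phi2 ![d1, d2, d3] d +
      if d3 ≤ d then T (d - d3) - phi2 ![d1, d2, d3] (d - d3) else 0 := fun _ => rfl
  rw [e3, e3]
  by_cases h1 : d3 ≤ e
  · rw [if_pos h1, if_pos (by omega : d3 ≤ e + 1)]
    have e1 : e + 1 - d3 = (e - d3) + 1 := by omega
    rw [e1, T_succ]
    have := hmono (e - d3)
    have := hle (e - d3)
    have := hle (e - d3 + 1)
    omega
  · rw [if_neg h1]
    by_cases h2 : d3 ≤ e + 1
    · rw [if_pos h2]
      have e1 : e + 1 - d3 = 0 := by omega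
      rw [e1, T_zero]
      omega
    · rw [if_neg h2]
      omega

section tri

variable [IsAlgClosed K] {a b c : ℕ} {f g t : Poly K} {ev : Poly K →ₐ[K] K} {x l l' : Poly K}

/-- The trichotomy. -/
theorem class_trichotomy (hZ : ZP a b f g) (ht : t.IsHomogeneous c) (hn : NZ f g t) (hc1 : 1 ≤ c)
    (hbc : b ≤ c) (hP : Penc ev x l l') (hf : ev f ≠ 0) (nz1 : NZ f g l) (nz2 : NZ f g x)
    (nz3 : NZ f t l) (nz4 : NZ f t x) {e : ℕ} (hce : c ≤ e + 2) (hea : e + 4 ≤ a + b)
    {U Y : Submodule K (Poly K)} (hU : U ≤ HS K (e + 1)) (hFU : FF ![f, g, t] (e + 1) ≤ U)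
    (hY : Y ≤ HS K (e + 2)) (hFY : FF ![f, g, t] (e + 2) ≤ Y) (hmul : HS K 1 * U ≤ Y)
    (hPS : Y ≤ LamS l l' U ⊔ FF ![f, g, t] (e + 2))
    (hst : ∀ u ∈ HS K (e + 1), l * u ∈ Y → l' * u ∈ Y → u ∈ U)
    (hΓ : finrank K Y + finrank K (FF ![f, g, t] (e + 1)) + e + 3 <
      finrank K U + finrank K (FF ![f, g, t] (e + 2)) + a + b) :
    2 * finrank K U + finrank K (FF ![f, g, t] (e + 2)) + finrank K (FF ![f, g, t] e) ≤
        finrank K (colS U e) + finrank K Y + 2 * finrank K (FF ![f, g, t] (e + 1)) ∨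
      finrank K (HS K 1 * Y ⊔ FF ![f, g, t] (e + 3) : Submodule K (Poly K)) + finrank K U + 2 +
          2 * finrank K (FF ![f, g, t] (e + 2)) ≤
        2 * finrank K Y + finrank K (FF ![f, g, t] (e + 3)) +
          finrank K (FF ![f, g, t] (e + 1)) := by
  have hab := hZ.hab
  have hs : FormSeq ![a, b, c] ![f, g, t] := hZ.formSeq_of_NZ hc1 ht hn
  have hs' : FormSeq ![a, c, b] ![f, t, g] := by
    refine ⟨?_, ?_, hZ.regTriple_perm ht hn⟩
    · intro i
      fin_cases i
      · exact hZ.ha
      · exact hc1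
      · exact le_trans hZ.ha hab
    · intro i
      fin_cases i
      · exact hZ.homf
      · exact ht
      · exact hZ.homg
  have hff : ∀ d, FF ![f, t, g] d = FF ![f, g, t] d := FF_congr (Fid_perm1 f g t)
  set I := FF ![f, g, t] with hI
  have hfinU := finite_of_le_HS hU
  have hfinY := finite_of_le_HS hY
  have hfinI : ∀ d, Module.Finite K (I d) := fun d => finite_of_le_HS (FF_le_HS _ d)
  have hfinV := finite_of_le_HS (colS_le U e)
  have hmemL : ∀ {w u : Poly K}, w ∈ HS K 1 → u ∈ U → w * u ∈ Y := fun hw hu =>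
    hmul (Submodule.mul_mem_mul hw hu)
  have hlU : ∀ u ∈ U, l * u ∈ Y ∧ l' * u ∈ Y := fun u hu => ⟨hmemL hP.hl hu, hmemL hP.hl' hu⟩
  -- the class maps
  obtain ⟨cl, hcl⟩ := exists_cl hs ev (D := e + 2) (by omega) (by omega) (by omega)
  obtain ⟨cl', hcl'⟩ := exists_cl hs ev (D := e + 3) (by omega) (by omega) (by omega)
  set R := relS l l' U (I (e + 2)) with hR
  set clρ := cl.comp (rhoL l l') with hclρ
  set CC := R.map clρ with hCC
  have hfinR : Module.Finite K R := by
    have h2 := finrank_relS (l := l) (l' := l') (W := U) (Y := Y) (I := I (e + 2)) hFY hlU hPS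
    have : Module.Finite K (U.prod U) := by
      have h3 : Module.Finite K (U × U) := inferInstance
      have h4 : LinearMap.range (U.subtype.prodMap U.subtype) = U.prod U := by
        ext ⟨p, q⟩
        constructor
        · rintro ⟨⟨u, v⟩, h⟩
          have e1 := congrArg Prod.fst h
          have e2 := congrArg Prod.snd h
          simp only [LinearMap.prodMap_apply, Submodule.subtype_apply] at e1 e2
          subst e1 e2
          exact Submodule.mem_prod.2 ⟨u.2, v.2⟩
        · rintro ⟨h3, h4⟩
          exact ⟨(⟨p, h3⟩, ⟨q, h4⟩), rfl⟩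
      rw [← h4]
      infer_instance
    exact Submodule.finiteDimensional_of_le (inf_le_left : R ≤ U.prod U)
  -- classes of elements of `R`
  have hclass : ∀ p ∈ R, ∃ α β γ, Hz α (e + 2) a ∧ Hz β (e + 2) b ∧ Hz γ (e + 2) c ∧
      l * p.1 + l' * p.2 = α * f + β * g + γ * t ∧ clρ p = ![ev α, ev β, ev γ] := by
    intro p hp
    obtain ⟨-, -, h3⟩ := mem_relS.1 hp
    obtain ⟨α, β, γ, h4, h5, h6, e1⟩ := rep3 hs h3
    refine ⟨α, β, γ, h4, h5, h6, e1, ?_⟩
    rw [hclρ, LinearMap.comp_apply, rhoL_apply, e1]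
    exact hcl _ _ _ h4 h5 h6
  -- the point condition
  have hpt : ∀ {u1 u2 α β γ : Poly K}, l * u1 + l' * u2 = α * f + β * g + γ * t →
      ev α * ev f + ev β * ev g + ev γ * ev t = 0 := by
    intro u1 u2 α β γ e1
    have := congrArg ev e1
    simp only [map_add, map_mul, hP.evl, hP.evl', zero_mul, add_zero] at this
    exact this.symm
  -- the dimension of `R`
  have hR1 : finrank K R + finrank K Y = 2 * finrank K U + finrank K (I (e + 2)) :=
    finrank_relS (l := l) (l' := l') (W := U) (Y := Y) (I := I (e + 2)) hFY hlU hPS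
  have hR2 : finrank K CC + finrank K (R ⊓ LinearMap.ker clρ : Submodule K (Poly K × Poly K)) =
      finrank K R :=
    finrank_map_add_kernel clρ inf_le_left fun p hp => by
      simp only [Submodule.mem_inf, LinearMap.mem_ker]
      exact ⟨fun h => ⟨hp, h⟩, fun h => h.2⟩
  -- relations with zero class are Koszul
  set A := (colS U e).map (kosL l l') with hA
  set B := (I (e + 1)).prod (I (e + 1)) with hB
  have hfinB : Module.Finite K B := by
    have := hfinI (e + 1)
    have h3 : Module.Finite K (I (e + 1) × I (e + 1)) := inferInstance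
    have h4 : LinearMap.range ((I (e + 1)).subtype.prodMap (I (e + 1)).subtype) = B := by
      ext ⟨p, q⟩
      constructor
      · rintro ⟨⟨u, v⟩, h⟩
        have e1 := congrArg Prod.fst h
        have e2 := congrArg Prod.snd h
        simp only [LinearMap.prodMap_apply, Submodule.subtype_apply] at e1 e2
        subst e1 e2
        exact Submodule.mem_prod.2 ⟨u.2, v.2⟩
      · rintro ⟨h3, h4⟩
        exact ⟨(⟨p, h3⟩, ⟨q, h4⟩), rfl⟩
    rw [← h4]
    infer_instance
  have hkos : (R ⊓ LinearMap.ker clρ : Submodule K (Poly K × Poly K)) ≤ A ⊔ B := by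
    rintro ⟨u1, u2⟩ ⟨hp, hk⟩
    obtain ⟨α, β, γ, h4, h5, h6, e1, e2⟩ := hclass _ hp
    obtain ⟨hu1, hu2, -⟩ := mem_relS.1 hp
    have hk' : clρ (u1, u2) = 0 := hk
    rw [e2] at hk'
    have h0α : ev α = 0 := congrFun hk' 0
    have h0β : ev β = 0 := congrFun hk' 1
    have h0γ : ev γ = 0 := congrFun hk' 2
    obtain ⟨α1, α2, ha1, ha2, ea⟩ := hP.dec_hz (D := e + 1) h4 h0α
    obtain ⟨β1, β2, hb1, hb2, eb⟩ := hP.dec_hz (D := e + 1) h5 h0β
    obtain ⟨γ1, γ2, hc1', hc2, ec⟩ := hP.dec_hz (D := e + 1) h6 h0γ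
    set i1 := α1 * f + β1 * g + γ1 * t with hi1
    set i2 := α2 * f + β2 * g + γ2 * t with hi2
    have hi1I : i1 ∈ I (e + 1) := mem_FF3 hZ.homf hZ.homg ht ha1 hb1 hc1'
    have hi2I : i2 ∈ I (e + 1) := mem_FF3 hZ.homf hZ.homg ht ha2 hb2 hc2
    obtain ⟨r, er1, er2⟩ := koszul_linear hP.hl hP.l0 hP.nd (p := u2 - i2) (q := -(u1 - i1)) (by
      have e1' : l * u1 + l' * u2 = α * f + β * g + γ * t := e1
      rw [ea, eb, ec] at e1'
      rw [hi1, hi2]
      linear_combination e1')
    have hrH : r.IsHomogeneous e := by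
      refine homog_of_lin_mul (k := 1) hP.hl hP.l0 ?_
      rw [← er1, add_comm]
      exact (hU hu2).sub (FF_le_HS _ _ hi2I)
    have hlr : l * (-r) ∈ U := by
      have : l * (-r) = -(u2 - i2) := by rw [er1]; ring
      rw [this]
      exact U.neg_mem (U.sub_mem hu2 (hFU hi2I))
    have hl'r : l' * (-r) ∈ U := by
      have : l' * (-r) = u1 - i1 := by linear_combination er2
      rw [this]
      exact U.sub_mem hu1 (hFU hi1I)
    have hxr : x * (-r) ∈ U := by
      refine hst _ ?_ ?_ ?_
      · have := hP.hx.mul hrH.neg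
        rwa [add_comm] at this
      · rw [mul_left_comm]
        exact hmemL hP.hx hlr
      · rw [mul_left_comm]
        exact hmemL hP.hx hl'r
    have hV : -r ∈ colS U e := by
      refine ⟨hrH.neg, fun w hw => ?_⟩
      obtain ⟨a1, a2, a3, rfl⟩ := hP.linear hw
      have e4 : (a1 • x + a2 • l + a3 • l') * (-r) =
          a1 • (x * (-r)) + a2 • (l * (-r)) + a3 • (l' * (-r)) := by
        simp only [smul_eq_C_mul]
        ring
      rw [e4]
      exact U.add_mem (U.add_mem (U.smul_mem _ hxr) (U.smul_mem _ hlr)) (U.smul_mem _ hl'r)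
    refine Submodule.mem_sup.2 ⟨_, ⟨-r, hV, rfl⟩, (i1, i2), ⟨hi1I, hi2I⟩, ?_⟩
    rw [kosL_apply]
    refine Prod.ext ?_ ?_
    · show l' * -r + i1 = u1
      linear_combination er2
    · show -(l * -r) + i2 = u2
      linear_combination (-1 : Poly K) * er1
  have hFVcol : I e ≤ colS U e := by
    intro v hv
    refine ⟨FF_le_HS _ _ hv, fun w hw => hFU ?_⟩
    exact HS1_mul_FF_le _ _ (Submodule.mul_mem_mul hw hv)
  have hAB : finrank K (A ⊔ B : Submodule K (Poly K × Poly K)) + finrank K (I e) ≤
      finrank K (colS U e) + 2 * finrank K (I (e + 1)) := by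
    have hfA : Module.Finite K A := inferInstance
    have h1 := Submodule.finrank_sup_add_finrank_inf_eq A B
    have h2 : finrank K A = finrank K (colS U e) := finrank_map_of_inj (kosL_inj hP.l0) _
    have h3 : finrank K B = 2 * finrank K (I (e + 1)) := by
      have := hfinI (e + 1)
      exact finrank_prod_self _
    have h4 : (I e).map (kosL l l') ≤ A ⊓ B := by
      rintro _ ⟨v, hv, rfl⟩
      refine ⟨⟨v, hFVcol hv, rfl⟩, ?_⟩
      rw [kosL_apply]
      refine Submodule.mem_prod.2 ⟨?_, ?_⟩
      · exact HS1_mul_FF_le _ _ (Submodule.mul_mem_mul hP.hl' hv)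
      · exact (I (e + 1)).neg_mem (HS1_mul_FF_le _ _ (Submodule.mul_mem_mul hP.hl hv))
    have hfI : Module.Finite K (A ⊓ B : Submodule K (Poly K × Poly K)) :=
      Submodule.finiteDimensional_of_le inf_le_left
    have h5 := Submodule.finrank_mono h4
    have h6 : finrank K ((I e).map (kosL l l')) = finrank K (I e) :=
      finrank_map_of_inj (kosL_inj hP.l0) _
    omega
  have hfAB : Module.Finite K (A ⊔ B : Submodule K (Poly K × Poly K)) := inferInstance
  have hRk := Submodule.finrank_mono hkos
  -- the inequality with the number of classes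
  have hstar : 2 * finrank K U + finrank K (I (e + 2)) + finrank K (I e) ≤
      finrank K CC + finrank K (colS U e) + finrank K Y + 2 * finrank K (I (e + 1)) := by
    omega
  -- at most two classes
  have hCC2 : finrank K CC ≤ 2 := by
    have hne : CC ≠ ⊤ := by
      intro htop
      have hm : (![1, 0, 0] : Fin 3 → K) ∈ CC := by
        rw [htop]
        trivial
      obtain ⟨p, hp, ep⟩ := hm
      obtain ⟨α, β, γ, -, -, -, e1, e2⟩ := hclass p hp
      rw [e2] at ep
      have h0 : ev α = 1 := congrFun ep 0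
      have h1 : ev β = 0 := congrFun ep 1
      have h2 : ev γ = 0 := congrFun ep 2
      have := hpt e1
      rw [h0, h1, h2] at this
      apply hf
      simpa using this
    have := Submodule.finrank_lt hne
    rw [finrank_fin_fun] at this
    omega
  have hcases : finrank K CC = 0 ∨ finrank K CC = 1 ∨ finrank K CC = 2 := by omega
  rcases hcases with h0 | h1 | h2
  · left
    omega
  · exfalso
    obtain ⟨c0, hc0, hspan⟩ := finrank_eq_one_iff'.1 h1
    obtain ⟨p0, hp0, ep0⟩ := c0.2
    obtain ⟨α0, β0, γ0, h4, h5, h6, e1, e2⟩ := hclass p0 hp0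
    obtain ⟨hu10, hu20, -⟩ := mem_relS.1 hp0
    have hc00 : (c0 : Fin 3 → K) = ![ev α0, ev β0, ev γ0] := by rw [← ep0, e2]
    have hspan' : ∀ p ∈ R, ∃ k : K, k • (c0 : Fin 3 → K) = clρ p := by
      intro p hp
      obtain ⟨k, hk⟩ := hspan ⟨clρ p, ⟨p, hp, rfl⟩⟩
      exact ⟨k, congrArg Subtype.val hk⟩
    have hxU : ∀ u ∈ U, x * u ∈ Y := fun u hu => hmemL hP.hx hu
    by_cases hγ : ev γ0 = 0
    · -- the pair of the first and the third form
      have hβ : ev β0 ≠ 0 := by
        intro hβ0
        have hα0 : ev α0 = 0 := by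
          have := hpt e1
          rw [hβ0, hγ] at this
          simpa [hf] using this
        apply hc0
        apply Subtype.ext
        rw [hc00, hα0, hβ0, hγ]
        funext i
        fin_cases i <;> rfl
      have hG : finrank K (I (e + 1)) + finrank K (FP f t e) ≤
          finrank K (I e) + finrank K (FP f t (e + 1)) + (e + 2 - b) := by
        have := psi_step hs' (e := e) (by omega)
        rwa [hff, hff] at this
      refine r1_pair hs' hP nz3 nz4 (e := e) (by show e + 2 < a + c; omega) (by omega) hU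
        (by rw [hff]; exact hFU) hxU (by rw [hff]; exact hPS) hst hu10 hu20
        (C0 := β0) (A0 := α0) (B0 := γ0) h5 (by linear_combination e1) hβ ?_ ?_ ?_
      · intro u1 hu1 u2 hu2 α β hα hβ' e3
        have hmem : (u1, u2) ∈ R := by
          refine mem_relS.2 ⟨hu1, hu2, ?_⟩
          have : l * u1 + l' * u2 = α * f + 0 * g + β * t := by
            show l * u1 + l' * u2 = _
            rw [e3]
            ring
          show l * u1 + l' * u2 ∈ _
          rw [this]
          exact mem_FF3 hZ.homf hZ.homg ht hα (Hz.zero _ _) hβ'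
        obtain ⟨k, hk⟩ := hspan' _ hmem
        have e4 : clρ (u1, u2) = ![ev α, ev 0, ev β] := by
          rw [hclρ, LinearMap.comp_apply, rhoL_apply]
          have : l * u1 + l' * u2 = α * f + 0 * g + β * t := by
            show l * u1 + l' * u2 = _
            rw [e3]
            ring
          show cl (l * u1 + l' * u2) = _
          rw [this]
          exact hcl _ _ _ hα (Hz.zero _ _) hβ'
        rw [hc00, e4] at hk
        have k0 := congrFun hk 0
        have k1 := congrFun hk 1
        have k2 := congrFun hk 2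
        simp at k0 k1 k2
        have hk0 : k = 0 := (k1.resolve_right hβ)
        rw [hk0] at k0 k2
        simp at k0 k2
        exact ⟨k0.symm, k2.symm⟩
      · have := Submodule.finrank_mono (colS_le U e)
        omega
      · omega
    · -- the pair of the first two forms
      have hG : finrank K (I (e + 1)) + finrank K (FP f g e) ≤
          finrank K (I e) + finrank K (FP f g (e + 1)) + (e + 2 - c) := psi_step hs (e := e) hce
      refine r1_pair hs hP nz1 nz2 (e := e) (by omega) hce hU hFU hxU hPS hst hu10 hu20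
        (C0 := γ0) (A0 := α0) (B0 := β0) h6 e1 hγ ?_ ?_ ?_
      · intro u1 hu1 u2 hu2 α β hα hβ' e3
        have hmem : (u1, u2) ∈ R := by
          refine mem_relS.2 ⟨hu1, hu2, ?_⟩
          have : l * u1 + l' * u2 = α * f + β * g + 0 * t := by
            show l * u1 + l' * u2 = _
            rw [e3]
            ring
          show l * u1 + l' * u2 ∈ _
          rw [this]
          exact mem_FF3 hZ.homf hZ.homg ht hα hβ' (Hz.zero _ _)
        obtain ⟨k, hk⟩ := hspan' _ hmem
        have e4 : clρ (u1, u2) = ![ev α, ev β, ev 0] := by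
          rw [hclρ, LinearMap.comp_apply, rhoL_apply]
          have : l * u1 + l' * u2 = α * f + β * g + 0 * t := by
            show l * u1 + l' * u2 = _
            rw [e3]
            ring
          show cl (l * u1 + l' * u2) = _
          rw [this]
          exact hcl _ _ _ hα hβ' (Hz.zero _ _)
        rw [hc00, e4] at hk
        have k0 := congrFun hk 0
        have k1 := congrFun hk 1
        have k2 := congrFun hk 2
        simp at k0 k1 k2
        have hk0 : k = 0 := (k2.resolve_right hγ)
        rw [hk0] at k0 k1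
        simp at k0 k1
        exact ⟨k0.symm, k1.symm⟩
      · omega
      · omega
  · right
    set Z : Submodule K (Poly K) := HS K 1 * Y ⊔ I (e + 3) with hZd
    have hZle : Z ≤ HS K (e + 3) := by
      refine sup_le ?_ (FF_le_HS _ _)
      have := mul_le_HS (d := 1) (e := e + 2) (W := HS K 1) (W' := Y) le_rfl hY
      rwa [show 1 + (e + 2) = e + 3 by omega] at this
    have hfinZ := finite_of_le_HS hZle
    have hlY : ∀ y ∈ Y, l * y ∈ Z ∧ l' * y ∈ Z := fun y hy =>
      ⟨Submodule.mem_sup_left (Submodule.mul_mem_mul hP.hl hy),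
        Submodule.mem_sup_left (Submodule.mul_mem_mul hP.hl' hy)⟩
    have hPSY : Z ≤ LamS l l' Y ⊔ I (e + 3) := by
      refine sup_le ?_ le_sup_right
      rw [Submodule.mul_le]
      intro w hw y hy
      obtain ⟨a1, a2, a3, rfl⟩ := hP.linear hw
      obtain ⟨u1, hu1, u2, hu2, hi⟩ := mem_LamS_sup.1 (hPS hy)
      refine mem_LamS_sup.2 ⟨a1 • (x * u1) + a2 • y, Y.add_mem (Y.smul_mem _ (hmemL hP.hx hu1))
        (Y.smul_mem _ hy), a1 • (x * u2) + a3 • y, Y.add_mem (Y.smul_mem _ (hmemL hP.hx hu2))
        (Y.smul_mem _ hy), ?_⟩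
      have e1 : (a1 • x + a2 • l + a3 • l') * y - l * (a1 • (x * u1) + a2 • y) -
          l' * (a1 • (x * u2) + a3 • y) = (C a1 * x) * (y - l * u1 - l' * u2) := by
        simp only [smul_eq_C_mul]
        ring
      rw [e1]
      have e2 : (C a1 * x) * (y - l * u1 - l' * u2) = a1 • (x * (y - l * u1 - l' * u2)) := by
        rw [smul_eq_C_mul]
        ring
      rw [e2]
      exact (I (e + 3)).smul_mem _ (HS1_mul_FF_le _ _ (Submodule.mul_mem_mul hP.hx hi))
    set R' := relS l l' Y (I (e + 3)) with hR'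
    have hR'1 : finrank K R' + finrank K Z = 2 * finrank K Y + finrank K (I (e + 3)) :=
      finrank_relS (l := l) (l' := l') (W := Y) (Y := Z) (I := I (e + 3)) le_sup_right hlY hPSY
    set clρ' := cl'.comp (rhoL l l') with hclρ'
    set CC' := R'.map clρ' with hCC'
    have hfinR' : Module.Finite K R' := by
      have h3 : Module.Finite K (Y × Y) := inferInstance
      have h4 : LinearMap.range (Y.subtype.prodMap Y.subtype) = Y.prod Y := by
        ext ⟨p, q⟩
        constructor
        · rintro ⟨⟨u, v⟩, h⟩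
          have e1 := congrArg Prod.fst h
          have e2 := congrArg Prod.snd h
          simp only [LinearMap.prodMap_apply, Submodule.subtype_apply] at e1 e2
          subst e1 e2
          exact Submodule.mem_prod.2 ⟨u.2, v.2⟩
        · rintro ⟨h3, h4⟩
          exact ⟨(⟨p, h3⟩, ⟨q, h4⟩), rfl⟩
      have : Module.Finite K (Y.prod Y) := by
        rw [← h4]
        infer_instance
      exact Submodule.finiteDimensional_of_le (inf_le_left : R' ≤ Y.prod Y)
    have hR'2 : finrank K CC' + finrank K (R' ⊓ LinearMap.ker clρ' :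
        Submodule K (Poly K × Poly K)) = finrank K R' :=
      finrank_map_add_kernel clρ' inf_le_left fun p hp => by
        simp only [Submodule.mem_inf, LinearMap.mem_ker]
        exact ⟨fun h => ⟨hp, h⟩, fun h => h.2⟩
    have hCle : CC ≤ CC' := by
      rintro _ ⟨⟨u1, u2⟩, hp, rfl⟩
      obtain ⟨α, β, γ, h4, h5, h6, e1, e2⟩ := hclass _ hp
      obtain ⟨hu1, hu2, -⟩ := mem_relS.1 hp
      have e1' : l * u1 + l' * u2 = α * f + β * g + γ * t := e1
      have h4' : Hz (x * α) (e + 3) a := h4.mul_form hP.hx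
      have h5' : Hz (x * β) (e + 3) b := h5.mul_form hP.hx
      have h6' : Hz (x * γ) (e + 3) c := h6.mul_form hP.hx
      have e3 : l * (x * u1) + l' * (x * u2) = (x * α) * f + (x * β) * g + (x * γ) * t := by
        linear_combination x * e1'
      refine ⟨(x * u1, x * u2), mem_relS.2 ⟨hmemL hP.hx hu1, hmemL hP.hx hu2, ?_⟩, ?_⟩
      · show l * (x * u1) + l' * (x * u2) ∈ _
        rw [e3]
        exact mem_FF3 hZ.homf hZ.homg ht h4' h5' h6'
      · rw [e2, hclρ', LinearMap.comp_apply, rhoL_apply]
        show cl' (l * (x * u1) + l' * (x * u2)) = _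
        rw [e3, hcl' _ _ _ h4' h5' h6']
        simp [hP.evx]
    have hCf := Submodule.finrank_mono hCle
    set A' := U.map (kosL l l') with hA'
    set B' := (I (e + 2)).prod (I (e + 2)) with hB'
    have hfinB' : Module.Finite K B' := by
      have := hfinI (e + 2)
      have h3 : Module.Finite K (I (e + 2) × I (e + 2)) := inferInstance
      have h4 : LinearMap.range ((I (e + 2)).subtype.prodMap (I (e + 2)).subtype) = B' := by
        ext ⟨p, q⟩
        constructor
        · rintro ⟨⟨u, v⟩, h⟩
          have e1 := congrArg Prod.fst h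
          have e2 := congrArg Prod.snd h
          simp only [LinearMap.prodMap_apply, Submodule.subtype_apply] at e1 e2
          subst e1 e2
          exact Submodule.mem_prod.2 ⟨u.2, v.2⟩
        · rintro ⟨h3, h4⟩
          exact ⟨(⟨p, h3⟩, ⟨q, h4⟩), rfl⟩
      rw [← h4]
      infer_instance
    have hle' : A' ⊔ B' ≤ (R' ⊓ LinearMap.ker clρ' : Submodule K (Poly K × Poly K)) := by
      refine sup_le ?_ ?_
      · rintro _ ⟨u, hu, rfl⟩
        have e0 : l * (l' * u) + l' * (-(l * u)) = 0 := by ring
        refine ⟨mem_relS.2 ⟨(hlU u hu).2, Y.neg_mem (hlU u hu).1, ?_⟩, ?_⟩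
        · show l * (l' * u) + l' * (-(l * u)) ∈ _
          rw [e0]
          exact Submodule.zero_mem _
        · show clρ' (l' * u, -(l * u)) = 0
          rw [hclρ', LinearMap.comp_apply, rhoL_apply]
          show cl' (l * (l' * u) + l' * (-(l * u))) = 0
          rw [e0, map_zero]
      · rintro ⟨i1, i2⟩ ⟨hi1, hi2⟩
        have hi1' : i1 ∈ I (e + 2) := hi1
        have hi2' : i2 ∈ I (e + 2) := hi2
        obtain ⟨α1, β1, γ1, a1, a2, a3, e1⟩ := rep3 hs hi1'
        obtain ⟨α2, β2, γ2, b1, b2, b3, e2⟩ := rep3 hs hi2'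
        have e3 : l * i1 + l' * i2 = (l * α1 + l' * α2) * f + (l * β1 + l' * β2) * g +
            (l * γ1 + l' * γ2) * t := by
          rw [e1, e2]
          ring
        have c1 : Hz (l * α1 + l' * α2) (e + 3) a := (a1.mul_form hP.hl).add (b1.mul_form hP.hl')
        have c2 : Hz (l * β1 + l' * β2) (e + 3) b := (a2.mul_form hP.hl).add (b2.mul_form hP.hl')
        have c3 : Hz (l * γ1 + l' * γ2) (e + 3) c := (a3.mul_form hP.hl).add (b3.mul_form hP.hl')
        refine ⟨mem_relS.2 ⟨hFY hi1, hFY hi2, ?_⟩, ?_⟩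
        · show l * i1 + l' * i2 ∈ _
          rw [e3]
          exact mem_FF3 hZ.homf hZ.homg ht c1 c2 c3
        · show clρ' (i1, i2) = 0
          rw [hclρ', LinearMap.comp_apply, rhoL_apply]
          show cl' (l * i1 + l' * i2) = 0
          rw [e3, hcl' _ _ _ c1 c2 c3]
          simp only [map_add, map_mul, hP.evl, hP.evl', zero_mul, add_zero]
          funext i
          fin_cases i <;> rfl
    have hA'B' : finrank K U + 2 * finrank K (I (e + 2)) ≤
        finrank K (A' ⊔ B' : Submodule K (Poly K × Poly K)) + finrank K (I (e + 1)) := by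
      have hfA : Module.Finite K A' := inferInstance
      have h1' := Submodule.finrank_sup_add_finrank_inf_eq A' B'
      have h2' : finrank K A' = finrank K U := finrank_map_of_inj (kosL_inj hP.l0) _
      have h3 : finrank K B' = 2 * finrank K (I (e + 2)) := by
        have := hfinI (e + 2)
        exact finrank_prod_self _
      have h4 : A' ⊓ B' ≤ (I (e + 1)).map (kosL l l') := by
        rintro _ ⟨⟨u, hu, rfl⟩, hB2⟩
        rw [kosL_apply] at hB2
        obtain ⟨hb1, hb2⟩ := Submodule.mem_prod.1 hB2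
        have hb2' : l * u ∈ I (e + 2) := by
          have := (I (e + 2)).neg_mem hb2
          simpa using this
        refine ⟨u, mem_FF.2 ⟨?_, hU hu⟩, rfl⟩
        exact hs.pencil_socle (A := ![a, b, c]) hP.hl hP.hl' hP.l0 hP.nd (hU hu) (by
            show e + 1 + 2 < a + b
            omega) (by
            show e + 1 + 2 < a + c
            omega) (by
            show e + 1 + 2 < b + c
            omega) (mem_FF.1 hb2').1 (mem_FF.1 hb1).1
      have hfI : Module.Finite K ((I (e + 1)).map (kosL l l')) := by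
        have := hfinI (e + 1)
        infer_instance
      have h5 := Submodule.finrank_mono h4
      have h6 : finrank K ((I (e + 1)).map (kosL l l')) = finrank K (I (e + 1)) :=
        finrank_map_of_inj (kosL_inj hP.l0) _
      omega
    have hfinK' : Module.Finite K (R' ⊓ LinearMap.ker clρ' : Submodule K (Poly K × Poly K)) :=
      Submodule.finiteDimensional_of_le inf_le_left
    have hle2 := Submodule.finrank_mono hle'
    omega

end tri

end Vale.Agent.Lib.P200
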