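import Vale.Agent.Lib.P200.E6Tri

/-!
A dichotomy for a net of linear maps: either a generic pencil of the net has full image, or there
is a polynomial quotient.
-/

universe u

namespace Vale.Agent.Lib.P200
open MvPolynomial Module

variable {K : Type u} [Field K]

/-- Over a domain: either a matrix has a nonzero multiple of the identity as a product with another
matrix, or its rows are dependent. -/
theorem matrix_dichotomy {R : Type u} [CommRing R] [IsDomain R] {α γ : Type} [Fintype α] [Fintype γ]
    [DecidableEq α] [DecidableEq γ] (M : Matrix α γ R) :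
    (∃ (D : R) (c : α → γ → R), D ≠ 0 ∧ ∀ a a', ∑ g, M a' g * c a g = if a = a' then D else 0) ∨
    (∃ o : α → R, o ≠ 0 ∧ ∀ g, ∑ a, o a * M a g = 0) := by
  let F := FractionRing R
  let ι : R →+* F := algebraMap R F
  have hinj : Function.Injective ι := IsFractionRing.injective R F
  let MF : Matrix α γ F := M.map ι
  by_cases hW : LinearMap.range MF.mulVecLin = ⊤
  · left
    have hex : ∀ a : α, ∃ v : γ → F, MF.mulVec v = Pi.single a 1 := by
      intro a
      have : (Pi.single a 1 : α → F) ∈ LinearMap.range MF.mulVecLin := by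
        rw [hW]
        trivial
      obtain ⟨v, hv⟩ := this
      exact ⟨v, hv⟩
    choose v hv using hex
    obtain ⟨b, hb⟩ := IsLocalization.exist_integer_multiples_of_finite (nonZeroDivisors R)
      (fun p : α × γ => v p.1 p.2)
    choose c hc using hb
    refine ⟨b, fun a g => c (a, g), nonZeroDivisors.ne_zero b.2, fun a a' => ?_⟩
    apply hinj
    have h1 := congrFun (hv a) a'
    simp only [Matrix.mulVec, dotProduct, MF, Matrix.map_apply] at h1
    rw [map_sum]
    have h2 : ∀ g, ι (M a' g * c (a, g)) = ι b * (ι (M a' g) * v a g) := by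
      intro g
      rw [map_mul, show ι (c (a, g)) = algebraMap R F (c (a, g)) from rfl, hc (a, g)]
      simp only [Algebra.smul_def]
      show ι (M a' g) * (ι b * v a g) = _
      ring
    rw [Finset.sum_congr rfl fun g _ => h2 g, ← Finset.mul_sum, h1]
    by_cases h : a = a'
    · subst h
      simp
    · rw [if_neg h, Pi.single_eq_of_ne (Ne.symm h)]
      simp
  · right
    obtain ⟨f, hf, hf0⟩ := Submodule.exists_le_ker_of_lt_top _ (lt_top_iff_ne_top.2 hW)
    set oF : α → F := fun a => f (fun j => if a = j then 1 else 0) with hoF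
    have hexp : ∀ w : α → F, f w = ∑ a, w a * oF a := by
      intro w
      rw [LinearMap.pi_apply_eq_sum_univ f w]
      rfl
    have hne : ∃ a, oF a ≠ 0 := by
      by_contra hall
      push Not at hall
      apply hf
      refine LinearMap.ext fun w => ?_
      rw [hexp]
      simp [hall]
    have hcol : ∀ g, ∑ a, ι (M a g) * oF a = 0 := by
      intro g
      have hm : (fun a => ι (M a g)) ∈ LinearMap.range MF.mulVecLin := by
        refine ⟨fun g' => if g = g' then 1 else 0, ?_⟩
        funext a
        simp [Matrix.mulVec, dotProduct, MF]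
      have := hf0 hm
      rw [LinearMap.mem_ker, hexp] at this
      exact this
    obtain ⟨b, hb⟩ := IsLocalization.exist_integer_multiples_of_finite (nonZeroDivisors R) oF
    choose o ho using hb
    have hb0 : ι (b : R) ≠ 0 := by
      intro h0
      exact nonZeroDivisors.ne_zero b.2 (hinj (by rw [h0, map_zero]))
    have ho' : ∀ a, ι (o a) = ι b * oF a := by
      intro a
      have := ho a
      simp only [Algebra.smul_def] at this
      exact this
    refine ⟨o, ?_, fun g => ?_⟩
    · rintro rfl
      obtain ⟨a, ha⟩ := hne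
      have := ho' a
      simp only [Pi.zero_apply, map_zero] at this
      exact ha ((mul_eq_zero.1 this.symm).resolve_left hb0)
    · apply hinj
      rw [map_sum, map_zero]
      have h2 : ∀ a, ι (o a * M a g) = ι b * (ι (M a g) * oF a) := by
        intro a
        rw [map_mul, ho']
        ring
      rw [Finset.sum_congr rfl fun a _ => h2 a, ← Finset.mul_sum, hcol, mul_zero]

/-- The dichotomy for a net of linear maps. -/
theorem net_dichotomy [Infinite K] {U Q : Type u} [AddCommGroup U] [Module K U] [Module.Finite K U]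
    [AddCommGroup Q] [Module K Q] [Module.Finite K Q] (m : Fin 3 → U →ₗ[K] Q)
    (hm : ⨆ i, LinearMap.range (m i) = ⊤) :
    (∃ D : Poly K, D ≠ 0 ∧ ∀ p : Fin 3 → K, eval p D ≠ 0 →
      ⨆ i, ⨆ k, LinearMap.range (p i • m k - p k • m i) = ⊤) ∨
    (∃ (N : ℕ) (o : Q →ₗ[K] Poly K) (ψ : U →ₗ[K] Poly K), o ≠ 0 ∧ (∀ u, ψ u ∈ HS K N) ∧
      ∀ i u, o (m i u) = X i * ψ u) := by
  classical
  let bU := finBasis K U
  let bQ := finBasis K Q
  let M : Matrix (Fin (finrank K Q)) (Fin (finrank K U) × Fin 3 × Fin 3) (Poly K) := fun a g =>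
    X g.2.1 * C (bQ.repr (m g.2.2 (bU g.1)) a) - X g.2.2 * C (bQ.repr (m g.2.1 (bU g.1)) a)
  have hMH : ∀ a g, (M a g).IsHomogeneous 1 := by
    intro a g
    refine MvPolynomial.IsHomogeneous.sub ?_ ?_
    · simpa using (isHomogeneous_X K g.2.1).mul (isHomogeneous_C (Fin 3) (bQ.repr (m g.2.2 (bU g.1)) a))
    · simpa using (isHomogeneous_X K g.2.2).mul (isHomogeneous_C (Fin 3) (bQ.repr (m g.2.1 (bU g.1)) a))
  rcases matrix_dichotomy M with ⟨D, c, hD, hc⟩ | ⟨o, ho, hog⟩
  · left
    refine ⟨D, hD, fun p hp => ?_⟩
    rw [eq_top_iff]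
    set W : Submodule K Q := ⨆ i, ⨆ k, LinearMap.range (p i • m k - p k • m i) with hW
    have hmem : ∀ i k u, (p i • m k - p k • m i) u ∈ W := by
      intro i k u
      exact Submodule.mem_iSup_of_mem i (Submodule.mem_iSup_of_mem k ⟨u, rfl⟩)
    have hv : ∀ a, ∑ g : Fin (finrank K U) × Fin 3 × Fin 3,
        eval p (c a g) • (p g.2.1 • m g.2.2 - p g.2.2 • m g.2.1) (bU g.1) = eval p D • bQ a := by
      intro a
      apply bQ.repr.injective
      ext a'
      simp only [map_sum, map_smul, Finsupp.coe_finsetSum, Finset.sum_apply, Finsupp.smul_apply,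
        LinearMap.sub_apply, LinearMap.smul_apply, map_sub, Finsupp.coe_sub, Pi.sub_apply,
        smul_eq_mul, Basis.repr_self]
      have h1 := congrArg (eval p) (hc a a')
      rw [map_sum] at h1
      have h2 : ∀ g, eval p (M a' g * c a g) = eval p (c a g) *
          (p g.2.1 * bQ.repr (m g.2.2 (bU g.1)) a' - p g.2.2 * bQ.repr (m g.2.1 (bU g.1)) a') := by
        intro g
        simp only [M, map_mul, map_sub, eval_X, eval_C]
        ring
      rw [Finset.sum_congr rfl fun g _ => h2 g] at h1
      rw [h1]
      by_cases h : a = a'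
      · subst h
        simp
      · rw [if_neg h, Finsupp.single_eq_of_ne (Ne.symm h)]
        simp
    have hb : ∀ a, bQ a ∈ W := by
      intro a
      have h1 : eval p D • bQ a ∈ W := by
        rw [← hv]
        refine Submodule.sum_mem _ fun g _ => W.smul_mem _ (hmem _ _ _)
      have := W.smul_mem (eval p D)⁻¹ h1
      rwa [smul_smul, inv_mul_cancel₀ hp, one_smul] at this
    intro q _
    rw [← bQ.sum_repr q]
    exact Submodule.sum_mem _ fun a _ => W.smul_mem _ (hb a)
  · right
    -- a homogeneous component
    obtain ⟨a0, ha0⟩ : ∃ a, o a ≠ 0 := by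
      by_contra h
      push Not at h
      exact ho (funext h)
    obtain ⟨d, hd⟩ := exists_coeff_ne_zero ha0
    set n0 := d.degree with hn0
    set õ : Fin (finrank K Q) → Poly K := fun a => homogeneousComponent n0 (o a) with hõ
    have hõ0 : õ a0 ≠ 0 := by
      intro h0
      apply hd
      have := congrArg (coeff d) h0
      simp only [hõ, coeff_homogeneousComponent, coeff_zero] at this
      rw [if_pos (by rw [hn0])] at this
      exact this
    have hõH : ∀ a, (õ a).IsHomogeneous n0 := fun a => homogeneousComponent_isHomogeneous _ _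
    have hõg : ∀ g, ∑ a, õ a * M a g = 0 := by
      intro g
      have h1 := congrArg (homogeneousComponent (n0 + 1)) (hog g)
      rw [map_sum, map_zero] at h1
      rw [← h1]
      refine Finset.sum_congr rfl fun a _ => ?_
      rw [comp_mul_general (hMH a g), if_pos (by omega), Nat.add_sub_cancel]
    set o' : Q →ₗ[K] Poly K := bQ.constr K õ with ho'd
    have ho'b : ∀ a, o' (bQ a) = õ a := fun a => bQ.constr_basis K õ a
    have ho'sum : ∀ q, o' q = ∑ a, C (bQ.repr q a) * õ a := by
      intro q
      rw [ho'd, Basis.constr_apply_fintype]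
      simp only [Basis.equivFun_apply, smul_eq_C_mul]
    have ho'H : ∀ q, o' q ∈ HS K n0 := by
      intro q
      rw [ho'sum]
      refine Submodule.sum_mem _ fun a _ => ?_
      rw [← smul_eq_C_mul]
      exact Submodule.smul_mem _ _ (hõH a)
    have ho'ne : o' ≠ 0 := by
      intro h0
      apply hõ0
      rw [← ho'b, h0, LinearMap.zero_apply]
    have hR0 : ∀ β i k, X i * o' (m k (bU β)) = X k * o' (m i (bU β)) := by
      intro β i k
      have h1 := hõg (β, i, k)
      rw [ho'sum, ho'sum, Finset.mul_sum, Finset.mul_sum, ← sub_eq_zero, ← Finset.sum_sub_distrib,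
        ← h1]
      refine Finset.sum_congr rfl fun a _ => ?_
      simp only [M]
      ring
    have hR : ∀ i k u, X i * o' (m k u) = X k * o' (m i u) := by
      intro i k u
      have : (LinearMap.mulLeft K (X i : Poly K)).comp (o'.comp (m k)) =
          (LinearMap.mulLeft K (X k : Poly K)).comp (o'.comp (m i)) := by
        refine bU.ext fun β => ?_
        exact hR0 β i k
      exact LinearMap.congr_fun this u
    have hX0 : (X 0 : Poly K) ≠ 0 := X_ne_zero 0
    have hpr : Prime (X 0 : Poly K) := prime_linear (isHomogeneous_X K 0) hX0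
    have hnd1 : ¬ (X 0 : Poly K) ∣ X 1 := by
      intro h
      have := (X_dvd_X (R := K) (i := (0 : Fin 3)) (j := 1)).1 h
      exact absurd this (by decide)
    have hdvd : ∀ β, ∃ w, o' (m 0 (bU β)) = X 0 * w := by
      intro β
      have h1 : (X 0 : Poly K) ∣ X 1 * o' (m 0 (bU β)) := ⟨o' (m 1 (bU β)), hR 1 0 _⟩
      exact (hpr.dvd_or_dvd h1).resolve_left hnd1
    choose ψ0 hψ0 using hdvd
    set ψ : U →ₗ[K] Poly K := bU.constr K ψ0 with hψd
    have hE0 : ∀ u, o' (m 0 u) = X 0 * ψ u := by
      intro u
      have : o'.comp (m 0) = (LinearMap.mulLeft K (X 0 : Poly K)).comp ψ := by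
        refine bU.ext fun β => ?_
        simp only [LinearMap.comp_apply, LinearMap.mulLeft_apply]
        rw [hψ0, hψd, bU.constr_basis]
      exact LinearMap.congr_fun this u
    have hE : ∀ i u, o' (m i u) = X i * ψ u := by
      intro i u
      have h1 := hR 0 i u
      rw [hE0] at h1
      apply mul_left_cancel₀ hX0
      rw [h1]
      ring
    have hn0pos : n0 ≠ 0 := by
      intro hn
      apply ho'ne
      have hψ0' : ∀ u, ψ u = 0 := by
        intro u
        by_contra hne
        have h1 : (X 0 * ψ u : Poly K).IsHomogeneous 0 := by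
          rw [← hE0, ← hn]
          exact ho'H _
        have h2 := h1.totalDegree (mul_ne_zero hX0 hne)
        rw [totalDegree_mul_of_isDomain hX0 hne, totalDegree_X] at h2
        omega
      have h3 : ∀ q, o' q = 0 := by
        intro q
        have hq : q ∈ ⨆ i, LinearMap.range (m i) := by
          rw [hm]
          trivial
        have hle : ⨆ i, LinearMap.range (m i) ≤ LinearMap.ker o' := by
          refine iSup_le fun i => ?_
          rintro _ ⟨u, rfl⟩
          rw [LinearMap.mem_ker, hE, hψ0', mul_zero]
        exact hle hq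
      exact LinearMap.ext h3
    obtain ⟨N, hN⟩ := Nat.exists_eq_succ_of_ne_zero hn0pos
    refine ⟨N, o', ψ, ho'ne, fun u => ?_, hE⟩
    refine homog_of_lin_mul (k := 1) (isHomogeneous_X K 0) hX0 ?_
    rw [← hE0, add_comm, show N + 1 = n0 from hN.symm]
    exact ho'H _

end Vale.Agent.Lib.P200
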