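import Vale.Agent.Lib.P200.E7Pen

/-!
The growth of subspaces of forms, and the polynomial quotient of a pair of subspaces.
-/

universe u

namespace Vale.Agent.Lib.P200
open MvPolynomial Module

variable {K : Type u} [Field K]

theorem regTriple_X120 : RegTriple (X 1 : Poly K) (X 2) (X 0) := by
  have h := RegTriple_map (regTriple_X (K := K)) (renameEquiv K (finRotate 3))
  have e0 : (finRotate 3) 0 = 1 := by decide
  have e1 : (finRotate 3) 1 = 2 := by decide
  have e2 : (finRotate 3) 2 = 0 := by decide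
  simpa [renameEquiv_apply, rename_X, e0, e1, e2] using h

theorem zp_powers (A : ℕ) (hA : 1 ≤ A) : ZP A A ((X 1 : Poly K) ^ A) ((X 2 : Poly K) ^ A) where
  ha := hA
  hab := le_rfl
  homf := by
    have := (isHomogeneous_X K (1 : Fin 3)).pow A
    rwa [one_mul] at this
  homg := by
    have := (isHomogeneous_X K (2 : Fin 3)).pow A
    rwa [one_mul] at this
  reg := by
    have := (regTriple_X120 (K := K)).pows (A - 1) (A - 1) 1
    rw [Nat.sub_add_cancel hA, pow_one] at this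
    exact this

theorem LL_mac (n q : ℕ) (hq : q ≤ n + 3) : 2 * LL (n + 3) (n + 3) (q + 2) n = q * (q + 1) := by
  induction q with
  | zero =>
    rw [show 0 + 2 = 0 + 1 + 1 from rfl, LL_succ, LL_succ, LL_zero]
    simp [ell]
  | succ q ih =>
    have ih' := ih (by omega)
    rw [show q + 1 + 2 = q + 2 + 1 from rfl, LL_succ]
    have : ell (n + 3) (n + 3) (q + 2 + 1) n = q + 1 := by
      unfold ell
      omega
    rw [this]
    nlinarith

theorem two_mul_T (n : ℕ) : 2 * T n = (n + 1) * (n + 2) := by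
  induction n with
  | zero => simp [T]
  | succ n ih =>
    rw [T_succ]
    nlinarith

/-- One instance of the growth bound. -/
theorem mac_growth {n : ℕ} {Ψ : Submodule K (Poly K)} (hΨ : Ψ ≤ HS K n) {q : ℕ} (hq : q ≤ n)
    (h : q * (q + 1) < 2 * finrank K Ψ) :
    finrank K Ψ + q + 2 ≤ finrank K (HS K 1 * Ψ : Submodule K (Poly K)) := by
  have hZ := zp_powers (K := K) (n + 3) (by omega)
  have hF0 : FP ((X 1 : Poly K) ^ (n + 3)) ((X 2 : Poly K) ^ (n + 3)) n = ⊥ := hZ.FP_low (by omega)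
  have hF1 : FP ((X 1 : Poly K) ^ (n + 3)) ((X 2 : Poly K) ^ (n + 3)) (n + 1) = ⊥ :=
    hZ.FP_low (by omega)
  have hL := LL_mac n q (by omega)
  have hg := hZ.growthC (by omega) n Ψ (q + 2) (by rw [hF0]; exact bot_le) hΨ (by omega)
    (by
      rw [hF0, finrank_bot]
      omega)
  unfold gpl at hg
  rw [hF0, hF1, sup_bot_eq, finrank_bot] at hg
  have e1 : min (q + 2 + 1) (tauZ (n + 3) (n + 3) n) = q + 3 := by
    unfold tauZ
    omega
  rw [e1, show n + 3 - 2 - n = 1 by omega] at hg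
  omega

/-- Macaulay's bound for subspaces of forms in three variables. -/
theorem macaulay_bound {n : ℕ} {Ψ : Submodule K (Poly K)} (hΨ : Ψ ≤ HS K n) (h0 : Ψ ≠ ⊥) :
    ∃ g, finrank K (HS K 1 * Ψ : Submodule K (Poly K)) = finrank K Ψ + g ∧ 2 ≤ g ∧
      2 * finrank K Ψ ≤ g * (g - 1) := by
  have hfin := finite_of_le_HS hΨ
  have hk : 1 ≤ finrank K Ψ := by
    by_contra hh
    apply h0
    rw [← Submodule.finrank_eq_zero]
    omega
  have h1 := mac_growth hΨ (q := 0) (Nat.zero_le _) (by omega)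
  obtain ⟨g, hg⟩ : ∃ g, finrank K (HS K 1 * Ψ : Submodule K (Poly K)) = finrank K Ψ + g :=
    ⟨finrank K (HS K 1 * Ψ : Submodule K (Poly K)) - finrank K Ψ, by omega⟩
  refine ⟨g, hg, by omega, ?_⟩
  by_contra hcon
  push Not at hcon
  obtain ⟨q, rfl⟩ : ∃ q, g = q + 1 := ⟨g - 1, by omega⟩
  rw [Nat.add_sub_cancel] at hcon
  by_cases hqn : q ≤ n
  · have := mac_growth hΨ hqn (by nlinarith)
    omega
  · have hT := Submodule.finrank_mono hΨ
    rw [finrank_HS] at hT
    have h2 := two_mul_T n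
    have h3 : (n + 1) * (n + 2) ≤ q * (q + 1) := Nat.mul_le_mul (by omega) (by omega)
    nlinarith

/-- The polynomial quotient of a pair of subspaces. -/
theorem pair_dichotomy [Infinite K] {U Y I0 I1 : Submodule K (Poly K)} {d : ℕ}
    (hU : U ≤ HS K d) (hI0 : I0 ≤ U) (hY : Y ≤ HS K (d + 1)) (hI1 : I1 ≤ Y)
    (hI01 : HS K 1 * I0 ≤ I1) (hYeq : Y = HS K 1 * U ⊔ I1) :
    (∃ D : Poly K, D ≠ 0 ∧ ∀ p : Fin 3 → K, eval p D ≠ 0 →
      Y ≤ (⨆ i, ⨆ k, U.map (LinearMap.mulLeft K (C (p i) * X k - C (p k) * X i))) ⊔ I1) ∨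
    (∃ (U0 Y0 : Submodule K (Poly K)) (k g : ℕ), I0 ≤ U0 ∧ U0 ≤ HS K d ∧ HS K 1 * U0 ≤ Y0 ∧
      I1 ≤ Y0 ∧ Y0 ≤ HS K (d + 1) ∧ finrank K U = finrank K U0 + k ∧
      finrank K Y = finrank K Y0 + k + g ∧ 2 ≤ g ∧ 2 * k ≤ g * (g - 1)) := by
  classical
  have hfU : Module.Finite K U := finite_of_le_HS hU
  have hfY : Module.Finite K Y := finite_of_le_HS hY
  let J : Submodule K Y := I1.comap Y.subtype
  let Q := Y ⧸ J
  let XU : Fin 3 → Poly K := fun i => X i
  have hXmem : ∀ i (u : U), XU i * (u : Poly K) ∈ Y := fun i u => by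
    rw [hYeq]
    exact Submodule.mem_sup_left (Submodule.mul_mem_mul (X_mem_HS1 i) u.2)
  let m0 : Fin 3 → U →ₗ[K] Y := fun i =>
    LinearMap.codRestrict Y ((LinearMap.mulLeft K (XU i)).comp U.subtype) (fun u => hXmem i u)
  let m : Fin 3 → U →ₗ[K] Q := fun i => J.mkQ.comp (m0 i)
  have hm : ⨆ i, LinearMap.range (m i) = ⊤ := by
    rw [eq_top_iff]
    rintro q -
    obtain ⟨y, rfl⟩ := J.mkQ_surjective q
    have hy : (y : Poly K) ∈ HS K 1 * U ⊔ I1 := hYeq.le y.2
    obtain ⟨z, hz, w, hw, hzw⟩ := Submodule.mem_sup.1 hy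
    have hzY : z ∈ Y := by
      rw [hYeq]
      exact Submodule.mem_sup_left hz
    have hwY : w ∈ Y := hI1 hw
    have e0 : J.mkQ y = J.mkQ ⟨z, hzY⟩ := by
      rw [Submodule.mkQ_apply, Submodule.mkQ_apply, Submodule.Quotient.eq]
      show ((y : Poly K) - z) ∈ I1
      rw [← hzw, add_sub_cancel_left]
      exact hw
    rw [e0]
    have hz2 : ∀ z' (hz' : z' ∈ HS K 1 * U) (hz'Y : z' ∈ Y),
        J.mkQ ⟨z', hz'Y⟩ ∈ ⨆ i, LinearMap.range (m i) := by
      intro z' hz'
      rw [mem_HS1_mul] at hz'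
      obtain ⟨c0, hc0, c1, hc1, c2, hc2, rfl⟩ := hz'
      intro hz'Y
      have : (⟨X 0 * c0 + X 1 * c1 + X 2 * c2, hz'Y⟩ : Y) =
          m0 0 ⟨c0, hc0⟩ + m0 1 ⟨c1, hc1⟩ + m0 2 ⟨c2, hc2⟩ := by
        apply Subtype.ext
        rfl
      rw [this, map_add, map_add]
      refine Submodule.add_mem _ (Submodule.add_mem _ ?_ ?_) ?_
      · exact Submodule.mem_iSup_of_mem 0 ⟨⟨c0, hc0⟩, rfl⟩
      · exact Submodule.mem_iSup_of_mem 1 ⟨⟨c1, hc1⟩, rfl⟩
      · exact Submodule.mem_iSup_of_mem 2 ⟨⟨c2, hc2⟩, rfl⟩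
    exact hz2 z hz hzY
  rcases net_dichotomy m hm with ⟨D, hD, hDp⟩ | ⟨N, o, ψ, ho, hψ, hoψ⟩
  · left
    refine ⟨D, hD, fun p hp y hy => ?_⟩
    set T : Submodule K (Poly K) :=
      (⨆ i, ⨆ k, U.map (LinearMap.mulLeft K (C (p i) * X k - C (p k) * X i))) ⊔ I1 with hT
    have hle : ⨆ i, ⨆ k, LinearMap.range (p i • m k - p k • m i) ≤
        (T.comap Y.subtype).map J.mkQ := by
      refine iSup_le fun i => iSup_le fun k => ?_
      rintro _ ⟨u, rfl⟩
      refine ⟨(p i • m0 k - p k • m0 i) u, ?_, rfl⟩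
      show ((p i • m0 k - p k • m0 i) u : Poly K) ∈ T
      have e : (((p i • m0 k - p k • m0 i) u : Y) : Poly K) =
          (C (p i) * X k - C (p k) * X i) * (u : Poly K) := by
        simp only [LinearMap.sub_apply, LinearMap.smul_apply, Submodule.coe_sub,
          Submodule.coe_smul, smul_eq_C_mul, sub_mul, mul_assoc]
        rfl
      rw [e]
      refine Submodule.mem_sup_left ?_
      exact Submodule.mem_iSup_of_mem i (Submodule.mem_iSup_of_mem k ⟨u, u.2, rfl⟩)
    rw [hDp p hp] at hle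
    have hmem : J.mkQ ⟨y, hy⟩ ∈ (T.comap Y.subtype).map J.mkQ := hle trivial
    obtain ⟨y', hy', hyy⟩ := hmem
    rw [Submodule.mkQ_apply, Submodule.mkQ_apply, Submodule.Quotient.eq] at hyy
    have h1 : (y' : Poly K) ∈ T := hy'
    have h2 : ((y' : Poly K) - y) ∈ I1 := hyy
    have h3 : ((y' : Poly K) - y) ∈ T := Submodule.mem_sup_right h2
    have := T.sub_mem h1 h3
    rwa [sub_sub_cancel] at this
  · right
    have hXinj : ∀ (i : Fin 3) (q : Poly K), X i * q = 0 → q = 0 := fun i q h =>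
      (mul_eq_zero.1 h).resolve_left (X_ne_zero i)
    let oY : Y →ₗ[K] Poly K := o.comp J.mkQ
    let U0 : Submodule K (Poly K) := (LinearMap.ker ψ).map U.subtype
    let Y0 : Submodule K (Poly K) := (LinearMap.ker oY).map Y.subtype
    let Ψ : Submodule K (Poly K) := LinearMap.range ψ
    have hΨ : Ψ ≤ HS K N := by
      rintro _ ⟨u, rfl⟩
      exact hψ u
    have hΨ0 : Ψ ≠ ⊥ := by
      intro h0
      apply ho
      have hz : ∀ u, ψ u = 0 := fun u => by
        have : ψ u ∈ Ψ := ⟨u, rfl⟩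
        rw [h0] at this
        simpa using this
      have hall : (⨆ i, LinearMap.range (m i)) ≤ LinearMap.ker o := by
        refine iSup_le fun i => ?_
        rintro _ ⟨u, rfl⟩
        rw [LinearMap.mem_ker, hoψ, hz, mul_zero]
      rw [hm, top_le_iff] at hall
      exact LinearMap.ker_eq_top.1 hall
    have hrange : LinearMap.range oY = HS K 1 * Ψ := by
      apply le_antisymm
      · have hr : LinearMap.range oY = LinearMap.range o := by
          show LinearMap.range (o.comp J.mkQ) = _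
          rw [LinearMap.range_comp, Submodule.range_mkQ, Submodule.map_top]
        rw [hr, ← Submodule.map_top, ← hm, Submodule.map_iSup]
        refine iSup_le fun i => ?_
        rintro _ ⟨_, ⟨u, rfl⟩, rfl⟩
        rw [hoψ]
        exact Submodule.mul_mem_mul (X_mem_HS1 i) ⟨u, rfl⟩
      · intro z hz
        rw [mem_HS1_mul] at hz
        obtain ⟨c0, ⟨u0, rfl⟩, c1, ⟨u1, rfl⟩, c2, ⟨u2, rfl⟩, rfl⟩ := hz
        rw [← hoψ, ← hoψ, ← hoψ]
        refine Submodule.add_mem _ (Submodule.add_mem _ ?_ ?_) ?_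
        · exact ⟨m0 0 u0, rfl⟩
        · exact ⟨m0 1 u1, rfl⟩
        · exact ⟨m0 2 u2, rfl⟩
    obtain ⟨g, hg, hg2, hgk⟩ := macaulay_bound hΨ hΨ0
    have hmap : ∀ {W : Submodule K (Poly K)} (L : Submodule K W),
        finrank K (L.map W.subtype) = finrank K L := fun {W} L =>
      (Submodule.equivMapOfInjective W.subtype W.injective_subtype L).finrank_eq.symm
    have hr1 := LinearMap.finrank_range_add_finrank_ker ψ
    have hr2 := LinearMap.finrank_range_add_finrank_ker oY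
    rw [hrange] at hr2
    refine ⟨U0, Y0, finrank K Ψ, g, ?_, ?_, ?_, ?_, ?_, ?_, ?_, hg2, hgk⟩
    · intro u hu
      refine ⟨⟨u, hI0 hu⟩, ?_, rfl⟩
      show _ ∈ LinearMap.ker ψ
      rw [LinearMap.mem_ker]
      apply hXinj 0
      rw [← hoψ]
      have : m 0 ⟨u, hI0 hu⟩ = 0 := by
        show J.mkQ _ = 0
        rw [Submodule.mkQ_apply, Submodule.Quotient.mk_eq_zero]
        show (X 0 * u) ∈ I1
        exact hI01 (Submodule.mul_mem_mul (X_mem_HS1 0) hu)
      rw [this, map_zero]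
    · rintro _ ⟨u, -, rfl⟩
      exact hU u.2
    · intro z hz
      rw [mem_HS1_mul] at hz
      obtain ⟨c0, hc0, c1, hc1, c2, hc2, rfl⟩ := hz
      have key : ∀ (i : Fin 3) (c : Poly K), c ∈ U0 → X i * c ∈ Y0 := by
        rintro i _ ⟨u, hu, rfl⟩
        refine ⟨m0 i u, ?_, rfl⟩
        show _ ∈ LinearMap.ker oY
        rw [LinearMap.mem_ker]
        show o (m i u) = 0
        rw [hoψ, LinearMap.mem_ker.1 hu, mul_zero]
      exact Y0.add_mem (Y0.add_mem (key 0 _ hc0) (key 1 _ hc1)) (key 2 _ hc2)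
    · intro y hy
      refine ⟨⟨y, hI1 hy⟩, ?_, rfl⟩
      show _ ∈ LinearMap.ker oY
      rw [LinearMap.mem_ker]
      show o (J.mkQ _) = 0
      have : J.mkQ ⟨y, hI1 hy⟩ = 0 := by
        rw [Submodule.mkQ_apply, Submodule.Quotient.mk_eq_zero]
        exact hy
      rw [this, map_zero]
    · rintro _ ⟨y, -, rfl⟩
      exact hY y.2
    · have : finrank K U0 = finrank K (LinearMap.ker ψ) := hmap _
      rw [this]
      change finrank K Ψ + _ = _ at hr1
      omega
    · have : finrank K Y0 = finrank K (LinearMap.ker oY) := hmap _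
      rw [this]
      omega

end Vale.Agent.Lib.P200
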