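import Vale.Agent.Lib.P200.E8Mac

/-!
Existence of a pencil of linear forms through a general point with nonzerodivisor properties.
-/

universe u

namespace Vale.Agent.Lib.P200
open MvPolynomial Module

variable {K : Type u} [Field K]

/-- A subspace not contained in any of finitely many subspaces has an element outside them all. -/
theorem exists_avoid [Infinite K] {ι : Type u} [Finite ι] (W : Submodule K (Poly K))
    (q : ι → Submodule K (Poly K)) (h : ∀ i, ¬ W ≤ q i) : ∃ ξ ∈ W, ∀ i, ξ ∉ q i := by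
  by_contra hcon
  push Not at hcon
  let p : ι → Subspace K W := fun i => (q i).comap W.subtype
  have hcov : ⋃ i, (p i : Set W) = Set.univ := by
    ext u
    simp only [Set.mem_iUnion, Set.mem_univ, iff_true]
    obtain ⟨i, hi⟩ := hcon u.1 u.2
    exact ⟨i, hi⟩
  obtain ⟨i, hi⟩ := Subspace.exists_eq_top_of_iUnion_eq_univ hcov
  apply h i
  intro u hu
  have : (⟨u, hu⟩ : W) ∈ p i := by
    rw [hi]
    trivial
  exact this

theorem hom_mem_prime {P : Ideal (Poly K)} (hX : ∀ i : Fin 3, (X i : Poly K) ∈ P) {c : ℕ}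
    (hc : 1 ≤ c) {t : Poly K} (ht : t.IsHomogeneous c) : t ∈ P := by
  obtain ⟨m, rfl⟩ : ∃ m, c = m + 1 := ⟨c - 1, by omega⟩
  have hmem : t ∈ HS K 1 * HS K m := by
    rw [HS_mul, add_comm]
    exact ht
  obtain ⟨u, -, v, -, w, -, rfl⟩ := mem_HS1_mul.1 hmem
  exact P.add_mem (P.add_mem (P.mul_mem_right _ (hX 0)) (P.mul_mem_right _ (hX 1)))
    (P.mul_mem_right _ (hX 2))

/-- A prime containing the pencil and a form not vanishing at the point contains all the linear
forms. -/
theorem Penc.all_mem {ev : Poly K →ₐ[K] K} {x l l' : Poly K} (hP : Penc ev x l l')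
    {P : Ideal (Poly K)} (hPr : P.IsPrime) (h1 : l ∈ P) (h2 : l' ∈ P) {a : ℕ} {f : Poly K}
    (hf : f.IsHomogeneous a) (hfP : f ∈ P) (hev : ev f ≠ 0) {i : Fin 3} : (X i : Poly K) ∈ P := by
  have hxa : (x ^ a).IsHomogeneous a := by
    have := hP.hx.pow a
    rwa [one_mul] at this
  have hh : (f - C (ev f) * x ^ a).IsHomogeneous a := by
    refine hf.sub ?_
    have := (isHomogeneous_C (Fin 3) (ev f)).mul hxa
    rwa [zero_add] at this
  have hev0 : ev (f - C (ev f) * x ^ a) = 0 := by
    rw [map_sub, map_mul, map_pow, hP.evx, algHom_C]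
    simp
  obtain ⟨p1, p2, -, -, e⟩ := hP.dec a _ hh hev0
  have hxP : C (ev f) * x ^ a ∈ P := by
    have : C (ev f) * x ^ a = f - (l * p1 + l' * p2) := by
      rw [← e]
      ring
    rw [this]
    exact P.sub_mem hfP (P.add_mem (P.mul_mem_right _ h1) (P.mul_mem_right _ h2))
  have hxaP : x ^ a ∈ P := by
    rcases hPr.mem_or_mem hxP with h | h
    · exfalso
      apply hPr.ne_top
      rw [Ideal.eq_top_iff_one]
      have e1 : (1 : Poly K) = C (ev f)⁻¹ * C (ev f) := by
        rw [← C_mul, inv_mul_cancel₀ hev, C_1]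
      rw [e1]
      exact P.mul_mem_left _ h
    · exact h
  have hxP' : x ∈ P := hPr.mem_of_pow_mem a hxaP
  obtain ⟨α, β, γ, e'⟩ := hP.linear (X_mem_HS1 i)
  rw [e']
  simp only [smul_eq_C_mul]
  exact P.add_mem (P.add_mem (P.mul_mem_left _ hxP') (P.mul_mem_left _ h1)) (P.mul_mem_left _ h2)

/-- Building a pencil from a spanning triple. -/
theorem Penc.of_span {ev : Poly K →ₐ[K] K} {x l l' : Poly K} (hx : x.IsHomogeneous 1)
    (hl : l.IsHomogeneous 1) (hl' : l'.IsHomogeneous 1) (evx : ev x = 1) (evl : ev l = 0)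
    (evl' : ev l' = 0) (hspan : HS K 1 ≤ Submodule.span K {x, l, l'}) : Penc ev x l l' := by
  have hfin : finrank K (HS K 1) = 3 := by
    rw [finrank_HS]
    decide
  have key : ∀ y : Poly K, ¬ (HS K 1 ≤ Submodule.span K {x, y}) := by
    intro y hy
    classical
    haveI : Module.Finite K (Submodule.span K ({x, y} : Set (Poly K))) :=
      Module.Finite.span_of_finite K (Set.toFinite _)
    have h1 := Submodule.finrank_mono hy
    have h2 : finrank K (Submodule.span K ({x, y} : Set (Poly K))) ≤ 2 := by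
      have := finrank_span_finset_le_card (R := K) (({x, y} : Finset (Poly K)))
      simp only [Finset.coe_insert, Finset.coe_singleton] at this
      exact le_trans this Finset.card_le_two
    omega
  have hl0 : l ≠ 0 := by
    rintro rfl
    apply key l'
    refine le_trans hspan (Submodule.span_le.2 ?_)
    rintro z (rfl | rfl | rfl)
    · exact Submodule.subset_span (by simp)
    · exact Submodule.zero_mem _
    · exact Submodule.subset_span (by simp)
  refine ⟨hx, hl, hl', evx, evl, evl', hl0, ?_, hspan⟩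
  rintro ⟨r, rfl⟩
  have hr : r.IsHomogeneous 0 := homog_of_lin_mul (k := 1) (m := 0) hl hl0 hl'
  have hd : r.totalDegree = 0 := by
    have := hr.totalDegree_le
    omega
  rw [totalDegree_eq_zero_iff_eq_C] at hd
  apply key l
  refine le_trans hspan (Submodule.span_le.2 ?_)
  rintro z (rfl | rfl | rfl)
  · exact Submodule.subset_span (by simp)
  · exact Submodule.subset_span (by simp)
  · rw [hd, mul_comm, ← smul_eq_C_mul]
    exact Submodule.smul_mem _ _ (Submodule.subset_span (by simp))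

/-- Scaling preserves being a nonzerodivisor. -/
theorem NZ.of_scale {f g ξ : Poly K} {c : K} (hc : c ≠ 0) (h : NZ f g ξ) : NZ f g (C c * ξ) := by
  rw [nz_iff] at h ⊢
  intro P hP hm
  apply h P hP
  have e : ξ = C c⁻¹ * (C c * ξ) := by
    rw [← mul_assoc, ← C_mul, inv_mul_cancel₀ hc, C_1, one_mul]
  rw [e]
  exact P.mul_mem_left _ hm

/-- The pencil through a general point. -/
theorem exists_penc [Infinite K] {a b c : ℕ} {f g t : Poly K} (hZ : ZP a b f g)
    (ht : t.IsHomogeneous c) (hn : NZ f g t) (hc1 : 1 ≤ c) {p0 : Fin 3 → K}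
    (hev : eval p0 f ≠ 0) :
    ∃ x l l', Penc (aeval p0 : Poly K →ₐ[K] K) x l l' ∧ NZ f g l ∧ NZ f g x ∧ NZ f t l ∧ NZ f t x := by
  classical
  set ev : Poly K →ₐ[K] K := aeval p0 with hevd
  have hevf : ev f ≠ 0 := by
    rw [hevd, aeval_eq_eval]
    exact hev
  have hevX : ∀ i, ev (X i) = p0 i := fun i => by rw [hevd, aeval_X]
  have ha := hZ.ha
  have hp0 : ∃ i0, p0 i0 ≠ 0 := by
    by_contra hcon
    push Not at hcon
    have h0 : p0 = 0 := funext hcon
    apply hev
    rw [h0, eval_zero]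
    exact hZ.homf.coeff_eq_zero (by simp; omega)
  obtain ⟨i0, hi0⟩ := hp0
  have hperm : ∀ i0 : Fin 3, ∃ j k : Fin 3, ∀ i, i = i0 ∨ i = j ∨ i = k := by decide
  obtain ⟨j, k, hjk⟩ := hperm i0
  set x0 : Poly K := C (p0 i0)⁻¹ * X i0 with hx0
  set l1 : Poly K := X j - C (p0 j) * x0 with hl1
  set l2 : Poly K := X k - C (p0 k) * x0 with hl2
  have hx0H : x0.IsHomogeneous 1 := by
    have := (isHomogeneous_C (Fin 3) (p0 i0)⁻¹).mul (isHomogeneous_X K i0)
    rwa [zero_add] at this
  have hscal : ∀ α : K, (C α * x0).IsHomogeneous 1 := fun α => by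
    have := (isHomogeneous_C (Fin 3) α).mul hx0H
    rwa [zero_add] at this
  have hl1H : l1.IsHomogeneous 1 := (isHomogeneous_X K j).sub (hscal _)
  have hl2H : l2.IsHomogeneous 1 := (isHomogeneous_X K k).sub (hscal _)
  have hevx0 : ev x0 = 1 := by
    rw [hx0, map_mul, hevX, algHom_C]
    exact inv_mul_cancel₀ hi0
  have hevl1 : ev l1 = 0 := by
    rw [hl1, map_sub, map_mul, hevX, hevx0, algHom_C]
    simp
  have hevl2 : ev l2 = 0 := by
    rw [hl2, map_sub, map_mul, hevX, hevx0, algHom_C]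
    simp
  have hspan0 : HS K 1 ≤ Submodule.span K {x0, l1, l2} := by
    rw [HS1_eq_span, Submodule.span_le]
    have hXi0 : (X i0 : Poly K) ∈ Submodule.span K {x0, l1, l2} := by
      have e : (X i0 : Poly K) = p0 i0 • x0 := by
        rw [hx0, smul_eq_C_mul, ← mul_assoc, ← C_mul, mul_inv_cancel₀ hi0, C_1, one_mul]
      rw [e]
      exact Submodule.smul_mem _ _ (Submodule.subset_span (by simp))
    have hXj : (X j : Poly K) ∈ Submodule.span K {x0, l1, l2} := by
      have e : (X j : Poly K) = l1 + p0 j • x0 := by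
        rw [hl1, smul_eq_C_mul]
        ring
      rw [e]
      exact Submodule.add_mem _ (Submodule.subset_span (by simp))
        (Submodule.smul_mem _ _ (Submodule.subset_span (by simp)))
    have hXk : (X k : Poly K) ∈ Submodule.span K {x0, l1, l2} := by
      have e : (X k : Poly K) = l2 + p0 k • x0 := by
        rw [hl2, smul_eq_C_mul]
        ring
      rw [e]
      exact Submodule.add_mem _ (Submodule.subset_span (by simp))
        (Submodule.smul_mem _ _ (Submodule.subset_span (by simp)))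
    have hall : ∀ i : Fin 3, (X i : Poly K) ∈ Submodule.span K {x0, l1, l2} := by
      intro i
      rcases hjk i with rfl | rfl | rfl
      · exact hXi0
      · exact hXj
      · exact hXk
    rintro z (rfl | rfl | rfl)
    · exact hall 0
    · exact hall 1
    · exact hall 2
  have hP0 : Penc ev x0 l1 l2 := Penc.of_span hx0H hl1H hl2H hevx0 hevl1 hevl2 hspan0
  -- the associated primes do not contain the pencil
  have hs1 : ∀ P ∈ assocF f g, P.IsPrime ∧ f ∈ P ∧ t ∉ P := by
    intro P hP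
    have hpr : P.IsPrime := (isAssociatedPrime_iff.1 (AssociatedPrimes.mem_iff.1 hP)).1
    refine ⟨hpr, FPi_le_of_assoc hP (mem_FPi.2 ⟨1, 0, by ring⟩), (nz_iff.1 hn) P hP⟩
  have hperm2 : NZ f t g := by
    intro p hp
    obtain ⟨α, β, e⟩ := mem_FPi.1 hp
    obtain ⟨α', β', e'⟩ := (hZ.regTriple_perm ht hn).h2 p α β e
    exact mem_FPi.2 ⟨α', β', e'⟩
  have hs2 : ∀ P ∈ assocF f t, P.IsPrime ∧ f ∈ P ∧ g ∉ P := by
    intro P hP
    have hpr : P.IsPrime := (isAssociatedPrime_iff.1 (AssociatedPrimes.mem_iff.1 hP)).1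
    refine ⟨hpr, FPi_le_of_assoc hP (mem_FPi.2 ⟨1, 0, by ring⟩), (nz_iff.1 hperm2) P hP⟩
  have hfin1 : Finite (assocF f g) := assocF_finite.to_subtype
  have hfin2 : Finite (assocF f t) := assocF_finite.to_subtype
  have hcc : 1 ≤ b := le_trans ha hZ.hab
  have hnotall : ∀ {P : Ideal (Poly K)}, (P ∈ assocF f g ∨ P ∈ assocF f t) →
      P.IsPrime ∧ f ∈ P ∧ ¬ (∀ i : Fin 3, (X i : Poly K) ∈ P) := by
    rintro P (hP | hP)
    · obtain ⟨hpr, hf, ht'⟩ := hs1 P hP
      exact ⟨hpr, hf, fun hall => ht' (hom_mem_prime hall hc1 ht)⟩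
    · obtain ⟨hpr, hf, ht'⟩ := hs2 P hP
      exact ⟨hpr, hf, fun hall => ht' (hom_mem_prime hall hcc hZ.homg)⟩
  let ι := assocF f g ⊕ assocF f t
  let Pf : ι → Ideal (Poly K) := fun i => Sum.elim (fun P => P.1) (fun P => P.1) i
  have hPf : ∀ i, Pf i ∈ assocF f g ∨ Pf i ∈ assocF f t := by
    rintro (i | i)
    · exact Or.inl i.2
    · exact Or.inr i.2
  let q : ι → Submodule K (Poly K) := fun i => (Pf i).restrictScalars K
  set Λ : Submodule K (Poly K) := Submodule.span K {l1, l2} with hΛ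
  have hl1m : l1 ∈ Λ := Submodule.subset_span (by simp)
  have hl2m : l2 ∈ Λ := Submodule.subset_span (by simp)
  have hΛq : ∀ i, ¬ Λ ≤ q i := by
    intro i hle
    obtain ⟨hpr, hf, hna⟩ := hnotall (hPf i)
    exact hna fun i' => hP0.all_mem hpr (hle hl1m) (hle hl2m) hZ.homf hf hevf
  let q0 : Option ι → Submodule K (Poly K) := fun o =>
    match o with
    | none => ⊥
    | some i => q i
  have hΛq0 : ∀ o, ¬ Λ ≤ q0 o := by
    rintro (_ | i) hle
    · exact hP0.l0 ((Submodule.mem_bot K).1 (hle hl1m))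
    · exact hΛq i hle
  obtain ⟨l, hlΛ, hlq0⟩ := exists_avoid Λ q0 hΛq0
  have hlq : ∀ i, l ∉ q i := fun i => hlq0 (some i)
  have hl0 : l ≠ 0 := fun h0 => hlq0 none ((Submodule.mem_bot K).2 h0)
  have hH1q : ∀ i, ¬ HS K 1 ≤ q i := by
    intro i hle
    obtain ⟨hpr, hf, hna⟩ := hnotall (hPf i)
    exact hna fun i' => hle (X_mem_HS1 i')
  let q' : Option ι → Submodule K (Poly K) := fun o =>
    match o with
    | none => LinearMap.ker ev.toLinearMap
    | some i => q i
  have hH1q' : ∀ o, ¬ HS K 1 ≤ q' o := by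
    rintro (_ | i) hle
    · have h0 : ev x0 = 0 := hle hx0H
      rw [hevx0] at h0
      exact one_ne_zero h0
    · exact hH1q i hle
  obtain ⟨x1, hx1H, hx1q⟩ := exists_avoid (HS K 1) q' hH1q'
  have hevx1 : ev x1 ≠ 0 := fun h0 => hx1q none h0
  have hx1q2 : ∀ i, x1 ∉ q i := fun i => hx1q (some i)
  have hnzl1 : NZ f g l := by
    rw [nz_iff]
    intro P hP
    exact hlq (Sum.inl ⟨P, hP⟩)
  have hnzl2 : NZ f t l := by
    rw [nz_iff]
    intro P hP
    exact hlq (Sum.inr ⟨P, hP⟩)
  have hnzx1 : NZ f g x1 := by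
    rw [nz_iff]
    intro P hP
    exact hx1q2 (Sum.inl ⟨P, hP⟩)
  have hnzx2 : NZ f t x1 := by
    rw [nz_iff]
    intro P hP
    exact hx1q2 (Sum.inr ⟨P, hP⟩)
  set x2 : Poly K := C (ev x1)⁻¹ * x1 with hx2
  have hx2H : x2.IsHomogeneous 1 := by
    have := (isHomogeneous_C (Fin 3) (ev x1)⁻¹).mul hx1H
    rwa [zero_add] at this
  have hevx2 : ev x2 = 1 := by
    rw [hx2, map_mul, algHom_C]
    exact inv_mul_cancel₀ hevx1
  obtain ⟨α, β, hlαβ⟩ := Submodule.mem_span_pair.1 hlΛ
  have hlin : ∀ z ∈ Λ, z.IsHomogeneous 1 ∧ ev z = 0 := by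
    intro z hz
    obtain ⟨α', β', rfl⟩ := Submodule.mem_span_pair.1 hz
    constructor
    · exact Submodule.add_mem (HS K 1) (Submodule.smul_mem _ _ hl1H) (Submodule.smul_mem _ _ hl2H)
    · rw [map_add, map_smul, map_smul, hevl1, hevl2]
      simp
  have hfinal : ∀ l', l' ∈ Λ → Λ ≤ Submodule.span K {l, l'} →
      Penc ev x2 l l' := by
    intro l' hl'Λ hle
    refine Penc.of_span hx2H (hlin l hlΛ).1 (hlin l' hl'Λ).1 hevx2 (hlin l hlΛ).2 (hlin l' hl'Λ).2 ?_
    have hsub1 : Submodule.span K {l, l'} ≤ Submodule.span K {x2, l, l'} := by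
      refine Submodule.span_mono ?_
      rintro z (rfl | rfl) <;> simp
    have hΛ2 : Λ ≤ Submodule.span K {x2, l, l'} := le_trans hle hsub1
    have hx2m : x2 ∈ Submodule.span K {x2, l, l'} := Submodule.subset_span (by simp)
    refine le_trans hspan0 (Submodule.span_le.2 ?_)
    rintro z (rfl | rfl | rfl)
    · obtain ⟨α', β', γ', e'⟩ := hP0.linear (Submodule.sub_mem _ hx0H hx2H)
      have hα : α' = 0 := by
        have := congrArg ev e'
        rw [map_sub, hevx0, hevx2, map_add, map_add, map_smul, map_smul, map_smul, hevx0, hevl1,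
          hevl2] at this
        simpa using this.symm
      rw [hα, zero_smul, zero_add] at e'
      have e2 : x0 = (x0 - x2) + x2 := by ring
      rw [e2, e']
      refine Submodule.add_mem _ (hΛ2 ?_) hx2m
      exact Submodule.add_mem _ (Submodule.smul_mem _ _ hl1m) (Submodule.smul_mem _ _ hl2m)
    · exact hΛ2 hl1m
    · exact hΛ2 hl2m
  have hconc : ∀ l', l' ∈ Λ → Λ ≤ Submodule.span K {l, l'} →
      ∃ x l'' l''', Penc ev x l'' l''' ∧ NZ f g l'' ∧ NZ f g x ∧ NZ f t l'' ∧ NZ f t x := by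
    intro l' h1 h2
    exact ⟨x2, l, l', hfinal l' h1 h2, hnzl1, hnzx1.of_scale (inv_ne_zero hevx1), hnzl2,
      hnzx2.of_scale (inv_ne_zero hevx1)⟩
  have hlm : l ∈ Submodule.span K {l, l1} := Submodule.subset_span (by simp)
  by_cases hβ : β = 0
  · refine hconc l2 hl2m (Submodule.span_le.2 ?_)
    have hα : α ≠ 0 := by
      rintro rfl
      rw [hβ] at hlαβ
      apply hl0
      rw [← hlαβ]
      simp
    rintro z (rfl | rfl)
    · have e : l1 = α⁻¹ • l := by
        rw [← hlαβ, hβ, zero_smul, add_zero, smul_smul, inv_mul_cancel₀ hα, one_smul]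
      show l1 ∈ _
      rw [e]
      exact Submodule.smul_mem _ _ (Submodule.subset_span (by simp))
    · exact Submodule.subset_span (by simp)
  · refine hconc l1 hl1m (Submodule.span_le.2 ?_)
    rintro z (rfl | rfl)
    · exact Submodule.subset_span (by simp)
    · have e : l2 = β⁻¹ • (l - α • l1) := by
        rw [← hlαβ, add_sub_cancel_left, smul_smul, inv_mul_cancel₀ hβ, one_smul]
      show l2 ∈ _
      rw [e]
      exact Submodule.smul_mem _ _ (Submodule.sub_mem _ hlm
        (Submodule.smul_mem _ _ (Submodule.subset_span (by simp))))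

/-- A general pencil of the net of linear forms vanishing at a point lies in the pencil. -/
theorem Penc.net_le {p0 : Fin 3 → K} {x l l' : Poly K} (hP : Penc (aeval p0 : Poly K →ₐ[K] K) x l l')
    (U : Submodule K (Poly K)) :
    (⨆ i, ⨆ k, U.map (LinearMap.mulLeft K (C (p0 i) * X k - C (p0 k) * X i))) ≤ LamS l l' U := by
  refine iSup_le fun i => iSup_le fun k => ?_
  rintro _ ⟨u, hu, rfl⟩
  have hH : (C (p0 i) * X k - C (p0 k) * X i : Poly K) ∈ HS K 1 := by
    refine Submodule.sub_mem _ ?_ ?_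
    · have := (isHomogeneous_C (Fin 3) (p0 i)).mul (isHomogeneous_X K k)
      rwa [zero_add] at this
    · have := (isHomogeneous_C (Fin 3) (p0 k)).mul (isHomogeneous_X K i)
      rwa [zero_add] at this
  obtain ⟨α, β, γ, e⟩ := hP.linear hH
  have h0 := congrArg (aeval p0 : Poly K →ₐ[K] K) e
  rw [map_sub, map_mul, map_mul, aeval_X, aeval_X, algHom_C, algHom_C, map_add, map_add, map_smul,
    map_smul, map_smul, hP.evx, hP.evl, hP.evl'] at h0
  have hα : α = 0 := by
    have h1 : (algebraMap K K (p0 i)) * p0 k - (algebraMap K K (p0 k)) * p0 i = 0 := by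
      simp [mul_comm]
    rw [h1] at h0
    simpa using h0.symm
  rw [hα, zero_smul, zero_add] at e
  simp only [LinearMap.mulLeft_apply]
  rw [e, mem_LamS]
  refine ⟨β • u, U.smul_mem _ hu, γ • u, U.smul_mem _ hu, ?_⟩
  simp only [add_mul, smul_mul_assoc, mul_smul_comm]

end Vale.Agent.Lib.P200
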