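import Vale.Agent.Lib.P200.Lpp

/-!
The monomial set of `J`, its closure, and the main theorem for three cubics.
-/

namespace Vale.Agent.Lib.P200
open MvPolynomial Module

variable {K : Type*} [Field K]

/-- The set of exponent vectors of the monomials spanning `J`. -/
noncomputable def MSet (I : Ideal (Poly K)) : Set (Fin 3 →₀ ℕ) :=
  {m | ¬ OutsideP m ∨ lexRank m < excess I m.degree}

theorem lexPiece_eq (I : Ideal (Poly K)) (d : ℕ) :
    lexPiece I d = restrictSupport K {m | m ∈ MSet I ∧ m.degree = d} := by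
  unfold lexPiece
  rw [piece_powerIdeal, restrictSupport_eq_span, restrictSupport_eq_span, ← Submodule.span_union,
    ← Set.image_union]
  congr 2
  ext m
  simp only [Set.mem_union, Set.mem_ofPred_eq, MSet]
  constructor
  · rintro (⟨h1, h2⟩ | ⟨h1, _, h3⟩)
    · exact ⟨Or.inl h2, h1⟩
    · subst h1
      exact ⟨Or.inr h3, rfl⟩
  · rintro ⟨h1 | h1, h2⟩
    · exact Or.inl ⟨h2, h1⟩
    · by_cases ho : OutsideP m
      · subst h2
        exact Or.inr ⟨rfl, ho, h1⟩
      · exact Or.inl ⟨h2, ho⟩

theorem lexSpace_eq (I : Ideal (Poly K)) : lexSpace I = restrictSupport K (MSet I) := by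
  apply le_antisymm
  · refine iSup_le fun d => ?_
    rw [lexPiece_eq]
    exact restrictSupport_mono K fun m hm => hm.1
  · rw [restrictSupport_eq_span, Submodule.span_le]
    rintro _ ⟨m, hm, rfl⟩
    refine le_iSup (fun d => lexPiece I d) m.degree ?_
    rw [lexPiece_eq]
    change monomial m (1 : K) ∈ _
    rw [monomial_mem_restrictSupport]
    exact Or.inl ⟨hm, rfl⟩

section step

variable {f : Fin 3 → Poly K} {I : Ideal (Poly K)}

theorem tr_add_single (m : Fin 3 →₀ ℕ) (i : Fin 3) :
    (i = 0 ∧ tr (m + Finsupp.single i 1) = ((tr m).1 + 1, (tr m).2.1, (tr m).2.2)) ∨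
    (i = 1 ∧ tr (m + Finsupp.single i 1) = ((tr m).1, (tr m).2.1 + 1, (tr m).2.2)) ∨
    (i = 2 ∧ tr (m + Finsupp.single i 1) = ((tr m).1, (tr m).2.1, (tr m).2.2 + 1)) := by
  fin_cases i
  · left
    simp [tr]
  · right; left
    simp [tr]
  · right; right
    simp [tr]

theorem MSet_step (h : CubicSeq f) (hI : ∀ i, f i ∈ I) {m : Fin 3 →₀ ℕ} (hm : m ∈ MSet I)
    (i : Fin 3) : m + Finsupp.single i 1 ∈ MSet I := by
  by_cases ho : OutsideP (m + Finsupp.single i 1)
  swap
  · exact Or.inl ho
  right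
  have hom : OutsideP m := by
    intro j
    have := ho j
    simp only [Finsupp.add_apply] at this
    omega
  have hr : lexRank m < excess I m.degree := by
    rcases hm with hm | hm
    · exact absurd hom hm
    · exact hm
  rw [lexRank_eq] at hr ⊢
  have hdeg : (m + Finsupp.single i 1).degree = m.degree + 1 := by
    rw [map_add, Finsupp.degree_single]
  rw [hdeg]
  have hgrid := mem_grid_of_outside hom
  have hgrid' := mem_grid_of_outside ho
  obtain ⟨c0, c1, c2⟩ := table_check _ hgrid
  have hle := degN_le_six _ hgrid'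
  rw [← degree_eq_degN, hdeg] at hle
  have hgr := excess_growth h hI m.degree (by omega) (rkN (tr m) + 1) (by omega)
  have hdd : degN (tr m) = m.degree := (degree_eq_degN m).symm
  rcases tr_add_single m i with ⟨rfl, e⟩ | ⟨rfl, e⟩ | ⟨rfl, e⟩
  · rw [e] at hgrid' ⊢
    simp only [grid, Finset.mem_product, Finset.mem_range] at hgrid'
    have := c0 hgrid'.1
    rw [hdd] at this
    omega
  · rw [e] at hgrid' ⊢
    simp only [grid, Finset.mem_product, Finset.mem_range] at hgrid'
    have := c1 hgrid'.2.1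
    rw [hdd] at this
    omega
  · rw [e] at hgrid' ⊢
    simp only [grid, Finset.mem_product, Finset.mem_range] at hgrid'
    have := c2 hgrid'.2.2
    rw [hdd] at this
    omega

theorem MSet_upper (h : CubicSeq f) (hI : ∀ i, f i ∈ I) : IsUpperSet (MSet I) := by
  have key : ∀ k : Fin 3 →₀ ℕ, ∀ a ∈ MSet I, a + k ∈ MSet I := by
    intro k
    induction k using Finsupp.induction_linear with
    | zero =>
      intro a ha
      simpa using ha
    | add k1 k2 h1 h2 =>
      intro a ha
      rw [← add_assoc]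
      exact h2 _ (h1 _ ha)
    | single i n =>
      induction n with
      | zero =>
        intro a ha
        simpa using ha
      | succ n ih =>
        intro a ha
        have := MSet_step h hI (ih a ha) i
        rwa [add_assoc, ← Finsupp.single_add] at this
  intro a b hab ha
  have := key (b - a) a ha
  rwa [add_tsub_cancel_of_le hab] at this

end step

/-- The main theorem in equational form: `J` is an ideal. -/
theorem lexSpace_ideal {f : Fin 3 → Poly K} (h : CubicSeq f) {I : Ideal (Poly K)}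
    (hI : ∀ i, f i ∈ I) : ∃ J : Ideal (Poly K), J.restrictScalars K = lexSpace I :=
  ⟨restrictSupportIdeal K (MSet I) (MSet_upper h hI), by
    rw [restrictScalars_restrictSupportIdeal, lexSpace_eq]⟩

/-! ### The Hilbert function -/

theorem ncard_segment (d q : ℕ) :
    ({m : Fin 3 →₀ ℕ | m.degree = d ∧ OutsideP m ∧ lexRank m < q}).ncard =
      (grid.filter fun a => degN a = d ∧ rkN a < q).card := by
  rw [← Set.ncard_image_of_injective _ tr_inj, ← Set.ncard_coe_finset]
  congr 1
  ext t
  simp only [Set.mem_image, Set.mem_ofPred_eq, Finset.coe_filter]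
  constructor
  · rintro ⟨n, ⟨hd, ho, hr⟩, rfl⟩
    refine ⟨mem_grid_of_outside ho, by rw [← degree_eq_degN, hd], ?_⟩
    rwa [lexRank_eq] at hr
  · rintro ⟨hg, hd, hr⟩
    refine ⟨ofTr t, ⟨by rw [degree_eq_degN, tr_ofTr, hd], outside_ofTr hg, ?_⟩, tr_ofTr t⟩
    rwa [lexRank_eq, tr_ofTr]

theorem cntN_high {d : ℕ} (hd : 7 ≤ d) : cntN d = 0 := by
  unfold cntN
  rw [Finset.card_eq_zero, Finset.filter_eq_empty_iff]
  intro t ht h0
  have := degN_le_six t ht
  omega

namespace CubicSeq

variable {f : Fin 3 → Poly K} (h : CubicSeq f)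
include h

theorem HS_le_FF {d : ℕ} (hd : 7 ≤ d) : HS K d ≤ FF f d := by
  obtain ⟨k, rfl⟩ : ∃ k, d = k + 7 := ⟨d - 7, by omega⟩
  rw [← HS_mul k 7, Submodule.mul_le]
  intro x hx y hy
  have hy' := mem_FF.1 (h.HS7_le hy)
  exact mem_FF.2 ⟨Ideal.mul_mem_left _ _ hy'.1, (show x.IsHomogeneous k from hx).mul hy'.2⟩

theorem finrank_P_eq_FF (d : ℕ) :
    finrank K (piece (powerIdeal K) d) = finrank K (FF f d) := by
  have hcases : d = 0 ∨ d = 1 ∨ d = 2 ∨ d = 3 ∨ d = 4 ∨ d = 5 ∨ d = 6 ∨ 7 ≤ d := by omega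
  rcases hcases with rfl | rfl | rfl | rfl | rfl | rfl | rfl | hd
  · rw [p0, h.FF_low (by omega), finrank_bot]
  · rw [p1, h.FF_low (by omega), finrank_bot]
  · rw [p2, h.FF_low (by omega), finrank_bot]
  · rw [p3, h.finrank_FF3]
  · rw [p4, h.finrank_FF4]
  · rw [p5, h.finrank_FF5]
  · rw [p6, h.finrank_FF6]
  · have e1 := finrank_piece_P (K := K) d
    rw [cntN_high hd, add_zero] at e1
    have hEq : FF f d = HS K d := le_antisymm (FF_le_HS f d) (h.HS_le_FF hd)
    rw [e1, hEq, finrank_HS]

end CubicSeq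

/-- `dim J_d = dim I_d`. -/
theorem finrank_lexPiece {f : Fin 3 → Poly K} (h : CubicSeq f) {I : Ideal (Poly K)}
    (hI : ∀ i, f i ∈ I) (d : ℕ) : finrank K (lexPiece I d) = finrank K (piece I d) := by
  -- first the comparison of dimensions
  have hp : finrank K (piece (powerIdeal K) d) ≤ finrank K (piece I d) := by
    rw [h.finrank_P_eq_FF d]
    exact finrank_le_of_le_HS (FF_le_piece hI d) (piece_le_HS I d)
  have hq : excess I d ≤ cntN d := by
    have h1 := finrank_piece_P (K := K) d
    have h2 : finrank K (piece I d) ≤ T d := by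
      rw [← finrank_HS (K := K)]
      exact Submodule.finrank_mono (piece_le_HS I d)
    unfold excess
    omega
  have hseg : ({m : Fin 3 →₀ ℕ | m.degree = d ∧ OutsideP m ∧ lexRank m < excess I d}).ncard
      = excess I d := by
    rw [ncard_segment]
    by_cases hd : d ≤ 6
    · exact segment_table d hd _ hq
    · have h0 : excess I d = 0 := by
        have := cntN_high (d := d) (by omega)
        omega
      rw [h0]
      simp
  have hdisj : Disjoint {m : Fin 3 →₀ ℕ | m.degree = d ∧ ¬ OutsideP m}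
      {m : Fin 3 →₀ ℕ | m.degree = d ∧ OutsideP m ∧ lexRank m < excess I d} := by
    rw [Set.disjoint_left]
    rintro m ⟨_, h1⟩ ⟨_, h2, _⟩
    exact h1 h2
  have hunion := Set.ncard_union_eq hdisj ((finite_degree d).subset fun m hm => hm.1)
    ((finite_degree d).subset fun m hm => hm.1)
  have hset : {m | m ∈ MSet I ∧ m.degree = d} =
      {m : Fin 3 →₀ ℕ | m.degree = d ∧ ¬ OutsideP m} ∪
      {m : Fin 3 →₀ ℕ | m.degree = d ∧ OutsideP m ∧ lexRank m < excess I d} := by
    ext m
    simp only [Set.mem_union, Set.mem_ofPred_eq, MSet]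
    constructor
    · rintro ⟨h1 | h1, h2⟩
      · exact Or.inl ⟨h2, h1⟩
      · by_cases ho : OutsideP m
        · subst h2
          exact Or.inr ⟨rfl, ho, h1⟩
        · exact Or.inl ⟨h2, ho⟩
    · rintro (⟨h1, h2⟩ | ⟨h1, _, h3⟩)
      · exact ⟨Or.inl h2, h1⟩
      · subst h1
        exact ⟨Or.inr h3, rfl⟩
  rw [lexPiece_eq, finrank_restrictSupport, hset, hunion, hseg]
  have h3 : finrank K (piece (powerIdeal K) d) =
      ({m : Fin 3 →₀ ℕ | m.degree = d ∧ ¬ OutsideP m}).ncard := by
    rw [piece_powerIdeal, finrank_restrictSupport]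
  rw [← h3]
  unfold excess
  omega

end Vale.Agent.Lib.P200
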