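import Vale.Agent.Lib.P200.Basic

/-!
Koszul relations and the socle lemma for three cubics forming a regular sequence.
-/

namespace Vale.Agent.Lib.P200
open MvPolynomial

variable {K : Type*} [Field K]

/-- Three cubics forming a regular sequence (equational form). -/
structure CubicSeq (f : Fin 3 → Poly K) : Prop where
  hom : ∀ i, (f i).IsHomogeneous 3
  reg : RegTriple (f 0) (f 1) (f 2)

/-- The ideal generated by the three cubics. -/
noncomputable def Fid (f : Fin 3 → Poly K) : Ideal (Poly K) := Ideal.span (Set.range f)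

theorem mem_Fid {f : Fin 3 → Poly K} {a : Poly K} :
    a ∈ Fid f ↔ ∃ p : Fin 3 → Poly K, p 0 * f 0 + p 1 * f 1 + p 2 * f 2 = a := by
  unfold Fid
  rw [Ideal.mem_span_range_iff_exists_fun]
  simp only [Fin.sum_univ_three]

theorem mem_Fid_of {f : Fin 3 → Poly K} (p0 p1 p2 : Poly K) :
    p0 * f 0 + p1 * f 1 + p2 * f 2 ∈ Fid f :=
  mem_Fid.2 ⟨![p0, p1, p2], by simp⟩

namespace CubicSeq

variable {f : Fin 3 → Poly K} (h : CubicSeq f)
include h

theorem low {p0 p1 p2 a : Poly K} {m : ℕ} (ha : a.IsHomogeneous m) (hm : m < 3)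
    (e : p0 * f 0 + p1 * f 1 + p2 * f 2 = a) : a = 0 := by
  refine homog_low (k := 3) h.hom ![p0, p1, p2] ha hm ?_
  simpa [Fin.sum_univ_three] using e

theorem low_mem {a : Poly K} {m : ℕ} (ha : a.IsHomogeneous m) (hm : m < 3)
    (e : a ∈ Fid f) : a = 0 := by
  obtain ⟨p, hp⟩ := mem_Fid.1 e
  exact h.low ha hm hp

/-- No low-degree syzygies. -/
theorem nls {a0 a1 a2 : Poly K} {D : ℕ} (h0 : a0.IsHomogeneous D) (h1 : a1.IsHomogeneous D)
    (h2 : a2.IsHomogeneous D) (hD : D < 3) (e : a0 * f 0 + a1 * f 1 + a2 * f 2 = 0) :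
    a0 = 0 ∧ a1 = 0 ∧ a2 = 0 := by
  obtain ⟨q0, q1, q2, e0, e1, e2⟩ := h.reg.k1 e
  refine ⟨h.low h0 hD (p0 := 0) (p1 := -q2) (p2 := q1) ?_, h.low h1 hD (p0 := q2) (p1 := 0)
    (p2 := -q0) ?_, h.low h2 hD (p0 := -q1) (p1 := q0) (p2 := 0) ?_⟩
  · rw [e0]; ring
  · rw [e1]; ring
  · rw [e2]; ring

/-- Syzygies of degree `D + 3` are Koszul with homogeneous coefficients. -/
theorem k1h {a0 a1 a2 : Poly K} {D : ℕ} (h0 : a0.IsHomogeneous (D + 3))
    (h1 : a1.IsHomogeneous (D + 3)) (h2 : a2.IsHomogeneous (D + 3))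
    (e : a0 * f 0 + a1 * f 1 + a2 * f 2 = 0) :
    ∃ q0 q1 q2 : Poly K, q0.IsHomogeneous D ∧ q1.IsHomogeneous D ∧ q2.IsHomogeneous D ∧
      a0 = q1 * f 2 - q2 * f 1 ∧ a1 = q2 * f 0 - q0 * f 2 ∧ a2 = q0 * f 1 - q1 * f 0 := by
  obtain ⟨q0, q1, q2, e0, e1, e2⟩ := h.reg.k1 e
  refine ⟨homogeneousComponent D q0, homogeneousComponent D q1, homogeneousComponent D q2,
    homogeneousComponent_isHomogeneous _ _, homogeneousComponent_isHomogeneous _ _,
    homogeneousComponent_isHomogeneous _ _, ?_, ?_, ?_⟩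
  · rw [← homogeneousComponent_eq_self h0, e0, map_sub, comp_mul_add (h.hom 2),
      comp_mul_add (h.hom 1)]
  · rw [← homogeneousComponent_eq_self h1, e1, map_sub, comp_mul_add (h.hom 0),
      comp_mul_add (h.hom 2)]
  · rw [← homogeneousComponent_eq_self h2, e2, map_sub, comp_mul_add (h.hom 1),
      comp_mul_add (h.hom 0)]

/-- Uniform version: syzygies of degree `m`. -/
theorem syz_rep {a0 a1 a2 : Poly K} {m : ℕ} (h0 : a0.IsHomogeneous m)
    (h1 : a1.IsHomogeneous m) (h2 : a2.IsHomogeneous m)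
    (e : a0 * f 0 + a1 * f 1 + a2 * f 2 = 0) :
    ∃ q0 q1 q2 : Poly K, q0.IsHomogeneous (m - 3) ∧ q1.IsHomogeneous (m - 3) ∧
      q2.IsHomogeneous (m - 3) ∧
      a0 = q1 * f 2 - q2 * f 1 ∧ a1 = q2 * f 0 - q0 * f 2 ∧ a2 = q0 * f 1 - q1 * f 0 := by
  by_cases hm : m < 3
  · obtain ⟨r0, r1, r2⟩ := h.nls h0 h1 h2 hm e
    refine ⟨0, 0, 0, isHomogeneous_zero _ _ _, isHomogeneous_zero _ _ _,
      isHomogeneous_zero _ _ _, ?_, ?_, ?_⟩ <;> simp [r0, r1, r2]
  · obtain ⟨D, rfl⟩ : ∃ D, m = D + 3 := ⟨m - 3, by omega⟩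
    simpa using h.k1h h0 h1 h2 e

/-- The cross product map is injective in low degree. -/
theorem cross_zero {q0 q1 q2 : Poly K} {D : ℕ} (h0 : q0.IsHomogeneous D) (h1 : q1.IsHomogeneous D)
    (h2 : q2.IsHomogeneous D) (hD : D < 3) (e01 : q0 * f 1 = q1 * f 0)
    (e02 : q2 * f 0 = q0 * f 2) : q0 = 0 ∧ q1 = 0 ∧ q2 = 0 := by
  obtain ⟨r, r0, r1, r2⟩ := h.reg.k2 e01 e02
  refine ⟨h.low h0 hD (p0 := r) (p1 := 0) (p2 := 0) ?_, h.low h1 hD (p0 := 0) (p1 := r)
    (p2 := 0) ?_, h.low h2 hD (p0 := 0) (p1 := 0) (p2 := r) ?_⟩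
  · rw [r0]; ring
  · rw [r1]; ring
  · rw [r2]; ring

/-- Socle lemma: a form of degree at most five all of whose variable multiples lie in the
ideal of the cubics lies in that ideal. -/
theorem socle {a : Poly K} {d : ℕ} (ha : a.IsHomogeneous d) (hd : d ≤ 5)
    (hx : ∀ i, (X i : Poly K) * a ∈ Fid f) : a ∈ Fid f := by
  by_cases hd2 : d < 2
  · have hXa : ((X 0 : Poly K) * a).IsHomogeneous (1 + d) := (isHomogeneous_X K 0).mul ha
    have := h.low_mem hXa (by omega) (hx 0)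
    have ha0 : a = 0 := by
      rcases mul_eq_zero.1 this with h' | h'
      · exact absurd h' (X_ne_zero 0)
      · exact h'
    rw [ha0]; exact Ideal.zero_mem _
  obtain ⟨D, rfl⟩ : ∃ D, d = D + 2 := ⟨d - 2, by omega⟩
  have key : ∀ i, ∃ p : Fin 3 → Poly K, (∀ k, (p k).IsHomogeneous D) ∧
      p 0 * f 0 + p 1 * f 1 + p 2 * f 2 = X i * a := by
    intro i
    obtain ⟨p, hp⟩ := mem_Fid.1 (hx i)
    have hXa : ((X i : Poly K) * a).IsHomogeneous (D + 3) := by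
      have := (isHomogeneous_X K i).mul ha
      rwa [show 1 + (D + 2) = D + 3 by ring] at this
    have e := homog_coeffs (k := 3) (n := D) h.hom p hXa (by simpa [Fin.sum_univ_three] using hp)
    refine ⟨fun k => homogeneousComponent D (p k), fun k =>
      homogeneousComponent_isHomogeneous _ _, ?_⟩
    simpa [Fin.sum_univ_three] using e
  obtain ⟨p0, hp0, e0⟩ := key 0
  obtain ⟨p1, hp1, e1⟩ := key 1
  obtain ⟨p2, hp2, e2⟩ := key 2
  have X0h : (X 0 : Poly K).IsHomogeneous 1 := isHomogeneous_X K 0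
  have X1h : (X 1 : Poly K).IsHomogeneous 1 := isHomogeneous_X K 1
  have X2h : (X 2 : Poly K).IsHomogeneous 1 := isHomogeneous_X K 2
  have diffh : ∀ (u v : Poly K) (r s : Poly K), u.IsHomogeneous 1 → v.IsHomogeneous 1 →
      r.IsHomogeneous D → s.IsHomogeneous D → (u * r - v * s).IsHomogeneous (1 + D) :=
    fun u v r s hu hv hr hs => (hu.mul hr).sub (hv.mul hs)
  obtain ⟨q00, q01', q02', hq0, hq1, hq2, a0, a1, a2⟩ := h.syz_rep
    (diffh _ _ _ _ X1h X0h (hp0 0) (hp1 0)) (diffh _ _ _ _ X1h X0h (hp0 1) (hp1 1))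
    (diffh _ _ _ _ X1h X0h (hp0 2) (hp1 2))
    (by linear_combination (X 1 : Poly K) * e0 - (X 0 : Poly K) * e1)
  obtain ⟨r0, r1, r2, hr0, hr1, hr2, b0, b1, b2⟩ := h.syz_rep
    (diffh _ _ _ _ X2h X0h (hp0 0) (hp2 0)) (diffh _ _ _ _ X2h X0h (hp0 1) (hp2 1))
    (diffh _ _ _ _ X2h X0h (hp0 2) (hp2 2))
    (by linear_combination (X 2 : Poly K) * e0 - (X 0 : Poly K) * e2)
  obtain ⟨s0, s1, s2, hs0, hs1, hs2, c0, c1, c2⟩ := h.syz_rep
    (diffh _ _ _ _ X2h X1h (hp1 0) (hp2 0)) (diffh _ _ _ _ X2h X1h (hp1 1) (hp2 1))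
    (diffh _ _ _ _ X2h X1h (hp1 2) (hp2 2))
    (by linear_combination (X 2 : Poly K) * e1 - (X 1 : Poly K) * e2)
  -- the alternating sum vanishes
  have eh : ∀ (u v w : Poly K), u.IsHomogeneous (1 + D - 3) → v.IsHomogeneous (1 + D - 3) →
      w.IsHomogeneous (1 + D - 3) →
      ((X 2 : Poly K) * u - X 1 * v + X 0 * w).IsHomogeneous (1 + (1 + D - 3)) :=
    fun u v w hu hv hw => ((X2h.mul hu).sub (X1h.mul hv)).add (X0h.mul hw)
  have hlt : 1 + (1 + D - 3) < 3 := by omega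
  obtain ⟨E0, E1, E2⟩ := h.cross_zero (eh _ _ _ hq0 hr0 hs0) (eh _ _ _ hq1 hr1 hs1)
    (eh _ _ _ hq2 hr2 hs2) hlt
    (by linear_combination (-1 : Poly K) * X 2 * a2 + X 1 * b2 - X 0 * c2)
    (by linear_combination (-1 : Poly K) * X 2 * a1 + X 1 * b1 - X 0 * c1)
  obtain ⟨τ, hτ⟩ := socle_core (x0 := (X 0 : Poly K)) (x1 := X 1) (x2 := X 2)
    (f0 := f 0) (f1 := f 1) (f2 := f 2) (a := a) regTriple_X p0 p1 p2
    ![q00, q01', q02'] ![r0, r1, r2] ![s0, s1, s2]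
    (by linear_combination -e0)
    (by simpa using a0) (by simpa using a1) (by simpa using a2)
    (by simpa using b0) (by simpa using b1) (by simpa using b2)
    (by
      intro k
      fin_cases k
      · simpa using E0
      · simpa using E1
      · simpa using E2)
  rw [hτ]
  exact mem_Fid_of _ _ _

end CubicSeq

end Vale.Agent.Lib.P200
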