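import Vale.Agent.Lib.P200.Choose

/-!
The growth bound from degree two to degree three.
-/

namespace Vale.Agent.Lib.P200
open MvPolynomial Module

variable {K : Type*} [Field K]

/-- Choice of a linear form, inside the polynomial ring. -/
theorem exists_linear_inj {g1 g2 g3 g4 : Poly K} (hc : IsRelPrime g1 g2) (h2 : g2 ≠ 0)
    (hind : ∀ r s : K, r • g3 + s • g4 ∈ Ideal.span {g1, g2} → r = 0 ∧ s = 0) :
    ∃ l ∈ HS K 1, l ≠ 0 ∧
      ∀ r s : K, l * (r • g3 + s • g4) ∈ Ideal.span {g1, g2} → r = 0 ∧ s = 0 := by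
  set G : Ideal (Poly K) := Ideal.span {g1, g2} with hG
  let π : Poly K →ₐ[K] (Poly K ⧸ G) := Ideal.Quotient.mkₐ K G
  have hπ : ∀ a, π a = 0 ↔ a ∈ G := fun a => Ideal.Quotient.eq_zero_iff_mem
  have hsurj : Function.Surjective π := Ideal.Quotient.mkₐ_surjective K G
  obtain ⟨c, hc'⟩ := exists_inj_combination (K := K) (A := Poly K ⧸ G) (fun i => π (X i))
    (by
      intro a ha
      obtain ⟨a', rfl⟩ := hsurj a
      rw [hπ]
      refine no_socle hc h2 ?_
      intro i
      rw [← hπ, map_mul]
      exact ha i)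
    (u := π g3) (v := π g4)
    (by
      intro r s e
      apply hind
      rw [← hπ, map_add, map_smul, map_smul]
      exact e)
  set l : Poly K := c 0 • X 0 + c 1 • X 1 + c 2 • X 2 with hl
  have hlπ : π l = c 0 • π (X 0) + c 1 • π (X 1) + c 2 • π (X 2) := by
    rw [hl, map_add, map_add, map_smul, map_smul, map_smul]
  have key : ∀ r s : K, l * (r • g3 + s • g4) ∈ G → r = 0 ∧ s = 0 := by
    intro r s e
    apply hc'
    rw [← hlπ, ← map_smul, ← map_smul, ← map_add, ← map_mul, hπ]
    exact e
  refine ⟨l, ?_, ?_, key⟩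
  · have hX : ∀ i, (X i : Poly K) ∈ HS K 1 := fun i => isHomogeneous_X K i
    exact Submodule.add_mem _ (Submodule.add_mem _ (Submodule.smul_mem _ _ (hX 0))
      (Submodule.smul_mem _ _ (hX 1))) (Submodule.smul_mem _ _ (hX 2))
  · intro h0
    have := (key 1 0 (by rw [h0, zero_mul]; exact Ideal.zero_mem _)).1
    exact one_ne_zero this

theorem mul_T_le_G (g1 g2 : Poly K) (W : Submodule K (Poly K)) {x : Poly K}
    (hx : x ∈ W * Submodule.span K {g1, g2}) : x ∈ Ideal.span {g1, g2} := by
  obtain ⟨p, _, q, _, rfl⟩ := mem_mul_span_pair.1 hx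
  exact Ideal.mem_span_pair.2 ⟨p, q, rfl⟩

/-- A quadric in the ideal generated by two quadrics is in their span. -/
theorem quadric_mem_T {g1 g2 a : Poly K} (hg1 : g1.IsHomogeneous 2) (hg2 : g2.IsHomogeneous 2)
    (ha : a.IsHomogeneous 2) (hm : a ∈ Ideal.span {g1, g2}) : a ∈ Submodule.span K {g1, g2} := by
  obtain ⟨α, β, e⟩ := Ideal.mem_span_pair.1 hm
  have e2 := congrArg (homogeneousComponent (0 + 2)) e
  rw [map_add, comp_mul_add hg1, comp_mul_add hg2, homogeneousComponent_zero, homogeneousComponent_zero,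
    homogeneousComponent_eq_self ha] at e2
  rw [Submodule.mem_span_pair]
  exact ⟨coeff 0 α, coeff 0 β, by rw [smul_eq_C_mul, smul_eq_C_mul]; exact e2⟩

/-- The space spanned by multiples of degree one, for a nonzero single quadric. -/
theorem G2_one {f : Fin 3 → Poly K} (h : CubicSeq f) {g : Poly K} (hg : g.IsHomogeneous 2)
    (hg0 : g ≠ 0) : 5 ≤ finrank K (HS K 1 * Submodule.span K {g} ⊔ FF f 3 : Submodule K (Poly K)) := by
  have hZ3 : HS K 1 * Submodule.span K {g} ≤ HS K 3 := by
    refine mul_le_HS (d := 1) (e := 2) le_rfl ?_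
    rw [Submodule.span_singleton_le_iff_mem]
    exact hg
  have e1 : finrank K (HS K 1 * Submodule.span K {g} : Submodule K (Poly K)) = 3 := by
    rw [mul_comm, finrank_span_singleton_mul hg0, finrank_HS]
    decide
  have := h.finrank_sup_F (c := g) (D := 1) (by omega) hZ3 (by
    intro z hz
    obtain ⟨z', hz', rfl⟩ := Submodule.mem_mul_span_singleton.1 hz
    exact ⟨z', hz', mul_comm _ _⟩)
  omega

/-- Two independent linear forms: the product with all linear forms has dimension five. -/
theorem G1_pair {p q : Poly K} (hp : p ∈ HS K 1) (hq : q ∈ HS K 1) (hi : Indep p q) :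
    5 ≤ finrank K (HS K 1 * Submodule.span K {p, q} : Submodule K (Poly K)) := by
  have e := finrank_pair_add_ker 1 p q
  have hp0 := hi.ne_left
  have hq0 := hi.ne_right
  have hprime := linear_prime hp hp0
  have hker : finrank K (LinearMap.ker (pairMap 1 p q)) ≤ 1 := by
    let v : HS K 1 × HS K 1 := (⟨q, hq⟩, ⟨-p, Submodule.neg_mem _ hp⟩)
    have hle : LinearMap.ker (pairMap 1 p q) ≤ Submodule.span K {v} := by
      intro x hx
      rw [LinearMap.mem_ker, pairMap_apply] at hx
      rw [Submodule.mem_span_singleton]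
      have hd : p ∣ (x.2 : Poly K) * q := ⟨-(x.1 : Poly K), by linear_combination hx⟩
      rcases hprime.dvd_or_dvd hd with h1 | h1
      · obtain ⟨c, hc⟩ := linear_dvd_linear hp x.2.2 h1
        refine ⟨-c, ?_⟩
        have hx1 : (x.1 : Poly K) = - (C c * q) := by
          rw [hc] at hx
          have : p * ((x.1 : Poly K) + C c * q) = 0 := by linear_combination hx
          have := (mul_eq_zero.1 this).resolve_left hp0
          linear_combination this
        apply Prod.ext <;> apply Subtype.ext
        · simp [v, hx1, smul_eq_C_mul]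
        · simp [v, hc, smul_eq_C_mul]
      · obtain ⟨c, hc⟩ := linear_dvd_linear hp hq h1
        exfalso
        have := (hi (-c) 1 (by rw [hc, one_smul, smul_eq_C_mul]; simp)).2
        exact one_ne_zero this
    calc finrank K (LinearMap.ker (pairMap 1 p q))
        ≤ finrank K (Submodule.span K {v}) := Submodule.finrank_mono hle
      _ ≤ 1 := by
          have hv : v ≠ 0 := by
            intro h0
            exact hq0 (congrArg (fun w : HS K 1 × HS K 1 => (w.1 : Poly K)) h0)
          exact (finrank_span_singleton hv).le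
  have hT1 : T 1 = 3 := by decide
  omega

/-- Independent elements from a subspace of dimension at least two. -/
theorem exists_indep {U : Submodule K (Poly K)} (hU : U ≤ HS K 2) (hdim : 2 ≤ finrank K U) :
    ∃ g1 ∈ U, ∃ g2 ∈ U, Indep g1 g2 := by
  have hfinU := finite_of_le_HS hU
  have hbot : U ≠ ⊥ := by
    intro h0
    rw [h0, finrank_bot] at hdim
    omega
  obtain ⟨g1, hg1, hg10⟩ := Submodule.exists_mem_ne_zero_of_ne_bot hbot
  have hspan : Submodule.span K {g1} < U := by
    refine lt_of_le_of_ne ((Submodule.span_singleton_le_iff_mem _ _).2 hg1) ?_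
    intro he
    rw [← he, finrank_span_singleton hg10] at hdim
    omega
  obtain ⟨g2, hg2, hg2'⟩ := SetLike.exists_of_lt hspan
  refine ⟨g1, hg1, g2, hg2, ?_⟩
  intro r s e
  by_cases hs : s = 0
  · subst hs
    rw [zero_smul, add_zero, smul_eq_zero] at e
    exact ⟨e.resolve_right hg10, rfl⟩
  · exfalso
    apply hg2'
    rw [Submodule.mem_span_singleton]
    refine ⟨- (r / s), ?_⟩
    have h1 : s • g2 = - (r • g1) := by linear_combination (exp := 1) e
    have h2 : g2 = s⁻¹ • (- (r • g1)) := by
      rw [← h1, smul_smul, inv_mul_cancel₀ hs, one_smul]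
    rw [h2, smul_neg, smul_smul, neg_smul]
    congr 2
    field_simp

/-- Monotonicity of the growth space. -/
theorem growth_mono {f : Fin 3 → Poly K} {U' U : Submodule K (Poly K)} (hle : U' ≤ U)
    (hU : U ≤ HS K 2) :
    finrank K (HS K 1 * U' ⊔ FF f 3 : Submodule K (Poly K)) ≤
      finrank K (HS K 1 * U ⊔ FF f 3 : Submodule K (Poly K)) := by
  have h1 : HS K 1 * U' ≤ HS K 1 * U := mul_le_mul' le_rfl hle
  have h2 : HS K 1 * U' ⊔ FF f 3 ≤ HS K 1 * U ⊔ FF f 3 := sup_le_sup_right h1 _
  have h3 : HS K 1 * U ⊔ FF f 3 ≤ HS K 3 :=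
    sup_le (mul_le_HS (d := 1) (e := 2) le_rfl hU) (FF_le_HS f 3)
  exact finrank_le_of_le_HS (d := 3) h2 h3

theorem span_pair_le {U : Submodule K (Poly K)} {a b : Poly K} (ha : a ∈ U) (hb : b ∈ U) :
    Submodule.span K {a, b} ≤ U := by
  rw [Submodule.span_le]
  rintro x (rfl | rfl)
  · exact ha
  · exact hb

theorem G2_u1 {f : Fin 3 → Poly K} (h : CubicSeq f) {U : Submodule K (Poly K)} (hU : U ≤ HS K 2)
    (hdim : 1 ≤ finrank K U) : 5 ≤ finrank K (HS K 1 * U ⊔ FF f 3 : Submodule K (Poly K)) := by
  have hbot : U ≠ ⊥ := by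
    intro h0
    rw [h0, finrank_bot] at hdim
    omega
  obtain ⟨g, hg, hg0⟩ := Submodule.exists_mem_ne_zero_of_ne_bot hbot
  refine le_trans (G2_one h (hU hg) hg0) (growth_mono ?_ hU)
  exact (Submodule.span_singleton_le_iff_mem _ _).2 hg

/-- Dimension for a noSyz pair. -/
theorem finrank_V {g1 g2 : Poly K} (hn : NoSyz g1 g2) :
    finrank K (HS K 1 * Submodule.span K {g1, g2} : Submodule K (Poly K)) = 6 := by
  rw [finrank_pair_of_inj (k := 1) hn]
  decide

theorem G2_u2 {f : Fin 3 → Poly K} (h : CubicSeq f) {U : Submodule K (Poly K)} (hU : U ≤ HS K 2)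
    (hdim : 2 ≤ finrank K U) : 7 ≤ finrank K (HS K 1 * U ⊔ FF f 3 : Submodule K (Poly K)) := by
  obtain ⟨g1, hg1, g2, hg2, hi⟩ := exists_indep hU hdim
  have hTU := span_pair_le hg1 hg2
  refine le_trans ?_ (growth_mono hTU hU)
  by_cases hn : NoSyz g1 g2
  · have := main_bound h (hU hg1) (hU hg2) hi.ne_left (finrank_V hn) (U0 := ⊥) bot_le
      (by simp) (l := X 0) (isHomogeneous_X K 0) (X_ne_zero 0) (by simp)
    rw [sup_bot_eq, finrank_bot] at this
    simpa using this
  · unfold NoSyz at hn
    push Not at hn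
    obtain ⟨a, ha, b, hb, e, hne⟩ := hn
    obtain ⟨c, p, q, hc, hc0, hp, hq, e1, e2⟩ :=
      syz_structure (hU hg2) hi ha hb (fun ⟨h1, h2⟩ => hne h1 h2) e
    have hpq : Indep p q := by
      intro r s e3
      apply hi r s
      rw [e1, e2]
      calc r • (p * c) + s • (q * c) = (r • p + s • q) * c := by
            simp only [add_mul, smul_mul_assoc]
        _ = 0 := by rw [e3, zero_mul]
    have hG1 := G1_pair hp hq hpq
    -- identify the space with a multiple
    have hZ : (HS K 1 * Submodule.span K {g1, g2} : Submodule K (Poly K)) =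
        Submodule.span K {c} * (HS K 1 * Submodule.span K {p, q}) := by
      ext x
      rw [Submodule.mem_span_singleton_mul, mem_mul_span_pair]
      constructor
      · rintro ⟨u, hu, v, hv, rfl⟩
        refine ⟨u * p + v * q, mem_mul_span_pair.2 ⟨u, hu, v, hv, rfl⟩, ?_⟩
        rw [e1, e2]
        ring
      · rintro ⟨z, hz, rfl⟩
        obtain ⟨u, hu, v, hv, rfl⟩ := mem_mul_span_pair.1 hz
        refine ⟨u, hu, v, hv, ?_⟩
        rw [e1, e2]
        ring
    have hdimZ : 5 ≤ finrank K (HS K 1 * Submodule.span K {g1, g2} : Submodule K (Poly K)) := by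
      rw [hZ, finrank_span_singleton_mul hc0]
      exact hG1
    have hZ3 : (HS K 1 * Submodule.span K {g1, g2} : Submodule K (Poly K)) ≤ HS K 3 :=
      mul_le_HS (d := 1) (e := 2) le_rfl (le_trans hTU hU)
    have := h.finrank_sup_F (c := c) (D := 2) (by omega) hZ3 (by
      intro z hz
      obtain ⟨u, hu, v, hv, rfl⟩ := mem_mul_span_pair.1 hz
      refine ⟨u * p + v * q, ?_, by rw [e1, e2]; ring⟩
      exact ((show u.IsHomogeneous 1 from hu).mul hp).add
        ((show v.IsHomogeneous 1 from hv).mul hq))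
    omega

theorem finrank_span_pair_le (a b : Poly K) :
    finrank K (Submodule.span K {a, b} : Submodule K (Poly K)) ≤ 2 := by
  classical
  have := finrank_span_finset_le_card (R := K) ({a, b} : Finset (Poly K))
  simp only [Finset.coe_insert, Finset.coe_singleton] at this
  exact le_trans this Finset.card_le_two

theorem finrank_span_pair_of_indep {a b : Poly K} (hi : Indep a b) :
    finrank K (Submodule.span K {a, b} : Submodule K (Poly K)) = 2 := by
  have hli : LinearIndependent K ![a, b] := LinearIndependent.pair_iff.2 hi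
  have := finrank_span_eq_card hli
  have hr : Set.range ![a, b] = {a, b} := by
    ext x
    simp only [Set.mem_range, Fin.exists_fin_two, Matrix.cons_val_zero, Matrix.cons_val_one,
      Set.mem_insert_iff, Set.mem_singleton_iff]
    constructor
    · rintro (h | h)
      · exact Or.inl h.symm
      · exact Or.inr h.symm
    · rintro (h | h)
      · exact Or.inl h.symm
      · exact Or.inr h.symm
  rw [hr] at this
  simpa using this

theorem G2_u3 {f : Fin 3 → Poly K} (h : CubicSeq f) {U : Submodule K (Poly K)} (hU : U ≤ HS K 2)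
    (hdim : 3 ≤ finrank K U) : 8 ≤ finrank K (HS K 1 * U ⊔ FF f 3 : Submodule K (Poly K)) := by
  have hfinU := finite_of_le_HS hU
  rcases dichotomy hU (by omega) with ⟨g1, hg1, g2, hg2, hi, hn⟩ | ⟨c, hc, hc0, hle⟩
  · have hTU := span_pair_le hg1 hg2
    have hlt : Submodule.span K {g1, g2} < U := by
      refine lt_of_le_of_ne hTU ?_
      intro he
      have := finrank_span_pair_le g1 g2
      rw [he] at this
      omega
    obtain ⟨g3, hg3, hg3'⟩ := SetLike.exists_of_lt hlt
    have hrp := relPrime_of_noSyz (hU hg1) (hU hg2) hi hn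
    have hg3G : g3 ∉ Ideal.span {g1, g2} := fun hm =>
      hg3' (quadric_mem_T (hU hg1) (hU hg2) (hU hg3) hm)
    have hexi : ∃ i, (X i : Poly K) * g3 ∉ Ideal.span {g1, g2} := by
      by_contra hno
      push Not at hno
      exact hg3G (no_socle hrp hi.ne_right hno)
    obtain ⟨i, hi3⟩ := hexi
    have hg30 : g3 ≠ 0 := fun h0 => hg3G (by rw [h0]; exact Ideal.zero_mem _)
    have key := main_bound h (hU hg1) (hU hg2) hi.ne_left (finrank_V hn)
      (U0 := Submodule.span K {g3}) ((Submodule.span_singleton_le_iff_mem _ _).2 (hU hg3))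
      (by rw [finrank_span_singleton hg30]; omega) (l := X i) (isHomogeneous_X K i) (X_ne_zero i)
      (by
        rw [eq_bot_iff]
        rintro x ⟨hx1, hx2⟩
        obtain ⟨z, hz, rfl⟩ := Submodule.mem_span_singleton_mul.1 hx2
        obtain ⟨c, rfl⟩ := Submodule.mem_span_singleton.1 hz
        have hxG := mul_T_le_G _ _ _ hx1
        by_cases hc : c = 0
        · simp [hc]
        · exfalso
          apply hi3
          have : (X i : Poly K) * g3 = C c⁻¹ * (X i * (c • g3)) := by
            rw [smul_eq_C_mul]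
            have hCc : (C c⁻¹ : Poly K) * C c = 1 := by
              rw [← C_mul, inv_mul_cancel₀ hc, C_1]
            linear_combination (- X i * g3) * hCc
          rw [this]
          exact Ideal.mul_mem_left _ _ hxG)
    rw [finrank_span_singleton hg30] at key
    refine le_trans key (growth_mono ?_ hU)
    exact sup_le hTU ((Submodule.span_singleton_le_iff_mem _ _).2 hg3)
  · have hdimh : finrank K (Submodule.span K {c} * HS K 1 : Submodule K (Poly K)) = 3 := by
      rw [finrank_span_singleton_mul hc0, finrank_HS]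
      decide
    have hle3 : Submodule.span K {c} * HS K 1 ≤ HS K 2 :=
      mul_le_HS (d := 1) (e := 1) ((Submodule.span_singleton_le_iff_mem _ _).2 hc) le_rfl
    have hfin := finite_of_le_HS hle3
    have heq : U = Submodule.span K {c} * HS K 1 :=
      Submodule.eq_of_le_of_finrank_le hle (by omega)
    have hS : (HS K 1 * U : Submodule K (Poly K)) = Submodule.span K {c} * HS K 2 := by
      rw [heq, mul_left_comm, HS_mul]
    have hZ3 : (HS K 1 * U : Submodule K (Poly K)) ≤ HS K 3 :=
      mul_le_HS (d := 1) (e := 2) le_rfl hU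
    have hdimZ : finrank K (HS K 1 * U : Submodule K (Poly K)) = 6 := by
      rw [hS, finrank_span_singleton_mul hc0, finrank_HS]
      decide
    have := h.finrank_sup_F (c := c) (D := 2) (by omega) hZ3 (by
      intro z hz
      rw [hS, mem_span_singleton_mul_HS] at hz
      obtain ⟨r, hr, rfl⟩ := hz
      exact ⟨r, hr, rfl⟩)
    omega

theorem G2_u4 {f : Fin 3 → Poly K} (h : CubicSeq f) {U : Submodule K (Poly K)} (hU : U ≤ HS K 2)
    (hdim : 4 ≤ finrank K U) : 9 ≤ finrank K (HS K 1 * U ⊔ FF f 3 : Submodule K (Poly K)) := by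
  have hfinU := finite_of_le_HS hU
  rcases dichotomy hU (by omega) with ⟨g1, hg1, g2, hg2, hi, hn⟩ | ⟨c, hc, hc0, hle⟩
  · have hTU := span_pair_le hg1 hg2
    have hlt : Submodule.span K {g1, g2} < U := by
      refine lt_of_le_of_ne hTU ?_
      intro he
      have := finrank_span_pair_le g1 g2
      rw [he] at this
      omega
    obtain ⟨g3, hg3, hg3'⟩ := SetLike.exists_of_lt hlt
    have hT'U : Submodule.span K {g1, g2} ⊔ Submodule.span K {g3} ≤ U :=
      sup_le hTU ((Submodule.span_singleton_le_iff_mem _ _).2 hg3)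
    have hlt' : Submodule.span K {g1, g2} ⊔ Submodule.span K {g3} < U := by
      refine lt_of_le_of_ne hT'U ?_
      intro he
      have h1 := finrank_span_pair_le g1 g2
      have hfT : Module.Finite K (Submodule.span K {g1, g2} : Submodule K (Poly K)) :=
        finite_of_le_HS (le_trans hTU hU)
      have h2 := Submodule.finrank_add_le_finrank_add_finrank (Submodule.span K {g1, g2})
        (Submodule.span K {g3})
      have h3 : finrank K (Submodule.span K {g3} : Submodule K (Poly K)) ≤ 1 := by
        have hg30 : g3 ≠ 0 := fun h0 => hg3' (by rw [h0]; exact Submodule.zero_mem _)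
        exact (finrank_span_singleton hg30).le
      rw [he] at h2
      omega
    obtain ⟨g4, hg4, hg4'⟩ := SetLike.exists_of_lt hlt'
    have hrp := relPrime_of_noSyz (hU hg1) (hU hg2) hi hn
    have hind : ∀ r s : K, r • g3 + s • g4 ∈ Ideal.span {g1, g2} → r = 0 ∧ s = 0 := by
      intro r s hm
      have hmT : r • g3 + s • g4 ∈ Submodule.span K {g1, g2} :=
        quadric_mem_T (hU hg1) (hU hg2) (Submodule.add_mem _ (Submodule.smul_mem _ _ (hU hg3))
          (Submodule.smul_mem _ _ (hU hg4))) hm
      have hs : s = 0 := by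
        by_contra hs
        apply hg4'
        have : g4 = s⁻¹ • (r • g3 + s • g4) + (- (s⁻¹ * r)) • g3 := by
          rw [smul_add, smul_smul, smul_smul, inv_mul_cancel₀ hs, one_smul, neg_smul]
          abel
        rw [this]
        exact Submodule.add_mem _ (Submodule.smul_mem _ _ (Submodule.mem_sup_left hmT))
          (Submodule.smul_mem _ _ (Submodule.mem_sup_right (Submodule.mem_span_singleton_self _)))
      subst hs
      rw [zero_smul, add_zero] at hmT
      refine ⟨?_, rfl⟩
      by_contra hr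
      apply hg3'
      have : g3 = r⁻¹ • (r • g3) := by rw [smul_smul, inv_mul_cancel₀ hr, one_smul]
      rw [this]
      exact Submodule.smul_mem _ _ hmT
    have hi34 : Indep g3 g4 := fun r s e => hind r s (by rw [e]; exact Ideal.zero_mem _)
    obtain ⟨l, hl, hl0, hlinj⟩ := exists_linear_inj hrp hi.ne_right hind
    have hU0 := span_pair_le (hU hg3) (hU hg4)
    have hfin2 := finrank_span_pair_of_indep hi34
    have key := main_bound h (hU hg1) (hU hg2) hi.ne_left (finrank_V hn)
      (U0 := Submodule.span K {g3, g4}) hU0 (by omega) hl hl0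
      (by
        rw [eq_bot_iff]
        rintro x ⟨hx1, hx2⟩
        obtain ⟨z, hz, rfl⟩ := Submodule.mem_span_singleton_mul.1 hx2
        obtain ⟨r, s, rfl⟩ := Submodule.mem_span_pair.1 hz
        have hxG := mul_T_le_G _ _ _ hx1
        obtain ⟨h1, h2⟩ := hlinj r s hxG
        simp [h1, h2])
    rw [hfin2] at key
    refine le_trans key (growth_mono ?_ hU)
    exact sup_le hTU (span_pair_le hg3 hg4)
  · exfalso
    have hdimh : finrank K (Submodule.span K {c} * HS K 1 : Submodule K (Poly K)) = 3 := by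
      rw [finrank_span_singleton_mul hc0, finrank_HS]
      decide
    have hle3 : Submodule.span K {c} * HS K 1 ≤ HS K 2 :=
      mul_le_HS (d := 1) (e := 1) ((Submodule.span_singleton_le_iff_mem _ _).2 hc) le_rfl
    have hfin := finite_of_le_HS hle3
    have := Submodule.finrank_mono hle
    omega

theorem span_X_mul_le {V W : Submodule K (Poly K)} (h : ∀ i, ∀ n ∈ V, (X i : Poly K) * n ∈ W) :
    HS K 1 * V ≤ W := by
  rw [Submodule.mul_le]
  intro m hm n hn
  have hm' : m ∈ Submodule.span K (Set.range (X : Fin 3 → Poly K)) := by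
    have : HS K 1 = Submodule.span K (Set.range (X : Fin 3 → Poly K)) :=
      homogeneousSubmodule_one_eq_span_X
    rwa [this] at hm
  clear hm
  induction hm' using Submodule.span_induction with
  | mem x hx =>
    obtain ⟨i, rfl⟩ := hx
    exact h i n hn
  | zero => simp
  | add x y _ _ hx hy =>
    rw [add_mul]
    exact W.add_mem hx hy
  | smul c x _ hx =>
    rw [smul_mul_assoc]
    exact W.smul_mem _ hx

theorem HS3_le {W : Submodule K (Poly K)}
    (h : ∀ i j k, (X i : Poly K) * (X j * X k) ∈ W) : HS K 3 ≤ W := by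
  have e3 : HS K 3 = HS K 1 * (HS K 1 * HS K 1) := by
    rw [HS_mul, HS_mul]
  rw [e3]
  refine span_X_mul_le ?_
  intro i n hn
  have : HS K 1 * HS K 1 ≤ W.comap (LinearMap.mulLeft K (X i)) := by
    refine span_X_mul_le ?_
    intro j n' hn'
    rw [Submodule.mem_comap, LinearMap.mulLeft_apply]
    have hh : HS K 1 ≤ (W.comap (LinearMap.mulLeft K (X i))).comap (LinearMap.mulLeft K (X j)) := by
      have : HS K 1 = Submodule.span K (Set.range (X : Fin 3 → Poly K)) :=
        homogeneousSubmodule_one_eq_span_X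
      rw [this, Submodule.span_le]
      rintro _ ⟨k, rfl⟩
      exact h i j k
    exact hh hn'
  exact this hn

theorem eval_Fid {f : Fin 3 → Poly K} {e : Fin 3 → K} (hz : ∀ i, aeval e (f i) = 0) {a : Poly K}
    (ha : a ∈ Fid f) : aeval e a = 0 := by
  obtain ⟨p, rfl⟩ := mem_Fid.1 ha
  rw [map_add, map_add, map_mul, map_mul, map_mul, hz, hz, hz]
  ring

theorem G2_u5 {f : Fin 3 → Poly K} (h : CubicSeq f) {U : Submodule K (Poly K)} (hU : U ≤ HS K 2)
    (hdim : 5 ≤ finrank K U) : HS K 3 ≤ HS K 1 * U ⊔ FF f 3 := by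
  by_cases hEq : U = HS K 2
  · rw [hEq, HS_mul]
    exact le_sup_left
  have hlt : U < HS K 2 := lt_of_le_of_ne hU hEq
  obtain ⟨t0, ht0, ht0'⟩ := SetLike.exists_of_lt hlt
  have hfinU := finite_of_le_HS hU
  have h6 : finrank K (HS K 2) = 6 := by rw [finrank_HS]; decide
  have hfin5 : finrank K U = 5 := by
    have := Submodule.finrank_lt_finrank_of_lt hlt
    omega
  by_contra hno
  obtain ⟨t, ht, ht'⟩ := SetLike.not_le_iff_exists.1 hno
  obtain ⟨φ, hφt, hφY⟩ := Submodule.exists_dual_map_eq_bot_of_notMem ht' inferInstance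
  obtain ⟨ψ0, hψ0t, hψ0U⟩ := Submodule.exists_dual_map_eq_bot_of_notMem ht0' inferInstance
  have hφ0 : ∀ y ∈ HS K 1 * U ⊔ FF f 3, φ y = 0 := by
    intro y hy
    have : φ y ∈ Submodule.map φ (HS K 1 * U ⊔ FF f 3) := ⟨y, hy, rfl⟩
    rw [hφY] at this
    simpa using this
  have hψ00 : ∀ y ∈ U, ψ0 y = 0 := by
    intro y hy
    have : ψ0 y ∈ Submodule.map ψ0 U := ⟨y, hy, rfl⟩
    rw [hψ0U] at this
    simpa using this
  -- normalise
  set ψ : Module.Dual K (Poly K) := (ψ0 t0)⁻¹ • ψ0 with hψ
  have hψt0 : ψ t0 = 1 := by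
    rw [hψ, LinearMap.smul_apply, smul_eq_mul, inv_mul_cancel₀ hψ0t]
  have hψU : ∀ y ∈ U, ψ y = 0 := by
    intro y hy
    rw [hψ, LinearMap.smul_apply, hψ00 y hy, smul_zero]
  -- decomposition of quadrics
  have hsup : U ⊔ Submodule.span K {t0} = HS K 2 := by
    have hle : U ⊔ Submodule.span K {t0} ≤ HS K 2 :=
      sup_le hU ((Submodule.span_singleton_le_iff_mem _ _).2 ht0)
    have hlt2 : U < U ⊔ Submodule.span K {t0} := by
      refine lt_of_le_of_ne le_sup_left ?_
      intro he
      apply ht0'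
      rw [he]
      exact Submodule.mem_sup_right (Submodule.mem_span_singleton_self _)
    have hfinS : Module.Finite K (U ⊔ Submodule.span K {t0} : Submodule K (Poly K)) :=
      finite_of_le_HS hle
    have := Submodule.finrank_lt_finrank_of_lt hlt2
    refine Submodule.eq_of_le_of_finrank_le hle ?_
    omega
  have hdec : ∀ m ∈ HS K 2, m - ψ m • t0 ∈ U := by
    intro m hm
    rw [← hsup, Submodule.mem_sup] at hm
    obtain ⟨u, hu, v, hv, rfl⟩ := hm
    obtain ⟨c, rfl⟩ := Submodule.mem_span_singleton.1 hv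
    have : ψ (u + c • t0) = c := by
      rw [map_add, map_smul, hψU u hu, hψt0, zero_add, smul_eq_mul, mul_one]
    rw [this]
    simpa using hu
  set c : Fin 3 → K := fun i => φ (X i * t0) with hc
  have hXh : ∀ i, (X i : Poly K) ∈ HS K 1 := fun i => isHomogeneous_X K i
  have hφm : ∀ i, ∀ m ∈ HS K 2, φ (X i * m) = ψ m * c i := by
    intro i m hm
    have h1 := hφ0 _ (Submodule.mem_sup_left (Submodule.mul_mem_mul (hXh i) (hdec m hm)))
    rw [mul_sub, map_sub, mul_smul_comm, map_smul, smul_eq_mul] at h1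
    linear_combination h1
  -- some coefficient is nonzero
  have hexp : ∃ p, c p ≠ 0 := by
    by_contra hz
    push Not at hz
    apply hφt
    have hle : HS K 3 ≤ LinearMap.ker φ := by
      refine HS3_le ?_
      intro i j k
      rw [LinearMap.mem_ker, hφm i _ ((hXh j).mul (hXh k) : _), hz i, mul_zero]
    exact hle ht
  obtain ⟨p, hp⟩ := hexp
  set e : Fin 3 → K := fun i => c i / c p with he
  have hep : e p = 1 := div_self hp
  have h1 : ∀ j, ∀ n ∈ HS K 1, ψ (X j * n) = e j * ψ (X p * n) := by
    intro j n hn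
    have hh : ∀ i, (X i * n : Poly K) ∈ HS K 2 := fun i => (hXh i).mul hn
    have h2 := hφm p _ (hh j)
    have h3 := hφm j _ (hh p)
    have h4 : (X p * (X j * n) : Poly K) = X j * (X p * n) := by ring
    rw [h4, h3] at h2
    rw [he]
    field_simp
    linear_combination (-1 : K) * h2
  set κ' : K := ψ (X p * X p) with hκ'
  have h2 : ∀ j k, ψ (X j * X k) = e j * e k * κ' := by
    intro j k
    rw [h1 j _ (hXh k), mul_comm (X p) (X k), h1 k _ (hXh p)]
    ring
  set κ : K := κ' * c p with hκ
  have h3 : ∀ i j k, φ (X i * (X j * X k)) = κ * (e i * e j * e k) := by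
    intro i j k
    rw [hφm i _ ((hXh j).mul (hXh k) : _), h2 j k, hκ]
    have : c i = e i * c p := by
      rw [he]
      field_simp
    rw [this]
    ring
  -- comparison with evaluation
  have hcomp : ∀ a ∈ HS K 3, φ a = κ * aeval e a := by
    let D : Module.Dual K (Poly K) := φ - κ • (aeval e : Poly K →ₐ[K] K).toLinearMap
    have hle : HS K 3 ≤ LinearMap.ker D := by
      refine HS3_le ?_
      intro i j k
      rw [LinearMap.mem_ker]
      simp only [D, LinearMap.sub_apply, LinearMap.smul_apply, AlgHom.toLinearMap_apply, h3]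
      simp
      ring
    intro a ha
    have := hle ha
    rw [LinearMap.mem_ker] at this
    simp only [D, LinearMap.sub_apply, LinearMap.smul_apply, AlgHom.toLinearMap_apply,
      smul_eq_mul] at this
    linear_combination this
  have hκ0 : κ ≠ 0 := by
    intro h0
    apply hφt
    rw [hcomp t ht, h0, zero_mul]
  have hzero : ∀ i, aeval e (f i) = 0 := by
    intro i
    have hm : f i ∈ FF f 3 := mem_FF.2 ⟨Ideal.subset_span ⟨i, rfl⟩, h.hom i⟩
    have h4 := hφ0 _ (Submodule.mem_sup_right hm)
    rw [hcomp _ (h.hom i)] at h4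
    exact (mul_eq_zero.1 h4).resolve_left hκ0
  have h5 := eval_Fid hzero (h.X_pow_mem p)
  rw [map_pow, aeval_X, hep, one_pow] at h5
  exact one_ne_zero h5

/-- Growth table in degree two, in terms of dimensions. -/
theorem G2_table {f : Fin 3 → Poly K} (h : CubicSeq f) {U : Submodule K (Poly K)}
    (hU : U ≤ HS K 2) :
    (1 ≤ finrank K U → 5 ≤ finrank K (HS K 1 * U ⊔ FF f 3 : Submodule K (Poly K))) ∧
    (2 ≤ finrank K U → 7 ≤ finrank K (HS K 1 * U ⊔ FF f 3 : Submodule K (Poly K))) ∧
    (3 ≤ finrank K U → 8 ≤ finrank K (HS K 1 * U ⊔ FF f 3 : Submodule K (Poly K))) ∧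
    (4 ≤ finrank K U → 9 ≤ finrank K (HS K 1 * U ⊔ FF f 3 : Submodule K (Poly K))) ∧
    (5 ≤ finrank K U → 10 ≤ finrank K (HS K 1 * U ⊔ FF f 3 : Submodule K (Poly K))) := by
  refine ⟨G2_u1 h hU, G2_u2 h hU, G2_u3 h hU, G2_u4 h hU, ?_⟩
  intro hd
  have hle := G2_u5 h hU hd
  have hY : (HS K 1 * U ⊔ FF f 3 : Submodule K (Poly K)) ≤ HS K 3 :=
    sup_le (mul_le_HS (d := 1) (e := 2) le_rfl hU) (FF_le_HS f 3)
  have hfin := finite_of_le_HS hY
  have := Submodule.finrank_mono hle
  rw [finrank_HS] at this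
  have h10 : T 3 = 10 := by decide
  omega

end Vale.Agent.Lib.P200
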