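import Vale.Agent.Lib.P200.Duality

/-!
The growth table in all degrees, for subspaces containing the ideal of the cubics.
-/

namespace Vale.Agent.Lib.P200
open MvPolynomial Module

variable {K : Type*} [Field K]

/-- Growth from degree zero. -/
theorem growth0 {f : Fin 3 → Poly K} {V : Submodule K (Poly K)} (hV : V ≤ HS K 0)
    (hu : 1 ≤ finrank K V) : 3 ≤ finrank K (HS K 1 * V ⊔ FF f 1 : Submodule K (Poly K)) := by
  have hfin := finite_of_le_HS hV
  have h1 : finrank K (HS K 0) = 1 := by rw [finrank_HS]; decide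
  have hEq : V = HS K 0 := Submodule.eq_of_le_of_finrank_le hV (by omega)
  have hle : (HS K 1 : Submodule K (Poly K)) ≤ HS K 1 * V ⊔ FF f 1 := by
    rw [hEq, HS_mul]
    exact le_sup_left
  have hY : (HS K 1 * V ⊔ FF f 1 : Submodule K (Poly K)) ≤ HS K 1 := by
    refine sup_le ?_ (FF_le_HS f 1)
    have := mul_le_HS (d := 1) (e := 0) le_rfl hV
    simpa using this
  have hfinY := finite_of_le_HS hY
  have := Submodule.finrank_mono hle
  rw [finrank_HS] at this
  have h3 : T 1 = 3 := by decide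
  omega

/-- Growth from degree one. -/
theorem growth1 {f : Fin 3 → Poly K} {V : Submodule K (Poly K)} (hV : V ≤ HS K 1) :
    (1 ≤ finrank K V → 3 ≤ finrank K (HS K 1 * V ⊔ FF f 2 : Submodule K (Poly K))) ∧
    (2 ≤ finrank K V → 5 ≤ finrank K (HS K 1 * V ⊔ FF f 2 : Submodule K (Poly K))) ∧
    (3 ≤ finrank K V → 6 ≤ finrank K (HS K 1 * V ⊔ FF f 2 : Submodule K (Poly K))) := by
  have hfin := finite_of_le_HS hV
  have hY : (HS K 1 * V ⊔ FF f 2 : Submodule K (Poly K)) ≤ HS K 2 :=
    sup_le (mul_le_HS (d := 1) (e := 1) le_rfl hV) (FF_le_HS f 2)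
  have hmono : ∀ W : Submodule K (Poly K), W ≤ V → finrank K (HS K 1 * W : Submodule K (Poly K)) ≤
      finrank K (HS K 1 * V ⊔ FF f 2 : Submodule K (Poly K)) := by
    intro W hW
    refine finrank_le_of_le_HS (d := 2) ?_ hY
    exact le_trans (mul_le_mul' le_rfl hW) le_sup_left
  refine ⟨?_, ?_, ?_⟩
  · intro hu
    have hbot : V ≠ ⊥ := by
      intro h0
      rw [h0, finrank_bot] at hu
      omega
    obtain ⟨g, hg, hg0⟩ := Submodule.exists_mem_ne_zero_of_ne_bot hbot
    have := hmono (Submodule.span K {g}) ((Submodule.span_singleton_le_iff_mem _ _).2 hg)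
    rw [mul_comm, finrank_span_singleton_mul hg0, finrank_HS] at this
    have h3 : T 1 = 3 := by decide
    omega
  · intro hu
    -- two independent elements
    have hbot : V ≠ ⊥ := by
      intro h0
      rw [h0, finrank_bot] at hu
      omega
    obtain ⟨g1, hg1, hg10⟩ := Submodule.exists_mem_ne_zero_of_ne_bot hbot
    have hspan : Submodule.span K {g1} < V := by
      refine lt_of_le_of_ne ((Submodule.span_singleton_le_iff_mem _ _).2 hg1) ?_
      intro he
      rw [← he, finrank_span_singleton hg10] at hu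
      omega
    obtain ⟨g2, hg2, hg2'⟩ := SetLike.exists_of_lt hspan
    have hi : Indep g1 g2 := by
      intro r s e
      by_cases hs : s = 0
      · subst hs
        rw [zero_smul, add_zero, smul_eq_zero] at e
        exact ⟨e.resolve_right hg10, rfl⟩
      · exfalso
        apply hg2'
        rw [Submodule.mem_span_singleton]
        refine ⟨- (r / s), ?_⟩
        have h1 : s • g2 = - (r • g1) := by linear_combination (exp := 1) e
        have h2 : g2 = s⁻¹ • (- (r • g1)) := by
          rw [← h1, smul_smul, inv_mul_cancel₀ hs, one_smul]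
        rw [h2, smul_neg, smul_smul, neg_smul]
        congr 2
        field_simp
    have h5 := G1_pair (hV hg1) (hV hg2) hi
    have := hmono _ (span_pair_le hg1 hg2)
    omega
  · intro hu
    have h3 : finrank K (HS K 1) = 3 := by rw [finrank_HS]; decide
    have hEq : V = HS K 1 := Submodule.eq_of_le_of_finrank_le hV (by omega)
    have hle : (HS K 2 : Submodule K (Poly K)) ≤ HS K 1 * V ⊔ FF f 2 := by
      rw [hEq, HS_mul]
      exact le_sup_left
    have hfinY := finite_of_le_HS hY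
    have := Submodule.finrank_mono hle
    rw [finrank_HS] at this
    have h6 : T 2 = 6 := by decide
    omega

namespace CubicSeq

variable {f : Fin 3 → Poly K} (h : CubicSeq f)
include h

/-- Growth from degree three, by duality from degree two. -/
theorem growth3 {V : Submodule K (Poly K)} (hV : V ≤ HS K 3) (hFV : FF f 3 ≤ V) :
    (4 ≤ finrank K V → 11 ≤ finrank K (HS K 1 * V ⊔ FF f 4 : Submodule K (Poly K))) ∧
    (5 ≤ finrank K V → 12 ≤ finrank K (HS K 1 * V ⊔ FF f 4 : Submodule K (Poly K))) ∧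
    (6 ≤ finrank K V → 13 ≤ finrank K (HS K 1 * V ⊔ FF f 4 : Submodule K (Poly K))) ∧
    (7 ≤ finrank K V → 14 ≤ finrank K (HS K 1 * V ⊔ FF f 4 : Submodule K (Poly K))) ∧
    (9 ≤ finrank K V → 15 ≤ finrank K (HS K 1 * V ⊔ FF f 4 : Submodule K (Poly K))) := by
  obtain ⟨φ, hφ, _⟩ := h.exists_trace
  set W : Submodule K (Poly K) := HS K 1 * V ⊔ FF f 4 with hW
  have hW4 : W ≤ HS K 4 := sup_le (mul_le_HS (d := 1) (e := 3) le_rfl hV) (FF_le_HS f 4)
  have e1 := finrank_perp h hφ (d := 4) (e := 2) (by norm_num) hW4 le_sup_right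
  have e2 := finrank_perp h hφ (d := 3) (e := 3) (by norm_num) hV hFV
  rw [h.finrank_FF4] at e1
  rw [h.finrank_FF3] at e2
  have hg : HS K 1 * perp φ W 2 ⊔ FF f 3 ≤ perp φ V 3 :=
    growth_perp h hφ (d := 3) (e := 2) (by norm_num) hV
  have hQ := perp_le φ V 3
  have hfinQ := finite_of_le_HS hQ
  have hyq := Submodule.finrank_mono hg
  obtain ⟨t1, t2, t3, t4, t5⟩ := G2_table h (perp_le φ W 2)
  have hT2 : T 2 = 6 := by decide
  have hT3 : T 3 = 10 := by decide
  simp only [hT2, hT3] at e1 e2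
  refine ⟨?_, ?_, ?_, ?_, ?_⟩ <;> intro _ <;> omega

/-- Growth from degree four, by duality from degree one. -/
theorem growth4 {V : Submodule K (Poly K)} (hV : V ≤ HS K 4) (hFV : FF f 4 ≤ V) :
    (10 ≤ finrank K V → 19 ≤ finrank K (HS K 1 * V ⊔ FF f 5 : Submodule K (Poly K))) ∧
    (11 ≤ finrank K V → 20 ≤ finrank K (HS K 1 * V ⊔ FF f 5 : Submodule K (Poly K))) ∧
    (13 ≤ finrank K V → 21 ≤ finrank K (HS K 1 * V ⊔ FF f 5 : Submodule K (Poly K))) := by
  obtain ⟨φ, hφ, _⟩ := h.exists_trace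
  set W : Submodule K (Poly K) := HS K 1 * V ⊔ FF f 5 with hW
  have hW5 : W ≤ HS K 5 := sup_le (mul_le_HS (d := 1) (e := 4) le_rfl hV) (FF_le_HS f 5)
  have e1 := finrank_perp h hφ (d := 5) (e := 1) (by norm_num) hW5 le_sup_right
  have e2 := finrank_perp h hφ (d := 4) (e := 2) (by norm_num) hV hFV
  rw [h.finrank_FF5] at e1
  rw [h.finrank_FF4] at e2
  have hg : HS K 1 * perp φ W 1 ⊔ FF f 2 ≤ perp φ V 2 :=
    growth_perp h hφ (d := 4) (e := 1) (by norm_num) hV
  have hQ := perp_le φ V 2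
  have hfinQ := finite_of_le_HS hQ
  have hyq := Submodule.finrank_mono hg
  obtain ⟨t1, t2, t3⟩ := growth1 (f := f) (perp_le φ W 1)
  have hT1 : T 1 = 3 := by decide
  have hT2 : T 2 = 6 := by decide
  simp only [hT1, hT2] at e1 e2
  refine ⟨?_, ?_, ?_⟩ <;> intro _ <;> omega

/-- Growth from degree five, by duality from degree zero. -/
theorem growth5 {V : Submodule K (Poly K)} (hV : V ≤ HS K 5) (hFV : FF f 5 ≤ V) :
    19 ≤ finrank K V → 28 ≤ finrank K (HS K 1 * V ⊔ FF f 6 : Submodule K (Poly K)) := by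
  obtain ⟨φ, hφ, _⟩ := h.exists_trace
  set W : Submodule K (Poly K) := HS K 1 * V ⊔ FF f 6 with hW
  have hW6 : W ≤ HS K 6 := sup_le (mul_le_HS (d := 1) (e := 5) le_rfl hV) (FF_le_HS f 6)
  have e1 := finrank_perp h hφ (d := 6) (e := 0) (by norm_num) hW6 le_sup_right
  have e2 := finrank_perp h hφ (d := 5) (e := 1) (by norm_num) hV hFV
  rw [h.finrank_FF6] at e1
  rw [h.finrank_FF5] at e2
  have hg : HS K 1 * perp φ W 0 ⊔ FF f 1 ≤ perp φ V 1 :=
    growth_perp h hφ (d := 5) (e := 0) (by norm_num) hV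
  have hQ := perp_le φ V 1
  have hfinQ := finite_of_le_HS hQ
  have hyq := Submodule.finrank_mono hg
  have t1 := growth0 (f := f) (perp_le φ W 0)
  have hT0 : T 0 = 1 := by decide
  have hT1 : T 1 = 3 := by decide
  simp only [hT0, hT1] at e1 e2
  intro hv
  by_contra hcon
  have hu : 1 ≤ finrank K (perp φ W 0) := by omega
  have := t1 hu
  omega

end CubicSeq

end Vale.Agent.Lib.P200
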