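import Vale.Agent.Lib.P200.LKos

/-!
From the lexicographic growth step to the comparison of graded Betti numbers.
-/

namespace Vale.Agent.Lib.P200
open MvPolynomial Module

variable {K : Type*} [Field K]

/-- The step property of lexicographic segments in one degree. -/
def LexStepAt (A : Fin 3 → ℕ) (s : Fin 3 → Poly K) (d : ℕ) : Prop :=
  ∀ X Y : Submodule K (Poly K), FF s d ≤ X → X ≤ HS K d → HS K 1 * X ≤ Y → FF s (d + 1) ≤ Y →
    Y ≤ HS K (d + 1) → ∀ m : Fin 3 →₀ ℕ, m.degree = d → OutsideT A m →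
    lexRankT A m < finrank K X - finrank K (FF s d) → ∀ l : Fin 3,
    OutsideT A (m + Finsupp.single l 1) →
    lexRankT A (m + Finsupp.single l 1) < finrank K Y - finrank K (FF s (d + 1))

/-- The exponents of the initial segment with `q` monomials outside the powers. -/
def LsetT (A : Fin 3 → ℕ) (d q : ℕ) : Set (Fin 3 →₀ ℕ) :=
  {m | m.degree = d ∧ (¬ OutsideT A m ∨ lexRankT A m < q)}

theorem LsetT_finite (A : Fin 3 → ℕ) (d q : ℕ) : (LsetT A d q).Finite :=
  (finite_degree_set d).subset fun _ h => h.1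

theorem LsetT_eq (A : Fin 3 → ℕ) (d q : ℕ) : LsetT A d q =
    {m : Fin 3 →₀ ℕ | m.degree = d ∧ ¬ OutsideT A m} ∪
      {m : Fin 3 →₀ ℕ | m.degree = d ∧ OutsideT A m ∧ lexRankT A m < q} := by
  ext m
  simp only [LsetT, Set.mem_ofPred_eq, Set.mem_union]
  constructor
  · rintro ⟨h1, h2 | h2⟩
    · exact Or.inl ⟨h1, h2⟩
    · by_cases ho : OutsideT A m
      · exact Or.inr ⟨h1, ho, h2⟩
      · exact Or.inl ⟨h1, ho⟩
  · rintro (⟨h1, h2⟩ | ⟨h1, _, h3⟩)
    · exact ⟨h1, Or.inl h2⟩
    · exact ⟨h1, Or.inr h3⟩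

theorem ncard_LsetT {A : Fin 3 → ℕ} {s : ℕ} (hsum : A 0 + A 1 + A 2 = s + 3) {d q : ℕ}
    (hq : q ≤ cntT A d) :
    (LsetT A d q).ncard = finrank K (pieceT (powerIdealT K A) d) + q := by
  have hdisj : Disjoint {m : Fin 3 →₀ ℕ | m.degree = d ∧ ¬ OutsideT A m}
      {m : Fin 3 →₀ ℕ | m.degree = d ∧ OutsideT A m ∧ lexRankT A m < q} := by
    rw [Set.disjoint_left]
    rintro m ⟨_, h1⟩ ⟨_, h2, _⟩
    exact h1 h2
  rw [LsetT_eq, Set.ncard_union_eq hdisj ((finite_degree_set d).subset fun m hm => hm.1)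
    ((finite_degree_set d).subset fun m hm => hm.1), ncard_segmentA hsum hq, pieceT_power,
    finrank_restrictSupport]

theorem ncard_LsetT_le {A : Fin 3 → ℕ} {s : ℕ} (hsum : A 0 + A 1 + A 2 = s + 3) (d q : ℕ) :
    (LsetT A d q).ncard ≤ finrank K (pieceT (powerIdealT K A) d) + q := by
  by_cases hq : q ≤ cntT A d
  · rw [ncard_LsetT (K := K) hsum hq]
  · have hsub : LsetT A d q ⊆ LsetT A d (cntT A d) := by
      rintro m ⟨h1, h2 | h2⟩
      · exact ⟨h1, Or.inl h2⟩
      · by_cases ho : OutsideT A m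
        · refine ⟨h1, Or.inr ?_⟩
          have := rank_dualA hsum ho
          rw [h1] at this
          omega
        · exact ⟨h1, Or.inl ho⟩
    have := Set.ncard_le_ncard hsub (LsetT_finite _ _ _)
    rw [ncard_LsetT (K := K) hsum le_rfl] at this
    omega

theorem X_mul_mem_restrict {S S' : Set (Fin 3 →₀ ℕ)} {i : Fin 3}
    (h : ∀ m ∈ S, m + Finsupp.single i 1 ∈ S') {x : Poly K} (hx : x ∈ restrictSupport K S) :
    X i * x ∈ restrictSupport K S' := by
  rw [mem_restrictSupport_iff, mul_comm, support_mul_X] at *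
  intro n hn
  have hn' : n ∈ (x.support.map (addRightEmbedding (Finsupp.single i 1))) := hn
  obtain ⟨m, hm, rfl⟩ := Finset.mem_map.1 hn'
  exact h m (hx hm)

theorem HS1_mul_restrict_le {S S' : Set (Fin 3 →₀ ℕ)}
    (h : ∀ m ∈ S, ∀ i : Fin 3, m + Finsupp.single i 1 ∈ S') :
    HS K 1 * restrictSupport K S ≤ restrictSupport K S' := by
  intro y hy
  obtain ⟨a, ha, b, hb, c, hc, rfl⟩ := mem_HS1_mul.1 hy
  exact Submodule.add_mem _ (Submodule.add_mem _ (X_mul_mem_restrict (fun m hm => h m hm 0) ha)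
    (X_mul_mem_restrict (fun m hm => h m hm 1) hb)) (X_mul_mem_restrict (fun m hm => h m hm 2) hc)

section

variable {A : Fin 3 → ℕ} {s : Fin 3 → Poly K} {I J : Ideal (Poly K)}

theorem mem_J_iff (hJ : J.restrictScalars K = lexSpaceT A I) {x : Poly K} :
    x ∈ J ↔ x ∈ restrictSupport K (MSetT A I) := by
  rw [← lexSpaceT_eq, ← hJ]
  rfl

theorem pieceT_J (hJ : J.restrictScalars K = lexSpaceT A I) (d : ℕ) :
    pieceT J d = lexPieceT A I d := by
  rw [lexPieceT_eq]
  ext x
  rw [mem_pieceT, mem_J_iff hJ, mem_restrictSupport_iff, mem_restrictSupport_iff]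
  have e : x.IsHomogeneous d ↔ (↑x.support : Set (Fin 3 →₀ ℕ)) ⊆ {m | m.degree = d} := by
    have : x ∈ HS K d ↔ x ∈ restrictSupport K {m : Fin 3 →₀ ℕ | m.degree = d} := by
      rw [HS_eq_restrict]
    rw [mem_restrictSupport_iff] at this
    exact this
  rw [e]
  constructor
  · rintro ⟨h1, h2⟩ m hm
    exact ⟨h1 hm, h2 hm⟩
  · intro h
    exact ⟨fun m hm => (h hm).1, fun m hm => (h hm).2⟩

/-- The socle elements of `I` are matched in `J`. -/
theorem finrank_ScT_le (h : FormSeq A s) {t : ℕ} (hsum : ∃ n, A 0 + A 1 + A 2 = n + 3)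
    (hI : ∀ i, s i ∈ I) (hstep : LexStepAt A s t) (hJ : J.restrictScalars K = lexSpaceT A I) :
    finrank K (ScT I t) ≤ finrank K (ScT J t) := by
  obtain ⟨n0, hsum⟩ := hsum
  have hF : FF s t ≤ ScT I t := fun x hx => by
    have h1 := FF_le_pieceT hI t hx
    obtain ⟨h2, h3⟩ := mem_pieceT.1 h1
    exact ⟨h3, fun i => I.mul_mem_left _ h2⟩
  have hmul : HS K 1 * ScT I t ≤ pieceT I (t + 1) := by
    intro y hy
    obtain ⟨a, ha, b, hb, c, hc, rfl⟩ := mem_HS1_mul.1 hy
    refine mem_pieceT.2 ⟨I.add_mem (I.add_mem (ha.2 0) (hb.2 1)) (hc.2 2), ?_⟩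
    have hh : ∀ (i : Fin 3) {u : Poly K}, u ∈ HS K t → (X i * u : Poly K).IsHomogeneous (t + 1) := by
      intro i u hu
      have := (isHomogeneous_X K i).mul hu
      rwa [add_comm] at this
    exact ((hh 0 ha.1).add (hh 1 hb.1)).add (hh 2 hc.1)
  have hfS := finite_ScT I t
  have hfJ := finite_ScT J t
  set n := finrank K (ScT I t) - finrank K (FF s t) with hn
  have hFle := Submodule.finrank_mono hF
  have hU := Submodule.finrank_mono (ScT_le_HS I t)
  rw [finrank_HS] at hU
  have hcnt := h.finrank_FF_add_cnt t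
  have hnc : n ≤ cntT A t := by omega
  have hsub : restrictSupport K (LsetT A t n) ≤ ScT J t := by
    intro x hx
    refine ⟨?_, fun i => ?_⟩
    · rw [HS_eq_restrict]
      exact restrictSupport_mono K (fun m hm => hm.1) hx
    · rw [mem_J_iff hJ]
      refine X_mul_mem_restrict (fun m hm => ?_) hx
      obtain ⟨h1, h2⟩ := hm
      by_cases ho : OutsideT A (m + Finsupp.single i 1)
      · right
        have hom : OutsideT A m := by
          intro j
          have := ho j
          simp only [Finsupp.add_apply] at this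
          omega
        have hr : lexRankT A m < n := h2.resolve_left (not_not.2 hom)
        have := hstep (ScT I t) (pieceT I (t + 1)) hF (ScT_le_HS I t) hmul (FF_le_pieceT hI _)
          (pieceT_le_HS _ _) m h1 hom hr i ho
        rw [degree_add_single, h1]
        unfold excessT
        rwa [← h.finrank_FF_eq]
      · exact Or.inl ho
  have := Submodule.finrank_mono hsub
  rw [finrank_restrictSupport, ncard_LsetT (K := K) hsum hnc, ← h.finrank_FF_eq] at this
  refine le_trans ?_ this
  omega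

/-- The generators: the bound on `HS₁ J_e`. -/
theorem finrank_mul_J_le {A' : Fin 3 → ℕ} {s' : Fin 3 → Poly K} {e : ℕ}
    (h' : FormSeq A' s') (hsum' : ∃ n, A' 0 + A' 1 + A' 2 = n + 3) (hI' : ∀ i, s' i ∈ I)
    (hstep : LexStepAt A' s' e) (hF1 : FF s' (e + 1) ≤ HS K 1 * pieceT I e)
    (ho : ∀ m : Fin 3 →₀ ℕ, m.degree = e → (OutsideT A' m ↔ OutsideT A m))
    (hJ : J.restrictScalars K = lexSpaceT A I) :
    finrank K (HS K 1 * pieceT J e : Submodule K (Poly K)) ≤
      finrank K (HS K 1 * pieceT I e : Submodule K (Poly K)) := by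
  obtain ⟨n0, hsum⟩ := hsum'
  set Y : Submodule K (Poly K) := HS K 1 * pieceT I e with hY
  have hYH : Y ≤ HS K (e + 1) := by
    rw [hY, add_comm, ← HS_mul]
    exact mul_le_mul' le_rfl (pieceT_le_HS I e)
  have hfY := finite_of_le_HS hYH
  have hfF := finite_of_le_HS (FF_le_HS s' (e + 1))
  set q := finrank K Y - finrank K (FF s' (e + 1)) with hq
  have hFY := Submodule.finrank_mono hF1
  have hsub : HS K 1 * pieceT J e ≤ restrictSupport K (LsetT A' (e + 1) q) := by
    rw [pieceT_J hJ, lexPieceT_eq]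
    refine HS1_mul_restrict_le fun m hm i => ?_
    obtain ⟨hm1, hm2⟩ := hm
    refine ⟨by rw [degree_add_single, hm2], ?_⟩
    by_cases hout : OutsideT A' (m + Finsupp.single i 1)
    · right
      have hom' : OutsideT A' m := by
        intro j
        have := hout j
        simp only [Finsupp.add_apply] at this
        omega
      have hom : OutsideT A m := (ho m hm2).1 hom'
      have hr : lexRankT A m < excessT A I m.degree := hm1.resolve_left (not_not.2 hom)
      have hrk : lexRankT A' m = lexRankT A m := by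
        unfold lexRankT
        congr 1
        ext n
        simp only [Set.mem_ofPred_eq]
        constructor
        · rintro ⟨h1, h2, h3⟩
          exact ⟨h1, (ho n (by omega)).1 h2, h3⟩
        · rintro ⟨h1, h2, h3⟩
          exact ⟨h1, (ho n (by omega)).2 h2, h3⟩
      -- the counts in degree `e` agree
      have hcnt : cntT A' e = cntT A e := by
        unfold cntT
        congr 1
        ext n
        simp only [Set.mem_ofPred_eq]
        constructor
        · rintro ⟨h1, h2⟩
          exact ⟨h1, (ho n h1).1 h2⟩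
        · rintro ⟨h1, h2⟩
          exact ⟨h1, (ho n h1).2 h2⟩
      have e1 := h'.finrank_FF_add_cnt e
      have e2 := finrank_piece_P (K := K) A e
      have hr' : lexRankT A' m < finrank K (pieceT I e) - finrank K (FF s' e) := by
        rw [hrk]
        unfold excessT at hr
        rw [hm2] at hr
        omega
      have := hstep (pieceT I e) Y (FF_le_pieceT hI' e) (pieceT_le_HS I e) le_rfl hF1 hYH m hm2 hom'
        hr' i hout
      exact this
    · exact Or.inl hout
  have hfR : Module.Finite K (restrictSupport K (LsetT A' (e + 1) q) : Submodule K (Poly K)) := by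
    refine finite_of_le_HS (d := e + 1) ?_
    rw [HS_eq_restrict]
    exact restrictSupport_mono K fun m hm => hm.1
  have h1 := Submodule.finrank_mono hsub
  rw [finrank_restrictSupport] at h1
  have h2 := ncard_LsetT_le (K := K) hsum (e + 1) q
  rw [← h'.finrank_FF_eq] at h2
  omega

end

end Vale.Agent.Lib.P200
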