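import Vale.Agent.Lib.P200.BDefs

/-!
Graded Betti numbers of `S/I` for `S = K[x₀,x₁,x₂]`: the dimensions of the graded pieces of the
homology of the Koszul complex of `x₀, x₁, x₂` on `S/I`, which computes `Tor^S_p(S/I, K)`.
-/

namespace Vale.Agent.Lib.P200
open MvPolynomial Module

variable {K : Type*} [Field K]

/-- The class map `S → S/I`, as a `K`-linear map. -/
noncomputable def clsT (I : Ideal (MvPolynomial (Fin 3) K)) :
    MvPolynomial (Fin 3) K →ₗ[K] (MvPolynomial (Fin 3) K ⧸ I) :=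
  (Ideal.Quotient.mkₐ K I).toLinearMap

/-- The class of the variable `xᵢ` in `S/I`. -/
noncomputable def varT (I : Ideal (MvPolynomial (Fin 3) K)) (i : Fin 3) :
    MvPolynomial (Fin 3) K ⧸ I :=
  Ideal.Quotient.mk I (X i)

/-- The piece `(S/I)_e`: the image of the forms of degree `e`. -/
noncomputable def grT (I : Ideal (MvPolynomial (Fin 3) K)) (e : ℕ) :
    Submodule K (MvPolynomial (Fin 3) K ⧸ I) :=
  (homogeneousSubmodule (Fin 3) K e).map (clsT I)

/-- The coefficient space `(S/I)_{j-p}` of the `p`-th Koszul module in internal degree `j`,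
which is zero for `j < p`. -/
noncomputable def grShT (I : Ideal (MvPolynomial (Fin 3) K)) (p j : ℕ) :
    Submodule K (MvPolynomial (Fin 3) K ⧸ I) :=
  if p ≤ j then grT I (j - p) else ⊥

/-- The same coefficient space, in the three coordinates of the Koszul modules `K₁` and `K₂`. -/
noncomputable def grPiT (I : Ideal (MvPolynomial (Fin 3) K)) (p j : ℕ) :
    Submodule K (Fin 3 → MvPolynomial (Fin 3) K ⧸ I) :=
  Submodule.pi Set.univ fun _ => grShT I p j

/-- The Koszul differential `K₁ → K₀`, as a function: `K₁` has basis `e₀, e₁, e₂` and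
`d(eᵢ) = xᵢ`. -/
noncomputable def kz1Fun (I : Ideal (MvPolynomial (Fin 3) K))
    (r : Fin 3 → MvPolynomial (Fin 3) K ⧸ I) : MvPolynomial (Fin 3) K ⧸ I :=
  varT I 0 * r 0 + varT I 1 * r 1 + varT I 2 * r 2

theorem kz1Fun_add (I : Ideal (MvPolynomial (Fin 3) K))
    (r r' : Fin 3 → MvPolynomial (Fin 3) K ⧸ I) : kz1Fun I (r + r') = kz1Fun I r + kz1Fun I r' := by
  simp only [kz1Fun, Pi.add_apply]
  ring

theorem kz1Fun_smul (I : Ideal (MvPolynomial (Fin 3) K)) (c : K)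
    (r : Fin 3 → MvPolynomial (Fin 3) K ⧸ I) : kz1Fun I (c • r) = c • kz1Fun I r := by
  simp only [kz1Fun, Pi.smul_apply, smul_add, mul_smul_comm]

/-- The Koszul differential `K₁ → K₀`. -/
noncomputable def kz1T (I : Ideal (MvPolynomial (Fin 3) K)) :
    (Fin 3 → MvPolynomial (Fin 3) K ⧸ I) →ₗ[K] (MvPolynomial (Fin 3) K ⧸ I) where
  toFun := kz1Fun I
  map_add' := kz1Fun_add I
  map_smul' := kz1Fun_smul I

/-- The Koszul differential `K₂ → K₁`, as a function: `K₂` has basis `e₁∧e₂, e₂∧e₀, e₀∧e₁` and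
`d(e₁∧e₂) = x₁e₂ - x₂e₁`, `d(e₂∧e₀) = x₂e₀ - x₀e₂`, `d(e₀∧e₁) = x₀e₁ - x₁e₀`. -/
noncomputable def kz2Fun (I : Ideal (MvPolynomial (Fin 3) K))
    (s : Fin 3 → MvPolynomial (Fin 3) K ⧸ I) : Fin 3 → MvPolynomial (Fin 3) K ⧸ I :=
  ![varT I 2 * s 1 - varT I 1 * s 2, varT I 0 * s 2 - varT I 2 * s 0,
    varT I 1 * s 0 - varT I 0 * s 1]

theorem kz2Fun_add (I : Ideal (MvPolynomial (Fin 3) K))
    (s s' : Fin 3 → MvPolynomial (Fin 3) K ⧸ I) : kz2Fun I (s + s') = kz2Fun I s + kz2Fun I s' := by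
  funext i
  fin_cases i <;> simp [kz2Fun] <;> ring

theorem kz2Fun_smul (I : Ideal (MvPolynomial (Fin 3) K)) (c : K)
    (s : Fin 3 → MvPolynomial (Fin 3) K ⧸ I) : kz2Fun I (c • s) = c • kz2Fun I s := by
  funext i
  fin_cases i <;> simp [kz2Fun, smul_sub, mul_smul_comm]

/-- The Koszul differential `K₂ → K₁`. -/
noncomputable def kz2T (I : Ideal (MvPolynomial (Fin 3) K)) :
    (Fin 3 → MvPolynomial (Fin 3) K ⧸ I) →ₗ[K] (Fin 3 → MvPolynomial (Fin 3) K ⧸ I) where
  toFun := kz2Fun I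
  map_add' := kz2Fun_add I
  map_smul' := kz2Fun_smul I

/-- The Koszul differential `K₃ → K₂`, as a function:
`d(e₀∧e₁∧e₂) = x₀ e₁∧e₂ + x₁ e₂∧e₀ + x₂ e₀∧e₁`. -/
noncomputable def kz3Fun (I : Ideal (MvPolynomial (Fin 3) K))
    (t : MvPolynomial (Fin 3) K ⧸ I) : Fin 3 → MvPolynomial (Fin 3) K ⧸ I :=
  fun i => varT I i * t

theorem kz3Fun_add (I : Ideal (MvPolynomial (Fin 3) K))
    (t t' : MvPolynomial (Fin 3) K ⧸ I) : kz3Fun I (t + t') = kz3Fun I t + kz3Fun I t' := by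
  funext i
  simp [kz3Fun, mul_add]

theorem kz3Fun_smul (I : Ideal (MvPolynomial (Fin 3) K)) (c : K)
    (t : MvPolynomial (Fin 3) K ⧸ I) : kz3Fun I (c • t) = c • kz3Fun I t := by
  funext i
  simp [kz3Fun, mul_smul_comm]

/-- The Koszul differential `K₃ → K₂`. -/
noncomputable def kz3T (I : Ideal (MvPolynomial (Fin 3) K)) :
    (MvPolynomial (Fin 3) K ⧸ I) →ₗ[K] (Fin 3 → MvPolynomial (Fin 3) K ⧸ I) where
  toFun := kz3Fun I
  map_add' := kz3Fun_add I
  map_smul' := kz3Fun_smul I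

/-- The dimension of the quotient of a space `Z` by a subspace `B`. -/
noncomputable def hdimT {E : Type*} [AddCommGroup E] [Module K E] (Z B : Submodule K E) : ℕ :=
  finrank K (Z ⧸ B.comap Z.subtype)

/-- The graded Betti number `β_{p,j}(S/I) = dim Tor^S_p(S/I, K)_j`, computed as the dimension of
the internal degree `j` part of the `p`-th homology of the Koszul complex of `x₀, x₁, x₂` on `S/I`
(a module `K_p` in internal degree `j` has its coefficients in `(S/I)_{j-p}`). -/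
noncomputable def bettiT (I : Ideal (MvPolynomial (Fin 3) K)) : ℕ → ℕ → ℕ
  | 0, j => hdimT (grShT I 0 j) ((grPiT I 1 j).map (kz1T I))
  | 1, j => hdimT (LinearMap.ker (kz1T I) ⊓ grPiT I 1 j) ((grPiT I 2 j).map (kz2T I))
  | 2, j => hdimT (LinearMap.ker (kz2T I) ⊓ grPiT I 2 j) ((grShT I 3 j).map (kz3T I))
  | 3, j => hdimT (LinearMap.ker (kz3T I) ⊓ grShT I 3 j) ⊥
  | _, _ => 0

end Vale.Agent.Lib.P200
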