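import Vale.Agent.Lib.P200.LDefs
import Vale.Agent.Lib.P200.CFinal

/-!
The dimensions of the Koszul homology of `S/I`, in terms of the graded pieces of `I`.
-/

namespace Vale.Agent.Lib.P200
open MvPolynomial Module

variable {K : Type*} [Field K]

section la

variable {E E' : Type*} [AddCommGroup E] [Module K E] [AddCommGroup E'] [Module K E']

/-- Rank and nullity of a map restricted to a subspace. -/
theorem finrank_map_add_inf (φ : E →ₗ[K] E') (P : Submodule K E) [Module.Finite K P] :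
    finrank K (P.map φ) + finrank K (LinearMap.ker φ ⊓ P : Submodule K E) = finrank K P := by
  have e := LinearMap.finrank_range_add_finrank_ker (φ.domRestrict P)
  rw [LinearMap.range_domRestrict, LinearMap.ker_domRestrict] at e
  have e1 : (LinearMap.ker φ).comap P.subtype = (LinearMap.ker φ ⊓ P).comap P.subtype := by
    ext x
    simp
  rw [e1] at e
  have e2 := (Submodule.comapSubtypeEquivOfLe (inf_le_right : LinearMap.ker φ ⊓ P ≤ P)).finrank_eq
  rw [e2] at e
  exact e

theorem hdimT_add {Z B : Submodule K E} (h : B ≤ Z) [Module.Finite K Z] :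
    hdimT Z B + finrank K B = finrank K Z := by
  unfold hdimT
  have e1 := Submodule.finrank_quotient_add_finrank (B.comap Z.subtype)
  have e2 := (Submodule.comapSubtypeEquivOfLe h).finrank_eq
  rw [e2] at e1
  exact e1

/-- Three copies of a subspace. -/
def piS (P : Submodule K E) : Submodule K (Fin 3 → E) := Submodule.pi Set.univ fun _ => P

theorem mem_piS {P : Submodule K E} {x : Fin 3 → E} : x ∈ piS P ↔ ∀ i, x i ∈ P := by
  simp [piS, Submodule.mem_pi]

/-- Three copies of a subspace, as functions. -/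
noncomputable def piSEquiv (P : Submodule K E) : piS P ≃ₗ[K] (Fin 3 → P) where
  toFun x i := ⟨x.1 i, mem_piS.1 x.2 i⟩
  map_add' _ _ := rfl
  map_smul' _ _ := rfl
  invFun y := ⟨fun i => (y i).1, mem_piS.2 fun i => (y i).2⟩
  left_inv _ := rfl
  right_inv _ := rfl

instance finite_piS (P : Submodule K E) [Module.Finite K P] : Module.Finite K (piS P) :=
  Module.Finite.equiv (piSEquiv P).symm

theorem finrank_piS (P : Submodule K E) [Module.Finite K P] :
    finrank K (piS P) = 3 * finrank K P := by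
  rw [(piSEquiv P).finrank_eq, Module.finrank_pi_fintype]
  simp

theorem piS_bot : piS (⊥ : Submodule K E) = ⊥ := by
  ext x
  simp only [mem_piS, Submodule.mem_bot]
  exact ⟨fun h => funext h, fun h i => by rw [h]; rfl⟩

end la

section basic

variable (I : Ideal (Poly K))

theorem clsT_apply (x : Poly K) : clsT I x = Ideal.Quotient.mk I x := rfl

theorem clsT_eq_zero {x : Poly K} : clsT I x = 0 ↔ x ∈ I := Ideal.Quotient.eq_zero_iff_mem

theorem ker_clsT_inf (d : ℕ) : LinearMap.ker (clsT I) ⊓ HS K d = pieceT I d := by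
  ext x
  simp only [Submodule.mem_inf, LinearMap.mem_ker, clsT_eq_zero]
  exact mem_pieceT.symm

theorem finrank_grT (d : ℕ) : finrank K (grT I d) + finrank K (pieceT I d) = T d := by
  have := finrank_map_add_inf (clsT I) (HS K d)
  rw [ker_clsT_inf, finrank_HS] at this
  exact this

instance finite_grT (d : ℕ) : Module.Finite K (grT I d) := by
  unfold grT
  infer_instance

theorem mem_grT {d : ℕ} {y : Poly K ⧸ I} : y ∈ grT I d ↔ ∃ x ∈ HS K d, clsT I x = y :=
  Iff.rfl

instance finite_grShT (p j : ℕ) : Module.Finite K (grShT I p j) := by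
  by_cases h : p ≤ j
  · rw [show grShT I p j = grT I (j - p) from if_pos h]
    infer_instance
  · rw [show grShT I p j = ⊥ from if_neg h]
    infer_instance

theorem grShT_of_le {p j : ℕ} (h : p ≤ j) : grShT I p j = grT I (j - p) := if_pos h

theorem grShT_of_lt {p j : ℕ} (h : j < p) : grShT I p j = ⊥ := if_neg (by omega)

theorem grPiT_eq (p j : ℕ) : grPiT I p j = piS (grShT I p j) := rfl

instance finite_grPiT (p j : ℕ) : Module.Finite K (grPiT I p j) := by
  rw [grPiT_eq]
  infer_instance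

theorem finrank_grPiT (p j : ℕ) : finrank K (grPiT I p j) = 3 * finrank K (grShT I p j) := by
  rw [grPiT_eq, finrank_piS]

theorem varT_mul_clsT (i : Fin 3) (x : Poly K) : varT I i * clsT I x = clsT I (X i * x) := rfl

theorem varT_mul_mem {e : ℕ} {y : Poly K ⧸ I} (hy : y ∈ grT I e) (i : Fin 3) :
    varT I i * y ∈ grT I (e + 1) := by
  obtain ⟨x, hx, rfl⟩ := hy
  refine ⟨X i * x, ?_, rfl⟩
  have := (isHomogeneous_X K i).mul hx
  rwa [add_comm] at this

theorem varT_mul_mem_sh {p j : ℕ} {y : Poly K ⧸ I} (hy : y ∈ grShT I (p + 1) j) (i : Fin 3) :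
    varT I i * y ∈ grShT I p j := by
  by_cases h : p + 1 ≤ j
  · rw [grShT_of_le I h] at hy
    rw [grShT_of_le I (by omega), show j - p = j - (p + 1) + 1 by omega]
    exact varT_mul_mem I hy i
  · rw [grShT_of_lt I (by omega)] at hy
    rw [(Submodule.mem_bot K).1 hy, mul_zero]
    exact Submodule.zero_mem _

end basic

section lift

variable (I : Ideal (Poly K))

/-- The Koszul differential `K₁ → K₀` on `S`. -/
noncomputable def kzS1 : (Fin 3 → Poly K) →ₗ[K] Poly K where
  toFun r := X 0 * r 0 + X 1 * r 1 + X 2 * r 2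
  map_add' r r' := by
    simp only [Pi.add_apply]
    ring
  map_smul' c r := by
    simp only [Pi.smul_apply, RingHom.id_apply, smul_add, mul_smul_comm]

/-- The Koszul differential `K₂ → K₁` on `S`. -/
noncomputable def kzS2 : (Fin 3 → Poly K) →ₗ[K] (Fin 3 → Poly K) where
  toFun s := ![X 2 * s 1 - X 1 * s 2, X 0 * s 2 - X 2 * s 0, X 1 * s 0 - X 0 * s 1]
  map_add' s s' := by
    funext i
    fin_cases i <;> simp <;> ring
  map_smul' c s := by
    funext i
    fin_cases i <;> simp [smul_sub, mul_smul_comm]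

theorem kzS1_apply (r : Fin 3 → Poly K) : kzS1 r = X 0 * r 0 + X 1 * r 1 + X 2 * r 2 := rfl

theorem kzS2_apply (s : Fin 3 → Poly K) :
    kzS2 s = ![X 2 * s 1 - X 1 * s 2, X 0 * s 2 - X 2 * s 0, X 1 * s 0 - X 0 * s 1] := rfl

theorem kzS1_kzS2 (s : Fin 3 → Poly K) : kzS1 (kzS2 s) = 0 := by
  rw [kzS1_apply, kzS2_apply]
  simp
  ring

/-- The class map in three coordinates. -/
noncomputable def cls3 : (Fin 3 → Poly K) →ₗ[K] (Fin 3 → Poly K ⧸ I) :=
  (clsT I).compLeft (Fin 3)

theorem cls3_apply (r : Fin 3 → Poly K) (i : Fin 3) : cls3 I r i = clsT I (r i) := rfl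

theorem kz1T_cls3 (r : Fin 3 → Poly K) : kz1T I (cls3 I r) = clsT I (kzS1 r) := by
  show varT I 0 * clsT I (r 0) + varT I 1 * clsT I (r 1) + varT I 2 * clsT I (r 2) = _
  rw [varT_mul_clsT, varT_mul_clsT, varT_mul_clsT, kzS1_apply, map_add, map_add]

theorem kz2T_cls3 (s : Fin 3 → Poly K) : kz2T I (cls3 I s) = cls3 I (kzS2 s) := by
  funext i
  show ![varT I 2 * clsT I (s 1) - varT I 1 * clsT I (s 2),
    varT I 0 * clsT I (s 2) - varT I 2 * clsT I (s 0),
    varT I 1 * clsT I (s 0) - varT I 0 * clsT I (s 1)] i = _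
  rw [varT_mul_clsT, varT_mul_clsT, varT_mul_clsT, varT_mul_clsT, varT_mul_clsT, varT_mul_clsT,
    cls3_apply, kzS2_apply]
  fin_cases i <;> simp [map_sub]

theorem map_cls3_piS (e : ℕ) : (piS (HS K e)).map (cls3 I) = piS (grT I e) := by
  ext y
  simp only [Submodule.mem_map, mem_piS]
  constructor
  · rintro ⟨r, hr, rfl⟩ i
    exact ⟨r i, hr i, rfl⟩
  · intro hy
    choose r hr hry using fun i => (mem_grT I).1 (hy i)
    exact ⟨r, hr, funext hry⟩

theorem grPiT_of_le {p j : ℕ} (h : p ≤ j) : grPiT I p j = (piS (HS K (j - p))).map (cls3 I) := by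
  rw [map_cls3_piS, grPiT_eq, grShT_of_le I h]

theorem grPiT_of_lt {p j : ℕ} (h : j < p) : grPiT I p j = ⊥ := by
  rw [grPiT_eq, grShT_of_lt I h, piS_bot]

theorem ker_cls3_inf (e : ℕ) :
    LinearMap.ker (cls3 I) ⊓ piS (HS K e) = piS (pieceT I e) := by
  ext r
  simp only [Submodule.mem_inf, LinearMap.mem_ker, mem_piS, mem_pieceT]
  constructor
  · rintro ⟨h1, h2⟩ i
    exact ⟨(clsT_eq_zero I).1 (congrFun h1 i), h2 i⟩
  · intro h
    exact ⟨funext fun i => (clsT_eq_zero I).2 (h i).1, fun i => (h i).2⟩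

/-- The cycles on `S`. -/
noncomputable def QS (e : ℕ) : Submodule K (Fin 3 → Poly K) := LinearMap.ker kzS1 ⊓ piS (HS K e)

/-- The vectors mapping into `I`. -/
noncomputable def WS (e : ℕ) : Submodule K (Fin 3 → Poly K) :=
  (I.restrictScalars K).comap kzS1 ⊓ piS (HS K e)

instance finite_piS_HS (e : ℕ) : Module.Finite K (piS (HS K e)) := inferInstance

instance finite_QS (e : ℕ) : Module.Finite K (QS (K := K) e) :=
  Submodule.finiteDimensional_of_le (inf_le_right : QS e ≤ piS (HS K e))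

instance finite_WS (e : ℕ) : Module.Finite K (WS I e) :=
  Submodule.finiteDimensional_of_le (inf_le_right : WS I e ≤ piS (HS K e))

instance finite_piS_piece (e : ℕ) : Module.Finite K (piS (pieceT I e)) :=
  Submodule.finiteDimensional_of_le (show piS (pieceT I e) ≤ piS (HS K e) from
    fun _ hr => mem_piS.2 fun i => (mem_pieceT.1 (mem_piS.1 hr i)).2)

theorem kzS1_mem_HS {e : ℕ} {r : Fin 3 → Poly K} (hr : r ∈ piS (HS K e)) :
    kzS1 r ∈ HS K (e + 1) := by
  have h := mem_piS.1 hr
  have hi : ∀ i, (X i * r i : Poly K).IsHomogeneous (e + 1) := fun i => by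
    have := (isHomogeneous_X K i).mul (h i)
    rwa [add_comm] at this
  exact ((hi 0).add (hi 1)).add (hi 2)

/-- Exactness of the Koszul complex of `S` at `K₁`. -/
theorem koszul_exact {e : ℕ} {r : Fin 3 → Poly K} (hr : r ∈ piS (HS K e)) (h0 : kzS1 r = 0) :
    (e = 0 ∧ r = 0) ∨ ∃ e', e = e' + 1 ∧ ∃ s ∈ piS (HS K e'), kzS2 s = r := by
  obtain ⟨q0, q1, q2, e0, e1, e2⟩ := (regTriple_X (K := K)).k1 (a0 := r 0) (a1 := r 1) (a2 := r 2)
    (by rw [kzS1_apply] at h0; linear_combination h0)
  have hh := mem_piS.1 hr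
  have hself : ∀ i, homogeneousComponent e (r i) = r i := fun i =>
    homogeneousComponent_eq_self (hh i)
  cases e with
  | zero =>
    left
    refine ⟨rfl, ?_⟩
    have hlow : ∀ (p : Poly K) (i : Fin 3), homogeneousComponent 0 (p * X i) = 0 := fun p i =>
      comp_mul_low (isHomogeneous_X K i) p (by omega)
    funext i
    rw [← hself i]
    fin_cases i
    · show homogeneousComponent 0 (r 0) = 0
      rw [e0, map_sub, hlow, hlow, sub_zero]
    · show homogeneousComponent 0 (r 1) = 0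
      rw [e1, map_sub, hlow, hlow, sub_zero]
    · show homogeneousComponent 0 (r 2) = 0
      rw [e2, map_sub, hlow, hlow, sub_zero]
  | succ e' =>
    right
    refine ⟨e', rfl, ![homogeneousComponent e' q0, homogeneousComponent e' q1,
      homogeneousComponent e' q2], ?_, ?_⟩
    · refine mem_piS.2 fun i => ?_
      fin_cases i <;> exact homogeneousComponent_isHomogeneous _ _
    · have hc : ∀ (p : Poly K) (i : Fin 3), homogeneousComponent (e' + 1) (p * X i) =
          homogeneousComponent e' p * X i := fun p i => comp_mul_add (isHomogeneous_X K i) p e'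
      funext i
      rw [← hself i, kzS2_apply]
      fin_cases i
      · show X 2 * homogeneousComponent e' q1 - X 1 * homogeneousComponent e' q2 =
          homogeneousComponent (e' + 1) (r 0)
        rw [e0, map_sub, hc, hc]
        ring
      · show X 0 * homogeneousComponent e' q2 - X 2 * homogeneousComponent e' q0 =
          homogeneousComponent (e' + 1) (r 1)
        rw [e1, map_sub, hc, hc]
        ring
      · show X 1 * homogeneousComponent e' q0 - X 0 * homogeneousComponent e' q1 =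
          homogeneousComponent (e' + 1) (r 2)
        rw [e2, map_sub, hc, hc]
        ring

theorem kzS2_mem {e : ℕ} {s : Fin 3 → Poly K} (hs : s ∈ piS (HS K e)) :
    kzS2 s ∈ QS (K := K) (e + 1) := by
  refine ⟨?_, ?_⟩
  · exact kzS1_kzS2 s
  · have h := mem_piS.1 hs
    have hi : ∀ i k, (X i * s k : Poly K).IsHomogeneous (e + 1) := fun i k => by
      have := (isHomogeneous_X K i).mul (h k)
      rwa [add_comm] at this
    refine mem_piS.2 fun i => ?_
    rw [kzS2_apply]
    fin_cases i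
    · exact (hi 2 1).sub (hi 1 2)
    · exact (hi 0 2).sub (hi 2 0)
    · exact (hi 1 0).sub (hi 0 1)

/-- The cycles of the Koszul complex of `S/I` in `K₁`. -/
theorem ker_kz1T_inf (e : ℕ) :
    LinearMap.ker (kz1T I) ⊓ grPiT I 1 (e + 1) = (WS I e).map (cls3 I) := by
  rw [grPiT_of_le I (by omega), show e + 1 - 1 = e by omega]
  ext y
  simp only [Submodule.mem_inf, LinearMap.mem_ker, Submodule.mem_map]
  constructor
  · rintro ⟨h1, r, hr, rfl⟩
    refine ⟨r, ⟨?_, hr⟩, rfl⟩
    rw [kz1T_cls3] at h1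
    exact (clsT_eq_zero I).1 h1
  · rintro ⟨r, ⟨h1, h2⟩, rfl⟩
    refine ⟨?_, r, h2, rfl⟩
    rw [kz1T_cls3]
    exact (clsT_eq_zero I).2 h1

/-- The boundaries of the Koszul complex of `S/I` in `K₁`. -/
theorem map_kz2T (e : ℕ) : (grPiT I 2 (e + 1)).map (kz2T I) = (QS (K := K) e).map (cls3 I) := by
  ext y
  simp only [Submodule.mem_map]
  constructor
  · rintro ⟨s, hs, rfl⟩
    cases e with
    | zero =>
      rw [grPiT_of_lt I (by omega), Submodule.mem_bot] at hs
      subst hs
      exact ⟨0, Submodule.zero_mem _, by simp⟩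
    | succ e' =>
      rw [grPiT_of_le I (by omega), show e' + 1 + 1 - 2 = e' by omega] at hs
      obtain ⟨s', hs', rfl⟩ := Submodule.mem_map.1 hs
      exact ⟨kzS2 s', kzS2_mem hs', (kz2T_cls3 I s').symm⟩
  · rintro ⟨r, ⟨h1, h2⟩, rfl⟩
    rcases koszul_exact h2 h1 with ⟨_, rfl⟩ | ⟨e', rfl, s, hs, rfl⟩
    · exact ⟨0, Submodule.zero_mem _, by simp⟩
    · refine ⟨cls3 I s, ?_, (kz2T_cls3 I s)⟩
      rw [grPiT_of_le I (by omega), show e' + 1 + 1 - 2 = e' by omega]
      exact Submodule.mem_map_of_mem hs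

theorem QS_le_WS (e : ℕ) : QS (K := K) e ≤ WS I e := by
  rintro r ⟨h1, h2⟩
  refine ⟨?_, h2⟩
  show kzS1 r ∈ I
  rw [(LinearMap.mem_ker.1 h1)]
  exact I.zero_mem

theorem ker_cls3_inf_WS (e : ℕ) : LinearMap.ker (cls3 I) ⊓ WS I e = piS (pieceT I e) := by
  apply le_antisymm
  · rintro r ⟨h1, -, h2⟩
    rw [← ker_cls3_inf]
    exact ⟨h1, h2⟩
  · intro r hr
    have h1 := mem_piS.1 hr
    have h2 : r ∈ LinearMap.ker (cls3 I) ⊓ piS (HS K e) := by
      rw [ker_cls3_inf]
      exact hr
    refine ⟨h2.1, ?_, h2.2⟩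
    show kzS1 r ∈ I
    rw [kzS1_apply]
    exact Ideal.add_mem _ (Ideal.add_mem _ (I.mul_mem_left _ (mem_pieceT.1 (h1 0)).1)
      (I.mul_mem_left _ (mem_pieceT.1 (h1 1)).1)) (I.mul_mem_left _ (mem_pieceT.1 (h1 2)).1)

theorem map_kzS1_WS (e : ℕ) : (WS I e).map kzS1 = pieceT I (e + 1) := by
  ext y
  simp only [Submodule.mem_map]
  constructor
  · rintro ⟨r, ⟨h1, h2⟩, rfl⟩
    exact mem_pieceT.2 ⟨h1, kzS1_mem_HS h2⟩
  · intro hy
    obtain ⟨h1, h2⟩ := mem_pieceT.1 hy
    have h3 : y ∈ HS K 1 * HS K e := by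
      rw [HS_mul, add_comm]
      exact h2
    obtain ⟨a, ha, b, hb, c, hc, rfl⟩ := mem_HS1_mul.1 h3
    have hr : ![a, b, c] ∈ piS (HS K e) := by
      refine mem_piS.2 fun i => ?_
      fin_cases i
      · exact ha
      · exact hb
      · exact hc
    refine ⟨![a, b, c], ⟨?_, hr⟩, ?_⟩
    · show kzS1 ![a, b, c] ∈ I
      rw [kzS1_apply]
      exact h1
    · rw [kzS1_apply]
      rfl

theorem ker_kzS1_inf_WS (e : ℕ) : LinearMap.ker kzS1 ⊓ WS I e = QS (K := K) e := by
  apply le_antisymm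
  · rintro r ⟨h1, -, h2⟩
    exact ⟨h1, h2⟩
  · intro r hr
    exact ⟨hr.1, QS_le_WS I e hr⟩

theorem map_kzS1_piece (e : ℕ) : (piS (pieceT I e)).map kzS1 = HS K 1 * pieceT I e := by
  ext y
  simp only [Submodule.mem_map]
  constructor
  · rintro ⟨r, hr, rfl⟩
    have h := mem_piS.1 hr
    rw [kzS1_apply]
    exact mem_HS1_mul.2 ⟨_, h 0, _, h 1, _, h 2, rfl⟩
  · intro hy
    obtain ⟨a, ha, b, hb, c, hc, rfl⟩ := mem_HS1_mul.1 hy
    refine ⟨![a, b, c], ?_, ?_⟩
    · refine mem_piS.2 fun i => ?_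
      fin_cases i
      · exact ha
      · exact hb
      · exact hc
    · rw [kzS1_apply]
      rfl

theorem ker_inf_eq (e : ℕ) :
    LinearMap.ker kzS1 ⊓ piS (pieceT I e) = LinearMap.ker (cls3 I) ⊓ QS (K := K) e := by
  rw [← ker_cls3_inf]
  ext r
  simp only [Submodule.mem_inf, QS]
  tauto

/-- The first Betti numbers count the minimal generators. -/
theorem betti_one_succ (e : ℕ) :
    bettiT I 1 (e + 1) + finrank K (HS K 1 * pieceT I e : Submodule K (Poly K)) =
      finrank K (pieceT I (e + 1)) := by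
  have hZ := ker_kz1T_inf I e
  have hB := map_kz2T I e
  have hle : (grPiT I 2 (e + 1)).map (kz2T I) ≤ LinearMap.ker (kz1T I) ⊓ grPiT I 1 (e + 1) := by
    rw [hZ, hB]
    exact Submodule.map_mono (QS_le_WS I e)
  have hfin : Module.Finite K (LinearMap.ker (kz1T I) ⊓ grPiT I 1 (e + 1) : Submodule K _) :=
    Submodule.finiteDimensional_of_le (inf_le_right : _ ≤ grPiT I 1 (e + 1))
  have h0 : bettiT I 1 (e + 1) + finrank K ((QS (K := K) e).map (cls3 I)) =
      finrank K ((WS I e).map (cls3 I)) := by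
    rw [← hZ, ← hB]
    exact hdimT_add hle
  have e1 : finrank K ((WS I e).map (cls3 I)) + finrank K (piS (pieceT I e)) =
      finrank K (WS I e) := by
    have := finrank_map_add_inf (cls3 I) (WS I e)
    rw [ker_cls3_inf_WS] at this
    exact this
  have e2 : finrank K ((QS (K := K) e).map (cls3 I)) +
      finrank K (LinearMap.ker (cls3 I) ⊓ QS (K := K) e : Submodule K _) =
      finrank K (QS (K := K) e) := finrank_map_add_inf (cls3 I) (QS (K := K) e)
  have e3 : finrank K (pieceT I (e + 1)) + finrank K (QS (K := K) e) = finrank K (WS I e) := by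
    have := finrank_map_add_inf (kzS1 (K := K)) (WS I e)
    rw [map_kzS1_WS, ker_kzS1_inf_WS] at this
    exact this
  have e4 : finrank K (HS K 1 * pieceT I e : Submodule K (Poly K)) +
      finrank K (LinearMap.ker (cls3 I) ⊓ QS (K := K) e : Submodule K _) =
      finrank K (piS (pieceT I e)) := by
    have := finrank_map_add_inf (kzS1 (K := K)) (piS (pieceT I e))
    rw [map_kzS1_piece, ker_inf_eq] at this
    exact this
  omega

theorem betti_one_zero : bettiT I 1 0 = 0 := by
  have hle : (grPiT I 2 0).map (kz2T I) ≤ LinearMap.ker (kz1T I) ⊓ grPiT I 1 0 := by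
    rw [grPiT_of_lt I (show 0 < 2 by omega), Submodule.map_bot]
    exact bot_le
  have hfin : Module.Finite K (LinearMap.ker (kz1T I) ⊓ grPiT I 1 0 : Submodule K _) :=
    Submodule.finiteDimensional_of_le (inf_le_right : _ ≤ grPiT I 1 0)
  have h0 : bettiT I 1 0 + finrank K ((grPiT I 2 0).map (kz2T I)) =
      finrank K (LinearMap.ker (kz1T I) ⊓ grPiT I 1 0 : Submodule K _) :=
    hdimT_add hle
  rw [grPiT_of_lt I (show 0 < 1 by omega), inf_bot_eq, finrank_bot] at h0
  omega

/-- The forms that are socle elements modulo `I`. -/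
def ScT (I : Ideal (Poly K)) (t : ℕ) : Submodule K (Poly K) where
  carrier := {u | u ∈ HS K t ∧ ∀ i, X i * u ∈ I}
  add_mem' := by
    rintro u v ⟨h1, h2⟩ ⟨h3, h4⟩
    refine ⟨Submodule.add_mem _ h1 h3, fun i => ?_⟩
    rw [mul_add]
    exact I.add_mem (h2 i) (h4 i)
  zero_mem' := ⟨Submodule.zero_mem _, fun i => by simp⟩
  smul_mem' := by
    rintro c u ⟨h1, h2⟩
    refine ⟨Submodule.smul_mem _ _ h1, fun i => ?_⟩
    rw [mul_smul_comm, MvPolynomial.smul_eq_C_mul]
    exact I.mul_mem_left _ (h2 i)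

theorem mem_ScT {t : ℕ} {u : Poly K} : u ∈ ScT I t ↔ u ∈ HS K t ∧ ∀ i, X i * u ∈ I := Iff.rfl

theorem ScT_le_HS (t : ℕ) : ScT I t ≤ HS K t := fun _ h => h.1

instance finite_ScT (t : ℕ) : Module.Finite K (ScT I t) :=
  Submodule.finiteDimensional_of_le (ScT_le_HS I t)

theorem kz3T_apply (t : Poly K ⧸ I) (i : Fin 3) : kz3T I t i = varT I i * t := rfl

/-- The last Betti numbers count the socle. -/
theorem betti_three_add (t : ℕ) :
    bettiT I 3 (t + 3) + finrank K (pieceT I t) = finrank K (ScT I t) := by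
  have hZ : LinearMap.ker (kz3T I) ⊓ grShT I 3 (t + 3) = (ScT I t).map (clsT I) := by
    rw [grShT_of_le I (by omega), show t + 3 - 3 = t by omega]
    ext y
    simp only [Submodule.mem_inf, LinearMap.mem_ker, Submodule.mem_map]
    constructor
    · rintro ⟨h1, x, hx, rfl⟩
      refine ⟨x, ⟨hx, fun i => ?_⟩, rfl⟩
      have := congrFun h1 i
      rw [kz3T_apply, varT_mul_clsT] at this
      exact (clsT_eq_zero I).1 this
    · rintro ⟨x, ⟨h1, h2⟩, rfl⟩
      refine ⟨funext fun i => ?_, x, h1, rfl⟩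
      rw [kz3T_apply, varT_mul_clsT]
      exact (clsT_eq_zero I).2 (h2 i)
  have hker : LinearMap.ker (clsT I) ⊓ ScT I t = pieceT I t := by
    ext x
    simp only [Submodule.mem_inf, LinearMap.mem_ker, clsT_eq_zero, mem_ScT, mem_pieceT]
    constructor
    · rintro ⟨h1, h2, _⟩
      exact ⟨h1, h2⟩
    · rintro ⟨h1, h2⟩
      exact ⟨h1, h2, fun i => I.mul_mem_left _ h1⟩
  have e1 : finrank K ((ScT I t).map (clsT I)) + finrank K (pieceT I t) = finrank K (ScT I t) := by
    have := finrank_map_add_inf (clsT I) (ScT I t)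
    rw [hker] at this
    exact this
  have hfin : Module.Finite K (LinearMap.ker (kz3T I) ⊓ grShT I 3 (t + 3) : Submodule K _) :=
    Submodule.finiteDimensional_of_le (inf_le_right : _ ≤ grShT I 3 (t + 3))
  have h0 : bettiT I 3 (t + 3) + finrank K (⊥ : Submodule K (Poly K ⧸ I)) =
      finrank K (LinearMap.ker (kz3T I) ⊓ grShT I 3 (t + 3) : Submodule K _) :=
    hdimT_add bot_le
  rw [hZ, finrank_bot] at h0
  omega

theorem betti_three_low {j : ℕ} (hj : j < 3) : bettiT I 3 j = 0 := by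
  have hfin : Module.Finite K (LinearMap.ker (kz3T I) ⊓ grShT I 3 j : Submodule K _) :=
    Submodule.finiteDimensional_of_le (inf_le_right : _ ≤ grShT I 3 j)
  have h0 : bettiT I 3 j + finrank K (⊥ : Submodule K (Poly K ⧸ I)) =
      finrank K (LinearMap.ker (kz3T I) ⊓ grShT I 3 j : Submodule K _) :=
    hdimT_add bot_le
  rw [grShT_of_lt I hj, inf_bot_eq, finrank_bot] at h0
  omega

/-! ### The Euler characteristic -/

theorem kz1T_kz2T (s : Fin 3 → Poly K ⧸ I) : kz1T I (kz2T I s) = 0 := by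
  show varT I 0 * (varT I 2 * s 1 - varT I 1 * s 2) + varT I 1 * (varT I 0 * s 2 - varT I 2 * s 0) +
    varT I 2 * (varT I 1 * s 0 - varT I 0 * s 1) = 0
  ring

theorem kz2T_kz3T (t : Poly K ⧸ I) : kz2T I (kz3T I t) = 0 := by
  funext i
  show ![varT I 2 * (varT I 1 * t) - varT I 1 * (varT I 2 * t),
    varT I 0 * (varT I 2 * t) - varT I 2 * (varT I 0 * t),
    varT I 1 * (varT I 0 * t) - varT I 0 * (varT I 1 * t)] i = 0
  fin_cases i <;> simp <;> ring

theorem map_kz1T_le (j : ℕ) : (grPiT I 1 j).map (kz1T I) ≤ grShT I 0 j := by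
  rintro _ ⟨r, hr, rfl⟩
  have h := mem_piS.1 hr
  show varT I 0 * r 0 + varT I 1 * r 1 + varT I 2 * r 2 ∈ _
  exact Submodule.add_mem _ (Submodule.add_mem _ (varT_mul_mem_sh I (h 0) 0)
    (varT_mul_mem_sh I (h 1) 1)) (varT_mul_mem_sh I (h 2) 2)

theorem map_kz2T_le (j : ℕ) :
    (grPiT I 2 j).map (kz2T I) ≤ LinearMap.ker (kz1T I) ⊓ grPiT I 1 j := by
  rintro _ ⟨s, hs, rfl⟩
  have h := mem_piS.1 hs
  refine ⟨kz1T_kz2T I s, mem_piS.2 fun i => ?_⟩
  show ![varT I 2 * s 1 - varT I 1 * s 2, varT I 0 * s 2 - varT I 2 * s 0,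
    varT I 1 * s 0 - varT I 0 * s 1] i ∈ _
  fin_cases i
  · exact Submodule.sub_mem _ (varT_mul_mem_sh I (h 1) 2) (varT_mul_mem_sh I (h 2) 1)
  · exact Submodule.sub_mem _ (varT_mul_mem_sh I (h 2) 0) (varT_mul_mem_sh I (h 0) 2)
  · exact Submodule.sub_mem _ (varT_mul_mem_sh I (h 0) 1) (varT_mul_mem_sh I (h 1) 0)

theorem map_kz3T_le (j : ℕ) :
    (grShT I 3 j).map (kz3T I) ≤ LinearMap.ker (kz2T I) ⊓ grPiT I 2 j := by
  rintro _ ⟨t, ht, rfl⟩
  exact ⟨kz2T_kz3T I t, mem_piS.2 fun i => varT_mul_mem_sh I ht i⟩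

/-- The Euler characteristic of the Koszul complex in one internal degree. -/
theorem betti_euler (j : ℕ) :
    bettiT I 2 j + 3 * finrank K (grShT I 1 j) + bettiT I 0 j + finrank K (grShT I 3 j) =
      3 * finrank K (grShT I 2 j) + finrank K (grShT I 0 j) + bettiT I 1 j + bettiT I 3 j := by
  have f1 : Module.Finite K (LinearMap.ker (kz1T I) ⊓ grPiT I 1 j : Submodule K _) :=
    Submodule.finiteDimensional_of_le (inf_le_right : _ ≤ grPiT I 1 j)
  have f2 : Module.Finite K (LinearMap.ker (kz2T I) ⊓ grPiT I 2 j : Submodule K _) :=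
    Submodule.finiteDimensional_of_le (inf_le_right : _ ≤ grPiT I 2 j)
  have f3 : Module.Finite K (LinearMap.ker (kz3T I) ⊓ grShT I 3 j : Submodule K _) :=
    Submodule.finiteDimensional_of_le (inf_le_right : _ ≤ grShT I 3 j)
  have b0 : bettiT I 0 j + finrank K ((grPiT I 1 j).map (kz1T I)) = finrank K (grShT I 0 j) :=
    hdimT_add (map_kz1T_le I j)
  have b1 : bettiT I 1 j + finrank K ((grPiT I 2 j).map (kz2T I)) =
      finrank K (LinearMap.ker (kz1T I) ⊓ grPiT I 1 j : Submodule K _) :=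
    hdimT_add (map_kz2T_le I j)
  have b2 : bettiT I 2 j + finrank K ((grShT I 3 j).map (kz3T I)) =
      finrank K (LinearMap.ker (kz2T I) ⊓ grPiT I 2 j : Submodule K _) :=
    hdimT_add (map_kz3T_le I j)
  have b3 : bettiT I 3 j + finrank K (⊥ : Submodule K (Poly K ⧸ I)) =
      finrank K (LinearMap.ker (kz3T I) ⊓ grShT I 3 j : Submodule K _) :=
    hdimT_add bot_le
  rw [finrank_bot] at b3
  have r1 := finrank_map_add_inf (kz1T I) (grPiT I 1 j)
  have r2 := finrank_map_add_inf (kz2T I) (grPiT I 2 j)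
  have r3 := finrank_map_add_inf (kz3T I) (grShT I 3 j)
  rw [finrank_grPiT] at r1 r2
  omega

theorem betti_zero_succ (e : ℕ) : bettiT I 0 (e + 1) = 0 := by
  have he : (grPiT I 1 (e + 1)).map (kz1T I) = grShT I 0 (e + 1) := by
    apply le_antisymm (map_kz1T_le I _)
    rw [grShT_of_le I (by omega), show e + 1 - 0 = e + 1 by omega]
    rintro _ ⟨x, hx, rfl⟩
    have h3 : x ∈ HS K 1 * HS K e := by
      rw [HS_mul, add_comm]
      exact hx
    obtain ⟨a, ha, b, hb, c, hc, rfl⟩ := mem_HS1_mul.1 h3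
    refine ⟨cls3 I ![a, b, c], ?_, ?_⟩
    · rw [grPiT_of_le I (by omega), show e + 1 - 1 = e by omega]
      refine Submodule.mem_map_of_mem (mem_piS.2 fun i => ?_)
      fin_cases i
      · exact ha
      · exact hb
      · exact hc
    · rw [kz1T_cls3, kzS1_apply]
      rfl
  have b0 : bettiT I 0 (e + 1) + finrank K ((grPiT I 1 (e + 1)).map (kz1T I)) =
      finrank K (grShT I 0 (e + 1)) :=
    hdimT_add (map_kz1T_le I _)
  rw [he] at b0
  omega

theorem betti_zero_zero : bettiT I 0 0 = finrank K (grT I 0) := by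
  have b0 : bettiT I 0 0 + finrank K ((grPiT I 1 0).map (kz1T I)) = finrank K (grShT I 0 0) :=
    hdimT_add (map_kz1T_le I _)
  rw [grPiT_of_lt I (show 0 < 1 by omega), Submodule.map_bot, finrank_bot,
    grShT_of_le I (le_refl 0)] at b0
  simpa using b0

end lift

/-- The comparison of Betti numbers. -/
theorem betti_le_of {I J : Ideal (Poly K)} (hd : ∀ d, finrank K (pieceT J d) = finrank K (pieceT I d))
    (h1 : ∀ e, finrank K (HS K 1 * pieceT J e : Submodule K (Poly K)) ≤
      finrank K (HS K 1 * pieceT I e : Submodule K (Poly K)))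
    (h3 : ∀ t, finrank K (ScT I t) ≤ finrank K (ScT J t)) (p j : ℕ) :
    bettiT I p j ≤ bettiT J p j := by
  have hg : ∀ e, finrank K (grT J e) = finrank K (grT I e) := by
    intro e
    have e1 := finrank_grT I e
    have e2 := finrank_grT J e
    have := hd e
    omega
  have hs : ∀ p, finrank K (grShT J p j) = finrank K (grShT I p j) := by
    intro p
    by_cases h : p ≤ j
    · rw [grShT_of_le _ h, grShT_of_le _ h]
      exact hg _
    · rw [grShT_of_lt _ (by omega), grShT_of_lt _ (by omega), finrank_bot, finrank_bot]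
  have b1 : bettiT I 1 j ≤ bettiT J 1 j := by
    cases j with
    | zero => rw [betti_one_zero]; exact Nat.zero_le _
    | succ e =>
      have e1 := betti_one_succ I e
      have e2 := betti_one_succ J e
      have e3 := hd (e + 1)
      have e4 := h1 e
      omega
  have b3 : bettiT I 3 j ≤ bettiT J 3 j := by
    by_cases hj : j < 3
    · rw [betti_three_low I hj]
      exact Nat.zero_le _
    · obtain ⟨t, rfl⟩ : ∃ t, j = t + 3 := ⟨j - 3, by omega⟩
      have e1 := betti_three_add I t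
      have e2 := betti_three_add J t
      have e3 := hd t
      have e4 := h3 t
      omega
  have b0 : bettiT I 0 j = bettiT J 0 j := by
    cases j with
    | zero =>
      rw [betti_zero_zero, betti_zero_zero]
      exact (hg 0).symm
    | succ e => rw [betti_zero_succ, betti_zero_succ]
  have eI := betti_euler I j
  have eJ := betti_euler J j
  rw [hs 0, hs 1, hs 2, hs 3] at eJ
  match p with
  | 0 => exact b0.le
  | 1 => exact b1
  | 2 => omega
  | 3 => exact b3
  | (n + 4) => exact (Nat.zero_le _)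

end Vale.Agent.Lib.P200
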