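import Vale.Agent.Lib.P200.LCmp

/-!
Powers of regular sequences, and the lexicographic step in degrees below the degree of the third
form, for all degrees `2 ≤ a ≤ b`.
-/

namespace Vale.Agent.Lib.P200
open MvPolynomial Module

variable {K : Type*} [Field K]

section powers

variable {R : Type*} [CommRing R] [IsDomain R] {a b c : R}

theorem RegTriple.pow_third (h : RegTriple a b c) (k : ℕ) : RegTriple a b (c ^ k) := by
  induction k with
  | zero =>
    refine ⟨h.ne, h.h1, fun p α β e => ⟨α, β, ?_⟩⟩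
    simpa using e
  | succ k ih =>
    refine ⟨h.ne, h.h1, fun p α β e => ?_⟩
    obtain ⟨α', β', e'⟩ := h.h2 (p * c ^ k) α β (by rw [← e]; ring)
    exact ih.h2 p α' β' e'

theorem RegTriple.pow_second (h : RegTriple a b c) (j : ℕ) : RegTriple a (b ^ (j + 1)) c := by
  induction j with
  | zero => simpa using h
  | succ j ih =>
    refine ⟨h.ne, ?_, ?_⟩
    · intro p q e
      obtain ⟨r, hr⟩ := h.h1 (p * b ^ (j + 1)) q (by rw [← e]; ring)
      exact ih.h1 p r hr
    · intro p α β e
      obtain ⟨r, s, hrs⟩ := h.h2 p α (β * b ^ (j + 1)) (by rw [e]; ring)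
      obtain ⟨t, ht⟩ := h.h1 (s * c - β * b ^ (j + 1)) (α - r * c) (by
        rw [hrs] at e
        linear_combination e)
      obtain ⟨r', s', e'⟩ := ih.h2 s t β (by linear_combination ht)
      exact ⟨r + r' * b, s', by rw [hrs, e']; ring⟩

theorem RegTriple.pow_first (h : RegTriple a b c) (i : ℕ) : RegTriple (a ^ (i + 1)) b c := by
  induction i with
  | zero => simpa using h
  | succ i ih =>
    refine ⟨pow_ne_zero _ h.ne, ?_, ?_⟩
    · intro p q e
      obtain ⟨r, hr⟩ := h.h1 p (q * a ^ (i + 1)) (by rw [e]; ring)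
      have e2 : a * (r * b - q * a ^ (i + 1)) = 0 := by
        rw [hr] at e
        linear_combination e
      have e3 := (mul_eq_zero.1 e2).resolve_left h.ne
      obtain ⟨r', hr'⟩ := ih.h1 r q (by linear_combination e3)
      exact ⟨r', by rw [hr, hr']; ring⟩
    · intro p α β e
      obtain ⟨r, s, hrs⟩ := h.h2 p (α * a ^ (i + 1)) β (by rw [e]; ring)
      obtain ⟨t, ht⟩ := h.h1 (β - s * c) (r * c - α * a ^ (i + 1)) (by
        rw [hrs] at e
        linear_combination -e)
      have e2 : a * (r * c - α * a ^ (i + 1) - t * b) = 0 := by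
        rw [hrs] at e
        linear_combination e + b * ht
      have e3 := (mul_eq_zero.1 e2).resolve_left h.ne
      obtain ⟨r', s', e'⟩ := ih.h2 r α t (by linear_combination e3)
      exact ⟨r', s' * a + s, by rw [hrs, e']; ring⟩

theorem RegTriple.pows (h : RegTriple a b c) (i j k : ℕ) :
    RegTriple (a ^ (i + 1)) (b ^ (j + 1)) (c ^ k) :=
  ((h.pow_first i).pow_second j).pow_third k

end powers

/-- The growth bound in normalised coordinates below the degree of the third form. -/
theorem growth_inf_pair [Infinite K] {a b c : ℕ} (ha2 : 2 ≤ a) (hab : a ≤ b)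
    {s : Fin 3 → Poly K} (hs : FormSeq ![a, b, c] s) {d : ℕ} (hd : d + 1 < c)
    {X Y : Submodule K (Poly K)} (h1 : FF s d ≤ X) (h2 : X ≤ HS K d) (h3 : HS K 1 * X ≤ Y)
    (h4 : FF s (d + 1) ≤ Y) (h5 : Y ≤ HS K (d + 1)) {p : ℕ}
    (hp : p < a) (hr : LL a b p d + finrank K (FF s d) < finrank K X) :
    finrank K (FF s (d + 1)) + (finrank K X - finrank K (FF s d)) +
      min (p + 1) (tauZ a b d) ≤ finrank K Y + (a - 2 - d) := by
  have hc1 : 1 ≤ c := by omega
  have hn : NZ (s 0) (s 1) (s 2) := by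
    intro q hq
    obtain ⟨α, β, e⟩ := mem_FPi.1 hq
    obtain ⟨r, t, e'⟩ := hs.reg.h2 q α β e
    exact mem_FPi.2 ⟨r, t, e'⟩
  obtain ⟨l, hl1, hl2, hl3⟩ := exists_nz_linear hc1 (hs.hom 2) hn
  obtain ⟨σ, hσ, hσl⟩ := exists_coord_linear hl1 hl3
  have hregl : RegTriple (s 0) (s 1) l :=
    { ne := hs.reg.ne
      h1 := hs.reg.h1
      h2 := by
        intro q α β e
        have := hl2 q (by rw [e]; exact mem_FPi.2 ⟨α, β, rfl⟩)
        obtain ⟨r, t, e'⟩ := mem_FPi.1 this
        exact ⟨r, t, e'⟩ }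
  have hZ : ZP a b (σ (s 0)) (σ (s 1)) :=
    { ha := by omega
      hab := hab
      homf := hσ.fwd _ _ (hs.hom 0)
      homg := hσ.fwd _ _ (hs.hom 1)
      reg := by
        have := RegTriple_map hregl σ
        rwa [hσl] at this }
  have hn' : NZ (σ (s 0)) (σ (s 1)) (σ (s 2)) := by
    intro q hq
    obtain ⟨α, β, e⟩ := mem_FPi.1 hq
    obtain ⟨r, t, e'⟩ := (RegTriple_map hs.reg σ).h2 q α β e
    exact mem_FPi.2 ⟨r, t, e'⟩
  have hFF : ∀ D, FF ![σ (s 0), σ (s 1), σ (s 2)] D = mapC σ (FF s D) := by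
    intro D
    rw [← hσ.FF_eq hs]
    congr 1
    funext i
    fin_cases i <;> rfl
  have ht := hσ.fwd _ _ (hs.hom 2)
  have hFd := hZ.FF_low hc1 ht hn' (show d < c by omega)
  have hFd1 := hZ.FF_low hc1 ht hn' (show d + 1 < c by omega)
  have hX : mapC σ X ≤ HS K d := by
    rw [← hσ.mapC_HS d]
    exact mapC_le h2
  have hY : mapC σ Y ≤ HS K (d + 1) := by
    rw [← hσ.mapC_HS (d + 1)]
    exact mapC_le h5
  have hFX : FP (σ (s 0)) (σ (s 1)) d ≤ mapC σ X := by
    rw [← hFd, hFF]
    exact mapC_le h1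
  have hle : gpl (σ (s 0)) (σ (s 1)) d (mapC σ X) ≤ mapC σ Y := by
    refine sup_le ?_ ?_
    · rw [← hσ.mapC_HS 1, ← hσ.mapC_mul]
      exact mapC_le h3
    · rw [← hFd1, hFF]
      exact mapC_le h4
  have hfX := finite_of_le_HS h2
  have hfY := finite_of_le_HS h5
  have hfF := finite_of_le_HS (FF_le_HS s d)
  have hfF1 := finite_of_le_HS (FF_le_HS s (d + 1))
  have e1 : finrank K (FP (σ (s 0)) (σ (s 1)) d) = finrank K (FF s d) := by
    rw [← hFd, hFF, finrank_mapC]
  have e2 : finrank K (FP (σ (s 0)) (σ (s 1)) (d + 1)) = finrank K (FF s (d + 1)) := by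
    rw [← hFd1, hFF, finrank_mapC]
  have hg := hZ.growthC ha2 d (mapC σ X) p hFX hX hp (by rw [e1, finrank_mapC]; exact hr)
  have hfY' := finite_of_le_HS hY
  have hfX' := finite_of_le_HS hX
  have hm := Submodule.finrank_mono hle
  rw [finrank_mapC] at hm hg
  rw [e1, e2] at hg
  have hFX' := Submodule.finrank_mono h1
  omega

/-- The growth bound below the degree of the third form, over every field. -/
theorem growth_any_pair {a b c : ℕ} (ha2 : 2 ≤ a) (hab : a ≤ b)
    {s : Fin 3 → Poly K} (hs : FormSeq ![a, b, c] s) {d : ℕ} (hd : d + 1 < c)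
    {X Y : Submodule K (Poly K)} (h1 : FF s d ≤ X) (h2 : X ≤ HS K d) (h3 : HS K 1 * X ≤ Y)
    (h4 : FF s (d + 1) ≤ Y) (h5 : Y ≤ HS K (d + 1)) {p : ℕ}
    (hp : p < a) (hr : LL a b p d + finrank K (FF s d) < finrank K X) :
    finrank K (FF s (d + 1)) + (finrank K X - finrank K (FF s d)) +
      min (p + 1) (tauZ a b d) ≤ finrank K Y + (a - 2 - d) := by
  let L := AlgebraicClosure K
  have hfinX := finite_of_le_HS h2
  have hfinY := finite_of_le_HS h5
  have hfinF := finite_of_le_HS (FF_le_HS s d)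
  have hfinF' := finite_of_le_HS (FF_le_HS s (d + 1))
  have := growth_inf_pair (K := L) (s := fun i => iotaP (K := K) L (s i)) (X := extS L X)
    (Y := extS L Y) ha2 hab (formSeq_iota hs) hd
    (by rw [extS_FF hs]; exact extS_mono h1)
    (by rw [← extS_HS (K := K)]; exact extS_mono h2)
    (by rw [← extS_HS (K := K)]; exact le_trans (extS_mul_le _ _) (extS_mono h3))
    (by rw [extS_FF hs]; exact extS_mono h4)
    (by rw [← extS_HS (K := K)]; exact extS_mono h5)
    hp (by rwa [extS_FF hs, finrank_extS, finrank_extS])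
  rwa [extS_FF hs, extS_FF hs, finrank_extS, finrank_extS, finrank_extS, finrank_extS] at this

/-- The numerical check below the degree of the third form. -/
theorem numeric_pair {a b c : ℕ} {m : Fin 3 →₀ ℕ} {l : Fin 3} (ha2 : 2 ≤ a) (hab : a ≤ b)
    (hd : m.degree + 1 ≤ c) (hmo : OutsideT ![a, b, c] m)
    (hmo' : OutsideT ![a, b, c] (m + Finsupp.single l 1)) :
    lexRankT ![a, b, c] (m + Finsupp.single l 1) + (a - 2 - m.degree) ≤
      lexRankT ![a, b, c] m + min (a - 1 - m 0 + 1) (tauZ a b m.degree) := by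
  have hdeg := degree_add_single m l
  obtain ⟨h0, h1, h2⟩ := outside_abc.1 hmo
  obtain ⟨h3, h4, h5⟩ := outside_abc.1 hmo'
  rw [add_single_apply] at h3 h4 h5
  rw [lexRank_abc (by omega) hmo, lexRank_abc (by omega) hmo', hdeg, add_single_apply,
    add_single_apply, LL_step]
  have hdS := degree_sum m
  generalize m.degree = d at *
  fin_cases l
  · simp at h3 h4 h5 ⊢
    have e : a - 1 - m 0 = (a - 1 - (m 0 + 1)) + 1 := by omega
    rw [e, LL_succ]
    generalize LL a b (a - 1 - (m 0 + 1)) d = A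
    unfold ell Dl tauZ
    rw [← e]
    generalize m 0 = i at *
    generalize m 1 = j at *
    generalize m 2 = k at *
    omega
  · simp at h3 h4 h5 ⊢
    generalize LL a b (a - 1 - m 0) d = A
    unfold Dl tauZ
    generalize m 0 = i at *
    generalize m 1 = j at *
    generalize m 2 = k at *
    omega
  · simp at h3 h4 h5 ⊢
    generalize LL a b (a - 1 - m 0) d = A
    unfold Dl tauZ
    generalize m 0 = i at *
    generalize m 1 = j at *
    generalize m 2 = k at *
    omega

/-- The lexicographic step below the degree of the third form. -/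
theorem lexStep_pair {a b c : ℕ} {s : Fin 3 → Poly K} (hs : FormSeq ![a, b, c] s) (ha2 : 2 ≤ a)
    (hab : a ≤ b) {d : ℕ} (hd : d + 1 < c) : LexStepAt ![a, b, c] s d := by
  intro X Y h1 h2 h3 h4 h5 m hm hmo hr l hmo'
  have hfX := finite_of_le_HS h2
  have hfY := finite_of_le_HS h5
  have hfF := finite_of_le_HS (FF_le_HS s d)
  have hfF1 := finite_of_le_HS (FF_le_HS s (d + 1))
  have hX := Submodule.finrank_mono h2
  rw [finrank_HS] at hX
  have hFY := Submodule.finrank_mono h4
  have hFX := Submodule.finrank_mono h1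
  by_cases hne : finrank K X < T d
  · have hrk := lexRank_abc (a := a) (b := b) (c := c) (m := m) (by omega) hmo
    rw [hm] at hrk
    have hg := growth_any_pair ha2 hab hs hd h1 h2 h3 h4 h5 (p := a - 1 - m 0)
      (by
        have := (outside_abc.1 hmo).1
        omega)
      (by omega)
    have hn := numeric_pair ha2 hab (by omega) hmo hmo'
    rw [hm] at hn
    omega
  · have hXe : X = HS K d := by
      have := finite_of_le_HS (le_refl (HS K d))
      refine Submodule.eq_of_le_of_finrank_le h2 ?_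
      rw [finrank_HS]
      omega
    have hYe : Y = HS K (d + 1) := by
      refine le_antisymm h5 ?_
      rw [hXe, HS_mul, add_comm] at h3
      exact h3
    have hsum : (![a, b, c] : Fin 3 → ℕ) 0 + (![a, b, c] : Fin 3 → ℕ) 1 +
        (![a, b, c] : Fin 3 → ℕ) 2 = (a + b + c - 3) + 3 := by
      show a + b + c = _
      omega
    have hrd := rank_dualA hsum hmo'
    rw [degree_add_single, hm] at hrd
    have hcnt := hs.finrank_FF_add_cnt (d + 1)
    rw [hYe, finrank_HS]
    omega

end Vale.Agent.Lib.P200
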