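import Vale.Agent.Lib.P200.Defs

/-!
Exponent triples, lexicographic ranks, finite tables.
-/

namespace Vale.Agent.Lib.P200
open MvPolynomial Module

/-- Exponent triple of a monomial. -/
def tr (m : Fin 3 →₀ ℕ) : ℕ × ℕ × ℕ := (m 0, m 1, m 2)

theorem tr_inj : Function.Injective tr := by
  intro a b h
  simp only [tr, Prod.mk.injEq] at h
  ext i
  fin_cases i
  · exact h.1
  · exact h.2.1
  · exact h.2.2

/-- The monomial with a given exponent triple. -/
noncomputable def ofTr (t : ℕ × ℕ × ℕ) : Fin 3 →₀ ℕ :=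
  Finsupp.equivFunOnFinite.symm ![t.1, t.2.1, t.2.2]

theorem tr_ofTr (t : ℕ × ℕ × ℕ) : tr (ofTr t) = t := by
  simp [tr, ofTr]

theorem degree_eq (m : Fin 3 →₀ ℕ) : m.degree = m 0 + m 1 + m 2 := by
  rw [Finsupp.degree_eq_sum, Fin.sum_univ_three]

/-- All exponent triples with entries below three. -/
def grid : Finset (ℕ × ℕ × ℕ) := Finset.range 3 ×ˢ Finset.range 3 ×ˢ Finset.range 3

/-- Lexicographic comparison of triples. -/
def lexLtN (b a : ℕ × ℕ × ℕ) : Prop :=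
  b.1 < a.1 ∨ (b.1 = a.1 ∧ b.2.1 < a.2.1) ∨ (b.1 = a.1 ∧ b.2.1 = a.2.1 ∧ b.2.2 < a.2.2)

instance (b a : ℕ × ℕ × ℕ) : Decidable (lexLtN b a) := by
  unfold lexLtN
  infer_instance

/-- Sum of the entries of a triple. -/
def degN (b : ℕ × ℕ × ℕ) : ℕ := b.1 + b.2.1 + b.2.2

/-- Lexicographic rank of a triple among triples of the grid. -/
def rkN (b : ℕ × ℕ × ℕ) : ℕ := (grid.filter fun a => degN a = degN b ∧ lexLtN b a).card

theorem toLex_lt_iff (m n : Fin 3 →₀ ℕ) : toLex m < toLex n ↔ lexLtN (tr m) (tr n) := by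
  rw [Finsupp.Lex.lt_iff]
  simp only [ofLex_toLex, lexLtN, tr]
  constructor
  · rintro ⟨i, hj, hi⟩
    fin_cases i
    · exact Or.inl hi
    · exact Or.inr (Or.inl ⟨hj 0 (by decide), hi⟩)
    · exact Or.inr (Or.inr ⟨hj 0 (by decide), hj 1 (by decide), hi⟩)
  · rintro (h | ⟨h0, h⟩ | ⟨h0, h1, h⟩)
    · exact ⟨0, fun j hj => absurd hj (by simp), h⟩
    · refine ⟨1, fun j hj => ?_, h⟩
      fin_cases j
      · exact h0
      · exact absurd hj (by simp)
      · exact absurd hj (by simp)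
    · refine ⟨2, fun j hj => ?_, h⟩
      fin_cases j
      · exact h0
      · exact h1
      · exact absurd hj (by simp)

theorem mem_grid_of_outside {m : Fin 3 →₀ ℕ} (h : OutsideP m) : tr m ∈ grid := by
  simp only [grid, tr, Finset.mem_product, Finset.mem_range]
  exact ⟨h 0, h 1, h 2⟩

theorem outside_ofTr {t : ℕ × ℕ × ℕ} (h : t ∈ grid) : OutsideP (ofTr t) := by
  simp only [grid, Finset.mem_product, Finset.mem_range] at h
  intro i
  fin_cases i
  · simpa [ofTr] using h.1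
  · simpa [ofTr] using h.2.1
  · simpa [ofTr] using h.2.2

theorem degree_eq_degN (m : Fin 3 →₀ ℕ) : m.degree = degN (tr m) := degree_eq m

/-- The set-theoretic rank agrees with the finite count. -/
theorem lexRank_eq (m : Fin 3 →₀ ℕ) : lexRank m = rkN (tr m) := by
  unfold lexRank rkN
  rw [← Set.ncard_image_of_injective _ tr_inj, ← Set.ncard_coe_finset]
  congr 1
  ext t
  simp only [Set.mem_image, Set.mem_setOf_eq, Finset.coe_filter, Set.mem_ofPred_eq]
  constructor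
  · rintro ⟨n, ⟨hd, ho, hl⟩, rfl⟩
    refine ⟨mem_grid_of_outside ho, ?_, (toLex_lt_iff m n).1 hl⟩
    rw [← degree_eq_degN, ← degree_eq_degN, hd]
  · rintro ⟨hg, hd, hl⟩
    refine ⟨ofTr t, ⟨?_, outside_ofTr hg, ?_⟩, tr_ofTr t⟩
    · rw [degree_eq_degN, degree_eq_degN, tr_ofTr, hd]
    · rw [toLex_lt_iff, tr_ofTr]
      exact hl

/-- The number of outside monomials of a degree. -/
def cntN (d : ℕ) : ℕ := (grid.filter fun a => degN a = d).card

/-- The growth table. -/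
def gT : ℕ → ℕ → ℕ
  | 0, u => if 1 ≤ u then 3 else 0
  | 1, u => if 3 ≤ u then 6 else if 2 ≤ u then 5 else if 1 ≤ u then 3 else 0
  | 2, u => if 5 ≤ u then 7 else if 4 ≤ u then 6 else if 3 ≤ u then 5 else if 2 ≤ u then 4
      else if 1 ≤ u then 2 else 0
  | 3, u => if 6 ≤ u then 6 else if 4 ≤ u then 5 else if 3 ≤ u then 4 else if 2 ≤ u then 3
      else if 1 ≤ u then 2 else 0
  | 4, u => if 4 ≤ u then 3 else if 2 ≤ u then 2 else if 1 ≤ u then 1 else 0
  | 5, u => if 1 ≤ u then 1 else 0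
  | _, _ => 0

/-- Lexicographic segments grow at most as prescribed by the table. -/
theorem table_check : ∀ t ∈ grid,
    (t.1 + 1 < 3 → rkN (t.1 + 1, t.2.1, t.2.2) + 1 ≤ gT (degN t) (rkN t + 1)) ∧
    (t.2.1 + 1 < 3 → rkN (t.1, t.2.1 + 1, t.2.2) + 1 ≤ gT (degN t) (rkN t + 1)) ∧
    (t.2.2 + 1 < 3 → rkN (t.1, t.2.1, t.2.2 + 1) + 1 ≤ gT (degN t) (rkN t + 1)) := by
  decide +kernel

/-- The counts of outside monomials. -/
theorem cnt_table : cntN 0 = 1 ∧ cntN 1 = 3 ∧ cntN 2 = 6 ∧ cntN 3 = 7 ∧ cntN 4 = 6 ∧ cntN 5 = 3 ∧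
    cntN 6 = 1 := by
  decide +kernel

/-- Segments of each size exist. -/
theorem segment_table : ∀ d ≤ 6, ∀ q ≤ cntN d,
    (grid.filter fun a => degN a = d ∧ rkN a < q).card = q := by
  decide +kernel

theorem degN_le_six : ∀ t ∈ grid, degN t ≤ 6 := by
  decide +kernel

end Vale.Agent.Lib.P200
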