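import Vale.Agent.Lib.P200.Reg
import Vale.Agent.Lib.P200.Lex

/-!
The monomial description of `J` and the closure under multiplication.
-/

namespace Vale.Agent.Lib.P200
open MvPolynomial Module

variable {K : Type*} [Field K]

theorem mem_powerIdeal {a : Poly K} : a ∈ powerIdeal K ↔ ∀ m ∈ a.support, ¬ OutsideP m := by
  have e : powerIdeal K = Ideal.span ((fun s => monomial s (1 : K)) ''
      (Set.range fun i : Fin 3 => Finsupp.single i 3)) := by
    unfold powerIdeal
    congr 1
    ext x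
    simp only [Set.mem_range, Set.mem_image, exists_exists_eq_and]
    constructor
    · rintro ⟨i, rfl⟩
      exact ⟨i, (X_pow_eq_monomial).symm⟩
    · rintro ⟨i, rfl⟩
      exact ⟨i, X_pow_eq_monomial⟩
  rw [e, mem_ideal_span_monomial_image]
  refine forall₂_congr fun m _ => ?_
  unfold OutsideP
  push Not
  simp only [Set.mem_range, exists_exists_eq_and, Finsupp.single_le_iff]

theorem piece_powerIdeal (d : ℕ) :
    piece (powerIdeal K) d = restrictSupport K {m | m.degree = d ∧ ¬ OutsideP m} := by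
  ext a
  simp only [piece, Submodule.mem_inf, Submodule.restrictScalars_mem, mem_powerIdeal]
  change _ ∧ a ∈ HS K d ↔ _
  rw [HS_eq_restrict, mem_restrictSupport_iff, mem_restrictSupport_iff]
  constructor
  · rintro ⟨h1, h2⟩ m hm
    exact ⟨h2 hm, h1 m hm⟩
  · intro h
    exact ⟨fun m hm => (h hm).2, fun m hm => (h hm).1⟩

theorem ncard_outside (d : ℕ) : ({m : Fin 3 →₀ ℕ | m.degree = d ∧ OutsideP m}).ncard = cntN d := by
  unfold cntN
  rw [← Set.ncard_image_of_injective _ tr_inj, ← Set.ncard_coe_finset]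
  congr 1
  ext t
  simp only [Set.mem_image, Set.mem_ofPred_eq, Finset.coe_filter]
  constructor
  · rintro ⟨n, ⟨hd, ho⟩, rfl⟩
    exact ⟨mem_grid_of_outside ho, by rw [← degree_eq_degN, hd]⟩
  · rintro ⟨hg, hd⟩
    exact ⟨ofTr t, ⟨by rw [degree_eq_degN, tr_ofTr, hd], outside_ofTr hg⟩, tr_ofTr t⟩

theorem finite_degree (d : ℕ) : ({m : Fin 3 →₀ ℕ | m.degree = d}).Finite := by
  by_contra hinf
  have := ncard_degree d
  rw [Set.Infinite.ncard hinf] at this
  have h2 : 0 < (d + 2).choose d := Nat.choose_pos (by omega)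
  omega

theorem finrank_piece_P (d : ℕ) :
    finrank K (piece (powerIdeal K) d) + cntN d = T d := by
  rw [piece_powerIdeal, finrank_restrictSupport, ← ncard_outside, T, ← ncard_degree]
  have hd : Disjoint {m : Fin 3 →₀ ℕ | m.degree = d ∧ ¬ OutsideP m}
      {m : Fin 3 →₀ ℕ | m.degree = d ∧ OutsideP m} := by
    rw [Set.disjoint_left]
    rintro m ⟨_, h1⟩ ⟨_, h2⟩
    exact h1 h2
  rw [← Set.ncard_union_eq hd ((finite_degree d).subset fun m hm => hm.1)
    ((finite_degree d).subset fun m hm => hm.1)]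
  congr 1
  ext m
  simp only [Set.mem_union, Set.mem_ofPred_eq]
  tauto

theorem p0 : finrank K (piece (powerIdeal K) 0) = 0 := by
  have := finrank_piece_P (K := K) 0
  rw [cnt_table.1] at this
  have h : T 0 = 1 := by decide
  omega

theorem p1 : finrank K (piece (powerIdeal K) 1) = 0 := by
  have := finrank_piece_P (K := K) 1
  rw [cnt_table.2.1] at this
  have h : T 1 = 3 := by decide
  omega

theorem p2 : finrank K (piece (powerIdeal K) 2) = 0 := by
  have := finrank_piece_P (K := K) 2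
  rw [cnt_table.2.2.1] at this
  have h : T 2 = 6 := by decide
  omega

theorem p3 : finrank K (piece (powerIdeal K) 3) = 3 := by
  have := finrank_piece_P (K := K) 3
  rw [cnt_table.2.2.2.1] at this
  have h : T 3 = 10 := by decide
  omega

theorem p4 : finrank K (piece (powerIdeal K) 4) = 9 := by
  have := finrank_piece_P (K := K) 4
  rw [cnt_table.2.2.2.2.1] at this
  have h : T 4 = 15 := by decide
  omega

theorem p5 : finrank K (piece (powerIdeal K) 5) = 18 := by
  have := finrank_piece_P (K := K) 5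
  rw [cnt_table.2.2.2.2.2.1] at this
  have h : T 5 = 21 := by decide
  omega

theorem p6 : finrank K (piece (powerIdeal K) 6) = 27 := by
  have := finrank_piece_P (K := K) 6
  rw [cnt_table.2.2.2.2.2.2] at this
  have h : T 6 = 28 := by decide
  omega

section growth

variable {f : Fin 3 → Poly K} {I : Ideal (Poly K)}

theorem FF_le_piece (hI : ∀ i, f i ∈ I) (d : ℕ) : FF f d ≤ piece I d := by
  intro a ha
  obtain ⟨h1, h2⟩ := mem_FF.1 ha
  refine ⟨?_, h2⟩
  have : Fid f ≤ I := by
    unfold Fid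
    rw [Ideal.span_le]
    rintro _ ⟨i, rfl⟩
    exact hI i
  exact this h1

theorem piece_le_HS (I : Ideal (Poly K)) (d : ℕ) : piece I d ≤ HS K d := inf_le_right

theorem growth_le_piece (hI : ∀ i, f i ∈ I) (d : ℕ) :
    HS K 1 * piece I d ⊔ FF f (d + 1) ≤ piece I (d + 1) := by
  refine sup_le ?_ (FF_le_piece hI _)
  rw [Submodule.mul_le]
  intro x hx a ha
  refine ⟨I.mul_mem_left x ha.1, ?_⟩
  have := (show x.IsHomogeneous 1 from hx).mul ha.2
  rw [add_comm] at this
  exact this

theorem finrank_piece_mono (hI : ∀ i, f i ∈ I) (d : ℕ) :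
    finrank K (HS K 1 * piece I d ⊔ FF f (d + 1) : Submodule K (Poly K)) ≤
      finrank K (piece I (d + 1)) :=
  finrank_le_of_le_HS (growth_le_piece hI d) (piece_le_HS I _)

/-- The growth table for the numbers `q_d`. -/
theorem excess_growth (h : CubicSeq f) (hI : ∀ i, f i ∈ I) : ∀ d ≤ 5, ∀ u ≤ excess I d,
    gT d u ≤ excess I (d + 1) := by
  intro d hd u hu
  unfold excess at hu ⊢
  interval_cases d
  · have T0 : (1 ≤ finrank K (piece I 0) → 3 ≤ finrank K (HS K 1 * piece I 0 ⊔ FF f 1 : Submodule K (Poly K))) :=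
      growth0 (f := f) (piece_le_HS I 0)
    obtain t0 := T0
    have m : finrank K (HS K 1 * piece I 0 ⊔ FF f 1 : Submodule K (Poly K)) ≤
        finrank K (piece I 1) := finrank_piece_mono hI 0
    change gT 0 u ≤ finrank K (piece I 1) - finrank K (piece (powerIdeal K) 1)
    rw [p0] at hu
    rw [p1]
    simp only [gT]
    split_ifs <;> omega
  · have T0 : (1 ≤ finrank K (piece I 1) → 3 ≤ finrank K (HS K 1 * piece I 1 ⊔ FF f 2 : Submodule K (Poly K))) ∧ (2 ≤ finrank K (piece I 1) → 5 ≤ finrank K (HS K 1 * piece I 1 ⊔ FF f 2 : Submodule K (Poly K))) ∧ (3 ≤ finrank K (piece I 1) → 6 ≤ finrank K (HS K 1 * piece I 1 ⊔ FF f 2 : Submodule K (Poly K))) :=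
      growth1 (f := f) (piece_le_HS I 1)
    obtain ⟨t0, t1, t2⟩ := T0
    have m : finrank K (HS K 1 * piece I 1 ⊔ FF f 2 : Submodule K (Poly K)) ≤
        finrank K (piece I 2) := finrank_piece_mono hI 1
    change gT 1 u ≤ finrank K (piece I 2) - finrank K (piece (powerIdeal K) 2)
    rw [p1] at hu
    rw [p2]
    simp only [gT]
    split_ifs <;> omega
  · have T0 : (1 ≤ finrank K (piece I 2) → 5 ≤ finrank K (HS K 1 * piece I 2 ⊔ FF f 3 : Submodule K (Poly K))) ∧ (2 ≤ finrank K (piece I 2) → 7 ≤ finrank K (HS K 1 * piece I 2 ⊔ FF f 3 : Submodule K (Poly K))) ∧ (3 ≤ finrank K (piece I 2) → 8 ≤ finrank K (HS K 1 * piece I 2 ⊔ FF f 3 : Submodule K (Poly K))) ∧ (4 ≤ finrank K (piece I 2) → 9 ≤ finrank K (HS K 1 * piece I 2 ⊔ FF f 3 : Submodule K (Poly K))) ∧ (5 ≤ finrank K (piece I 2) → 10 ≤ finrank K (HS K 1 * piece I 2 ⊔ FF f 3 : Submodule K (Poly K))) :=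
      G2_table h (piece_le_HS I 2)
    obtain ⟨t0, t1, t2, t3, t4⟩ := T0
    have m : finrank K (HS K 1 * piece I 2 ⊔ FF f 3 : Submodule K (Poly K)) ≤
        finrank K (piece I 3) := finrank_piece_mono hI 2
    change gT 2 u ≤ finrank K (piece I 3) - finrank K (piece (powerIdeal K) 3)
    rw [p2] at hu
    rw [p3]
    simp only [gT]
    split_ifs <;> omega
  · have T0 : (4 ≤ finrank K (piece I 3) → 11 ≤ finrank K (HS K 1 * piece I 3 ⊔ FF f 4 : Submodule K (Poly K))) ∧ (5 ≤ finrank K (piece I 3) → 12 ≤ finrank K (HS K 1 * piece I 3 ⊔ FF f 4 : Submodule K (Poly K))) ∧ (6 ≤ finrank K (piece I 3) → 13 ≤ finrank K (HS K 1 * piece I 3 ⊔ FF f 4 : Submodule K (Poly K))) ∧ (7 ≤ finrank K (piece I 3) → 14 ≤ finrank K (HS K 1 * piece I 3 ⊔ FF f 4 : Submodule K (Poly K))) ∧ (9 ≤ finrank K (piece I 3) → 15 ≤ finrank K (HS K 1 * piece I 3 ⊔ FF f 4 : Submodule K (Poly K))) :=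
      h.growth3 (piece_le_HS I 3) (FF_le_piece hI 3)
    obtain ⟨t0, t1, t2, t3, t4⟩ := T0
    have m : finrank K (HS K 1 * piece I 3 ⊔ FF f 4 : Submodule K (Poly K)) ≤
        finrank K (piece I 4) := finrank_piece_mono hI 3
    change gT 3 u ≤ finrank K (piece I 4) - finrank K (piece (powerIdeal K) 4)
    rw [p3] at hu
    rw [p4]
    simp only [gT]
    split_ifs <;> omega
  · have T0 : (10 ≤ finrank K (piece I 4) → 19 ≤ finrank K (HS K 1 * piece I 4 ⊔ FF f 5 : Submodule K (Poly K))) ∧ (11 ≤ finrank K (piece I 4) → 20 ≤ finrank K (HS K 1 * piece I 4 ⊔ FF f 5 : Submodule K (Poly K))) ∧ (13 ≤ finrank K (piece I 4) → 21 ≤ finrank K (HS K 1 * piece I 4 ⊔ FF f 5 : Submodule K (Poly K))) :=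
      h.growth4 (piece_le_HS I 4) (FF_le_piece hI 4)
    obtain ⟨t0, t1, t2⟩ := T0
    have m : finrank K (HS K 1 * piece I 4 ⊔ FF f 5 : Submodule K (Poly K)) ≤
        finrank K (piece I 5) := finrank_piece_mono hI 4
    change gT 4 u ≤ finrank K (piece I 5) - finrank K (piece (powerIdeal K) 5)
    rw [p4] at hu
    rw [p5]
    simp only [gT]
    split_ifs <;> omega
  · have T0 : (19 ≤ finrank K (piece I 5) → 28 ≤ finrank K (HS K 1 * piece I 5 ⊔ FF f 6 : Submodule K (Poly K))) :=
      h.growth5 (piece_le_HS I 5) (FF_le_piece hI 5)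
    obtain t0 := T0
    have m : finrank K (HS K 1 * piece I 5 ⊔ FF f 6 : Submodule K (Poly K)) ≤
        finrank K (piece I 6) := finrank_piece_mono hI 5
    change gT 5 u ≤ finrank K (piece I 6) - finrank K (piece (powerIdeal K) 6)
    rw [p5] at hu
    rw [p6]
    simp only [gT]
    split_ifs <;> omega

end growth

end Vale.Agent.Lib.P200
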