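import Vale.Agent.Lib.P200.Prod

/-!
Intersections with the span of the cubics, persistence and the main dimension bound.
-/

namespace Vale.Agent.Lib.P200
open MvPolynomial Module

variable {K : Type*} [Field K]

namespace CubicSeq

variable {f : Fin 3 → Poly K} (h : CubicSeq f)
include h

theorem FF3_const {a : Poly K} (ha : a ∈ FF f 3) :
    ∃ α : Fin 3 → K, C (α 0) * f 0 + C (α 1) * f 1 + C (α 2) * f 2 = a := by
  obtain ⟨ha1, ha2⟩ := mem_FF.1 ha
  obtain ⟨p, hp⟩ := mem_Fid.1 ha1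
  have ha2' : a.IsHomogeneous (0 + 3) := by simpa using ha2
  have e := homog_coeffs (k := 3) (n := 0) h.hom p ha2' (by simpa [Fin.sum_univ_three] using hp)
  refine ⟨fun i => coeff 0 (p i), ?_⟩
  simpa [Fin.sum_univ_three, homogeneousComponent_zero] using e

theorem F1 {c a' b' : Poly K} {D : ℕ} (hD : D < 3) (ha' : a'.IsHomogeneous D)
    (hb' : b'.IsHomogeneous D) (ha : c * a' ∈ FF f 3) (hb : c * b' ∈ FF f 3)
    (ha0 : c * a' ≠ 0) : ∃ r : K, c * b' = C r * (c * a') := by
  obtain ⟨α, hα⟩ := h.FF3_const ha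
  obtain ⟨β, hβ⟩ := h.FF3_const hb
  have hC : ∀ (u : Poly K) (r : K), u.IsHomogeneous D → (u * C r).IsHomogeneous D := by
    intro u r hu
    have := hu.mul (isHomogeneous_C (Fin 3) r)
    simpa using this
  have key := h.nls (a0 := a' * C (β 0) - b' * C (α 0)) (a1 := a' * C (β 1) - b' * C (α 1))
    (a2 := a' * C (β 2) - b' * C (α 2)) ((hC _ _ ha').sub (hC _ _ hb')) ((hC _ _ ha').sub (hC _ _ hb'))
    ((hC _ _ ha').sub (hC _ _ hb')) hD (by linear_combination a' * hβ - b' * hα)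
  have hexists : ∃ p, α p ≠ 0 := by
    by_contra hno
    push Not at hno
    apply ha0
    rw [← hα, hno 0, hno 1, hno 2]
    simp
  obtain ⟨p, hp⟩ := hexists
  have hkey : a' * C (β p) - b' * C (α p) = 0 := by
    rcases key with ⟨k0, k1, k2⟩
    fin_cases p
    · exact k0
    · exact k1
    · exact k2
  refine ⟨β p / α p, ?_⟩
  have hCα : (C (α p) : Poly K) * C (α p)⁻¹ = 1 := by
    rw [← C_mul, mul_inv_cancel₀ hp, C_1]
  rw [div_eq_mul_inv, C_mul]
  linear_combination (- c * C (α p)⁻¹) * hkey - c * b' * hCα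

/-- Subspaces all of whose elements have a common factor meet the span of the cubics in
dimension at most one. -/
theorem finrank_inf_le_one {Z : Submodule K (Poly K)} {c : Poly K} {D : ℕ} (hD : D < 3)
    (hZ : ∀ z ∈ Z, ∃ z', z'.IsHomogeneous D ∧ z = c * z') :
    finrank K (Z ⊓ FF f 3 : Submodule K (Poly K)) ≤ 1 := by
  by_cases hbot : (Z ⊓ FF f 3 : Submodule K (Poly K)) = ⊥
  · rw [hbot, finrank_bot]
    omega
  · obtain ⟨a, ha, ha0⟩ := Submodule.exists_mem_ne_zero_of_ne_bot hbot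
    refine finrank_le_one (⟨a, ha⟩ : (Z ⊓ FF f 3 : Submodule K (Poly K))) ?_
    rintro ⟨b, hb⟩
    obtain ⟨a', ha', rfl⟩ := hZ a ha.1
    obtain ⟨b', hb', rfl⟩ := hZ b hb.1
    obtain ⟨r, hr⟩ := h.F1 hD ha' hb' ha.2 hb.2 ha0
    refine ⟨r, Subtype.ext ?_⟩
    simp only [Submodule.coe_smul, hr]
    rw [smul_eq_C_mul]

theorem finrank_sup_F {Z : Submodule K (Poly K)} {c : Poly K} {D : ℕ} (hD : D < 3)
    (hZ3 : Z ≤ HS K 3) (hZ : ∀ z ∈ Z, ∃ z', z'.IsHomogeneous D ∧ z = c * z') :
    finrank K Z + 2 ≤ finrank K (Z ⊔ FF f 3 : Submodule K (Poly K)) := by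
  have : Module.Finite K Z := finite_of_le_HS hZ3
  have : Module.Finite K (FF f 3) := finite_of_le_HS (FF_le_HS f 3)
  have e := Submodule.finrank_sup_add_finrank_inf_eq Z (FF f 3)
  have e1 := h.finrank_inf_le_one (Z := Z) hD hZ
  rw [h.finrank_FF3] at e
  omega

theorem FF7_le : FF f 7 ≤ HS K 4 * FF f 3 := by
  rw [← h.range_combo 4]
  rintro _ ⟨p, rfl⟩
  rw [combo_apply]
  have hfi : ∀ i, f i ∈ FF f 3 := fun i => by
    refine mem_FF.2 ⟨Ideal.subset_span ⟨i, rfl⟩, h.hom i⟩
  refine Submodule.add_mem _ (Submodule.add_mem _ ?_ ?_) ?_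
  · exact Submodule.mul_mem_mul (p 0).2 (hfi 0)
  · exact Submodule.mul_mem_mul (p 1).2 (hfi 1)
  · exact Submodule.mul_mem_mul (p 2).2 (hfi 2)

end CubicSeq

/-- Persistence of the growth. -/
theorem persist {U0 T : Submodule K (Poly K)} {l : Poly K} (hl : l ∈ HS K 1)
    (hS : HS K 1 * U0 ≤ Submodule.span K {l} * U0 ⊔ HS K 1 * T) (k : ℕ) :
    HS K k * U0 ≤ (Submodule.span K {l}) ^ k * U0 ⊔ HS K k * T := by
  have hL : Submodule.span K {l} ≤ HS K 1 := by
    rw [Submodule.span_singleton_le_iff_mem]; exact hl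
  induction k with
  | zero =>
    rw [HS_zero, pow_zero, one_mul, one_mul]
    exact le_sup_left
  | succ k ih =>
    rw [← HS_mul k 1, mul_assoc, mul_assoc (HS K k) (HS K 1) T]
    calc HS K k * (HS K 1 * U0)
        ≤ HS K k * (Submodule.span K {l} * U0 ⊔ HS K 1 * T) := mul_le_mul_right hS _
      _ = Submodule.span K {l} * (HS K k * U0) ⊔ HS K k * (HS K 1 * T) := by
          rw [Submodule.mul_sup, mul_left_comm]
      _ ≤ Submodule.span K {l} * ((Submodule.span K {l}) ^ k * U0 ⊔ HS K k * T)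
            ⊔ HS K k * (HS K 1 * T) := sup_le_sup_right (mul_le_mul_right ih _) _
      _ = Submodule.span K {l} ^ (k + 1) * U0 ⊔ (Submodule.span K {l} * (HS K k * T))
            ⊔ HS K k * (HS K 1 * T) := by
          rw [Submodule.mul_sup, pow_succ', mul_assoc]
      _ ≤ Submodule.span K {l} ^ (k + 1) * U0 ⊔ HS K k * (HS K 1 * T) := by
          refine sup_le (sup_le le_sup_left ?_) le_sup_right
          refine le_trans ?_ le_sup_right
          rw [mul_left_comm]
          exact mul_le_mul' le_rfl (mul_le_mul_left hL _)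

theorem span_singleton_pow_eq (l : Poly K) (k : ℕ) :
    (Submodule.span K {l}) ^ k = Submodule.span K {l ^ k} := by
  rw [Submodule.span_pow, Set.singleton_pow]

/-- The key dimension bound. -/
theorem main_bound {f : Fin 3 → Poly K} (h : CubicSeq f) {g1 g2 l : Poly K}
    (hg1 : g1.IsHomogeneous 2) (hg2 : g2.IsHomogeneous 2) (hg1ne : g1 ≠ 0)
    (hV : finrank K (HS K 1 * Submodule.span K {g1, g2} : Submodule K (Poly K)) = 6)
    {U0 : Submodule K (Poly K)} (hU0 : U0 ≤ HS K 2) (hdim : finrank K U0 ≤ 3)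
    (hl : l ∈ HS K 1) (hl0 : l ≠ 0)
    (hdisj : (HS K 1 * Submodule.span K {g1, g2} ⊓ Submodule.span K {l} * U0 :
      Submodule K (Poly K)) = ⊥) :
    7 + finrank K U0 ≤
      finrank K (HS K 1 * (Submodule.span K {g1, g2} ⊔ U0) ⊔ FF f 3 : Submodule K (Poly K)) := by
  set T : Submodule K (Poly K) := Submodule.span K {g1, g2} with hT
  set L : Submodule K (Poly K) := Submodule.span K {l} with hLdef
  have hTle : T ≤ HS K 2 := by
    rw [hT, Submodule.span_le]
    rintro x (rfl | rfl)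
    · exact hg1
    · exact hg2
  have hL : L ≤ HS K 1 := by
    rw [hLdef, Submodule.span_singleton_le_iff_mem]; exact hl
  have hS13 : ∀ W : Submodule K (Poly K), W ≤ HS K 2 → HS K 1 * W ≤ HS K 3 :=
    fun W hW => mul_le_HS (d := 1) (e := 2) le_rfl hW
  have hV3 : HS K 1 * T ≤ HS K 3 := hS13 T hTle
  have hLU3 : L * U0 ≤ HS K 3 := mul_le_HS (d := 1) (e := 2) hL hU0
  set Y : Submodule K (Poly K) := HS K 1 * (T ⊔ U0) ⊔ FF f 3 with hY
  have hY3 : Y ≤ HS K 3 := sup_le (hS13 _ (sup_le hTle hU0)) (FF_le_HS f 3)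
  set Y0 : Submodule K (Poly K) := HS K 1 * T ⊔ L * U0 with hY0
  have hY0Y : Y0 ≤ Y := by
    refine le_trans (sup_le ?_ ?_) le_sup_left
    · exact mul_le_mul_right le_sup_left _
    · exact mul_le_mul' hL le_sup_right
  have hfinV : Module.Finite K (HS K 1 * T : Submodule K (Poly K)) := finite_of_le_HS hV3
  have hfinLU : Module.Finite K (L * U0 : Submodule K (Poly K)) := finite_of_le_HS hLU3
  have hfinY : Module.Finite K Y := finite_of_le_HS hY3
  have hfinY0 : finrank K Y0 = 6 + finrank K U0 := by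
    have e := Submodule.finrank_sup_add_finrank_inf_eq (HS K 1 * T) (L * U0)
    rw [hdisj, finrank_bot, hV, finrank_span_singleton_mul hl0] at e
    omega
  by_contra hcon
  push Not at hcon
  have hle : finrank K Y ≤ finrank K Y0 := by omega
  have hEq : Y0 = Y := Submodule.eq_of_le_of_finrank_le hY0Y hle
  have hFle : FF f 3 ≤ Y0 := by rw [hEq]; exact le_sup_right
  have hS1 : HS K 1 * U0 ≤ L * U0 ⊔ HS K 1 * T := by
    rw [sup_comm, ← hY0, hEq]
    exact le_trans (mul_le_mul_right le_sup_right _) le_sup_left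
  have hp4 := persist hl hS1 4
  have h7 : HS K 7 ≤ HS K 5 * T ⊔ L ^ 5 * U0 := by
    calc HS K 7 ≤ FF f 7 := h.HS7_le
      _ ≤ HS K 4 * FF f 3 := h.FF7_le
      _ ≤ HS K 4 * Y0 := mul_le_mul_right hFle _
      _ = HS K 4 * (HS K 1 * T) ⊔ L * (HS K 4 * U0) := by
          rw [hY0, Submodule.mul_sup, mul_left_comm (HS K 4) L]
      _ ≤ HS K 4 * (HS K 1 * T) ⊔ L * (L ^ 4 * U0 ⊔ HS K 4 * T) :=
          sup_le_sup_left (mul_le_mul_right hp4 _) _
      _ ≤ HS K 5 * T ⊔ L ^ 5 * U0 := by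
          rw [Submodule.mul_sup]
          refine sup_le ?_ (sup_le ?_ ?_)
          · rw [← mul_assoc, HS_mul]
            exact le_sup_left
          · rw [← mul_assoc, ← pow_succ']
            exact le_sup_right
          · rw [← mul_assoc]
            refine le_trans (mul_le_mul_left (mul_le_mul_left hL _) _) ?_
            rw [HS_mul]
            exact le_sup_left
  have hfin5 : Module.Finite K (HS K 5 * T : Submodule K (Poly K)) :=
    finite_of_le_HS (mul_le_HS (d := 5) (e := 2) le_rfl hTle)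
  have hfin5' : Module.Finite K (L ^ 5 * U0 : Submodule K (Poly K)) := by
    rw [hLdef, span_singleton_pow_eq]
    have hl5 : (l ^ 5).IsHomogeneous 5 := by
      simpa using (show l.IsHomogeneous 1 from hl).pow 5
    exact finite_of_le_HS (finite_mul_span_singleton (e := 5) hU0 _ hl5)
  have hb1 : finrank K (HS K 5 * T : Submodule K (Poly K)) ≤ 32 :=
    finrank_pair_koszul hg1 hg2 hg1ne
  have hb2 : finrank K (L ^ 5 * U0 : Submodule K (Poly K)) ≤ finrank K U0 := by
    rw [hLdef, span_singleton_pow_eq]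
    exact finrank_span_singleton_mul_le _ hU0
  have hb3 := Submodule.finrank_add_le_finrank_add_finrank (HS K 5 * T) (L ^ 5 * U0)
  have hfinS : Module.Finite K (HS K 5 * T ⊔ L ^ 5 * U0 : Submodule K (Poly K)) :=
    inferInstance
  have hb4 : finrank K (HS K 7) ≤ finrank K (HS K 5 * T ⊔ L ^ 5 * U0 : Submodule K (Poly K)) :=
    Submodule.finrank_mono h7
  rw [finrank_HS] at hb4
  have hT7 : Vale.Agent.Lib.P200.T 7 = 36 := by decide
  omega

end Vale.Agent.Lib.P200
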