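import Vale.Agent.Lib.P200.NFam
import Vale.Agent.Lib.P200.E12Final

/-!
The base of the induction: three variables.
-/

namespace Vale.Agent.Lib.P200
open MvPolynomial Module

universe u

variable {K : Type u} [Field K]

/-- The rank of a monomial as the number of elements above it. -/
theorem lexRank_bridge {n : ℕ} {A : Fin n → ℕ∞} {P : (Fin n →₀ ℕ) → Prop}
    (hP : ∀ k, P k ↔ AllowedN A (k : Fin n → ℕ)) {m : Fin n →₀ ℕ} {d : ℕ} (hm : m.degree = d) :
    Set.ncard {k : Fin n →₀ ℕ | k.degree = m.degree ∧ P k ∧ toLex m < toLex k} =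
      rkS (kN n) (TTN A d) (m : Fin n → ℕ) := by
  classical
  have hS : {k : Fin n →₀ ℕ | k.degree = m.degree ∧ P k ∧ toLex m < toLex k} =
      toFS '' (((TTN A d).filter fun y => kN n (m : Fin n → ℕ) < kN n y : Finset _) :
        Set (Fin n → ℕ)) := by
    ext k
    rw [mem_toFS_image, Finset.mem_coe, Finset.mem_filter, mem_TTN, Set.mem_ofPred_eq, hP,
      ← Finsupp.degree_eq_sum, hm]
    constructor
    · rintro ⟨h1, h2, h3⟩
      exact ⟨⟨h1, h2⟩, h3⟩
    · rintro ⟨⟨h1, h2⟩, h3⟩
      exact ⟨h1, h2, h3⟩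
  rw [hS, Set.ncard_image_of_injective _ toFS_inj, Set.ncard_coe_finset]
  unfold rkS
  congr 1
  ext y
  rw [Finset.mem_filter, Finset.mem_filter]
  rfl

section three

variable {a : ℕ → ℕ} {f : ℕ → PN 3 K}

theorem regTriple_of_formSeqN (h : FormSeqN 3 a f) : RegTriple (f 0) (f 1) (f 2) where
  ne := h.ne_zero (by omega)
  h1 := by
    intro p q e
    have hm : p ∈ JN f 1 := by
      apply h.reg 1 (by omega)
      rw [mul_comm, e]
      exact Ideal.mul_mem_left _ _ (mem_JN_of (by omega))
    obtain ⟨j, hj, w, e2⟩ := mem_JN_succ.1 hm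
    rw [JN_zero, Ideal.mem_bot] at hj
    exact ⟨w, by rw [e2, hj, zero_add]⟩
  h2 := by
    intro p α β e
    have hm : p ∈ JN f 2 := by
      apply h.reg 2 (by omega)
      rw [mul_comm, e]
      exact Ideal.add_mem _ (Ideal.mul_mem_left _ _ (mem_JN_of (by omega)))
        (Ideal.mul_mem_left _ _ (mem_JN_of (by omega)))
    obtain ⟨j, hj, w, e2⟩ := mem_JN_succ.1 hm
    obtain ⟨j', hj', w', e3⟩ := mem_JN_succ.1 hj
    rw [JN_zero, Ideal.mem_bot] at hj'
    exact ⟨w', w, by rw [e2, e3, hj', zero_add]⟩

theorem formSeq_of_formSeqN (h : FormSeqN 3 a f) :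
    FormSeq ![a 0, a 1, a 2] ![f 0, f 1, f 2] where
  pos := by
    intro i
    fin_cases i
    · exact h.pos 0 (by omega)
    · exact h.pos 1 (by omega)
    · exact h.pos 2 (by omega)
  hom := by
    intro i
    fin_cases i
    · exact h.hom 0 (by omega)
    · exact h.hom 1 (by omega)
    · exact h.hom 2 (by omega)
  reg := regTriple_of_formSeqN h

theorem JN_three (f : ℕ → PN 3 K) : JN f 3 = Fid ![f 0, f 1, f 2] := by
  unfold JN Fid
  congr 1
  ext x
  simp only [Set.mem_image, Set.mem_Iio, Set.mem_range]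
  constructor
  · rintro ⟨i, hi, rfl⟩
    interval_cases i
    · exact ⟨0, rfl⟩
    · exact ⟨1, rfl⟩
    · exact ⟨2, rfl⟩
  · rintro ⟨i, rfl⟩
    fin_cases i
    · exact ⟨0, by omega, rfl⟩
    · exact ⟨1, by omega, rfl⟩
    · exact ⟨2, by omega, rfl⟩

theorem allowed_three {m : Fin 3 → ℕ} :
    AllowedN (AN 3 3 a) m ↔ OutsideT ![a 0, a 1, a 2] (toFS m) := by
  rw [allowed_iff]
  constructor
  · intro h i
    fin_cases i
    · exact h 0 (by simp)
    · exact h 1 (by simp)
    · exact h 2 (by simp)
  · intro h i _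
    have := h i
    fin_cases i
    · exact this
    · exact this
    · exact this

theorem lexStep_of_At {d : ℕ} (hAt : LexStepAt ![a 0, a 1, a 2] ![f 0, f 1, f 2] d) :
    LexStepN 3 a f d := by
  intro X Y h1 h2 h3 h4 h5 m hm hr j hj
  have hFF : ∀ e, FF ![f 0, f 1, f 2] e = pieceN (JN f 3) e := by
    intro e
    rw [JN_three]
    rfl
  have hP : ∀ k : Fin 3 →₀ ℕ, OutsideT ![a 0, a 1, a 2] k ↔ AllowedN (AN 3 3 a) (k : Fin 3 → ℕ) := by
    intro k
    rw [allowed_three, toFS_surj]
  obtain ⟨hm1, hm2⟩ := mem_TTN.1 hm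
  have hdeg : (toFS m).degree = d := by rw [degree_toFS, hm1]
  have hdeg2 : (toFS m + Finsupp.single j 1).degree = d + 1 := by
    rw [← toFS_add_eN, degree_toFS, sum_add_eN, hm1]
  have hrank : lexRankT ![a 0, a 1, a 2] (toFS m) = rkS (kN 3) (TTN (AN 3 3 a) d) m :=
    lexRank_bridge hP hdeg
  have hrank2 : lexRankT ![a 0, a 1, a 2] (toFS m + Finsupp.single j 1) =
      rkS (kN 3) (TTN (AN 3 3 a) (d + 1)) (m + eN j) := by
    rw [← toFS_add_eN]
    exact lexRank_bridge hP (by rw [toFS_add_eN]; exact hdeg2)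
  have := hAt X Y (by rw [hFF]; exact h1) h2 (by
      intro z hz
      obtain ⟨u, hu, v, hv, w, hw, rfl⟩ := mem_HS1_mul.1 hz
      exact Y.add_mem (Y.add_mem (h3 _ _ hu) (h3 _ _ hv)) (h3 _ _ hw))
    (by rw [hFF]; exact h4) h5 (toFS m) hdeg (allowed_three.1 hm2)
    (by rw [hrank, hFF]; exact hr) j
    (by
      rw [← toFS_add_eN]
      exact allowed_three.1 hj)
  rw [hrank2, hFF] at this
  exact this

end three

/-- Adding a power of a linear form of high degree. -/
theorem ext_down [Infinite K] {N c : ℕ} (hc : c ≤ N)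
    (hH : ∀ a, FamN (c + 1) a → ∀ f : ℕ → PN (N + 1) K, FormSeqN (c + 1) a f → ∀ d,
      LexStepN (c + 1) a f d) {a : ℕ → ℕ} (ha : FamN c a) {f : ℕ → PN (N + 1) K}
    (hf : FormSeqN c a f) (d : ℕ) : LexStepN c a f d := by
  obtain ⟨b, hb⟩ := exists_ell hc hf.reg
  set D := d + 2 + ∑ j ∈ Finset.range c, a j with hD
  set a' := Function.update a c D with ha'
  set f' := Function.update f c (ellN b ^ D) with hf'
  have haL : ∀ i, i < c → a' i = a i := fun i hi => Function.update_of_ne (by omega) _ _
  have hfL : ∀ i, i < c → f' i = f i := fun i hi => Function.update_of_ne (by omega) _ _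
  have haC : a' c = D := Function.update_self _ _ _
  have hfC : f' c = ellN b ^ D := Function.update_self _ _ _
  have hJ : ∀ j, j ≤ c → JN f' j = JN f j := by
    intro j hj
    unfold JN
    congr 1
    ext x
    simp only [Set.mem_image, Set.mem_Iio]
    constructor
    · rintro ⟨i, hi, rfl⟩
      exact ⟨i, hi, (hfL i (by omega)).symm⟩
    · rintro ⟨i, hi, rfl⟩
      exact ⟨i, hi, hfL i (by omega)⟩
  have hle : ∀ i, i < c → a i ≤ ∑ j ∈ Finset.range c, a j := fun i hi =>
    Finset.single_le_sum (f := a) (fun _ _ => Nat.zero_le _) (Finset.mem_range.2 hi)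
  have hsum : ∑ j ∈ Finset.range c, (a j - 1) ≤ ∑ j ∈ Finset.range c, a j :=
    Finset.sum_le_sum fun j _ => Nat.sub_le _ _
  have hfam : FamN (c + 1) a' := by
    obtain ⟨h1, h2, h3⟩ := ha
    refine ⟨fun i hi => ?_, fun i j hij hj => ?_, fun i h3i hi => ?_⟩
    · by_cases hic : i = c
      · subst hic
        rw [haC]
        omega
      · rw [haL i (by omega)]
        exact h1 i (by omega)
    · by_cases hjc : j = c
      · subst hjc
        rw [haC]
        by_cases hic : i = j
        · subst hic
          rw [haC]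
        · rw [haL i (by omega)]
          have := hle i (by omega)
          omega
      · rw [haL i (by omega), haL j (by omega)]
        exact h2 i j hij (by omega)
    · by_cases hic : i = c
      · subst hic
        rw [haC]
        have e : ∑ j ∈ Finset.range i, (a' j - 1) = ∑ j ∈ Finset.range i, (a j - 1) :=
          Finset.sum_congr rfl fun j hj => by rw [haL j (Finset.mem_range.1 hj)]
        rw [e]
        omega
      · rw [haL i (by omega)]
        have e : ∑ j ∈ Finset.range i, (a' j - 1) = ∑ j ∈ Finset.range i, (a j - 1) :=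
          Finset.sum_congr rfl fun j hj => by
            have := Finset.mem_range.1 hj
            rw [haL j (by omega)]
        rw [e]
        exact h3 i h3i (by omega)
  have hform : FormSeqN (c + 1) a' f' := by
    refine ⟨fun i hi => ?_, fun i hi => ?_, fun i hi u hu => ?_⟩
    · by_cases hic : i = c
      · subst hic
        rw [haC]
        omega
      · rw [haL i (by omega)]
        exact hf.pos i (by omega)
    · by_cases hic : i = c
      · subst hic
        rw [haC, hfC]
        simpa using (ell_hom b).pow D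
      · rw [haL i (by omega), hfL i (by omega)]
        exact hf.hom i (by omega)
    · rw [hJ i (by omega)] at hu ⊢
      by_cases hic : i = c
      · subst hic
        rw [hfC] at hu
        have key : ∀ e : ℕ, ∀ u, ellN b ^ e * u ∈ JN f i → u ∈ JN f i := by
          intro e
          induction e with
          | zero =>
            intro u hu
            simpa using hu
          | succ e ih =>
            intro u hu
            apply hb i (le_refl i)
            apply ih
            rw [pow_succ] at hu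
            rwa [mul_assoc] at hu
        exact key D u hu
      · rw [hfL i (by omega)] at hu
        exact hf.reg i (by omega) u hu
  have h1 := hH a' hfam f' hform d
  have h2 := (lexStep_trunc hform (by omega) (by rw [haC]; omega)).1 h1
  have hA : AN (N + 1) c a' = AN (N + 1) c a := by
    funext i
    simp only [AN]
    by_cases hi : i.val < c
    · rw [if_pos hi, if_pos hi, haL _ hi]
    · rw [if_neg hi, if_neg hi]
  unfold LexStepN at h2 ⊢
  rw [hA, hJ c (le_refl c)] at h2
  exact h2

/-- The base of the induction. -/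
theorem SB_three [Infinite K] : SB K 3 3 := by
  have h3 : ∀ a, FamN 3 a → ∀ f : ℕ → PN 3 K, FormSeqN 3 a f → ∀ d, LexStepN 3 a f d := by
    intro a ha f hf d
    exact lexStep_of_At (lexStep_all (formSeq_of_formSeqN hf) (ha.1 0 (by omega))
      (ha.2.1 0 1 (by omega) (by omega)) (ha.2.1 1 2 (by omega) (by omega)) d)
  have h2 : ∀ a, FamN 2 a → ∀ f : ℕ → PN 3 K, FormSeqN 2 a f → ∀ d, LexStepN 2 a f d :=
    fun a ha f hf d => ext_down (N := 2) (by omega) h3 ha hf d
  have h1 : ∀ a, FamN 1 a → ∀ f : ℕ → PN 3 K, FormSeqN 1 a f → ∀ d, LexStepN 1 a f d :=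
    fun a ha f hf d => ext_down (N := 2) (by omega) h2 ha hf d
  have h0 : ∀ a, FamN 0 a → ∀ f : ℕ → PN 3 K, FormSeqN 0 a f → ∀ d, LexStepN 0 a f d :=
    fun a ha f hf d => ext_down (N := 2) (by omega) h1 ha hf d
  intro c _ hc3 a ha f hf d
  interval_cases c
  · exact h0 a ha f hf d
  · exact h1 a ha f hf d
  · exact h2 a ha f hf d
  · exact h3 a ha f hf d

/-- All numbers of variables, at most three forms. -/
theorem SB_all_three [Infinite K] {n : ℕ} (hn : 3 ≤ n) : SB K n 3 := by
  induction n, hn using Nat.le_induction with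
  | base => exact SB_three
  | succ N hN ih =>
    intro c hc hc3 a ha f hf d
    exact SB_succ_short (by omega) ih (by omega) hc3 ha hf d

end Vale.Agent.Lib.P200
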