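import Vale.Agent.Lib.P200.NOrd

/-!
Combinatorics of monomials with bounded exponents: the upper shadow of an initial segment.
-/

namespace Vale.Agent.Lib.P200
open Finset

/-- The unit vector. -/
abbrev eN {n : ℕ} (j : Fin n) : Fin n → ℕ := Pi.single j 1

/-- Bounded exponents. -/
def AllowedN {n : ℕ} (A : Fin n → ℕ∞) (m : Fin n → ℕ) : Prop := ∀ i, (m i : ℕ∞) < A i

open Classical in
/-- Allowed exponent vectors of degree `d`. -/
noncomputable def TTN {n : ℕ} (A : Fin n → ℕ∞) (d : ℕ) : Finset (Fin n → ℕ) :=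
  (Finset.piAntidiag Finset.univ d).filter (AllowedN A)

open Classical in
/-- The upper shadow. -/
noncomputable def upS {n : ℕ} (A : Fin n → ℕ∞) (V : Finset (Fin n → ℕ)) : Finset (Fin n → ℕ) :=
  (V.biUnion fun m => Finset.univ.image fun j => m + eN j).filter (AllowedN A)

/-- The lexicographic key. -/
abbrev kN (n : ℕ) : (Fin n → ℕ) → Lex (Fin n → ℕ) := toLex

theorem kN_inj (n : ℕ) : Function.Injective (kN n) := toLex.injective

variable {n : ℕ} {A : Fin n → ℕ∞}

theorem mem_TTN {d : ℕ} {m : Fin n → ℕ} : m ∈ TTN A d ↔ ∑ i, m i = d ∧ AllowedN A m := by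
  unfold TTN
  simp [Finset.mem_filter, Finset.mem_piAntidiag]

theorem mem_upS {V : Finset (Fin n → ℕ)} {w : Fin n → ℕ} :
    w ∈ upS A V ↔ AllowedN A w ∧ ∃ m ∈ V, ∃ j, w = m + eN j := by
  unfold upS
  simp only [Finset.mem_filter, Finset.mem_biUnion, Finset.mem_image, Finset.mem_univ, true_and]
  constructor
  · rintro ⟨⟨m, hm, j, rfl⟩, h⟩
    exact ⟨h, m, hm, j, rfl⟩
  · rintro ⟨h, m, hm, j, rfl⟩
    exact ⟨⟨m, hm, j, rfl⟩, h⟩

theorem sum_add_eN (m : Fin n → ℕ) (j : Fin n) : ∑ i, (m + eN j) i = ∑ i, m i + 1 := by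
  simp [Finset.sum_add_distrib]

theorem upS_subset {V : Finset (Fin n → ℕ)} {d : ℕ} (hV : V ⊆ TTN A d) :
    upS A V ⊆ TTN A (d + 1) := by
  intro w hw
  obtain ⟨h, m, hm, j, rfl⟩ := mem_upS.1 hw
  rw [mem_TTN, sum_add_eN]
  exact ⟨by rw [(mem_TTN.1 (hV hm)).1], h⟩

theorem upS_mono {V W : Finset (Fin n → ℕ)} (h : V ⊆ W) : upS A V ⊆ upS A W := by
  intro w hw
  obtain ⟨hh, m, hm, j, rfl⟩ := mem_upS.1 hw
  exact mem_upS.2 ⟨hh, m, h hm, j, rfl⟩

theorem lt_iff_lex {x y : Fin n → ℕ} :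
    kN n x < kN n y ↔ ∃ p, (∀ r, r < p → x r = y r) ∧ x p < y p := Iff.rfl

theorem eN_apply_ne {j r : Fin n} (h : r ≠ j) : (eN j) r = 0 := by
  simp [h]

theorem eN_apply_self (j : Fin n) : (eN j) j = 1 := by
  simp

theorem allowed_of_le {m w : Fin n → ℕ} (hw : AllowedN A w) (h : ∀ i, m i ≤ w i) :
    AllowedN A m := fun i =>
  lt_of_le_of_lt (by exact_mod_cast h i) (hw i)

/-- The upper shadow of an initial segment is an initial segment. -/
theorem up_top_up (d q : ℕ) {w w' : Fin n → ℕ}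
    (hw : w ∈ upS A (topS (kN n) (TTN A d) q)) (hw' : w' ∈ TTN A (d + 1))
    (hlt : kN n w < kN n w') : w' ∈ upS A (topS (kN n) (TTN A d) q) := by
  classical
  obtain ⟨-, m, hm, j, rfl⟩ := mem_upS.1 hw
  obtain ⟨hs', ha'⟩ := mem_TTN.1 hw'
  have hmT := topS_subset _ _ hm
  obtain ⟨hsm, ham⟩ := mem_TTN.1 hmT
  -- last nonzero coordinate of w'
  have hne : (Finset.univ.filter fun i => w' i ≠ 0).Nonempty := by
    by_contra hemp
    rw [Finset.not_nonempty_iff_eq_empty] at hemp
    have : ∑ i, w' i = 0 := by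
      apply Finset.sum_eq_zero
      intro i _
      by_contra h
      have : i ∈ Finset.univ.filter fun i => w' i ≠ 0 := Finset.mem_filter.2 ⟨Finset.mem_univ _, h⟩
      rw [hemp] at this
      simp at this
    omega
  set j' := (Finset.univ.filter fun i => w' i ≠ 0).max' hne with hj'
  have hj'1 : w' j' ≠ 0 := (Finset.mem_filter.1 (Finset.max'_mem _ hne)).2
  have hj'2 : ∀ i, j' < i → w' i = 0 := by
    intro i hi
    by_contra h
    have hmem : i ∈ Finset.univ.filter fun i => w' i ≠ 0 :=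
      Finset.mem_filter.2 ⟨Finset.mem_univ _, h⟩
    have := Finset.le_max' _ i hmem
    exact absurd hi (not_lt.2 this)
  set z : Fin n → ℕ := w' - eN j' with hz
  have hzw : w' = z + eN j' := by
    funext i
    simp only [hz, Pi.add_apply, Pi.sub_apply]
    by_cases hi : i = j'
    · subst hi
      rw [eN_apply_self]
      omega
    · rw [eN_apply_ne hi]
      omega
  have hzle : ∀ i, z i ≤ w' i := fun i => by
    rw [hzw, Pi.add_apply]
    omega
  have hzs : ∑ i, z i = d := by
    have := sum_add_eN z j'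
    rw [← hzw] at this
    omega
  have hzT : z ∈ TTN A d := mem_TTN.2 ⟨hzs, allowed_of_le ha' hzle⟩
  refine mem_upS.2 ⟨ha', z, ?_, j', hzw⟩
  by_contra hzn
  have hnlt : ¬ kN n m < kN n z := fun h => hzn (top_up (kN_inj n) hm hzT h)
  have hnee : z ≠ m := fun h => hzn (h ▸ hm)
  have hzlt : kN n z < kN n m := by
    rcases lt_trichotomy (kN n z) (kN n m) with h | h | h
    · exact h
    · exact absurd (kN_inj n h) hnee
    · exact absurd h hnlt
  obtain ⟨p, hp1, hp2⟩ := lt_iff_lex.1 hzlt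
  have hjp : p < j' := by
    by_contra hle
    have hle' : j' ≤ p := not_lt.1 hle
    have hzz : ∀ i, p < i → z i = 0 := by
      intro i hi
      have hi' : j' < i := lt_of_le_of_lt hle' hi
      have := hzle i
      rw [hj'2 i hi'] at this
      omega
    have : ∑ i, z i < ∑ i, m i := by
      refine Finset.sum_lt_sum (fun i _ => ?_) ⟨p, Finset.mem_univ _, hp2⟩
      rcases lt_trichotomy i p with h | h | h
      · exact le_of_eq (hp1 i h)
      · subst h
        exact le_of_lt hp2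
      · rw [hzz i h]
        exact Nat.zero_le _
    omega
  apply absurd hlt
  apply not_lt.2
  apply le_of_lt
  refine lt_iff_lex.2 ?_
  have hw'e : ∀ r, r < j' → w' r = z r := by
    intro r hr
    rw [hzw, Pi.add_apply, eN_apply_ne (ne_of_lt hr), add_zero]
  by_cases hjlt : j < p
  · refine ⟨j, ?_, ?_⟩
    · intro r hr
      rw [hw'e r (lt_trans hr (lt_trans hjlt hjp)), hp1 r (lt_trans hr hjlt), Pi.add_apply,
        eN_apply_ne (ne_of_lt hr), add_zero]
    · rw [hw'e j (lt_trans hjlt hjp), hp1 j hjlt, Pi.add_apply, eN_apply_self]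
      omega
  · refine ⟨p, ?_, ?_⟩
    · intro r hr
      have hrj : r ≠ j := by
        intro h
        subst h
        exact hjlt hr
      rw [hw'e r (lt_trans hr hjp), hp1 r hr, Pi.add_apply, eN_apply_ne hrj, add_zero]
    · rw [hw'e p hjp, Pi.add_apply]
      omega

end Vale.Agent.Lib.P200
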