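import Vale.Agent.Lib.P200.NCL1

/-!
Compression of a set of monomials along one coordinate.
-/

namespace Vale.Agent.Lib.P200
open Finset

variable {n : ℕ} {A : Fin (n + 1) → ℕ∞}

/-- Deleting a coordinate. -/
def delN (i : Fin (n + 1)) (m : Fin (n + 1) → ℕ) : Fin n → ℕ := fun k => m (i.succAbove k)

theorem del_lt_iff {i : Fin (n + 1)} {x y : Fin (n + 1) → ℕ} (h : x i = y i) :
    kN _ x < kN _ y ↔ kN _ (delN i x) < kN _ (delN i y) := by
  constructor
  · intro hlt
    obtain ⟨p, hp1, hp2⟩ := lt_iff_lex.1 hlt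
    have hpi : p ≠ i := by
      intro e
      subst e
      omega
    obtain ⟨p', rfl⟩ := Fin.exists_succAbove_eq hpi
    refine lt_iff_lex.2 ⟨p', fun r hr => ?_, hp2⟩
    exact hp1 _ ((Fin.strictMono_succAbove i) hr)
  · intro hlt
    obtain ⟨p', hp1, hp2⟩ := lt_iff_lex.1 hlt
    refine lt_iff_lex.2 ⟨i.succAbove p', fun r hr => ?_, hp2⟩
    by_cases hri : r = i
    · subst hri
      exact h
    · obtain ⟨r', rfl⟩ := Fin.exists_succAbove_eq hri
      exact hp1 r' ((Fin.strictMono_succAbove i).lt_iff_lt.1 hr)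

theorem del_inj {i : Fin (n + 1)} {x y : Fin (n + 1) → ℕ} (h : x i = y i)
    (h2 : delN i x = delN i y) : x = y := by
  funext r
  by_cases hri : r = i
  · subst hri
    exact h
  · obtain ⟨r', rfl⟩ := Fin.exists_succAbove_eq hri
    exact congrFun h2 r'

theorem sum_del (i : Fin (n + 1)) (m : Fin (n + 1) → ℕ) : ∑ k, m k = m i + ∑ k, delN i m k :=
  Fin.sum_univ_succAbove _ i

open Classical in
/-- A slice of the monomials of degree `d`. -/
noncomputable def slN (A : Fin (n + 1) → ℕ∞) (d : ℕ) (i : Fin (n + 1)) (t : ℕ) :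
    Finset (Fin (n + 1) → ℕ) :=
  (TTN A d).filter fun m => m i = t

theorem mem_slN {d : ℕ} {i : Fin (n + 1)} {t : ℕ} {m : Fin (n + 1) → ℕ} :
    m ∈ slN A d i t ↔ m ∈ TTN A d ∧ m i = t := by
  unfold slN
  rw [Finset.mem_filter]

theorem del_allowed {i : Fin (n + 1)} {m : Fin (n + 1) → ℕ} (h : AllowedN A m) :
    AllowedN (A ∘ i.succAbove) (delN i m) := fun k => h _

theorem image_del_slice {d t : ℕ} {i : Fin (n + 1)} (h : t ≤ d) (hA : (t : ℕ∞) < A i) :
    (slN A d i t).image (delN i) = TTN (A ∘ i.succAbove) (d - t) := by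
  classical
  ext m'
  simp only [Finset.mem_image, mem_slN, mem_TTN]
  constructor
  · rintro ⟨m, ⟨⟨h1, h2⟩, h3⟩, rfl⟩
    refine ⟨?_, del_allowed h2⟩
    have := sum_del i m
    omega
  · rintro ⟨h1, h2⟩
    refine ⟨Fin.insertNth i t m', ⟨⟨?_, ?_⟩, by simp⟩, ?_⟩
    · rw [sum_del i]
      have e : delN i (Fin.insertNth (α := fun _ => ℕ) i t m') = m' := by
        funext k
        simp [delN]
      rw [e, h1]
      simp
      omega
    · intro r
      by_cases hri : r = i
      · subst hri
        simpa using hA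
      · obtain ⟨r', rfl⟩ := Fin.exists_succAbove_eq hri
        simpa using h2 r'
    · funext k
      simp [delN]

theorem del_slice_inj (t : ℕ) (i : Fin (n + 1)) (W : Finset (Fin (n + 1) → ℕ)) :
    Set.InjOn (delN i) (W.filter fun m => m i = t : Finset _) := by
  intro x hx y hy e
  have h1 := (Finset.mem_filter.1 hx).2
  have h2 := (Finset.mem_filter.1 hy).2
  exact del_inj (h1.trans h2.symm) e

open Classical in
/-- The number of elements of `V` in a slice. -/
noncomputable def qN (V : Finset (Fin (n + 1) → ℕ)) (i : Fin (n + 1)) (t : ℕ) : ℕ :=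
  (V.filter fun k => k i = t).card

open Classical in
/-- Compression along coordinate `i`. -/
noncomputable def compN (A : Fin (n + 1) → ℕ∞) (d : ℕ) (i : Fin (n + 1))
    (V : Finset (Fin (n + 1) → ℕ)) : Finset (Fin (n + 1) → ℕ) :=
  (TTN A d).filter fun m => rkS (kN _) (slN A d i (m i)) m < qN V i (m i)

theorem compN_subset (d : ℕ) (i : Fin (n + 1)) (V : Finset (Fin (n + 1) → ℕ)) :
    compN A d i V ⊆ TTN A d := Finset.filter_subset _ _

theorem slice_comp (d : ℕ) (i : Fin (n + 1)) (V : Finset (Fin (n + 1) → ℕ)) (t : ℕ) :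
    (compN A d i V).filter (fun m => m i = t) = topS (kN _) (slN A d i t) (qN V i t) := by
  classical
  ext m
  simp only [compN, Finset.mem_filter, mem_topS, mem_slN]
  constructor
  · rintro ⟨⟨h1, h2⟩, rfl⟩
    exact ⟨⟨h1, rfl⟩, h2⟩
  · rintro ⟨⟨h1, rfl⟩, h2⟩
    exact ⟨⟨h1, h2⟩, rfl⟩

theorem coord_le {d : ℕ} {m : Fin (n + 1) → ℕ} (h : m ∈ TTN A d) (i : Fin (n + 1)) : m i ≤ d := by
  have := sum_del i m
  have h2 := (mem_TTN.1 h).1
  omega

theorem qN_le {V : Finset (Fin (n + 1) → ℕ)} {d : ℕ} (hV : V ⊆ TTN A d) (i : Fin (n + 1)) (t : ℕ) :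
    qN V i t ≤ (slN A d i t).card :=
  Finset.card_le_card (Finset.filter_subset_filter _ hV)

theorem card_slice_comp {V : Finset (Fin (n + 1) → ℕ)} {d : ℕ} (hV : V ⊆ TTN A d)
    (i : Fin (n + 1)) (t : ℕ) :
    ((compN A d i V).filter (fun m => m i = t)).card = qN V i t := by
  rw [slice_comp, card_topS (kN_inj _), min_eq_left (qN_le hV i t)]

theorem card_compN {V : Finset (Fin (n + 1) → ℕ)} {d : ℕ} (hV : V ⊆ TTN A d) (i : Fin (n + 1)) :
    (compN A d i V).card = V.card := by
  classical
  rw [Finset.card_eq_sum_card_fiberwise (f := fun m => m i) (t := Finset.range (d + 1))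
      (fun m hm => by
        have := coord_le (compN_subset d i V hm) i
        simpa using (by omega : m i < d + 1)),
    Finset.card_eq_sum_card_fiberwise (s := V) (f := fun m => m i) (t := Finset.range (d + 1))
      (fun m hm => by
        have := coord_le (hV hm) i
        simpa using (by omega : m i < d + 1))]
  refine Finset.sum_congr rfl fun t _ => ?_
  rw [card_slice_comp hV]
  rfl

/-- Sum of the ranks. -/
noncomputable def RN (A : Fin (n + 1) → ℕ∞) (d : ℕ) (V : Finset (Fin (n + 1) → ℕ)) : ℕ :=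
  ∑ m ∈ V, rkS (kN _) (TTN A d) m

theorem RN_comp {V : Finset (Fin (n + 1) → ℕ)} {d : ℕ} (hV : V ⊆ TTN A d) (i : Fin (n + 1))
    (hne : compN A d i V ≠ V) : RN A d (compN A d i V) < RN A d V := by
  classical
  unfold RN
  rw [← Finset.sum_fiberwise_of_maps_to (s := V) (g := fun m => m i) (t := Finset.range (d + 1))
      (fun m hm => by
        have := coord_le (hV hm) i
        simpa using (by omega : m i < d + 1)),
    ← Finset.sum_fiberwise_of_maps_to (s := compN A d i V) (g := fun m => m i)
      (t := Finset.range (d + 1))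
      (fun m hm => by
        have := coord_le (compN_subset d i V hm) i
        simpa using (by omega : m i < d + 1))]
  have hsub : ∀ t, (V.filter fun m => m i = t) ⊆ slN A d i t := fun t =>
    Finset.filter_subset_filter _ hV
  have hρ : ∀ t, ∀ x ∈ slN A d i t, ∀ y ∈ slN A d i t, kN _ x < kN _ y →
      rkS (kN _) (TTN A d) y < rkS (kN _) (TTN A d) x := by
    intro t x _ y hy h
    exact rk_anti (mem_slN.1 hy).1 h
  have key := fun t => sum_top_le (kN_inj _) (hsub t) (hρ t)
  obtain ⟨m, hm⟩ : ∃ t ∈ Finset.range (d + 1), (V.filter fun m => m i = t) ≠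
      topS (kN _) (slN A d i t) (V.filter fun m => m i = t).card := by
    by_contra hall
    push Not at hall
    apply hne
    ext m
    constructor
    · intro hm
      have hT := compN_subset d i V hm
      have hle := coord_le hT i
      have h1 := hall (m i) (Finset.mem_range.2 (by omega))
      have h2 : m ∈ (compN A d i V).filter fun k => k i = m i :=
        Finset.mem_filter.2 ⟨hm, rfl⟩
      rw [slice_comp] at h2
      unfold qN at h2
      rw [← h1] at h2
      exact (Finset.mem_filter.1 h2).1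
    · intro hm
      have hT := hV hm
      have hle := coord_le hT i
      have h1 := hall (m i) (Finset.mem_range.2 (by omega))
      have h2 : m ∈ V.filter fun k => k i = m i := Finset.mem_filter.2 ⟨hm, rfl⟩
      rw [h1] at h2
      have h3 : m ∈ (compN A d i V).filter fun k => k i = m i := by
        rw [slice_comp]
        exact h2
      exact (Finset.mem_filter.1 h3).1
  apply Finset.sum_lt_sum
  · intro t _
    rw [slice_comp]
    exact (key t).1
  · refine ⟨m, hm.1, ?_⟩
    rw [slice_comp]
    exact (key m).2 hm.2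

end Vale.Agent.Lib.P200
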