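import Vale.Agent.Lib.P200.NCL2

/-!
Compression does not increase the upper shadow.
-/

namespace Vale.Agent.Lib.P200
open Finset

/-- The Clements-Lindström inequality for exponent bounds `A`. -/
def CLcore {n : ℕ} (A : Fin n → ℕ∞) : Prop :=
  ∀ d, ∀ V : Finset (Fin n → ℕ), V ⊆ TTN A d →
    (upS A (topS (kN n) (TTN A d) V.card)).card ≤ (upS A V).card

variable {n : ℕ} {A : Fin (n + 1) → ℕ∞} {i : Fin (n + 1)}

theorem del_add_eN_succ (i : Fin (n + 1)) (m : Fin (n + 1) → ℕ) (j : Fin n) :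
    delN i (m + eN (i.succAbove j)) = delN i m + eN j := by
  funext k
  simp only [delN, Pi.add_apply]
  congr 1
  by_cases h : k = j
  · subst h
    simp
  · rw [eN_apply_ne h, eN_apply_ne]
    exact fun e => h ((Fin.succAbove_right_injective) e)

theorem del_add_eN_self (i : Fin (n + 1)) (m : Fin (n + 1) → ℕ) :
    delN i (m + eN i) = delN i m := by
  funext k
  simp only [delN, Pi.add_apply]
  rw [eN_apply_ne (Fin.succAbove_ne i k), add_zero]

theorem add_eN_self_coord (i : Fin (n + 1)) (m : Fin (n + 1) → ℕ) : (m + eN i) i = m i + 1 := by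
  simp

theorem add_eN_ne_coord {i j : Fin (n + 1)} (h : i ≠ j) (m : Fin (n + 1) → ℕ) :
    (m + eN j) i = m i := by
  rw [Pi.add_apply, eN_apply_ne h, add_zero]

open Classical in
/-- The deleted slice. -/
noncomputable def dtN (V : Finset (Fin (n + 1) → ℕ)) (i : Fin (n + 1)) (t : ℕ) :
    Finset (Fin n → ℕ) := (V.filter fun m => m i = t).image (delN i)

theorem mem_dtN {V : Finset (Fin (n + 1) → ℕ)} {i : Fin (n + 1)} {t : ℕ} {m' : Fin n → ℕ} :
    m' ∈ dtN V i t ↔ ∃ m ∈ V, m i = t ∧ delN i m = m' := by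
  unfold dtN
  simp only [Finset.mem_image, Finset.mem_filter]
  constructor
  · rintro ⟨m, ⟨h1, h2⟩, h3⟩
    exact ⟨m, h1, h2, h3⟩
  · rintro ⟨m, h1, h2, h3⟩
    exact ⟨m, ⟨h1, h2⟩, h3⟩

theorem card_dtN (V : Finset (Fin (n + 1) → ℕ)) (i : Fin (n + 1)) (t : ℕ) :
    (dtN V i t).card = qN V i t :=
  Finset.card_image_of_injOn (del_slice_inj t i V)

theorem dtN_subset {V : Finset (Fin (n + 1) → ℕ)} {d : ℕ} (hV : V ⊆ TTN A d) (i : Fin (n + 1))
    (t : ℕ) : dtN V i t ⊆ TTN (A ∘ i.succAbove) (d - t) := by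
  intro m' hm'
  obtain ⟨m, hm, rfl, rfl⟩ := mem_dtN.1 hm'
  obtain ⟨h1, h2⟩ := mem_TTN.1 (hV hm)
  refine mem_TTN.2 ⟨?_, del_allowed h2⟩
  have := sum_del i m
  omega

/-- The two kinds of elements in a slice of the shadow of `V`. -/
theorem up_slice_left {V : Finset (Fin (n + 1) → ℕ)} {d : ℕ} (hV : V ⊆ TTN A d) (i : Fin (n + 1))
    (t : ℕ) : upS (A ∘ i.succAbove) (dtN V i t) ⊆ dtN (upS A V) i t := by
  intro w' hw'
  obtain ⟨h1, m', hm', j, rfl⟩ := mem_upS.1 hw'
  obtain ⟨m, hm, rfl, rfl⟩ := mem_dtN.1 hm'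
  refine mem_dtN.2 ⟨m + eN (i.succAbove j), mem_upS.2 ⟨?_, m, hm, _, rfl⟩,
    add_eN_ne_coord (Fin.succAbove_ne i j).symm m, del_add_eN_succ i m j⟩
  intro r
  by_cases hri : r = i
  · subst hri
    rw [add_eN_ne_coord (Fin.succAbove_ne r j).symm m]
    exact (mem_TTN.1 (hV hm)).2 r
  · obtain ⟨r', rfl⟩ := Fin.exists_succAbove_eq hri
    have := h1 r'
    rw [← del_add_eN_succ i m j] at this
    exact this

theorem up_slice_right {V : Finset (Fin (n + 1) → ℕ)} {d : ℕ} (hV : V ⊆ TTN A d) (i : Fin (n + 1))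
    (s : ℕ) (hs : ((s + 1 : ℕ) : ℕ∞) < A i) : dtN V i s ⊆ dtN (upS A V) i (s + 1) := by
  intro m' hm'
  obtain ⟨m, hm, rfl, rfl⟩ := mem_dtN.1 hm'
  refine mem_dtN.2 ⟨m + eN i, mem_upS.2 ⟨?_, m, hm, _, rfl⟩,
    add_eN_self_coord i m, del_add_eN_self i m⟩
  intro r
  by_cases hri : r = i
  · subst hri
    rw [add_eN_self_coord]
    exact hs
  · rw [add_eN_ne_coord hri]
    exact (mem_TTN.1 (hV hm)).2 r

theorem up_slice_sub {W : Finset (Fin (n + 1) → ℕ)} (i : Fin (n + 1)) (t : ℕ) :
    ∀ w' ∈ dtN (upS A W) i t, w' ∈ upS (A ∘ i.succAbove) (dtN W i t) ∨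
      ∃ s, t = s + 1 ∧ ((t : ℕ) : ℕ∞) < A i ∧ w' ∈ dtN W i s := by
  intro w' hw'
  obtain ⟨w, hw, rfl, rfl⟩ := mem_dtN.1 hw'
  obtain ⟨h1, m, hm, j, rfl⟩ := mem_upS.1 hw
  by_cases hji : j = i
  · subst hji
    right
    refine ⟨m j, add_eN_self_coord j m, h1 j, ?_⟩
    rw [del_add_eN_self]
    exact mem_dtN.2 ⟨m, hm, rfl, rfl⟩
  · left
    obtain ⟨j', rfl⟩ := Fin.exists_succAbove_eq hji
    refine mem_upS.2 ⟨del_allowed h1, delN i m, ?_, j', del_add_eN_succ i m j'⟩
    refine mem_dtN.2 ⟨m, hm, ?_, rfl⟩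
    exact (add_eN_ne_coord (Fin.succAbove_ne i j').symm m).symm

/-- The deleted slice of a compressed family is an initial segment. -/
theorem dt_comp {V : Finset (Fin (n + 1) → ℕ)} {d : ℕ} (hV : V ⊆ TTN A d) (i : Fin (n + 1))
    (t : ℕ) : dtN (compN A d i V) i t =
      topS (kN n) (TTN (A ∘ i.succAbove) (d - t)) (qN V i t) := by
  classical
  unfold dtN
  rw [slice_comp]
  by_cases h : t ≤ d ∧ (t : ℕ∞) < A i
  · refine top_image (kN_inj _) ?_ (image_del_slice h.1 h.2) ?_ _
    · intro x hx y hy e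
      exact del_inj (((mem_slN.1 hx).2).trans ((mem_slN.1 hy).2).symm) e
    · intro x hx y hy
      exact del_lt_iff (((mem_slN.1 hx).2).trans ((mem_slN.1 hy).2).symm)
  · have hemp : slN A d i t = ∅ := by
      rw [Finset.eq_empty_iff_forall_notMem]
      intro m hm
      obtain ⟨h1, h2⟩ := mem_slN.1 hm
      apply h
      refine ⟨h2 ▸ coord_le h1 i, ?_⟩
      rw [← h2]
      exact (mem_TTN.1 h1).2 i
    have hq : qN V i t = 0 := by
      have := qN_le hV i t
      rw [hemp] at this
      simpa using this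
    rw [hemp, hq]
    simp [topS]

theorem slice_up_le (hIH : CLcore (A ∘ i.succAbove)) {V : Finset (Fin (n + 1) → ℕ)} {d : ℕ}
    (hV : V ⊆ TTN A d) (t : ℕ) :
    (dtN (upS A (compN A d i V)) i t).card ≤ (dtN (upS A V) i t).card := by
  classical
  set A' := A ∘ i.succAbove with hA'
  -- the first family
  have ha : (upS A' (dtN (compN A d i V) i t)).card ≤ (dtN (upS A V) i t).card := by
    rw [dt_comp hV]
    have h1 := hIH (d - t) (dtN V i t) (dtN_subset hV i t)
    rw [card_dtN] at h1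
    exact h1.trans (Finset.card_le_card (up_slice_left hV i t))
  by_cases hcase : ∃ s, t = s + 1 ∧ ((t : ℕ) : ℕ∞) < A i
  · obtain ⟨s, rfl, hs⟩ := hcase
    have hb : (dtN (compN A d i V) i s).card ≤ (dtN (upS A V) i (s + 1)).card := by
      rw [card_dtN]
      have : qN (compN A d i V) i s = qN V i s := card_slice_comp hV i s
      rw [this, ← card_dtN]
      exact Finset.card_le_card (up_slice_right hV i s hs)
    have hsub : dtN (upS A (compN A d i V)) i (s + 1) ⊆
        upS A' (dtN (compN A d i V) i (s + 1)) ∪ dtN (compN A d i V) i s := by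
      intro w' hw'
      rcases up_slice_sub i (s + 1) w' hw' with h | ⟨s', e, _, h⟩
      · exact Finset.mem_union_left _ h
      · have : s' = s := by omega
        subst this
        exact Finset.mem_union_right _ h
    refine (Finset.card_le_card hsub).trans ?_
    by_cases hsd : s + 1 ≤ d
    · -- both families are initial segments of the same set
      have e1 : d - s = d - (s + 1) + 1 := by omega
      have hU1 : upS A' (dtN (compN A d i V) i (s + 1)) ⊆ TTN A' (d - s) := by
        rw [e1]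
        exact upS_subset (dtN_subset (compN_subset d i V) i (s + 1))
      have hU2 : dtN (compN A d i V) i s ⊆ TTN A' (d - s) :=
        dtN_subset (compN_subset d i V) i s
      have hup1 : ∀ x ∈ upS A' (dtN (compN A d i V) i (s + 1)), ∀ y ∈ TTN A' (d - s),
          kN n x < kN n y → y ∈ upS A' (dtN (compN A d i V) i (s + 1)) := by
        intro x hx y hy hlt
        rw [dt_comp hV] at hx ⊢
        rw [e1] at hy
        exact up_top_up _ _ hx hy hlt
      have hup2 : ∀ x ∈ dtN (compN A d i V) i s, ∀ y ∈ TTN A' (d - s),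
          kN n x < kN n y → y ∈ dtN (compN A d i V) i s := by
        intro x hx y hy hlt
        rw [dt_comp hV] at hx ⊢
        exact top_up (kN_inj _) hx hy hlt
      rw [card_union_up (kN_inj _) hU1 hU2 hup1 hup2]
      exact max_le ha hb
    · have hemp : dtN (compN A d i V) i (s + 1) = ∅ := by
        rw [Finset.eq_empty_iff_forall_notMem]
        intro m' hm'
        obtain ⟨m, hm, e, -⟩ := mem_dtN.1 hm'
        exact hsd (e ▸ coord_le (compN_subset d i V hm) i)
      rw [hemp]
      have : upS A' (∅ : Finset (Fin n → ℕ)) = ∅ := by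
        rw [Finset.eq_empty_iff_forall_notMem]
        intro w hw
        obtain ⟨-, m, hm, -⟩ := mem_upS.1 hw
        simp at hm
      rw [this, Finset.empty_union]
      exact hb
  · have hsub : dtN (upS A (compN A d i V)) i t ⊆ upS A' (dtN (compN A d i V) i t) := by
      intro w' hw'
      rcases up_slice_sub i t w' hw' with h | ⟨s', e, h2, h⟩
      · exact h
      · exact absurd ⟨s', e, h2⟩ hcase
    exact (Finset.card_le_card hsub).trans ha

/-- Compression does not increase the upper shadow. -/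
theorem up_comp_le (hIH : CLcore (A ∘ i.succAbove)) {V : Finset (Fin (n + 1) → ℕ)} {d : ℕ}
    (hV : V ⊆ TTN A d) : (upS A (compN A d i V)).card ≤ (upS A V).card := by
  classical
  have hmaps : ∀ W : Finset (Fin (n + 1) → ℕ), W ⊆ TTN A d →
      (upS A W).card = ∑ t ∈ Finset.range (d + 2), (dtN (upS A W) i t).card := by
    intro W hW
    rw [Finset.card_eq_sum_card_fiberwise (f := fun m => m i) (t := Finset.range (d + 2))
      (fun m hm => by
        have := coord_le (upS_subset hW hm) i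
        simpa using (by omega : m i < d + 2))]
    refine Finset.sum_congr rfl fun t _ => ?_
    rw [card_dtN]
    rfl
  rw [hmaps _ (compN_subset d i V), hmaps _ hV]
  exact Finset.sum_le_sum fun t _ => slice_up_le hIH hV t

end Vale.Agent.Lib.P200
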