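import Vale.Agent.Lib.P200.NCL3

/-!
The exchange step and the inductive step of the Clements-Lindström inequality,
when the last exponent is unbounded.
-/

namespace Vale.Agent.Lib.P200
open Finset

variable {n : ℕ} {A : Fin (n + 1) → ℕ∞}

theorem sum_two {N : ℕ} {a b : Fin N} (hab : a ≠ b) (u : Fin N → ℕ) (x y : ℕ)
    (hs : x + y = u a + u b) :
    ∑ k, (if k = a then x else if k = b then y else u k) = ∑ k, u k := by
  have key : ∀ k, (if k = a then x else if k = b then y else u k) +
      ((Pi.single a (u a) : Fin N → ℕ) k + (Pi.single b (u b) : Fin N → ℕ) k) =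
      u k + ((Pi.single a x : Fin N → ℕ) k + (Pi.single b y : Fin N → ℕ) k) := by
    intro k
    by_cases h1 : k = a
    · subst h1
      simp [hab]
      omega
    · by_cases h2 : k = b
      · subst h2
        simp [h1]
        omega
      · simp [h1, h2]
  have := Finset.sum_congr rfl (fun k (_ : k ∈ Finset.univ) => key k)
  simp only [Finset.sum_add_distrib, Finset.sum_pi_single', Finset.mem_univ, if_true] at this
  omega

/-- Compressed families are closed upwards in each slice. -/
theorem compressed_up {d : ℕ} {V : Finset (Fin (n + 1) → ℕ)} {i : Fin (n + 1)}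
    (hc : compN A d i V = V) {x y : Fin (n + 1) → ℕ} (hx : x ∈ V)
    (hy : y ∈ TTN A d) (e : x i = y i) (hlt : kN _ x < kN _ y) : y ∈ V := by
  classical
  rw [← hc] at hx ⊢
  have h1 : x ∈ (compN A d i V).filter fun m => m i = x i := Finset.mem_filter.2 ⟨hx, rfl⟩
  rw [slice_comp] at h1
  have h2 : y ∈ slN A d i (x i) := mem_slN.2 ⟨hy, e.symm⟩
  have h3 := top_up (kN_inj _) h1 h2 hlt
  have h4 : y ∈ (compN A d i V).filter fun m => m i = x i := by
    rw [slice_comp]
    exact h3
  exact (Finset.mem_filter.1 h4).1

/-- The exchange step. -/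
theorem exchange (hn : 2 ≤ n) (hL : A (Fin.last n) = ⊤) {d : ℕ} {V : Finset (Fin (n + 1) → ℕ)}
    (hV : V ⊆ TTN A d) (hcomp : ∀ i, compN A d i V = V)
    (hne : V ≠ topS (kN _) (TTN A d) V.card) :
    ∃ V' : Finset (Fin (n + 1) → ℕ), V' ⊆ TTN A d ∧ V'.card = V.card ∧
      (upS A V').card ≤ (upS A V).card ∧ RN A d V' < RN A d V := by
  classical
  -- an element and a missing element above it
  obtain ⟨x0, hx0, y0, hy0, hxy0, hy0V⟩ : ∃ x ∈ V, ∃ y ∈ TTN A d, kN _ x < kN _ y ∧ y ∉ V := by
    by_contra hno
    push Not at hno
    exact hne (eq_top_of_up (kN_inj _) hV fun x hx y hy h => hno x hx y hy h)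
  have hMne : (TTN A d \ V).Nonempty := ⟨y0, Finset.mem_sdiff.2 ⟨hy0, hy0V⟩⟩
  obtain ⟨u, hu, humax⟩ := Finset.exists_max_image (TTN A d \ V) (kN _) hMne
  obtain ⟨v, hv, hvmin⟩ := Finset.exists_min_image V (kN _) ⟨x0, hx0⟩
  obtain ⟨huT, huV⟩ := Finset.mem_sdiff.1 hu
  have hvT := hV hv
  have hvu : kN _ v < kN _ u :=
    lt_of_le_of_lt (hvmin x0 hx0) (lt_of_lt_of_le hxy0 (humax y0 (Finset.mem_sdiff.2 ⟨hy0, hy0V⟩)))
  obtain ⟨hus, hua⟩ := mem_TTN.1 huT
  obtain ⟨hvs, hva⟩ := mem_TTN.1 hvT
  have hdiff : ∀ i, u i ≠ v i := by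
    intro i e
    exact huV (compressed_up (hcomp i) hv huT e.symm hvu)
  set L := Fin.last n with hLdef
  have htop : ∀ x : ℕ, ((x : ℕ) : ℕ∞) < A L := by
    intro x
    rw [hL]
    exact ENat.natCast_lt_top x
  have hv0u0 : v 0 < u 0 := by
    obtain ⟨p, hp1, hp2⟩ := lt_iff_lex.1 hvu
    by_cases hp : p = 0
    · subst hp
      exact hp2
    · exact absurd (hp1 0 (Fin.pos_iff_ne_zero.2 hp)).symm (hdiff 0)
  have h0L : (0 : Fin (n + 1)) ≠ L := by
    intro e
    have := congrArg Fin.val e
    simp [hLdef] at this
    omega
  -- Step A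
  have stepA : ∀ i, i ≠ 0 → i ≠ L → u i < v i := by
    intro i hi0 hiL
    by_contra hcon
    have hlt : v i < u i := lt_of_le_of_ne (not_lt.1 hcon) (hdiff i).symm
    set z : Fin (n + 1) → ℕ := fun k => if k = i then v i else if k = L then u L + u i - v i else u k
      with hz
    have hzi : z i = v i := by simp [hz]
    have hzL : z L = u L + u i - v i := by simp [hz, hiL.symm]
    have hzo : ∀ k, k ≠ i → k ≠ L → z k = u k := fun k h1 h2 => by simp [hz, h1, h2]
    have hzs : ∑ k, z k = d := by
      rw [← hus]
      exact sum_two hiL u _ _ (by omega)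
    have hzT : z ∈ TTN A d := by
      refine mem_TTN.2 ⟨hzs, fun k => ?_⟩
      by_cases h1 : k = i
      · subst h1
        rw [hzi]
        exact hva k
      · by_cases h2 : k = L
        · subst h2
          exact htop _
        · rw [hzo k h1 h2]
          exact hua k
    have h1 : kN _ v < kN _ z := by
      refine lt_iff_lex.2 ⟨0, fun r hr => absurd hr (Fin.not_lt_zero r), ?_⟩
      rw [hzo 0 hi0.symm h0L]
      exact hv0u0
    have hzV : z ∈ V := compressed_up (hcomp i) hv hzT hzi.symm h1
    have h2 : kN _ z < kN _ u := by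
      refine lt_iff_lex.2 ⟨i, fun r hr => ?_, by rw [hzi]; exact hlt⟩
      refine hzo r (ne_of_lt hr) ?_
      intro e
      rw [e] at hr
      exact absurd (Fin.le_last i) (not_le.2 hr)
    exact huV (compressed_up (hcomp 0) hzV huT (hzo 0 hi0.symm h0L) h2)
  -- Step B
  have stepB : 0 < u L := by
    by_contra hcon
    have hu0 : u L = 0 := by omega
    have hvL : 0 < v L := by
      have := hdiff L
      omega
    set one : Fin (n + 1) := ⟨1, by omega⟩ with hone
    have h10 : one ≠ 0 := by
      intro e
      have := congrArg Fin.val e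
      simp [hone] at this
    have h1L : one ≠ L := by
      intro e
      have := congrArg Fin.val e
      simp [hone, hLdef] at this
      omega
    have hu1 := stepA one h10 h1L
    set δ := v one - u one with hδ
    have hsum : ∑ k, (u k + ((Pi.single one δ : Fin (n + 1) → ℕ) k +
        (Pi.single L (v L) : Fin (n + 1) → ℕ) k)) ≤
        ∑ k, (v k + (Pi.single 0 (u 0 - v 0) : Fin (n + 1) → ℕ) k) := by
      refine Finset.sum_le_sum fun k _ => ?_
      by_cases h0 : k = 0
      · subst h0
        simp [h10.symm, h0L]
        omega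
      · by_cases h1 : k = one
        · subst h1
          simp [h1L, h10]
          omega
        · by_cases h2 : k = L
          · subst h2
            simp [h1, h0]
            omega
          · simp [h0, h1, h2]
            exact le_of_lt (stepA k h0 h2)
    simp only [Finset.sum_add_distrib, Finset.sum_pi_single', Finset.mem_univ, if_true] at hsum
    have hbig : δ + v L + v 0 ≤ u 0 := by omega
    set z : Fin (n + 1) → ℕ := fun k => if k = 0 then u 0 - δ else if k = one then v one else u k
      with hz
    have hz0 : z 0 = u 0 - δ := by simp [hz]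
    have hz1 : z one = v one := by simp [hz, h10]
    have hzo : ∀ k, k ≠ 0 → k ≠ one → z k = u k := fun k h1 h2 => by simp [hz, h1, h2]
    have hzs : ∑ k, z k = d := by
      rw [← hus]
      exact sum_two h10.symm u _ _ (by omega)
    have hzT : z ∈ TTN A d := by
      refine mem_TTN.2 ⟨hzs, fun k => ?_⟩
      by_cases h1 : k = 0
      · subst h1
        rw [hz0]
        refine lt_of_le_of_lt ?_ (hua 0)
        exact_mod_cast Nat.sub_le _ _
      · by_cases h2 : k = one
        · subst h2
          rw [hz1]
          exact hva _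
        · rw [hzo k h1 h2]
          exact hua k
    have h1 : kN _ v < kN _ z := by
      refine lt_iff_lex.2 ⟨0, fun r hr => absurd hr (Fin.not_lt_zero r), ?_⟩
      rw [hz0]
      omega
    have hzV : z ∈ V := compressed_up (hcomp one) hv hzT hz1.symm h1
    have h2 : kN _ z < kN _ u := by
      refine lt_iff_lex.2 ⟨0, fun r hr => absurd hr (Fin.not_lt_zero r), ?_⟩
      rw [hz0]
      omega
    exact huV (compressed_up (hcomp L) hzV huT (hzo L h0L.symm h1L.symm) h2)
  -- the exchange
  set W := V.erase v with hW
  have hWV : W ⊆ V := Finset.erase_subset _ _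
  refine ⟨insert u W, ?_, ?_, ?_, ?_⟩
  · intro x hx
    rcases Finset.mem_insert.1 hx with rfl | h
    · exact huT
    · exact hV (hWV h)
  · rw [Finset.card_insert_of_notMem (fun h => huV (hWV h)), hW,
      Finset.card_erase_of_mem hv]
    have : 0 < V.card := Finset.card_pos.2 ⟨v, hv⟩
    omega
  · -- the shadow
    have h1 : upS A (insert u W) ⊆ insert (u + eN L) (upS A W) := by
      intro w hw
      obtain ⟨ha, m, hm, j, rfl⟩ := mem_upS.1 hw
      rcases Finset.mem_insert.1 hm with rfl | hmW
      · by_cases hj : j = L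
        · subst hj
          exact Finset.mem_insert_self _ _
        · apply Finset.mem_insert_of_mem
          have hjL : j < L := lt_of_le_of_ne (Fin.le_last j) hj
          set z : Fin (n + 1) → ℕ := m + eN j - eN L with hz
          have hzw : m + eN j = z + eN L := by
            funext k
            simp only [hz, Pi.add_apply, Pi.sub_apply]
            by_cases hk : k = L
            · subst hk
              have : eN L L = 1 := eN_apply_self L
              rw [this, eN_apply_ne (ne_of_gt hjL)]
              omega
            · rw [eN_apply_ne hk]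
              omega
          have hzle : ∀ k, z k ≤ (m + eN j) k := fun k => by
            rw [hzw, Pi.add_apply]
            omega
          have hzs : ∑ k, z k = d := by
            have e1 := sum_add_eN z L
            have e2 := sum_add_eN m j
            rw [← hzw] at e1
            omega
          have hzT : z ∈ TTN A d := mem_TTN.2 ⟨hzs, allowed_of_le ha hzle⟩
          have hlt : kN _ m < kN _ z := by
            refine lt_iff_lex.2 ⟨j, fun r hr => ?_, ?_⟩
            · simp only [hz, Pi.sub_apply, Pi.add_apply]
              rw [eN_apply_ne (ne_of_lt hr), eN_apply_ne (ne_of_lt (lt_trans hr hjL))]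
              omega
            · simp only [hz, Pi.sub_apply, Pi.add_apply]
              rw [eN_apply_ne (ne_of_lt hjL), eN_apply_self]
              omega
          have hzV : z ∈ V := by
            by_contra hzn
            exact absurd (humax z (Finset.mem_sdiff.2 ⟨hzT, hzn⟩)) (not_le.2 hlt)
          have hzW : z ∈ W := by
            refine Finset.mem_erase.2 ⟨?_, hzV⟩
            intro e
            rw [e] at hlt
            exact absurd hlt (not_lt.2 (le_of_lt hvu))
          rw [hzw]
          exact mem_upS.2 ⟨hzw ▸ ha, z, hzW, L, rfl⟩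
      · apply Finset.mem_insert_of_mem
        exact mem_upS.2 ⟨ha, m, hmW, j, rfl⟩
    have h2 : v + eN L ∉ upS A W := by
      intro hw
      obtain ⟨-, z, hzW, j, e⟩ := mem_upS.1 hw
      by_cases hj : j = L
      · subst hj
        have : z = v := by
          funext k
          have := congrFun e k
          simp only [Pi.add_apply] at this
          omega
        subst this
        exact (Finset.mem_erase.1 hzW).1 rfl
      · have hjL : j < L := lt_of_le_of_ne (Fin.le_last j) hj
        have hlt : kN _ z < kN _ v := by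
          refine lt_iff_lex.2 ⟨j, fun r hr => ?_, ?_⟩
          · have := congrFun e r
            simp only [Pi.add_apply] at this
            rw [eN_apply_ne (ne_of_lt hr), eN_apply_ne (ne_of_lt (lt_trans hr hjL))] at this
            omega
          · have := congrFun e j
            simp only [Pi.add_apply] at this
            rw [eN_apply_self, eN_apply_ne (ne_of_lt hjL)] at this
            omega
        exact absurd (hvmin z (hWV hzW)) (not_le.2 hlt)
    have h3 : insert (v + eN L) (upS A W) ⊆ upS A V := by
      intro w hw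
      rcases Finset.mem_insert.1 hw with rfl | h
      · refine mem_upS.2 ⟨fun k => ?_, v, hv, L, rfl⟩
        by_cases hk : k = L
        · subst hk
          exact htop _
        · rw [add_eN_ne_coord hk]
          exact hva k
      · exact upS_mono hWV h
    have c1 := Finset.card_le_card h1
    have c3 := Finset.card_le_card h3
    rw [Finset.card_insert_of_notMem h2] at c3
    have c4 := Finset.card_insert_le (u + eN L) (upS A W)
    omega
  · -- the weight
    unfold RN
    rw [Finset.sum_insert (fun h => huV (hWV h))]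
    have e : ∑ m ∈ V, rkS (kN _) (TTN A d) m =
        rkS (kN _) (TTN A d) v + ∑ m ∈ W, rkS (kN _) (TTN A d) m :=
      (Finset.add_sum_erase _ _ hv).symm
    rw [e]
    have := rk_anti (s := TTN A d) huT hvu
    omega

/-- The inductive step of the Clements-Lindström inequality. -/
theorem CL_step (hn : 2 ≤ n) (hL : A (Fin.last n) = ⊤) (hIH : ∀ i : Fin (n + 1), CLcore (A ∘ i.succAbove)) :
    CLcore A := by
  classical
  intro d V0 hV0
  -- a minimiser
  set 𝒮 := (TTN A d).powerset.filter fun V =>
    V.card = V0.card ∧ (upS A V).card ≤ (upS A V0).card with h𝒮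
  have hne : 𝒮.Nonempty := ⟨V0, Finset.mem_filter.2 ⟨Finset.mem_powerset.2 hV0, rfl, le_refl _⟩⟩
  obtain ⟨V, hV, hmin⟩ := Finset.exists_min_image 𝒮 (RN A d) hne
  obtain ⟨hV1, hV2, hV3⟩ := Finset.mem_filter.1 hV
  have hVT := Finset.mem_powerset.1 hV1
  have hmem : ∀ V' : Finset (Fin (n + 1) → ℕ), V' ⊆ TTN A d → V'.card = V.card →
      (upS A V').card ≤ (upS A V).card → V' ∈ 𝒮 := by
    intro V' h1 h2 h3
    exact Finset.mem_filter.2 ⟨Finset.mem_powerset.2 h1, h2.trans hV2, h3.trans hV3⟩
  have hcomp : ∀ i, compN A d i V = V := by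
    intro i
    by_contra hcon
    have h1 := RN_comp hVT i hcon
    have h2 := hmin _ (hmem _ (compN_subset d i V) (card_compN hVT i)
      (up_comp_le (hIH i) hVT))
    omega
  have htop : V = topS (kN _) (TTN A d) V.card := by
    by_contra hcon
    obtain ⟨V', h1, h2, h3, h4⟩ := exchange hn hL hVT hcomp hcon
    have := hmin V' (hmem V' h1 h2 h3)
    omega
  rw [← hV2, ← htop]
  exact hV3

/-- The form of the inequality used later. -/
theorem CLcore.lex_step {N : ℕ} {B : Fin N → ℕ∞} (h : CLcore B) {d : ℕ}
    {V : Finset (Fin N → ℕ)} (hV : V ⊆ TTN B d) {m : Fin N → ℕ} (hm : m ∈ TTN B d)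
    (hr : rkS (kN N) (TTN B d) m < V.card) (j : Fin N) (hj : AllowedN B (m + eN j)) :
    rkS (kN N) (TTN B (d + 1)) (m + eN j) < (upS B V).card := by
  set U := upS B (topS (kN N) (TTN B d) V.card) with hU
  have hUsub : U ⊆ TTN B (d + 1) := upS_subset (topS_subset _ _)
  have hup : ∀ x ∈ U, ∀ y ∈ TTN B (d + 1), kN N x < kN N y → y ∈ U := fun x hx y hy hlt =>
    up_top_up d _ hx hy hlt
  have e := eq_top_of_up (kN_inj N) hUsub hup
  have hmem : m + eN j ∈ U := mem_upS.2 ⟨hj, m, mem_topS.2 ⟨hm, hr⟩, j, rfl⟩
  rw [e] at hmem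
  exact lt_of_lt_of_le (mem_topS.1 hmem).2 (h d V hV)

end Vale.Agent.Lib.P200
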