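import Mathlib

/-!
Definitions for the statement in `n` variables: the space `J` attached to an ideal `I` of
`K[x₀,…,x_{n-1}]` containing a regular sequence of `c` forms, following the problem statement.
-/

namespace Vale.Agent.Lib.P200
open MvPolynomial Module

variable {K : Type*} [Field K] {n c : ℕ}

/-- The ideal `P = (x₀^(a 0), …, x_{c-1}^(a (c-1)))` of `K[x₀, …, x_{n-1}]`. -/
noncomputable def powerIdealN (K : Type*) [Field K] (hc : c ≤ n) (a : Fin c → ℕ) :
    Ideal (MvPolynomial (Fin n) K) :=
  Ideal.span (Set.range fun i : Fin c => (X (Fin.castLE hc i) : MvPolynomial (Fin n) K) ^ a i)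

/-- The degree `d` part `I_d` of an ideal `I`, as a `K`-subspace. -/
noncomputable def pieceN (I : Ideal (MvPolynomial (Fin n) K)) (d : ℕ) :
    Submodule K (MvPolynomial (Fin n) K) :=
  I.restrictScalars K ⊓ homogeneousSubmodule (Fin n) K d

/-- The number `q_d = dim I_d - dim P_d`. -/
noncomputable def excessN (hc : c ≤ n) (a : Fin c → ℕ) (I : Ideal (MvPolynomial (Fin n) K))
    (d : ℕ) : ℕ :=
  finrank K (pieceN I d) - finrank K (pieceN (powerIdealN K hc a) d)

/-- The monomial with exponent vector `m` lies outside `P`. -/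
def OutsideN (hc : c ≤ n) (a : Fin c → ℕ) (m : Fin n →₀ ℕ) : Prop :=
  ∀ i : Fin c, m (Fin.castLE hc i) < a i

/-- The number of monomials outside `P`, of the same degree as `m`, that are lexicographically
greater than `m`, with `x₀ > x₁ > ⋯`. -/
noncomputable def lexRankN (hc : c ≤ n) (a : Fin c → ℕ) (m : Fin n →₀ ℕ) : ℕ :=
  Set.ncard {k : Fin n →₀ ℕ | k.degree = m.degree ∧ OutsideN hc a k ∧ toLex m < toLex k}

/-- The space `J_d`: the span of `P_d` and of the `q_d` lexicographically greatest monomials of
degree `d` outside `P` (those with fewer than `q_d` greater monomials outside `P`). -/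
noncomputable def lexPieceN (hc : c ≤ n) (a : Fin c → ℕ) (I : Ideal (MvPolynomial (Fin n) K))
    (d : ℕ) : Submodule K (MvPolynomial (Fin n) K) :=
  pieceN (powerIdealN K hc a) d ⊔
    Submodule.span K ((fun m => monomial m (1 : K)) ''
      {m : Fin n →₀ ℕ | m.degree = d ∧ OutsideN hc a m ∧ lexRankN hc a m < excessN hc a I d})

/-- The graded subspace `J = ⨁ J_d`. -/
noncomputable def lexSpaceN (hc : c ≤ n) (a : Fin c → ℕ) (I : Ideal (MvPolynomial (Fin n) K)) :
    Submodule K (MvPolynomial (Fin n) K) :=
  ⨆ d, lexPieceN hc a I d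

end Vale.Agent.Lib.P200
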