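import Vale.Agent.Lib.P200.NFam

/-!
Gorenstein duality for a regular sequence of `n` forms in `n` variables.
-/

namespace Vale.Agent.Lib.P200
open MvPolynomial Module

universe u

variable {K : Type u} [Field K]

/-- The socle lemma below the top degree. -/
theorem soc_top [Infinite K] : ∀ (n : ℕ) (a : ℕ → ℕ) (f : ℕ → PN n K), FormSeqN n a f →
    ∀ (u : PN n K) (e : ℕ), u.IsHomogeneous e → e < ∑ i ∈ Finset.range n, (a i - 1) →
      (∀ i, (X i : PN n K) * u ∈ JN f n) → u ∈ JN f n := by
  intro n
  induction n with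
  | zero =>
    intro a f _ u e _ he
    simp at he
  | succ N ih =>
    intro a f hf u e hu he hX
    have hfN : FormSeqN N a f := hf.of_le (by omega)
    obtain ⟨b, hb⟩ := exists_ell (le_refl N) hfN.reg
    have hg : FormSeqN N a (fun i => rhoN b (f i)) := formSeq_rho hfN hb
    have hell : ellN b * u ∈ JN f (N + 1) := ell_mul_mem_of_X b hX
    obtain ⟨j, hj, v, ev⟩ := mem_JN_succ.1 hell
    set j0 := homogeneousComponent (e + 1) j with hj0
    set v0 := hzcN v (e + 1) (a N) with hv0
    have hj0m : j0 ∈ JN f N := hfN.homClosed (le_refl N) j hj (e + 1)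
    have hyN := hf.hom N (by omega)
    have e0 : ellN b * u = j0 + v0 * f N := by
      have hh : (ellN b * u).IsHomogeneous (e + 1) := by
        have := (ell_hom b).mul hu
        rwa [add_comm 1 e] at this
      have := congrArg (homogeneousComponent (e + 1)) ev
      rw [homogeneousComponent_eq_self hh, map_add, comp_mul_hzcN hyN] at this
      exact this
    have hreg : ∀ w, f N * w ∈ JN f N → w ∈ JN f N := hf.reg N (by omega)
    by_cases hle : a N ≤ e + 1
    · have hv0h : v0.IsHomogeneous (e + 1 - a N) := by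
        rw [hv0, hzcN, if_pos hle]
        exact homogeneousComponent_isHomogeneous _ _
      have hsum : e + 1 - a N < ∑ i ∈ Finset.range N, (a i - 1) := by
        rw [Finset.sum_range_succ] at he
        have := hf.pos N (by omega)
        omega
      have hrho : rhoN b v0 ∈ JN (fun i => rhoN b (f i)) N := by
        refine ih a _ hg _ _ (rho_hom b hv0h) hsum fun i => ?_
        obtain ⟨ji, hji, vi, ei⟩ := mem_JN_succ.1 (hX i.castSucc)
        have key : X i.castSucc * v0 - ellN b * vi ∈ JN f N := by
          apply hreg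
          have : f N * (X i.castSucc * v0 - ellN b * vi) = ellN b * ji - X i.castSucc * j0 := by
            linear_combination (X i.castSucc : PN (N + 1) K) * (-e0) + ellN b * ei
          rw [this]
          exact (JN f N).sub_mem ((JN f N).mul_mem_left _ hji) ((JN f N).mul_mem_left _ hj0m)
        have h2 := rho_mem_JN (b := b) key
        rwa [map_sub, map_mul, map_mul, rho_ell, zero_mul, sub_zero, rho_X_castSucc] at h2
      obtain ⟨j2, hj2, t, e2⟩ := exists_of_rho_mem hrho
      have h3 : u - t * f N ∈ JN f N := by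
        apply hb N (le_refl N)
        have : ellN b * (u - t * f N) = j0 + j2 * f N := by
          rw [e2] at e0
          linear_combination e0
        rw [this]
        exact (JN f N).add_mem hj0m ((JN f N).mul_mem_right _ hj2)
      exact mem_JN_succ.2 ⟨_, h3, t, by ring⟩
    · have hv00 : v0 = 0 := by
        rw [hv0, hzcN, if_neg hle]
      rw [hv00, zero_mul, add_zero] at e0
      have h3 : u ∈ JN f N := by
        apply hb N (le_refl N)
        rw [e0]
        exact hj0m
      exact JN_mono f (Nat.le_succ N) h3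

variable {n : ℕ} {a : ℕ → ℕ} {f : ℕ → PN n K}

theorem sum_Fin_range (a : ℕ → ℕ) :
    ∑ i : Fin n, (a i.val - 1) = ∑ i ∈ Finset.range n, (a i - 1) :=
  Fin.sum_univ_eq_sum_range (fun i => a i - 1) n

/-- The exponent bounds in the case of `n` forms. -/
noncomputable abbrev ANN (n : ℕ) (a : ℕ → ℕ) : Fin n → ℕ∞ := AN n n a

theorem allowed_nn {m : Fin n → ℕ} : AllowedN (ANN n a) m ↔ ∀ i : Fin n, m i < a i.val := by
  rw [allowed_iff]
  exact ⟨fun h i => h i i.isLt, fun h i _ => h i⟩

/-- The complement of an exponent vector. -/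
def compNA (a : ℕ → ℕ) (m : Fin n → ℕ) : Fin n → ℕ := fun i => a i.val - 1 - m i

theorem comp_mem {S d e : ℕ} (hS : ∑ i ∈ Finset.range n, (a i - 1) = S) (hde : d + e = S)
    {m : Fin n → ℕ} (hm : m ∈ TTN (ANN n a) d) : compNA a m ∈ TTN (ANN n a) e := by
  obtain ⟨h1, h2⟩ := mem_TTN.1 hm
  rw [allowed_nn] at h2
  refine mem_TTN.2 ⟨?_, allowed_nn.2 fun i => ?_⟩
  · have e1 : ∑ i, compNA a m i + ∑ i, m i = ∑ i : Fin n, (a i.val - 1) := by
      rw [← Finset.sum_add_distrib]
      refine Finset.sum_congr rfl fun i _ => ?_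
      have := h2 i
      unfold compNA
      omega
    rw [sum_Fin_range, hS, h1] at e1
    omega
  · have := h2 i
    unfold compNA
    omega

theorem comp_comp {m : Fin n → ℕ} (hm : AllowedN (ANN n a) m) : compNA a (compNA a m) = m := by
  rw [allowed_nn] at hm
  funext i
  have := hm i
  unfold compNA
  omega

theorem comp_lt {x y : Fin n → ℕ} (hy : AllowedN (ANN n a) y) (h : kN n x < kN n y) :
    kN n (compNA a y) < kN n (compNA a x) := by
  obtain ⟨p, h1, h2⟩ := lt_iff_lex.1 h
  rw [allowed_nn] at hy
  refine lt_iff_lex.2 ⟨p, fun r hr => ?_, ?_⟩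
  · unfold compNA
    rw [h1 r hr]
  · have := hy p
    unfold compNA
    omega

/-- The rank of the complement. -/
theorem rk_comp {S d e : ℕ} (hS : ∑ i ∈ Finset.range n, (a i - 1) = S) (hde : d + e = S)
    {m : Fin n → ℕ} (hm : m ∈ TTN (ANN n a) d) :
    rkS (kN n) (TTN (ANN n a) e) (compNA a m) + rkS (kN n) (TTN (ANN n a) d) m + 1 =
      (TTN (ANN n a) d).card := by
  classical
  have hle : ∀ {d : ℕ} {y : Fin n → ℕ}, y ∈ TTN (ANN n a) d → AllowedN (ANN n a) y :=
    fun h => (mem_TTN.1 h).2
  have e1 : rkS (kN n) (TTN (ANN n a) e) (compNA a m) =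
      ((TTN (ANN n a) d).filter fun y => kN n y < kN n m).card := by
    unfold rkS
    refine Finset.card_bij' (fun y _ => compNA a y) (fun y _ => compNA a y) ?_ ?_ ?_ ?_
    · intro y hy
      obtain ⟨h1, h2⟩ := Finset.mem_filter.1 hy
      refine Finset.mem_filter.2 ⟨comp_mem hS (by omega) h1, ?_⟩
      have := comp_lt (a := a) (hle h1) h2
      rw [comp_comp (hle hm)] at this
      exact this
    · intro y hy
      obtain ⟨h1, h2⟩ := Finset.mem_filter.1 hy
      refine Finset.mem_filter.2 ⟨comp_mem hS (by omega) h1, ?_⟩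
      exact comp_lt (a := a) (hle hm) h2
    · intro y hy
      exact comp_comp (hle (Finset.mem_filter.1 hy).1)
    · intro y hy
      exact comp_comp (hle (Finset.mem_filter.1 hy).1)
  rw [e1]
  have e2 : (TTN (ANN n a) d) = ((TTN (ANN n a) d).filter fun y => kN n y < kN n m) ∪
      (insert m ((TTN (ANN n a) d).filter fun y => kN n m < kN n y)) := by
    ext y
    simp only [Finset.mem_union, Finset.mem_filter, Finset.mem_insert]
    constructor
    · intro hy
      rcases lt_trichotomy (kN n y) (kN n m) with h | h | h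
      · exact Or.inl ⟨hy, h⟩
      · exact Or.inr (Or.inl ((kN_inj n) h))
      · exact Or.inr (Or.inr ⟨hy, h⟩)
    · rintro (h | rfl | h)
      · exact h.1
      · exact hm
      · exact h.1
  have hd : Disjoint ((TTN (ANN n a) d).filter fun y => kN n y < kN n m)
      (insert m ((TTN (ANN n a) d).filter fun y => kN n m < kN n y)) := by
    rw [Finset.disjoint_left]
    intro y hy hy2
    obtain ⟨_, h2⟩ := Finset.mem_filter.1 hy
    rcases Finset.mem_insert.1 hy2 with rfl | h3
    · exact lt_irrefl _ h2
    · exact lt_asymm h2 (Finset.mem_filter.1 h3).2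
  have hnot : m ∉ (TTN (ANN n a) d).filter fun y => kN n m < kN n y := by
    intro h
    exact lt_irrefl _ (Finset.mem_filter.1 h).2
  conv_rhs => rw [e2]
  rw [Finset.card_union_of_disjoint hd, Finset.card_insert_of_notMem hnot]
  have e3 : rkS (kN n) (TTN (ANN n a) d) m =
      ((TTN (ANN n a) d).filter fun y => kN n m < kN n y).card := by
    unfold rkS
    congr 1
    ext y
    rw [Finset.mem_filter, Finset.mem_filter]
    rfl
  rw [e3]
  omega

theorem card_comp {S d e : ℕ} (hS : ∑ i ∈ Finset.range n, (a i - 1) = S) (hde : d + e = S) :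
    (TTN (ANN n a) e).card = (TTN (ANN n a) d).card := by
  refine Finset.card_bij' (fun y _ => compNA a y) (fun y _ => compNA a y) ?_ ?_ ?_ ?_
  · intro y hy
    exact comp_mem hS (by omega) hy
  · intro y hy
    exact comp_mem hS hde hy
  · intro y hy
    exact comp_comp (mem_TTN.1 hy).2
  · intro y hy
    exact comp_comp (mem_TTN.1 hy).2

/-- There is exactly one monomial in the top degree. -/
theorem card_TT_top (hpos : ∀ i, i < n → 1 ≤ a i) {S : ℕ}
    (hS : ∑ i ∈ Finset.range n, (a i - 1) = S) : (TTN (ANN n a) S).card = 1 := by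
  have hz : (TTN (ANN n a) 0).card = 1 := by
    rw [Finset.card_eq_one]
    refine ⟨0, ?_⟩
    ext y
    rw [mem_TTN, Finset.mem_singleton, allowed_nn]
    constructor
    · rintro ⟨h1, -⟩
      funext i
      have := Finset.single_le_sum (f := y) (fun _ _ => Nat.zero_le _) (Finset.mem_univ i)
      simp only [Pi.zero_apply]
      omega
    · rintro rfl
      refine ⟨by simp, fun i => ?_⟩
      have := hpos i.val i.isLt
      simp only [Pi.zero_apply]
      omega
  rw [card_comp hS (show 0 + S = S by omega), hz]

end Vale.Agent.Lib.P200
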