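import Vale.Agent.Lib.P200.NDual

/-!
The pairing on a complete intersection of `n` forms in `n` variables and the lexicographic step
by duality.
-/

namespace Vale.Agent.Lib.P200
open MvPolynomial Module

universe u

variable {K : Type u} [Field K] {n : ℕ} {a : ℕ → ℕ} {f : ℕ → PN n K}

/-- The graded piece of the ideal of the `n` forms. -/
noncomputable abbrev FFN (f : ℕ → PN n K) (d : ℕ) : Submodule K (PN n K) := pieceN (JN f n) d

theorem FFN_mul {d e : ℕ} {x y : PN n K} (ha : x ∈ FFN f d) (hb : y.IsHomogeneous e) :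
    x * y ∈ FFN f (d + e) := by
  obtain ⟨h1, h2⟩ := mem_pieceN.1 ha
  exact mem_pieceN.2 ⟨Ideal.mul_mem_right _ _ h1, h2.mul hb⟩

/-- The trace functional on the socle degree. -/
theorem exists_traceN (h : FormSeqN n a f) {S : ℕ} (hS : ∑ i ∈ Finset.range n, (a i - 1) = S) :
    ∃ φ : Module.Dual K (PN n K), ∀ x ∈ HN K n S, φ x = 0 ↔ x ∈ FFN f S := by
  have h7 := h.finrank_FF (le_refl n) S
  rw [show TTN (AN n n a) S = TTN (ANN n a) S from rfl, card_TT_top h.pos hS] at h7
  have h6 : finrank K (HN K n S) = TN n S := finrank_HN S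
  have hfinF := finite_of_le_HN (pieceN_le_HN (JN f n) S)
  have hlt : FFN f S < HN K n S := by
    refine lt_of_le_of_ne (pieceN_le_HN _ _) ?_
    intro he
    have he' : pieceN (JN f n) S = HN K n S := he
    rw [he', h6] at h7
    omega
  obtain ⟨t, ht, ht'⟩ := SetLike.exists_of_lt hlt
  obtain ⟨φ, hφt, hφF⟩ := Submodule.exists_dual_map_eq_bot_of_notMem ht' inferInstance
  have hφ0 : ∀ y ∈ FFN f S, φ y = 0 := by
    intro y hy
    have : φ y ∈ Submodule.map φ (FFN f S) := ⟨y, hy, rfl⟩
    rw [hφF] at this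
    simpa using this
  refine ⟨φ, ?_⟩
  have hsup : FFN f S ⊔ Submodule.span K {t} = HN K n S := by
    have hle : FFN f S ⊔ Submodule.span K {t} ≤ HN K n S :=
      sup_le (pieceN_le_HN _ _) ((Submodule.span_singleton_le_iff_mem _ _).2 ht)
    have hlt2 : FFN f S < FFN f S ⊔ Submodule.span K {t} := by
      refine lt_of_le_of_ne le_sup_left ?_
      intro he
      apply ht'
      rw [he]
      exact Submodule.mem_sup_right (Submodule.mem_span_singleton_self _)
    have hfinS : Module.Finite K (FFN f S ⊔ Submodule.span K {t} : Submodule K (PN n K)) :=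
      finite_of_le_HN hle
    have := Submodule.finrank_lt_finrank_of_lt hlt2
    refine Submodule.eq_of_le_of_finrank_le hle ?_
    rw [h6]
    generalize finrank K (FFN f S) = A at *
    generalize finrank K ↥(FFN f S ⊔ Submodule.span K {t}) = B at *
    omega
  intro x hx
  constructor
  · intro h0
    rw [← hsup, Submodule.mem_sup] at hx
    obtain ⟨u, hu, v, hv, rfl⟩ := hx
    obtain ⟨c, rfl⟩ := Submodule.mem_span_singleton.1 hv
    rw [map_add, map_smul, hφ0 u hu, zero_add, smul_eq_mul] at h0
    have hc : c = 0 := (mul_eq_zero.1 h0).resolve_right hφt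
    rw [hc, zero_smul, add_zero]
    exact hu
  · exact hφ0 x

/-- Radical of the pairing. -/
theorem radicalN [Infinite K] (h : FormSeqN n a f) {S : ℕ}
    (hS : ∑ i ∈ Finset.range n, (a i - 1) = S) {φ : Module.Dual K (PN n K)}
    (hφ : ∀ x ∈ HN K n S, φ x = 0 ↔ x ∈ FFN f S) (k : ℕ) :
    ∀ d, d + k = S → ∀ x ∈ HN K n d, (∀ y ∈ HN K n k, φ (x * y) = 0) → x ∈ FFN f d := by
  induction k with
  | zero =>
    intro d hd x hx hb
    have hd6 : d = S := by omega
    subst hd6
    have h1 : (1 : PN n K) ∈ HN K n 0 := isHomogeneous_one _ _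
    have := hb 1 h1
    rw [mul_one] at this
    exact (hφ x hx).1 this
  | succ k ih =>
    intro d hd x hx hb
    have hXh : ∀ i, (X i : PN n K) ∈ HN K n 1 := fun i => isHomogeneous_X K i
    have hXa : ∀ i, (X i : PN n K) * x ∈ JN f n := by
      intro i
      have h1 : (X i : PN n K) * x ∈ HN K n (d + 1) := by
        have := (hXh i).mul hx
        rwa [add_comm 1 d] at this
      refine (mem_pieceN.1 (ih (d + 1) (by omega) _ h1 ?_)).1
      intro y hy
      have h2 : (X i * y : PN n K) ∈ HN K n (k + 1) := by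
        have := (hXh i).mul hy
        rwa [add_comm 1 k] at this
      have := hb _ h2
      rwa [show x * (X i * y) = X i * x * y by ring] at this
    exact mem_pieceN.2 ⟨soc_top n a f h x d hx (by omega) hXa, hx⟩

/-- Perpendicular subspace inside the forms of degree `e`. -/
noncomputable def perpN (φ : Module.Dual K (PN n K)) (V : Submodule K (PN n K)) (e : ℕ) :
    Submodule K (PN n K) where
  carrier := {b | b ∈ HN K n e ∧ ∀ x ∈ V, φ (x * b) = 0}
  add_mem' := by
    rintro x y ⟨hx, hx'⟩ ⟨hy, hy'⟩
    refine ⟨Submodule.add_mem _ hx hy, fun a ha => ?_⟩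
    rw [mul_add, map_add, hx' a ha, hy' a ha, add_zero]
  zero_mem' := ⟨Submodule.zero_mem _, fun a _ => by simp⟩
  smul_mem' := by
    rintro c x ⟨hx, hx'⟩
    refine ⟨Submodule.smul_mem _ _ hx, fun a ha => ?_⟩
    rw [mul_smul_comm, map_smul, hx' a ha, smul_zero]

theorem perpN_le (φ : Module.Dual K (PN n K)) (V : Submodule K (PN n K)) (e : ℕ) :
    perpN φ V e ≤ HN K n e := fun _ hb => hb.1

/-- The pairing as a linear map. -/
noncomputable def pairingN (φ : Module.Dual K (PN n K)) (V : Submodule K (PN n K)) (e : ℕ) :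
    V →ₗ[K] Module.Dual K (HN K n e) where
  toFun a := (φ ∘ₗ LinearMap.mulLeft K (a : PN n K)) ∘ₗ (HN K n e).subtype
  map_add' x y := by
    ext b
    simp [add_mul]
  map_smul' c x := by
    ext b
    simp

theorem finrank_perpN [Infinite K] (h : FormSeqN n a f) {S : ℕ}
    (hS : ∑ i ∈ Finset.range n, (a i - 1) = S) {φ : Module.Dual K (PN n K)}
    (hφ : ∀ x ∈ HN K n S, φ x = 0 ↔ x ∈ FFN f S) {d e : ℕ} (hde : d + e = S)
    {V : Submodule K (PN n K)} (hV : V ≤ HN K n d) (hFV : FFN f d ≤ V) :
    finrank K (perpN φ V e) + finrank K V = TN n e + finrank K (FFN f d) := by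
  have hfinV := finite_of_le_HN hV
  have hfinF := finite_of_le_HN (pieceN_le_HN (JN f n) d)
  set C := pairingN φ V e with hC
  have hker : finrank K (LinearMap.ker C) = finrank K (FFN f d) := by
    have hmap : (LinearMap.ker C).map V.subtype = FFN f d := by
      ext x
      simp only [Submodule.mem_map, LinearMap.mem_ker, Submodule.subtype_apply]
      constructor
      · rintro ⟨y, hy, rfl⟩
        refine radicalN h hS hφ e d hde _ (hV y.2) ?_
        intro b hb
        have := congrArg (fun g : Module.Dual K (HN K n e) => g ⟨b, hb⟩) hy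
        simpa [hC, pairingN] using this
      · intro ha
        refine ⟨⟨x, hFV ha⟩, ?_, rfl⟩
        ext ⟨b, hb⟩
        simp only [hC, pairingN, LinearMap.coe_mk, AddHom.coe_mk, LinearMap.comp_apply,
          Submodule.subtype_apply, LinearMap.mulLeft_apply, LinearMap.zero_apply]
        have hm := FFN_mul ha hb
        rw [hde] at hm
        exact (hφ _ (pieceN_le_HN _ _ hm)).2 hm
    rw [← hmap]
    exact (Submodule.finrank_map_subtype_eq V _).symm
  have hrank := LinearMap.finrank_range_add_finrank_ker C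
  have hco := Subspace.finrank_add_finrank_dualCoannihilator_eq (LinearMap.range C)
  have hperp : finrank K (perpN φ V e) = finrank K (LinearMap.range C).dualCoannihilator := by
    have hmap : ((LinearMap.range C).dualCoannihilator).map (HN K n e).subtype = perpN φ V e := by
      ext b
      simp only [Submodule.mem_map, Submodule.subtype_apply]
      constructor
      · rintro ⟨x, hx, rfl⟩
        refine ⟨x.2, fun a ha => ?_⟩
        rw [Submodule.mem_dualCoannihilator] at hx
        have := hx (C ⟨a, ha⟩) ⟨_, rfl⟩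
        simpa [hC, pairingN] using this
      · rintro ⟨hb, hb'⟩
        refine ⟨⟨b, hb⟩, ?_, rfl⟩
        rw [Submodule.mem_dualCoannihilator]
        rintro _ ⟨a, rfl⟩
        simpa [hC, pairingN] using hb' a a.2
    rw [← hmap]
    exact Submodule.finrank_map_subtype_eq _ _
  rw [finrank_HN] at hco
  rw [hker] at hrank
  rw [hperp]
  generalize finrank K (LinearMap.range C) = A at *
  generalize finrank K ↥((LinearMap.range C).dualCoannihilator) = B at *
  generalize finrank K ↥(FFN f d) = D at *
  generalize finrank K ↥V = E at *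
  omega

/-- Elements of the ideal in complementary degree are perpendicular to everything. -/
theorem FF_le_perpN {S : ℕ} {φ : Module.Dual K (PN n K)}
    (hφ : ∀ x ∈ HN K n S, φ x = 0 ↔ x ∈ FFN f S) {d e : ℕ} (hde : d + e = S)
    {V : Submodule K (PN n K)} (hV : V ≤ HN K n d) : FFN f e ≤ perpN φ V e := by
  intro b hb
  refine ⟨pieceN_le_HN _ _ hb, fun x hx => ?_⟩
  have hm := FFN_mul hb (hV hx)
  rw [add_comm, hde] at hm
  rw [mul_comm]
  exact (hφ _ (pieceN_le_HN _ _ hm)).2 hm

/-- The lexicographic step follows from the dual step. -/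
theorem lexStep_dual [Infinite K] (h : FormSeqN n a f) {S : ℕ}
    (hS : ∑ i ∈ Finset.range n, (a i - 1) = S) {d e : ℕ} (hde : d + 1 + e = S)
    (hstep : LexStepN n a f e) : LexStepN n a f d := by
  intro X Y h1 h2 h3 h4 h5 m hm hr j hj
  have hfinX := finite_of_le_HN h2
  have hfinY := finite_of_le_HN h5
  obtain ⟨φ, hφ⟩ := exists_traceN h hS
  have hdeX : d + (e + 1) = S := by omega
  have a1 : FFN f e ≤ perpN φ Y e := FF_le_perpN hφ hde h5
  have a2 := perpN_le φ Y e
  have a3 : ∀ i, ∀ x ∈ perpN φ Y e, (MvPolynomial.X i : PN n K) * x ∈ perpN φ X (e + 1) := by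
    intro i x hx
    refine ⟨?_, fun w hw => ?_⟩
    · have := (isHomogeneous_X K i).mul hx.1
      rwa [add_comm 1 e] at this
    · have := hx.2 _ (h3 i w hw)
      rwa [show w * (MvPolynomial.X i * x) = MvPolynomial.X i * w * x by ring]
  have a4 : FFN f (e + 1) ≤ perpN φ X (e + 1) := FF_le_perpN hφ hdeX h2
  have a5 := perpN_le φ X (e + 1)
  have dimX' : finrank K (perpN φ Y e) + finrank K Y =
      TN n e + finrank K (pieceN (JN f n) (d + 1)) := finrank_perpN h hS hφ hde h5 h4
  have dimY' : finrank K (perpN φ X (e + 1)) + finrank K X =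
      TN n (e + 1) + finrank K (pieceN (JN f n) d) := finrank_perpN h hS hφ hdeX h2 h1
  have cntE := h.finrank_FF (le_refl n) e
  have cntE1 := h.finrank_FF (le_refl n) (e + 1)
  have cntD := h.finrank_FF (le_refl n) d
  have cntD1 := h.finrank_FF (le_refl n) (d + 1)
  have hm1 : m + eN j ∈ TTN (ANN n a) (d + 1) :=
    mem_TTN.2 ⟨by rw [sum_add_eN, (mem_TTN.1 hm).1], hj⟩
  have c1 : (TTN (ANN n a) e).card = (TTN (ANN n a) (d + 1)).card := card_comp hS hde
  have c2 : (TTN (ANN n a) (e + 1)).card = (TTN (ANN n a) d).card := card_comp hS hdeX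
  have hrd1 := rk_comp hS hde hm1
  have hrd2 := rk_comp hS hdeX hm
  have hcomp : compNA a m = compNA a (m + eN j) + eN j := by
    funext i
    have hj' := (allowed_nn.1 hj) i
    simp only [compNA, Pi.add_apply]
    rw [Pi.add_apply] at hj'
    by_cases hi : i = j
    · subst hi
      rw [eN_apply_self] at hj' ⊢
      omega
    · rw [eN_apply_ne hi] at hj' ⊢
      omega
  have hu := comp_mem hS hde hm1
  have huj : AllowedN (AN n n a) (compNA a (m + eN j) + eN j) := by
    rw [← hcomp]
    exact (mem_TTN.1 (comp_mem hS hdeX hm)).2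
  by_contra hcon
  have hfinal := hstep (perpN φ Y e) (perpN φ X (e + 1)) a1 a2 a3 a4 a5 _ hu (by
    unfold ANN at *
    omega) j huj
  rw [← hcomp] at hfinal
  unfold ANN at *
  omega

end Vale.Agent.Lib.P200
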