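import Vale.Agent.Lib.P200.NFam

/-!
Extension of the base field in `n` variables.
-/

namespace Vale.Agent.Lib.P200
open MvPolynomial Module

universe u

variable {K : Type u} [Field K] {n : ℕ} {L : Type u} [Field L] [Algebra K L]

/-- The extension of scalars of a polynomial. -/
noncomputable abbrev iotaPN (L : Type u) [Field L] [Algebra K L] : PN n K →+* PN n L :=
  MvPolynomial.map (algebraMap K L)

/-- The extension of scalars of a subspace. -/
noncomputable def extSN (L : Type u) [Field L] [Algebra K L] (W : Submodule K (PN n K)) :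
    Submodule L (PN n L) :=
  Submodule.span L (iotaPN L '' (W : Set (PN n K)))

theorem mem_extSN {W : Submodule K (PN n K)} {x : PN n K} (hx : x ∈ W) : iotaPN L x ∈ extSN L W :=
  Submodule.subset_span ⟨x, hx, rfl⟩

theorem extSN_le {W : Submodule K (PN n K)} {U : Submodule L (PN n L)}
    (h : ∀ x ∈ W, iotaPN L x ∈ U) : extSN L W ≤ U := by
  rw [extSN, Submodule.span_le]
  rintro _ ⟨x, hx, rfl⟩
  exact h x hx

theorem extSN_mono {W W' : Submodule K (PN n K)} (h : W ≤ W') : extSN L W ≤ extSN L W' :=
  extSN_le fun _ hx => mem_extSN (h hx)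

theorem iotaPN_smul (c : K) (p : PN n K) : iotaPN L (c • p) = algebraMap K L c • iotaPN L p := by
  rw [MvPolynomial.smul_eq_C_mul, MvPolynomial.smul_eq_C_mul, map_mul, map_C]

theorem extSN_HN (e : ℕ) : extSN L (HN K n e) = HN L n e := by
  apply le_antisymm
  · exact extSN_le fun x hx => IsHomogeneous.map hx _
  · intro y hy
    rw [← support_sum_monomial_coeff y]
    refine Submodule.sum_mem _ fun m hm => ?_
    have hdeg : Finsupp.weight 1 m = e := hy (MvPolynomial.mem_support_iff.1 hm)
    have e1 : monomial m (coeff m y) = coeff m y • iotaPN L (monomial m (1 : K)) := by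
      rw [map_monomial, map_one, smul_monomial, smul_eq_mul, mul_one]
    rw [e1]
    refine Submodule.smul_mem _ _ (mem_extSN ?_)
    exact isHomogeneous_monomial _ (by rw [Finsupp.degree_eq_weight_one]; exact hdeg)

theorem linearIndependent_iotaN {r : ℕ} {v : Fin r → PN n K} (hv : LinearIndependent K v) :
    LinearIndependent L (fun i => iotaPN L (v i)) := by
  rw [Fintype.linearIndependent_iff]
  intro g hg i
  rw [← Module.forall_dual_apply_eq_zero_iff K (g i)]
  intro ψ
  have hc : ∀ m, ∑ j, g j * algebraMap K L (coeff m (v j)) = 0 := by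
    intro m
    have := congrArg (coeff m) hg
    simpa [coeff_sum, coeff_map] using this
  have hs : ∑ j, ψ (g j) • v j = 0 := by
    ext m
    have h1 := congrArg ψ (hc m)
    rw [map_sum, map_zero] at h1
    rw [coeff_sum, coeff_zero, ← h1]
    refine Finset.sum_congr rfl fun j _ => ?_
    rw [coeff_smul, smul_eq_mul, mul_comm, ← smul_eq_mul, ← map_smul, Algebra.smul_def, mul_comm]
  exact (Fintype.linearIndependent_iff.1 hv) _ hs i

theorem finrank_extSN (W : Submodule K (PN n K)) [Module.Finite K W] :
    finrank L (extSN L W) = finrank K W := by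
  classical
  let b := Module.finBasis K W
  let v : Fin (finrank K W) → PN n K := fun i => (b i : PN n K)
  have hv : LinearIndependent K v := b.linearIndependent.map' W.subtype (Submodule.ker_subtype W)
  have hL := linearIndependent_iotaN (L := L) hv
  have hspan : extSN L W = Submodule.span L (Set.range fun i => iotaPN L (v i)) := by
    apply le_antisymm
    · refine extSN_le fun x hx => ?_
      have e := b.sum_repr ⟨x, hx⟩
      have e2 := congrArg Subtype.val e
      simp only [Submodule.coe_sum, Submodule.coe_smul] at e2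
      rw [← e2, map_sum]
      refine Submodule.sum_mem _ fun i _ => ?_
      rw [iotaPN_smul]
      exact Submodule.smul_mem _ _ (Submodule.subset_span ⟨i, rfl⟩)
    · rw [Submodule.span_le]
      rintro _ ⟨i, rfl⟩
      exact mem_extSN (b i).2
  rw [hspan, finrank_span_eq_card hL, Fintype.card_fin]

/-- The coefficientwise application of a linear form on `L`. -/
noncomputable def LamN (lam : Module.Dual K L) (p : PN n L) : PN n K :=
  p.support.sum fun m => monomial m (lam (coeff m p))

theorem coeff_LamN (lam : Module.Dual K L) (p : PN n L) (m : Fin n →₀ ℕ) :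
    coeff m (LamN lam p) = lam (coeff m p) := by
  classical
  unfold LamN
  rw [coeff_sum]
  simp only [coeff_monomial]
  by_cases hm : m ∈ p.support
  · rw [Finset.sum_eq_single m]
    · simp
    · intro k _ hne
      simp [hne]
    · intro h0
      exact absurd hm h0
  · rw [Finset.sum_eq_zero]
    · rw [notMem_support_iff.1 hm, map_zero]
    · intro k hk
      rw [if_neg]
      rintro rfl
      exact hm hk

theorem LamN_add (lam : Module.Dual K L) (p q : PN n L) :
    LamN lam (p + q) = LamN lam p + LamN lam q := by
  ext m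
  simp [coeff_LamN]

theorem LamN_zero (lam : Module.Dual K L) : LamN lam (0 : PN n L) = 0 := by
  ext m
  simp [coeff_LamN]

theorem LamN_mul (lam : Module.Dual K L) (p : PN n L) (c : PN n K) :
    LamN lam (p * iotaPN L c) = LamN lam p * c := by
  ext m
  rw [coeff_LamN, coeff_mul, coeff_mul, map_sum]
  refine Finset.sum_congr rfl fun x _ => ?_
  rw [coeff_map, coeff_LamN, mul_comm, ← Algebra.smul_def, map_smul, smul_eq_mul, mul_comm]

/-- A polynomial all of whose coefficientwise images lie in an ideal lies in the extended ideal. -/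
theorem mem_map_of_LamN {J : Ideal (PN n K)} {p : PN n L}
    (h : ∀ lam : Module.Dual K L, LamN lam p ∈ J) : p ∈ Ideal.map (iotaPN (K := K) L) J := by
  classical
  let B := Module.Basis.ofVectorSpace K L
  let F := p.support.biUnion fun m => (B.repr (coeff m p)).support
  have e : p = ∑ i ∈ F, C (B i) * iotaPN L (LamN (B.coord i) p) := by
    ext m
    rw [coeff_sum]
    simp only [coeff_C_mul, coeff_map, coeff_LamN, Module.Basis.coord_apply]
    have hsum : ∑ i ∈ F, B i * algebraMap K L ((B.repr (coeff m p)) i) =
        ∑ i ∈ (B.repr (coeff m p)).support, B i * algebraMap K L ((B.repr (coeff m p)) i) := by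
      symm
      refine Finset.sum_subset ?_ ?_
      · intro i hi
        refine Finset.mem_biUnion.2 ⟨m, ?_, hi⟩
        rw [MvPolynomial.mem_support_iff]
        intro h0
        rw [h0, map_zero] at hi
        simp at hi
      · intro i _ hi
        rw [Finsupp.notMem_support_iff.1 hi, map_zero, mul_zero]
    rw [hsum]
    have := B.linearCombination_repr (coeff m p)
    rw [Finsupp.linearCombination_apply, Finsupp.sum] at this
    conv_lhs => rw [← this]
    refine Finset.sum_congr rfl fun i _ => ?_
    rw [Algebra.smul_def, mul_comm]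
  rw [e]
  refine Ideal.sum_mem _ fun i _ => Ideal.mul_mem_left _ _ (Ideal.mem_map_of_mem _ (h _))

/-- The coefficientwise image of an element of an extended ideal. -/
theorem LamN_mem_JN {f : ℕ → PN n K} {i : ℕ} {x : PN n L}
    (hx : x ∈ JN (fun k => iotaPN L (f k)) i) (lam : Module.Dual K L) : LamN lam x ∈ JN f i := by
  induction i generalizing x with
  | zero =>
    rw [JN_zero, Ideal.mem_bot] at hx
    rw [hx, LamN_zero]
    exact Ideal.zero_mem _
  | succ i ih =>
    obtain ⟨j, hj, w, rfl⟩ := mem_JN_succ.1 hx
    rw [LamN_add, LamN_mul]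
    exact mem_JN_succ.2 ⟨_, ih hj, _, rfl⟩

theorem map_iota_JN (f : ℕ → PN n K) (i : ℕ) :
    Ideal.map (iotaPN (K := K) L) (JN f i) = JN (fun k => iotaPN L (f k)) i := by
  unfold JN
  rw [Ideal.map_span, ← Set.image_comp]
  rfl

theorem iota_mem_JN {f : ℕ → PN n K} {i : ℕ} {x : PN n K} (hx : x ∈ JN f i) :
    iotaPN L x ∈ JN (fun k => iotaPN L (f k)) i := by
  rw [← map_iota_JN]
  exact Ideal.mem_map_of_mem _ hx

variable {c : ℕ} {a : ℕ → ℕ}

theorem formSeq_iotaN {f : ℕ → PN n K} (hf : FormSeqN c a f) :
    FormSeqN c a (fun k => iotaPN L (f k)) where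
  pos := hf.pos
  hom := fun i hi => IsHomogeneous.map (hf.hom i hi) _
  reg := by
    intro i hi u hu
    rw [← map_iota_JN]
    refine mem_map_of_LamN fun lam => ?_
    apply hf.reg i hi
    rw [mul_comm, ← LamN_mul, mul_comm]
    exact LamN_mem_JN hu lam

theorem extSN_FF {f : ℕ → PN n K} (hf : FormSeqN c a f) (hc : c ≤ n) (d : ℕ) :
    pieceN (JN (fun k => iotaPN L (f k)) c) d = extSN L (pieceN (JN f c) d) := by
  have hfH := finite_of_le_HN (K := L) (pieceN_le_HN (JN (fun k => iotaPN L (f k)) c) d)
  have hfF := finite_of_le_HN (K := K) (pieceN_le_HN (JN f c) d)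
  have hle : extSN L (pieceN (JN f c) d) ≤ pieceN (JN (fun k => iotaPN L (f k)) c) d := by
    refine extSN_le fun x hx => ?_
    obtain ⟨h1, h2⟩ := mem_pieceN.1 hx
    exact mem_pieceN.2 ⟨iota_mem_JN h1, IsHomogeneous.map h2 _⟩
  refine (Submodule.eq_of_le_of_finrank_le hle ?_).symm
  rw [finrank_extSN]
  have e1 := hf.finrank_FF hc d
  have e2 := (formSeq_iotaN (L := L) hf).finrank_FF hc d
  exact le_of_eq (Nat.add_right_cancel (e2.trans e1.symm))

/-- The lexicographic step passes down from an extension of the base field. -/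
theorem lexStep_transfer {f : ℕ → PN n K} (hf : FormSeqN c a f) (hc : c ≤ n) {d : ℕ}
    (h : LexStepN c a (fun k => iotaPN L (f k)) d) : LexStepN c a f d := by
  intro X Y h1 h2 h3 h4 h5 m hm hr j hj
  have hfX := finite_of_le_HN h2
  have hfY := finite_of_le_HN h5
  have hfF := finite_of_le_HN (K := K) (pieceN_le_HN (JN f c) d)
  have hfF' := finite_of_le_HN (K := K) (pieceN_le_HN (JN f c) (d + 1))
  have := h (extSN L X) (extSN L Y) (by rw [extSN_FF hf hc]; exact extSN_mono h1)
    (by rw [← extSN_HN (K := K)]; exact extSN_mono h2)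
    (by
      intro i x hx
      have hle : extSN L X ≤ (extSN L Y).comap (LinearMap.mulLeft L (MvPolynomial.X i)) := by
        refine extSN_le fun z hz => ?_
        show MvPolynomial.X i * iotaPN L z ∈ extSN L Y
        have := mem_extSN (L := L) (h3 i z hz)
        rwa [map_mul, map_X] at this
      exact hle hx)
    (by rw [extSN_FF hf hc]; exact extSN_mono h4)
    (by rw [← extSN_HN (K := K)]; exact extSN_mono h5) m hm
    (by rwa [extSN_FF hf hc, finrank_extSN, finrank_extSN]) j hj
  rwa [extSN_FF hf hc, finrank_extSN, finrank_extSN] at this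

end Vale.Agent.Lib.P200
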