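import Vale.Agent.Lib.P200.NPow

/-!
The family of degree sequences and the induction on the number of variables.
-/

namespace Vale.Agent.Lib.P200
open MvPolynomial Module

universe u

/-- The admissible degree sequences: at least two, sorted, and from the fourth term on larger than
the sum of the previous terms minus one. -/
def FamN (c : ℕ) (a : ℕ → ℕ) : Prop :=
  (∀ i, i < c → 2 ≤ a i) ∧ (∀ i j, i ≤ j → j < c → a i ≤ a j) ∧
    ∀ i, 3 ≤ i → i < c → ∑ j ∈ Finset.range i, (a j - 1) < a i

/-- Deleting the term of index `i`. -/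
def delSeq (i : ℕ) (a : ℕ → ℕ) : ℕ → ℕ := fun k => if k < i then a k else a (k + 1)

theorem FamN.of_le {c c' : ℕ} {a : ℕ → ℕ} (h : FamN c a) (hc : c' ≤ c) : FamN c' a :=
  ⟨fun i hi => h.1 i (by omega), fun i j hij hj => h.2.1 i j hij (by omega),
    fun i h3 hi => h.2.2 i h3 (by omega)⟩

theorem sum_delSeq (a : ℕ → ℕ) {i k : ℕ} (hk : i ≤ k) :
    ∑ j ∈ Finset.range k, (delSeq i a j - 1) + (a i - 1) =
      ∑ j ∈ Finset.range (k + 1), (a j - 1) := by
  induction k, hk using Nat.le_induction with
  | base =>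
    rw [Finset.sum_range_succ]
    congr 1
    refine Finset.sum_congr rfl fun j hj => ?_
    have := Finset.mem_range.1 hj
    simp [delSeq, this]
  | succ k hk ih =>
    rw [Finset.sum_range_succ, Finset.sum_range_succ _ (k + 1), ← ih]
    have : delSeq i a k = a (k + 1) := by
      simp [delSeq, not_lt.2 hk]
    rw [this]
    omega

theorem FamN.del {c : ℕ} {a : ℕ → ℕ} (h : FamN (c + 1) a) (i : ℕ) : FamN c (delSeq i a) := by
  obtain ⟨h1, h2, h3⟩ := h
  refine ⟨fun k hk => ?_, fun k l hkl hl => ?_, fun k hk3 hk => ?_⟩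
  · unfold delSeq
    split_ifs
    · exact h1 k (by omega)
    · exact h1 _ (by omega)
  · unfold delSeq
    split_ifs
    · exact h2 _ _ hkl (by omega)
    · exact h2 _ _ (by omega) (by omega)
    · omega
    · exact h2 _ _ (by omega) (by omega)
  · by_cases hki : k < i
    · have e : delSeq i a k = a k := by simp [delSeq, hki]
      rw [e]
      have e2 : ∑ j ∈ Finset.range k, (delSeq i a j - 1) = ∑ j ∈ Finset.range k, (a j - 1) := by
        refine Finset.sum_congr rfl fun j hj => ?_
        have := Finset.mem_range.1 hj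
        have hji : j < i := by omega
        simp [delSeq, hji]
      rw [e2]
      exact h3 k hk3 (by omega)
    · have e : delSeq i a k = a (k + 1) := by simp [delSeq, hki]
      rw [e]
      have h4 := h3 (k + 1) (by omega) (by omega)
      have h5 := sum_delSeq a (not_lt.1 hki)
      omega

theorem succAbove_val {N : ℕ} (i : Fin (N + 1)) (k : Fin N) :
    (i.succAbove k).val = if k.val < i.val then k.val else k.val + 1 := by
  unfold Fin.succAbove
  by_cases h : k.val < i.val
  · rw [if_pos h, if_pos (by simpa [Fin.lt_def] using h)]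
    simp
  · rw [if_neg h, if_neg (by simpa [Fin.lt_def] using h)]
    simp

theorem AN_del_lt {N c : ℕ} (a : ℕ → ℕ) (i : Fin (N + 1)) (hi : i.val < c + 1) :
    AN (N + 1) (c + 1) a ∘ i.succAbove = AN N c (delSeq i.val a) := by
  funext k
  simp only [Function.comp, AN, succAbove_val, delSeq]
  by_cases hk : k.val < i.val
  · rw [if_pos hk, if_pos (by omega), if_pos (by omega), if_pos hk]
  · rw [if_neg hk]
    by_cases hk2 : k.val < c
    · rw [if_pos (by omega), if_pos hk2, if_neg hk]
    · rw [if_neg (by omega), if_neg hk2]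

theorem AN_del_ge {N c : ℕ} (a : ℕ → ℕ) (i : Fin (N + 1)) (hi : c ≤ i.val) :
    AN (N + 1) c a ∘ i.succAbove = AN N c a := by
  funext k
  simp only [Function.comp, AN, succAbove_val]
  by_cases hk : k.val < i.val
  · rw [if_pos hk]
  · rw [if_neg hk, if_neg (by omega), if_neg (by omega)]

variable {K : Type u} [Field K]

/-- The lexicographic step for all admissible sequences of at most `m` forms in `n` variables. -/
def SB (K : Type u) [Field K] (n m : ℕ) : Prop :=
  ∀ c, c ≤ n → c ≤ m → ∀ a, FamN c a → ∀ f : ℕ → PN n K, FormSeqN c a f → ∀ d, LexStepN c a f d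

/-- The Clements-Lindström inequality in `N + 1` variables, one unbounded. -/
theorem CL_up {N m c : ℕ} (hN : 2 ≤ N) (hS : SB K N m) (hc : c ≤ N) (hcm : c ≤ m) {a : ℕ → ℕ}
    (hfam : FamN c a) : CLcore (AN (N + 1) c a) := by
  have hbase : ∀ {c' : ℕ} {a' : ℕ → ℕ}, c' ≤ N → c' ≤ m → FamN c' a' → CLcore (AN N c' a') := by
    intro c' a' h1 h2 h3
    have hpos : ∀ i, i < c' → 1 ≤ a' i := fun i hi => le_trans (by omega) (h3.1 i hi)
    exact CL_of_step (K := K) h1 hpos (hS c' h1 h2 a' h3 _ (formSeq_pow h1 hpos))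
  refine CL_step hN (AN_last hc a) fun i => ?_
  by_cases hi : c ≤ i.val
  · rw [AN_del_ge a i hi]
    exact hbase hc hcm hfam
  · obtain ⟨c', rfl⟩ : ∃ c', c = c' + 1 := ⟨c - 1, by omega⟩
    rw [AN_del_lt a i (by omega)]
    exact hbase (by omega) (by omega) (hfam.del _)

/-- The induction on the number of variables, for short sequences. -/
theorem SB_succ_short [Infinite K] {N m : ℕ} (hN : 2 ≤ N) (hS : SB K N m) {c : ℕ} (hc : c ≤ N)
    (hcm : c ≤ m) {a : ℕ → ℕ} (hfam : FamN c a) {f : ℕ → PN (N + 1) K} (hf : FormSeqN c a f)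
    (d : ℕ) : LexStepN c a f d :=
  lex_step_L hc hf (CL_up hN hS hc hcm hfam) (fun g hg => hS c hc hcm a hfam g hg) d

end Vale.Agent.Lib.P200
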