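import Vale.Agent.Lib.P200.NBase
import Vale.Agent.Lib.P200.NExt

/-!
From the lexicographic step in all degrees to the ideal `J`.
-/

namespace Vale.Agent.Lib.P200
open MvPolynomial Module

universe u

variable {K : Type u} [Field K] {n c : ℕ}

/-- Extension of a finite sequence of degrees by zero. -/
def aXN {c : ℕ} (a : Fin c → ℕ) : ℕ → ℕ := fun i => if h : i < c then a ⟨i, h⟩ else 0

/-- Extension of a finite sequence of forms by zero. -/
noncomputable def fXN {c : ℕ} (f : Fin c → PN n K) : ℕ → PN n K :=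
  fun i => if h : i < c then f ⟨i, h⟩ else 0

theorem aXN_of_lt (a : Fin c → ℕ) {i : ℕ} (h : i < c) : aXN a i = a ⟨i, h⟩ := dif_pos h

theorem fXN_of_lt (f : Fin c → PN n K) {i : ℕ} (h : i < c) : fXN f i = f ⟨i, h⟩ := dif_pos h

theorem outsideN_iff (hc : c ≤ n) (a : Fin c → ℕ) (m : Fin n →₀ ℕ) :
    OutsideN hc a m ↔ AllowedN (AN n c (aXN a)) (m : Fin n → ℕ) := by
  rw [allowed_iff]
  constructor
  · intro h i hi
    rw [aXN_of_lt a hi]
    exact h ⟨i.val, hi⟩
  · intro h i
    have := h (Fin.castLE hc i) i.isLt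
    rw [show (Fin.castLE hc i).val = i.val from rfl, aXN_of_lt a i.isLt] at this
    exact this

theorem lexRank_eq (hc : c ≤ n) (a : Fin c → ℕ) (m : Fin n →₀ ℕ) :
    lexRankN hc a m = rkS (kN n) (TTN (AN n c (aXN a)) m.degree) (m : Fin n → ℕ) :=
  lexRank_bridge (outsideN_iff hc a) rfl

theorem powerIdeal_eq (hc : c ≤ n) (a : Fin c → ℕ) :
    powerIdealN K hc a = JN (powN n K (aXN a)) c := by
  unfold powerIdealN JN
  congr 1
  ext x
  simp only [Set.mem_range, Set.mem_image, Set.mem_Iio]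
  constructor
  · rintro ⟨i, rfl⟩
    refine ⟨i.val, i.isLt, ?_⟩
    rw [powN_of_lt (lt_of_lt_of_le i.isLt hc), aXN_of_lt a i.isLt]
    rfl
  · rintro ⟨i, hi, rfl⟩
    refine ⟨⟨i, hi⟩, ?_⟩
    rw [powN_of_lt (lt_of_lt_of_le hi hc), aXN_of_lt a hi]
    rfl

theorem aXN_pos {a : Fin c → ℕ} (ha : ∀ i, 1 ≤ a i) (i : ℕ) (hi : i < c) : 1 ≤ aXN a i := by
  rw [aXN_of_lt a hi]
  exact ha _

theorem set_MNN (hc : c ≤ n) (a : Fin c → ℕ) (d : ℕ) :
    toFS '' (MNN n c (aXN a) d : Set (Fin n → ℕ)) =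
      {m : Fin n →₀ ℕ | m.degree = d ∧ ¬ OutsideN hc a m} := by
  ext m
  rw [mem_toFS_image, Finset.mem_coe, mem_MNN, Set.mem_ofPred_eq, outsideN_iff hc,
    ← Finsupp.degree_eq_sum]

section main

variable {a : Fin c → ℕ} {g : ℕ → PN n K} {I : Ideal (PN n K)}

/-- The exponents of the monomials of `J`. -/
noncomputable def MSetN (hc : c ≤ n) (a : Fin c → ℕ) (I : Ideal (PN n K)) : Set (Fin n →₀ ℕ) :=
  {m | ¬ OutsideN hc a m ∨ lexRankN hc a m < excessN hc a I m.degree}

theorem piece_power_eq (hc : c ≤ n) (a : Fin c → ℕ) (d : ℕ) :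
    pieceN (powerIdealN K hc a) d = restrictSupport K {m | m.degree = d ∧ ¬ OutsideN hc a m} := by
  rw [powerIdeal_eq, piece_pow hc, set_MNN hc]

theorem lexPieceN_eq (hc : c ≤ n) (a : Fin c → ℕ) (I : Ideal (PN n K)) (d : ℕ) :
    lexPieceN hc a I d = restrictSupport K {m | m ∈ MSetN hc a I ∧ m.degree = d} := by
  unfold lexPieceN
  rw [piece_power_eq, restrictSupport_eq_span, restrictSupport_eq_span, ← Submodule.span_union,
    ← Set.image_union]
  congr 2
  ext m
  simp only [Set.mem_union, Set.mem_ofPred_eq, MSetN]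
  constructor
  · rintro (⟨h1, h2⟩ | ⟨h1, _, h3⟩)
    · exact ⟨Or.inl h2, h1⟩
    · subst h1
      exact ⟨Or.inr h3, rfl⟩
  · rintro ⟨h1 | h1, h2⟩
    · exact Or.inl ⟨h2, h1⟩
    · by_cases ho : OutsideN hc a m
      · subst h2
        exact Or.inr ⟨rfl, ho, h1⟩
      · exact Or.inl ⟨h2, ho⟩

theorem lexSpaceN_eq (hc : c ≤ n) (a : Fin c → ℕ) (I : Ideal (PN n K)) :
    lexSpaceN hc a I = restrictSupport K (MSetN hc a I) := by
  apply le_antisymm
  · refine iSup_le fun d => ?_
    rw [lexPieceN_eq]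
    exact restrictSupport_mono K fun m hm => hm.1
  · rw [restrictSupport_eq_span, Submodule.span_le]
    rintro _ ⟨m, hm, rfl⟩
    refine le_iSup (fun d => lexPieceN hc a I d) m.degree ?_
    rw [lexPieceN_eq]
    change monomial m (1 : K) ∈ _
    rw [monomial_mem_restrictSupport]
    exact Or.inl ⟨hm, rfl⟩

theorem JN_le_of_mem {c : ℕ} {g : ℕ → PN n K} (hI : ∀ i, i < c → g i ∈ I) : JN g c ≤ I := by
  unfold JN
  rw [Ideal.span_le]
  rintro _ ⟨i, hi, rfl⟩
  exact hI i hi

theorem piece_le_of_le {J J' : Ideal (PN n K)} (h : J ≤ J') (d : ℕ) : pieceN J d ≤ pieceN J' d := by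
  intro x hx
  obtain ⟨h1, h2⟩ := mem_pieceN.1 hx
  exact mem_pieceN.2 ⟨h h1, h2⟩

theorem finrank_power_eq (hc : c ≤ n) (ha : ∀ i, 1 ≤ a i) (hform : FormSeqN c (aXN a) g) (d : ℕ) :
    finrank K (pieceN (powerIdealN K hc a) d) = finrank K (pieceN (JN g c) d) := by
  rw [powerIdeal_eq]
  have e1 := (formSeq_pow (K := K) hc (aXN_pos ha)).finrank_FF hc d
  have e2 := hform.finrank_FF hc d
  omega

theorem coe_add_single (m : Fin n →₀ ℕ) (l : Fin n) :
    ((m + Finsupp.single l 1 : Fin n →₀ ℕ) : Fin n → ℕ) = (m : Fin n → ℕ) + eN l := by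
  funext i
  simp only [Finsupp.add_apply, Pi.add_apply, Finsupp.single_apply, Pi.single_apply]
  by_cases h : i = l
  · subst h
    simp
  · simp [h, Ne.symm h]

theorem degree_add_singleN (m : Fin n →₀ ℕ) (l : Fin n) :
    (m + Finsupp.single l 1).degree = m.degree + 1 := by
  rw [Finsupp.degree_eq_sum, Finsupp.degree_eq_sum, coe_add_single, sum_add_eN]

theorem MSetN_step (hc : c ≤ n) (ha : ∀ i, 1 ≤ a i) (hform : FormSeqN c (aXN a) g)
    (hstep : ∀ d, LexStepN c (aXN a) g d) (hI : ∀ i, i < c → g i ∈ I)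
    {m : Fin n →₀ ℕ} (hm : m ∈ MSetN hc a I) (l : Fin n) :
    m + Finsupp.single l 1 ∈ MSetN hc a I := by
  by_cases ho : OutsideN hc a (m + Finsupp.single l 1)
  swap
  · exact Or.inl ho
  right
  rw [outsideN_iff, coe_add_single] at ho
  have hom : AllowedN (AN n c (aXN a)) (m : Fin n → ℕ) := allowed_of_le ho fun i => by
    rw [Pi.add_apply]
    omega
  have hr : lexRankN hc a m < excessN hc a I m.degree := by
    rcases hm with hm | hm
    · exact absurd ((outsideN_iff hc a m).2 hom) hm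
    · exact hm
  rw [lexRank_eq, degree_add_singleN, coe_add_single]
  rw [lexRank_eq] at hr
  unfold excessN at hr ⊢
  rw [finrank_power_eq hc ha hform] at hr ⊢
  have hJI := JN_le_of_mem hI
  have hXmul : ∀ i, ∀ x ∈ pieceN I m.degree, (X i : PN n K) * x ∈ pieceN I (m.degree + 1) := by
    intro i x hx
    obtain ⟨h1, h2⟩ := mem_pieceN.1 hx
    refine mem_pieceN.2 ⟨I.mul_mem_left _ h1, ?_⟩
    have := (isHomogeneous_X K i).mul h2
    rwa [add_comm] at this
  exact hstep m.degree (pieceN I m.degree) (pieceN I (m.degree + 1)) (piece_le_of_le hJI _)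
    (pieceN_le_HN _ _) hXmul (piece_le_of_le hJI _) (pieceN_le_HN _ _) (m : Fin n → ℕ)
    (mem_TTN.2 ⟨(Finsupp.degree_eq_sum m).symm, hom⟩) hr l ho

theorem MSetN_upper (hc : c ≤ n) (ha : ∀ i, 1 ≤ a i) (hform : FormSeqN c (aXN a) g)
    (hstep : ∀ d, LexStepN c (aXN a) g d) (hI : ∀ i, i < c → g i ∈ I) :
    IsUpperSet (MSetN hc a I) := by
  have key : ∀ k : Fin n →₀ ℕ, ∀ x ∈ MSetN hc a I, x + k ∈ MSetN hc a I := by
    intro k
    induction k using Finsupp.induction_linear with
    | zero =>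
      intro x hx
      simpa using hx
    | add k1 k2 h1 h2 =>
      intro x hx
      rw [← add_assoc]
      exact h2 _ (h1 _ hx)
    | single i k =>
      induction k with
      | zero =>
        intro x hx
        simpa using hx
      | succ k ih =>
        intro x hx
        have := MSetN_step hc ha hform hstep hI (ih x hx) i
        rwa [add_assoc, ← Finsupp.single_add] at this
  intro x y hxy hx
  have := key (y - x) x hx
  rwa [add_tsub_cancel_of_le hxy] at this

theorem mem_J_iffN {J : Ideal (PN n K)} (hc : c ≤ n)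
    (hJ : J.restrictScalars K = lexSpaceN hc a I) {x : PN n K} :
    x ∈ J ↔ x ∈ restrictSupport K (MSetN hc a I) := by
  rw [← lexSpaceN_eq, ← hJ]
  rfl

theorem HN_eq_restrict' (d : ℕ) : HN K n d = restrictSupport K {m | m.degree = d} :=
  homogeneousSubmodule_eq_finsupp_supported _ _ d

theorem pieceN_J {J : Ideal (PN n K)} (hc : c ≤ n)
    (hJ : J.restrictScalars K = lexSpaceN hc a I) (d : ℕ) :
    pieceN J d = lexPieceN hc a I d := by
  rw [lexPieceN_eq]
  ext x
  rw [mem_pieceN, mem_J_iffN hc hJ, mem_restrictSupport_iff, mem_restrictSupport_iff]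
  have e : x.IsHomogeneous d ↔ (↑x.support : Set (Fin n →₀ ℕ)) ⊆ {m | m.degree = d} := by
    have : x ∈ HN K n d ↔ x ∈ restrictSupport K {m : Fin n →₀ ℕ | m.degree = d} := by
      rw [HN_eq_restrict']
    rw [mem_restrictSupport_iff] at this
    exact this
  rw [e]
  constructor
  · rintro ⟨h1, h2⟩ m hm
    exact ⟨h1 hm, h2 hm⟩
  · intro h
    exact ⟨fun m hm => (h hm).1, fun m hm => (h hm).2⟩

/-- `dim J_d = dim I_d`. -/
theorem finrank_lexPieceN (hc : c ≤ n) (ha : ∀ i, 1 ≤ a i) (hform : FormSeqN c (aXN a) g)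
    (hI : ∀ i, i < c → g i ∈ I) (d : ℕ) :
    finrank K (lexPieceN hc a I d) = finrank K (pieceN I d) := by
  classical
  set q := excessN hc a I d with hq
  have hle0 : finrank K (pieceN (JN g c) d) ≤ finrank K (pieceN I d) :=
    finrank_le_of_le_HN (piece_le_of_le (JN_le_of_mem hI) d) (pieceN_le_HN _ _)
  have e1 := hform.finrank_FF hc d
  have e2 : finrank K (pieceN I d) ≤ TN n d := by
    rw [← finrank_HN (K := K)]
    exact finrank_le_of_le_HN (pieceN_le_HN _ _) (le_refl _)
  have hqeq : q = finrank K (pieceN I d) - finrank K (pieceN (JN g c) d) := by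
    rw [hq]
    unfold excessN
    rw [finrank_power_eq hc ha hform]
  have hqle : q ≤ (TTN (AN n c (aXN a)) d).card := by omega
  have hset : {m | m ∈ MSetN hc a I ∧ m.degree = d} =
      toFS '' ((MNN n c (aXN a) d ∪ topS (kN n) (TTN (AN n c (aXN a)) d) q : Finset (Fin n → ℕ)) :
        Set (Fin n → ℕ)) := by
    ext m
    rw [mem_toFS_image, Finset.mem_coe, Finset.mem_union, mem_MNN, mem_topS, mem_TTN,
      Set.mem_ofPred_eq, MSetN, Set.mem_ofPred_eq, ← Finsupp.degree_eq_sum, ← outsideN_iff hc a,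
      lexRank_eq hc a m]
    constructor
    · rintro ⟨h1 | h1, rfl⟩
      · exact Or.inl ⟨rfl, h1⟩
      · by_cases ho : OutsideN hc a m
        · exact Or.inr ⟨⟨rfl, ho⟩, h1⟩
        · exact Or.inl ⟨rfl, ho⟩
    · rintro (⟨rfl, h1⟩ | ⟨⟨rfl, h1⟩, h2⟩)
      · exact ⟨Or.inl h1, rfl⟩
      · exact ⟨Or.inr h2, rfl⟩
  have hdisj : Disjoint (MNN n c (aXN a) d) (topS (kN n) (TTN (AN n c (aXN a)) d) q) :=
    disjoint_MNN d _ (topS_subset _ _)
  rw [lexPieceN_eq, hset, finrank_restrictSupport_image, Finset.card_union_of_disjoint hdisj,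
    card_topS (kN_inj n), min_eq_left hqle]
  have e3 := finrank_piece_pow (K := K) (a := aXN a) hc d
  have e4 := (formSeq_pow (K := K) hc (aXN_pos ha)).finrank_FF hc d
  omega

/-- The ideal `J` from the lexicographic step. -/
theorem lex_ideal_of_steps (hc : c ≤ n) (ha : ∀ i, 1 ≤ a i) (hform : FormSeqN c (aXN a) g)
    (hstep : ∀ d, LexStepN c (aXN a) g d) (hI : ∀ i, i < c → g i ∈ I) :
    ∃ J : Ideal (PN n K), J.restrictScalars K = lexSpaceN hc a I ∧
      ∀ d, finrank K (pieceN J d) = finrank K (pieceN I d) := by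
  have hJ : (restrictSupportIdeal K (MSetN hc a I)
      (MSetN_upper hc ha hform hstep hI)).restrictScalars K = lexSpaceN hc a I := by
    rw [restrictScalars_restrictSupportIdeal, lexSpaceN_eq]
  refine ⟨_, hJ, fun d => ?_⟩
  rw [pieceN_J hc hJ]
  exact finrank_lexPieceN hc ha hform hI d

end main

/-- Regular sequences in the sense of Mathlib give a sequence of forms. -/
theorem formSeqN_of_weaklyRegular {a : Fin c → ℕ} {f : Fin c → PN n K} (ha : ∀ i, 1 ≤ a i)
    (hf : ∀ i, (f i).IsHomogeneous (a i))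
    (hreg : RingTheory.Sequence.IsWeaklyRegular (PN n K) (List.ofFn f)) :
    FormSeqN c (aXN a) (fXN f) where
  pos := aXN_pos ha
  hom := by
    intro i hi
    rw [aXN_of_lt a hi, fXN_of_lt f hi]
    exact hf _
  reg := by
    intro i hi u hu
    have hlen : i < (List.ofFn f).length := by simpa using hi
    have h0 := hreg.regular_mod_prev i hlen
    have hJ : Ideal.ofList ((List.ofFn f).take i) = JN (fXN f) i := by
      unfold Ideal.ofList JN
      congr 1
      ext x
      simp only [Set.mem_image, Set.mem_Iio, Set.mem_ofPred_eq, List.mem_take_iff_getElem,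
        List.getElem_ofFn, List.length_ofFn]
      constructor
      · rintro ⟨j, hj, rfl⟩
        have hj2 : j < min i c := hj
        refine ⟨j, by omega, ?_⟩
        rw [fXN_of_lt f (by omega)]
      · rintro ⟨j, hj, rfl⟩
        have hjc : j < c := by omega
        refine ⟨j, by omega, ?_⟩
        rw [fXN_of_lt f hjc]
    have hI : (Ideal.ofList ((List.ofFn f).take i) • ⊤ : Submodule (PN n K) (PN n K)) = JN (fXN f) i := by
      rw [hJ, smul_eq_mul, Ideal.mul_top]
    have e : (List.ofFn f)[i] = fXN f i := by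
      rw [fXN_of_lt f hi]
      simp
    rw [hI, e] at h0
    have e1 : fXN f i • (Submodule.Quotient.mk u : PN n K ⧸ JN (fXN f) i) = fXN f i • 0 := by
      rw [smul_zero, ← Submodule.Quotient.mk_smul, Submodule.Quotient.mk_eq_zero, smul_eq_mul]
      exact hu
    have e2 := h0 e1
    rwa [Submodule.Quotient.mk_eq_zero] at e2

end Vale.Agent.Lib.P200
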