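import Vale.Agent.Lib.P200.NFinal

/-!
The main theorem from the lexicographic step over the algebraic closure.
-/

namespace Vale.Agent.Lib.P200
open MvPolynomial Module

universe u

variable {K : Type u} [Field K] {n c : ℕ}

theorem famN_aXN {a : Fin c → ℕ} (ha : ∀ i, 2 ≤ a i) (hmono : Monotone a)
    (hfast : ∀ i : Fin c, 3 ≤ i.val →
      ∑ j ∈ Finset.univ.filter (fun j : Fin c => j < i), (a j - 1) < a i) : FamN c (aXN a) := by
  refine ⟨fun i hi => ?_, fun i j hij hj => ?_, fun i h3 hi => ?_⟩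
  · rw [aXN_of_lt a hi]
    exact ha _
  · rw [aXN_of_lt a (by omega), aXN_of_lt a hj]
    exact hmono (by simpa using hij)
  · rw [aXN_of_lt a hi]
    refine lt_of_eq_of_lt ?_ (hfast ⟨i, hi⟩ h3)
    symm
    refine Finset.sum_bij (fun j _ => j.val) ?_ ?_ ?_ ?_
    · intro j hj
      have := (Finset.mem_filter.1 hj).2
      exact Finset.mem_range.2 this
    · intro j _ k _ e
      exact Fin.ext e
    · intro j hj
      have hj' := Finset.mem_range.1 hj
      exact ⟨⟨j, by omega⟩, Finset.mem_filter.2 ⟨Finset.mem_univ _, hj'⟩, rfl⟩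
    · intro j _
      rw [aXN_of_lt a j.isLt]

/-- The main theorem from the lexicographic step over the algebraic closure. -/
theorem gen_of_SB {m : ℕ} (hS : SB (AlgebraicClosure K) n m) (hc : c ≤ n) (hcm : c ≤ m)
    {a : Fin c → ℕ} (ha : ∀ i, 2 ≤ a i) (hmono : Monotone a)
    (hfast : ∀ i : Fin c, 3 ≤ i.val →
      ∑ j ∈ Finset.univ.filter (fun j : Fin c => j < i), (a j - 1) < a i)
    {f : Fin c → PN n K} (hf : ∀ i, (f i).IsHomogeneous (a i))
    (hreg : RingTheory.Sequence.IsWeaklyRegular (PN n K) (List.ofFn f))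
    {I : Ideal (PN n K)} (hI : ∀ i, f i ∈ I) :
    ∃ J : Ideal (PN n K), J.restrictScalars K = lexSpaceN hc a I ∧
      ∀ d, finrank K (pieceN J d) = finrank K (pieceN I d) := by
  have ha1 : ∀ i, 1 ≤ a i := fun i => le_trans (by omega) (ha i)
  have hform := formSeqN_of_weaklyRegular ha1 hf hreg
  have hfam := famN_aXN ha hmono hfast
  refine lex_ideal_of_steps hc ha1 hform (fun d => ?_) (fun i hi => ?_)
  · exact lexStep_transfer (L := AlgebraicClosure K) hform hc
      (hS c hc hcm _ hfam _ (formSeq_iotaN hform) d)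
  · rw [fXN_of_lt f hi]
    exact hI _

end Vale.Agent.Lib.P200
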