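import Vale.Agent.Lib.P200.Basic
import Vale.Agent.Lib.P200.NCL4
import Vale.Agent.Lib.P200.NDefs

/-!
Regular sequences of forms in `n` variables: graded pieces and the dimension count.
-/

namespace Vale.Agent.Lib.P200
open MvPolynomial Module

variable {K : Type*} [Field K] {n : ℕ}

/-- Shorthand: the polynomial ring in `n` variables. -/
abbrev PN (n : ℕ) (K : Type*) [Field K] := MvPolynomial (Fin n) K

/-- Shorthand: forms of degree `d`. -/
abbrev HN (K : Type*) [Field K] (n d : ℕ) : Submodule K (PN n K) :=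
  homogeneousSubmodule (Fin n) K d

instance instFiniteHN (d : ℕ) : Module.Finite K (HN K n d) :=
  Module.Finite.iff_fg.2 (homogeneousSubmodule_fg _ _ d)

theorem finite_of_le_HN {W : Submodule K (PN n K)} {d : ℕ} (h : W ≤ HN K n d) :
    Module.Finite K W :=
  Submodule.finiteDimensional_of_le h

theorem finrank_le_of_le_HN {W W' : Submodule K (PN n K)} {d : ℕ} (h : W ≤ W')
    (h' : W' ≤ HN K n d) : finrank K W ≤ finrank K W' :=
  have := finite_of_le_HN h'
  Submodule.finrank_mono h

theorem finrank_restrictSupportN (s : Set (Fin n →₀ ℕ)) :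
    finrank K (restrictSupport K s) = s.ncard := by
  rw [finrank_eq_nat_card_basis (basisRestrictSupport K s), Nat.card_coe_set_eq]

/-- From exponent functions to exponent vectors. -/
noncomputable abbrev toFS (m : Fin n → ℕ) : Fin n →₀ ℕ := Finsupp.equivFunOnFinite.symm m

theorem toFS_apply (m : Fin n → ℕ) (i : Fin n) : toFS m i = m i := rfl

theorem toFS_inj : Function.Injective (toFS : (Fin n → ℕ) → Fin n →₀ ℕ) :=
  Finsupp.equivFunOnFinite.symm.injective

theorem degree_toFS (m : Fin n → ℕ) : (toFS m).degree = ∑ i, m i := by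
  rw [Finsupp.degree_eq_sum]
  rfl

theorem toFS_surj (m : Fin n →₀ ℕ) : toFS (m : Fin n → ℕ) = m :=
  Finsupp.equivFunOnFinite.symm_apply_apply m

/-- Monomials with exponents in a finite set of functions: the dimension. -/
theorem finrank_restrictSupport_image (W : Finset (Fin n → ℕ)) :
    finrank K (restrictSupport K (toFS '' (W : Set (Fin n → ℕ)))) = W.card := by
  rw [finrank_restrictSupportN, Set.ncard_image_of_injective _ toFS_inj, Set.ncard_coe_finset]

theorem HN_eq_restrict (d : ℕ) :
    HN K n d = restrictSupport K (toFS '' (TTN (fun _ : Fin n => ⊤) d : Set (Fin n → ℕ))) := by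
  have : (toFS '' (TTN (fun _ : Fin n => ⊤) d : Set (Fin n → ℕ))) = {m | m.degree = d} := by
    ext m
    simp only [Set.mem_image, Finset.mem_coe, mem_TTN, Set.mem_ofPred_eq]
    constructor
    · rintro ⟨k, ⟨h1, -⟩, rfl⟩
      rw [degree_toFS, h1]
    · intro h
      refine ⟨(m : Fin n → ℕ), ⟨?_, fun i => ENat.natCast_lt_top _⟩, toFS_surj m⟩
      rw [← h, Finsupp.degree_eq_sum]
  rw [this]
  exact homogeneousSubmodule_eq_finsupp_supported _ _ d

/-- Number of monomials of degree `d`. -/
noncomputable def TN (n d : ℕ) : ℕ := (TTN (fun _ : Fin n => ⊤) d).card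

theorem finrank_HN (d : ℕ) : finrank K (HN K n d) = TN n d := by
  rw [HN_eq_restrict, finrank_restrictSupport_image]
  rfl

theorem mem_pieceN {I : Ideal (PN n K)} {d : ℕ} {a : PN n K} :
    a ∈ pieceN I d ↔ a ∈ I ∧ a.IsHomogeneous d := by
  simp [pieceN, mem_homogeneousSubmodule]

theorem pieceN_le_HN (I : Ideal (PN n K)) (d : ℕ) : pieceN I d ≤ HN K n d := inf_le_right

/-- An ideal closed under taking homogeneous components. -/
def HomClosedN (J : Ideal (PN n K)) : Prop := ∀ p ∈ J, ∀ k, homogeneousComponent k p ∈ J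

theorem homClosedN_bot : HomClosedN (⊥ : Ideal (PN n K)) := by
  intro p hp k
  rw [Ideal.mem_bot] at hp
  rw [hp, map_zero]
  exact Ideal.zero_mem _

/-- Component of `p` of degree `m - k`, zero when `m < k`. -/
noncomputable def hzcN (p : PN n K) (m k : ℕ) : PN n K :=
  if k ≤ m then homogeneousComponent (m - k) p else 0

theorem comp_mul_hzcN {f : PN n K} {e : ℕ} (hf : f.IsHomogeneous e) (p : PN n K) (t : ℕ) :
    homogeneousComponent t (p * f) = hzcN p t e * f := by
  rw [comp_mul_general hf, hzcN]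
  split_ifs <;> simp

theorem homClosedN_sup {J : Ideal (PN n K)} (hJ : HomClosedN J) {g : PN n K} {e : ℕ}
    (hg : g.IsHomogeneous e) : HomClosedN (J ⊔ Ideal.span {g}) := by
  intro p hp k
  obtain ⟨j, hj, w, hw, rfl⟩ := Submodule.mem_sup.1 hp
  obtain ⟨c, rfl⟩ := Ideal.mem_span_singleton'.1 hw
  rw [map_add, comp_mul_hzcN hg]
  exact Ideal.add_mem _ (Ideal.mem_sup_left (hJ j hj k))
    (Ideal.mem_sup_right (Ideal.mul_mem_left _ _ (Ideal.mem_span_singleton_self g)))

theorem piece_low {J : Ideal (PN n K)} {g : PN n K} {e d : ℕ} (hJ : HomClosedN J)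
    (hg : g.IsHomogeneous e) (hd : d < e) : pieceN (J ⊔ Ideal.span {g}) d = pieceN J d := by
  apply le_antisymm
  · intro a ha
    obtain ⟨h1, h2⟩ := mem_pieceN.1 ha
    refine mem_pieceN.2 ⟨?_, h2⟩
    obtain ⟨j, hj, w, hw, rfl⟩ := Submodule.mem_sup.1 h1
    obtain ⟨c, rfl⟩ := Ideal.mem_span_singleton'.1 hw
    have := homogeneousComponent_eq_self h2
    rw [map_add, comp_mul_hzcN hg, hzcN, if_neg (by omega), zero_mul, add_zero] at this
    rw [← this]
    exact hJ j hj d
  · intro a ha
    obtain ⟨h1, h2⟩ := mem_pieceN.1 ha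
    exact mem_pieceN.2 ⟨Ideal.mem_sup_left h1, h2⟩

/-- Adding a regular generator. -/
theorem finrank_piece_addN {J : Ideal (PN n K)} {g : PN n K} {e : ℕ} (hJ : HomClosedN J)
    (hg : g.IsHomogeneous e) (hne : g ≠ 0) (hreg : ∀ p, p * g ∈ J → p ∈ J) (D : ℕ) :
    finrank K (pieceN (J ⊔ Ideal.span {g}) (D + e)) + finrank K (pieceN J D) =
      finrank K (pieceN J (D + e)) + TN n D := by
  set M1 : Submodule K (PN n K) := (HN K n D).map (LinearMap.mulRight K g) with hM1
  have hinj : Function.Injective (LinearMap.mulRight K g : PN n K →ₗ[K] PN n K) :=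
    fun x y exy => mul_right_cancel₀ hne (by simpa using exy)
  have hfinA : Module.Finite K (pieceN J (D + e)) := finite_of_le_HN (pieceN_le_HN _ _)
  have hfinB : Module.Finite K M1 := by
    rw [hM1]
    exact Module.Finite.map _ _
  have hL : pieceN (J ⊔ Ideal.span {g}) (D + e) = pieceN J (D + e) ⊔ M1 := by
    apply le_antisymm
    · intro a ha
      obtain ⟨h1, h2⟩ := mem_pieceN.1 ha
      obtain ⟨j, hj, w, hw, rfl⟩ := Submodule.mem_sup.1 h1
      obtain ⟨c, rfl⟩ := Ideal.mem_span_singleton'.1 hw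
      have e1 := homogeneousComponent_eq_self h2
      rw [map_add, comp_mul_add hg] at e1
      rw [← e1]
      refine Submodule.add_mem_sup
        (mem_pieceN.2 ⟨hJ j hj _, homogeneousComponent_isHomogeneous _ _⟩) ?_
      exact ⟨homogeneousComponent D c, homogeneousComponent_isHomogeneous _ _, rfl⟩
    · refine sup_le ?_ ?_
      · intro a ha
        obtain ⟨h1, h2⟩ := mem_pieceN.1 ha
        exact mem_pieceN.2 ⟨Ideal.mem_sup_left h1, h2⟩
      · rintro _ ⟨c, hc, rfl⟩
        refine mem_pieceN.2 ⟨Ideal.mem_sup_right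
          (Ideal.mul_mem_left _ _ (Ideal.mem_span_singleton_self g)), ?_⟩
        exact (show c.IsHomogeneous D from hc).mul hg
  have hI : pieceN J (D + e) ⊓ M1 = (pieceN J D).map (LinearMap.mulRight K g) := by
    apply le_antisymm
    · rintro _ ⟨h1, ⟨c, hc, rfl⟩⟩
      obtain ⟨h2, _⟩ := mem_pieceN.1 h1
      exact ⟨c, mem_pieceN.2 ⟨hreg c h2, hc⟩, rfl⟩
    · rintro _ ⟨c, hc, rfl⟩
      obtain ⟨h2, h3⟩ := mem_pieceN.1 hc
      exact ⟨mem_pieceN.2 ⟨Ideal.mul_mem_right _ _ h2, h3.mul hg⟩, ⟨c, h3, rfl⟩⟩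
  have e1 : finrank K (pieceN J (D + e) ⊔ M1 : Submodule K (PN n K)) +
      finrank K (pieceN J (D + e) ⊓ M1 : Submodule K (PN n K)) =
      finrank K (pieceN J (D + e)) + finrank K M1 :=
    Submodule.finrank_sup_add_finrank_inf_eq (pieceN J (D + e)) M1
  rw [← hL, hI] at e1
  have e2 : finrank K ((pieceN J D).map (LinearMap.mulRight K g)) = finrank K (pieceN J D) :=
    (Submodule.equivMapOfInjective _ hinj _).finrank_eq.symm
  have e3 : finrank K M1 = TN n D := by
    rw [hM1, ← (Submodule.equivMapOfInjective _ hinj _).finrank_eq, finrank_HN]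
  rw [e2, e3] at e1
  exact e1

/-- The ideal of the first `c` terms of a sequence. -/
noncomputable def JN (f : ℕ → PN n K) (c : ℕ) : Ideal (PN n K) := Ideal.span (f '' Set.Iio c)

theorem JN_succ (f : ℕ → PN n K) (c : ℕ) : JN f (c + 1) = JN f c ⊔ Ideal.span {f c} := by
  unfold JN
  rw [← Ideal.span_union]
  congr 1
  ext x
  simp only [Set.mem_image, Set.mem_Iio, Set.mem_union, Set.mem_singleton_iff]
  constructor
  · rintro ⟨i, hi, rfl⟩
    by_cases h : i = c
    · subst h
      exact Or.inr rfl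
    · exact Or.inl ⟨i, by omega, rfl⟩
  · rintro (⟨i, hi, rfl⟩ | rfl)
    · exact ⟨i, by omega, rfl⟩
    · exact ⟨c, by omega, rfl⟩

theorem JN_zero (f : ℕ → PN n K) : JN f 0 = ⊥ := by
  unfold JN
  simp

theorem mem_JN_of {f : ℕ → PN n K} {c i : ℕ} (h : i < c) : f i ∈ JN f c :=
  Ideal.subset_span ⟨i, h, rfl⟩

theorem JN_mono (f : ℕ → PN n K) {c c' : ℕ} (h : c ≤ c') : JN f c ≤ JN f c' :=
  Ideal.span_mono (Set.image_mono fun _ hi => lt_of_lt_of_le hi h)

theorem mem_JN_succ {f : ℕ → PN n K} {c : ℕ} {p : PN n K} :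
    p ∈ JN f (c + 1) ↔ ∃ j ∈ JN f c, ∃ w, p = j + w * f c := by
  rw [JN_succ, Submodule.mem_sup]
  constructor
  · rintro ⟨j, hj, w, hw, rfl⟩
    obtain ⟨r, rfl⟩ := Ideal.mem_span_singleton'.1 hw
    exact ⟨j, hj, r, rfl⟩
  · rintro ⟨j, hj, w, rfl⟩
    exact ⟨j, hj, _, Ideal.mul_mem_left _ _ (Ideal.mem_span_singleton_self _), rfl⟩

/-- A regular sequence of forms of positive degrees. -/
structure FormSeqN (c : ℕ) (a : ℕ → ℕ) (f : ℕ → PN n K) : Prop where
  pos : ∀ i, i < c → 1 ≤ a i
  hom : ∀ i, i < c → (f i).IsHomogeneous (a i)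
  reg : ∀ i, i < c → ∀ u, f i * u ∈ JN f i → u ∈ JN f i

namespace FormSeqN

variable {c : ℕ} {a : ℕ → ℕ} {f : ℕ → PN n K}

theorem of_le (h : FormSeqN c a f) {c' : ℕ} (hc : c' ≤ c) : FormSeqN c' a f :=
  ⟨fun i hi => h.pos i (by omega), fun i hi => h.hom i (by omega),
    fun i hi => h.reg i (by omega)⟩

theorem homClosed (h : FormSeqN c a f) {j : ℕ} (hj : j ≤ c) : HomClosedN (JN f j) := by
  induction j with
  | zero =>
    rw [JN_zero]
    exact homClosedN_bot
  | succ j ih =>
    rw [JN_succ]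
    exact homClosedN_sup (ih (by omega)) (h.hom j (by omega))

theorem constantCoeff_eq_zero (h : FormSeqN c a f) {j : ℕ} (hj : j ≤ c) {p : PN n K}
    (hp : p ∈ JN f j) : constantCoeff p = 0 := by
  have hle : JN f j ≤ RingHom.ker (constantCoeff : PN n K →+* K) := by
    unfold JN
    rw [Ideal.span_le]
    rintro _ ⟨i, hi, rfl⟩
    have hi' : i < c := lt_of_lt_of_le hi hj
    show constantCoeff (f i) = 0
    rw [constantCoeff_eq]
    refine (h.hom i hi').coeff_eq_zero ?_
    have := h.pos i hi'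
    have h0 : (0 : Fin n →₀ ℕ).degree = 0 := by simp [Finsupp.degree_eq_sum]
    rw [h0]
    omega
  exact hle hp

theorem one_notMem (h : FormSeqN c a f) {j : ℕ} (hj : j ≤ c) : (1 : PN n K) ∉ JN f j := by
  intro h1
  have := h.constantCoeff_eq_zero hj h1
  simp at this

theorem ne_zero (h : FormSeqN c a f) {i : ℕ} (hi : i < c) : f i ≠ 0 := by
  intro h0
  apply h.one_notMem (le_of_lt hi)
  apply h.reg i hi
  rw [h0, zero_mul]
  exact Ideal.zero_mem _

end FormSeqN

/-- The exponent bounds: `a i` for `i < c`, no bound for `c ≤ i`. -/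
noncomputable def AN (n c : ℕ) (a : ℕ → ℕ) : Fin n → ℕ∞ :=
  fun i => if i.val < c then (a i.val : ℕ∞) else ⊤

theorem allowed_iff {c : ℕ} {a : ℕ → ℕ} {m : Fin n → ℕ} :
    AllowedN (AN n c a) m ↔ ∀ i : Fin n, i.val < c → m i < a i.val := by
  constructor
  · intro h i hi
    have := h i
    simp only [AN, if_pos hi] at this
    exact_mod_cast this
  · intro h i
    simp only [AN]
    by_cases hi : i.val < c
    · rw [if_pos hi]
      exact_mod_cast h i hi
    · rw [if_neg hi]
      exact ENat.natCast_lt_top _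

theorem AN_zero_eq (a : ℕ → ℕ) : AN n 0 a = fun _ => ⊤ := by
  funext i
  simp [AN]

/-- Counting: the bound on coordinate `c`. -/
theorem card_TT_succ {c : ℕ} (hc : c < n) (a : ℕ → ℕ) (d : ℕ) :
    (TTN (AN n c a) d).card = (TTN (AN n (c + 1) a) d).card +
      if a c ≤ d then (TTN (AN n c a) (d - a c)).card else 0 := by
  classical
  set i : Fin n := ⟨c, hc⟩ with hi
  have hfilter : TTN (AN n (c + 1) a) d = (TTN (AN n c a) d).filter fun m => m i < a c := by
    ext m
    simp only [Finset.mem_filter, mem_TTN, allowed_iff]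
    constructor
    · rintro ⟨h1, h2⟩
      exact ⟨⟨h1, fun j hj => h2 j (by omega)⟩, h2 i (by simp [hi])⟩
    · rintro ⟨⟨h1, h2⟩, h3⟩
      refine ⟨h1, fun j hj => ?_⟩
      by_cases hjc : j.val = c
      · have : j = i := Fin.ext hjc
        subst this
        rw [hjc]
        exact h3
      · exact h2 j (by omega)
  have hsplit := Finset.card_filter_add_card_filter_not (s := TTN (AN n c a) d) (fun m => m i < a c)
  rw [← hfilter] at hsplit
  rw [← hsplit]
  congr 1
  split_ifs with hd
  · refine Finset.card_bij' (fun m _ => m - Pi.single i (a c)) (fun m _ => m + Pi.single i (a c))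
      ?_ ?_ ?_ ?_
    · intro m hm
      obtain ⟨hm1, hm2⟩ := Finset.mem_filter.1 hm
      obtain ⟨h1, h2⟩ := mem_TTN.1 hm1
      have hge : a c ≤ m i := not_lt.1 hm2
      have hse : ∑ k, (m - Pi.single i (a c) : Fin n → ℕ) k + a c = ∑ k, m k := by
        have : ∀ k, (m - Pi.single i (a c) : Fin n → ℕ) k + (Pi.single i (a c) : Fin n → ℕ) k =
            m k := by
          intro k
          by_cases hk : k = i
          · subst hk
            simp
            omega
          · simp [hk]
        rw [← Finset.sum_congr rfl (fun k _ => this k), Finset.sum_add_distrib,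
          Finset.sum_pi_single']
        simp
      refine mem_TTN.2 ⟨by omega, ?_⟩
      rw [allowed_iff] at h2 ⊢
      intro j hj
      have := h2 j hj
      have hle : (m - Pi.single i (a c) : Fin n → ℕ) j ≤ m j := by
        simp only [Pi.sub_apply]
        omega
      omega
    · intro m hm
      obtain ⟨h1, h2⟩ := mem_TTN.1 hm
      refine Finset.mem_filter.2 ⟨mem_TTN.2 ⟨?_, ?_⟩, ?_⟩
      · rw [Finset.sum_congr rfl (fun k _ => Pi.add_apply m (Pi.single i (a c)) k),
          Finset.sum_add_distrib, Finset.sum_pi_single', h1]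
        simp
        omega
      · rw [allowed_iff] at h2 ⊢
        intro j hj
        have hji : j ≠ i := by
          intro e
          rw [e] at hj
          simp [hi] at hj
        simp only [Pi.add_apply, Pi.single_apply, if_neg hji, add_zero]
        exact h2 j hj
      · simp
    · intro m hm
      obtain ⟨hm1, hm2⟩ := Finset.mem_filter.1 hm
      have hge : a c ≤ m i := not_lt.1 hm2
      funext k
      by_cases hk : k = i
      · subst hk
        simp
        omega
      · simp [hk]
    · intro m _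
      funext k
      simp
  · rw [Finset.card_eq_zero, Finset.filter_eq_empty_iff]
    intro m hm
    have hle : m i ≤ ∑ k, m k :=
      Finset.single_le_sum (f := m) (fun _ _ => Nat.zero_le _) (Finset.mem_univ i)
    have h1 := (mem_TTN.1 hm).1
    omega

end Vale.Agent.Lib.P200
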