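import Vale.Agent.Lib.P200.NSoc

/-!
The dimension count for regular sequences and the lexicographic step.
-/

namespace Vale.Agent.Lib.P200
open MvPolynomial Module

universe u

variable {K : Type u} [Field K] {n : ℕ}

theorem piece_bot (e : ℕ) : pieceN (⊥ : Ideal (PN n K)) e = ⊥ := by
  rw [eq_bot_iff]
  intro x hx
  exact (Submodule.mem_bot K).2 ((Ideal.mem_bot).1 (mem_pieceN.1 hx).1)

namespace FormSeqN

variable {c : ℕ} {a : ℕ → ℕ} {f : ℕ → PN n K}

theorem TT_low {c : ℕ} (hc : c < n) (a : ℕ → ℕ) {d : ℕ} (hd : d < a c) :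
    TTN (AN n (c + 1) a) d = TTN (AN n c a) d := by
  ext m
  simp only [mem_TTN, allowed_iff]
  constructor
  · rintro ⟨h1, h2⟩
    exact ⟨h1, fun j hj => h2 j (by omega)⟩
  · rintro ⟨h1, h2⟩
    refine ⟨h1, fun j hj => ?_⟩
    by_cases hjc : j.val = c
    · rw [hjc]
      have hle : m j ≤ ∑ k, m k :=
        Finset.single_le_sum (f := m) (fun _ _ => Nat.zero_le _) (Finset.mem_univ j)
      omega
    · exact h2 j (by omega)

/-- The dimension count. -/
theorem finrank_FF (h : FormSeqN c a f) (hc : c ≤ n) (d : ℕ) :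
    finrank K (pieceN (JN f c) d) + (TTN (AN n c a) d).card = TN n d := by
  induction c generalizing d with
  | zero =>
    rw [JN_zero, piece_bot, finrank_bot, zero_add, AN_zero_eq]
    rfl
  | succ c ih =>
    have h' : FormSeqN c a f := h.of_le (by omega)
    have hcn : c < n := by omega
    rw [JN_succ]
    by_cases hd : a c ≤ d
    · obtain ⟨D, rfl⟩ : ∃ D, d = D + a c := ⟨d - a c, by omega⟩
      have e1 := finrank_piece_addN (h'.homClosed (le_refl c)) (h.hom c (by omega))
        (h.ne_zero (by omega)) (fun p hp => h.reg c (by omega) p (by rwa [mul_comm])) D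
      have e2 := ih h' (by omega) D
      have e3 := ih h' (by omega) (D + a c)
      have e4 := card_TT_succ hcn a (D + a c)
      rw [if_pos (by omega), Nat.add_sub_cancel] at e4
      omega
    · rw [piece_low (h'.homClosed (le_refl c)) (h.hom c (by omega)) (by omega),
        TT_low hcn a (by omega)]
      exact ih h' (by omega) d

end FormSeqN

/-- The lexicographic step for a pair of spaces in consecutive degrees. -/
def LexStepN (c : ℕ) (a : ℕ → ℕ) (f : ℕ → PN n K) (d : ℕ) : Prop :=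
  ∀ X Y : Submodule K (PN n K), pieceN (JN f c) d ≤ X → X ≤ HN K n d →
    (∀ i, ∀ x ∈ X, (MvPolynomial.X i : PN n K) * x ∈ Y) →
    pieceN (JN f c) (d + 1) ≤ Y → Y ≤ HN K n (d + 1) →
    ∀ m ∈ TTN (AN n c a) d,
      rkS (kN n) (TTN (AN n c a) d) m < finrank K X - finrank K (pieceN (JN f c) d) →
      ∀ j, AllowedN (AN n c a) (m + eN j) →
        rkS (kN n) (TTN (AN n c a) (d + 1)) (m + eN j) <
          finrank K Y - finrank K (pieceN (JN f c) (d + 1))

/-- In low degrees the last form plays no role. -/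
theorem lexStep_trunc {c : ℕ} {a : ℕ → ℕ} {f : ℕ → PN n K} (h : FormSeqN (c + 1) a f)
    (hc : c < n) {d : ℕ} (hd : d + 1 < a c) :
    LexStepN (c + 1) a f d ↔ LexStepN c a f d := by
  have h' : FormSeqN c a f := h.of_le (by omega)
  have e1 : ∀ e, e < a c → pieceN (JN f (c + 1)) e = pieceN (JN f c) e := by
    intro e he
    rw [JN_succ]
    exact piece_low (h'.homClosed (le_refl c)) (h.hom c (by omega)) he
  have e2 : ∀ e, e < a c → TTN (AN n (c + 1) a) e = TTN (AN n c a) e :=
    fun e he => FormSeqN.TT_low hc a he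
  have e3 : ∀ m ∈ TTN (AN n c a) d, ∀ j, AllowedN (AN n c a) (m + eN j) →
      AllowedN (AN n (c + 1) a) (m + eN j) := by
    intro m hm j hj
    have hmem : m + eN j ∈ TTN (AN n c a) (d + 1) :=
      mem_TTN.2 ⟨by rw [sum_add_eN, (mem_TTN.1 hm).1], hj⟩
    rw [← e2 _ hd] at hmem
    exact (mem_TTN.1 hmem).2
  have e3' : ∀ m ∈ TTN (AN n (c + 1) a) d, ∀ j, AllowedN (AN n (c + 1) a) (m + eN j) →
      AllowedN (AN n c a) (m + eN j) := by
    intro m hm j hj
    have hmem : m + eN j ∈ TTN (AN n (c + 1) a) (d + 1) :=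
      mem_TTN.2 ⟨by rw [sum_add_eN, (mem_TTN.1 hm).1], hj⟩
    rw [e2 _ hd] at hmem
    exact (mem_TTN.1 hmem).2
  unfold LexStepN
  rw [e1 d (by omega), e1 (d + 1) hd, e2 d (by omega), e2 (d + 1) hd]
  constructor
  · intro H X Y h1 h2 h3 h4 h5 m hm hr j hj
    exact H X Y h1 h2 h3 h4 h5 m hm hr j (e3 m hm j hj)
  · intro H X Y h1 h2 h3 h4 h5 m hm hr j hj
    rw [← e2 d (by omega)] at hm
    exact H X Y h1 h2 h3 h4 h5 m (by rwa [e2 d (by omega)] at hm) hr j (e3' m hm j hj)

end Vale.Agent.Lib.P200
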