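import Vale.Agent.Lib.P200.NForms2

/-!
Reduction modulo a linear nonzerodivisor: the colon spaces and their images.
-/

namespace Vale.Agent.Lib.P200
open MvPolynomial Module

universe u

variable {K : Type u} [Field K] {N : ℕ}

/-- The colon of a subspace by the linear form. -/
noncomputable def col1 (b : Fin N → K) (Z : Submodule K (PN (N + 1) K)) :
    Submodule K (PN (N + 1) K) :=
  Z.comap (LinearMap.mulLeft K (ellN b))

/-- The iterated colon. -/
noncomputable def colN (b : Fin N → K) (Z : Submodule K (PN (N + 1) K)) (t : ℕ) :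
    Submodule K (PN (N + 1) K) := (col1 b)^[t] Z

/-- The image modulo the linear form. -/
noncomputable def imN (b : Fin N → K) (Z : Submodule K (PN (N + 1) K)) (t : ℕ) :
    Submodule K (PN N K) := (colN b Z t).map (rhoN b).toLinearMap

theorem mem_col1 {b : Fin N → K} {Z : Submodule K (PN (N + 1) K)} {p : PN (N + 1) K} :
    p ∈ col1 b Z ↔ ellN b * p ∈ Z := Iff.rfl

theorem mem_colN {b : Fin N → K} {Z : Submodule K (PN (N + 1) K)} {t : ℕ} {p : PN (N + 1) K} :
    p ∈ colN b Z t ↔ ellN b ^ t * p ∈ Z := by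
  induction t generalizing Z with
  | zero => simp [colN]
  | succ t ih =>
    have e : colN b Z (t + 1) = colN b (col1 b Z) t := Function.iterate_succ_apply _ _ _
    rw [e, ih, mem_col1, pow_succ]
    rw [show ellN b * (ellN b ^ t * p) = ellN b ^ t * ellN b * p by ring]

theorem col_succ (b : Fin N → K) (Z : Submodule K (PN (N + 1) K)) (t : ℕ) :
    colN b Z (t + 1) = colN b (col1 b Z) t := Function.iterate_succ_apply _ _ _

theorem hom_of_ell_mul {b : Fin N → K} {p : PN (N + 1) K} {D : ℕ}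
    (h : (ellN b * p).IsHomogeneous (D + 1)) : p.IsHomogeneous D := by
  have e := homogeneousComponent_eq_self h
  rw [mul_comm, comp_mul_hzcN (ell_hom b), hzcN, if_pos (by omega), Nat.add_sub_cancel] at e
  have : homogeneousComponent D p = p := mul_right_cancel₀ (ell_ne_zero b) e
  rw [← this]
  exact homogeneousComponent_isHomogeneous _ _

theorem eq_zero_of_ell_mul {b : Fin N → K} {p : PN (N + 1) K}
    (h : (ellN b * p).IsHomogeneous 0) : p = 0 := by
  have e := homogeneousComponent_eq_self h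
  rw [mul_comm, comp_mul_hzcN (ell_hom b), hzcN, if_neg (by omega), zero_mul] at e
  exact (mul_eq_zero.1 e.symm).resolve_right (ell_ne_zero b)

theorem col1_le {b : Fin N → K} {Z : Submodule K (PN (N + 1) K)} {D : ℕ}
    (h : Z ≤ HN K (N + 1) (D + 1)) : col1 b Z ≤ HN K (N + 1) D := by
  intro p hp
  exact hom_of_ell_mul (h hp)

theorem col1_bot {b : Fin N → K} {Z : Submodule K (PN (N + 1) K)}
    (h : Z ≤ HN K (N + 1) 0) : col1 b Z = ⊥ := by
  rw [eq_bot_iff]
  intro p hp
  exact (Submodule.mem_bot K).2 (eq_zero_of_ell_mul (h hp))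

theorem colN_le {b : Fin N → K} {Z : Submodule K (PN (N + 1) K)} {D t : ℕ}
    (h : Z ≤ HN K (N + 1) D) (ht : t ≤ D) : colN b Z t ≤ HN K (N + 1) (D - t) := by
  induction t generalizing Z D with
  | zero => simpa [colN] using h
  | succ t ih =>
    obtain ⟨D, rfl⟩ : ∃ D', D = D' + 1 := ⟨D - 1, by omega⟩
    rw [col_succ, show D + 1 - (t + 1) = D - t by omega]
    exact ih (col1_le h) (by omega)

theorem imN_le {b : Fin N → K} {Z : Submodule K (PN (N + 1) K)} {D t : ℕ}
    (h : Z ≤ HN K (N + 1) D) (ht : t ≤ D) : imN b Z t ≤ HN K N (D - t) := by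
  rintro _ ⟨p, hp, rfl⟩
  exact rho_hom b (colN_le h ht hp)

/-- Rank and nullity for the reduction on a space of forms. -/
theorem finrank_split {b : Fin N → K} {Z : Submodule K (PN (N + 1) K)} {D : ℕ}
    (h : Z ≤ HN K (N + 1) D) :
    finrank K Z = finrank K (Z.map (rhoN b).toLinearMap) + finrank K (col1 b Z) := by
  have hfin : Module.Finite K Z := finite_of_le_HN h
  set φ : Z →ₗ[K] PN N K := (rhoN b).toLinearMap.domRestrict Z with hφ
  have e1 := LinearMap.finrank_range_add_finrank_ker φ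
  have e2 : LinearMap.range φ = Z.map (rhoN b).toLinearMap := LinearMap.range_domRestrict _ _
  have hinj : Function.Injective (LinearMap.mulLeft K (ellN b) : PN (N + 1) K →ₗ[K] PN (N + 1) K) :=
    fun x y exy => mul_left_cancel₀ (ell_ne_zero b) (by simpa using exy)
  have e3 : (LinearMap.ker φ).map Z.subtype = (col1 b Z).map (LinearMap.mulLeft K (ellN b)) := by
    ext p
    constructor
    · rintro ⟨⟨z, hz⟩, hz2, rfl⟩
      have h0 : rhoN b z = 0 := hz2
      obtain ⟨q, rfl⟩ := mem_ell_of_rho_eq_zero h0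
      exact ⟨q, hz, rfl⟩
    · rintro ⟨q, hq, rfl⟩
      refine ⟨⟨ellN b * q, hq⟩, ?_, rfl⟩
      show rhoN b (ellN b * q) = 0
      rw [map_mul, rho_ell, zero_mul]
  have e4 : finrank K (LinearMap.ker φ) = finrank K ((LinearMap.ker φ).map Z.subtype) :=
    (Submodule.equivMapOfInjective _ Z.injective_subtype _).finrank_eq
  have e5 : finrank K (col1 b Z) = finrank K ((col1 b Z).map (LinearMap.mulLeft K (ellN b))) :=
    (Submodule.equivMapOfInjective _ hinj _).finrank_eq
  rw [e2, e4, e3, ← e5] at e1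
  exact e1.symm

/-- The dimension of a space of forms from its images. -/
theorem finrank_decomp {b : Fin N → K} {Z : Submodule K (PN (N + 1) K)} {D : ℕ}
    (h : Z ≤ HN K (N + 1) D) :
    finrank K Z = ∑ t ∈ Finset.range (D + 1), finrank K (imN b Z t) := by
  induction D generalizing Z with
  | zero =>
    rw [finrank_split (b := b) h, col1_bot h, finrank_bot, add_zero, Finset.sum_range_one]
    rfl
  | succ D ih =>
    rw [finrank_split (b := b) h, ih (col1_le h), Finset.sum_range_succ' _ (D + 1), add_comm]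
    have e : ∀ t, imN b (col1 b Z) t = imN b Z (t + 1) := fun t => by
      rw [imN, imN, col_succ]
    have e2 : ∑ t ∈ Finset.range (D + 1), finrank K (imN b (col1 b Z) t) =
        ∑ k ∈ Finset.range (D + 1), finrank K (imN b Z (k + 1)) :=
      Finset.sum_congr rfl fun t _ => by rw [e t]
    rw [e2]
    rfl

theorem rho_castSucc_mul (b : Fin N → K) (i : Fin N) (p : PN (N + 1) K) :
    rhoN b (X i.castSucc * p) = X i * rhoN b p := by
  rw [map_mul, rho_X_castSucc]

/-- The form `ell` as a multiplier of subspaces closed under variables. -/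
theorem ell_mem_of_X {b : Fin N → K} {Y : Submodule K (PN (N + 1) K)} {x : PN (N + 1) K}
    (h : ∀ i, (X i : PN (N + 1) K) * x ∈ Y) : ellN b * x ∈ Y := by
  rw [ellN, add_mul, Finset.sum_mul]
  refine Y.add_mem (h _) (Y.sum_mem fun i _ => ?_)
  rw [mul_assoc, ← MvPolynomial.smul_eq_C_mul]
  exact Y.smul_mem _ (h _)

theorem imN_mul {b : Fin N → K} {Z Y : Submodule K (PN (N + 1) K)}
    (h : ∀ i, ∀ x ∈ Z, (X i : PN (N + 1) K) * x ∈ Y) (t : ℕ) (i : Fin N) :
    ∀ x ∈ imN b Z t, (X i : PN N K) * x ∈ imN b Y t := by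
  rintro _ ⟨p, hp, rfl⟩
  refine ⟨X i.castSucc * p, ?_, rho_castSucc_mul b i p⟩
  rw [SetLike.mem_coe, mem_colN] at hp ⊢
  rw [show ellN b ^ t * (X i.castSucc * p) = X i.castSucc * (ellN b ^ t * p) by ring]
  exact h _ _ hp

theorem imN_succ_le {b : Fin N → K} {Z Y : Submodule K (PN (N + 1) K)}
    (h : ∀ i, ∀ x ∈ Z, (X i : PN (N + 1) K) * x ∈ Y) (t : ℕ) : imN b Z t ≤ imN b Y (t + 1) := by
  rintro _ ⟨p, hp, rfl⟩
  refine ⟨p, ?_, rfl⟩
  rw [SetLike.mem_coe, mem_colN] at hp ⊢
  rw [pow_succ, show ellN b ^ t * ellN b * p = ellN b * (ellN b ^ t * p) by ring]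
  exact ell_mem_of_X fun i => h i _ hp

/-- The reduced ideal of forms lies in the image. -/
theorem FF_le_imN {c : ℕ} {a : ℕ → ℕ} {f : ℕ → PN (N + 1) K} (hf : FormSeqN c a f)
    {b : Fin N → K} {Z : Submodule K (PN (N + 1) K)} {D t : ℕ}
    (h : pieceN (JN f c) D ≤ Z) (ht : t ≤ D) :
    pieceN (JN (fun i => rhoN b (f i)) c) (D - t) ≤ imN b Z t := by
  intro x hx
  obtain ⟨h1, h2⟩ := mem_pieceN.1 hx
  have h3 : rhoN b (iotaN x) ∈ JN (fun i => rhoN b (f i)) c := by
    rw [rho_iota]
    exact h1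
  obtain ⟨j, hj, w, e⟩ := exists_of_rho_mem h3
  have hcomp : iotaN x = homogeneousComponent (D - t) j + hzcN w (D - t) 1 * ellN b := by
    have e1 := congrArg (homogeneousComponent (D - t)) e
    rw [homogeneousComponent_eq_self (iota_hom h2), map_add, mul_comm (ellN b) w,
      comp_mul_hzcN (ell_hom b)] at e1
    exact e1
  have hj0 := hf.homClosed (le_refl c) j hj (D - t)
  refine ⟨homogeneousComponent (D - t) j, ?_, ?_⟩
  · rw [SetLike.mem_coe, mem_colN]
    apply h
    refine mem_pieceN.2 ⟨Ideal.mul_mem_left _ _ hj0, ?_⟩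
    have hp : (ellN b ^ t).IsHomogeneous t := by
      simpa using (ell_hom b).pow t
    have := hp.mul (homogeneousComponent_isHomogeneous (D - t) j)
    rwa [show t + (D - t) = D by omega] at this
  · have e2 := congrArg (rhoN b) hcomp
    rw [rho_iota, map_add, map_mul, rho_ell, mul_zero, add_zero] at e2
    exact e2.symm

end Vale.Agent.Lib.P200
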