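import Vale.Agent.Lib.P200.NL

/-!
The inductive step: from `n` to `n + 1` variables for regular sequences of length at most `n`.
-/

namespace Vale.Agent.Lib.P200
open MvPolynomial Module

universe u

section slices

variable {n : ℕ} {A : Fin (n + 1) → ℕ∞}

open Classical in
/-- Slicewise initial segments with prescribed sizes. -/
noncomputable def slTop (A : Fin (n + 1) → ℕ∞) (d : ℕ) (i : Fin (n + 1)) (q : ℕ → ℕ) :
    Finset (Fin (n + 1) → ℕ) :=
  (TTN A d).filter fun m => rkS (kN _) (slN A d i (m i)) m < q (m i)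

theorem mem_slTop {d : ℕ} {i : Fin (n + 1)} {q : ℕ → ℕ} {m : Fin (n + 1) → ℕ} :
    m ∈ slTop A d i q ↔ m ∈ TTN A d ∧ rkS (kN _) (slN A d i (m i)) m < q (m i) := by
  classical
  unfold slTop
  rw [Finset.mem_filter]

theorem slice_slTop (d : ℕ) (i : Fin (n + 1)) (q : ℕ → ℕ) (t : ℕ) :
    (slTop A d i q).filter (fun m => m i = t) = topS (kN _) (slN A d i t) (q t) := by
  classical
  ext m
  simp only [Finset.mem_filter, mem_topS, mem_slN, mem_slTop]
  constructor
  · rintro ⟨⟨h1, h2⟩, rfl⟩
    exact ⟨⟨h1, rfl⟩, h2⟩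
  · rintro ⟨⟨h1, rfl⟩, h2⟩
    exact ⟨⟨h1, h2⟩, rfl⟩

theorem card_slTop {d : ℕ} {i : Fin (n + 1)} {q : ℕ → ℕ}
    (hq : ∀ t, t ≤ d → q t ≤ (slN A d i t).card) :
    (slTop A d i q).card = ∑ t ∈ Finset.range (d + 1), q t := by
  classical
  rw [Finset.card_eq_sum_card_fiberwise (f := fun m => m i) (t := Finset.range (d + 1))
      (fun m hm => by
        have := coord_le (mem_slTop.1 hm).1 i
        simpa using (by omega : m i < d + 1))]
  refine Finset.sum_congr rfl fun t ht => ?_
  rw [slice_slTop, card_topS (kN_inj _), min_eq_left (hq t (by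
    have := Finset.mem_range.1 ht
    omega))]

theorem rk_slice {d : ℕ} {i : Fin (n + 1)} {m : Fin (n + 1) → ℕ} (hm : m ∈ TTN A d) :
    rkS (kN _) (slN A d i (m i)) m =
      rkS (kN n) (TTN (A ∘ i.succAbove) (d - m i)) (delN i m) := by
  classical
  refine (rk_image ?_ (image_del_slice (coord_le hm i) ((mem_TTN.1 hm).2 i)) ?_
    (mem_slN.2 ⟨hm, rfl⟩)).symm
  · intro x hx y hy e
    exact del_inj (((mem_slN.1 hx).2).trans ((mem_slN.1 hy).2).symm) e
  · intro x hx y hy
    exact del_lt_iff (((mem_slN.1 hx).2).trans ((mem_slN.1 hy).2).symm)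

theorem card_slN {d t : ℕ} {i : Fin (n + 1)} (h : t ≤ d) (hA : (t : ℕ∞) < A i) :
    (slN A d i t).card = (TTN (A ∘ i.succAbove) (d - t)).card := by
  classical
  rw [← image_del_slice h hA, Finset.card_image_of_injOn]
  intro x hx y hy e
  exact del_inj (((mem_slN.1 hx).2).trans ((mem_slN.1 hy).2).symm) e

end slices

section last

variable {N c : ℕ} {a : ℕ → ℕ}

theorem AN_last (hc : c ≤ N) (a : ℕ → ℕ) : AN (N + 1) c a (Fin.last N) = ⊤ := by
  simp only [AN, Fin.val_last]
  rw [if_neg (by omega)]

theorem AN_del_last (a : ℕ → ℕ) : AN (N + 1) c a ∘ (Fin.last N).succAbove = AN N c a := by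
  funext k
  simp [AN]

theorem card_TT_last (hc : c ≤ N) (a : ℕ → ℕ) (d : ℕ) :
    (TTN (AN (N + 1) c a) d).card =
      ∑ t ∈ Finset.range (d + 1), (TTN (AN N c a) (d - t)).card := by
  classical
  rw [Finset.card_eq_sum_card_fiberwise (f := fun m => m (Fin.last N)) (t := Finset.range (d + 1))
      (fun m hm => by
        have := coord_le hm (Fin.last N)
        simpa using (by omega : m (Fin.last N) < d + 1))]
  refine Finset.sum_congr rfl fun t ht => ?_
  have := card_slN (A := AN (N + 1) c a) (d := d) (t := t) (i := Fin.last N)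
    (by
      have := Finset.mem_range.1 ht
      omega)
    (by
      rw [AN_last hc]
      exact ENat.natCast_lt_top t)
  rw [AN_del_last] at this
  exact this

theorem TN_last (d : ℕ) : TN (N + 1) d = ∑ t ∈ Finset.range (d + 1), TN N (d - t) := by
  have := card_TT_last (N := N) (c := 0) (Nat.zero_le _) (fun _ => 0) d
  simpa [AN_zero_eq, TN] using this

end last

variable {K : Type u} [Field K] {N c : ℕ} {a : ℕ → ℕ}

theorem finrank_FF_decomp {f : ℕ → PN (N + 1) K} {g : ℕ → PN N K} (hf : FormSeqN c a f)
    (hg : FormSeqN c a g) (hc : c ≤ N) (d : ℕ) :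
    finrank K (pieceN (JN f c) d) =
      ∑ t ∈ Finset.range (d + 1), finrank K (pieceN (JN g c) (d - t)) := by
  have e1 := hf.finrank_FF (by omega) d
  have e2 : ∑ t ∈ Finset.range (d + 1), (finrank K (pieceN (JN g c) (d - t)) +
      (TTN (AN N c a) (d - t)).card) = ∑ t ∈ Finset.range (d + 1), TN N (d - t) :=
    Finset.sum_congr rfl fun t _ => hg.finrank_FF hc _
  rw [Finset.sum_add_distrib, ← card_TT_last hc, ← TN_last] at e2
  omega

/-- The sizes of the slices for a subspace. -/
noncomputable def qtN (b : Fin N → K) (g : ℕ → PN N K) (c : ℕ) (Z : Submodule K (PN (N + 1) K))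
    (D t : ℕ) : ℕ :=
  finrank K (imN b Z t) - finrank K (pieceN (JN g c) (D - t))

/-- The sum of the sizes and the size of each slice. -/
theorem card_slTop_qt {f : ℕ → PN (N + 1) K} (hf : FormSeqN c a f) {b : Fin N → K}
    (hb : ∀ j, j ≤ c → ∀ p, ellN b * p ∈ JN f j → p ∈ JN f j) (hc : c ≤ N)
    {Z : Submodule K (PN (N + 1) K)} {D : ℕ} (h1 : pieceN (JN f c) D ≤ Z)
    (h2 : Z ≤ HN K (N + 1) D) :
    (slTop (AN (N + 1) c a) D (Fin.last N) (qtN b (fun i => rhoN b (f i)) c Z D)).card =
      finrank K Z - finrank K (pieceN (JN f c) D) := by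
  set g : ℕ → PN N K := fun i => rhoN b (f i) with hg
  have hgs : FormSeqN c a g := formSeq_rho hf hb
  have hle : ∀ t, t ≤ D → finrank K (pieceN (JN g c) (D - t)) ≤ finrank K (imN b Z t) := by
    intro t ht
    exact finrank_le_of_le_HN (FF_le_imN hf h1 ht) (imN_le h2 ht)
  rw [card_slTop]
  · have e1 := finrank_decomp (b := b) h2
    have e2 := finrank_FF_decomp hf hgs hc D
    have e3 : ∑ t ∈ Finset.range (D + 1), qtN b g c Z D t +
        ∑ t ∈ Finset.range (D + 1), finrank K (pieceN (JN g c) (D - t)) =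
        ∑ t ∈ Finset.range (D + 1), finrank K (imN b Z t) := by
      rw [← Finset.sum_add_distrib]
      refine Finset.sum_congr rfl fun t ht => ?_
      have := hle t (by
        have := Finset.mem_range.1 ht
        omega)
      unfold qtN
      omega
    omega
  · intro t ht
    rw [card_slN ht (by
      rw [AN_last hc]
      exact ENat.natCast_lt_top t), AN_del_last]
    have e1 := hgs.finrank_FF hc (D - t)
    have e2 : finrank K (imN b Z t) ≤ TN N (D - t) := by
      rw [← finrank_HN (K := K)]
      exact finrank_le_of_le_HN (imN_le h2 ht) (le_refl _)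
    unfold qtN
    omega

/-- The inductive step for short regular sequences, given the Clements-Lindström inequality. -/
theorem lex_step_L [Infinite K] (hc : c ≤ N) {f : ℕ → PN (N + 1) K} (hf : FormSeqN c a f)
    (hCL : CLcore (AN (N + 1) c a))
    (hS : ∀ g : ℕ → PN N K, FormSeqN c a g → ∀ d, LexStepN c a g d) (d : ℕ) :
    LexStepN c a f d := by
  classical
  obtain ⟨b, hb⟩ := exists_ell hc hf.reg
  set g : ℕ → PN N K := fun i => rhoN b (f i) with hg
  have hgs : FormSeqN c a g := formSeq_rho hf hb
  intro X Y h1 h2 h3 h4 h5 m hm hr j hj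
  set A := AN (N + 1) c a with hA
  set L := Fin.last N with hL
  have hAL : A L = ⊤ := AN_last hc a
  set q := qtN b g c X d with hq
  set q' := qtN b g c Y (d + 1) with hq'
  have hVc : (slTop A d L q).card = finrank K X - finrank K (pieceN (JN f c) d) :=
    card_slTop_qt hf hb hc h1 h2
  have hWc : (slTop A (d + 1) L q').card = finrank K Y - finrank K (pieceN (JN f c) (d + 1)) :=
    card_slTop_qt hf hb hc h4 h5
  have hVT : slTop A d L q ⊆ TTN A d := Finset.filter_subset _ _
  have hsub : upS A (slTop A d L q) ⊆ slTop A (d + 1) L q' := by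
    intro w hw
    obtain ⟨hwa, z, hz, i, rfl⟩ := mem_upS.1 hw
    obtain ⟨hz1, hz2⟩ := mem_slTop.1 hz
    have hwT : z + eN i ∈ TTN A (d + 1) := upS_subset hVT hw
    refine mem_slTop.2 ⟨hwT, ?_⟩
    rw [rk_slice hwT]
    rw [rk_slice hz1] at hz2
    rw [hA, AN_del_last] at hz2 ⊢
    have hzd := coord_le hz1 L
    by_cases hi : i = L
    · subst hi
      rw [del_add_eN_self, add_eN_self_coord, show d + 1 - (z L + 1) = d - z L by omega]
      refine lt_of_lt_of_le hz2 ?_
      have hle : finrank K (imN b X (z L)) ≤ finrank K (imN b Y (z L + 1)) :=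
        finrank_le_of_le_HN (imN_succ_le h3 _) (by
          have := imN_le (b := b) h5 (t := z L + 1) (by omega)
          exact this)
      simp only [hq, hq', qtN]
      rw [show d + 1 - (z L + 1) = d - z L by omega]
      omega
    · obtain ⟨i', rfl⟩ := Fin.exists_succAbove_eq hi
      rw [del_add_eN_succ, add_eN_ne_coord (Fin.succAbove_ne L i').symm,
        show d + 1 - z L = d - z L + 1 by omega]
      have hstep := hS g hgs (d - z L) (imN b X (z L)) (imN b Y (z L))
        (FF_le_imN hf h1 hzd) (imN_le h2 hzd) (imN_mul h3 (z L))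
        (by
          have := FF_le_imN (b := b) hf h4 (t := z L) (by omega)
          rwa [show d + 1 - z L = d - z L + 1 by omega] at this)
        (by
          have := imN_le (b := b) h5 (t := z L) (by omega)
          rwa [show d + 1 - z L = d - z L + 1 by omega] at this)
        (delN L z)
        (by
          have := dtN_subset hVT L (z L) (mem_dtN.2 ⟨z, hz, rfl, rfl⟩)
          rw [hA, AN_del_last] at this
          exact this)
        hz2 i' (by
          have := del_allowed (i := L) hwa
          rw [del_add_eN_succ, hA, AN_del_last] at this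
          exact this)
      simp only [hq', qtN]
      rw [show d + 1 - z L = d - z L + 1 by omega]
      exact hstep
  have hlt := hCL.lex_step hVT hm (by rw [hVc]; exact hr) j hj
  rw [← hWc]
  exact lt_of_lt_of_le hlt (Finset.card_le_card hsub)

end Vale.Agent.Lib.P200
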