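import Vale.Agent.Lib.P200.NDual2
import Vale.Agent.Lib.P200.NFinal2

/-!
The induction on the number of variables for all admissible sequences.
-/

namespace Vale.Agent.Lib.P200
open MvPolynomial Module

universe u

variable {K : Type u} [Field K]

theorem le_top_of_mem {n : ℕ} {a : ℕ → ℕ} {D : ℕ} {m : Fin n → ℕ}
    (hm : m ∈ TTN (AN n n a) D) : D ≤ ∑ i ∈ Finset.range n, (a i - 1) := by
  obtain ⟨h1, h2⟩ := mem_TTN.1 hm
  have h3 := allowed_nn.1 h2
  rw [← sum_Fin_range, ← h1]
  refine Finset.sum_le_sum fun i _ => ?_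
  have := h3 i
  omega

/-- The step for `n` forms in `n` variables. -/
theorem step_full [Infinite K] {N : ℕ} {a : ℕ → ℕ} (hN : 3 ≤ N) (hfam : FamN (N + 1) a)
    {f : ℕ → PN (N + 1) K} (hf : FormSeqN (N + 1) a f)
    (hshort : ∀ d, LexStepN N a f d) (d : ℕ) : LexStepN (N + 1) a f d := by
  have hfast := hfam.2.2 N hN (by omega)
  have hlow : ∀ e, e + 1 < a N → LexStepN (N + 1) a f e := fun e he =>
    (lexStep_trunc hf (by omega) he).2 (hshort e)
  by_cases h1 : d + 1 < a N
  · exact hlow d h1
  set S := ∑ i ∈ Finset.range (N + 1), (a i - 1) with hS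
  have hS2 : S = ∑ i ∈ Finset.range N, (a i - 1) + (a N - 1) := Finset.sum_range_succ _ _
  by_cases h2 : d + 1 ≤ S
  · have hpos := hf.pos N (by omega)
    refine lexStep_dual hf hS.symm (e := S - (d + 1)) (by omega) (hlow _ (by omega))
  · intro X Y _ _ _ _ _ m hm _ j hj
    have hmem : m + eN j ∈ TTN (AN (N + 1) (N + 1) a) (d + 1) :=
      mem_TTN.2 ⟨by rw [sum_add_eN, (mem_TTN.1 hm).1], hj⟩
    exact absurd (le_top_of_mem hmem) h2

/-- All admissible sequences in at least three variables, over an infinite field. -/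
theorem SB_all [Infinite K] {n : ℕ} (hn : 3 ≤ n) (m : ℕ) : SB K n m := by
  induction n, hn using Nat.le_induction with
  | base =>
    intro c hc _ a ha f hf d
    exact SB_three c hc hc a ha f hf d
  | succ N hN ih =>
    intro c hc hcm a ha f hf d
    by_cases hcN : c ≤ N
    · exact SB_succ_short (by omega) ih hcN hcm ha hf d
    · obtain rfl : c = N + 1 := by omega
      exact step_full hN ha hf (fun e => SB_succ_short (by omega) ih (le_refl N) (by omega)
        (ha.of_le (by omega)) (hf.of_le (by omega)) e) d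

end Vale.Agent.Lib.P200
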