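import Mathlib

/-!
Initial segments of a finite subset of a linear order.
-/

namespace Vale.Agent.Lib.P200
open Finset

section ord

variable {β α : Type*} [LinearOrder α] (κ : β → α)

/-- The number of elements of `s` above `x`. -/
def rkS (s : Finset β) (x : β) : ℕ := (s.filter fun y => κ x < κ y).card

/-- The initial segment of `s` with `q` elements. -/
def topS (s : Finset β) (q : ℕ) : Finset β := s.filter fun x => rkS κ s x < q

variable {κ}

theorem mem_topS {s : Finset β} {q : ℕ} {x : β} : x ∈ topS κ s q ↔ x ∈ s ∧ rkS κ s x < q := by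
  unfold topS
  rw [Finset.mem_filter]

theorem topS_subset (s : Finset β) (q : ℕ) : topS κ s q ⊆ s := Finset.filter_subset _ _

theorem rk_lt_card {s : Finset β} {x : β} (hx : x ∈ s) : rkS κ s x < s.card := by
  refine Finset.card_lt_card ⟨Finset.filter_subset _ _, fun h => ?_⟩
  have := h hx
  rw [Finset.mem_filter] at this
  exact lt_irrefl _ this.2

theorem rk_anti {s : Finset β} {x y : β} (hy : y ∈ s) (h : κ x < κ y) :
    rkS κ s y < rkS κ s x := by
  refine Finset.card_lt_card ⟨fun z hz => ?_, fun hsub => ?_⟩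
  · rw [Finset.mem_filter] at hz ⊢
    exact ⟨hz.1, lt_trans h hz.2⟩
  · have : y ∈ s.filter fun z => κ y < κ z := hsub (Finset.mem_filter.2 ⟨hy, h⟩)
    rw [Finset.mem_filter] at this
    exact lt_irrefl _ this.2

theorem rk_mono {s t : Finset β} (h : s ⊆ t) (x : β) : rkS κ s x ≤ rkS κ t x :=
  Finset.card_le_card (Finset.filter_subset_filter _ h)

variable (hκ : Function.Injective κ)
include hκ

theorem rk_injOn (s : Finset β) : Set.InjOn (rkS κ s) s := by
  intro x hx y hy e
  rcases lt_trichotomy (κ x) (κ y) with h | h | h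
  · have := rk_anti hy h
    omega
  · exact hκ h
  · have := rk_anti hx h
    omega

theorem card_topS (s : Finset β) (q : ℕ) : (topS κ s q).card = min q s.card := by
  classical
  have hinj := rk_injOn hκ s
  have himg : s.image (rkS κ s) = Finset.range s.card := by
    refine Finset.eq_of_subset_of_card_le ?_ ?_
    · intro i hi
      obtain ⟨x, hx, rfl⟩ := Finset.mem_image.1 hi
      exact Finset.mem_range.2 (rk_lt_card hx)
    · rw [Finset.card_image_of_injOn hinj, Finset.card_range]
  have h2 : (topS κ s q).image (rkS κ s) = Finset.range (min q s.card) := by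
    ext i
    simp only [Finset.mem_image, Finset.mem_range, mem_topS, lt_min_iff]
    constructor
    · rintro ⟨x, ⟨hx, hq⟩, rfl⟩
      exact ⟨hq, rk_lt_card hx⟩
    · rintro ⟨h1, h3⟩
      have : i ∈ s.image (rkS κ s) := by
        rw [himg]
        exact Finset.mem_range.2 h3
      obtain ⟨x, hx, rfl⟩ := Finset.mem_image.1 this
      exact ⟨x, ⟨hx, h1⟩, rfl⟩
  rw [← Finset.card_range (min q s.card), ← h2,
    Finset.card_image_of_injOn (hinj.mono (topS_subset s q))]

theorem top_up {s : Finset β} {q : ℕ} {x y : β} (hx : x ∈ topS κ s q) (hy : y ∈ s)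
    (h : κ x < κ y) : y ∈ topS κ s q := by
  rw [mem_topS] at hx ⊢
  exact ⟨hy, lt_trans (rk_anti hy h) hx.2⟩

theorem eq_top_of_up {s W : Finset β} (hW : W ⊆ s)
    (hup : ∀ x ∈ W, ∀ y ∈ s, κ x < κ y → y ∈ W) : W = topS κ s W.card := by
  classical
  refine Finset.eq_of_subset_of_card_le ?_ ?_
  · intro x hx
    rw [mem_topS]
    refine ⟨hW hx, Finset.card_lt_card ⟨fun z hz => ?_, fun hsub => ?_⟩⟩
    · rw [Finset.mem_filter] at hz
      exact hup x hx z hz.1 hz.2
    · have := hsub hx
      rw [Finset.mem_filter] at this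
      exact lt_irrefl _ this.2
  · rw [card_topS hκ]
    exact min_le_left _ _

/-- Two initial segments are nested. -/
theorem top_nested (s : Finset β) (p q : ℕ) (h : p ≤ q) : topS κ s p ⊆ topS κ s q := by
  intro x hx
  rw [mem_topS] at hx ⊢
  exact ⟨hx.1, by omega⟩

/-- Union of two initial segments. -/
theorem card_union_up {s W W' : Finset β} (hW : W ⊆ s) (hW' : W' ⊆ s)
    (h1 : ∀ x ∈ W, ∀ y ∈ s, κ x < κ y → y ∈ W) (h2 : ∀ x ∈ W', ∀ y ∈ s, κ x < κ y → y ∈ W') :
    ∀ [DecidableEq β], (W ∪ W').card = max W.card W'.card := by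
  intro _
  have e1 := eq_top_of_up hκ hW h1
  have e2 := eq_top_of_up hκ hW' h2
  rcases le_total W.card W'.card with h | h
  · have : W ⊆ W' := by
      rw [e1, e2]
      simpa using top_nested hκ s _ _ (by simpa using h)
    rw [Finset.union_eq_right.2 this, max_eq_right h]
  · have : W' ⊆ W := by
      rw [e1, e2]
      simpa using top_nested hκ s _ _ (by simpa using h)
    rw [Finset.union_eq_left.2 this, max_eq_left h]

/-- Initial segments have the smallest sum of an antitone weight. -/
theorem sum_top_le {s A : Finset β} (hA : A ⊆ s) {ρ : β → ℕ}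
    (hρ : ∀ x ∈ s, ∀ y ∈ s, κ x < κ y → ρ y < ρ x) :
    ∑ x ∈ topS κ s A.card, ρ x ≤ ∑ x ∈ A, ρ x ∧
      (A ≠ topS κ s A.card → ∑ x ∈ topS κ s A.card, ρ x < ∑ x ∈ A, ρ x) := by
  classical
  set B := topS κ s A.card with hB
  have hcardB : B.card = A.card := by
    rw [hB, card_topS hκ]
    exact min_eq_left (Finset.card_le_card hA)
  have hBs : B ⊆ s := topS_subset _ _
  have key : ∀ S T : Finset β, ∑ x ∈ S ∩ T, ρ x + ∑ x ∈ S \ T, ρ x = ∑ x ∈ S, ρ x := by
    intro S T
    rw [add_comm, ← Finset.sum_union (Finset.disjoint_sdiff_inter S T), Finset.sdiff_union_inter]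
  have e1 := key A B
  have e2 := key B A
  rw [Finset.inter_comm] at e2
  have hc : (A \ B).card = (B \ A).card := by
    have c1 := Finset.card_inter_add_card_sdiff A B
    have c2 := Finset.card_inter_add_card_sdiff B A
    rw [Finset.inter_comm] at c2
    omega
  have hlt : ∀ x ∈ B \ A, ∀ y ∈ A \ B, ρ x < ρ y := by
    intro x hx y hy
    rw [Finset.mem_sdiff] at hx hy
    have hxs := hBs hx.1
    have hys := hA hy.1
    refine hρ y hys x hxs ?_
    rcases lt_trichotomy (κ x) (κ y) with h | h | h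
    · exact absurd (top_up hκ hx.1 hys h) hy.2
    · have := hκ h
      subst this
      exact absurd hy.1 hx.2
    · exact h
  have hmain : A ≠ B → ∑ x ∈ B \ A, ρ x < ∑ x ∈ A \ B, ρ x := by
    intro hne
    have hne2 : (B \ A).Nonempty := by
      by_contra hemp
      rw [Finset.not_nonempty_iff_eq_empty, Finset.sdiff_eq_empty_iff_subset] at hemp
      exact hne (Finset.eq_of_subset_of_card_le hemp (by omega)).symm
    obtain ⟨x0, hx0, hmax⟩ := Finset.exists_max_image (B \ A) ρ hne2
    have h1 : ∑ x ∈ B \ A, ρ x ≤ (B \ A).card • ρ x0 := Finset.sum_le_card_nsmul _ _ _ hmax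
    have h2 : (A \ B).card • (ρ x0 + 1) ≤ ∑ x ∈ A \ B, ρ x :=
      Finset.card_nsmul_le_sum _ _ _ fun y hy => hlt x0 hx0 y hy
    have h3 : 1 ≤ (B \ A).card := Finset.card_pos.2 hne2
    simp only [smul_eq_mul] at h1 h2
    rw [hc] at h2
    nlinarith
  by_cases hAB : A = B
  · constructor
    · rw [← hAB]
    · intro h
      exact absurd hAB h
  · have := hmain hAB
    constructor
    · omega
    · intro _
      omega

omit hκ in
/-- Order isomorphisms preserve ranks. -/
theorem rk_image [DecidableEq β] {γ α' : Type*} [DecidableEq γ] [LinearOrder α'] {κ' : γ → α'}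
    {s : Finset β} {s' : Finset γ} {φ : β → γ} (hinj : Set.InjOn φ s) (himg : s.image φ = s')
    (hmono : ∀ x ∈ s, ∀ y ∈ s, κ x < κ y ↔ κ' (φ x) < κ' (φ y)) {x : β} (hx : x ∈ s) :
    rkS κ' s' (φ x) = rkS κ s x := by
  unfold rkS
  subst himg
  rw [Finset.filter_image, Finset.card_image_of_injOn (hinj.mono (by
    intro z hz
    exact (Finset.mem_filter.1 hz).1))]
  congr 1
  apply Finset.filter_congr
  intro y hy
  exact (hmono x hx y hy).symm

/-- Order isomorphisms carry initial segments to initial segments. -/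
theorem top_image [DecidableEq β] {γ α' : Type*} [DecidableEq γ] [LinearOrder α'] {κ' : γ → α'}
    {s : Finset β} {s' : Finset γ} {φ : β → γ} (hinj : Set.InjOn φ s) (himg : s.image φ = s')
    (hmono : ∀ x ∈ s, ∀ y ∈ s, κ x < κ y ↔ κ' (φ x) < κ' (φ y)) (q : ℕ) :
    (topS κ s q).image φ = topS κ' s' q := by
  have hrk : ∀ x ∈ s, rkS κ' s' (φ x) = rkS κ s x := fun x hx => rk_image hinj himg hmono hx
  ext w
  simp only [Finset.mem_image, mem_topS]
  constructor
  · rintro ⟨x, ⟨hx, hq⟩, rfl⟩
    refine ⟨himg ▸ Finset.mem_image_of_mem _ hx, ?_⟩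
    rw [hrk x hx]
    exact hq
  · rintro ⟨hw, hq⟩
    rw [← himg] at hw
    obtain ⟨x, hx, rfl⟩ := Finset.mem_image.1 hw
    refine ⟨x, ⟨hx, ?_⟩, rfl⟩
    rw [← hrk x hx]
    exact hq

end ord

end Vale.Agent.Lib.P200
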