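import Vale.Agent.Lib.P200.NL2

/-!
The monomial complete intersection and the Clements-Lindström inequality as a special case of the
lexicographic step.
-/

namespace Vale.Agent.Lib.P200
open MvPolynomial Module

universe u

variable {K : Type u} [Field K] {n c : ℕ} {a : ℕ → ℕ}

theorem mem_toFS_image {W : Set (Fin n → ℕ)} {m : Fin n →₀ ℕ} :
    m ∈ toFS '' W ↔ (m : Fin n → ℕ) ∈ W := by
  constructor
  · rintro ⟨k, hk, rfl⟩
    exact hk
  · intro h
    exact ⟨_, h, toFS_surj m⟩

theorem toFS_add_eN (k : Fin n → ℕ) (j : Fin n) :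
    toFS (k + eN j) = toFS k + Finsupp.single j 1 := by
  ext i
  simp only [toFS_apply, Pi.add_apply, Finsupp.add_apply, Finsupp.single_apply, Pi.single_apply]
  by_cases h : i = j
  · subst h
    simp
  · simp [h, Ne.symm h]

/-- The pure powers. -/
noncomputable def powN (n : ℕ) (K : Type u) [Field K] (a : ℕ → ℕ) : ℕ → PN n K :=
  fun i => if h : i < n then X ⟨i, h⟩ ^ a i else 0

theorem powN_of_lt {i : ℕ} (h : i < n) : powN n K a i = X ⟨i, h⟩ ^ a i := dif_pos h

/-- Membership in the monomial ideal. -/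
theorem mem_JN_pow {i : ℕ} (hi : i ≤ n) {p : PN n K} :
    p ∈ JN (powN n K a) i ↔ ∀ m ∈ p.support, ∃ j : Fin n, j.val < i ∧ a j.val ≤ m j := by
  have hset : powN n K a '' Set.Iio i = (fun s => monomial s (1 : K)) ''
      {s : Fin n →₀ ℕ | ∃ j : Fin n, j.val < i ∧ s = Finsupp.single j (a j.val)} := by
    ext x
    simp only [Set.mem_image, Set.mem_Iio, Set.mem_ofPred_eq]
    constructor
    · rintro ⟨j, hj, rfl⟩
      have hjn : j < n := by omega
      refine ⟨_, ⟨⟨j, hjn⟩, hj, rfl⟩, ?_⟩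
      rw [powN_of_lt hjn, X_pow_eq_monomial]
    · rintro ⟨_, ⟨j, hj, rfl⟩, rfl⟩
      refine ⟨j.val, hj, ?_⟩
      rw [powN_of_lt j.isLt, X_pow_eq_monomial]
  unfold JN
  rw [hset, mem_ideal_span_monomial_image]
  constructor
  · intro h m hm
    obtain ⟨s, ⟨j, hj, rfl⟩, h2⟩ := h m hm
    refine ⟨j, hj, ?_⟩
    rwa [Finsupp.single_le_iff] at h2
  · intro h m hm
    obtain ⟨j, hj, h2⟩ := h m hm
    refine ⟨_, ⟨j, hj, rfl⟩, ?_⟩
    rwa [Finsupp.single_le_iff]

theorem formSeq_pow (hc : c ≤ n) (hpos : ∀ i, i < c → 1 ≤ a i) : FormSeqN c a (powN n K a) where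
  pos := hpos
  hom := by
    intro i hi
    rw [powN_of_lt (by omega)]
    simpa using (isHomogeneous_X K (⟨i, by omega⟩ : Fin n)).pow (a i)
  reg := by
    intro i hi u hu
    have hin : i < n := by omega
    rw [powN_of_lt hin] at hu
    rw [mem_JN_pow (by omega)] at hu ⊢
    intro m hm
    have hm' : m + Finsupp.single ⟨i, hin⟩ (a i) ∈ ((X ⟨i, hin⟩ ^ a i) * u : PN n K).support := by
      rw [mul_comm, X_pow_eq_monomial, MvPolynomial.mem_support_iff, coeff_mul_monomial, mul_one]
      exact MvPolynomial.mem_support_iff.1 hm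
    obtain ⟨j, hj, h2⟩ := hu _ hm'
    refine ⟨j, hj, ?_⟩
    have hne : (⟨i, hin⟩ : Fin n) ≠ j := by
      intro e
      rw [← e] at hj
      simp at hj
    simpa [Finsupp.single_apply, hne] using h2

/-- The non-allowed monomials of degree `d`. -/
noncomputable def MNN (n c : ℕ) (a : ℕ → ℕ) (d : ℕ) : Finset (Fin n → ℕ) := by
  classical
  exact TTN (fun _ : Fin n => ⊤) d \ TTN (AN n c a) d

theorem mem_MNN {d : ℕ} {k : Fin n → ℕ} : k ∈ MNN n c a d ↔ ∑ i, k i = d ∧ ¬ AllowedN (AN n c a) k := by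
  classical
  simp only [MNN, Finset.mem_sdiff, mem_TTN]
  constructor
  · rintro ⟨⟨h1, _⟩, h2⟩
    exact ⟨h1, fun h => h2 ⟨h1, h⟩⟩
  · rintro ⟨h1, h2⟩
    exact ⟨⟨h1, fun i => ENat.natCast_lt_top _⟩, fun h => h2 h.2⟩

theorem not_allowed_iff {k : Fin n → ℕ} :
    ¬ AllowedN (AN n c a) k ↔ ∃ j : Fin n, j.val < c ∧ a j.val ≤ k j := by
  rw [allowed_iff]
  push Not
  rfl

theorem degree_of_mem_hom {p : PN n K} {d : ℕ} (hp : p.IsHomogeneous d) {m : Fin n →₀ ℕ}
    (hm : m ∈ p.support) : ∑ i, (m : Fin n → ℕ) i = d := by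
  have h1 := hp (MvPolynomial.mem_support_iff.1 hm)
  have h2 : m.degree = d := by
    rw [Finsupp.degree_eq_weight_one]
    exact h1
  rw [Finsupp.degree_eq_sum] at h2
  exact h2

/-- The degree `d` piece of the monomial ideal. -/
theorem piece_pow (hc : c ≤ n) (d : ℕ) :
    pieceN (JN (powN n K a) c) d =
      restrictSupport K (toFS '' (MNN n c a d : Set (Fin n → ℕ))) := by
  ext p
  rw [mem_pieceN, mem_JN_pow hc, mem_restrictSupport_iff]
  constructor
  · rintro ⟨h1, h2⟩ m hm
    rw [mem_toFS_image, Finset.mem_coe, mem_MNN]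
    exact ⟨degree_of_mem_hom h2 hm, not_allowed_iff.2 (h1 m hm)⟩
  · intro h
    have key : ∀ m ∈ p.support, ∑ i, (m : Fin n → ℕ) i = d ∧ ¬ AllowedN (AN n c a) (m : Fin n → ℕ) := by
      intro m hm
      have := h hm
      rwa [mem_toFS_image, Finset.mem_coe, mem_MNN] at this
    refine ⟨fun m hm => not_allowed_iff.1 (key m hm).2, ?_⟩
    intro m hm
    have h2 : m.degree = d := by
      rw [Finsupp.degree_eq_sum]
      exact (key m (MvPolynomial.mem_support_iff.2 hm)).1
    rw [Finsupp.degree_eq_weight_one] at h2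
    exact h2

theorem disjoint_MNN (d : ℕ) (V : Finset (Fin n → ℕ)) (hV : V ⊆ TTN (AN n c a) d) :
    Disjoint (MNN n c a d) V := by
  rw [Finset.disjoint_left]
  intro k hk hk2
  exact (mem_MNN.1 hk).2 (mem_TTN.1 (hV hk2)).2

/-- The subspace attached to a family of monomials. -/
noncomputable def spanMN (K : Type u) [Field K] (n c : ℕ) (a : ℕ → ℕ) (d : ℕ)
    (V : Finset (Fin n → ℕ)) : Submodule K (PN n K) := by
  classical
  exact restrictSupport K (toFS '' ((MNN n c a d ∪ V : Finset (Fin n → ℕ)) : Set (Fin n → ℕ)))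

theorem finrank_spanMN {d : ℕ} {V : Finset (Fin n → ℕ)} (hV : V ⊆ TTN (AN n c a) d) :
    finrank K (spanMN K n c a d V) = (MNN n c a d).card + V.card := by
  classical
  unfold spanMN
  rw [finrank_restrictSupport_image, Finset.card_union_of_disjoint (disjoint_MNN d V hV)]

theorem finrank_piece_pow (hc : c ≤ n) (d : ℕ) :
    finrank K (pieceN (JN (powN n K a) c) d) = (MNN n c a d).card := by
  rw [piece_pow hc, finrank_restrictSupport_image]

theorem spanMN_le_HN {d : ℕ} {V : Finset (Fin n → ℕ)} (hV : V ⊆ TTN (AN n c a) d) :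
    spanMN K n c a d V ≤ HN K n d := by
  classical
  unfold spanMN
  rw [HN_eq_restrict]
  refine restrictSupport_mono K (Set.image_mono ?_)
  intro k hk
  rw [Finset.mem_coe, Finset.mem_union] at hk
  rw [Finset.mem_coe, mem_TTN]
  rcases hk with hk | hk
  · exact ⟨(mem_MNN.1 hk).1, fun i => ENat.natCast_lt_top _⟩
  · exact ⟨(mem_TTN.1 (hV hk)).1, fun i => ENat.natCast_lt_top _⟩

theorem piece_le_spanMN (hc : c ≤ n) (d : ℕ) (V : Finset (Fin n → ℕ)) :
    pieceN (JN (powN n K a) c) d ≤ spanMN K n c a d V := by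
  classical
  rw [piece_pow hc]
  unfold spanMN
  refine restrictSupport_mono K (Set.image_mono ?_)
  intro k hk
  rw [Finset.mem_coe, Finset.mem_union]
  exact Or.inl hk

theorem X_mul_spanMN {d : ℕ} {V : Finset (Fin n → ℕ)} (hV : V ⊆ TTN (AN n c a) d) (i : Fin n)
    {x : PN n K} (hx : x ∈ spanMN K n c a d V) :
    (X i : PN n K) * x ∈ spanMN K n c a (d + 1) (upS (AN n c a) V) := by
  classical
  unfold spanMN at hx ⊢
  rw [mem_restrictSupport_iff] at hx ⊢
  intro m hm
  rw [Finset.mem_coe, support_X_mul, Finset.mem_map] at hm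
  obtain ⟨m0, hm0, rfl⟩ := hm
  have h0 := hx hm0
  rw [mem_toFS_image, Finset.mem_coe, Finset.mem_union] at h0
  rw [mem_toFS_image, Finset.mem_coe, Finset.mem_union]
  have hform : ((addLeftEmbedding (Finsupp.single i 1)) m0 : Fin n → ℕ) =
      (m0 : Fin n → ℕ) + eN i := by
    funext r
    simp only [addLeftEmbedding_apply, Finsupp.add_apply, Pi.add_apply, add_comm]
    by_cases h : r = i
    · subst h
      simp
    · simp [h]
  rw [hform]
  have hd : ∑ r, (m0 : Fin n → ℕ) r = d := by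
    rcases h0 with h | h
    · exact (mem_MNN.1 h).1
    · exact (mem_TTN.1 (hV h)).1
  by_cases ha : AllowedN (AN n c a) ((m0 : Fin n → ℕ) + eN i)
  · right
    have hk : AllowedN (AN n c a) (m0 : Fin n → ℕ) := allowed_of_le ha fun r => by
      rw [Pi.add_apply]
      omega
    rcases h0 with h | h
    · exact absurd hk (mem_MNN.1 h).2
    · exact mem_upS.2 ⟨ha, _, h, i, rfl⟩
  · left
    refine mem_MNN.2 ⟨?_, ha⟩
    rw [sum_add_eN, hd]

/-- The lexicographic step for the powers gives the Clements-Lindström inequality. -/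
theorem CL_of_step (hc : c ≤ n) (hpos : ∀ i, i < c → 1 ≤ a i)
    (hS : ∀ d, LexStepN c a (powN n K a) d) : CLcore (AN n c a) := by
  intro d V hV
  have hVc : finrank K (spanMN K n c a d V) - finrank K (pieceN (JN (powN n K a) c) d) = V.card := by
    rw [finrank_spanMN hV, finrank_piece_pow hc]
    omega
  have hup := upS_subset hV
  have hYc : finrank K (spanMN K n c a (d + 1) (upS (AN n c a) V)) -
      finrank K (pieceN (JN (powN n K a) c) (d + 1)) = (upS (AN n c a) V).card := by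
    rw [finrank_spanMN hup, finrank_piece_pow hc]
    omega
  have hstep := hS d (spanMN K n c a d V) (spanMN K n c a (d + 1) (upS (AN n c a) V))
    (piece_le_spanMN hc d V) (spanMN_le_HN hV) (fun i x hx => X_mul_spanMN hV i hx)
    (piece_le_spanMN hc (d + 1) _) (spanMN_le_HN hup)
  rw [hVc, hYc] at hstep
  have hsub : upS (AN n c a) (topS (kN n) (TTN (AN n c a) d) V.card) ⊆
      topS (kN n) (TTN (AN n c a) (d + 1)) (upS (AN n c a) V).card := by
    intro w hw
    obtain ⟨ha, m, hm, j, rfl⟩ := mem_upS.1 hw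
    obtain ⟨hm1, hm2⟩ := mem_topS.1 hm
    exact mem_topS.2 ⟨upS_subset (topS_subset _ _) hw, hstep m hm1 hm2 j ha⟩
  refine (Finset.card_le_card hsub).trans ?_
  rw [card_topS (kN_inj n)]
  exact min_le_left _ _

end Vale.Agent.Lib.P200
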