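import Vale.Agent.Lib.P200.NMain
import Vale.Agent.Lib.P200.LMain

/-!
Comparison of Betti numbers in three variables for at most three forms.
-/

namespace Vale.Agent.Lib.P200
open MvPolynomial Module

universe u

variable {K : Type u} [Field K]

/-- The lexicographic step over every field. -/
theorem lexStep_any {n c : ℕ} (hn : 3 ≤ n) (hc : c ≤ n) {a : ℕ → ℕ} (hfam : FamN c a)
    {f : ℕ → PN n K} (hf : FormSeqN c a f) (d : ℕ) : LexStepN c a f d :=
  lexStep_transfer (L := AlgebraicClosure K) hf hc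
    (SB_all hn c c hc (le_refl c) a hfam _ (formSeq_iotaN hf) d)

theorem pieceT_eq_pieceN (I : Ideal (Poly K)) (d : ℕ) : pieceT I d = pieceN I d := rfl

section powers

variable {c : ℕ} {a : ℕ → ℕ} {g : ℕ → PN 3 K}

theorem regTriple_two (h : FormSeqN 2 a g) : RegTriple (g 0) (g 1) 1 where
  ne := h.ne_zero (by omega)
  h1 := by
    intro p q e
    have hm : p ∈ JN g 1 := by
      apply h.reg 1 (by omega)
      rw [mul_comm, e]
      exact Ideal.mul_mem_left _ _ (mem_JN_of (by omega))
    obtain ⟨j, hj, w, e2⟩ := mem_JN_succ.1 hm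
    rw [JN_zero, Ideal.mem_bot] at hj
    exact ⟨w, by rw [e2, hj, zero_add]⟩
  h2 := by
    intro p α β e
    exact ⟨α, β, by rw [← e, mul_one]⟩

theorem mem_JN_one {f : ℕ → PN 3 K} {p : PN 3 K} : p ∈ JN f 1 ↔ ∃ r, p = r * f 0 := by
  rw [mem_JN_succ, JN_zero]
  constructor
  · rintro ⟨j, hj, w, rfl⟩
    rw [Ideal.mem_bot] at hj
    exact ⟨w, by rw [hj, zero_add]⟩
  · rintro ⟨r, rfl⟩
    exact ⟨0, Ideal.zero_mem _, r, by rw [zero_add]⟩

theorem mem_JN_two {f : ℕ → PN 3 K} {p : PN 3 K} : p ∈ JN f 2 ↔ ∃ r s, p = r * f 0 + s * f 1 := by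
  rw [mem_JN_succ]
  constructor
  · rintro ⟨j, hj, w, rfl⟩
    obtain ⟨r, rfl⟩ := mem_JN_one.1 hj
    exact ⟨r, w, rfl⟩
  · rintro ⟨r, s, rfl⟩
    exact ⟨_, mem_JN_one.2 ⟨r, rfl⟩, s, rfl⟩

/-- Powers of a regular sequence of at most three forms in three variables. -/
theorem formSeq_pows (hc : c ≤ 3) (h : FormSeqN c a g) {k : ℕ → ℕ} (hk : ∀ i, 1 ≤ k i) :
    FormSeqN c (fun i => a i * k i) (fun i => g i ^ k i) := by
  have hk' : ∀ i, ∃ t, k i = t + 1 := fun i => ⟨k i - 1, by have := hk i; omega⟩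
  refine ⟨fun i hi => ?_, fun i hi => ?_, fun i hi u hu => ?_⟩
  · exact Nat.mul_pos (h.pos i hi) (hk i)
  · exact (h.hom i hi).pow (k i)
  · obtain ⟨k0, hk0⟩ := hk' 0
    obtain ⟨k1, hk1⟩ := hk' 1
    have hcases : i = 0 ∨ i = 1 ∨ i = 2 := by omega
    rcases hcases with rfl | rfl | rfl
    · rw [JN_zero, Ideal.mem_bot] at hu ⊢
      exact (mul_eq_zero.1 hu).resolve_left (pow_ne_zero _ (h.ne_zero hi))
    · have hR : RegTriple (g 0) (g 1) 1 := regTriple_two (h.of_le (by omega))
      have hP := hR.pows k0 k1 1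
      rw [← hk0, ← hk1] at hP
      rw [mem_JN_one] at hu ⊢
      obtain ⟨r, hr⟩ := hu
      obtain ⟨r', hr'⟩ := hP.h1 u r (by rw [mul_comm, hr])
      exact ⟨r', hr'⟩
    · have hc3 : c = 3 := by omega
      subst hc3
      have hR : RegTriple (g 0) (g 1) (g 2) := regTriple_of_formSeqN h
      have hP := hR.pows k0 k1 (k 2)
      rw [← hk0, ← hk1] at hP
      rw [mem_JN_two] at hu ⊢
      obtain ⟨r, s, hr⟩ := hu
      obtain ⟨r', s', hr'⟩ := hP.h2 u r s (by rw [mul_comm, hr])
      exact ⟨r', s', hr'⟩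

end powers

section lpp

variable {c : ℕ} {a : Fin c → ℕ} {g : ℕ → PN 3 K} {I J : Ideal (PN 3 K)}

theorem lexPieceN_eq2 (hc : c ≤ 3) (a : Fin c → ℕ) (I : Ideal (PN 3 K)) (d : ℕ) :
    lexPieceN hc a I d = restrictSupport K
      (toFS '' ((MNN 3 c (aXN a) d ∪ topS (kN 3) (TTN (AN 3 c (aXN a)) d) (excessN hc a I d) :
        Finset (Fin 3 → ℕ)) : Set (Fin 3 → ℕ))) := by
  classical
  rw [lexPieceN_eq]
  congr 1
  ext m
  rw [mem_toFS_image, Finset.mem_coe, Finset.mem_union, mem_MNN, mem_topS, mem_TTN,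
    Set.mem_ofPred_eq, MSetN, Set.mem_ofPred_eq, ← Finsupp.degree_eq_sum, ← outsideN_iff hc a,
    lexRank_eq hc a m]
  constructor
  · rintro ⟨h1 | h1, rfl⟩
    · exact Or.inl ⟨rfl, h1⟩
    · by_cases ho : OutsideN hc a m
      · exact Or.inr ⟨⟨rfl, ho⟩, h1⟩
      · exact Or.inl ⟨rfl, ho⟩
  · rintro (⟨rfl, h1⟩ | ⟨⟨rfl, h1⟩, h2⟩)
    · exact ⟨Or.inl h1, rfl⟩
    · exact ⟨Or.inr h2, rfl⟩

/-- The socle elements of `I` are matched in `J`. -/
theorem finrank_Sc_le (hc : c ≤ 3) (ha : ∀ i, 1 ≤ a i) (hform : FormSeqN c (aXN a) g)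
    (hI : ∀ i, i < c → g i ∈ I) {t : ℕ} (hstep : LexStepN c (aXN a) g t)
    (hJ : J.restrictScalars K = lexSpaceN hc a I) :
    finrank K (ScT I t) ≤ finrank K (ScT J t) := by
  classical
  have hJI := JN_le_of_mem hI
  have hF : pieceN (JN g c) t ≤ ScT I t := fun x hx => by
    obtain ⟨h2, h3⟩ := mem_pieceN.1 hx
    exact ⟨h3, fun i => I.mul_mem_left _ (hJI h2)⟩
  have hmul : ∀ i, ∀ x ∈ ScT I t, (X i : PN 3 K) * x ∈ pieceN I (t + 1) := by
    intro i x hx
    refine mem_pieceN.2 ⟨hx.2 i, ?_⟩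
    have := (isHomogeneous_X K i).mul hx.1
    rwa [add_comm 1 t] at this
  set q := finrank K (ScT I t) - finrank K (pieceN (JN g c) t) with hq
  have hFle : finrank K (pieceN (JN g c) t) ≤ finrank K (ScT I t) :=
    finrank_le_of_le_HN hF (ScT_le_HS I t)
  have hU : finrank K (ScT I t) ≤ TN 3 t := by
    rw [← finrank_HN (K := K)]
    exact finrank_le_of_le_HN (ScT_le_HS I t) (le_refl _)
  have hcnt := hform.finrank_FF hc t
  have hqc : q ≤ (TTN (AN 3 c (aXN a)) t).card := by omega
  set R : Finset (Fin 3 → ℕ) := MNN 3 c (aXN a) t ∪ topS (kN 3) (TTN (AN 3 c (aXN a)) t) q with hR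
  have hsub : restrictSupport K (toFS '' (R : Set (Fin 3 → ℕ))) ≤ ScT J t := by
    intro x hx
    refine ⟨?_, fun i => ?_⟩
    · have hle : toFS '' (R : Set (Fin 3 → ℕ)) ⊆ {m | m.degree = t} := by
        intro m hm
        rw [mem_toFS_image, Finset.mem_coe, hR, Finset.mem_union] at hm
        rw [Set.mem_ofPred_eq, Finsupp.degree_eq_sum]
        rcases hm with hm | hm
        · exact (mem_MNN.1 hm).1
        · exact (mem_TTN.1 (topS_subset _ _ hm)).1
      have hx' : x ∈ HN K 3 t := by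
        rw [HN_eq_restrict' t]
        exact restrictSupport_mono K hle hx
      exact hx'
    · rw [mem_J_iffN hc hJ]
      refine X_mul_mem_restrict (fun m hm => ?_) hx
      rw [mem_toFS_image, Finset.mem_coe, hR, Finset.mem_union] at hm
      by_cases ho : OutsideN hc a (m + Finsupp.single i 1)
      · right
        rw [outsideN_iff, coe_add_single] at ho
        have hom : AllowedN (AN 3 c (aXN a)) (m : Fin 3 → ℕ) := allowed_of_le ho fun r => by
          rw [Pi.add_apply]
          omega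
        rcases hm with hm | hm
        · exact absurd hom (mem_MNN.1 hm).2
        · obtain ⟨hm1, hm2⟩ := mem_topS.1 hm
          have hdeg : m.degree = t := by
            rw [Finsupp.degree_eq_sum]
            exact (mem_TTN.1 hm1).1
          have := hstep (ScT I t) (pieceN I (t + 1)) hF (ScT_le_HS I t) hmul
            (piece_le_of_le hJI _) (pieceN_le_HN _ _) _ hm1 hm2 i ho
          rw [lexRank_eq, degree_add_singleN, hdeg, coe_add_single]
          unfold excessN
          rwa [finrank_power_eq hc ha hform]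
      · exact Or.inl ho
  have hfin := finite_ScT J t
  have hR2 : Module.Finite K (restrictSupport K (toFS '' (R : Set (Fin 3 → ℕ)))) :=
    Submodule.finiteDimensional_of_le hsub
  have h1 := Submodule.finrank_mono hsub
  rw [finrank_restrictSupport_image, hR, Finset.card_union_of_disjoint
    (disjoint_MNN t _ (topS_subset _ _)), card_topS (kN_inj 3), min_eq_left hqc] at h1
  have e3 := finrank_piece_pow (K := K) (a := aXN a) hc t
  have e4 := (formSeq_pow (K := K) hc (aXN_pos ha)).finrank_FF hc t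
  refine le_trans ?_ h1
  omega

/-- Degree `e + 1` of the ideal of forms whose degrees differ from `e + 1` lies in the multiples of
`I_e`. -/
theorem FF_succ_leN {a' : ℕ → ℕ} {g' : ℕ → PN 3 K} (hform : FormSeqN c a' g') {e : ℕ}
    (hne : ∀ i, i < c → a' i ≠ e + 1) (hI : ∀ i, i < c → g' i ∈ I) :
    pieceN (JN g' c) (e + 1) ≤ HS K 1 * pieceN I e := by
  have key : ∀ j, j ≤ c → ∀ x ∈ JN g' j, x.IsHomogeneous (e + 1) → x ∈ HS K 1 * pieceN I e := by
    intro j
    induction j with
    | zero =>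
      intro _ x hx _
      rw [JN_zero, Ideal.mem_bot] at hx
      rw [hx]
      exact Submodule.zero_mem _
    | succ j ih =>
      intro hj x hx hh
      obtain ⟨r, hr, w, rfl⟩ := mem_JN_succ.1 hx
      have hjc : j < c := by omega
      have e1 := homogeneousComponent_eq_self hh
      rw [map_add, comp_mul_hzcN (hform.hom j hjc)] at e1
      rw [← e1]
      refine Submodule.add_mem _ (ih (by omega) _ ((hform.homClosed (by omega)) r hr _)
        (homogeneousComponent_isHomogeneous _ _)) ?_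
      by_cases hle : a' j ≤ e
      · have hh2 : hzcN w (e + 1) (a' j) ∈ HS K 1 * HS K (e - a' j) := by
          rw [HS_mul, show 1 + (e - a' j) = e + 1 - a' j by omega, hzcN, if_pos (by omega)]
          exact homogeneousComponent_isHomogeneous _ _
        obtain ⟨u, hu, v, hv, z, hz, e2⟩ := mem_HS1_mul.1 hh2
        have hq : ∀ y ∈ HS K (e - a' j), y * g' j ∈ pieceN I e := by
          intro y hy
          refine mem_pieceN.2 ⟨I.mul_mem_left _ (hI j hjc), ?_⟩
          have := (show y.IsHomogeneous (e - a' j) from hy).mul (hform.hom j hjc)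
          rwa [show e - a' j + a' j = e by omega] at this
        rw [e2, show (X 0 * u + X 1 * v + X 2 * z) * g' j =
          X 0 * (u * g' j) + X 1 * (v * g' j) + X 2 * (z * g' j) by ring]
        exact mem_HS1_mul.2 ⟨_, hq u hu, _, hq v hv, _, hq z hz, rfl⟩
      · have hlt : e + 1 < a' j := by
          have := hne j hjc
          omega
        rw [hzcN, if_neg (by omega), zero_mul]
        exact Submodule.zero_mem _
  intro x hx
  obtain ⟨h1, h2⟩ := mem_pieceN.1 hx
  exact key c (le_refl c) x h1 h2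

/-- The generators: the bound on `HS₁ J_e`. -/
theorem finrank_mul_J_leN {a' : ℕ → ℕ} {g' : ℕ → PN 3 K} (hc : c ≤ 3) (ha : ∀ i, 1 ≤ a i)
    (hform : FormSeqN c (aXN a) g) (hform' : FormSeqN c a' g') (hI' : ∀ i, i < c → g' i ∈ I)
    {e : ℕ} (hstep : LexStepN c a' g' e) (hF1 : pieceN (JN g' c) (e + 1) ≤ HS K 1 * pieceN I e)
    (ho : TTN (AN 3 c a') e = TTN (AN 3 c (aXN a)) e)
    (hJ : J.restrictScalars K = lexSpaceN hc a I) :
    finrank K (HS K 1 * pieceN J e : Submodule K (PN 3 K)) ≤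
      finrank K (HS K 1 * pieceN I e : Submodule K (PN 3 K)) := by
  classical
  set Y : Submodule K (PN 3 K) := HS K 1 * pieceN I e with hY
  have hYH : Y ≤ HN K 3 (e + 1) := by
    rw [hY, add_comm]
    have : HS K 1 * pieceN I e ≤ HS K 1 * HS K e := mul_le_mul' le_rfl (pieceN_le_HN I e)
    rw [HS_mul] at this
    exact this
  have hXY : ∀ i, ∀ x ∈ pieceN I e, (X i : PN 3 K) * x ∈ Y := fun i x hx =>
    Submodule.mul_mem_mul (isHomogeneous_X K i) hx
  set q := finrank K Y - finrank K (pieceN (JN g' c) (e + 1)) with hq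
  have hFY : finrank K (pieceN (JN g' c) (e + 1)) ≤ finrank K Y := finrank_le_of_le_HN hF1 hYH
  have hcard : finrank K (pieceN (JN g c) e) = finrank K (pieceN (JN g' c) e) := by
    have e1 := hform.finrank_FF hc e
    have e2 := hform'.finrank_FF hc e
    rw [ho] at e2
    omega
  set R : Finset (Fin 3 → ℕ) := MNN 3 c a' (e + 1) ∪ topS (kN 3) (TTN (AN 3 c a') (e + 1)) q with hR
  have hsub : HS K 1 * pieceN J e ≤ restrictSupport K (toFS '' (R : Set (Fin 3 → ℕ))) := by
    rw [pieceN_J hc hJ, lexPieceN_eq2]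
    refine HS1_mul_restrict_le fun m hm i => ?_
    rw [mem_toFS_image, Finset.mem_coe, Finset.mem_union] at hm
    rw [mem_toFS_image, Finset.mem_coe, hR, Finset.mem_union, coe_add_single]
    have hdeg : ∑ r, (m : Fin 3 → ℕ) r = e := by
      rcases hm with hm | hm
      · exact (mem_MNN.1 hm).1
      · exact (mem_TTN.1 (topS_subset _ _ hm)).1
    by_cases hout : AllowedN (AN 3 c a') ((m : Fin 3 → ℕ) + eN i)
    · right
      have hom' : AllowedN (AN 3 c a') (m : Fin 3 → ℕ) := allowed_of_le hout fun r => by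
        rw [Pi.add_apply]
        omega
      have hmT' : (m : Fin 3 → ℕ) ∈ TTN (AN 3 c a') e := mem_TTN.2 ⟨hdeg, hom'⟩
      have hmT : (m : Fin 3 → ℕ) ∈ TTN (AN 3 c (aXN a)) e := by
        rw [← ho]
        exact hmT'
      have hm2 : (m : Fin 3 → ℕ) ∈ topS (kN 3) (TTN (AN 3 c (aXN a)) e) (excessN hc a I e) := by
        rcases hm with hm | hm
        · exact absurd (mem_TTN.1 hmT).2 (mem_MNN.1 hm).2
        · exact hm
      obtain ⟨-, hr⟩ := mem_topS.1 hm2
      have hr' : rkS (kN 3) (TTN (AN 3 c a') e) (m : Fin 3 → ℕ) <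
          finrank K (pieceN I e) - finrank K (pieceN (JN g' c) e) := by
        rw [ho, ← hcard]
        unfold excessN at hr
        rwa [finrank_power_eq hc ha hform] at hr
      have hlast := hstep (pieceN I e) Y (piece_le_of_le (JN_le_of_mem hI') e) (pieceN_le_HN _ _)
        hXY hF1 hYH _ hmT' hr' i hout
      refine mem_topS.2 ⟨mem_TTN.2 ⟨?_, hout⟩, hlast⟩
      rw [sum_add_eN, hdeg]
    · left
      refine mem_MNN.2 ⟨?_, hout⟩
      rw [sum_add_eN, hdeg]
  have hR2 : Module.Finite K (restrictSupport K (toFS '' (R : Set (Fin 3 → ℕ)))) := by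
    rw [show restrictSupport K (toFS '' (R : Set (Fin 3 → ℕ))) =
      (restrictSupport K (toFS '' (R : Set (Fin 3 → ℕ))) : Submodule K (PN 3 K)) from rfl]
    refine finite_of_le_HN (d := e + 1) ?_
    rw [HN_eq_restrict']
    refine restrictSupport_mono K ?_
    intro m hm
    rw [mem_toFS_image, Finset.mem_coe, hR, Finset.mem_union] at hm
    rw [Set.mem_ofPred_eq, Finsupp.degree_eq_sum]
    rcases hm with hm | hm
    · exact (mem_MNN.1 hm).1
    · exact (mem_TTN.1 (topS_subset _ _ hm)).1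
  have h1 := Submodule.finrank_mono hsub
  rw [finrank_restrictSupport_image, hR, Finset.card_union_of_disjoint
    (disjoint_MNN (e + 1) _ (topS_subset _ _)), card_topS (kN_inj 3)] at h1
  refine le_trans h1 ?_
  have e3 := finrank_piece_pow (K := K) (a := a') hc (e + 1)
  have e4 := hform'.finrank_FF hc (e + 1)
  have hpos : ∀ i, i < c → 1 ≤ a' i := hform'.pos
  have e5 := (formSeq_pow (K := K) hc hpos).finrank_FF hc (e + 1)
  have hmin : min q (TTN (AN 3 c a') (e + 1)).card ≤ q := min_le_left _ _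
  have e6 : (MNN 3 c a' (e + 1)).card = finrank K (pieceN (JN g' c) (e + 1)) := by
    rw [← e3]
    exact Nat.add_right_cancel (e5.trans e4.symm)
  rw [e6]
  have e7 : finrank K (pieceN (JN g' c) (e + 1)) + q = finrank K Y := Nat.add_sub_cancel' hFY
  exact le_trans (Nat.add_le_add_left hmin _) (le_of_eq e7)

end lpp

/-- The lex-plus-powers statement in three variables. -/
theorem lpp_n3 {c : ℕ} (hc : c ≤ 3) {a : Fin c → ℕ} (ha2 : ∀ i, 2 ≤ a i) (hmono : Monotone a)
    {f : Fin c → PN 3 K} (hf : ∀ i, (f i).IsHomogeneous (a i))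
    (hreg : RingTheory.Sequence.IsWeaklyRegular (PN 3 K) (List.ofFn f))
    {I : Ideal (PN 3 K)} (hI : ∀ i, f i ∈ I) :
    ∃ J : Ideal (PN 3 K), J.restrictScalars K = lexSpaceN hc a I ∧
      (∀ d, finrank K (pieceN J d) = finrank K (pieceN I d)) ∧
      ∀ p j, bettiT I p j ≤ bettiT J p j := by
  have ha1 : ∀ i, 1 ≤ a i := fun i => le_trans (by omega) (ha2 i)
  have hform := formSeqN_of_weaklyRegular ha1 hf hreg
  have hfam : FamN c (aXN a) := famN_aXN ha2 hmono (fun i h3 => absurd i.isLt (by omega))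
  have hstep : ∀ d, LexStepN c (aXN a) (fXN f) d := lexStep_any (le_refl 3) hc hfam hform
  have hI' : ∀ i, i < c → fXN f i ∈ I := by
    intro i hi
    rw [fXN_of_lt f hi]
    exact hI _
  have hJ : (restrictSupportIdeal K (MSetN hc a I)
      (MSetN_upper hc ha1 hform hstep hI')).restrictScalars K = lexSpaceN hc a I := by
    rw [restrictScalars_restrictSupportIdeal, lexSpaceN_eq]
  refine ⟨_, hJ, ?_⟩
  set J := restrictSupportIdeal K (MSetN hc a I) (MSetN_upper hc ha1 hform hstep hI') with hJdef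
  have hd : ∀ d, finrank K (pieceN J d) = finrank K (pieceN I d) := by
    intro d
    rw [pieceN_J hc hJ]
    exact finrank_lexPieceN hc ha1 hform hI' d
  refine ⟨hd, betti_le_of hd ?_ ?_⟩
  · intro e
    have hposA : ∀ i, i < c → 2 ≤ aXN a i := hfam.1
    set k : ℕ → ℕ := fun i => kxp e (aXN a i) with hk
    have hk1 : ∀ i, 1 ≤ k i := fun i => kxp_pos e _
    set a' : ℕ → ℕ := fun i => aXN a i * k i with ha'
    have hform' : FormSeqN c a' (fun i => fXN f i ^ k i) := formSeq_pows hc hform hk1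
    have hfam' : FamN c a' := by
      refine ⟨fun i hi => ?_, fun i j hij hj => ?_, fun i h3 hi => by omega⟩
      · have := Nat.mul_le_mul (hposA i hi) (hk1 i)
        simpa using this
      · exact mul_kxp_mono (hfam.2.1 i j hij hj) (by have := hposA i (by omega); omega)
    have hI2 : ∀ i, i < c → fXN f i ^ k i ∈ I := fun i hi =>
      Ideal.pow_mem_of_mem _ (hI' i hi) _ (hk1 i)
    refine finrank_mul_J_leN hc ha1 hform hform' hI2
      (lexStep_any (le_refl 3) hc hfam' hform' e)
      (FF_succ_leN hform' (fun i hi => kxp_ne (by have := hposA i hi; omega)) hI2) ?_ hJ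
    ext m
    rw [mem_TTN, mem_TTN, allowed_iff, allowed_iff]
    refine and_congr_right fun hs => forall_congr' fun i => forall_congr' fun hi => ?_
    have hle : m i ≤ e := by
      rw [← hs]
      exact Finset.single_le_sum (f := m) (fun _ _ => Nat.zero_le _) (Finset.mem_univ i)
    exact lt_mul_kxp_iff hle (by have := hposA i.val hi; omega)
  · intro t
    exact finrank_Sc_le hc ha1 hform hI' (hstep t) hJ

end Vale.Agent.Lib.P200
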