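import Vale.Agent.Lib.P200.NForms

/-!
Linear nonzerodivisors: the reduction modulo a linear form and the socle of a regular sequence of
length smaller than the number of variables.
-/

namespace Vale.Agent.Lib.P200
open MvPolynomial Module

universe u

variable {K : Type u} [Field K] {N : ℕ}

/-- The linear form `x_N + ∑ b_i x_i`. -/
noncomputable def ellN (b : Fin N → K) : PN (N + 1) K :=
  X (Fin.last N) + ∑ i, C (b i) * X i.castSucc

/-- Reduction modulo the linear form. -/
noncomputable def rhoN (b : Fin N → K) : PN (N + 1) K →ₐ[K] PN N K :=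
  aeval (Fin.lastCases (-∑ i, C (b i) * X i) (fun i => X i))

/-- The inclusion. -/
noncomputable def iotaN : PN N K →ₐ[K] PN (N + 1) K := rename Fin.castSucc

theorem rho_X_castSucc (b : Fin N → K) (i : Fin N) : rhoN b (X i.castSucc) = X i := by
  simp [rhoN]

theorem rho_X_last (b : Fin N → K) : rhoN b (X (Fin.last N)) = -∑ i, C (b i) * X i := by
  simp [rhoN]

theorem rho_ell (b : Fin N → K) : rhoN b (ellN b) = 0 := by
  simp [ellN, map_add, map_sum, map_mul, rho_X_last, rho_X_castSucc, algHom_C]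

theorem rho_iota (b : Fin N → K) (p : PN N K) : rhoN b (iotaN p) = p := by
  have : (rhoN b).comp (iotaN : PN N K →ₐ[K] PN (N + 1) K) = AlgHom.id K _ := by
    apply MvPolynomial.algHom_ext
    intro i
    simp [iotaN, rho_X_castSucc]
  exact DFunLike.congr_fun this p

theorem rho_surj (b : Fin N → K) : Function.Surjective (rhoN b) :=
  fun p => ⟨iotaN p, rho_iota b p⟩

theorem sub_iota_mem (b : Fin N → K) (p : PN (N + 1) K) :
    p - iotaN (rhoN b p) ∈ Ideal.span {ellN b} := by
  have hag : (Ideal.Quotient.mkₐ K (Ideal.span {ellN b})) =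
      (Ideal.Quotient.mkₐ K (Ideal.span {ellN b})).comp
        ((iotaN : PN N K →ₐ[K] PN (N + 1) K).comp (rhoN b)) := by
    apply MvPolynomial.algHom_ext
    intro i
    refine Fin.lastCases ?_ (fun j => ?_) i
    · simp only [AlgHom.comp_apply, rho_X_last]
      rw [Ideal.Quotient.mkₐ_eq_mk, Ideal.Quotient.eq]
      have : (X (Fin.last N) : PN (N + 1) K) - iotaN (-∑ i, C (b i) * X i) = ellN b := by
        simp [iotaN, ellN, map_neg, map_sum, map_mul, rename_X, algHom_C, sub_neg_eq_add]
      rw [this]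
      exact Ideal.mem_span_singleton_self _
    · simp [rho_X_castSucc, iotaN]
  have := DFunLike.congr_fun hag p
  simp only [AlgHom.comp_apply, Ideal.Quotient.mkₐ_eq_mk] at this
  exact (Ideal.Quotient.eq).1 this

theorem mem_ell_of_rho_eq_zero {b : Fin N → K} {p : PN (N + 1) K} (h : rhoN b p = 0) :
    ∃ q, p = ellN b * q := by
  have := sub_iota_mem b p
  rw [h, map_zero, sub_zero] at this
  obtain ⟨q, hq⟩ := Ideal.mem_span_singleton.1 this
  exact ⟨q, hq⟩

theorem ell_hom (b : Fin N → K) : (ellN b).IsHomogeneous 1 := by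
  refine (isHomogeneous_X K _).add (IsHomogeneous.sum _ _ _ fun i _ => ?_)
  have := (isHomogeneous_C (Fin (N + 1)) (b i)).mul (isHomogeneous_X K i.castSucc)
  simpa using this

theorem rho_hom (b : Fin N → K) {p : PN (N + 1) K} {e : ℕ} (hp : p.IsHomogeneous e) :
    (rhoN b p).IsHomogeneous e := by
  have := hp.aeval (S := K) (Fin.lastCases (-∑ i, C (b i) * X i) (fun i => X i) :
      Fin (N + 1) → PN N K) (n := 1) (by
    intro i
    refine Fin.lastCases ?_ (fun j => ?_) i
    · simp only [Fin.lastCases_last]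
      refine (IsHomogeneous.sum _ _ _ fun i _ => ?_).neg
      have := (isHomogeneous_C (Fin N) (b i)).mul (isHomogeneous_X K i)
      simpa using this
    · simp only [Fin.lastCases_castSucc]
      exact isHomogeneous_X K j)
  simpa [rhoN] using this

theorem iota_hom {p : PN N K} {e : ℕ} (hp : p.IsHomogeneous e) :
    (iotaN p : PN (N + 1) K).IsHomogeneous e :=
  hp.rename_isHomogeneous

theorem ell_ne_zero (b : Fin N → K) : ellN b ≠ 0 := by
  intro h
  have := congrArg (coeff (Finsupp.single (Fin.last N) 1)) h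
  simp only [ellN, coeff_add, coeff_sum, coeff_zero, coeff_C_mul, coeff_X,
    Finsupp.single_left_inj (one_ne_zero : (1 : ℕ) ≠ 0)] at this
  simp [Fin.castSucc_ne_last] at this

/-- `ell b * p` being zero modulo an ideal. -/
theorem ell_mul_mem_of_X {I : Ideal (PN (N + 1) K)} {u : PN (N + 1) K} (b : Fin N → K)
    (h : ∀ i, (X i : PN (N + 1) K) * u ∈ I) : ellN b * u ∈ I := by
  rw [ellN, add_mul, Finset.sum_mul]
  refine I.add_mem (h _) (I.sum_mem fun i _ => ?_)
  rw [mul_assoc]
  exact I.mul_mem_left _ (h _)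

/-- The socle condition. -/
def SocN {n : ℕ} (J : Ideal (PN n K)) : Prop := ∀ u, (∀ i, (X i : PN n K) * u ∈ J) → u ∈ J

/-- Existence of a linear nonzerodivisor modulo finitely many ideals. -/
theorem exists_lin [Infinite K] (J : ℕ → Ideal (PN (N + 1) K)) (c : ℕ)
    (hQ : ∀ j, j ≤ c → SocN (J j)) :
    ∃ b : Fin N → K, ∀ j, j ≤ c → ∀ p, ellN b * p ∈ J j → p ∈ J j := by
  classical
  set S := PN (N + 1) K with hS
  let linF : (Fin (N + 1) → K) →ₗ[K] S := ∑ i, (LinearMap.proj i).smulRight (X i : S)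
  have hlinF : ∀ v, linF v = ∑ i, v i • (X i : S) := by
    intro v
    simp [linF, LinearMap.sum_apply]
  have hlinF1 : ∀ i, linF (Pi.single i 1) = X i := by
    intro i
    rw [hlinF, Finset.sum_eq_single i]
    · simp
    · intro k _ hk
      simp [hk]
    · simp
  let Ass : ℕ → Set (Ideal S) := fun j => associatedPrimes S (S ⧸ J j)
  have hfin : ∀ j, Finite (Ass j) := fun j => (associatedPrimes.finite S (S ⧸ J j)).to_subtype
  let ι := Option (Σ j : Fin (c + 1), Ass j.val)
  have : Finite ι := by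
    have : Finite (Σ j : Fin (c + 1), Ass j.val) := by
      have : ∀ j : Fin (c + 1), Finite (Ass j.val) := fun j => hfin j.val
      infer_instance
    infer_instance
  let p : ι → Subspace K (Fin (N + 1) → K) := fun o =>
    match o with
    | none => LinearMap.ker (LinearMap.proj (Fin.last N))
    | some P => ((P.2.1).restrictScalars K).comap linF
  have hnotop : ∀ i, p i ≠ ⊤ := by
    intro i hi
    cases i with
    | none =>
      have : (Pi.single (Fin.last N) 1 : Fin (N + 1) → K) ∈ p none := by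
        rw [hi]
        trivial
      have h2 : (Pi.single (Fin.last N) (1 : K) : Fin (N + 1) → K) (Fin.last N) = 0 := this
      simp at h2
    | some P =>
      obtain ⟨j, P, hP⟩ := P
      have hX : ∀ i, (X i : S) ∈ P := by
        intro i
        have : (Pi.single i 1 : Fin (N + 1) → K) ∈ p (some ⟨j, P, hP⟩) := by
          rw [hi]
          trivial
        have h2 : linF (Pi.single i 1) ∈ P := this
        rwa [hlinF1] at h2
      obtain ⟨_, x, hx⟩ := isAssociatedPrime_iff.1 (AssociatedPrimes.mem_iff.1 hP)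
      obtain ⟨q, rfl⟩ := Ideal.Quotient.mk_surjective x
      have hq0 : q ∉ J j.val := by
        intro hq
        have : (1 : S) ∈ P := by
          rw [hx, Submodule.mem_colon_singleton]
          rw [Submodule.mem_bot, one_smul]
          exact Ideal.Quotient.eq_zero_iff_mem.2 hq
        exact (isAssociatedPrime_iff.1 (AssociatedPrimes.mem_iff.1 hP)).1.ne_top
          ((Ideal.eq_top_iff_one _).2 this)
      apply hq0
      apply hQ j.val (by have := j.isLt; omega)
      intro i
      have h3 := hX i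
      rw [hx, Submodule.mem_colon_singleton, Submodule.mem_bot] at h3
      rw [← Ideal.Quotient.mk_eq_mk, ← Submodule.Quotient.mk_smul, smul_eq_mul] at h3
      exact (Submodule.Quotient.mk_eq_zero _).1 h3
  obtain ⟨v, hv⟩ : ∃ v : Fin (N + 1) → K, ∀ i, v ∉ p i := by
    by_contra hcon
    push Not at hcon
    have hcov : ⋃ i, (p i : Set (Fin (N + 1) → K)) = Set.univ := by
      ext v
      simp only [Set.mem_iUnion, Set.mem_univ, iff_true]
      obtain ⟨i, hi⟩ := hcon v
      exact ⟨i, hi⟩
    obtain ⟨i, hi⟩ := Subspace.exists_eq_top_of_iUnion_eq_univ hcov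
    exact hnotop i hi
  have hvL : v (Fin.last N) ≠ 0 := by
    intro h0
    exact hv none h0
  have hnzd : ∀ j, j ≤ c → ∀ q, linF v * q ∈ J j → q ∈ J j := by
    intro j hj q hq
    by_contra hcon
    have hmem : linF v ∈ {r : S | ∃ x : S ⧸ J j, x ≠ 0 ∧ r • x = 0} := by
      refine ⟨Ideal.Quotient.mk _ q, ?_, ?_⟩
      · intro h0
        exact hcon ((Submodule.Quotient.mk_eq_zero _).1 h0)
      · rw [← Ideal.Quotient.mk_eq_mk, ← Submodule.Quotient.mk_smul, smul_eq_mul]
        exact (Submodule.Quotient.mk_eq_zero _).2 hq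
    rw [← biUnion_associatedPrimes_eq_zero_divisors] at hmem
    obtain ⟨P, hP, hm⟩ := Set.mem_iUnion₂.1 hmem
    exact hv (some ⟨⟨j, by omega⟩, P, hP⟩) hm
  refine ⟨fun i => v i.castSucc / v (Fin.last N), fun j hj q hq => ?_⟩
  have hell : linF v = C (v (Fin.last N)) * ellN (fun i => v i.castSucc / v (Fin.last N)) := by
    rw [hlinF, Fin.sum_univ_castSucc, ellN, mul_add, Finset.mul_sum, add_comm]
    congr 1
    · rw [MvPolynomial.smul_eq_C_mul]
    · refine Finset.sum_congr rfl fun i _ => ?_
      rw [MvPolynomial.smul_eq_C_mul, ← mul_assoc, ← C_mul]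
      congr 2
      field_simp
  apply hnzd j hj
  rw [hell, mul_assoc]
  exact (J j).mul_mem_left _ hq

/-- The exchange of two nonzerodivisors for the socle condition. -/
theorem swap_soc {J : Ideal (PN (N + 1) K)} {y : PN (N + 1) K} (b : Fin N → K)
    (hy : ∀ u, y * u ∈ J → u ∈ J) (hl : ∀ u, ellN b * u ∈ J → u ∈ J)
    (hQ : SocN (J ⊔ Ideal.span {ellN b})) : SocN (J ⊔ Ideal.span {y}) := by
  intro u hu
  have hmemsup : ∀ {g p : PN (N + 1) K}, p ∈ J ⊔ Ideal.span {g} ↔ ∃ j ∈ J, ∃ w, p = j + w * g := by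
    intro g p
    rw [Submodule.mem_sup]
    constructor
    · rintro ⟨j, hj, w, hw, rfl⟩
      obtain ⟨r, rfl⟩ := Ideal.mem_span_singleton'.1 hw
      exact ⟨j, hj, r, rfl⟩
    · rintro ⟨j, hj, w, rfl⟩
      exact ⟨j, hj, _, Ideal.mul_mem_left _ _ (Ideal.mem_span_singleton_self _), rfl⟩
  obtain ⟨j, hj, v, e⟩ := hmemsup.1 (ell_mul_mem_of_X b hu)
  have hv : v ∈ J ⊔ Ideal.span {ellN b} := by
    apply hQ
    intro i
    obtain ⟨ji, hji, vi, ei⟩ := hmemsup.1 (hu i)
    have key : X i * v - ellN b * vi ∈ J := by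
      apply hy
      have : y * (X i * v - ellN b * vi) = ellN b * ji - X i * j := by
        linear_combination (X i : PN (N + 1) K) * (-e) + ellN b * ei
      rw [this]
      exact J.sub_mem (J.mul_mem_left _ hji) (J.mul_mem_left _ hj)
    exact hmemsup.2 ⟨_, key, vi, by ring⟩
  obtain ⟨j2, hj2, t, e2⟩ := hmemsup.1 hv
  have hmem : u - t * y ∈ J := by
    apply hl
    have : ellN b * (u - t * y) = j + j2 * y := by
      rw [e2] at e
      linear_combination e
    rw [this]
    exact J.add_mem hj (J.mul_mem_right _ hj2)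
  exact hmemsup.2 ⟨_, hmem, t, by ring⟩

/-- Regularity for a sequence. -/
def RegN {n : ℕ} (c : ℕ) (f : ℕ → PN n K) : Prop :=
  ∀ i, i < c → ∀ u, f i * u ∈ JN f i → u ∈ JN f i

theorem RegN.of_le {n c c' : ℕ} {f : ℕ → PN n K} (h : RegN c f) (hc : c' ≤ c) : RegN c' f :=
  fun i hi => h i (by omega)

/-- The image of the ideal of a sequence. -/
theorem map_JN (b : Fin N → K) (f : ℕ → PN (N + 1) K) (c : ℕ) :
    (JN f c).map (rhoN b : PN (N + 1) K →+* PN N K) = JN (fun i => rhoN b (f i)) c := by
  unfold JN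
  rw [Ideal.map_span, ← Set.image_comp]
  rfl

theorem rho_mem_JN {b : Fin N → K} {f : ℕ → PN (N + 1) K} {c : ℕ} {p : PN (N + 1) K}
    (h : p ∈ JN f c) : rhoN b p ∈ JN (fun i => rhoN b (f i)) c := by
  rw [← map_JN]
  exact Ideal.mem_map_of_mem (rhoN b : PN (N + 1) K →+* PN N K) h

/-- A preimage in the ideal for an element of the reduced ideal. -/
theorem exists_of_rho_mem {b : Fin N → K} {f : ℕ → PN (N + 1) K} {c : ℕ} {p : PN (N + 1) K}
    (h : rhoN b p ∈ JN (fun i => rhoN b (f i)) c) : ∃ j ∈ JN f c, ∃ w, p = j + ellN b * w := by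
  rw [← map_JN] at h
  have hsurj : Function.Surjective (rhoN b : PN (N + 1) K →+* PN N K) := rho_surj b
  obtain ⟨j, hj, e⟩ := (Ideal.mem_map_iff_of_surjective _ hsurj).1 h
  have e' : rhoN b j = rhoN b p := e
  have h0 : rhoN b (p - j) = 0 := by rw [map_sub, e', sub_self]
  obtain ⟨w, hw⟩ := mem_ell_of_rho_eq_zero h0
  exact ⟨j, hj, w, by linear_combination hw⟩

/-- Regularity passes to the reduction by a linear nonzerodivisor. -/
theorem reg_rho {b : Fin N → K} {c : ℕ} {f : ℕ → PN (N + 1) K} (hf : RegN c f)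
    (hb : ∀ j, j ≤ c → ∀ p, ellN b * p ∈ JN f j → p ∈ JN f j) :
    RegN c (fun i => rhoN b (f i)) := by
  intro i hi ū hū
  obtain ⟨u, rfl⟩ := rho_surj b ū
  rw [← map_mul] at hū
  obtain ⟨r, hr, v, e⟩ := exists_of_rho_mem hū
  have hv : v ∈ JN f (i + 1) := by
    apply hb (i + 1) (by omega)
    refine mem_JN_succ.2 ⟨-r, (JN f i).neg_mem hr, u, ?_⟩
    linear_combination -e
  obtain ⟨s, hs, w, e2⟩ := mem_JN_succ.1 hv
  have h3 : u - ellN b * w ∈ JN f i := by
    apply hf i hi
    have : f i * (u - ellN b * w) = r + ellN b * s := by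
      rw [e2] at e
      linear_combination e
    rw [this]
    exact (JN f i).add_mem hr ((JN f i).mul_mem_left _ hs)
  have := rho_mem_JN (b := b) h3
  rwa [map_sub, map_mul, rho_ell, zero_mul, sub_zero] at this

/-- The socle condition modulo the linear form, from the reduced ideal. -/
theorem soc_sup_ell {b : Fin N → K} {f : ℕ → PN (N + 1) K} {c : ℕ}
    (h : SocN (JN (fun i => rhoN b (f i)) c)) : SocN (JN f c ⊔ Ideal.span {ellN b}) := by
  intro u hu
  have hmem : rhoN b u ∈ JN (fun i => rhoN b (f i)) c := by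
    apply h
    intro i
    have h1 := hu i.castSucc
    obtain ⟨j, hj, w, hw, e⟩ := Submodule.mem_sup.1 h1
    obtain ⟨r, rfl⟩ := Ideal.mem_span_singleton'.1 hw
    have := congrArg (rhoN b) e
    rw [map_add, map_mul, map_mul, rho_X_castSucc, rho_ell, mul_zero, add_zero] at this
    rw [← this]
    exact rho_mem_JN hj
  obtain ⟨j, hj, w, e⟩ := exists_of_rho_mem hmem
  rw [e]
  exact Ideal.add_mem _ (Ideal.mem_sup_left hj)
    (Ideal.mem_sup_right (Ideal.mul_mem_right _ _ (Ideal.mem_span_singleton_self _)))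

/-- The socle condition for a regular sequence shorter than the number of variables. -/
theorem soc_all [Infinite K] : ∀ (n c : ℕ), c < n → ∀ f : ℕ → PN n K, RegN c f → SocN (JN f c) := by
  intro n
  induction n with
  | zero =>
    intro c hc
    omega
  | succ N ihN =>
    intro c
    induction c using Nat.strong_induction_on with
    | _ c ihc =>
      intro hc f hf
      cases c with
      | zero =>
        intro u hu
        rw [JN_zero] at hu ⊢
        have := hu 0
        rw [Ideal.mem_bot] at this ⊢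
        exact (mul_eq_zero.1 this).resolve_left (X_ne_zero _)
      | succ c =>
        have hQ : ∀ j, j ≤ c → SocN (JN f j) := fun j hj =>
          ihc j (by omega) (by omega) f (hf.of_le (by omega))
        obtain ⟨b, hb⟩ := exists_lin (JN f) c hQ
        have hred := reg_rho (hf.of_le (Nat.le_succ c)) hb
        have h1 := ihN c (by omega) _ hred
        rw [JN_succ]
        exact swap_soc b (hf c (by omega)) (hb c (le_refl c)) (soc_sup_ell h1)

/-- Existence of a linear form as in the inductive step. -/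
theorem exists_ell [Infinite K] {c : ℕ} (hc : c ≤ N) {f : ℕ → PN (N + 1) K} (hf : RegN c f) :
    ∃ b : Fin N → K, ∀ j, j ≤ c → ∀ p, ellN b * p ∈ JN f j → p ∈ JN f j :=
  exists_lin (JN f) c fun j hj => soc_all (N + 1) j (by omega) f (hf.of_le hj)

theorem FormSeqN.regN {n c : ℕ} {a : ℕ → ℕ} {f : ℕ → PN n K} (h : FormSeqN c a f) : RegN c f :=
  h.reg

/-- The reduction of a sequence of forms. -/
theorem formSeq_rho {c : ℕ} {a : ℕ → ℕ} {f : ℕ → PN (N + 1) K} (h : FormSeqN c a f) {b : Fin N → K}
    (hb : ∀ j, j ≤ c → ∀ p, ellN b * p ∈ JN f j → p ∈ JN f j) :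
    FormSeqN c a (fun i => rhoN b (f i)) :=
  ⟨h.pos, fun i hi => rho_hom b (h.hom i hi), reg_rho h.reg hb⟩

end Vale.Agent.Lib.P200
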