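import Vale.Agent.Lib.P200.Main1

/-!
Pairs of quadrics: syzygies, coprimality, absence of socle, choice of a linear form.
-/

namespace Vale.Agent.Lib.P200
open MvPolynomial Module

variable {K : Type*} [Field K]

theorem pair_syz {g1 g2 α β : Poly K} (hc : IsRelPrime g1 g2) (h2 : g2 ≠ 0)
    (e : α * g1 + β * g2 = 0) : ∃ c, α = c * g2 ∧ β = - (c * g1) := by
  have hd : g2 ∣ α * g1 := ⟨-β, by linear_combination e⟩
  obtain ⟨c, hc'⟩ := hc.symm.dvd_of_dvd_mul_right hd
  refine ⟨c, by rw [hc']; ring, ?_⟩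
  have : g2 * (β + c * g1) = 0 := by
    rw [hc'] at e
    linear_combination e
  have := (mul_eq_zero.1 this).resolve_left h2
  linear_combination this

/-- Absence of socle modulo a coprime pair. -/
theorem no_socle {g1 g2 a : Poly K} (hc : IsRelPrime g1 g2) (h2 : g2 ≠ 0)
    (hx : ∀ i, (X i : Poly K) * a ∈ Ideal.span {g1, g2}) : a ∈ Ideal.span {g1, g2} := by
  obtain ⟨α0, β0, e0⟩ := Ideal.mem_span_pair.1 (hx 0)
  obtain ⟨α1, β1, e1⟩ := Ideal.mem_span_pair.1 (hx 1)
  obtain ⟨α2, β2, e2⟩ := Ideal.mem_span_pair.1 (hx 2)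
  obtain ⟨c01, h01a, h01b⟩ := pair_syz (α := X 1 * α0 - X 0 * α1) (β := X 1 * β0 - X 0 * β1) hc h2
    (by linear_combination (X 1 : Poly K) * e0 - (X 0 : Poly K) * e1)
  obtain ⟨c02, h02a, h02b⟩ := pair_syz (α := X 2 * α0 - X 0 * α2) (β := X 2 * β0 - X 0 * β2) hc h2
    (by linear_combination (X 2 : Poly K) * e0 - (X 0 : Poly K) * e2)
  obtain ⟨c12, h12a, h12b⟩ := pair_syz (α := X 2 * α1 - X 1 * α2) (β := X 2 * β1 - X 1 * β2) hc h2
    (by linear_combination (X 2 : Poly K) * e1 - (X 1 : Poly K) * e2)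
  have hE : (X 2 * c01 - X 1 * c02 + X 0 * c12 : Poly K) = 0 := by
    have : g2 * (X 2 * c01 - X 1 * c02 + X 0 * c12 : Poly K) = 0 := by
      linear_combination (-1 : Poly K) * X 2 * h01a + X 1 * h02a - X 0 * h12a
    exact (mul_eq_zero.1 this).resolve_left h2
  obtain ⟨s0, s1, s2, hs12, hs02, hs01⟩ := (regTriple_X (K := K)).k1 (a0 := c12) (a1 := - c02)
    (a2 := c01) (by linear_combination hE)
  obtain ⟨t, ht0, _, _⟩ := (regTriple_X (K := K)).k2 (q0 := α0 - s0 * g2) (q1 := α1 - s1 * g2)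
    (q2 := α2 - s2 * g2)
    (by linear_combination h01a + g2 * hs01)
    (by linear_combination (-1 : Poly K) * h02a + g2 * hs02)
  obtain ⟨t', ht0', _, _⟩ := (regTriple_X (K := K)).k2 (q0 := β0 + s0 * g1) (q1 := β1 + s1 * g1)
    (q2 := β2 + s2 * g1)
    (by linear_combination h01b - g1 * hs01)
    (by linear_combination (-1 : Poly K) * h02b - g1 * hs02)
  have hfin : a = t * g1 + t' * g2 := by
    have : (X 0 : Poly K) * (a - (t * g1 + t' * g2)) = 0 := by
      linear_combination (-1 : Poly K) * e0 + g1 * ht0 + g2 * ht0'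
    have := (mul_eq_zero.1 this).resolve_left (X_ne_zero 0)
    linear_combination this
  rw [hfin]
  exact Ideal.mem_span_pair.2 ⟨t, t', rfl⟩

/-- No linear syzygies. -/
def NoSyz (g1 g2 : Poly K) : Prop :=
  ∀ p ∈ HS K 1, ∀ q ∈ HS K 1, p * g1 + q * g2 = 0 → p = 0 ∧ q = 0

/-- Linear independence over the ground field. -/
def Indep (g1 g2 : Poly K) : Prop := ∀ r s : K, r • g1 + s • g2 = 0 → r = 0 ∧ s = 0

theorem Indep.ne_left {g1 g2 : Poly K} (h : Indep g1 g2) : g1 ≠ 0 := by
  intro h0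
  have := (h 1 0 (by simp [h0])).1
  exact one_ne_zero this

theorem Indep.ne_right {g1 g2 : Poly K} (h : Indep g1 g2) : g2 ≠ 0 := by
  intro h0
  have := (h 0 1 (by simp [h0])).2
  exact one_ne_zero this

theorem relPrime_of_noSyz {g1 g2 : Poly K} (hg1 : g1.IsHomogeneous 2) (hg2 : g2.IsHomogeneous 2)
    (hi : Indep g1 g2) (hn : NoSyz g1 g2) : IsRelPrime g1 g2 := by
  intro d hd1 hd2
  by_contra hu
  obtain ⟨a, ha⟩ := hd1
  obtain ⟨b, hb⟩ := hd2
  have hg10 := hi.ne_left
  have hd0 : d ≠ 0 := fun h0 => hg10 (by rw [ha, h0, zero_mul])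
  have ha0 : a ≠ 0 := fun h0 => hg10 (by rw [ha, h0, mul_zero])
  have hdeg : 1 ≤ d.totalDegree := by
    by_contra hlt
    have hd00 : d.totalDegree = 0 := by omega
    rw [totalDegree_eq_zero_iff_eq_C] at hd00
    apply hu
    rw [hd00] at hd0 ⊢
    have : coeff 0 d ≠ 0 := fun h => hd0 (by rw [h, C_0])
    exact (isUnit_iff_ne_zero.2 this).map C
  have hdega : a.totalDegree ≤ 1 := by
    have e1 := hg1.totalDegree hg10
    rw [ha, totalDegree_mul_of_isDomain hd0 ha0] at e1
    omega
  have e : b * g1 + (-a) * g2 = 0 := by rw [ha, hb]; ring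
  have e1 : homogeneousComponent 1 b * g1 + homogeneousComponent 1 (-a) * g2 = 0 := by
    have := congrArg (homogeneousComponent (1 + 2)) e
    rwa [map_add, comp_mul_add hg1, comp_mul_add hg2, map_zero] at this
  have e0 : homogeneousComponent 0 b * g1 + homogeneousComponent 0 (-a) * g2 = 0 := by
    have := congrArg (homogeneousComponent (0 + 2)) e
    rwa [map_add, comp_mul_add hg1, comp_mul_add hg2, map_zero] at this
  obtain ⟨_, h1⟩ := hn _ (homogeneousComponent_isHomogeneous 1 b) _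
    (homogeneousComponent_isHomogeneous 1 (-a)) e1
  have e0' : (coeff 0 b) • g1 + (coeff 0 (-a)) • g2 = 0 := by
    rw [smul_eq_C_mul, smul_eq_C_mul, ← homogeneousComponent_zero, ← homogeneousComponent_zero]
    exact e0
  obtain ⟨_, h0⟩ := hi _ _ e0'
  apply ha0
  rw [← sum_homogeneousComponent a]
  apply Finset.sum_eq_zero
  intro i hi'
  have hi2 : i = 0 ∨ i = 1 := by
    have := Finset.mem_range.1 hi'
    omega
  rcases hi2 with rfl | rfl
  · have : homogeneousComponent 0 (-a) = 0 := by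
      rw [homogeneousComponent_zero, h0, C_0]
    rw [map_neg, neg_eq_zero] at this
    exact this
  · rw [map_neg, neg_eq_zero] at h1
    exact h1

/-- Structure of a linear syzygy between independent quadrics. -/
theorem syz_structure {g g' a b : Poly K} (hg' : g'.IsHomogeneous 2)
    (hi : Indep g g') (ha : a ∈ HS K 1) (hb : b ∈ HS K 1) (hne : ¬ (a = 0 ∧ b = 0))
    (e : a * g + b * g' = 0) :
    ∃ h p q : Poly K, h ∈ HS K 1 ∧ h ≠ 0 ∧ p ∈ HS K 1 ∧ q ∈ HS K 1 ∧ g = p * h ∧ g' = q * h := by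
  have hg0 := hi.ne_left
  have hg'0 := hi.ne_right
  have ha0 : a ≠ 0 := by
    intro h0
    rw [h0, zero_mul, zero_add] at e
    exact hne ⟨h0, (mul_eq_zero.1 e).resolve_right hg'0⟩
  have hp := linear_prime ha ha0
  have hd : a ∣ b * g' := ⟨-g, by linear_combination e⟩
  rcases hp.dvd_or_dvd hd with hdb | hdg
  · obtain ⟨c, hc⟩ := linear_dvd_linear ha hb hdb
    exfalso
    have : a * (g + C c * g') = 0 := by
      rw [hc] at e
      linear_combination e
    have h1 := (mul_eq_zero.1 this).resolve_left ha0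
    have := (hi 1 c (by rw [one_smul, smul_eq_C_mul]; exact h1)).1
    exact one_ne_zero this
  · obtain ⟨r, hr⟩ := hdg
    have hr' := homog_cofactor (n := 1) (m := 1) ha hg' hr
    set h := homogeneousComponent 1 r with hh
    have hh0 : h ≠ 0 := by
      intro h0
      rw [h0, mul_zero] at hr'
      exact hg'0 hr'
    refine ⟨h, -b, a, homogeneousComponent_isHomogeneous 1 r, hh0, Submodule.neg_mem _ hb, ha,
      ?_, hr'⟩
    have : a * (g + b * h) = 0 := by
      rw [hr'] at e
      linear_combination e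
    have := (mul_eq_zero.1 this).resolve_left ha0
    linear_combination this

theorem le_or_le_of_forall_mem {U A B : Submodule K (Poly K)} (h : ∀ x ∈ U, x ∈ A ∨ x ∈ B) :
    U ≤ A ∨ U ≤ B := by
  by_contra hcon
  push Not at hcon
  obtain ⟨hA, hB⟩ := hcon
  obtain ⟨a, ha, ha'⟩ := SetLike.not_le_iff_exists.1 hA
  obtain ⟨b, hb, hb'⟩ := SetLike.not_le_iff_exists.1 hB
  have ha2 : a ∈ B := (h a ha).resolve_left ha'
  have hb2 : b ∈ A := (h b hb).resolve_right hb'
  rcases h (a + b) (U.add_mem ha hb) with h3 | h3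
  · exact ha' (by simpa using A.sub_mem h3 hb2)
  · exact hb' (by simpa using B.sub_mem h3 ha2)

theorem mem_span_singleton_mul_HS {h g : Poly K} {d : ℕ} :
    g ∈ Submodule.span K {h} * HS K d ↔ ∃ r ∈ HS K d, g = h * r := by
  rw [Submodule.mem_span_singleton_mul]
  constructor
  · rintro ⟨r, hr, rfl⟩
    exact ⟨r, hr, rfl⟩
  · rintro ⟨r, hr, rfl⟩
    exact ⟨r, hr, rfl⟩

/-- Dichotomy for a space of quadrics of dimension at least two. -/
theorem dichotomy {U : Submodule K (Poly K)} (hU : U ≤ HS K 2) (hdim : 2 ≤ finrank K U) :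
    (∃ g1 ∈ U, ∃ g2 ∈ U, Indep g1 g2 ∧ NoSyz g1 g2) ∨
      ∃ h ∈ HS K 1, h ≠ 0 ∧ U ≤ Submodule.span K {h} * HS K 1 := by
  have hfinU := finite_of_le_HS hU
  by_cases hgood : ∃ g1 ∈ U, ∃ g2 ∈ U, Indep g1 g2 ∧ NoSyz g1 g2
  · exact Or.inl hgood
  right
  push Not at hgood
  have hbot : U ≠ ⊥ := by
    intro h0
    rw [h0, finrank_bot] at hdim
    omega
  obtain ⟨g1, hg1, hg10⟩ := Submodule.exists_mem_ne_zero_of_ne_bot hbot
  -- a second element independent of `g1`
  have indep_of_not_mem : ∀ g ∈ U, g ∉ Submodule.span K {g1} → Indep g1 g := by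
    intro g _ hg r s e
    by_cases hs : s = 0
    · subst hs
      rw [zero_smul, add_zero, smul_eq_zero] at e
      exact ⟨e.resolve_right hg10, rfl⟩
    · exfalso
      apply hg
      rw [Submodule.mem_span_singleton]
      refine ⟨- (r / s), ?_⟩
      have h1 : s • g = - (r • g1) := by linear_combination (exp := 1) e
      have h2 : g = s⁻¹ • (- (r • g1)) := by
        rw [← h1, smul_smul, inv_mul_cancel₀ hs, one_smul]
      rw [h2, smul_neg, smul_smul, neg_smul]
      congr 2
      field_simp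
  have hspan : Submodule.span K {g1} < U := by
    refine lt_of_le_of_ne ((Submodule.span_singleton_le_iff_mem _ _).2 hg1) ?_
    intro he
    rw [← he, finrank_span_singleton hg10] at hdim
    omega
  obtain ⟨g2, hg2, hg2'⟩ := SetLike.exists_of_lt hspan
  have hi12 := indep_of_not_mem g2 hg2 hg2'
  have syz : ∀ g ∈ U, Indep g1 g → ∃ h p q : Poly K, h ∈ HS K 1 ∧ h ≠ 0 ∧ p ∈ HS K 1 ∧
      q ∈ HS K 1 ∧ g1 = p * h ∧ g = q * h := by
    intro g hg hi
    have := hgood g1 hg1 g hg hi
    unfold NoSyz at this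
    push Not at this
    obtain ⟨a, ha, b, hb, e, hne⟩ := this
    exact syz_structure (hU hg) hi ha hb (fun ⟨h1, h2⟩ => hne h1 h2) e
  obtain ⟨h, p, q, hh, hh0, hp, _, e1, _⟩ := syz g2 hg2 hi12
  have hp0 : p ≠ 0 := fun h0 => hg10 (by rw [e1, h0, zero_mul])
  have hprime := linear_prime hp hp0
  have hall : ∀ g ∈ U, g ∈ Submodule.span K {p} * HS K 1 ∨ g ∈ Submodule.span K {h} * HS K 1 := by
    intro g hg
    simp only [mem_span_singleton_mul_HS]
    by_cases hgs : g ∈ Submodule.span K {g1}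
    · left
      obtain ⟨c, rfl⟩ := Submodule.mem_span_singleton.1 hgs
      refine ⟨c • h, Submodule.smul_mem _ _ hh, ?_⟩
      rw [e1, smul_eq_C_mul, smul_eq_C_mul]
      ring
    · obtain ⟨h', p', q', hh', hh'0, hp', hq', e1', e2'⟩ := syz g hg (indep_of_not_mem g hg hgs)
      have hd : p ∣ p' * h' := ⟨h, by rw [← e1', e1]⟩
      rcases hprime.dvd_or_dvd hd with hdp | hdh
      · right
        obtain ⟨c, hc⟩ := linear_dvd_linear hp hp' hdp
        -- `p * h = c * p * h'`
        have hc0 : c ≠ 0 := by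
          intro h0
          apply hg10
          rw [e1', hc, h0, C_0]
          ring
        have hhh : h = C c * h' := by
          have : p * (h - C c * h') = 0 := by
            have h3 : p * h = p' * h' := by rw [← e1, e1']
            rw [hc] at h3
            linear_combination h3
          have := (mul_eq_zero.1 this).resolve_left hp0
          linear_combination this
        refine ⟨c⁻¹ • q', Submodule.smul_mem _ _ hq', ?_⟩
        rw [e2', hhh, smul_eq_C_mul]
        have hCc : (C c⁻¹ : Poly K) * C c = 1 := by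
          rw [← C_mul, inv_mul_cancel₀ hc0, C_1]
        linear_combination (- q' * h') * hCc
      · left
        obtain ⟨c, hc⟩ := linear_dvd_linear hp hh' hdh
        refine ⟨c • q', Submodule.smul_mem _ _ hq', ?_⟩
        rw [e2', hc, smul_eq_C_mul]
        ring
  rcases le_or_le_of_forall_mem hall with hle | hle
  · exact ⟨p, hp, hp0, hle⟩
  · exact ⟨h, hh, hh0, hle⟩

end Vale.Agent.Lib.P200
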