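import Vale.Agent.Lib.P200.Dims

/-!
Products of subspaces, linear forms, dimension counts for pairs.
-/

namespace Vale.Agent.Lib.P200
open MvPolynomial Module

variable {K : Type*} [Field K]

theorem HS_mul (m n : ℕ) : HS K m * HS K n = HS K (m + n) := by
  have e : ∀ j, HS K j = (HS K 1) ^ j := fun j => (homogeneousSubmodule_one_pow K j).symm
  rw [e m, e n, e (m + n), pow_add]

theorem HS_zero : HS K 0 = 1 := homogeneousSubmodule_zero (Fin 3)

theorem finite_mul_span_singleton {W : Submodule K (Poly K)} {d e : ℕ} (hW : W ≤ HS K d)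
    (a : Poly K) (ha : a.IsHomogeneous e) : Submodule.span K {a} * W ≤ HS K (e + d) := by
  rw [Submodule.mul_le]
  intro m hm n hn
  obtain ⟨c, rfl⟩ := Submodule.mem_span_singleton.1 hm
  rw [smul_mul_assoc]
  exact Submodule.smul_mem _ _ (ha.mul (hW hn))

theorem mul_le_HS {W W' : Submodule K (Poly K)} {d e : ℕ} (hW : W ≤ HS K d) (hW' : W' ≤ HS K e) :
    W * W' ≤ HS K (d + e) := by
  rw [← HS_mul]
  exact mul_le_mul' hW hW'

/-- Multiplication by a fixed element as a linear map. -/
theorem span_singleton_mul_eq_map (a : Poly K) (W : Submodule K (Poly K)) :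
    Submodule.span K {a} * W = W.map (LinearMap.mulLeft K a) := by
  ext x
  rw [Submodule.mem_span_singleton_mul, Submodule.mem_map]
  rfl

theorem mulLeft_inj {a : Poly K} (ha : a ≠ 0) : Function.Injective (LinearMap.mulLeft K a) :=
  fun x y e => mul_left_cancel₀ ha (by simpa using e)

theorem finrank_span_singleton_mul {a : Poly K} (ha : a ≠ 0) (W : Submodule K (Poly K)) :
    finrank K (Submodule.span K {a} * W : Submodule K (Poly K)) = finrank K W := by
  rw [span_singleton_mul_eq_map]
  exact (Submodule.equivMapOfInjective _ (mulLeft_inj ha) W).finrank_eq.symm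

theorem finrank_span_singleton_mul_le (a : Poly K) {W : Submodule K (Poly K)} {d : ℕ}
    (hW : W ≤ HS K d) :
    finrank K (Submodule.span K {a} * W : Submodule K (Poly K)) ≤ finrank K W := by
  rw [span_singleton_mul_eq_map]
  have := finite_of_le_HS hW
  exact Submodule.finrank_map_le _ _

/-! ### Linear forms -/

theorem linear_irreducible {l : Poly K} (hl : l.IsHomogeneous 1) (h0 : l ≠ 0) : Irreducible l := by
  have hdeg : l.totalDegree = 1 := hl.totalDegree h0
  refine ⟨?_, ?_⟩
  · intro hu
    have := (MvPolynomial.isUnit_iff_totalDegree_of_isReduced.1 hu).2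
    omega
  · intro a b hab
    subst hab
    have ha : a ≠ 0 := left_ne_zero_of_mul h0
    have hb : b ≠ 0 := right_ne_zero_of_mul h0
    rw [totalDegree_mul_of_isDomain ha hb] at hdeg
    have key : ∀ c : Poly K, c ≠ 0 → c.totalDegree = 0 → IsUnit c := by
      intro c hc hc0
      rw [totalDegree_eq_zero_iff_eq_C] at hc0
      rw [hc0] at hc ⊢
      have : coeff 0 c ≠ 0 := fun h => hc (by rw [h, C_0])
      exact (isUnit_iff_ne_zero.2 this).map C
    rcases (by omega : a.totalDegree = 0 ∨ b.totalDegree = 0) with h | h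
    · exact Or.inl (key a ha h)
    · exact Or.inr (key b hb h)

theorem linear_prime {l : Poly K} (hl : l.IsHomogeneous 1) (h0 : l ≠ 0) : Prime l :=
  (linear_irreducible hl h0).prime

/-- A factorisation of a homogeneous form by a homogeneous form has a homogeneous cofactor. -/
theorem homog_cofactor {a g r : Poly K} {m n : ℕ} (ha : a.IsHomogeneous m)
    (hg : g.IsHomogeneous (n + m)) (e : g = a * r) :
    g = a * homogeneousComponent n r := by
  have := comp_mul_add ha r n
  rw [mul_comm r a, ← e, homogeneousComponent_eq_self hg] at this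
  rw [this, mul_comm]

theorem const_of_homog_zero {c : Poly K} (h : c.IsHomogeneous 0) : c = C (coeff 0 c) := by
  have := homogeneousComponent_zero (φ := c)
  rwa [homogeneousComponent_eq_self h] at this

/-- If a linear form divides a linear form then they are proportional. -/
theorem linear_dvd_linear {l l' : Poly K} (hl : l.IsHomogeneous 1)
    (hl' : l'.IsHomogeneous 1) (hd : l ∣ l') : ∃ c : K, l' = C c * l := by
  obtain ⟨r, hr⟩ := hd
  have := homog_cofactor (n := 0) hl hl' hr
  rw [const_of_homog_zero (homogeneousComponent_isHomogeneous 0 r)] at this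
  exact ⟨_, by rw [this]; ring⟩

/-! ### Sums of two multiples -/

/-- Map sending two forms of degree `k` to their combination. -/
noncomputable def pairMap (k : ℕ) (a b : Poly K) : (HS K k × HS K k) →ₗ[K] Poly K :=
  (LinearMap.mulRight K a) ∘ₗ (HS K k).subtype ∘ₗ LinearMap.fst K _ _ +
    (LinearMap.mulRight K b) ∘ₗ (HS K k).subtype ∘ₗ LinearMap.snd K _ _

theorem pairMap_apply (k : ℕ) (a b : Poly K) (p : HS K k × HS K k) :
    pairMap k a b p = (p.1 : Poly K) * a + p.2 * b := by
  simp [pairMap]

theorem mem_mul_span_pair {W : Submodule K (Poly K)} {a b x : Poly K} :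
    x ∈ W * Submodule.span K {a, b} ↔ ∃ p ∈ W, ∃ q ∈ W, p * a + q * b = x := by
  rw [Submodule.span_insert, Submodule.mul_sup, Submodule.mem_sup]
  simp only [Submodule.mem_mul_span_singleton]
  constructor
  · rintro ⟨_, ⟨p, hp, rfl⟩, _, ⟨q, hq, rfl⟩, rfl⟩
    exact ⟨p, hp, q, hq, rfl⟩
  · rintro ⟨p, hp, q, hq, rfl⟩
    exact ⟨_, ⟨p, hp, rfl⟩, _, ⟨q, hq, rfl⟩, rfl⟩

theorem range_pairMap (k : ℕ) (a b : Poly K) :
    LinearMap.range (pairMap k a b) = HS K k * Submodule.span K {a, b} := by
  ext x
  rw [mem_mul_span_pair, LinearMap.mem_range]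
  constructor
  · rintro ⟨p, rfl⟩
    exact ⟨p.1, p.1.2, p.2, p.2.2, (pairMap_apply k a b p).symm⟩
  · rintro ⟨p, hp, q, hq, rfl⟩
    exact ⟨(⟨p, hp⟩, ⟨q, hq⟩), pairMap_apply k a b _⟩

theorem finrank_pair_add_ker (k : ℕ) (a b : Poly K) :
    finrank K (HS K k * Submodule.span K {a, b} : Submodule K (Poly K)) +
      finrank K (LinearMap.ker (pairMap k a b)) = 2 * T k := by
  rw [← range_pairMap, LinearMap.finrank_range_add_finrank_ker, Module.finrank_prod, finrank_HS]
  ring

/-- If there are no syzygies in degree `k` the dimension is as large as possible. -/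
theorem finrank_pair_of_inj {k : ℕ} {a b : Poly K}
    (hinj : ∀ p ∈ HS K k, ∀ q ∈ HS K k, p * a + q * b = 0 → p = 0 ∧ q = 0) :
    finrank K (HS K k * Submodule.span K {a, b} : Submodule K (Poly K)) = 2 * T k := by
  have e := finrank_pair_add_ker k a b
  have : LinearMap.ker (pairMap k a b) = ⊥ := by
    rw [LinearMap.ker_eq_bot']
    intro p hp
    rw [pairMap_apply] at hp
    obtain ⟨h1, h2⟩ := hinj _ p.1.2 _ p.2.2 hp
    exact Prod.ext (Subtype.ext h1) (Subtype.ext h2)
  rw [this, finrank_bot] at e
  omega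

/-- The Koszul syzygies bound the dimension from above. -/
theorem finrank_pair_koszul {a b : Poly K} (ha : a.IsHomogeneous 2) (hb : b.IsHomogeneous 2)
    (ha0 : a ≠ 0) :
    finrank K (HS K 5 * Submodule.span K {a, b} : Submodule K (Poly K)) ≤ 32 := by
  have e := finrank_pair_add_ker 5 a b
  -- the Koszul map
  let ι : HS K 3 →ₗ[K] (HS K 5 × HS K 5) :=
    { toFun := fun c => (⟨(c : Poly K) * b, c.2.mul hb⟩, ⟨-((c : Poly K) * a), (c.2.mul ha).neg⟩)
      map_add' := by
        intro x y
        apply Prod.ext <;> apply Subtype.ext <;> simp <;> ring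
      map_smul' := by
        intro r x
        apply Prod.ext <;> apply Subtype.ext <;> simp }
  have hι : Function.Injective ι := by
    intro x y hxy
    have := congrArg (fun p => (p.2 : Poly K)) hxy
    simp only [ι, LinearMap.coe_mk, AddHom.coe_mk, neg_inj] at this
    exact Subtype.ext (mul_right_cancel₀ ha0 this)
  have hle : LinearMap.range ι ≤ LinearMap.ker (pairMap 5 a b) := by
    rintro _ ⟨c, rfl⟩
    rw [LinearMap.mem_ker, pairMap_apply]
    simp [ι]
    ring
  have h10 : finrank K (LinearMap.range ι) = 10 := by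
    rw [LinearMap.finrank_range_of_inj hι, finrank_HS]
    decide
  have hk : 10 ≤ finrank K (LinearMap.ker (pairMap 5 a b)) := by
    rw [← h10]
    exact Submodule.finrank_mono hle
  have h2 : T 5 = 21 := by decide
  omega

end Vale.Agent.Lib.P200
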