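import Vale.Agent.Lib.P200.Growth

/-!
From weakly regular sequences to the equational form.
-/

namespace Vale.Agent.Lib.P200
open MvPolynomial Module RingTheory.Sequence

theorem regTriple_of_weaklyRegular {R : Type*} [CommRing R] [IsDomain R] {a b c : R}
    (h : IsWeaklyRegular R [a, b, c]) : RegTriple a b c := by
  have h0 := h.regular_mod_prev 0 (by simp)
  have h1 := h.regular_mod_prev 1 (by simp)
  have h2 := h.regular_mod_prev 2 (by simp)
  have key : ∀ (I : Ideal R) (x p : R), IsSMulRegular (R ⧸ (I • ⊤ : Submodule R R)) x →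
      p * x ∈ I → p ∈ I := by
    intro I x p hreg hm
    have hI : (I • ⊤ : Submodule R R) = I := by
      rw [smul_eq_mul, Ideal.mul_top]
    have e1 : x • (Submodule.Quotient.mk p : R ⧸ (I • ⊤ : Submodule R R)) = x • 0 := by
      rw [smul_zero, ← Submodule.Quotient.mk_smul, Submodule.Quotient.mk_eq_zero, hI, smul_eq_mul,
        mul_comm]
      exact hm
    have e2 := hreg e1
    rw [Submodule.Quotient.mk_eq_zero, hI] at e2
    exact e2
  refine ⟨?_, ?_, ?_⟩
  · intro ha
    subst ha
    have := key (Ideal.ofList []) 0 1 h0 (by simp)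
    simp at this
  · intro p q e
    have := key (Ideal.ofList [a]) b p h1
      (by rw [Ideal.ofList_singleton, e]; exact Ideal.mul_mem_left _ _ (Ideal.mem_span_singleton_self a))
    rw [Ideal.ofList_singleton] at this
    obtain ⟨r, hr⟩ := Ideal.mem_span_singleton.1 this
    exact ⟨r, by rw [hr]; ring⟩
  · intro p α β e
    have hof : Ideal.ofList [a, b] = Ideal.span {a, b} := by
      simp [Ideal.ofList_cons, Ideal.ofList_singleton, Ideal.span_insert]
    have := key (Ideal.ofList [a, b]) c p h2
      (by rw [hof, e]; exact Ideal.mem_span_pair.2 ⟨α, β, rfl⟩)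
    rw [hof] at this
    obtain ⟨r, s, hrs⟩ := Ideal.mem_span_pair.1 this
    exact ⟨r, s, hrs.symm⟩

end Vale.Agent.Lib.P200
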